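import Crest.Agent.R217.ADefs

/-! Row 217, part A1: basic facts on `Reg`, `Null`, `Rel` (pure non-commutative algebra;
`noncomm_ring`, `star_mul`, `Matrix.ext`/`fin_cases`). -/

set_option autoImplicit false
set_option linter.unusedSectionVars false

namespace Crest.Agent.R217

variable {R : Type*} [Ring R] [StarRing R] [Algebra ℂ R] [StarModule ℂ R]

omit [Algebra ℂ R] [StarModule ℂ R] in
theorem a1_star (a b c d : R) : star (!![a, b; c, d] : Matrix (Fin 2) (Fin 2) R) =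
    !![star a, star c; star b, star d] := by
  ext i j
  fin_cases i <;> fin_cases j <;> rfl

omit [StarRing R] [Algebra ℂ R] [StarModule ℂ R] in
theorem a1_corner {χ φ : R} (hχ : χ * χ = χ) (h : χ * φ * χ = φ) : χ * φ = φ ∧ φ * χ = φ :=
  ⟨by rw [← h, ← mul_assoc, ← mul_assoc, hχ], by rw [← h, mul_assoc, hχ]⟩

omit [StarRing R] [Algebra ℂ R] [StarModule ℂ R] in
theorem a1_corner' {χ φ : R} (hχ : χ * χ = χ) (h : (1 - χ) * φ * (1 - χ) = φ) :
    χ * φ = 0 ∧ φ * χ = 0 :=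
  ⟨by rw [← h, ← mul_assoc, ← mul_assoc, mul_sub χ 1 χ, mul_one, hχ, sub_self, zero_mul, zero_mul],
    by rw [← h, mul_assoc, sub_mul 1 χ χ, one_mul, hχ, sub_self, mul_zero]⟩

/-- `ψ' = ½ (ψ + ψ⋆)` -/
theorem Reg.exists_ginv {φ : R} (h : Reg φ) : ∃ ψ, Ginv φ ψ := by
  obtain ⟨h1, ψ, h2⟩ := h
  have h3 := congrArg star h2
  simp only [star_mul, h1] at h3
  refine ⟨star ψ * φ * ψ, h1, by simp only [star_mul, star_star, h1, mul_assoc], ?_⟩
  linear_combination (norm := noncomm_ring) h3 * (ψ * φ) + h2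

theorem Reg.ginv {φ : R} (h : Reg φ) : Ginv φ (ginv φ) := by
  have h1 := h.exists_ginv
  rw [R217.ginv, dif_pos h1]
  exact h1.choose_spec

theorem Ginv.reg {φ ψ : R} (h : Ginv φ ψ) : Reg φ := by
  exact ⟨h.1, ψ, h.2.2⟩

theorem Inv.star_inv {Φ Ψ : R} (h : Inv Φ Ψ) : star Ψ = Ψ := by
  have h1 := congrArg star h.2.1
  rw [star_mul, h.1, star_one] at h1
  rw [← mul_one (star Ψ), ← h.2.1, ← mul_assoc, h1, one_mul]

theorem Inv.ginv {Φ Ψ : R} (h : Inv Φ Ψ) : Ginv Φ Ψ := by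
  exact ⟨h.1, h.star_inv, by rw [h.2.1, one_mul]⟩

theorem Inv.reg {Φ Ψ : R} (h : Inv Φ Ψ) : Reg Φ := by
  exact h.ginv.reg

theorem Reg.neg {φ : R} (h : Reg φ) : Reg (-φ) := by
  obtain ⟨h1, ψ, h2⟩ := h
  exact ⟨by rw [star_neg, h1], -ψ, by rw [neg_mul_neg, mul_neg, h2]⟩

theorem Ginv.neg {φ ψ : R} (h : Ginv φ ψ) : Ginv (-φ) (-ψ) := by
  exact ⟨by rw [star_neg, h.1], by rw [star_neg, h.2.1], by rw [neg_mul_neg, mul_neg, h.2.2]⟩

theorem reg_zero : Reg (0 : R) := by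
  exact ⟨star_zero R, 0, by simp⟩

theorem null_zero : Null (0 : R) := by
  exact ⟨0, by simp, by simp⟩

theorem Reg.iso {φ u v : R} (h : Reg φ) (h1 : u * v = 1) (h2 : v * u = 1) :
    Reg (star u * φ * u) := by
  obtain ⟨h3, ψ, h4⟩ := h
  have h5 := congrArg star h1
  rw [star_mul, star_one] at h5
  refine ⟨by simp only [star_mul, star_star, h3, mul_assoc], v * ψ * star v, ?_⟩
  linear_combination (norm := noncomm_ring) star u * φ * h1 * (ψ * star v * star u * φ * u) +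
    star u * φ * ψ * h5 * (φ * u) + star u * h4 * u

theorem Inv.iso {Φ Ψ u v : R} (h : Inv Φ Ψ) (h1 : u * v = 1) (h2 : v * u = 1) :
    Inv (star u * Φ * u) (v * Ψ * star v) := by
  have h5 := congrArg star h1
  have h6 := congrArg star h2
  rw [star_mul, star_one] at h5 h6
  refine ⟨by simp only [star_mul, star_star, h.1, mul_assoc], ?_, ?_⟩
  · linear_combination (norm := noncomm_ring) star u * Φ * h1 * (Ψ * star v) +
      star u * h.2.1 * star v + h6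
  · linear_combination (norm := noncomm_ring) v * Ψ * h5 * (Φ * u) + v * h.2.2 * u + h2

theorem Reg.diag {φ φ' : R} (h : Reg φ) (h' : Reg φ') :
    Reg (!![φ, 0; 0, φ'] : Matrix (Fin 2) (Fin 2) R) := by
  obtain ⟨h1, ψ, h2⟩ := h
  obtain ⟨h1', ψ', h2'⟩ := h'
  exact ⟨by rw [a1_star, h1, h1', star_zero], !![ψ, 0; 0, ψ'], by simp [h2, h2']⟩

/-- a diagonal-type Lagrangian: `e` a self-adjoint idempotent with `e φ e = 0 = (1-e) φ (1-e)` -/
theorem null_of_proj {φ e : R} (he : star e = e) (hee : e * e = e) (h1 : e * φ * e = 0)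
    (h2 : (1 - e) * φ * (1 - e) = 0) : Null φ := by
  refine ⟨e, by rw [he, h1], ?_⟩
  rw [he]
  linear_combination (norm := noncomm_ring) h2 - h1

/-- Lagrangian `im i`.  Proof: put `e₀ = i t`, `m = 1 - e₀`; then `φ m = φ w i⋆ φ`, hence
`m⋆ φ m = m⋆ φ w i⋆ φ`, and multiplying by `m` once more / taking stars one finds
`m⋆ φ m = φ i κ i⋆ φ` modulo bookkeeping: from `φ m = φ w i⋆φ` and `i⋆ φ m = i⋆ φ` (as `i⋆φ i = 0`)
`m⋆ φ m = (φ i w⋆) φ (w i⋆ φ)`·: indeed `m⋆ φ = φ i w⋆ φ`, so `m⋆ φ m = φ i w⋆ (φ m) = φ i (w⋆ φ w) i⋆ φ`.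
Take `e = i t + ½ i (w⋆ φ w) i⋆ φ`.  Then `e⋆ φ e = 0` (`e = i * _`) and, with `φ = (e₀+m)⋆ φ (e₀+m)`,
`e₀⋆ φ e₀ = 0`: `φ = φ e₀ + e₀⋆ φ + m⋆ φ m = φ e + e⋆ φ`. -/
theorem null_of_data {φ i t w : R} (hφ : star φ = φ) (h0 : star i * φ * i = 0)
    (h : φ = φ * i * t + φ * w * star i * φ) : Null φ := by
  set κ := (1 / 2 : ℂ) • (star w * φ * w) with hκ
  have k1 : star κ = κ := by simp [hκ, hφ, mul_assoc]
  have k2 : κ + κ = star w * φ * w := by rw [hκ, ← add_smul]; norm_num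
  have h' := congrArg star h
  simp only [star_add, star_mul, star_star, hφ] at h'
  refine ⟨i * (t + κ * star i * φ), ?_, ?_⟩
  · rw [star_mul]
    linear_combination (norm := noncomm_ring)
      star (t + κ * star i * φ) * h0 * (t + κ * star i * φ)
  · simp only [star_add, star_mul, star_star, hφ, k1]
    linear_combination (norm := noncomm_ring) h + h' * (w * star i * φ) - star t * star i * h -
      star t * h0 * t - φ * i * k2 * (star i * φ)

/-- `im T` is coisotropic modulo the radical ⇒ restricting the form to it does not change the Witt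
class.  Proof: `φ₂ = T⋆ φ T`, `ψ₂` a self-adjoint generalised inverse with `ψ₂ φ₂ ψ₂ = ψ₂` (replace
`ψ₂` by `ψ₂ φ₂ ψ₂`), `P = ψ₂ T⋆ φ`, `Q = 1 - T P` (idempotent, `φ Q = Q⋆ φ = Q⋆ φ Q`,
`Q⋆ φ T = φ T (1 - ψ₂ φ₂)`, `T⋆ φ Q = (1 - φ₂ ψ₂) T⋆ φ`).  Apply `null_of_data` to
`diag (φ, -φ₂)` with `i = !![T,0;1,0]`, `t = !![t₁,0;0,0]`, `w = !![w₁,0;-ψ₂,0]`,
`t₁ = P + (1 - ψ₂ φ₂) t Q`, `w₁ = Q w (1 - φ₂ ψ₂)`; the (1,1) entry is
`φ Q = Q⋆ (φ T t + φ w T⋆ φ) Q`. -/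
theorem rel_of_T {φ T t w : R} (hφ : star φ = φ) (hT : Reg (star T * φ * T))
    (h : φ = φ * T * t + φ * w * star T * φ) : Rel φ (star T * φ * T) := by
  obtain ⟨hs, ψ0, h0⟩ := hT
  obtain ⟨ψ, h1, h2⟩ : ∃ ψ, star T * φ * T * ψ * (star T * φ * T) = star T * φ * T ∧
      ψ * (star T * φ * T) * ψ = ψ := by
    refine ⟨ψ0 * (star T * φ * T) * ψ0, ?_, ?_⟩
    · linear_combination (norm := noncomm_ring) h0 * (ψ0 * (star T * φ * T)) + h0
    · linear_combination (norm := noncomm_ring) ψ0 * h0 * (ψ0 * (star T * φ * T) * ψ0) +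
        ψ0 * h0 * ψ0
  refine null_of_data (i := !![T, 0; 1, 0])
    (t := !![ψ * star T * φ + (1 - ψ * (star T * φ * T)) * t * (1 - T * ψ * star T * φ), 0; 0, 0])
    (w := !![(1 - T * ψ * star T * φ) * w * (1 - star T * φ * T * ψ), 0; -ψ, 0])
    (by rw [a1_star, star_neg, hφ, hs, star_zero]) ?_ ?_
  · rw [a1_star]
    ext i j
    fin_cases i <;> fin_cases j <;> simp
  · rw [a1_star]
    simp only [Matrix.mul_fin_two, star_one, star_zero, mul_zero, zero_mul,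
      add_zero, zero_add, mul_one]
    ext i j
    fin_cases i <;> fin_cases j <;> simp only [Matrix.add_apply, Matrix.of_apply, Matrix.cons_val',
      Matrix.cons_val_zero, Matrix.cons_val_one, Matrix.cons_val_fin_one, Fin.zero_eta, Fin.mk_one,
      Fin.isValue, add_zero, zero_add]
    · linear_combination (norm := noncomm_ring)
        (1 - φ * T * ψ * star T) * h * (1 - T * ψ * star T * φ) - φ * T * h2 * (star T * φ)
    · linear_combination (norm := noncomm_ring) -(φ * (1 - T * ψ * star T * φ) * w * h1)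
    · linear_combination (norm := noncomm_ring) -(h1 * (t * (1 - T * ψ * star T * φ)))
    · linear_combination (norm := noncomm_ring) h1

/-- `rel_of_T` with `t = v`, `w = 0` -/
theorem rel_iso {φ u v : R} (h : Reg φ) (h1 : u * v = 1) (h2 : v * u = 1) :
    Rel φ (star u * φ * u) := by
  exact rel_of_T (t := v) (w := 0) h.1 (h.iso h1 h2) (by rw [mul_assoc φ u, h1]; simp)

/-- compression to a coisotropic submodule; the generalised inverse is `T' Ψ T'⋆`.  With `c = T T'`,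
`q = 1 - c`: `c Ψ c⋆ = Ψ - q Ψ - Ψ q⋆` and `q T = 0`. -/
theorem reg_compress {Φ Ψ T T' : R} (h : Inv Φ Ψ) (hT : T * T' * T = T)
    (hco : (1 - T * T') * Ψ * star (1 - T * T') = 0) : Reg (star T * Φ * T) := by
  have h1 := congrArg star hT
  simp only [star_mul, star_sub, star_one] at h1 hco
  refine ⟨by simp only [star_mul, star_star, h.1, mul_assoc], T' * Ψ * star T', ?_⟩
  linear_combination (norm := noncomm_ring) star T * Φ * hco * (Φ * T) +
    star T * Φ * T * T' * h.2.2 * T + star T * Φ * hT + star T * h.2.1 * (star T' * star T * Φ * T) +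
    h1 * (Φ * T) - star T * h.2.1 * (Φ * T)

/-- nested coisotropic submodules `im T ⊆ im c₁`.  With `c₂ = T T'`, `q = 1 - c₂`:
`Ψ = c₂ Ψ + q Ψ c₂⋆`, so `1 = c₂ + q Ψ c₂⋆ Φ`; for `φ₁ = c₁⋆ Φ c₁` one gets
`φ₁ = φ₁ T (T' c₁) + φ₁ (q Ψ T'⋆) T⋆ φ₁` and `T⋆ φ₁ T = T⋆ Φ T`; use `rel_of_T`, `reg_compress`. -/
theorem rel_nested {Φ Ψ c₁ T T' : R} (h : Inv Φ Ψ) (hc : c₁ * c₁ = c₁) (h1 : c₁ * T = T)
    (hT : T * T' * T = T) (hco : (1 - T * T') * Ψ * star (1 - T * T') = 0) :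
    Rel (star c₁ * Φ * c₁) (star T * Φ * T) := by
  have h2 := congrArg star h1
  rw [star_mul] at h2
  have e : star T * (star c₁ * Φ * c₁) * T = star T * Φ * T := by
    linear_combination (norm := noncomm_ring) h2 * (Φ * c₁ * T) + star T * Φ * h1
  have hr := reg_compress h hT hco
  rw [← e] at hr ⊢
  simp only [star_mul, star_sub, star_one] at hco
  refine rel_of_T (t := T' * c₁) (w := (1 - T * T') * Ψ * star T')
    (by simp only [star_mul, star_star, h.1, mul_assoc]) hr ?_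
  linear_combination (norm := noncomm_ring)
    star c₁ * Φ * c₁ * hco * (Φ * c₁) - star c₁ * Φ * c₁ * (1 - T * T') * h.2.2 * c₁ -
    star c₁ * Φ * hc - star c₁ * Φ * c₁ * (1 - T * T') * Ψ * star T' * h2 * (Φ * c₁)

/-- orthogonal summands of a regular form are regular (`ψ₁ = χ ψ χ`) -/
theorem Reg.left_of_add {φ₁ φ₂ χ : R} (hχ : star χ = χ) (hχχ : χ * χ = χ)
    (h1 : χ * φ₁ * χ = φ₁) (h2 : (1 - χ) * φ₂ * (1 - χ) = φ₂) (h : Reg (φ₁ + φ₂)) : Reg φ₁ := by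
  obtain ⟨a1, a2⟩ := a1_corner hχχ h1
  obtain ⟨b1, b2⟩ := a1_corner' hχχ h2
  obtain ⟨h3, ψ, h4⟩ := h
  have c1 : χ * (φ₁ + φ₂) = φ₁ := by rw [mul_add, a1, b1, add_zero]
  have c2 : (φ₁ + φ₂) * χ = φ₁ := by rw [add_mul, a2, b2, add_zero]
  refine ⟨by rw [← c1, star_mul, h3, hχ, c1, c2], ψ, ?_⟩
  linear_combination (norm := noncomm_ring) χ * h4 * χ - c1 * (ψ * (φ₁ + φ₂) * χ) -
    φ₁ * ψ * c2 + c1 * χ + a2

theorem Reg.add_orth {φ₁ φ₂ χ : R} (hχ : star χ = χ) (hχχ : χ * χ = χ)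
    (h1 : χ * φ₁ * χ = φ₁) (h2 : (1 - χ) * φ₂ * (1 - χ) = φ₂) (r1 : Reg φ₁) (r2 : Reg φ₂) :
    Reg (φ₁ + φ₂) := by
  obtain ⟨a1, a2⟩ := a1_corner hχχ h1
  obtain ⟨b1, b2⟩ := a1_corner' hχχ h2
  obtain ⟨h3, ψ₁, h4⟩ := r1
  obtain ⟨h5, ψ₂, h6⟩ := r2
  have c1 : χ * (φ₁ + φ₂) = φ₁ := by rw [mul_add, a1, b1, add_zero]
  have c2 : (φ₁ + φ₂) * χ = φ₁ := by rw [add_mul, a2, b2, add_zero]
  have c3 : (1 - χ) * (φ₁ + φ₂) = φ₂ := by rw [sub_mul, c1, one_mul, add_sub_cancel_left]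
  have c4 : (φ₁ + φ₂) * (1 - χ) = φ₂ := by rw [mul_sub, c2, mul_one, add_sub_cancel_left]
  refine ⟨by rw [star_add, h3, h5], χ * ψ₁ * χ + (1 - χ) * ψ₂ * (1 - χ), ?_⟩
  linear_combination (norm := noncomm_ring) c2 * (ψ₁ * χ * (φ₁ + φ₂)) + φ₁ * ψ₁ * c1 + h4 +
    c4 * (ψ₂ * (1 - χ) * (φ₁ + φ₂)) + φ₂ * ψ₂ * c3 + h6

section Map

variable {R' : Type*} [Ring R'] [StarRing R'] [Algebra ℂ R'] [StarModule ℂ R']

/-- an additive `⋆`-map that is multiplicative on the corner `χ R χ` -/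
structure CornerHom (Θ : R → R') (χ : R) : Prop where
  star_χ : star χ = χ
  idem : χ * χ = χ
  add : ∀ a b, Θ (a + b) = Θ a + Θ b
  star : ∀ a, Θ (star a) = star (Θ a)
  mul : ∀ a b, χ * a * χ = a → χ * b * χ = b → Θ (a * b) = Θ a * Θ b

theorem cornerHom_of_mul {Θ : R → R'} (add : ∀ a b, Θ (a + b) = Θ a + Θ b)
    (hs : ∀ a, Θ (star a) = star (Θ a)) (mul : ∀ a b, Θ (a * b) = Θ a * Θ b) :
    CornerHom Θ 1 := by
  exact ⟨star_one R, one_mul 1, add, hs, fun a b _ _ => mul a b⟩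

theorem CornerHom.zero {Θ : R → R'} {χ : R} (h : CornerHom Θ χ) : Θ 0 = 0 := by
  exact (AddMonoidHom.mk' Θ h.add).map_zero

theorem CornerHom.neg {Θ : R → R'} {χ : R} (h : CornerHom Θ χ) (a : R) : Θ (-a) = -Θ a := by
  exact (AddMonoidHom.mk' Θ h.add).map_neg a

theorem CornerHom.sub {Θ : R → R'} {χ : R} (h : CornerHom Θ χ) (a b : R) :
    Θ (a - b) = Θ a - Θ b := by
  exact (AddMonoidHom.mk' Θ h.add).map_sub a b

omit [Algebra ℂ R] [StarModule ℂ R] [Algebra ℂ R'] [StarModule ℂ R'] in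
theorem CornerHom.mul3 {Θ : R → R'} {χ a b c : R} (h : CornerHom Θ χ) (ha : χ * a * χ = a)
    (hb : χ * b * χ = b) (hc : χ * c * χ = c) : Θ (a * b * c) = Θ a * Θ b * Θ c := by
  rw [h.mul _ _ _ hc, h.mul _ _ ha hb]
  rw [← mul_assoc, (a1_corner h.idem ha).1, mul_assoc, (a1_corner h.idem hb).2]

omit [StarRing R] [Algebra ℂ R] [StarModule ℂ R] in
theorem a1_cut {χ : R} (hχ : χ * χ = χ) (a : R) : χ * (χ * a * χ) * χ = χ * a * χ := by
  rw [← mul_assoc, ← mul_assoc, hχ, mul_assoc, hχ]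

/-- replace `ψ` by `χ ψ χ` -/
theorem CornerHom.reg {Θ : R → R'} {χ φ : R} (h : CornerHom Θ χ) (hφ : χ * φ * χ = φ)
    (r : Reg φ) : Reg (Θ φ) := by
  obtain ⟨h1, ψ, h2⟩ := r
  obtain ⟨a1, a2⟩ := a1_corner h.idem hφ
  refine ⟨by rw [← h.star, h1], Θ (χ * ψ * χ), ?_⟩
  rw [← h.mul3 hφ (a1_cut h.idem ψ) hφ]
  congr 1
  linear_combination (norm := noncomm_ring) a2 * (ψ * χ * φ) + φ * ψ * a1 + h2

/-- replace `e` by `χ e χ` -/
theorem CornerHom.null {Θ : R → R'} {χ φ : R} (h : CornerHom Θ χ) (hφ : χ * φ * χ = φ)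
    (r : Null φ) : Null (Θ φ) := by
  obtain ⟨e, h1, h2⟩ := r
  obtain ⟨a1, a2⟩ := a1_corner h.idem hφ
  have s : Star.star (χ * e * χ) = χ * Star.star e * χ := by
    simp only [star_mul, h.star_χ, mul_assoc]
  refine ⟨Θ (χ * e * χ), ?_, ?_⟩
  · rw [← h.star, s, ← h.mul3 (a1_cut h.idem _) hφ (a1_cut h.idem _), ← h.zero]
    congr 1
    linear_combination (norm := noncomm_ring) χ * Star.star e * a1 * (χ * e * χ) +
      χ * Star.star e * a2 * (e * χ) + χ * h1 * χ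
  · rw [← h.star, s, ← h.mul _ _ hφ (a1_cut h.idem _), ← h.mul _ _ (a1_cut h.idem _) hφ, ← h.add]
    congr 1
    linear_combination (norm := noncomm_ring) χ * h2 * χ - hφ + a1 * (e * χ) - a2 * (e * χ) +
      χ * Star.star e * a2 - χ * Star.star e * a1

theorem CornerHom.matrix {Θ : R → R'} {χ : R} (h : CornerHom Θ χ) {T : Type*} [Fintype T]
    [DecidableEq T] :
    CornerHom (fun A : Matrix T T R => A.map Θ) (Matrix.diagonal fun _ => χ) := by
  refine ⟨?_, by rw [Matrix.diagonal_mul_diagonal, h.idem], fun a b => Matrix.ext fun i j => h.add _ _,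
    fun a => Matrix.ext fun i j => h.star _, fun a b ha hb => Matrix.ext fun i j => ?_⟩
  · rw [Matrix.star_eq_conjTranspose, Matrix.diagonal_conjTranspose]
    congr 1
    funext i
    exact h.star_χ
  · have c : ∀ a : Matrix T T R, (Matrix.diagonal fun _ => χ) * a * (Matrix.diagonal fun _ => χ) = a →
        ∀ i j, χ * a i j * χ = a i j := fun a ha i j => by
      have := congrFun (congrFun ha i) j
      rwa [Matrix.mul_diagonal, Matrix.diagonal_mul] at this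
    rw [Matrix.map_apply, Matrix.mul_apply, Matrix.mul_apply]
    exact (map_sum (AddMonoidHom.mk' Θ h.add) _ _).trans
      (Finset.sum_congr rfl fun k _ => h.mul _ _ (c a ha i k) (c b hb k j))

theorem CornerHom.rel {Θ : R → R'} {χ φ φ' : R} (h : CornerHom Θ χ) (hφ : χ * φ * χ = φ)
    (hφ' : χ * φ' * χ = φ') (r : Rel φ φ') : Rel (Θ φ) (Θ φ') := by
  have h1 := (h.matrix (T := Fin 2)).null (φ := !![φ, 0; 0, -φ']) (by
    ext i j
    rw [Matrix.mul_diagonal, Matrix.diagonal_mul]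
    fin_cases i <;> fin_cases j <;> simp [hφ, hφ']) r
  have e : (!![φ, 0; 0, -φ'] : Matrix (Fin 2) (Fin 2) R).map Θ = !![Θ φ, 0; 0, -Θ φ'] := by
    ext i j
    fin_cases i <;> fin_cases j <;> simp [h.zero, h.neg]
  rwa [e] at h1

omit [Algebra ℂ R] [StarModule ℂ R] [Algebra ℂ R'] [StarModule ℂ R'] in
theorem CornerHom.mul1 {Θ : R → R'} (h : CornerHom Θ 1) (a b : R) : Θ (a * b) = Θ a * Θ b :=
  h.mul a b (by simp) (by simp)

theorem CornerHom.ginv {Θ : R → R'} {φ ψ : R} (h : CornerHom Θ 1) (r : Ginv φ ψ) :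
    Ginv (Θ φ) (Θ ψ) := by
  exact ⟨by rw [← h.star, r.1], by rw [← h.star, r.2.1], by rw [← h.mul1, ← h.mul1, r.2.2]⟩

theorem CornerHom.inv {Θ : R → R'} {Φ Ψ : R} (h : CornerHom Θ 1) (h1 : Θ 1 = 1) (r : Inv Φ Ψ) :
    Inv (Θ Φ) (Θ Ψ) := by
  exact ⟨by rw [← h.star, r.1], by rw [← h.mul1, r.2.1, h1], by rw [← h.mul1, r.2.2, h1]⟩

theorem CornerHom.map_dbl {Θ : R → R'} (h : CornerHom Θ 1) (h1 : Θ 1 = 1) (φ ψ : R) :
    (dbl φ ψ).map Θ = dbl (Θ φ) (Θ ψ) := by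
  ext i j
  fin_cases i <;> fin_cases j <;> simp [dbl, h.mul1, h.sub, h1]

/-- non-unital version: the complement of `Θ 1` carries a hyperbolic plane -/
theorem CornerHom.map_dbl' {Θ : R → R'} (h : CornerHom Θ 1) (φ ψ : R) :
    dbl (Θ φ) (Θ ψ) = (dbl φ ψ).map Θ + !![0, 1 - Θ 1; 1 - Θ 1, 0] := by
  ext i j
  fin_cases i <;> fin_cases j <;> simp [dbl, h.mul1, h.sub]

theorem CornerHom.map_FF {Θ : R → R'} (h : CornerHom Θ 1) (d φ : R) :
    (FF d φ).map Θ = FF (Θ d) (Θ φ) := by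
  ext i j
  fin_cases i <;> fin_cases j <;> simp [FF, h.star, h.zero]

end Map

end Crest.Agent.R217
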