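import Crest.Agent.R217.A1

/-! Row 217, part A2: the invertible double `dbl`. Below `p = ψ φ`, `q = 1 - p`, `ψ̃ = ψ φ ψ`. -/

set_option autoImplicit false
set_option linter.unusedSectionVars false
set_option linter.unusedSimpArgs false

namespace Crest.Agent.R217

variable {R : Type*} [Ring R] [StarRing R] [Algebra ℂ R] [StarModule ℂ R]

section aux

omit [StarRing R] [Algebra ℂ R] [StarModule ℂ R]

theorem a2_ext {a b c d a' b' c' d' : R} (h1 : a = a') (h2 : b = b') (h3 : c = c') (h4 : d = d') :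
    (!![a, b; c, d] : Matrix (Fin 2) (Fin 2) R) = !![a', b'; c', d'] := by
  rw [h1, h2, h3, h4]

theorem a2_add (a b c d a' b' c' d' : R) :
    (!![a, b; c, d] : Matrix (Fin 2) (Fin 2) R) + !![a', b'; c', d'] =
      !![a + a', b + b'; c + c', d + d'] := by
  ext i j
  fin_cases i <;> fin_cases j <;> rfl

theorem a2_sub (a b c d a' b' c' d' : R) :
    (!![a, b; c, d] : Matrix (Fin 2) (Fin 2) R) - !![a', b'; c', d'] =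
      !![a - a', b - b'; c - c', d - d'] := by
  ext i j
  fin_cases i <;> fin_cases j <;> rfl

theorem a2_neg (a b c d : R) :
    -(!![a, b; c, d] : Matrix (Fin 2) (Fin 2) R) = !![-a, -b; -c, -d] := by
  ext i j
  fin_cases i <;> fin_cases j <;> rfl

theorem a2_r2 {a b c : R} (h : a * b = c) (x : R) : a * (b * x) = c * x := by
  rw [← mul_assoc, h]

theorem a2_r3 {a b c d : R} (h : a * b * c = d) : a * (b * c) = d ∧ ∀ x, a * (b * (c * x)) = d * x :=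
  ⟨by rw [← mul_assoc, h], fun x => by rw [← mul_assoc, ← mul_assoc, h]⟩

end aux

theorem dbl_inv {φ ψ : R} (h : Ginv φ ψ) :
    Inv (dbl φ ψ) !![ψ * φ * ψ, 1 - ψ * φ; 1 - φ * ψ, φ] := by
  obtain ⟨h1, h2, h3⟩ := h
  obtain ⟨r1, r2⟩ := a2_r3 h3
  refine ⟨?_, ?_, ?_⟩
  · rw [dbl, a1_star]
    simp only [star_sub, star_mul, star_one, h1, h2, mul_assoc]
  all_goals
    rw [dbl, Matrix.mul_fin_two, Matrix.one_fin_two]
    refine a2_ext ?_ ?_ ?_ ?_ <;>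
      simp only [mul_add, add_mul, mul_sub, sub_mul, mul_assoc, mul_one, one_mul, mul_zero, zero_mul, r1, r2] <;> abel

theorem hyp_inv : Inv (hyp R) (hyp R) := by
  have h : hyp R * hyp R = 1 := by
    rw [hyp, Matrix.mul_fin_two, Matrix.one_fin_two]
    simp
  exact ⟨by rw [hyp, a1_star, star_zero, star_one], h, h⟩

/-- independence of the generalised inverse: `u = diag (p + q', p'⋆ + q⋆)`,
`u⁻¹ = diag (p' + q, p⋆ + q'⋆)` (`p p' = p`, `p' p = p'`, `q q' = q'`, `q' q = q`). -/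
theorem dbl_indep {φ ψ ψ' : R} (h : Ginv φ ψ) (h' : Ginv φ ψ') :
    ∃ u v : Matrix (Fin 2) (Fin 2) R, u * v = 1 ∧ v * u = 1 ∧
      dbl φ ψ' = star u * dbl φ ψ * u := by
  obtain ⟨h1, h2, h3⟩ := h
  obtain ⟨-, h2', h3'⟩ := h'
  obtain ⟨r1, r2⟩ := a2_r3 h3
  obtain ⟨r3, r4⟩ := a2_r3 h3'
  refine ⟨!![ψ * φ + 1 - ψ' * φ, 0; 0, φ * ψ' + 1 - φ * ψ],
    !![ψ' * φ + 1 - ψ * φ, 0; 0, φ * ψ + 1 - φ * ψ'], ?_, ?_, ?_⟩
  rotate_left 2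
  · rw [a1_star, dbl, dbl, Matrix.mul_fin_two, Matrix.mul_fin_two]
    simp only [star_sub, star_add, star_mul, star_one, star_zero, h1, h2, h2']
    refine a2_ext ?_ ?_ ?_ ?_ <;>
      simp only [mul_add, add_mul, mul_sub, sub_mul, mul_assoc, mul_one, one_mul, mul_zero, zero_mul,
        r1, r2, r3, r4] <;> abel
  all_goals
    rw [Matrix.mul_fin_two, Matrix.one_fin_two]
    refine a2_ext ?_ ?_ ?_ ?_ <;>
      simp only [mul_add, add_mul, mul_sub, sub_mul, mul_assoc, mul_one, one_mul, mul_zero, zero_mul,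
        r1, r2, r3, r4] <;> abel

/-- First `φ e e = φ e`, `φ e q = 0`; replace `e` by `p e` (then `e e = e = p e = e p`).  With
`f = p - e`: `φ f = e⋆ φ`, `f⋆ φ = φ e`, `f ψ̃ = ψ̃ e⋆`, `e ψ̃ = ψ̃ f⋆`.  Take
`u = !![e + q, f ψ̃; φ f, φ e ψ̃ + q⋆]`; then `u⋆ dbl u = hyp` and `u hyp u⋆ = dbl⁻¹`, so
`v = hyp u⋆ dbl` is a two-sided inverse. -/
theorem dbl_null {φ ψ : R} (h : Ginv φ ψ) (hn : Null φ) :
    ∃ u v : Matrix (Fin 2) (Fin 2) R, u * v = 1 ∧ v * u = 1 ∧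
      hyp R = star u * dbl φ ψ * u := by
  obtain ⟨h1, h2, h3⟩ := h
  obtain ⟨e, e1, e2⟩ := hn
  obtain ⟨a, k1, k2, k3, k4⟩ : ∃ a : R, star a = φ - a ∧ a * ψ * φ = a ∧ φ * ψ * a = a ∧
      a * ψ * a = a := by
    have k2 : φ * e * ψ * φ = φ * e := by
      linear_combination (norm := noncomm_ring) e2 - e2 * (ψ * φ) + h3 - star e * h3
    refine ⟨φ * e, ?_, k2, by rw [← mul_assoc, h3], ?_⟩
    · rw [star_mul, h1]
      linear_combination (norm := noncomm_ring) -e2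
    · linear_combination (norm := noncomm_ring) k2 * e - e2 * e - e1
  obtain ⟨r1, r2⟩ := a2_r3 h3
  obtain ⟨r3, r4⟩ := a2_r3 k2
  obtain ⟨r5, r6⟩ := a2_r3 k3
  obtain ⟨r7, r8⟩ := a2_r3 k4
  have hu : (!![ψ * a + 1 - ψ * φ, ψ * φ * ψ - ψ * a * ψ; φ - a, a * ψ + 1 - φ * ψ] :
      Matrix (Fin 2) (Fin 2) R) *
      !![ψ * a + 1 - ψ * φ, ψ * φ * ψ - ψ * a * ψ; φ - a, a * ψ + 1 - φ * ψ] = 1 := by
    rw [Matrix.mul_fin_two, Matrix.one_fin_two]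
    refine a2_ext ?_ ?_ ?_ ?_ <;>
      simp only [mul_add, add_mul, mul_sub, sub_mul, mul_assoc, mul_one, one_mul, mul_zero, zero_mul,
        r1, r2, r3, r4, r5, r6, r7, r8] <;> abel
  refine ⟨_, _, hu, hu, ?_⟩
  rw [a1_star, dbl, hyp, Matrix.mul_fin_two, Matrix.mul_fin_two]
  simp only [star_sub, star_add, star_mul, star_one, h1, h2, k1]
  refine a2_ext ?_ ?_ ?_ ?_ <;>
    simp only [mul_add, add_mul, mul_sub, sub_mul, mul_assoc, mul_one, one_mul, mul_zero, zero_mul,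
      r1, r2, r3, r4, r5, r6, r7, r8] <;> abel

theorem dbl_neg (φ ψ : R) :
    dbl (-φ) (-ψ) = -(star (!![1, 0; 0, -1] : Matrix (Fin 2) (Fin 2) R) * dbl φ ψ * !![1, 0; 0, -1]) := by
  rw [a1_star, dbl, dbl, Matrix.mul_fin_two, Matrix.mul_fin_two, a2_neg]
  simp only [star_neg, star_one, star_zero]
  refine a2_ext ?_ ?_ ?_ ?_ <;> noncomm_ring

/-- `rel_of_T` with `T = diag (1, φ)`, `t = diag (1, ψ)`, `w = !![0,0; q⋆,0]` -/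
theorem rel_dbl {φ ψ : R} (h : Ginv φ ψ) :
    Rel (dbl φ ψ) (!![φ, 0; 0, φ] : Matrix (Fin 2) (Fin 2) R) := by
  obtain ⟨r1, r2⟩ := a2_r3 h.2.2
  have e : star (!![1, 0; 0, φ] : Matrix (Fin 2) (Fin 2) R) * dbl φ ψ * !![1, 0; 0, φ] =
      !![φ, 0; 0, φ] := by
    rw [a1_star, dbl, Matrix.mul_fin_two, Matrix.mul_fin_two]
    simp only [star_one, star_zero, h.1]
    refine a2_ext ?_ ?_ ?_ ?_ <;>
      simp only [mul_add, add_mul, mul_sub, sub_mul, mul_assoc, mul_one, one_mul, mul_zero, zero_mul, r1, r2] <;> abel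
  rw [← e]
  refine rel_of_T (t := !![1, 0; 0, ψ]) (w := !![0, 0; 1 - φ * ψ, 0]) (dbl_inv h).1
    (by rw [e]; exact h.reg.diag h.reg) ?_
  rw [a1_star, dbl]
  simp only [Matrix.mul_fin_two, a2_add, star_one, star_zero, h.1]
  refine a2_ext ?_ ?_ ?_ ?_ <;>
    simp only [mul_add, add_mul, mul_sub, sub_mul, mul_assoc, mul_one, one_mul, mul_zero, zero_mul, r1, r2] <;> abel

/-- for invertible `Φ`: `dbl Φ Ψ = diag (Φ, Ψ)`, `u = diag (1, Φ)` -/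
theorem dbl_free {Φ Ψ : R} (h : Inv Φ Ψ) :
    ∃ u v : Matrix (Fin 2) (Fin 2) R, u * v = 1 ∧ v * u = 1 ∧
      (!![Φ, 0; 0, Φ] : Matrix (Fin 2) (Fin 2) R) = star u * dbl Φ Ψ * u := by
  obtain ⟨h1, h2, h3⟩ := h
  refine ⟨!![1, 0; 0, Φ], !![1, 0; 0, Ψ], ?_, ?_, ?_⟩
  · rw [Matrix.mul_fin_two, Matrix.one_fin_two]
    simp [h2]
  · rw [Matrix.mul_fin_two, Matrix.one_fin_two]
    simp [h3]
  · rw [a1_star, dbl, Matrix.mul_fin_two, Matrix.mul_fin_two]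
    simp [h1, h2, h3]

theorem inv_diag {Φ Ψ Φ' Ψ' : R} (h : Inv Φ Ψ) (h' : Inv Φ' Ψ') :
    Inv (!![Φ, 0; 0, Φ'] : Matrix (Fin 2) (Fin 2) R) !![Ψ, 0; 0, Ψ'] := by
  refine ⟨by rw [a1_star, h.1, h'.1, star_zero], ?_, ?_⟩
  · rw [Matrix.mul_fin_two, Matrix.one_fin_two]
    simp [h.2.1, h'.2.1]
  · rw [Matrix.mul_fin_two, Matrix.one_fin_two]
    simp [h.2.2, h'.2.2]

/-- orthogonal sums: `ψ₁ ↦ χ ψ₁ χ`, `ψ₂ ↦ (1-χ) ψ₂ (1-χ)`; `X = diag (χ, χ)` -/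
theorem dbl_orth {φ₁ φ₂ χ : R} (hχ : star χ = χ) (hχχ : χ * χ = χ)
    (h1 : χ * φ₁ * χ = φ₁) (h2 : (1 - χ) * φ₂ * (1 - χ) = φ₂) (r1 : Reg φ₁) (r2 : Reg φ₂) :
    ∃ ψ₁ ψ₂, Ginv φ₁ ψ₁ ∧ Ginv φ₂ ψ₂ ∧ Ginv (φ₁ + φ₂) (ψ₁ + ψ₂) ∧
      ∃ D₁ D₂ : Matrix (Fin 2) (Fin 2) R,
        !![χ, 0; 0, χ] * D₁ * !![χ, 0; 0, χ] = D₁ ∧
        (1 - !![χ, 0; 0, χ]) * D₂ * (1 - !![χ, 0; 0, χ]) = D₂ ∧
        dbl (φ₁ + φ₂) (ψ₁ + ψ₂) = D₁ + D₂ ∧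
        dbl φ₁ ψ₁ = D₁ + !![0, 1 - χ; 1 - χ, 0] ∧ dbl φ₂ ψ₂ = !![0, χ; χ, 0] + D₂ := by
  obtain ⟨a1, a2⟩ := a1_corner hχχ h1
  obtain ⟨b1, b2⟩ := a1_corner' hχχ h2
  obtain ⟨ψ₁, g1, c1, c2⟩ : ∃ ψ₁, Ginv φ₁ ψ₁ ∧ χ * ψ₁ = ψ₁ ∧ ψ₁ * χ = ψ₁ := by
    obtain ⟨ψ, g1, g2, g3⟩ := r1.exists_ginv
    refine ⟨χ * ψ * χ, ⟨g1, by simp only [star_mul, hχ, g2, mul_assoc], ?_⟩,
      a1_corner hχχ (a1_cut hχχ ψ)⟩
    linear_combination (norm := noncomm_ring) a2 * (ψ * χ * φ₁) + φ₁ * ψ * a1 + g3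
  obtain ⟨ψ₂, g2, d1, d2⟩ : ∃ ψ₂, Ginv φ₂ ψ₂ ∧ χ * ψ₂ = 0 ∧ ψ₂ * χ = 0 := by
    obtain ⟨ψ, g1, g2, g3⟩ := r2.exists_ginv
    refine ⟨(1 - χ) * ψ * (1 - χ),
      ⟨g1, by simp only [star_mul, star_sub, star_one, hχ, g2, mul_assoc], ?_⟩, ?_, ?_⟩
    · linear_combination (norm := noncomm_ring) -(b2 * (ψ * (1 - χ) * φ₂)) - φ₂ * ψ * b1 + g3
    · linear_combination (norm := noncomm_ring) -(hχχ * (ψ * (1 - χ)))
    · linear_combination (norm := noncomm_ring) -((1 - χ) * ψ * hχχ)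
  have z1 : φ₁ * ψ₂ = 0 := by rw [← a2, mul_assoc, d1, mul_zero]
  have z2 : φ₂ * ψ₁ = 0 := by rw [← c1, ← mul_assoc, b2, zero_mul]
  have z3 : ψ₁ * φ₂ = 0 := by rw [← c2, mul_assoc, b1, mul_zero]
  have z4 : ψ₂ * φ₁ = 0 := by rw [← a1, ← mul_assoc, d2, zero_mul]
  refine ⟨ψ₁, ψ₂, g1, g2, ⟨by rw [star_add, g1.1, g2.1], by rw [star_add, g1.2.1, g2.2.1], ?_⟩,
    !![φ₁, χ - φ₁ * ψ₁; χ - ψ₁ * φ₁, ψ₁ * φ₁ * ψ₁],
    !![φ₂, 1 - χ - φ₂ * ψ₂; 1 - χ - ψ₂ * φ₂, ψ₂ * φ₂ * ψ₂], ?_, ?_, ?_, ?_, ?_⟩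
  · linear_combination (norm := noncomm_ring) g1.2.2 + g2.2.2 + (z1 + z2) * (φ₁ + φ₂) +
      φ₁ * z3 + φ₂ * z4
  all_goals
    simp only [dbl, Matrix.one_fin_two, a2_sub, Matrix.mul_fin_two, a2_add]
    refine a2_ext ?_ ?_ ?_ ?_ <;>
      (try simp only [mul_add, add_mul, mul_sub, sub_mul, mul_assoc, mul_one, one_mul, mul_zero, zero_mul,
        hχχ, a1, a2, b1, b2, c1, c2, d1, d2, z1, z2, z3, z4, a2_r2 hχχ, a2_r2 a1, a2_r2 a2, a2_r2 b1,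
        a2_r2 b2, a2_r2 c1, a2_r2 c2, a2_r2 d1, a2_r2 d2, a2_r2 z1, a2_r2 z2, a2_r2 z3,
        a2_r2 z4]) <;> abel

end Crest.Agent.R217
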