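import Crest.Agent.R217.A1

/-! Row 217, part A3: the form `FF d φ` of a Poincaré complex. -/

set_option autoImplicit false
set_option linter.unusedSectionVars false

namespace Crest.Agent.R217

variable {R : Type*} [Ring R] [StarRing R] [Algebra ℂ R] [StarModule ℂ R]

theorem a3_ext {a b c d a' b' c' d' : R} (h1 : a = a') (h2 : b = b') (h3 : c = c') (h4 : d = d') :
    (!![a, b; c, d] : Matrix (Fin 2) (Fin 2) R) = !![a', b'; c', d'] := by
  rw [h1, h2, h3, h4]

theorem a3_zero : (0 : Matrix (Fin 2) (Fin 2) R) = !![0, 0; 0, 0] := by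
  ext i j
  fin_cases i <;> fin_cases j <;> rfl

theorem a3_low (k : R) : (!![1, 0; -k, 1] : Matrix (Fin 2) (Fin 2) R) * !![1, 0; k, 1] = 1 := by
  simp [← Matrix.one_fin_two]

theorem a3_low' (k : R) : (!![1, 0; k, 1] : Matrix (Fin 2) (Fin 2) R) * !![1, 0; -k, 1] = 1 := by
  simp [← Matrix.one_fin_two]

theorem a3_up (k : R) : (!![1, k; 0, 1] : Matrix (Fin 2) (Fin 2) R) * !![1, -k; 0, 1] = 1 := by
  simp [← Matrix.one_fin_two]

theorem a3_up' (k : R) : (!![1, -k; 0, 1] : Matrix (Fin 2) (Fin 2) R) * !![1, k; 0, 1] = 1 := by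
  simp [← Matrix.one_fin_two]

theorem a3_contr {S : Type*} [Ring S] {δ Γ W : S} (h0 : δ * δ = 0) (h1 : W * (δ * Γ + Γ * δ) = 1)
    (h2 : (δ * Γ + Γ * δ) * W = 1) : δ * (W * Γ) * δ = δ := by
  have h3 : δ * W = W * δ := by
    linear_combination (norm := noncomm_ring) -h1 * (δ * W) + W * δ * h2 + W * Γ * h0 * W -
      W * h0 * (Γ * W)
  linear_combination (norm := noncomm_ring) h3 * (Γ * δ) + h1 * δ - W * Γ * h0

theorem a3_dd {d : R} (hdd : d * d = 0) : star d * star d = 0 := by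
  rw [← star_mul, hdd, star_zero]

theorem a3_dΨ {d Φ Ψ : R} (h : Inv Φ Ψ) (hc : Φ * d + star d * Φ = 0) :
    d * Ψ + Ψ * star d = 0 := by
  linear_combination (norm := noncomm_ring) Ψ * hc * Ψ - h.2.2 * (d * Ψ) - Ψ * star d * h.2.1

/-- Poincaré duality ⇒ regular.  `FF = J ∂` with `J = hyp`, `∂ = !![d,0;φ,d⋆]`, `∂ ∂ = 0`.  For
`Γ₀ = !![-h, g; 0, -k]`, `V = ∂ Γ₀ + Γ₀ ∂ = !![1,0;*,1]` is invertible and commutes with `∂`, so
`Γ = V⁻¹ Γ₀` has `∂ Γ + Γ ∂ = 1`, `∂ Γ ∂ = ∂`, and `Γ J` is a generalised inverse of `FF`. -/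
theorem reg_FF {d φ g h k : R} (hdd : d * d = 0) (hφ : star φ = φ)
    (hc : φ * d + star d * φ = 0) (hg : d * g + g * star d = 0)
    (h1 : g * φ = 1 + (d * h + h * d)) (h2 : φ * g = 1 + (star d * k + k * star d)) :
    Reg (FF d φ) := by
  have hdd' := a3_dd hdd
  refine ⟨by rw [FF, a1_star, hφ, star_star, star_zero], ?_⟩
  have e1 : FF d φ = hyp R * !![d, 0; φ, star d] := by simp [FF, hyp]
  have e2 : hyp R * hyp R = 1 := by simp [hyp, ← Matrix.one_fin_two]
  have e3 : (!![d, 0; φ, star d] : Matrix (Fin 2) (Fin 2) R) * !![-h, g; 0, -k] +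
      !![-h, g; 0, -k] * !![d, 0; φ, star d] = !![1, 0; -(φ * h + k * φ), 1] := by
    simp only [Matrix.mul_fin_two, Matrix.of_add_of, Matrix.cons_add_cons, Matrix.empty_add_empty]
    refine a3_ext ?_ ?_ ?_ ?_
    · linear_combination (norm := noncomm_ring) h1
    · linear_combination (norm := noncomm_ring) hg
    · noncomm_ring
    · linear_combination (norm := noncomm_ring) h2
  have e4 := a3_contr (δ := (!![d, 0; φ, star d] : Matrix (Fin 2) (Fin 2) R))
    (Γ := !![-h, g; 0, -k]) (W := !![1, 0; φ * h + k * φ, 1])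
    (by
      rw [Matrix.mul_fin_two, a3_zero]
      exact a3_ext (by simp [hdd]) (by simp) hc (by simp [hdd']))
    (by rw [e3]; exact a3_low' _) (by rw [e3]; exact a3_low _)
  refine ⟨!![1, 0; φ * h + k * φ, 1] * !![-h, g; 0, -k] * hyp R, ?_⟩
  rw [e1]
  linear_combination (norm := noncomm_ring) hyp R * e4 + hyp R * !![d, 0; φ, star d] *
    !![1, 0; φ * h + k * φ, 1] * !![-h, g; 0, -k] * e2 * !![d, 0; φ, star d]

/-- homotopic forms: `u = !![1,0;k,1]` -/
theorem FF_htpy (d φ k : R) :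
    FF d (φ + (star d * k + star k * d)) =
      star (!![1, 0; k, 1] : Matrix (Fin 2) (Fin 2) R) * FF d φ * !![1, 0; k, 1] := by
  simp only [FF, a1_star, Matrix.mul_fin_two, star_one, star_zero]
  refine a3_ext ?_ ?_ ?_ ?_ <;> noncomm_ring

/-- for an invertible chain map: `u = !![1, -Ψ d⋆; 0, 1]` gives `diag (Φ, -d Ψ d⋆)` and
`d Ψ d⋆ = -Ψ d⋆ d⋆ = 0` -/
theorem FF_inv {d Φ Ψ : R} (hdd : d * d = 0) (h : Inv Φ Ψ) (hc : Φ * d + star d * Φ = 0) :
    (!![Φ, 0; 0, 0] : Matrix (Fin 2) (Fin 2) R) =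
      star (!![1, -(Ψ * star d); 0, 1] : Matrix (Fin 2) (Fin 2) R) * FF d Φ *
        !![1, -(Ψ * star d); 0, 1] := by
  have h1 := a3_dΨ h hc
  have hdd' := a3_dd hdd
  simp only [FF, a1_star, Matrix.mul_fin_two, star_one, star_zero, star_neg, star_mul, star_star,
    h.star_inv]
  refine a3_ext ?_ ?_ ?_ ?_
  · noncomm_ring
  · linear_combination (norm := noncomm_ring) h.2.1 * star d
  · linear_combination (norm := noncomm_ring) d * h.2.2
  · linear_combination (norm := noncomm_ring) h1 * star d - Ψ * hdd' - d * h.2.2 * (Ψ * star d)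

theorem a3_fin {d Φ Ψ : R} (k : R) (hdd : d * d = 0) (hΦ : Inv Φ Ψ)
    (hc : Φ * d + star d * Φ = 0) :
    ∃ u v : Matrix (Fin 2) (Fin 2) R, u * v = 1 ∧ v * u = 1 ∧
      FF d (Φ + (star d * k + star k * d)) = star u * !![Φ, 0; 0, 0] * u := by
  have a1 := a3_up (Ψ * star d)
  have a2 := a3_up' (Ψ * star d)
  have a3 := congrArg star a2
  rw [star_mul, star_one] at a3
  refine ⟨!![1, Ψ * star d; 0, 1] * !![1, 0; k, 1], !![1, 0; -k, 1] * !![1, -(Ψ * star d); 0, 1],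
    ?_, ?_, ?_⟩
  · linear_combination (norm := noncomm_ring)
      !![1, Ψ * star d; 0, 1] * a3_low' k * !![1, -(Ψ * star d); 0, 1] + a1
  · linear_combination (norm := noncomm_ring) !![1, 0; -k, 1] * a2 * !![1, 0; k, 1] + a3_low k
  · rw [FF_htpy, FF_inv hdd hΦ hc, star_mul]
    linear_combination (norm := noncomm_ring)
      -star (!![1, 0; k, 1] : Matrix (Fin 2) (Fin 2) R) * a3 * (FF d Φ *
        !![1, -(Ψ * star d); 0, 1] * !![1, Ψ * star d; 0, 1] * !![1, 0; k, 1]) -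
      star (!![1, 0; k, 1] : Matrix (Fin 2) (Fin 2) R) * FF d Φ * a2 * !![1, 0; k, 1]

/-- the form `sym (Φ (2E - 1))` -/
def frm (Φ E : R) : R := Φ * E + star E * Φ - Φ

/-- `U = 2E - 1` is a chain map with `U U = 1 + 4 (d h + h d)`, and
`frm Φ E = Φ U - (d⋆ k - k d)`.  Use `reg_FF` with `g = U Ψ` (`d Ψ = -Ψ d⋆`):
`g φ = 1 + (d h' + h' d)` with `h' = 4 h + U Ψ k`, and
`φ g = Φ U U Ψ - (d⋆ k - k d) U Ψ = 1 + (d⋆ k' + k' d⋆)` with `k' = -4 Φ h Ψ - k U Ψ`. -/
theorem reg_FF_frm {d Φ Ψ E h k : R} (hdd : d * d = 0) (hΦ : Inv Φ Ψ)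
    (hc : Φ * d + star d * Φ = 0) (hE : d * E = E * d) (hEE : E * E - E = d * h + h * d)
    (hs : Φ * E - star E * Φ = star d * k - k * d) : Reg (FF d (frm Φ E)) := by
  have h1 := a3_dΨ hΦ hc
  have h2 := congrArg star hE
  rw [star_mul, star_mul] at h2
  have h3 : frm Φ E = Φ * (E + E - 1) - (star d * k - k * d) := by
    rw [frm]
    linear_combination (norm := noncomm_ring) -hs
  have h4 : d * (E + E - 1) = (E + E - 1) * d := by
    linear_combination (norm := noncomm_ring) hE + hE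
  have h5 : (E + E - 1) * (E + E - 1) = 1 + (d * (h + h + h + h) + (h + h + h + h) * d) := by
    linear_combination (norm := noncomm_ring) hEE + hEE + hEE + hEE
  refine reg_FF (g := (E + E - 1) * Ψ) (h := h + h + h + h + (E + E - 1) * Ψ * k)
    (k := -(Φ * (h + h + h + h) * Ψ) - k * (E + E - 1) * Ψ) hdd ?_ ?_ ?_ ?_ ?_
  · simp only [frm, star_sub, star_add, star_mul, star_star, hΦ.1]
    abel
  · rw [frm]
    linear_combination (norm := noncomm_ring) hc * E + star E * hc - hc - Φ * hE - h2 * Φ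
  · generalize E + E - 1 = U at *
    linear_combination (norm := noncomm_ring) h4 * Ψ + U * h1
  · rw [h3]
    generalize E + E - 1 = U at *
    generalize h + h + h + h = h' at *
    linear_combination (norm := noncomm_ring) U * hΦ.2.2 * U + h5 - U * h1 * k - h4 * (Ψ * k)
  · rw [h3]
    generalize E + E - 1 = U at *
    generalize h + h + h + h = h' at *
    linear_combination (norm := noncomm_ring) Φ * h5 * Ψ + hΦ.2.1 + hc * (h' * Ψ) +
      Φ * h' * h1 + k * h4 * Ψ + k * U * h1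

/-- `E ≃ 1`: `frm Φ E = Φ + (d⋆ k + k⋆ d)` with `k = s⋆ Φ - Φ s`; then `FF_htpy`, `FF_inv` -/
theorem FF_frm_one {d Φ Ψ E s : R} (hdd : d * d = 0) (hΦ : Inv Φ Ψ)
    (hc : Φ * d + star d * Φ = 0) (hE : E - 1 = d * s + s * d) :
    ∃ u v : Matrix (Fin 2) (Fin 2) R, u * v = 1 ∧ v * u = 1 ∧
      FF d (frm Φ E) = star u * !![Φ, 0; 0, 0] * u := by
  have h1 := congrArg star hE
  simp only [star_sub, star_add, star_mul, star_one] at h1
  have h2 : frm Φ E = Φ + (star d * (star s * Φ - Φ * s) + star (star s * Φ - Φ * s) * d) := by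
    simp only [frm, star_sub, star_mul, star_star, hΦ.1]
    linear_combination (norm := noncomm_ring) Φ * hE + h1 * Φ + hc * s + star s * hc
  rw [h2]
  exact a3_fin _ hdd hΦ hc

/-- `E ≃ 0`: `frm Φ E = -Φ + (d⋆ k + k⋆ d)` with the same `k` -/
theorem FF_frm_zero {d Φ Ψ E s : R} (hdd : d * d = 0) (hΦ : Inv Φ Ψ)
    (hc : Φ * d + star d * Φ = 0) (hE : E = d * s + s * d) :
    ∃ u v : Matrix (Fin 2) (Fin 2) R, u * v = 1 ∧ v * u = 1 ∧
      FF d (frm Φ E) = star u * !![-Φ, 0; 0, 0] * u := by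
  have h1 := congrArg star hE
  simp only [star_add, star_mul] at h1
  have h2 : frm Φ E = -Φ + (star d * (star s * Φ - Φ * s) + star (star s * Φ - Φ * s) * d) := by
    simp only [frm, star_sub, star_mul, star_star, hΦ.1]
    linear_combination (norm := noncomm_ring) Φ * hE + h1 * Φ + hc * s + star s * hc
  rw [h2]
  exact a3_fin (Ψ := -Ψ) _ hdd
    ⟨by rw [star_neg, hΦ.1], by rw [neg_mul_neg, hΦ.2.1], by rw [neg_mul_neg, hΦ.2.2]⟩
    (by linear_combination (norm := noncomm_ring) -hc)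

end Crest.Agent.R217
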