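import Mathlib

/-! Row 217 (Hilbert–Smith), part A: Hermitian forms in a `⋆`-ring.
Definitions only: DO NOT CHANGE (owner helper92). -/

set_option autoImplicit false

namespace Crest.Agent.R217

variable {R : Type*} [Ring R] [StarRing R]

/-- `ψ` is a self-adjoint generalised inverse of the self-adjoint `φ` -/
def Ginv (φ ψ : R) : Prop := star φ = φ ∧ star ψ = ψ ∧ φ * ψ * φ = φ

/-- regular self-adjoint element (a form that is non-degenerate on a complement of its radical) -/
def Reg (φ : R) : Prop := star φ = φ ∧ ∃ ψ, φ * ψ * φ = φ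

/-- hyperbolic form: `e` is (modulo the radical) a projection on a Lagrangian along a Lagrangian -/
def Null (φ : R) : Prop := ∃ e, star e * φ * e = 0 ∧ φ = φ * e + star e * φ

/-- Witt-equivalence -/
def Rel (φ φ' : R) : Prop := Null (!![φ, 0; 0, -φ'] : Matrix (Fin 2) (Fin 2) R)

/-- invertible self-adjoint pair -/
def Inv (Φ Ψ : R) : Prop := star Φ = Φ ∧ Φ * Ψ = 1 ∧ Ψ * Φ = 1

/-- the invertible double `φ ⊕ φ⁻¹ ⊕ hyperbolic` of a regular form -/
def dbl (φ ψ : R) : Matrix (Fin 2) (Fin 2) R := !![φ, 1 - φ * ψ; 1 - ψ * φ, ψ * φ * ψ]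

/-- the hyperbolic plane -/
def hyp (R : Type*) [Ring R] : Matrix (Fin 2) (Fin 2) R := !![0, 1; 1, 0]

/-- the form of a Poincaré complex `(d, φ)` -/
def FF (d φ : R) : Matrix (Fin 2) (Fin 2) R := !![φ, star d; d, 0]

open Classical in
/-- a chosen self-adjoint generalised inverse -/
noncomputable def ginv (φ : R) : R := if h : ∃ ψ, Ginv φ ψ then h.choose else 0

end Crest.Agent.R217
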