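import Crest.Agent.R217.BExt

/-! Row 217, part B: existence and uniqueness up to homotopy of chain maps from a resolution to a
fine complex (computations in a preadditive category; `exists_ext`, `det_of_lex`). -/

set_option autoImplicit false

namespace Crest.Agent.R217

open Filter Topology CategoryTheory

variable {ι : Type} {P : ι → Type} {K : Ctx P}

theorem Cx.ϖ_D (C : Cx K) (T : ℕ) : C.ϖ T ≫ C.D = C.D ≫ C.ϖ (T + 1) := by
  simp only [Cx.ϖ, Preadditive.sum_comp, Preadditive.comp_sum, C.πD]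
  rw [Finset.sum_range_succ' (fun q => C.D ≫ C.π q) (T + 1), C.Dπ, add_zero]

theorem Cx.π_ϖ (C : Cx K) (q T : ℕ) : C.π q ≫ C.ϖ T = if q ≤ T then C.π q else 0 := by
  simp only [Cx.ϖ, Preadditive.comp_sum, C.ππ, Finset.sum_ite_eq, Finset.mem_range,
    Nat.lt_succ_iff]

theorem Cx.ϖ_π (C : Cx K) (q T : ℕ) : C.ϖ T ≫ C.π q = if q ≤ T then C.π q else 0 := by
  simp only [Cx.ϖ, Preadditive.sum_comp, C.ππ, Finset.sum_ite_eq', Finset.mem_range,
    Nat.lt_succ_iff]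

theorem Cx.ϖ_ϖ (C : Cx K) {S T : ℕ} (h : S ≤ T) : C.ϖ S ≫ C.ϖ T = C.ϖ S := by
  rw [Cx.ϖ, Preadditive.sum_comp]
  refine Finset.sum_congr rfl fun q hq => ?_
  rw [C.π_ϖ, if_pos (by have := Finset.mem_range.1 hq; omega)]

theorem Cx.ϖ_ϖ' (C : Cx K) {S T : ℕ} (h : S ≤ T) : C.ϖ T ≫ C.ϖ S = C.ϖ S := by
  rw [Cx.ϖ.eq_1 C S, Preadditive.comp_sum]
  refine Finset.sum_congr rfl fun q hq => ?_
  rw [C.ϖ_π, if_pos (by have := Finset.mem_range.1 hq; omega)]

theorem Cx.ππ_self (C : Cx K) (q : ℕ) : C.π q ≫ C.π q = C.π q := by rw [C.ππ, if_pos rfl]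

theorem Cx.ππ_ne (C : Cx K) {p q : ℕ} (h : p ≠ q) : C.π p ≫ C.π q = 0 := by rw [C.ππ, if_neg h]

theorem Cx.ππ_self' (C : Cx K) (q : ℕ) {Y : Ob K} (f : C.A ⟶ Y) :
    C.π q ≫ C.π q ≫ f = C.π q ≫ f := by rw [← Category.assoc, C.ππ_self]

theorem Cx.ππ_ne' (C : Cx K) {p q : ℕ} (h : p ≠ q) {Y : Ob K} (f : C.A ⟶ Y) :
    C.π p ≫ C.π q ≫ f = 0 := by rw [← Category.assoc, C.ππ_ne h, Limits.zero_comp]

theorem Cx.πD' (C : Cx K) (q : ℕ) {Y : Ob K} (f : C.A ⟶ Y) :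
    C.π q ≫ C.D ≫ f = C.D ≫ C.π (q + 1) ≫ f := by
  rw [← Category.assoc, C.πD, Category.assoc]

theorem ba_graded (A B : Cx K) (k : A.A ⟶ B.A) (p q : ℕ) :
    A.π q ≫ A.π p ≫ k ≫ B.π p = (A.π p ≫ k ≫ B.π p) ≫ B.π q := by
  by_cases h : q = p
  · subst h; simp only [Category.assoc, Cx.ππ_self, Cx.ππ_self']
  · simp only [Category.assoc, A.ππ_ne' h, B.ππ_ne (Ne.symm h), Limits.comp_zero]

/-- Induction on `T`; the new component is `π (T+1) ≫ h ≫ π (T+1)` where `h` extends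
`π T ≫ F ≫ D` along `π T ≫ D` (`Res.zero` resp. `Res.succ`); the first one extends `B.η` along `A.η`
(`Res.dense`). -/
theorem exists_chain (hW : HasW K.F) (A B : Cx K) (hA : A.Res) (hB : Fine B.A) (T : ℕ) :
    ∃ F : A.A ⟶ B.A, A.η ≫ F = B.η ∧ (∀ q, A.π q ≫ F = F ≫ B.π q) ∧ A.ϖ T ≫ F = F ∧
      ∀ q < T, A.π q ≫ A.D ≫ F = A.π q ≫ F ≫ B.D := by
  induction T with
  | zero =>
    have := det_of_lex hA.dense (F := B.η) Limits.zero_comp
    rw [Category.id_comp, Category.id_comp] at this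
    obtain ⟨k, hk⟩ := exists_ext hW hB this
    refine ⟨A.π 0 ≫ k ≫ B.π 0, ?_, ba_graded A B k 0, ?_, fun q hq => absurd hq (by omega)⟩
    · rw [← Category.assoc, A.ηπ, ← Category.assoc, hk, B.ηπ]
    · rw [← Category.assoc, A.ϖ_π, if_pos le_rfl]
  | succ T ih =>
    obtain ⟨F, h1, h2, h3, h4⟩ := ih
    have hd : Det (A.π T ≫ F ≫ B.D) (A.π T ≫ A.D) := by
      cases T with
      | zero => exact det_of_lex hA.zero (by rw [← Category.assoc, h1, B.ηD])
      | succ q =>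
        refine det_of_lex (hA.succ q) ?_
        rw [Category.assoc, ← Category.assoc A.D, ← Category.assoc, h4 q (by omega)]
        simp only [Category.assoc, B.DD, Limits.comp_zero]
    obtain ⟨k, hk⟩ := exists_ext hW hB hd
    refine ⟨F + A.π (T + 1) ≫ k ≫ B.π (T + 1), ?_, fun q => ?_, ?_, fun q hq => ?_⟩
    · rw [Preadditive.comp_add, h1, ← A.ηπ, Category.assoc, A.ππ_ne' (by omega), Limits.comp_zero,
        add_zero]
    · rw [Preadditive.comp_add, Preadditive.add_comp, h2, ba_graded]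
    · rw [Preadditive.comp_add, ← h3, ← Category.assoc, A.ϖ_ϖ' (by omega), ← Category.assoc,
        A.ϖ_π, if_pos le_rfl]
    · simp only [Preadditive.comp_add, Preadditive.add_comp, Category.assoc]
      rw [A.ππ_ne' (show q ≠ T + 1 by omega), add_zero]
      rcases Nat.lt_succ_iff_lt_or_eq.1 hq with hq | rfl
      · rw [h4 q hq, A.πD', A.ππ_ne' (by omega), Limits.comp_zero, add_zero]
      · have e : A.π q ≫ A.D ≫ F = 0 := by
          rw [A.πD', ← h3, ← Category.assoc (A.π _), A.π_ϖ, if_neg (by omega), Limits.zero_comp,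
            Limits.comp_zero]
        rw [e, zero_add, ← A.πD', A.ππ_self', ← Category.assoc A.D, ← Category.assoc,
          ← Category.assoc, hk]
        simp only [Category.assoc]
        rw [← B.πD, ← Category.assoc F, ← h2, Category.assoc, A.ππ_self']

/-- If the target lives in degrees `≤ T` the map is a chain map in all degrees. -/
theorem exists_chain_of_target (hW : HasW K.F) (A B : Cx K) (hA : A.Res) (hB : Fine B.A) (T : ℕ)
    (hT : B.ϖ T = 𝟙 _) (hD : B.π T ≫ B.D = 0) :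
    ∃ F : A.A ⟶ B.A, A.η ≫ F = B.η ∧ (∀ q, A.π q ≫ F = F ≫ B.π q) ∧ A.D ≫ F = F ≫ B.D := by
  obtain ⟨F, h1, h2, h3, h4⟩ := exists_chain hW A B hA hB T
  refine ⟨F, h1, h2, ?_⟩
  have _ := hT
  have e1 : A.D ≫ F = ∑ q ∈ Finset.range T, A.π q ≫ F ≫ B.D := by
    conv_lhs => rw [← h3, Cx.ϖ, Preadditive.sum_comp, Preadditive.comp_sum, Finset.sum_range_succ',
      ← Category.assoc _ (A.π 0), A.Dπ, Limits.zero_comp, add_zero]
    exact Finset.sum_congr rfl fun q hq => by rw [← A.πD', h4 q (Finset.mem_range.1 hq)]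
  have e2 : F ≫ B.D = ∑ q ∈ Finset.range (T + 1), A.π q ≫ F ≫ B.D := by
    rw [← Preadditive.sum_comp, ← Cx.ϖ, ← Category.assoc, h3]
  refine e1.trans (Eq.trans ?_ e2.symm)
  rw [Finset.sum_range_succ, ← Category.assoc (A.π T), h2, Category.assoc, hD,
    Limits.comp_zero, add_zero]

/-- If the source lives in degrees `≤ T` (use `exists_chain` with `T + 1`). -/
theorem exists_chain_of_source (hW : HasW K.F) (A B : Cx K) (hA : A.Res) (hB : Fine B.A) (T : ℕ)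
    (hT : A.ϖ T = 𝟙 _) :
    ∃ F : A.A ⟶ B.A, A.η ≫ F = B.η ∧ (∀ q, A.π q ≫ F = F ≫ B.π q) ∧ A.D ≫ F = F ≫ B.D := by
  obtain ⟨F, h1, h2, -, h4⟩ := exists_chain hW A B hA hB (T + 1)
  refine ⟨F, h1, h2, ?_⟩
  rw [← Category.id_comp (A.D ≫ F), ← Category.id_comp (F ≫ B.D), ← hT, Cx.ϖ,
    Preadditive.sum_comp, Preadditive.sum_comp]
  exact Finset.sum_congr rfl fun q hq => h4 q (Finset.mem_range.1 hq)

/-- Induction on `T` with `h = ϖ (T+1) ≫ h`, `π 0 ≫ h = 0`; the new component `π (T+2) ≫ k` where `k`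
extends `π (T+1) ≫ (F - h ≫ dB)` along `π (T+1) ≫ D`: by `det_of_lex` it suffices that
`π T ≫ D ≫ (F - h ≫ dB) = π T ≫ (F - D ≫ h) ≫ dB = π T ≫ h ≫ dB ≫ dB = 0`. -/
theorem exists_htpy (hW : HasW K.F) (A : Cx K) (hA : A.Res) {B : Ob K} (hB : Fine B) (dB : B ⟶ B)
    (hd : dB ≫ dB = 0) (F : A.A ⟶ B) (hF : A.D ≫ F = F ≫ dB) (h0 : A.η ≫ F = 0) (T : ℕ) :
    ∃ h : A.A ⟶ B, A.ϖ T ≫ F = A.ϖ T ≫ (A.D ≫ h + h ≫ dB) := by
  suffices H : ∃ h : A.A ⟶ B, (∀ q, T + 1 < q → A.π q ≫ h = 0) ∧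
      ∀ q ≤ T, A.π q ≫ F = A.π q ≫ (A.D ≫ h + h ≫ dB) by
    obtain ⟨h, -, h2⟩ := H
    refine ⟨h, ?_⟩
    rw [Cx.ϖ, Preadditive.sum_comp, Preadditive.sum_comp]
    exact Finset.sum_congr rfl fun q hq => h2 q (Nat.lt_succ_iff.1 (Finset.mem_range.1 hq))
  induction T with
  | zero =>
    obtain ⟨k, hk⟩ := exists_ext hW hB (det_of_lex hA.zero h0)
    refine ⟨A.π 1 ≫ k, fun q hq => A.ππ_ne' (by omega) _, fun q hq => ?_⟩
    obtain rfl : q = 0 := by omega
    rw [Preadditive.comp_add, Category.assoc, A.ππ_ne' (by omega), add_zero, ← A.πD' 0,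
      A.ππ_self', ← hk, Category.assoc]
  | succ T ih =>
    obtain ⟨h, h1, h2⟩ := ih
    obtain ⟨k, hk⟩ := exists_ext hW hB (det_of_lex (hA.succ T) (F := F - h ≫ dB) (by
      rw [Category.assoc, Preadditive.comp_sub, hF, Preadditive.comp_sub, ← Category.assoc,
        h2 T le_rfl]
      simp only [Preadditive.comp_add, Preadditive.add_comp, Category.assoc, hd, Limits.comp_zero,
        add_zero, sub_self]))
    refine ⟨h + A.π (T + 2) ≫ k, fun q hq => ?_, fun q hq => ?_⟩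
    · rw [Preadditive.comp_add, h1 q (by omega), A.ππ_ne' (by omega), add_zero]
    · simp only [Preadditive.comp_add, Preadditive.add_comp, Category.assoc]
      rw [A.ππ_ne' (show q ≠ T + 2 by omega), add_zero]
      rcases Nat.le_succ_iff.1 hq with hq | rfl
      · rw [A.πD' q (A.π _ ≫ k), A.ππ_ne' (by omega), Limits.comp_zero, add_zero, h2 q hq,
          Preadditive.comp_add]
      · rw [A.πD' _ h, h1 _ (by omega), Limits.comp_zero, zero_add, ← A.πD', A.ππ_self',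
          ← Category.assoc, hk, Preadditive.comp_sub, sub_add_cancel]

end Crest.Agent.R217
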