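import Crest.Agent.R217.BOps

/-! Row 217, part B: the category `Ob K` of families of vector spaces with supports; morphisms are
controlled families of linear maps modulo those with values supported at vanishing depth.
Definitions: DO NOT CHANGE (owner helper92); only fill in the proofs. -/

set_option autoImplicit false

namespace Crest.Agent.R217

open Filter Topology CategoryTheory

/-- a complex vector space whose elements have supports in `Q` -/
structure SM (Q : Type) where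
  V : Type
  [acg : AddCommGroup V]
  [mod : Module ℂ V]
  supp : V → Set Q
  supp_zero : supp 0 = ∅
  supp_add : ∀ u v, supp (u + v) ⊆ supp u ∪ supp v
  supp_smul : ∀ (c : ℂ) v, supp (c • v) ⊆ supp v

attribute [instance] SM.acg SM.mod

variable {ι : Type} {P : ι → Type}

theorem SM.supp_neg {Q : Type} (A : SM Q) (v : A.V) : A.supp (-v) = A.supp v := by
  refine Set.Subset.antisymm ?_ ?_
  · simpa using A.supp_smul (-1) v
  · simpa using A.supp_smul (-1) (-v)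

theorem SM.supp_sub {Q : Type} (A : SM Q) (u v : A.V) : A.supp (u - v) ⊆ A.supp u ∪ A.supp v := by
  rw [sub_eq_add_neg, ← A.supp_neg v]; exact A.supp_add _ _

theorem SM.supp_sum {Q : Type} (A : SM Q) {S : Type*} (s : Finset S) (v : S → A.V) :
    A.supp (∑ j ∈ s, v j) ⊆ ⋃ j ∈ s, A.supp (v j) := by
  classical
  induction s using Finset.induction_on with
  | empty => simp [A.supp_zero]
  | insert j s hj ih =>
    rw [Finset.sum_insert hj, Finset.set_biUnion_insert]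
    exact (A.supp_add _ _).trans (Set.union_subset_union_right _ ih)

/-- families of linear maps -/
abbrev Fam (A B : ∀ x, SM (P x)) := ∀ x, (A x).V →ₗ[ℂ] (B x).V

/-- controlled families -/
def Ctrl (K : Ctx P) {A B : ∀ x, SM (P x)} (f : Fam A B) : Prop :=
  ∃ S, K.SmR S ∧ ∀ᶠ x in K.F, ∀ v, ∀ w ∈ (B x).supp (f x v), ∃ w' ∈ (A x).supp v, S x w w'

/-- families with values supported at vanishing depth -/
def Van (K : Ctx P) {A B : ∀ x, SM (P x)} (f : Fam A B) : Prop :=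
  K.SmS fun x w => ∃ v, w ∈ (B x).supp (f x v)

section BC

variable {K : Ctx P} {A B C : ∀ x, SM (P x)} {f f' : Fam A B} {g : Fam B C}

theorem bc_ctrl_subset (h : ∀ᶠ x in K.F, ∀ v, (B x).supp (f x v) ⊆ (A x).supp v) : Ctrl K f :=
  ⟨_, K.smR_eq, h.mono fun _ hx v w hw => ⟨w, hx v hw, rfl⟩⟩

theorem bc_ctrl_add (h : Ctrl K f) (h' : Ctrl K f') : Ctrl K (f + f') := by
  obtain ⟨S, h1, h2⟩ := h
  obtain ⟨S', h1', h2'⟩ := h'
  refine ⟨_, h1.or h1', ?_⟩
  filter_upwards [h2, h2'] with x a b v w hw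
  rcases (B x).supp_add _ _ hw with hw | hw
  · obtain ⟨w', k1, k2⟩ := a v w hw
    exact ⟨w', k1, Or.inl k2⟩
  · obtain ⟨w', k1, k2⟩ := b v w hw
    exact ⟨w', k1, Or.inr k2⟩

theorem bc_ctrl_zero : Ctrl K (0 : Fam A B) :=
  bc_ctrl_subset (.of_forall fun x v => by simp [(B x).supp_zero])

theorem bc_ctrl_smul (c : ℂ) (h : Ctrl K f) : Ctrl K (c • f) := by
  obtain ⟨S, h1, h2⟩ := h
  exact ⟨S, h1, h2.mono fun x a v w hw => a v w ((B x).supp_smul c _ hw)⟩

theorem bc_ctrl_id : Ctrl K (fun _ => LinearMap.id : Fam A A) :=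
  bc_ctrl_subset (.of_forall fun _ _ => subset_rfl)

theorem bc_ctrl_comp (h : Ctrl K f) (hg : Ctrl K g) :
    Ctrl K (fun x => g x ∘ₗ f x : Fam A C) := by
  obtain ⟨S, h1, h2⟩ := h
  obtain ⟨S', h1', h2'⟩ := hg
  refine ⟨_, h1'.comp h1, ?_⟩
  filter_upwards [h2, h2'] with x a b v w hw
  obtain ⟨w', k1, k2⟩ := b _ w hw
  obtain ⟨w'', k3, k4⟩ := a v w' k1
  exact ⟨w'', k3, w', k2, k4⟩

theorem bc_van_add (h : Van K f) (h' : Van K f') : Van K (f + f') :=
  (Ctx.SmS.or h h').mono (.of_forall fun x _ ⟨v, hv⟩ =>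
    ((B x).supp_add _ _ hv).imp (fun h => ⟨v, h⟩) fun h => ⟨v, h⟩)

theorem bc_van_empty (h : ∀ᶠ x in K.F, ∀ v, (B x).supp (f x v) = ∅) : Van K f :=
  K.smS_false.mono (h.mono fun _ hx _ ⟨v, hv⟩ => by simp [hx v] at hv)

theorem bc_van_smul (c : ℂ) (h : Van K f) : Van K (c • f) :=
  Ctx.SmS.mono h (.of_forall fun x _ ⟨v, hv⟩ => ⟨v, (B x).supp_smul c _ hv⟩)

theorem bc_van_comp_left (h : Van K f) (hg : Ctrl K g) :
    Van K (fun x => g x ∘ₗ f x : Fam A C) := by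
  obtain ⟨S, h1, h2⟩ := hg
  refine (Ctx.SmS.near h1 h).mono (h2.mono fun x a w ⟨v, hv⟩ => ?_)
  obtain ⟨w', k1, k2⟩ := a _ w hv
  exact ⟨w', k2, v, k1⟩

theorem bc_van_comp_right (h : Van K g) (f : Fam A B) :
    Van K (fun x => g x ∘ₗ f x : Fam A C) :=
  Ctx.SmS.mono h (.of_forall fun x _ ⟨v, hv⟩ => ⟨f x v, hv⟩)

end BC

def CtrlSub (K : Ctx P) (A B : ∀ x, SM (P x)) : Submodule ℂ (Fam A B) where
  carrier := {f | Ctrl K f}
  add_mem' := bc_ctrl_add
  zero_mem' := bc_ctrl_zero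
  smul_mem' c _ h := bc_ctrl_smul c h

def VanSub (K : Ctx P) (A B : ∀ x, SM (P x)) : Submodule ℂ (CtrlSub K A B) where
  carrier := {f | Van K f.1}
  add_mem' := bc_van_add
  zero_mem' := bc_van_empty (.of_forall fun x _ => (B x).supp_zero)
  smul_mem' c _ h := bc_van_smul c h

structure Ob (K : Ctx P) where
  A : ∀ x, SM (P x)

def Hm (K : Ctx P) (A B : ∀ x, SM (P x)) : Type := CtrlSub K A B ⧸ VanSub K A B

noncomputable instance (K : Ctx P) (A B : ∀ x, SM (P x)) : AddCommGroup (Hm K A B) :=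
  inferInstanceAs (AddCommGroup (CtrlSub K A B ⧸ VanSub K A B))

noncomputable instance (K : Ctx P) (A B : ∀ x, SM (P x)) : Module ℂ (Hm K A B) :=
  inferInstanceAs (Module ℂ (CtrlSub K A B ⧸ VanSub K A B))

open Classical in
noncomputable def hmk0 (K : Ctx P) {A B : ∀ x, SM (P x)} (f : Fam A B) : Hm K A B :=
  if h : Ctrl K f then Submodule.Quotient.mk (p := VanSub K A B) ⟨f, h⟩ else 0

noncomputable def hrep0 {K : Ctx P} {A B : ∀ x, SM (P x)} (f : Hm K A B) : Fam A B :=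
  (Quotient.out (s := _) f : CtrlSub K A B).1

section BC

variable {K : Ctx P} {A B C D : ∀ x, SM (P x)} {f f' : Fam A B} {g : Fam B C}

/-- the quotient map -/
noncomputable def bcq (K : Ctx P) (A B : ∀ x, SM (P x)) : CtrlSub K A B →ₗ[ℂ] Hm K A B :=
  (VanSub K A B).mkQ

theorem bc_mk (h : Ctrl K f) : hmk0 K f = bcq K A B ⟨f, h⟩ := dif_pos h

theorem bc_eq {a b : CtrlSub K A B} : bcq K A B a = bcq K A B b ↔ Van K (a.1 - b.1) :=
  Submodule.Quotient.eq (VanSub K A B)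

theorem bc_rep_ctrl (a : Hm K A B) : Ctrl K (hrep0 a) :=
  (Quotient.out (s := _) a : CtrlSub K A B).2

theorem bc_mk_rep (a : Hm K A B) : hmk0 K (hrep0 a) = a :=
  (bc_mk (bc_rep_ctrl a)).trans (Quotient.out_eq a)

theorem bc_exists (a : Hm K A B) : ∃ f, Ctrl K f ∧ hmk0 K f = a := ⟨_, bc_rep_ctrl a, bc_mk_rep a⟩

theorem bc_eq_iff (h : Ctrl K f) (h' : Ctrl K f') : hmk0 K f = hmk0 K f' ↔ Van K (f - f') := by
  rw [bc_mk h, bc_mk h', bc_eq]

theorem bc_van_rep (h : Ctrl K f) : Van K (hrep0 (hmk0 K f) - f) :=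
  (bc_eq_iff (bc_rep_ctrl _) h).1 (bc_mk_rep _)

theorem bc_add (h : Ctrl K f) (h' : Ctrl K f') : hmk0 K (f + f') = hmk0 K f + hmk0 K f' := by
  rw [bc_mk h, bc_mk h', ← map_add, bc_mk (bc_ctrl_add h h')]; rfl

theorem bc_smul (c : ℂ) (h : Ctrl K f) : hmk0 K (c • f) = c • hmk0 K f := by
  rw [bc_mk h, ← map_smul, bc_mk (bc_ctrl_smul c h)]; rfl

theorem bc_comp (h : Ctrl K f) (hg : Ctrl K g) :
    hmk0 K (fun x => hrep0 (hmk0 K g) x ∘ₗ hrep0 (hmk0 K f) x : Fam A C) =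
      hmk0 K (fun x => g x ∘ₗ f x : Fam A C) := by
  rw [bc_eq_iff (bc_ctrl_comp (bc_rep_ctrl _) (bc_rep_ctrl _)) (bc_ctrl_comp h hg)]
  have := bc_van_add (bc_van_comp_left (bc_van_rep h) (bc_rep_ctrl (hmk0 K g)))
    (bc_van_comp_right (bc_van_rep hg) f)
  convert this using 1
  funext x
  simp [LinearMap.comp_sub, LinearMap.sub_comp]

end BC

noncomputable instance (K : Ctx P) : Category (Ob K) where
  Hom X Y := Hm K X.A Y.A
  id X := hmk0 K fun _ => LinearMap.id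
  comp f g := hmk0 K fun x => hrep0 g x ∘ₗ hrep0 f x
  id_comp f := by
    obtain ⟨f, hf, rfl⟩ := bc_exists f
    exact bc_comp bc_ctrl_id hf
  comp_id f := by
    obtain ⟨f, hf, rfl⟩ := bc_exists f
    exact bc_comp hf bc_ctrl_id
  assoc f g h := by
    obtain ⟨f, hf, rfl⟩ := bc_exists f
    obtain ⟨g, hg, rfl⟩ := bc_exists g
    obtain ⟨h, hh, rfl⟩ := bc_exists h
    rw [bc_comp hf hg, bc_comp hg hh, bc_comp (bc_ctrl_comp hf hg) hh,
      bc_comp hf (bc_ctrl_comp hg hh)]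
    rfl

theorem bc_comp' {K : Ctx P} {X Y Z : Ob K} {f : Fam X.A Y.A} {g : Fam Y.A Z.A} (h : Ctrl K f)
    (hg : Ctrl K g) : CategoryStruct.comp (X := X) (Y := Y) (Z := Z) (hmk0 K f) (hmk0 K g) =
      hmk0 K (fun x => g x ∘ₗ f x : Fam X.A Z.A) := bc_comp h hg

noncomputable instance (K : Ctx P) : Preadditive (Ob K) where
  homGroup X Y := inferInstanceAs (AddCommGroup (Hm K X.A Y.A))
  add_comp X Y Z f f' g := by
    obtain ⟨f, hf, rfl⟩ := bc_exists f
    obtain ⟨f', hf', rfl⟩ := bc_exists f'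
    obtain ⟨g, hg, rfl⟩ := bc_exists g
    have e := bc_add (bc_ctrl_comp hf hg) (bc_ctrl_comp hf' hg)
    rw [← bc_comp' hf hg, ← bc_comp' hf' hg] at e
    refine Eq.trans ?_ e
    refine (congrArg (CategoryStruct.comp · _) (bc_add hf hf').symm).trans ?_
    refine (bc_comp' (bc_ctrl_add hf hf') hg).trans (congrArg _ ?_)
    funext x
    simp [LinearMap.comp_add]
  comp_add X Y Z f g g' := by
    obtain ⟨f, hf, rfl⟩ := bc_exists f
    obtain ⟨g', hg', rfl⟩ := bc_exists g'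
    obtain ⟨g, hg, rfl⟩ := bc_exists g
    have e := bc_add (bc_ctrl_comp hf hg) (bc_ctrl_comp hf hg')
    rw [← bc_comp' hf hg, ← bc_comp' hf hg'] at e
    refine Eq.trans ?_ e
    refine (congrArg (CategoryStruct.comp _ ·) (bc_add hg hg').symm).trans ?_
    refine (bc_comp' hf (bc_ctrl_add hg hg')).trans (congrArg _ ?_)
    funext x
    simp [LinearMap.add_comp]

noncomputable instance (K : Ctx P) : Linear ℂ (Ob K) where
  homModule X Y := inferInstanceAs (Module ℂ (Hm K X.A Y.A))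
  smul_comp X Y Z c f g := by
    obtain ⟨f, hf, rfl⟩ := bc_exists f
    obtain ⟨g, hg, rfl⟩ := bc_exists g
    have e := bc_smul c (bc_ctrl_comp hf hg)
    rw [← bc_comp' hf hg] at e
    refine Eq.trans ?_ e
    refine (congrArg (CategoryStruct.comp · _) (bc_smul c hf).symm).trans ?_
    refine (bc_comp' (bc_ctrl_smul c hf) hg).trans (congrArg _ ?_)
    funext x
    simp [LinearMap.comp_smul]
  comp_smul X Y Z f c g := by
    obtain ⟨f, hf, rfl⟩ := bc_exists f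
    obtain ⟨g, hg, rfl⟩ := bc_exists g
    have e := bc_smul c (bc_ctrl_comp hf hg)
    rw [← bc_comp' hf hg] at e
    refine Eq.trans ?_ e
    refine (congrArg (CategoryStruct.comp _ ·) (bc_smul c hg).symm).trans ?_
    refine (bc_comp' hf (bc_ctrl_smul c hg)).trans (congrArg _ ?_)
    funext x
    simp [LinearMap.smul_comp]

variable {K K' : Ctx P}

/-- the class of a family (junk value `0` if it is not controlled) -/
noncomputable def hmk (X Y : Ob K) (f : Fam X.A Y.A) : X ⟶ Y := hmk0 K f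

/-- a representative -/
noncomputable def hrep {X Y : Ob K} (f : X ⟶ Y) : Fam X.A Y.A := hrep0 (K := K) f

/-- the same object in another context -/
abbrev Ob.re (K' : Ctx P) (X : Ob K) : Ob K' := ⟨X.A⟩

/-- change of context -/
noncomputable def resH (K' : Ctx P) {X Y : Ob K} (f : X ⟶ Y) : X.re K' ⟶ Y.re K' :=
  hmk (X.re K') (Y.re K') (hrep (X := X) (Y := Y) f)

section Fam

variable {A B C : ∀ x, SM (P x)} {f f' : Fam A B} {g : Fam B C}

theorem Ctrl.eps (h : Ctrl K f) : ∀ ε > (0 : ℝ), ∀ᶠ x in K.F, ∀ v, ∀ w ∈ (B x).supp (f x v),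
    ∃ w' ∈ (A x).supp v, K.d x w w' < ε := by
  intro ε hε
  obtain ⟨S, h1, h2⟩ := h
  filter_upwards [h1 ε hε, h2] with x a b v w hw
  obtain ⟨w', k1, k2⟩ := b v w hw
  exact ⟨w', k1, a _ _ k2⟩

theorem ctrl_of_subset (h : ∀ᶠ x in K.F, ∀ v, (B x).supp (f x v) ⊆ (A x).supp v) : Ctrl K f :=
  bc_ctrl_subset h

theorem ctrl_of_zero
    (h : ∀ᶠ x in K.F, ∀ v, ∀ w ∈ (B x).supp (f x v), ∃ w' ∈ (A x).supp v, K.d x w w' = 0) :
    Ctrl K f :=
  ⟨fun x a b => K.d x a b = 0, fun _ hε => .of_forall fun _ _ _ h => h.trans_lt hε, h⟩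

theorem Ctrl.add (h : Ctrl K f) (h' : Ctrl K f') : Ctrl K (f + f') :=
  bc_ctrl_add h h'
theorem Ctrl.sub (h : Ctrl K f) (h' : Ctrl K f') : Ctrl K (f - f') :=
  (CtrlSub K A B).sub_mem h h'
theorem Ctrl.neg (h : Ctrl K f) : Ctrl K (-f) :=
  (CtrlSub K A B).neg_mem h
theorem Ctrl.smul (c : ℂ) (h : Ctrl K f) : Ctrl K (c • f) :=
  bc_ctrl_smul c h
theorem ctrl_zero : Ctrl K (0 : Fam A B) :=
  bc_ctrl_zero
theorem ctrl_id : Ctrl K (fun _ => LinearMap.id : Fam A A) :=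
  bc_ctrl_id
theorem Ctrl.comp (h : Ctrl K f) (hg : Ctrl K g) : Ctrl K (fun x => g x ∘ₗ f x : Fam A C) :=
  bc_ctrl_comp h hg
theorem Ctrl.le (h : Ctrl K f) (hK : K.Le K') : Ctrl K' f := by
  obtain ⟨S, h1, h2⟩ := h
  exact ⟨S, hK.smR S h1, hK.F h2⟩
theorem Van.le (h : Van K f) (hK : K.Le K') : Van K' f :=
  hK.smS _ h
theorem Van.comp_left (h : Van K f) (hg : Ctrl K g) : Van K (fun x => g x ∘ₗ f x : Fam A C) :=
  bc_van_comp_left h hg
theorem Van.comp_right (h : Van K g) (f : Fam A B) : Van K (fun x => g x ∘ₗ f x : Fam A C) :=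
  bc_van_comp_right h f
theorem van_of_empty (h : ∀ᶠ x in K.F, ∀ v, (B x).supp (f x v) = ∅) : Van K f :=
  bc_van_empty h

/-- a controlled and vanishing family kills the supports of deep vectors -/
theorem Van.empty (h : Van K f) (hc : Ctrl K f) : ∀ ε > (0 : ℝ), ∀ᶠ x in K.F, ∀ v,
    (∀ w ∈ (A x).supp v, ε ≤ K.dep x w) → (B x).supp (f x v) = ∅ := by
  intro ε hε
  filter_upwards [h _ (half_pos hε), hc.eps _ (half_pos hε)] with x a b v hv
  refine Set.eq_empty_iff_forall_notMem.2 fun w hw => ?_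
  obtain ⟨w', k1, k2⟩ := b v w hw
  have := K.dep_lip x w' w
  rw [K.d_symm] at this
  linarith [a w ⟨v, hw⟩, hv w' k1]

end Fam

section Hom

variable {X Y Z : Ob K} {f f' : Fam X.A Y.A}

theorem hrep_ctrl (a : X ⟶ Y) : Ctrl K (hrep a) :=
  bc_rep_ctrl a
theorem hmk_hrep (a : X ⟶ Y) : hmk X Y (hrep a) = a :=
  bc_mk_rep a
theorem exists_hmk (a : X ⟶ Y) : ∃ f, Ctrl K f ∧ hmk X Y f = a :=
  bc_exists a
theorem hmk_eq_iff (h : Ctrl K f) (h' : Ctrl K f') : hmk X Y f = hmk X Y f' ↔ Van K (f - f') :=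
  bc_eq_iff h h'
theorem hmk_eq_zero_iff (h : Ctrl K f) : hmk X Y f = 0 ↔ Van K f := by
  have : (0 : X ⟶ Y) = hmk X Y 0 := ((bc_mk bc_ctrl_zero).trans (map_zero (bcq K X.A Y.A))).symm
  rw [this, hmk_eq_iff h ctrl_zero, sub_zero]
theorem van_hrep_hmk (h : Ctrl K f) : Van K (hrep (hmk X Y f) - f) :=
  bc_van_rep h
theorem hmk_add (h : Ctrl K f) (h' : Ctrl K f') : hmk X Y (f + f') = hmk X Y f + hmk X Y f' :=
  bc_add h h'
theorem hmk_sub (h : Ctrl K f) (h' : Ctrl K f') : hmk X Y (f - f') = hmk X Y f - hmk X Y f' := by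
  rw [eq_sub_iff_add_eq, ← hmk_add (h.sub h') h', sub_add_cancel]
theorem hmk_neg (h : Ctrl K f) : hmk X Y (-f) = -hmk X Y f := by
  rw [eq_neg_iff_add_eq_zero, ← hmk_add h.neg h, neg_add_cancel, hmk_eq_zero_iff ctrl_zero]
  exact van_of_empty (.of_forall fun x _ => (Y.A x).supp_zero)
theorem hmk_smul (c : ℂ) (h : Ctrl K f) : hmk X Y (c • f) = c • hmk X Y f :=
  bc_smul c h
theorem hmk_zero : hmk X Y 0 = 0 :=
  (bc_mk bc_ctrl_zero).trans (map_zero (bcq K X.A Y.A))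
theorem hmk_id : hmk X X (fun _ => LinearMap.id) = 𝟙 X :=
  rfl
theorem hmk_comp (h : Ctrl K f) {g : Fam Y.A Z.A} (hg : Ctrl K g) :
    hmk X Y f ≫ hmk Y Z g = hmk X Z fun x => g x ∘ₗ f x :=
  bc_comp h hg

theorem resH_hmk (hK : K.Le K') (h : Ctrl K f) :
    resH K' (hmk X Y f) = hmk (X.re K') (Y.re K') f :=
  (hmk_eq_iff (X := X.re K') (Y := Y.re K') ((hrep_ctrl (hmk X Y f)).le hK)
    (h.le hK)).2
    ((van_hrep_hmk h).le hK)
theorem resH_add (hK : K.Le K') (a b : X ⟶ Y) : resH K' (a + b) = resH K' a + resH K' b := by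
  obtain ⟨f, hf, rfl⟩ := exists_hmk a
  obtain ⟨g, hg, rfl⟩ := exists_hmk b
  rw [← hmk_add hf hg, resH_hmk hK hf, resH_hmk hK hg, resH_hmk hK (hf.add hg)]
  exact hmk_add (X := X.re K') (Y := Y.re K') (hf.le hK) (hg.le hK)
theorem resH_sub (hK : K.Le K') (a b : X ⟶ Y) : resH K' (a - b) = resH K' a - resH K' b := by
  rw [eq_sub_iff_add_eq, ← resH_add hK, sub_add_cancel]
theorem resH_zero (hK : K.Le K') : resH K' (0 : X ⟶ Y) = 0 := by
  have := resH_sub hK (0 : X ⟶ Y) 0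
  rwa [sub_self, sub_self] at this
theorem resH_id (hK : K.Le K') : resH K' (𝟙 X) = 𝟙 (X.re K') := by
  rw [← hmk_id, resH_hmk hK ctrl_id]; rfl
theorem resH_comp (hK : K.Le K') (a : X ⟶ Y) (b : Y ⟶ Z) :
    resH K' (a ≫ b) = resH K' a ≫ resH K' b := by
  obtain ⟨f, hf, rfl⟩ := exists_hmk a
  obtain ⟨g, hg, rfl⟩ := exists_hmk b
  rw [hmk_comp hf hg, resH_hmk hK hf, resH_hmk hK hg, resH_hmk hK (hf.comp hg)]
  exact (hmk_comp (X := X.re K') (Y := Y.re K') (Z := Z.re K') (hf.le hK) (hg.le hK)).symm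
theorem resH_sum (hK : K.Le K') {S : Type*} (s : Finset S) (a : S → (X ⟶ Y)) :
    resH K' (∑ j ∈ s, a j) = ∑ j ∈ s, resH K' (a j) := by
  classical
  induction s using Finset.induction_on with
  | empty => simp [resH_zero hK]
  | insert j s hj ih => rw [Finset.sum_insert hj, Finset.sum_insert hj, resH_add hK, ih]

end Hom

end Crest.Agent.R217
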