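import Crest.Agent.R217.ADefs

/-! Row 217, part B: control contexts and the asymptotic matrix `⋆`-algebra `R K`.
A context gives, for every index `x : ι` (along a filter `F`), a pseudometric `d x` and a depth
`dep x` on `P x`.  `R K` = families of matrices with propagation `→ 0`, modulo those supported at
depth `→ 0`.  Definitions: DO NOT CHANGE (owner helper92); only fill in the proofs. -/

set_option autoImplicit false
set_option linter.unusedSectionVars false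

namespace Crest.Agent.R217

open Filter Topology

structure Ctx {ι : Type} (P : ι → Type) where
  F : Filter ι
  d : ∀ x, P x → P x → ℝ
  dep : ∀ x, P x → ℝ
  d_self : ∀ x a, d x a a = 0
  d_symm : ∀ x a b, d x a b = d x b a
  d_tri : ∀ x a b c, d x a c ≤ d x a b + d x b c
  dep_lip : ∀ x a b, dep x a ≤ dep x b + d x a b

variable {ι : Type} {P Q : ι → Type}

/-- small relation -/
def Ctx.SmR (K : Ctx P) (S : ∀ x, P x → P x → Prop) : Prop :=
  ∀ ε > (0 : ℝ), ∀ᶠ x in K.F, ∀ a b, S x a b → K.d x a b < ε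

/-- shallow set -/
def Ctx.SmS (K : Ctx P) (S : ∀ x, P x → Prop) : Prop :=
  ∀ ε > (0 : ℝ), ∀ᶠ x in K.F, ∀ a, S x a → K.dep x a < ε

/-- `K`-control implies `K'`-control -/
structure Ctx.Le (K K' : Ctx P) : Prop where
  F : K'.F ≤ K.F
  smR : ∀ S, K.SmR S → K'.SmR S
  smS : ∀ S, K.SmS S → K'.SmS S

/-- pull back of a context -/
@[reducible] def Ctx.comap (K : Ctx P) (f : ∀ x, Q x → P x) : Ctx Q where
  F := K.F
  d x a b := K.d x (f x a) (f x b)
  dep x a := K.dep x (f x a)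
  d_self x a := K.d_self x (f x a)
  d_symm x a b := K.d_symm x (f x a) (f x b)
  d_tri x a b c := K.d_tri x (f x a) (f x b) (f x c)
  dep_lip x a b := K.dep_lip x (f x a) (f x b)

/-- the context on `P x × T x` that ignores the second factor -/
abbrev Ctx.prod (K : Ctx P) (T : ι → Type) : Ctx (fun x => P x × T x) :=
  K.comap fun _ p => p.1

/-- the coordinate context with radius `r` (sup norm) -/
noncomputable def coordR {n : ℕ} (F : Filter ι) (r : ℝ) (c : ∀ x, P x → Fin n → ℝ) : Ctx P where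
  F := F
  d x a b := ‖c x a - c x b‖
  dep x a := r - ‖c x a‖
  d_self x a := by simp
  d_symm x a b := norm_sub_rev _ _
  d_tri x a b c' := norm_sub_le_norm_sub_add_norm_sub _ _ _
  dep_lip x a b := by
    have := norm_sub_norm_le (c x b) (c x a)
    rw [norm_sub_rev] at this
    linarith

/-- the coordinate context of radius `10` -/
noncomputable abbrev coord {n : ℕ} (F : Filter ι) (c : ∀ x, P x → Fin n → ℝ) : Ctx P :=
  coordR F 10 c

/-- `p` holds for `K`-close pairs that are `K'`-deep -/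
def Near (K K' : Ctx P) (p : ∀ x, P x → P x → Prop) : Prop :=
  ∀ S, K.SmR S → K'.SmS fun x a => ∃ b, S x a b ∧ ¬p x a b

/-- `p` holds for `K`-close triples that are `K'`-deep -/
def Near3 (K K' : Ctx P) (p : ∀ x, P x → P x → P x → Prop) : Prop :=
  ∀ S S', K.SmR S → K.SmR S' → K'.SmS fun x a => ∃ b c, S x a b ∧ S' x b c ∧ ¬p x a b c

/-- a kernel with support `N` maps `K`-control to `K'`-control -/
structure Adm (K K' : Ctx P) (N : ∀ x, P x → P x → Prop) : Prop where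
  F : K'.F ≤ K.F
  smR : ∀ S, K.SmR S → K'.SmR fun x a b => S x a b ∧ N x a b
  smS : ∀ S, K.SmR S → K.SmS (fun x a => ∃ b, S x a b) →
    K'.SmS fun x a => ∃ b, S x a b ∧ N x a b

section Basic

variable {K K' K'' : Ctx P}

theorem Ctx.d_nonneg (K : Ctx P) (x : ι) (a b : P x) : 0 ≤ K.d x a b := by
  have := K.d_tri x a b a
  rw [K.d_self, K.d_symm x b a] at this
  linarith

theorem Ctx.SmR.mono {S S' : ∀ x, P x → P x → Prop} (h : K.SmR S)
    (hS : ∀ᶠ x in K.F, ∀ a b, S' x a b → S x a b) : K.SmR S' :=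
  fun ε hε => by
  filter_upwards [h ε hε, hS] with x h1 h2 a b h3 using h1 a b (h2 a b h3)

theorem Ctx.SmS.mono {S S' : ∀ x, P x → Prop} (h : K.SmS S)
    (hS : ∀ᶠ x in K.F, ∀ a, S' x a → S x a) : K.SmS S' :=
  fun ε hε => by
  filter_upwards [h ε hε, hS] with x h1 h2 a h3 using h1 a (h2 a h3)

theorem Ctx.smR_eq (K : Ctx P) : K.SmR fun _ a b => a = b :=
  fun ε hε => .of_forall fun x a b h => by rwa [h, K.d_self]

theorem Ctx.SmR.symm {S : ∀ x, P x → P x → Prop} (h : K.SmR S) : K.SmR fun x a b => S x b a :=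
  fun ε hε => (h ε hε).mono fun x hx a b h1 => by rw [K.d_symm]; exact hx b a h1

theorem Ctx.SmR.or {S S' : ∀ x, P x → P x → Prop} (h : K.SmR S) (h' : K.SmR S') :
    K.SmR fun x a b => S x a b ∨ S' x a b :=
  fun ε hε => by
  filter_upwards [h ε hε, h' ε hε] with x h1 h2 a b h3 using h3.elim (h1 a b) (h2 a b)

theorem Ctx.SmR.comp {S S' : ∀ x, P x → P x → Prop} (h : K.SmR S) (h' : K.SmR S') :
    K.SmR fun x a c => ∃ b, S x a b ∧ S' x b c :=
  fun ε hε => by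
  filter_upwards [h _ (half_pos hε), h' _ (half_pos hε)] with x h1 h2 a c ⟨b, h3, h4⟩
  linarith [h1 a b h3, h2 b c h4, K.d_tri x a b c]

theorem Ctx.smS_false (K : Ctx P) : K.SmS fun _ _ => False :=
  fun _ _ => .of_forall fun _ _ h => h.elim

theorem Ctx.SmS.or {S S' : ∀ x, P x → Prop} (h : K.SmS S) (h' : K.SmS S') :
    K.SmS fun x a => S x a ∨ S' x a :=
  fun ε hε => by
  filter_upwards [h ε hε, h' ε hε] with x h1 h2 a h3 using h3.elim (h1 a) (h2 a)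

theorem Ctx.SmS.near {S : ∀ x, P x → P x → Prop} {Z : ∀ x, P x → Prop} (h : K.SmR S)
    (hZ : K.SmS Z) : K.SmS fun x a => ∃ b, S x a b ∧ Z x b :=
  fun ε hε => by
  filter_upwards [h _ (half_pos hε), hZ _ (half_pos hε)] with x h1 h2 a ⟨b, h3, h4⟩
  linarith [h1 a b h3, h2 b h4, K.dep_lip x a b]

theorem Ctx.Le.refl (K : Ctx P) : K.Le K :=
  ⟨le_rfl, fun _ h => h, fun _ h => h⟩

theorem Ctx.Le.trans (h : K.Le K') (h' : K'.Le K'') : K.Le K'' :=
  ⟨h'.F.trans h.F, fun S hS => h'.smR S (h.smR S hS), fun S hS => h'.smS S (h.smS S hS)⟩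

theorem bd_smR {f : ∀ x, Q x → P x} {S : ∀ x, Q x → Q x → Prop} :
    (K.comap f).SmR S ↔ K.SmR fun x p q => ∃ a b, S x a b ∧ f x a = p ∧ f x b = q :=
  ⟨fun h ε hε => (h ε hε).mono fun x hx => by
    rintro _ _ ⟨a, b, h1, rfl, rfl⟩
    exact hx a b h1,
  fun h ε hε => (h ε hε).mono fun _ hx a b h1 => hx _ _ ⟨a, b, h1, rfl, rfl⟩⟩

theorem bd_smS {f : ∀ x, Q x → P x} {S : ∀ x, Q x → Prop} :
    (K.comap f).SmS S ↔ K.SmS fun x p => ∃ a, S x a ∧ f x a = p :=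
  ⟨fun h ε hε => (h ε hε).mono fun x hx => by
    rintro _ ⟨a, h1, rfl⟩
    exact hx a h1,
  fun h ε hε => (h ε hε).mono fun _ hx a h1 => hx _ ⟨a, h1, rfl⟩⟩

theorem Ctx.Le.comap (h : K.Le K') (f : ∀ x, Q x → P x) : (K.comap f).Le (K'.comap f) :=
  ⟨h.F, fun _ hS => bd_smR.2 (h.smR _ (bd_smR.1 hS)), fun _ hS => bd_smS.2 (h.smS _ (bd_smS.1 hS))⟩

/-- uniform `ε`-`δ` criterion -/
theorem Ctx.Le.of_eps (hF : K'.F ≤ K.F)
    (hd : ∀ ε > (0 : ℝ), ∃ δ > (0 : ℝ), ∀ᶠ x in K'.F, ∀ a b, K.d x a b < δ → K'.d x a b < ε)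
    (hp : ∀ ε > (0 : ℝ), ∃ δ > (0 : ℝ), ∀ᶠ x in K'.F, ∀ a, K.dep x a < δ → K'.dep x a < ε) :
    K.Le K' := by
  refine ⟨hF, fun S hS ε hε => ?_, fun S hS ε hε => ?_⟩
  · obtain ⟨δ, hδ, h⟩ := hd ε hε
    filter_upwards [hF (hS δ hδ), h] with x h1 h2 a b h3 using h2 a b (h1 a b h3)
  · obtain ⟨δ, hδ, h⟩ := hp ε hε
    filter_upwards [hF (hS δ hδ), h] with x h1 h2 a h3 using h2 a (h1 a h3)

/-- criterion with an `x`-dependent modulus `δ x` below which every positive `K`-null function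
eventually falls (used for suprema of filters and for `Filter.curry`) -/
theorem Ctx.Le.of_fun (hF : K'.F ≤ K.F)
    (hd : ∀ ε > (0 : ℝ), ∃ δ : ι → ℝ,
      (∀ A : ℝ → Set ι, (∀ η > (0 : ℝ), A η ∈ K.F) → ∀ᶠ x in K'.F, x ∈ A (δ x)) ∧
      ∀ᶠ x in K'.F, (∀ a b, K.d x a b < δ x → K'.d x a b < ε) ∧
        ∀ a, K.dep x a < δ x → K'.dep x a < ε) :
    K.Le K' := by
  refine ⟨hF, fun S hS ε hε => ?_, fun S hS ε hε => ?_⟩
  · obtain ⟨δ, hδ, h⟩ := hd ε hε
    filter_upwards [hδ (fun η => {x | ∀ a b, S x a b → K.d x a b < η}) hS, h]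
      with x h1 h2 a b h3 using h2.1 a b (h1 a b h3)
  · obtain ⟨δ, hδ, h⟩ := hd ε hε
    filter_upwards [hδ (fun η => {x | ∀ a, S x a → K.dep x a < η}) hS, h]
      with x h1 h2 a h3 using h2.2 a (h1 a h3)

theorem Near.of_eps {p : ∀ x, P x → P x → Prop} (hF : K'.F ≤ K.F)
    (h : ∀ ε > (0 : ℝ), ∃ δ > (0 : ℝ), ∀ᶠ x in K'.F, ∀ a b, K.d x a b < δ → ε ≤ K'.dep x a →
      p x a b) : Near K K' p :=
  fun S hS ε hε => by
  obtain ⟨δ, hδ, h⟩ := h ε hε
  filter_upwards [hF (hS δ hδ), h] with x h1 h2 a ⟨b, hb, hp⟩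
  exact not_le.1 fun h3 => hp (h2 a b (h1 a b hb) h3)

theorem Near3.of_eps {p : ∀ x, P x → P x → P x → Prop} (hF : K'.F ≤ K.F)
    (h : ∀ ε > (0 : ℝ), ∃ δ > (0 : ℝ), ∀ᶠ x in K'.F, ∀ a b c, K.d x a b < δ → K.d x b c < δ →
      ε ≤ K'.dep x a → p x a b c) : Near3 K K' p :=
  fun S S' hS hS' ε hε => by
  obtain ⟨δ, hδ, h⟩ := h ε hε
  filter_upwards [hF (hS δ hδ), hF (hS' δ hδ), h] with x h1 h1' h2 a ⟨b, c, hb, hc, hp⟩
  exact not_le.1 fun h3 => hp (h2 a b c (h1 a b hb) (h1' b c hc) h3)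

theorem Near.of_forall {p : ∀ x, P x → P x → Prop} (h : ∀ x a b, p x a b) : Near K K' p :=
  fun _ _ => K'.smS_false.mono (.of_forall fun x a ⟨b, _, hp⟩ => hp (h x a b))

theorem Near3.of_forall {p : ∀ x, P x → P x → P x → Prop} (h : ∀ x a b c, p x a b c) :
    Near3 K K' p :=
  fun _ _ _ _ => K'.smS_false.mono (.of_forall fun x a ⟨b, c, _, _, hp⟩ => hp (h x a b c))

theorem Near.mono {p p' : ∀ x, P x → P x → Prop} (h : Near K K' p)
    (hp : ∀ x a b, p x a b → p' x a b) : Near K K' p' :=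
  fun S hS => (h S hS).mono (.of_forall fun x a ⟨b, h1, h2⟩ => ⟨b, h1, mt (hp x a b) h2⟩)

theorem Near.and {p p' : ∀ x, P x → P x → Prop} (h : Near K K' p) (h' : Near K K' p') :
    Near K K' fun x a b => p x a b ∧ p' x a b :=
  fun S hS => ((h S hS).or (h' S hS)).mono (.of_forall fun _ _ ⟨b, h1, h2⟩ =>
    (not_and_or.1 h2).imp (fun h => ⟨b, h1, h⟩) fun h => ⟨b, h1, h⟩)

theorem Near3.mono {p p' : ∀ x, P x → P x → P x → Prop} (h : Near3 K K' p)
    (hp : ∀ x a b c, p x a b c → p' x a b c) : Near3 K K' p' :=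
  fun S S' hS hS' => (h S S' hS hS').mono
    (.of_forall fun x a ⟨b, c, h1, h2, h3⟩ => ⟨b, c, h1, h2, mt (hp x a b c) h3⟩)

theorem Near.comap {p : ∀ x, P x → P x → Prop} (h : Near K K' p) (f : ∀ x, Q x → P x) :
    Near (K.comap f) (K'.comap f) fun x a b => p x (f x a) (f x b) :=
  fun _ hS ε hε => (h _ (bd_smR.1 hS) ε hε).mono fun _ hx a ⟨b, h1, h2⟩ =>
    hx _ ⟨_, ⟨a, b, h1, rfl, rfl⟩, h2⟩

theorem Near3.comap {p : ∀ x, P x → P x → P x → Prop} (h : Near3 K K' p) (f : ∀ x, Q x → P x) :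
    Near3 (K.comap f) (K'.comap f) fun x a b c => p x (f x a) (f x b) (f x c) :=
  fun _ _ hS hS' ε hε => (h _ _ (bd_smR.1 hS) (bd_smR.1 hS') ε hε).mono
    fun _ hx a ⟨b, c, h1, h2, h3⟩ => hx _ ⟨_, _, ⟨a, b, h1, rfl, rfl⟩, ⟨b, c, h2, rfl, rfl⟩, h3⟩

theorem Near.le {K₀ K₁ : Ctx P} {p : ∀ x, P x → P x → Prop} (h : Near K K' p) (h0 : K₀.Le K)
    (h1 : K'.Le K₁) : Near K₀ K₁ p :=
  fun S hS => h1.smS _ (h S (h0.smR S hS))

theorem Near3.le {K₀ K₁ : Ctx P} {p : ∀ x, P x → P x → P x → Prop} (h : Near3 K K' p)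
    (h0 : K₀.Le K) (h1 : K'.Le K₁) : Near3 K₀ K₁ p :=
  fun S S' hS hS' => h1.smS _ (h S S' (h0.smR S hS) (h0.smR S' hS'))

theorem Ctx.Le.adm (h : K.Le K') (N : ∀ x, P x → P x → Prop) : Adm K K' N :=
  ⟨h.F, fun _ hS => h.smR _ (hS.mono (.of_forall fun _ _ _ h => h.1)),
    fun _ _ hS => h.smS _ (hS.mono (.of_forall fun _ _ ⟨b, h, _⟩ => ⟨b, h⟩))⟩

theorem Adm.mono {N N' : ∀ x, P x → P x → Prop} (h : Adm K K' N) (hN : ∀ x a b, N' x a b → N x a b) :
    Adm K K' N' :=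
  ⟨h.F, fun S hS => (h.smR S hS).mono (.of_forall fun x a b h => ⟨h.1, hN x a b h.2⟩),
    fun S hS hS' => (h.smS S hS hS').mono
      (.of_forall fun x a ⟨b, h1, h2⟩ => ⟨b, h1, hN x a b h2⟩)⟩

theorem Adm.le {K₀ K₁ : Ctx P} {N : ∀ x, P x → P x → Prop} (h : Adm K K' N) (h0 : K₀.Le K)
    (h1 : K'.Le K₁) : Adm K₀ K₁ N :=
  ⟨h1.F.trans (h.F.trans h0.F), fun S hS => h1.smR _ (h.smR S (h0.smR S hS)),
    fun S hS hS' => h1.smS _ (h.smS S (h0.smR S hS) (h0.smS _ hS'))⟩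

theorem Adm.comap {N : ∀ x, P x → P x → Prop} (h : Adm K K' N) (f : ∀ x, Q x → P x) :
    Adm (K.comap f) (K'.comap f) fun x a b => N x (f x a) (f x b) := by
  refine ⟨h.F, fun S hS ε hε => (h.smR _ (bd_smR.1 hS) ε hε).mono fun x hx a b h1 =>
    hx _ _ ⟨⟨a, b, h1.1, rfl, rfl⟩, h1.2⟩, fun S hS hS' ε hε =>
    (h.smS _ (bd_smR.1 hS) ((bd_smS.1 hS').mono (.of_forall ?_)) ε hε).mono
      fun x hx a ⟨b, h1, h2⟩ => hx _ ⟨_, ⟨a, b, h1, rfl, rfl⟩, h2⟩⟩
  rintro x _ ⟨_, a, b, h1, rfl, rfl⟩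
  exact ⟨a, ⟨b, h1⟩, rfl⟩

end Basic

section Ring

variable {I : ι → Type} [∀ x, Fintype (I x)] [∀ x, DecidableEq (I x)]

/-- families of matrices -/
abbrev MF (I : ι → Type) := ∀ x, Matrix (I x) (I x) ℂ

/-- controlled family -/
def MC (K : Ctx I) (A : MF I) : Prop := K.SmR fun x a b => A x a b ≠ 0

/-- family supported at vanishing depth -/
def MV (K : Ctx I) (A : MF I) : Prop := K.SmS fun x a => ∃ b, A x a b ≠ 0

omit [∀ x, DecidableEq (I x)] in
theorem bd_mul_ne {A B : MF I} {x : ι} {a c : I x} (h : (A * B) x a c ≠ 0) :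
    ∃ b, A x a b ≠ 0 ∧ B x b c ≠ 0 := by
  obtain ⟨b, -, hb⟩ := Finset.exists_ne_zero_of_sum_ne_zero
    (show ∑ b, A x a b * B x b c ≠ 0 from h)
  exact ⟨b, mul_ne_zero_iff.1 hb⟩

omit [∀ x, Fintype (I x)] [∀ x, DecidableEq (I x)] in
theorem bd_add_ne {A B : MF I} {x : ι} {a b : I x} (h : (A + B) x a b ≠ 0) :
    A x a b ≠ 0 ∨ B x a b ≠ 0 := by
  by_contra! h'
  exact h (show A x a b + B x a b = 0 by rw [h'.1, h'.2, add_zero])

omit [∀ x, Fintype (I x)] [∀ x, DecidableEq (I x)] in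
theorem bd_star_ne {A : MF I} {x : ι} {a b : I x} (h : (star A) x a b ≠ 0) : A x b a ≠ 0 :=
  fun h' => h (show star (A x b a) = 0 by rw [h', star_zero])

def CM (K : Ctx I) : StarSubalgebra ℂ (MF I) where
  carrier := {A | MC K A}
  mul_mem' hA hB := (Ctx.SmR.comp hA hB).mono (.of_forall fun _ _ _ => bd_mul_ne)
  add_mem' hA hB := (Ctx.SmR.or hA hB).mono (.of_forall fun _ _ _ => bd_add_ne)
  algebraMap_mem' r := K.smR_eq.mono (.of_forall fun x a b h => by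
    by_contra h'
    exact h (by simp [Matrix.algebraMap_matrix_apply, h']))
  star_mem' hA := (Ctx.SmR.symm hA).mono (.of_forall fun _ _ _ => bd_star_ne)

def VM (K : Ctx I) : Ideal (CM K) where
  carrier := {A | MV K A.1}
  add_mem' hA hB := (Ctx.SmS.or hA hB).mono (.of_forall fun _ _ ⟨b, h⟩ =>
    (bd_add_ne h).imp (fun h => ⟨b, h⟩) fun h => ⟨b, h⟩)
  zero_mem' := K.smS_false.mono (.of_forall fun _ _ ⟨_, h⟩ => h rfl)
  smul_mem' C _ hA := (Ctx.SmS.near C.2 hA).mono (.of_forall fun _ _ ⟨c, h⟩ =>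
    (bd_mul_ne h).imp fun _ h => ⟨h.1, c, h.2⟩)

instance (K : Ctx I) : (VM K).IsTwoSided :=
  ⟨fun _ hA => Ctx.SmS.mono hA (.of_forall fun _ _ ⟨_, h⟩ => (bd_mul_ne h).imp fun _ h => h.1)⟩

/-- the asymptotic matrix algebra -/
def R (K : Ctx I) : Type := CM K ⧸ VM K

noncomputable instance (K : Ctx I) : Ring (R K) := inferInstanceAs (Ring (CM K ⧸ VM K))

noncomputable instance (K : Ctx I) : Algebra ℂ (R K) := inferInstanceAs (Algebra ℂ (CM K ⧸ VM K))

open Classical in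
/-- class of a family (junk value `0` if it is not controlled) -/
noncomputable def mk (K : Ctx I) (A : MF I) : R K :=
  if h : MC K A then Ideal.Quotient.mk (VM K) ⟨A, h⟩ else 0

/-- a representative -/
noncomputable def rep {K : Ctx I} (φ : R K) : MF I := (Quotient.out (s := _) φ : CM K).1

/-- the quotient map -/
noncomputable def bdq (K : Ctx I) : CM K →ₐ[ℂ] R K := Ideal.Quotient.mkₐ ℂ (VM K)

theorem bd_surj {K : Ctx I} (φ : R K) : ∃ A, bdq K A = φ := Ideal.Quotient.mk_surjective φ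

theorem bd_mk {K : Ctx I} {A : MF I} (hA : MC K A) : mk K A = bdq K ⟨A, hA⟩ := dif_pos hA

theorem bd_eq {K : Ctx I} {A B : CM K} : bdq K A = bdq K B ↔ MV K (A.1 - B.1) :=
  Ideal.Quotient.eq

theorem bd_out {K : Ctx I} (φ : R K) : bdq K (Quotient.out (s := _) φ : CM K) = φ :=
  Quotient.out_eq φ

theorem bd_star {K : Ctx I} (A : CM K) : mk K (star (rep (bdq K A))) = bdq K (star A) := by
  obtain ⟨B, hB, h⟩ : ∃ B : CM K, rep (bdq K A) = B.1 ∧ bdq K B = bdq K A := ⟨_, rfl, bd_out _⟩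
  rw [hB, bd_mk (A := star B.1) (star B).2, bd_eq]
  refine (Ctx.SmS.near (star (B - A)).2 (bd_eq.1 h)).mono (.of_forall fun x a ⟨b, h1⟩ => ?_)
  have h2 : (star (B.1 - A.1)) x a b ≠ 0 := by rwa [star_sub]
  exact ⟨b, h2, a, bd_star_ne h2⟩

noncomputable instance (K : Ctx I) : StarRing (R K) where
  star φ := mk K (star (rep φ))
  star_involutive φ := by
    obtain ⟨A, rfl⟩ := bd_surj φ
    change mk K (star (rep (mk K (star (rep _))))) = _
    rw [bd_star, bd_star, star_star]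
  star_mul φ ψ := by
    obtain ⟨A, rfl⟩ := bd_surj φ
    obtain ⟨B, rfl⟩ := bd_surj ψ
    change mk K (star (rep _)) = mk K (star (rep _)) * mk K (star (rep _))
    rw [← map_mul, bd_star, bd_star, bd_star, star_mul, map_mul]
  star_add φ ψ := by
    obtain ⟨A, rfl⟩ := bd_surj φ
    obtain ⟨B, rfl⟩ := bd_surj ψ
    change mk K (star (rep _)) = mk K (star (rep _)) + mk K (star (rep _))
    rw [← map_add, bd_star, bd_star, bd_star, star_add, map_add]

theorem bd_star' {K : Ctx I} (A : CM K) : star (bdq K A) = bdq K (star A) := bd_star A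

instance (K : Ctx I) : StarModule ℂ (R K) := ⟨fun c φ => by
  obtain ⟨A, rfl⟩ := bd_surj φ
  rw [← map_smul, bd_star', bd_star', star_smul, map_smul]⟩

variable {K : Ctx I} {A B : MF I}

theorem rep_mc (φ : R K) : MC K (rep φ) :=
  (Quotient.out (s := _) φ : CM K).2

theorem mk_rep (φ : R K) : mk K (rep φ) = φ :=
  (bd_mk (rep_mc φ)).trans (bd_out φ)

theorem exists_mk (φ : R K) : ∃ A, MC K A ∧ mk K A = φ :=
  ⟨_, rep_mc φ, mk_rep φ⟩

theorem mk_eq_iff (hA : MC K A) (hB : MC K B) : mk K A = mk K B ↔ MV K (A - B) := by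
  rw [bd_mk hA, bd_mk hB, bd_eq]

theorem mk_eq_zero_iff (hA : MC K A) : mk K A = 0 ↔ MV K A := by
  rw [bd_mk hA, ← map_zero (bdq K), bd_eq]
  simp

theorem mv_rep_mk (hA : MC K A) : MV K (rep (mk K A) - A) :=
  (mk_eq_iff (rep_mc _) hA).1 (mk_rep _)

/-- equality on deep rows -/
theorem mk_eq_of_eps (hA : MC K A) (hB : MC K B)
    (h : ∀ ε > (0 : ℝ), ∀ᶠ x in K.F, ∀ a b, ε ≤ K.dep x a → A x a b = B x a b) :
    mk K A = mk K B :=
  (mk_eq_iff hA hB).2 fun ε hε => (h ε hε).mono fun _ hx a ⟨b, hb⟩ =>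
    not_le.1 fun h1 => hb (sub_eq_zero.2 (hx a b h1))

/-- equal classes have equal deep rows and columns -/
theorem eq_of_mk_eq (hA : MC K A) (hB : MC K B) (h : mk K A = mk K B) :
    ∀ ε > (0 : ℝ), ∀ᶠ x in K.F, ∀ a b, (ε ≤ K.dep x a ∨ ε ≤ K.dep x b) → A x a b = B x a b := by
  intro ε hε
  have h1 := (mk_eq_iff hA hB).1 h
  have h2 : MC K (A - B) := (CM K).sub_mem hA hB
  filter_upwards [h1 ε hε, Ctx.SmS.near h2.symm h1 ε hε] with x h3 h4 a b h5
  by_contra h6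
  have h7 : (A - B) x a b ≠ 0 := sub_ne_zero.2 h6
  exact h5.elim (h3 a ⟨b, h7⟩).not_ge (h4 b ⟨a, h7, b, h7⟩).not_ge

theorem mk_congr (hA : MC K A) (h : ∀ᶠ x in K.F, A x = B x) : mk K A = mk K B :=
  mk_eq_of_eps hA (Ctx.SmR.mono hA (h.mono fun x hx a b h1 => by rwa [hx]))
    fun _ _ => h.mono fun x hx a b _ => by rw [hx]

theorem MC.congr (hA : MC K A) (h : ∀ᶠ x in K.F, A x = B x) : MC K B :=
  Ctx.SmR.mono hA (h.mono fun x hx a b h1 => by rwa [hx])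

theorem MC.of_le (hA : MC K A) (h : ∀ x a b, B x a b ≠ 0 → A x a b ≠ 0) : MC K B :=
  Ctx.SmR.mono hA (.of_forall h)

theorem MC.add (hA : MC K A) (hB : MC K B) : MC K (A + B) :=
  (CM K).add_mem hA hB
theorem MC.sub (hA : MC K A) (hB : MC K B) : MC K (A - B) :=
  (CM K).sub_mem hA hB
theorem MC.neg (hA : MC K A) : MC K (-A) :=
  (CM K).neg_mem hA
theorem MC.mul (hA : MC K A) (hB : MC K B) : MC K (A * B) :=
  (CM K).mul_mem hA hB
theorem MC.smul (c : ℂ) (hA : MC K A) : MC K (c • A) :=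
  (CM K).smul_mem hA c
theorem MC.star (hA : MC K A) : MC K (star A) :=
  (CM K).star_mem' hA
theorem mc_one : MC K (1 : MF I) :=
  (CM K).one_mem
theorem mc_zero : MC K (0 : MF I) :=
  (CM K).zero_mem

theorem mk_add (hA : MC K A) (hB : MC K B) : mk K (A + B) = mk K A + mk K B := by
  rw [bd_mk hA, bd_mk hB, ← map_add, bd_mk (hA.add hB)]; rfl
theorem mk_sub (hA : MC K A) (hB : MC K B) : mk K (A - B) = mk K A - mk K B := by
  rw [bd_mk hA, bd_mk hB, ← map_sub, bd_mk (hA.sub hB)]; rfl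
theorem mk_neg (hA : MC K A) : mk K (-A) = -mk K A := by
  rw [bd_mk hA, ← map_neg, bd_mk hA.neg]; rfl
theorem mk_mul (hA : MC K A) (hB : MC K B) : mk K (A * B) = mk K A * mk K B := by
  rw [bd_mk hA, bd_mk hB, ← map_mul, bd_mk (hA.mul hB)]; rfl
theorem mk_smul (c : ℂ) (hA : MC K A) : mk K (c • A) = c • mk K A := by
  rw [bd_mk hA, ← map_smul, bd_mk (hA.smul c)]; rfl
theorem mk_star (hA : MC K A) : mk K (star A) = star (mk K A) := by
  rw [bd_mk hA, bd_star', bd_mk hA.star]; rfl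
theorem mk_one : mk K (1 : MF I) = 1 := by
  rw [bd_mk mc_one, ← map_one (bdq K)]; rfl
theorem mk_zero : mk K (0 : MF I) = 0 := by
  rw [bd_mk mc_zero, ← map_zero (bdq K)]; rfl

end Ring

end Crest.Agent.R217
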