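import Crest.Agent.R217.BExtDefs

/-! Row 217, part B: the extension lemma (fine objects are injective) and the acyclic-models
theorems. -/

set_option autoImplicit false

namespace Crest.Agent.R217

open Filter Topology CategoryTheory

variable {ι : Type} {P : ι → Type} {K : Ctx P}

/-- the class `c ↦ c • y` -/
noncomputable def spanF {A : ∀ x, SM (P x)} (y : ∀ x, (A x).V) : Fam (fun x => cstSM (P x)) A :=
  fun x => LinearMap.toSpanSingleton ℂ (A x).V (y x)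

theorem ctrl_cst {A : ∀ x, SM (P x)} (f : Fam (fun x => cstSM (P x)) A) : Ctrl K f := by
  refine ctrl_of_subset (.of_forall fun x v w hw hv => ?_)
  have : f x v = 0 := by rw [show v = 0 from hv, map_zero]
  rw [this, (A x).supp_zero] at hw
  exact hw

theorem be_diag {F : Filter ι} (hW : HasW F) (S : ℕ → Set ι) (hS : ∀ k, S k ∈ F) :
    ∃ κ : ι → ℕ, Tendsto κ F atTop ∧ ∀ᶠ x in F, x ∈ S (κ x) := by
  classical
  obtain ⟨w, hw⟩ := hW
  refine ⟨fun x => Nat.findGreatest (fun k => ∀ j ≤ k, x ∈ S j) (w x), ?_, ?_⟩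
  · refine tendsto_atTop.2 fun n => ?_
    filter_upwards [tendsto_atTop.1 hw n, (Finset.range (n + 1)).eventually_all.2
      fun j _ => show ∀ᶠ x in F, x ∈ S j from hS j] with x h1 h2
    exact Nat.le_findGreatest h1 fun j hj => h2 j (Finset.mem_range.2 (by omega))
  · filter_upwards [hS 0] with x hx
    exact Nat.findGreatest_spec (P := fun k => ∀ j ≤ k, x ∈ S j) (Nat.zero_le _)
      (fun j hj => by rwa [Nat.le_zero.1 hj]) _ le_rfl

theorem be_small {F : Filter ι} {κ : ι → ℕ} (h : Tendsto κ F atTop) {ε : ℝ} (hε : 0 < ε) :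
    ∀ᶠ x in F, 1 / ((κ x : ℝ) + 1) < ε :=
  ((tendsto_one_div_add_atTop_nhds_zero_nat (𝕜 := ℝ)).comp h).eventually (gt_mem_nhds hε)

/-- `ε`-form of control (diagonal argument with `w`) -/
theorem ctrl_of_eps (hW : HasW K.F) {A B : ∀ x, SM (P x)} {f : Fam A B}
    (h : ∀ ε > (0 : ℝ), ∀ᶠ x in K.F, ∀ v, ∀ w ∈ (B x).supp (f x v),
      ∃ w' ∈ (A x).supp v, K.d x w w' < ε) : Ctrl K f := by
  obtain ⟨κ, h1, h2⟩ := be_diag hW _ fun k => h (1 / ((k : ℝ) + 1)) (by positivity)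
  exact ⟨fun x a b => K.d x a b < 1 / ((κ x : ℝ) + 1),
    fun ε hε => (be_small h1 hε).mono fun _ hx _ _ h => h.trans hx, h2⟩

/-- diagonal argument: `κ x = max {k ≤ w x | x ∈ S 0 ∩ … ∩ S k}` -/
theorem HasW.diag {F : Filter ι} (hW : HasW F) (S : ℕ → Set ι) (hS : ∀ k, S k ∈ F) :
    ∃ κ : ι → ℕ, Tendsto κ F atTop ∧ ∀ᶠ x in F, x ∈ S (κ x) :=
  be_diag hW S hS

theorem Zb.mono {x : ι} {A : SM (P x)} {w : P x} {ε ε' : ℝ} {v : A.V} (h : Zb K A w ε v)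
    (hε : ε' ≤ ε) : Zb K A w ε' v := fun w' hw' => hε.trans (h w' hw')

theorem Zb.add {x : ι} {A : SM (P x)} {w : P x} {ε : ℝ} {u v : A.V} (h : Zb K A w ε u)
    (h' : Zb K A w ε v) : Zb K A w ε (u + v) :=
  fun w' hw' => (A.supp_add u v hw').elim (h w') (h' w')

theorem Zb.sub {x : ι} {A : SM (P x)} {w : P x} {ε : ℝ} {u v : A.V} (h : Zb K A w ε u)
    (h' : Zb K A w ε v) : Zb K A w ε (u - v) :=
  fun w' hw' => (A.supp_sub u v hw').elim (h w') (h' w')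

theorem Van.zb {A B : ∀ x, SM (P x)} {f : Fam A B} (h : Van K f) {ε : ℝ} (hε : 0 < ε) :
    ∀ᶠ x in K.F, ∀ w, ε ≤ K.dep x w → ∀ v, Zb K (B x) w (ε / 2) (f x v) := by
  filter_upwards [h _ (half_pos hε)] with x hx w hw v w' hw'
  linarith [hx w' ⟨v, hw'⟩, K.dep_lip x w w']

theorem van_hrep_comp {X Y Z : Ob K} (a : X ⟶ Y) (b : Y ⟶ Z) :
    Van K (hrep (a ≫ b) - (fun x => hrep b x ∘ₗ hrep a x : Fam X.A Z.A)) := by
  have := van_hrep_hmk (X := X) (Y := Z) ((hrep_ctrl a).comp (hrep_ctrl b))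
  rwa [← hmk_comp (hrep_ctrl a) (hrep_ctrl b), hmk_hrep, hmk_hrep] at this

/-- `LEx` can be checked on explicit representatives (they differ by `Van` families, whose values
are supported at depth `< ε / 2`, hence at distance `> ε / 2` from a point of depth `≥ ε`) -/
theorem lex_of_fam {X X' X'' : Ob K} {fp : Fam X.A X.A} {fg' : Fam X'.A X.A} {fg : Fam X.A X''.A}
    (hp : Ctrl K fp) (hg' : Ctrl K fg') (hg : Ctrl K fg)
    (h : ∀ ε > (0 : ℝ), ∃ δ > (0 : ℝ), ∀ᶠ x in K.F, ∀ w, ε ≤ K.dep x w → ∀ v,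
      Zb K (X''.A x) w ε (fg x (fp x v)) → ∃ u, Zb K (X.A x) w δ (fp x v - fg' x u)) :
    LEx (hmk X X fp) (hmk X' X fg') (hmk X X'' fg) := by
  intro ε hε
  obtain ⟨δ, hδ, h1⟩ := h _ (half_pos hε)
  refine ⟨min δ (ε / 2), lt_min hδ (half_pos hε), ?_⟩
  rw [hmk_comp hp hg]
  filter_upwards [h1, (van_hrep_hmk (X := X) (Y := X'') (hp.comp hg)).zb hε,
    (van_hrep_hmk (X := X) (Y := X) hp).zb hε, (van_hrep_hmk (X := X') (Y := X) hg').zb hε]
    with x a1 a2 a3 a4 w hw v hv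
  obtain ⟨u, hu⟩ := a1 w (by linarith) v (by
    have := (hv.mono (half_le_self hε.le)).sub (a2 w hw v)
    simpa using this)
  refine ⟨u, ?_⟩
  have := ((hu.mono (min_le_left _ (ε / 2))).add ((a3 w hw v).mono (min_le_right _ _))).sub
    ((a4 w hw u).mono (min_le_right _ _))
  convert this using 1
  simp only [Pi.sub_apply, LinearMap.sub_apply]
  abel

/-- `F (p v) = F (p v - g' u) + F (g' u)` -/
theorem det_of_lex {X X' X'' Y : Ob K} {p : X ⟶ X} {g' : X' ⟶ X} {g : X ⟶ X''} (h : LEx p g' g)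
    {F : X ⟶ Y} (hF : g' ≫ F = 0) : Det (p ≫ F) (p ≫ g) := by
  intro ε hε
  obtain ⟨δ, hδ, h1⟩ := h ε hε
  refine ⟨min (δ / 2) (ε / 2), lt_min (half_pos hδ) (half_pos hε), ?_⟩
  have h0 : Van K (fun x => hrep F x ∘ₗ hrep g' x : Fam X'.A Y.A) := by
    rw [← hmk_eq_zero_iff ((hrep_ctrl g').comp (hrep_ctrl F)),
      ← hmk_comp (hrep_ctrl g') (hrep_ctrl F), hmk_hrep, hmk_hrep, hF]
  filter_upwards [h1, (hrep_ctrl F).eps _ (half_pos hδ), h0.zb hε, (van_hrep_comp p F).zb hε]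
    with x a1 a2 a3 a4 w hw v hv
  obtain ⟨u, hu⟩ := a1 w hw v hv
  have b1 : Zb K (Y.A x) w (δ / 2) (hrep F x (hrep p x v - hrep g' x u)) := by
    intro w' hw'
    obtain ⟨w'', k1, k2⟩ := a2 _ w' hw'
    linarith [hu w'' k1, K.d_tri x w w' w'']
  have := ((b1.mono (min_le_left _ (ε / 2))).add ((a3 w hw u).mono (min_le_right _ _))).add
    ((a4 w hw v).mono (min_le_right _ _))
  convert this using 1
  simp

theorem be_ginv {X Q : Type} [AddCommGroup X] [Module ℂ X] [AddCommGroup Q] [Module ℂ Q]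
    (ψ : X →ₗ[ℂ] Q) : ∃ s : Q →ₗ[ℂ] X, ∀ v, ψ (s (ψ v)) = ψ v := by
  obtain ⟨r, hr⟩ := ψ.rangeRestrict.exists_rightInverse_of_surjective ψ.range_rangeRestrict
  obtain ⟨s, hs⟩ := r.exists_extend
  refine ⟨s, fun v => ?_⟩
  have h1 : s (ψ v) = r ⟨ψ v, v, rfl⟩ := LinearMap.congr_fun hs ⟨ψ v, v, rfl⟩
  rw [h1]
  exact congrArg Subtype.val (LinearMap.congr_fun hr ⟨ψ v, v, rfl⟩)

theorem be_one {x : ι} {X Y Z : SM (P x)} (f : X.V →ₗ[ℂ] Y.V) (g : X.V →ₗ[ℂ] Z.V) {ε δ : ℝ}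
    (hδ : δ ≤ ε) (hfg : ∀ w, ε ≤ K.dep x w → ∀ v, Zb K Z w ε (g v) → Zb K Y w δ (f v))
    (ρ : Y.V →ₗ[ℂ] Y.V) (c : P x) (hρ : ∀ v, ∀ w ∈ Y.supp (ρ v), w ∈ Y.supp v ∧ K.d x c w < δ) :
    ∃ h : Z.V →ₗ[ℂ] Y.V, (∀ z, ∀ w ∈ Y.supp (h z), ∃ w' ∈ Z.supp z, K.d x w w' < 2 * ε) ∧
      ∀ v, ∀ w ∈ Y.supp (h (g v) - ρ (f v)), K.dep x w < 2 * ε := by
  by_cases hc : ε ≤ K.dep x c
  · let Zs : Submodule ℂ Z.V :=
      { carrier := {z | Zb K Z c ε z}
        add_mem' := Zb.add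
        zero_mem' := fun w hw => by simp [Z.supp_zero] at hw
        smul_mem' := fun a z hz w hw => hz w (Z.supp_smul a z hw) }
    obtain ⟨s, hs⟩ := be_ginv (Zs.mkQ ∘ₗ g)
    refine ⟨ρ ∘ₗ f ∘ₗ s ∘ₗ Zs.mkQ, fun z w hw => ?_, fun v w hw => ?_⟩
    · by_contra hn
      push Not at hn
      have h1 := (hρ _ w hw).2
      have : z ∈ Zs := fun w' hw' => by
        have := K.d_tri x w c w'
        rw [K.d_symm x w c] at this
        linarith [hn w' hw']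
      have h2 : Zs.mkQ z = 0 := (Submodule.Quotient.mk_eq_zero Zs).2 this
      simp [h2, Y.supp_zero] at hw
    · exfalso
      have h1 : g (s (Zs.mkQ (g v)) - v) ∈ Zs := by
        rw [← Submodule.Quotient.mk_eq_zero, map_sub, Submodule.Quotient.mk_sub, sub_eq_zero]
        exact hs v
      have h2 : w ∈ Y.supp (ρ (f (s (Zs.mkQ (g v)) - v))) := by simpa using hw
      exact (hρ _ w h2).2.not_ge (hfg c hc _ h1 w (hρ _ w h2).1)
  · refine ⟨0, fun z w hw => by simp [Y.supp_zero] at hw, fun v w hw => ?_⟩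
    rw [LinearMap.zero_apply, zero_sub, Y.supp_neg] at hw
    have := K.dep_lip x w c
    rw [K.d_symm] at this
    linarith [(hρ _ w hw).2, not_le.1 hc]

/-- Extension lemma.  For `k` let `ε = 1/(k+1)`, `δ k ≤ ε` from `Det`, and `S k` the set of `x` where
`Det` holds for `(ε, δ k)` and `Fine` for `δ k`; `HasW.diag` picks `k = κ x`.  For a centre `c s` of
depth `≥ ε` let `Z s` = vectors of `Z` vanishing on the ball `(c s, ε)`, `Y s` = vectors of `Y` supported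
in the ball `(c s, δ)`, `Y₀` = vectors with empty support.  `g v ↦ ρ s (f v)` is a well defined linear
map from the image of `g` in `Z / Z s` to `Y s / Y₀`; extend it (`LinearMap.exists_extend`), lift it
along `Y s → Y s / Y₀` (`LinearMap.exists_rightInverse_of_surjective`) to `h s : Z → Y`.  For shallow
centres `h s = 0`.  `h = ∑ h s` is controlled (`ctrl_of_eps`, scale `2 ε`) and `h g - f` takes values
supported at depth `< 2 ε`. -/
theorem exists_ext (hW : HasW K.F) {X Y Z : Ob K} (hY : Fine Y) {f : X ⟶ Y} {g : X ⟶ Z}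
    (h : Det f g) : ∃ k : Z ⟶ Y, g ≫ k = f := by
  choose δ₀ hδ₀ hD using fun k : ℕ => h (1 / ((k : ℝ) + 1)) (by positivity)
  have key : ∀ k : ℕ, ∀ᶠ x in K.F, ∃ H : (Z.A x).V →ₗ[ℂ] (Y.A x).V,
      (∀ z, ∀ w ∈ (Y.A x).supp (H z), ∃ w' ∈ (Z.A x).supp z,
        K.d x w w' < 2 * (1 / ((k : ℝ) + 1))) ∧
      ∀ v, ∀ w ∈ (Y.A x).supp (H (hrep g x v) - hrep f x v),
        K.dep x w < 2 * (1 / ((k : ℝ) + 1)) := by
    intro k
    filter_upwards [hD k, hY (min (δ₀ k) (1 / ((k : ℝ) + 1))) (lt_min (hδ₀ k) (by positivity))]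
      with x a1 ⟨N, ρ, c, b1, b2⟩
    choose hs c1 c2 using fun s => be_one (hrep f x) (hrep g x) (min_le_right (δ₀ k) _)
      (fun w hw v hv => (a1 w hw v hv).mono (min_le_left _ _)) (ρ s) (c s) (b2 s)
    refine ⟨∑ s, hs s, fun z w hw => ?_, fun v w hw => ?_⟩
    · rw [LinearMap.sum_apply] at hw
      have := (Y.A x).supp_sum _ _ hw
      simp only [Set.mem_iUnion] at this
      obtain ⟨s, -, hs⟩ := this
      exact c1 s z w hs
    · have e : (∑ s, hs s) (hrep g x v) - hrep f x v =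
          ∑ s, (hs s (hrep g x v) - ρ s (hrep f x v)) - (hrep f x v - ∑ s, ρ s (hrep f x v)) := by
        rw [LinearMap.sum_apply, Finset.sum_sub_distrib]; abel
      rw [e] at hw
      rcases (Y.A x).supp_sub _ _ hw with hw | hw
      · have := (Y.A x).supp_sum _ _ hw
        simp only [Set.mem_iUnion] at this
        obtain ⟨s, -, hs⟩ := this
        exact c2 s v w hs
      · rw [b1] at hw
        exact hw.elim
  obtain ⟨κ, h1, h2⟩ := hW.diag _ key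
  have : ∀ x, ∃ H : (Z.A x).V →ₗ[ℂ] (Y.A x).V, (∃ H : (Z.A x).V →ₗ[ℂ] (Y.A x).V,
      (∀ z, ∀ w ∈ (Y.A x).supp (H z), ∃ w' ∈ (Z.A x).supp z,
        K.d x w w' < 2 * (1 / ((κ x : ℝ) + 1))) ∧
      ∀ v, ∀ w ∈ (Y.A x).supp (H (hrep g x v) - hrep f x v),
        K.dep x w < 2 * (1 / ((κ x : ℝ) + 1))) →
      (∀ z, ∀ w ∈ (Y.A x).supp (H z), ∃ w' ∈ (Z.A x).supp z,
        K.d x w w' < 2 * (1 / ((κ x : ℝ) + 1))) ∧
      ∀ v, ∀ w ∈ (Y.A x).supp (H (hrep g x v) - hrep f x v),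
        K.dep x w < 2 * (1 / ((κ x : ℝ) + 1)) := fun x => by
    by_cases hx : x ∈ {x | ∃ H : (Z.A x).V →ₗ[ℂ] (Y.A x).V,
      (∀ z, ∀ w ∈ (Y.A x).supp (H z), ∃ w' ∈ (Z.A x).supp z,
        K.d x w w' < 2 * (1 / ((κ x : ℝ) + 1))) ∧
      ∀ v, ∀ w ∈ (Y.A x).supp (H (hrep g x v) - hrep f x v),
        K.dep x w < 2 * (1 / ((κ x : ℝ) + 1))}
    · obtain ⟨H, hH⟩ := hx
      exact ⟨H, fun _ => hH⟩
    · exact ⟨0, fun h => absurd h hx⟩
  choose H hH using this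
  have hc : Ctrl K (H : Fam Z.A Y.A) := by
    refine ctrl_of_eps hW fun ε hε => ?_
    filter_upwards [h2, be_small h1 (half_pos hε)] with x a1 a2 z w hw
    obtain ⟨w', k1, k2⟩ := (hH x a1).1 z w hw
    exact ⟨w', k1, by linarith⟩
  refine ⟨hmk Z Y H, ?_⟩
  rw [← hmk_hrep g, hmk_comp (hrep_ctrl g) hc, ← hmk_hrep f,
    hmk_eq_iff ((hrep_ctrl g).comp hc) (hrep_ctrl f)]
  intro ε hε
  filter_upwards [h2, be_small h1 (half_pos hε)] with x a1 a2 w ⟨v, hw⟩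
  linarith [(hH x a1).2 v w hw]

end Crest.Agent.R217
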