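import Crest.Agent.R217.BCat

/-! Row 217, part B: fine objects, local exactness, resolutions, finite objects, pairings.
Definitions only: DO NOT CHANGE (owner helper92). -/

set_option autoImplicit false

namespace Crest.Agent.R217

open Filter Topology CategoryTheory

variable {ι : Type} {P : ι → Type}

/-- the filter carries a function tending to infinity -/
def HasW (F : Filter ι) : Prop := ∃ w : ι → ℕ, Tendsto w F atTop

/-- `v` vanishes on the ball of radius `ε` around `w` -/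
def Zb (K : Ctx P) {x : ι} (A : SM (P x)) (w : P x) (ε : ℝ) (v : A.V) : Prop :=
  ∀ w' ∈ A.supp v, ε ≤ K.d x w w'

variable {K : Ctx P}

/-- finite partitions of unity with small supports -/
def Fine (X : Ob K) : Prop :=
  ∀ ε > (0 : ℝ), ∀ᶠ x in K.F, ∃ (N : ℕ) (ρ : Fin N → (X.A x).V →ₗ[ℂ] (X.A x).V) (c : Fin N → P x),
    (∀ v, (X.A x).supp (v - ∑ s, ρ s v) = ∅) ∧
    ∀ s v, ∀ w ∈ (X.A x).supp (ρ s v), w ∈ (X.A x).supp v ∧ K.d x (c s) w < ε

/-- `f v` near a deep point is determined by `g v` near that point -/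
def Det {X Y Z : Ob K} (f : X ⟶ Y) (g : X ⟶ Z) : Prop :=
  ∀ ε > (0 : ℝ), ∃ δ > (0 : ℝ), ∀ᶠ x in K.F, ∀ w, ε ≤ K.dep x w → ∀ v,
    Zb K (Z.A x) w ε (hrep g x v) → Zb K (Y.A x) w δ (hrep f x v)

/-- local exactness of `X' ⟶ X ⟶ X''` on the part `p` of `X` -/
def LEx {X X' X'' : Ob K} (p : X ⟶ X) (g' : X' ⟶ X) (g : X ⟶ X'') : Prop :=
  ∀ ε > (0 : ℝ), ∃ δ > (0 : ℝ), ∀ᶠ x in K.F, ∀ w, ε ≤ K.dep x w → ∀ v,
    Zb K (X''.A x) w ε (hrep (p ≫ g) x v) →
      ∃ u, Zb K (X.A x) w δ (hrep p x v - hrep g' x u)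

/-- the constant sheaf -/
def cstSM (Q : Type) : SM Q where
  V := ℂ
  supp c := {_w | c ≠ 0}
  supp_zero := by simp
  supp_add u v w h := by
    by_contra h'
    simp only [Set.mem_union, Set.mem_ofPred_eq, not_or, not_not] at h h'
    exact h (by rw [h'.1, h'.2, add_zero])
  supp_smul c v w h := by
    simp only [Set.mem_ofPred_eq, smul_eq_mul, ne_eq, mul_eq_zero, not_or] at h ⊢
    exact h.2

abbrev cst (K : Ctx P) : Ob K := ⟨fun x => cstSM (P x)⟩

/-- a graded augmented cochain complex -/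
structure Cx (K : Ctx P) where
  A : Ob K
  D : A ⟶ A
  π : ℕ → (A ⟶ A)
  η : cst K ⟶ A
  DD : D ≫ D = 0
  ππ : ∀ p q, π p ≫ π q = if p = q then π p else 0
  πD : ∀ q, π q ≫ D = D ≫ π (q + 1)
  Dπ : D ≫ π 0 = 0
  ηD : η ≫ D = 0
  ηπ : η ≫ π 0 = η

/-- projection on the degrees `≤ T` -/
noncomputable def Cx.ϖ (C : Cx K) (T : ℕ) : C.A ⟶ C.A := ∑ q ∈ Finset.range (T + 1), C.π q

/-- a resolution of the constant sheaf -/
structure Cx.Res (C : Cx K) : Prop where
  dense : LEx (𝟙 (cst K)) (0 : cst K ⟶ cst K) C.η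
  zero : LEx (C.π 0) C.η C.D
  succ : ∀ q, LEx (C.π (q + 1)) (C.π q ≫ C.D) C.D

/-- finitely many located coordinates -/
def finSM {I Q : Type} (loc : I → Q) : SM Q where
  V := I → ℂ
  supp v := {w | ∃ a, v a ≠ 0 ∧ loc a = w}
  supp_zero := by simp
  supp_add u v := by
    rintro w ⟨a, ha, rfl⟩
    by_cases h : u a = 0
    · exact Or.inr ⟨a, by simpa [h] using ha, rfl⟩
    · exact Or.inl ⟨a, h, rfl⟩
  supp_smul c v := by
    rintro w ⟨a, ha, rfl⟩
    exact ⟨a, fun h => ha (by simp [h]), rfl⟩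

abbrev finOb (K : Ctx P) {I : ι → Type} (loc : ∀ x, I x → P x) : Ob K := ⟨fun x => finSM (loc x)⟩

section

variable {I : ι → Type} [∀ x, Fintype (I x)] [∀ x, DecidableEq (I x)]

/-- matrices as endomorphisms of the finite object -/
noncomputable def ofR (K : Ctx P) (loc : ∀ x, I x → P x) (φ : R (K.comap loc)) :
    finOb K loc ⟶ finOb K loc :=
  hmk (finOb K loc) (finOb K loc) fun x => Matrix.toLin' (rep φ x)

/-- the matrix of a linear map between finite objects -/
noncomputable def finMat {x : ι} {Q : Type} {loc : I x → Q}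
    (f : (finSM loc).V →ₗ[ℂ] (finSM loc).V) : Matrix (I x) (I x) ℂ :=
  Matrix.of fun a b => (f (Pi.single b 1 : I x → ℂ) : I x → ℂ) a

noncomputable def toR {loc : ∀ x, I x → P x} (f : finOb K loc ⟶ finOb K loc) : R (K.comap loc) :=
  mk _ fun x => finMat (hrep f x)

/-- a family of sesquilinear pairings that vanish on vectors with disjoint supports -/
structure LocPair (F : Filter ι) (A : ∀ x, SM (P x)) (B : ∀ x, (A x).V → (A x).V → ℂ) : Prop where
  add_left : ∀ x a a' b, B x (a + a') b = B x a b + B x a' b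
  add_right : ∀ x a b b', B x a (b + b') = B x a b + B x a b'
  smul_left : ∀ x (c : ℂ) a b, B x (c • a) b = star c * B x a b
  smul_right : ∀ x (c : ℂ) a b, B x a (c • b) = c * B x a b
  loc : ∀ᶠ x in F, ∀ a b, Disjoint ((A x).supp a) ((A x).supp b) → B x a b = 0

/-- Gram matrices -/
noncomputable def gram {loc : ∀ x, I x → P x} {X : Ob K} (B : ∀ x, (X.A x).V → (X.A x).V → ℂ)
    (u v : finOb K loc ⟶ X) : R (K.comap loc) :=
  mk _ fun x => Matrix.of fun a b =>
    B x (hrep u x (Pi.single a 1 : I x → ℂ)) (hrep v x (Pi.single b 1 : I x → ℂ))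

end

end Crest.Agent.R217
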