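import Crest.Agent.R217.BOps
import Crest.Agent.R217.A1

/-! Row 217, part B: `res`, `dg`, `chi`, `tr`, `sub`, `blk`.  Method: `exists_mk`, the `_mk`
lemmas, then an identity of matrix families. -/

set_option autoImplicit false
set_option linter.unusedSectionVars false
set_option linter.unusedVariables false

namespace Crest.Agent.R217

open Filter Topology

variable {ι : Type} {I J L : ι → Type} [∀ x, Fintype (I x)] [∀ x, DecidableEq (I x)]
  [∀ x, Fintype (J x)] [∀ x, DecidableEq (J x)] [∀ x, Fintype (L x)] [∀ x, DecidableEq (L x)]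

section Res

variable {K K' K'' : Ctx I}

theorem MC.le {A : MF I} (hA : MC K A) (h : K.Le K') : MC K' A := h.smR _ hA
theorem MV.le {A : MF I} (hA : MV K A) (h : K.Le K') : MV K' A := h.smS _ hA
theorem res_mk (h : K.Le K') {A : MF I} (hA : MC K A) : res K' (mk K A) = mk K' A := by
  unfold res
  exact (mk_eq_iff ((rep_mc _).le h) (hA.le h)).2 ((mv_rep_mk hA).le h)
theorem res_self (φ : R K) : res K φ = φ := mk_rep φ
theorem res_res (h : K.Le K') (h' : K'.Le K'') (φ : R K) : res K'' (res K' φ) = res K'' φ := by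
  obtain ⟨A, hA, rfl⟩ := exists_mk φ
  rw [res_mk h hA, res_mk h' (hA.le h), res_mk (h.trans h') hA]
theorem res_add (h : K.Le K') (φ ψ : R K) : res K' (φ + ψ) = res K' φ + res K' ψ := by
  obtain ⟨A, hA, rfl⟩ := exists_mk φ
  obtain ⟨B, hB, rfl⟩ := exists_mk ψ
  rw [← mk_add hA hB, res_mk h hA, res_mk h hB, res_mk h (hA.add hB), mk_add (hA.le h) (hB.le h)]
theorem res_sub (h : K.Le K') (φ ψ : R K) : res K' (φ - ψ) = res K' φ - res K' ψ := by
  obtain ⟨A, hA, rfl⟩ := exists_mk φ
  obtain ⟨B, hB, rfl⟩ := exists_mk ψ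
  rw [← mk_sub hA hB, res_mk h hA, res_mk h hB, res_mk h (hA.sub hB), mk_sub (hA.le h) (hB.le h)]
theorem res_neg (h : K.Le K') (φ : R K) : res K' (-φ) = -res K' φ := by
  obtain ⟨A, hA, rfl⟩ := exists_mk φ
  rw [← mk_neg hA, res_mk h hA, res_mk h hA.neg, mk_neg (hA.le h)]
theorem res_mul (h : K.Le K') (φ ψ : R K) : res K' (φ * ψ) = res K' φ * res K' ψ := by
  obtain ⟨A, hA, rfl⟩ := exists_mk φ
  obtain ⟨B, hB, rfl⟩ := exists_mk ψ
  rw [← mk_mul hA hB, res_mk h hA, res_mk h hB, res_mk h (hA.mul hB), mk_mul (hA.le h) (hB.le h)]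
theorem res_smul (h : K.Le K') (c : ℂ) (φ : R K) : res K' (c • φ) = c • res K' φ := by
  obtain ⟨A, hA, rfl⟩ := exists_mk φ
  rw [← mk_smul c hA, res_mk h hA, res_mk h (hA.smul c), mk_smul c (hA.le h)]
theorem res_star (h : K.Le K') (φ : R K) : res K' (star φ) = star (res K' φ) := by
  obtain ⟨A, hA, rfl⟩ := exists_mk φ
  rw [← mk_star hA, res_mk h hA, res_mk h hA.star, mk_star (hA.le h)]
theorem res_one (h : K.Le K') : res K' (1 : R K) = 1 := by
  rw [← mk_one, res_mk h mc_one, mk_one]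
theorem res_zero (h : K.Le K') : res K' (0 : R K) = 0 := by
  rw [← mk_zero, res_mk h mc_zero, mk_zero]
theorem res_hom (h : K.Le K') : CornerHom (res K' : R K → R K') 1 := cornerHom_of_mul (res_add h) (res_star h) (res_mul h)

theorem mc_diagonal (g : ∀ x, I x → ℂ) : MC K fun x => Matrix.diagonal (g x) := by
  refine (mc_one (K := K)).of_le fun x a b hab => ?_
  by_cases h : a = b
  · subst h
    simp
  · exact absurd (Matrix.diagonal_apply_ne _ h) hab
theorem dg_mul (g g' : ∀ x, I x → ℂ) : dg K g * dg K g' = dg K fun x a => g x a * g' x a := by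
  unfold dg
  rw [← mk_mul (mc_diagonal g) (mc_diagonal g')]
  congr 1
  funext x
  simp [Matrix.diagonal_mul_diagonal]
theorem dg_add (g g' : ∀ x, I x → ℂ) : dg K g + dg K g' = dg K fun x a => g x a + g' x a := by
  unfold dg
  rw [← mk_add (mc_diagonal g) (mc_diagonal g')]
  congr 1
  funext x
  simp [Matrix.diagonal_add]
theorem dg_sub (g g' : ∀ x, I x → ℂ) : dg K g - dg K g' = dg K fun x a => g x a - g' x a := by
  unfold dg
  rw [← mk_sub (mc_diagonal g) (mc_diagonal g')]
  congr 1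
  funext x
  simp [Matrix.diagonal_sub]
theorem dg_star (g : ∀ x, I x → ℂ) : star (dg K g) = dg K fun x a => star (g x a) := by
  unfold dg
  rw [← mk_star (mc_diagonal g)]
  congr 1
  funext x
  rw [Pi.star_apply, Matrix.star_eq_conjTranspose, Matrix.diagonal_conjTranspose]
  rfl
theorem dg_one : dg K (fun _ _ => 1) = 1 := by
  unfold dg
  rw [← mk_one]
  congr 1
theorem dg_congr {g g' : ∀ x, I x → ℂ} (h : K.SmS fun x a => g x a ≠ g' x a) : dg K g = dg K g' := by
  unfold dg
  refine (mk_eq_iff (mc_diagonal g) (mc_diagonal g')).2 ?_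
  refine Ctx.SmS.mono h (Eventually.of_forall fun x a => ?_)
  rintro ⟨b, hb⟩ hg
  apply hb
  by_cases hab : a = b
  · subst hab
    simp [hg]
  · simp [Matrix.diagonal_apply_ne _ hab]
theorem res_dg (h : K.Le K') (g : ∀ x, I x → ℂ) : res K' (dg K g) = dg K' g := res_mk h (mc_diagonal g)
theorem dg_mul_mk_mul_dg (g g' : ∀ x, I x → ℂ) {A : MF I} (hA : MC K A) :
    dg K g * mk K A * dg K g' = mk K fun x => Matrix.of fun a b => g x a * A x a b * g' x b := by
  unfold dg
  rw [← mk_mul (mc_diagonal g) hA, ← mk_mul ((mc_diagonal g).mul hA) (mc_diagonal g')]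
  congr 1
  funext x
  ext a b
  simp [Matrix.mul_diagonal, Matrix.diagonal_mul]

theorem chi_star (p : ∀ x, I x → Prop) : star (chi K p) = chi K p := by
  unfold chi
  rw [dg_star]
  congr 1
  funext x a
  split_ifs <;> simp
theorem chi_mul (p q : ∀ x, I x → Prop) : chi K p * chi K q = chi K fun x a => p x a ∧ q x a := by
  unfold chi
  rw [dg_mul]
  congr 1
  funext x a
  by_cases hp : p x a <;> by_cases hq : q x a <;> simp [hp, hq]
theorem chi_idem (p : ∀ x, I x → Prop) : chi K p * chi K p = chi K p := by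
  rw [chi_mul]
  simp only [and_self]
theorem chi_not (p : ∀ x, I x → Prop) : chi K (fun x a => ¬p x a) = 1 - chi K p := by
  unfold chi
  rw [← dg_one, dg_sub]
  congr 1
  funext x a
  by_cases hp : p x a <;> simp [hp]
theorem chi_true : chi K (fun _ _ => True) = 1 := by
  unfold chi
  rw [← dg_one]
  congr 1
  funext x a
  simp
theorem chi_congr {p q : ∀ x, I x → Prop} (h : K.SmS fun x a => ¬(p x a ↔ q x a)) :
    chi K p = chi K q := by
  unfold chi
  refine dg_congr (h.mono (Eventually.of_forall fun x a ha hpq => ha ?_))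
  by_cases hp : p x a
  · simp [hp, hpq.1 hp]
  · simp [hp, mt hpq.2 hp]
theorem chi_eq_zero {p : ∀ x, I x → Prop} (h : K.SmS p) : chi K p = 0 := by
  unfold chi dg
  refine (mk_eq_zero_iff (mc_diagonal _)).2 ?_
  refine Ctx.SmS.mono h (Eventually.of_forall fun x a => ?_)
  rintro ⟨b, hb⟩
  by_contra hp
  apply hb
  by_cases hab : a = b
  · subst hab
    simp [hp]
  · simp [Matrix.diagonal_apply_ne _ hab]
theorem res_chi (h : K.Le K') (p : ∀ x, I x → Prop) : res K' (chi K p) = chi K' p := res_dg h _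
/-- separated sets do not interact -/
theorem chi_mul_mul_chi {p q : ∀ x, I x → Prop} (h : Near K K fun x a b => ¬(p x a ∧ q x b))
    (φ : R K) : chi K p * φ * chi K q = 0 := by
  obtain ⟨A, hA, rfl⟩ := exists_mk φ
  unfold chi
  rw [dg_mul_mk_mul_dg _ _ hA]
  refine (mk_eq_zero_iff (hA.of_le fun x a b hab h0 => hab ?_)).2 ?_
  · simp [h0]
  · refine Ctx.SmS.mono (h _ hA) (Eventually.of_forall fun x a => ?_)
    rintro ⟨b, hb⟩
    refine ⟨b, fun h0 => hb ?_, fun hn => hb ?_⟩
    · simp [h0]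
    · by_cases hp : p x a
      · have hq : ¬q x b := fun hq => hn ⟨hp, hq⟩
        simp [hq]
      · simp [hp]

end Res

section Tr

theorem trM_apply {A B : Type} [Fintype A] [DecidableEq B] (e : A ↪ B) (M : Matrix A A ℂ)
    (a b : A) : trM e M (e a) (e b) = M a b := by
  classical
  simp [trM, embM, Matrix.mul_apply]
theorem trM_apply_left {A B : Type} [Fintype A] [DecidableEq B] (e : A ↪ B) (M : Matrix A A ℂ)
    {p : B} (q : B) (hp : ∀ a, e a ≠ p) : trM e M p q = 0 := by
  simp [trM, embM, Matrix.mul_apply, hp]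
theorem trM_apply_right {A B : Type} [Fintype A] [DecidableEq B] (e : A ↪ B) (M : Matrix A A ℂ)
    (p : B) {q : B} (hq : ∀ a, e a ≠ q) : trM e M p q = 0 := by
  simp [trM, embM, Matrix.mul_apply, hq]

theorem bres_trM_ne {A B : Type} [Fintype A] [DecidableEq B] (e : A ↪ B) (M : Matrix A A ℂ)
    {p q : B} (h : trM e M p q ≠ 0) : ∃ a b, e a = p ∧ e b = q ∧ M a b ≠ 0 := by
  by_cases hp : ∃ a, e a = p
  · by_cases hq : ∃ b, e b = q
    · obtain ⟨a, rfl⟩ := hp
      obtain ⟨b, rfl⟩ := hq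
      exact ⟨a, b, rfl, rfl, by rwa [trM_apply] at h⟩
    · exact absurd (trM_apply_right e M p (not_exists.1 hq)) h
  · exact absurd (trM_apply_left e M q (not_exists.1 hp)) h

theorem bres_embM_tmul {A B : Type} [DecidableEq A] [Fintype B] [DecidableEq B] (e : A ↪ B) :
    (embM e).transpose * embM e = 1 := by
  ext a b
  simp [embM, Matrix.mul_apply, Matrix.one_apply, eq_comm]

theorem bres_embM_mult {A B : Type} [Fintype A] [DecidableEq B] (e : A ↪ B)
    {inst : ∀ b, Decidable (∃ a, e a = b)} :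
    embM e * (embM e).transpose =
      Matrix.diagonal fun b => @ite _ (∃ a, e a = b) (inst b) (1 : ℂ) 0 := by
  classical
  have h1 : embM e * (embM e).transpose = trM e 1 := by simp [trM]
  rw [h1]
  ext p q
  by_cases hp : ∃ a, e a = p
  · by_cases hq : ∃ b, e b = q
    · obtain ⟨a, rfl⟩ := hp
      obtain ⟨b, rfl⟩ := hq
      rw [trM_apply]
      by_cases hab : a = b
      · subst hab
        simp
      · rw [Matrix.one_apply_ne hab, Matrix.diagonal_apply_ne _ (e.injective.ne hab)]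
    · rw [trM_apply_right e _ p (not_exists.1 hq)]
      by_cases hpq : p = q
      · subst hpq
        exact absurd hp hq
      · rw [Matrix.diagonal_apply_ne _ hpq]
  · rw [trM_apply_left e _ q (not_exists.1 hp)]
    by_cases hpq : p = q
    · subst hpq
      rw [Matrix.diagonal_apply_eq, if_neg hp]
    · rw [Matrix.diagonal_apply_ne _ hpq]

theorem bres_submatrix {A B : Type} [Fintype B] [DecidableEq B] (e : A ↪ B) (M : Matrix B B ℂ) :
    M.submatrix e e = (embM e).transpose * M * embM e := by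
  ext a b
  simp [embM, Matrix.mul_apply]

theorem bres_trM_add {A B : Type} [Fintype A] [DecidableEq B] (e : A ↪ B) (M N : Matrix A A ℂ) :
    trM e (M + N) = trM e M + trM e N := by
  simp [trM, Matrix.mul_add, Matrix.add_mul]

theorem bres_trM_sub {A B : Type} [Fintype A] [DecidableEq B] (e : A ↪ B) (M N : Matrix A A ℂ) :
    trM e (M - N) = trM e M - trM e N := by
  simp [trM, Matrix.mul_sub, Matrix.sub_mul]

theorem bres_trM_neg {A B : Type} [Fintype A] [DecidableEq B] (e : A ↪ B) (M : Matrix A A ℂ) :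
    trM e (-M) = -trM e M := by
  simp [trM]

theorem bres_trM_mul {A B : Type} [Fintype A] [DecidableEq A] [Fintype B] [DecidableEq B]
    (e : A ↪ B) (M N : Matrix A A ℂ) : trM e (M * N) = trM e M * trM e N := by
  unfold trM
  calc embM e * (M * N) * (embM e).transpose
      = embM e * M * ((embM e).transpose * embM e) * N * (embM e).transpose := by
        rw [bres_embM_tmul]
        simp [Matrix.mul_assoc]
    _ = _ := by simp only [Matrix.mul_assoc]

theorem bres_trM_star {A B : Type} [Fintype A] [DecidableEq B] (e : A ↪ B) (M : Matrix A A ℂ) :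
    trM e (star M) = star (trM e M) := by
  ext p q
  rw [Matrix.star_apply]
  by_cases hp : ∃ a, e a = p
  · by_cases hq : ∃ b, e b = q
    · obtain ⟨a, rfl⟩ := hp
      obtain ⟨b, rfl⟩ := hq
      rw [trM_apply, trM_apply, Matrix.star_apply]
    · rw [trM_apply_right e _ p (not_exists.1 hq), trM_apply_left e _ p (not_exists.1 hq), star_zero]
  · rw [trM_apply_left e _ q (not_exists.1 hp), trM_apply_right e _ q (not_exists.1 hp), star_zero]

theorem bres_embM_trans {A B C : Type} [Fintype B] [DecidableEq B] [DecidableEq C] (e : A ↪ B)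
    (e' : B ↪ C) : embM (e.trans e') = embM e' * embM e := by
  ext c a
  simp [embM, Matrix.mul_apply]

theorem bres_trM_trM {A B C : Type} [Fintype A] [Fintype B] [DecidableEq B] [DecidableEq C]
    (e : A ↪ B) (e' : B ↪ C) (M : Matrix A A ℂ) : trM e' (trM e M) = trM (e.trans e') M := by
  simp only [trM, bres_embM_trans, Matrix.transpose_mul, Matrix.mul_assoc]

variable {K : Ctx I} {K' : Ctx J} {e : ∀ x, I x ↪ J x}

theorem MC.tr (h : K.Le (K'.comap fun x => e x)) {A : MF I} (hA : MC K A) :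
    MC K' fun x => trM (e x) (A x) := by
  intro ε hε
  filter_upwards [(hA.le h) ε hε] with x hx p q hpq
  obtain ⟨a, b, rfl, rfl, hab⟩ := bres_trM_ne _ _ hpq
  exact hx a b hab
theorem tr_mk (h : K.Le (K'.comap fun x => e x)) {A : MF I} (hA : MC K A) :
    tr K' e (mk K A) = mk K' fun x => trM (e x) (A x) := by
  unfold tr
  refine (mk_eq_iff ((rep_mc _).tr h) (hA.tr h)).2 ?_
  intro ε hε
  filter_upwards [((mv_rep_mk hA).le h) ε hε] with x hx p hp
  obtain ⟨q, hpq⟩ := hp
  rw [Pi.sub_apply, ← bres_trM_sub] at hpq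
  obtain ⟨a, b, rfl, rfl, hab⟩ := bres_trM_ne _ _ hpq
  exact hx a ⟨b, hab⟩
theorem tr_add (h : K.Le (K'.comap fun x => e x)) (φ ψ : R K) :
    tr K' e (φ + ψ) = tr K' e φ + tr K' e ψ := by
  obtain ⟨A, hA, rfl⟩ := exists_mk φ
  obtain ⟨B, hB, rfl⟩ := exists_mk ψ
  rw [← mk_add hA hB, tr_mk h hA, tr_mk h hB, tr_mk h (hA.add hB), ← mk_add (hA.tr h) (hB.tr h)]
  congr 1
  funext x
  exact bres_trM_add _ _ _
theorem tr_neg (h : K.Le (K'.comap fun x => e x)) (φ : R K) : tr K' e (-φ) = -tr K' e φ := by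
  obtain ⟨A, hA, rfl⟩ := exists_mk φ
  rw [← mk_neg hA, tr_mk h hA, tr_mk h hA.neg, ← mk_neg (hA.tr h)]
  congr 1
  funext x
  exact bres_trM_neg _ _
theorem tr_mul (h : K.Le (K'.comap fun x => e x)) (φ ψ : R K) :
    tr K' e (φ * ψ) = tr K' e φ * tr K' e ψ := by
  obtain ⟨A, hA, rfl⟩ := exists_mk φ
  obtain ⟨B, hB, rfl⟩ := exists_mk ψ
  rw [← mk_mul hA hB, tr_mk h hA, tr_mk h hB, tr_mk h (hA.mul hB), ← mk_mul (hA.tr h) (hB.tr h)]
  congr 1
  funext x
  exact bres_trM_mul _ _ _
theorem tr_star (h : K.Le (K'.comap fun x => e x)) (φ : R K) :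
    tr K' e (star φ) = star (tr K' e φ) := by
  obtain ⟨A, hA, rfl⟩ := exists_mk φ
  rw [← mk_star hA, tr_mk h hA, tr_mk h hA.star, ← mk_star (hA.tr h)]
  congr 1
  funext x
  exact bres_trM_star _ _
theorem tr_hom (h : K.Le (K'.comap fun x => e x)) : CornerHom (tr K' e : R K → R K') 1 := cornerHom_of_mul (tr_add h) (tr_star h) (tr_mul h)
theorem tr_one (h : K.Le (K'.comap fun x => e x)) :
    tr K' e (1 : R K) = chi K' fun x b => ∃ a, e x a = b := by
  rw [← mk_one, tr_mk h mc_one]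
  unfold chi dg
  congr 1
  funext x
  refine Eq.trans ?_ (bres_embM_mult (e x))
  simp [trM]
theorem tr_res {K₀ : Ctx I} (h0 : K₀.Le K) (h : K.Le (K'.comap fun x => e x)) (φ : R K₀) :
    tr K' e (res K φ) = tr K' e φ := by
  obtain ⟨A, hA, rfl⟩ := exists_mk φ
  rw [res_mk h0 hA, tr_mk h (hA.le h0), tr_mk (h0.trans h) hA]
theorem res_tr {K₁ : Ctx J} (h : K.Le (K'.comap fun x => e x)) (h1 : K'.Le K₁) (φ : R K) :
    res K₁ (tr K' e φ) = tr K₁ e φ := by
  obtain ⟨A, hA, rfl⟩ := exists_mk φ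
  rw [tr_mk h hA, res_mk h1 (hA.tr h), tr_mk (h.trans (h1.comap _)) hA]
theorem tr_tr {K'' : Ctx L} {e' : ∀ x, J x ↪ L x} (h : K.Le (K'.comap fun x => e x))
    (h' : K'.Le (K''.comap fun x => e' x)) (φ : R K) :
    tr K'' e' (tr K' e φ) = tr K'' (fun x => (e x).trans (e' x)) φ := by
  obtain ⟨A, hA, rfl⟩ := exists_mk φ
  have h2 : K.Le (K''.comap fun x => (e x).trans (e' x)) := h.trans (h'.comap fun x => e x)
  rw [tr_mk h hA, tr_mk h' (hA.tr h), tr_mk h2 hA]
  congr 1
  funext x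
  exact bres_trM_trM _ _ _

theorem bres_mc_sub {A : MF J} (hA : MC K' A) :
    MC (K'.comap fun x => e x) fun x => (A x).submatrix (e x) (e x) := by
  intro ε hε
  filter_upwards [hA ε hε] with x hx a b hab
  exact hx _ _ hab

theorem sub_mk {A : MF J} (hA : MC K' A) :
    sub e (mk K' A) = mk _ fun x => (A x).submatrix (e x) (e x) := by
  unfold sub
  refine (mk_eq_iff (bres_mc_sub (rep_mc _)) (bres_mc_sub hA)).2 ?_
  intro ε hε
  filter_upwards [(mv_rep_mk hA) ε hε] with x hx a ha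
  obtain ⟨b, hab⟩ := ha
  exact hx _ ⟨e x b, hab⟩
theorem sub_hom : CornerHom (sub e : R K' → R (K'.comap fun x => e x))
    (chi K' fun x b => ∃ a, e x a = b) := by
  refine ⟨chi_star _, chi_idem _, fun φ ψ => ?_, fun φ => ?_, fun φ ψ hφ _ => ?_⟩
  · obtain ⟨A, hA, rfl⟩ := exists_mk φ
    obtain ⟨B, hB, rfl⟩ := exists_mk ψ
    rw [← mk_add hA hB, sub_mk hA, sub_mk hB, sub_mk (hA.add hB),
      ← mk_add (bres_mc_sub hA) (bres_mc_sub hB)]
    rfl
  · obtain ⟨A, hA, rfl⟩ := exists_mk φ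
    rw [← mk_star hA, sub_mk hA, sub_mk hA.star, ← mk_star (bres_mc_sub hA)]
    rfl
  · obtain ⟨A, hA, rfl⟩ := exists_mk φ
    obtain ⟨B, hB, rfl⟩ := exists_mk ψ
    have h1 := (a1_corner (chi_idem _) hφ).2
    rw [show mk K' A * mk K' B = mk K' A * (chi K' fun x b => ∃ a, e x a = b) * mk K' B by rw [h1]]
    unfold chi dg
    rw [← mk_mul hA (mc_diagonal _), ← mk_mul (hA.mul (mc_diagonal _)) hB, sub_mk hA, sub_mk hB,
      sub_mk ((hA.mul (mc_diagonal _)).mul hB), ← mk_mul (bres_mc_sub hA) (bres_mc_sub hB)]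
    congr 1
    funext x
    simp only [Pi.mul_apply]
    rw [← bres_embM_mult (e x) (inst := fun _ => Classical.propDecidable _)]
    simp only [bres_submatrix, Matrix.mul_assoc]
theorem tr_sub (φ : R K') : tr K' e (sub e φ) =
    chi K' (fun x b => ∃ a, e x a = b) * φ * chi K' fun x b => ∃ a, e x a = b := by
  obtain ⟨A, hA, rfl⟩ := exists_mk φ
  rw [sub_mk hA, tr_mk (Ctx.Le.refl _) (bres_mc_sub hA)]
  unfold chi dg
  rw [← mk_mul (mc_diagonal _) hA, ← mk_mul ((mc_diagonal _).mul hA) (mc_diagonal _)]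
  congr 1
  funext x
  simp only [Pi.mul_apply]
  rw [← bres_embM_mult (e x) (inst := fun _ => Classical.propDecidable _)]
  simp only [bres_submatrix, trM, Matrix.mul_assoc]

end Tr

section Blk

variable {K : Ctx I} {T : Type} [Fintype T] [DecidableEq T]

theorem bres_mc_blk {M : Matrix T T (MF I)} (hM : ∀ s t, MC K (M s t)) :
    MC (K.prod fun _ => T) fun x => Matrix.of fun p q => M p.2 q.2 x p.1 q.1 := by
  intro ε hε
  have h1 : ∀ᶠ x in K.F, ∀ s t, ∀ a b, M s t x a b ≠ 0 → K.d x a b < ε :=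
    eventually_all.2 fun s => eventually_all.2 fun t => hM s t ε hε
  filter_upwards [h1] with x hx p q hpq
  exact hx _ _ _ _ hpq

theorem bres_exists (M : Matrix T T (R K)) :
    ∃ A : Matrix T T (MF I), (∀ s t, MC K (A s t)) ∧ A.map (mk K) = M :=
  ⟨M.map rep, fun s t => rep_mc _, Matrix.ext fun s t => mk_rep _⟩

theorem bres_mk_sum {α : Type} (s : Finset α) (A : α → MF I) (hA : ∀ i, MC K (A i)) :
    MC K (∑ i ∈ s, A i) ∧ mk K (∑ i ∈ s, A i) = ∑ i ∈ s, mk K (A i) := by
  classical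
  induction s using Finset.induction_on with
  | empty => exact ⟨by simpa using mc_zero, by simpa using mk_zero⟩
  | insert i s hi ih =>
    rw [Finset.sum_insert hi, Finset.sum_insert hi]
    exact ⟨(hA i).add ih.1, by rw [mk_add (hA i) ih.1, ih.2]⟩

theorem blk_mk {M : Matrix T T (MF I)} (hM : ∀ s t, MC K (M s t)) :
    blk (M.map (mk K)) = mk _ fun x => Matrix.of fun p q => M p.2 q.2 x p.1 q.1 := by
  unfold blk
  refine (mk_eq_iff (bres_mc_blk (M := (M.map (mk K)).map rep) fun s t => rep_mc _)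
    (bres_mc_blk hM)).2 ?_
  intro ε hε
  have h1 : ∀ᶠ x in K.F, ∀ s t, ∀ a, (∃ b, (rep (mk K (M s t)) - M s t) x a b ≠ 0) →
      K.dep x a < ε :=
    eventually_all.2 fun s => eventually_all.2 fun t => mv_rep_mk (hM s t) ε hε
  filter_upwards [h1] with x hx p hp
  obtain ⟨q, hpq⟩ := hp
  exact hx p.2 q.2 p.1 ⟨q.1, hpq⟩
theorem blk_add (M N : Matrix T T (R K)) : blk (M + N) = blk M + blk N := by
  obtain ⟨A, hA, rfl⟩ := bres_exists M
  obtain ⟨B, hB, rfl⟩ := bres_exists N
  have h1 : A.map (mk K) + B.map (mk K) = (A + B).map (mk K) :=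
    Matrix.ext fun s t => (mk_add (hA s t) (hB s t)).symm
  rw [h1, blk_mk hA, blk_mk hB, blk_mk (M := A + B) fun s t => (hA s t).add (hB s t),
    ← mk_add (bres_mc_blk hA) (bres_mc_blk hB)]
  rfl
theorem blk_neg (M : Matrix T T (R K)) : blk (-M) = -blk M := by
  obtain ⟨A, hA, rfl⟩ := bres_exists M
  have h1 : -A.map (mk K) = (-A).map (mk K) := Matrix.ext fun s t => (mk_neg (hA s t)).symm
  rw [h1, blk_mk hA, blk_mk (M := -A) fun s t => (hA s t).neg, ← mk_neg (bres_mc_blk hA)]
  rfl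
theorem blk_mul (M N : Matrix T T (R K)) : blk (M * N) = blk M * blk N := by
  obtain ⟨A, hA, rfl⟩ := bres_exists M
  obtain ⟨B, hB, rfl⟩ := bres_exists N
  have h0 := fun s t => bres_mk_sum Finset.univ (fun u => A s u * B u t)
    fun u => (hA s u).mul (hB u t)
  have h1 : A.map (mk K) * B.map (mk K) = (A * B).map (mk K) := by
    ext s t
    rw [Matrix.map_apply, Matrix.mul_apply, Matrix.mul_apply, (h0 s t).2]
    exact Finset.sum_congr rfl fun u _ => (mk_mul (hA s u) (hB u t)).symm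
  rw [h1, blk_mk hA, blk_mk hB, blk_mk (M := A * B) fun s t => (h0 s t).1,
    ← mk_mul (bres_mc_blk hA) (bres_mc_blk hB)]
  congr 1
  funext x
  ext p q
  simp only [Pi.mul_apply, Matrix.of_apply, Matrix.mul_apply, Finset.sum_apply, Matrix.sum_apply,
    Fintype.sum_prod_type]
  exact Finset.sum_comm
theorem blk_star (M : Matrix T T (R K)) : blk (star M) = star (blk M) := by
  obtain ⟨A, hA, rfl⟩ := bres_exists M
  have h1 : star (A.map (mk K)) = (star A).map (mk K) :=
    Matrix.ext fun s t => (mk_star (hA t s)).symm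
  rw [h1, blk_mk hA, blk_mk (M := star A) fun s t => (hA t s).star, ← mk_star (bres_mc_blk hA)]
  rfl
theorem bres_blk_diagonal_dg (g : T → ∀ x, I x → ℂ) :
    blk (Matrix.diagonal fun t => dg K (g t)) = dg _ fun x p => g p.2 x p.1 := by
  have h1 : (Matrix.diagonal fun t => dg K (g t)) =
      (Matrix.diagonal fun t => (fun x => Matrix.diagonal (g t x) : MF I)).map (mk K) := by
    rw [Matrix.diagonal_map mk_zero]
    rfl
  rw [h1, blk_mk]
  · unfold dg
    congr 1
    funext x
    ext ⟨a, s⟩ ⟨b, t⟩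
    by_cases hst : s = t
    · subst hst
      simp [Matrix.diagonal_apply]
    · simp [Matrix.diagonal_apply, hst]
  · intro s t
    by_cases hst : s = t
    · subst hst
      rw [Matrix.diagonal_apply_eq]
      exact mc_diagonal _
    · rw [Matrix.diagonal_apply_ne _ hst]
      exact mc_zero

theorem blk_one : blk (1 : Matrix T T (R K)) = 1 := by
  have h := bres_blk_diagonal_dg (K := K) (T := T) fun _ _ _ => 1
  rw [dg_one, dg_one] at h
  exact h
theorem blk_hom : CornerHom (blk : Matrix T T (R K) → R (K.prod fun _ => T)) 1 := cornerHom_of_mul blk_add blk_star blk_mul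
theorem res_blk {K' : Ctx I} (h : K.Le K') (M : Matrix T T (R K)) :
    res (K'.prod fun _ => T) (blk M) = blk (M.map (res K')) := by
  obtain ⟨A, hA, rfl⟩ := bres_exists M
  have h1 : (A.map (mk K)).map (res K') = A.map (mk K') :=
    Matrix.ext fun s t => res_mk h (hA s t)
  rw [h1, blk_mk hA, blk_mk fun s t => (hA s t).le h, res_mk (h.comap _) (bres_mc_blk hA)]
theorem tr_blk {K' : Ctx J} {e : ∀ x, I x ↪ J x} (h : K.Le (K'.comap fun x => e x))
    (M : Matrix T T (R K)) :
    tr (K'.prod fun _ => T) (embProd e fun _ => T) (blk M) = blk (M.map (tr K' e)) := by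
  obtain ⟨A, hA, rfl⟩ := bres_exists M
  have h1 : (A.map (mk K)).map (tr K' e) =
      (A.map fun B => (fun x => trM (e x) (B x) : MF J)).map (mk K') :=
    Matrix.ext fun s t => tr_mk h (hA s t)
  have h2 : (K.prod fun _ => T).Le ((K'.prod fun _ => T).comap fun x => embProd e (fun _ => T) x) :=
    h.comap fun x (p : I x × T) => p.1
  rw [h1, blk_mk hA, 
    blk_mk (M := A.map fun B => (fun x => trM (e x) (B x) : MF J)) fun s t => (hA s t).tr h,
    tr_mk h2 (bres_mc_blk hA)]
  congr 1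
  funext x
  ext ⟨p, s⟩ ⟨q, t⟩
  simp only [Matrix.of_apply, Matrix.map_apply]
  by_cases hp : ∃ a, e x a = p
  · by_cases hq : ∃ b, e x b = q
    · obtain ⟨a, rfl⟩ := hp
      obtain ⟨b, rfl⟩ := hq
      rw [trM_apply]
      exact trM_apply (embProd e (fun _ => T) x) _ (a, s) (b, t)
    · rw [trM_apply_right _ _ p (not_exists.1 hq)]
      exact trM_apply_right _ _ _ fun c hc => hq ⟨c.1, congrArg Prod.fst hc⟩
  · rw [trM_apply_left _ _ q (not_exists.1 hp)]
    exact trM_apply_left _ _ _ fun c hc => hp ⟨c.1, congrArg Prod.fst hc⟩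
theorem blk_diagonal_dg (g : T → ∀ x, I x → ℂ) :
    blk (Matrix.diagonal fun t => dg K (g t)) = dg _ fun x p => g p.2 x p.1 := bres_blk_diagonal_dg g
theorem blk_diag_chi (p : ∀ x, I x → Prop) :
    blk (!![chi K p, 0; 0, chi K p] : Matrix (Fin 2) (Fin 2) (R K)) = chi _ fun x a => p x a.1 := by
  have h1 : (!![chi K p, 0; 0, chi K p] : Matrix (Fin 2) (Fin 2) (R K)) =
      Matrix.diagonal fun _ => chi K p := by
    ext s t
    fin_cases s <;> fin_cases t <;> simp
  rw [h1]
  unfold chi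
  rw [blk_diagonal_dg]
theorem blk_e0 : blk (!![1, 0; 0, 0] : Matrix (Fin 2) (Fin 2) (R K)) = chi _ fun _ a => a.2 = 0 := by
  have h1 : (!![1, 0; 0, 0] : Matrix (Fin 2) (Fin 2) (R K)) =
      Matrix.diagonal fun t => chi K fun _ _ => t = 0 := by
    have h2 : chi K (fun _ _ => False) = 0 := chi_eq_zero K.smS_false
    ext s t
    fin_cases s <;> fin_cases t <;> simp [chi_true, h2]
  rw [h1]
  unfold chi
  rw [blk_diagonal_dg]
theorem le_inT (t : T) : K.Le ((K.prod fun _ => T).comap fun x => inT I t x) := ⟨le_rfl, fun _ h => h, fun _ h => h⟩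
theorem blk_diag (φ φ' : R K) : blk (!![φ, 0; 0, φ'] : Matrix (Fin 2) (Fin 2) (R K)) =
    tr (K.prod fun _ => Fin 2) (inT I 0) φ + tr (K.prod fun _ => Fin 2) (inT I 1) φ' := by
  obtain ⟨A, hA, rfl⟩ := exists_mk φ
  obtain ⟨B, hB, rfl⟩ := exists_mk φ'
  have h1 : (!![mk K A, 0; 0, mk K B] : Matrix (Fin 2) (Fin 2) (R K)) =
      (!![A, 0; 0, B] : Matrix (Fin 2) (Fin 2) (MF I)).map (mk K) := by
    ext s t
    fin_cases s <;> fin_cases t <;> simp [mk_zero]
  rw [h1, blk_mk, tr_mk (le_inT 0) hA, tr_mk (le_inT 1) hB,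
    ← mk_add (hA.tr (le_inT 0)) (hB.tr (le_inT 1))]
  · congr 1
    funext x
    ext ⟨a, s⟩ ⟨b, t⟩
    have n0 : ∀ c d : I x, inT I (0 : Fin 2) x c ≠ (d, 1) := fun c d hc =>
      absurd (show (0 : Fin 2) = 1 from congrArg Prod.snd hc) (by decide)
    have n1 : ∀ c d : I x, inT I (1 : Fin 2) x c ≠ (d, 0) := fun c d hc =>
      absurd (show (1 : Fin 2) = 0 from congrArg Prod.snd hc) (by decide)
    have t0 := trM_apply (inT I (0 : Fin 2) x) (A x) a b
    have t1 := trM_apply (inT I (1 : Fin 2) x) (B x) a b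
    fin_cases s <;> fin_cases t
    · change A x a b = trM (inT I (0 : Fin 2) x) (A x) (a, 0) (b, 0) +
        trM (inT I (1 : Fin 2) x) (B x) (a, 0) (b, 0)
      rw [trM_apply_left (inT I (1 : Fin 2) x) _ _ fun c => n1 c a, add_zero]
      exact t0.symm
    · change 0 = trM (inT I (0 : Fin 2) x) (A x) (a, 0) (b, 1) +
        trM (inT I (1 : Fin 2) x) (B x) (a, 0) (b, 1)
      rw [trM_apply_left (inT I (1 : Fin 2) x) _ _ fun c => n1 c a,
        trM_apply_right (inT I (0 : Fin 2) x) _ _ fun c => n0 c b, add_zero]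
    · change 0 = trM (inT I (0 : Fin 2) x) (A x) (a, 1) (b, 0) +
        trM (inT I (1 : Fin 2) x) (B x) (a, 1) (b, 0)
      rw [trM_apply_left (inT I (0 : Fin 2) x) _ _ fun c => n0 c a,
        trM_apply_right (inT I (1 : Fin 2) x) _ _ fun c => n1 c b, add_zero]
    · change B x a b = trM (inT I (0 : Fin 2) x) (A x) (a, 1) (b, 1) +
        trM (inT I (1 : Fin 2) x) (B x) (a, 1) (b, 1)
      rw [trM_apply_left (inT I (0 : Fin 2) x) _ _ fun c => n0 c a, zero_add]
      exact t1.symm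
  · intro s t
    fin_cases s <;> fin_cases t
    · exact hA
    · exact mc_zero
    · exact mc_zero
    · exact hB

end Blk

end Crest.Agent.R217
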