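import Crest.Agent.R217.BExt
import Crest.Agent.R217.BRes

/-! Row 217, part B: finite objects, `ofR`/`toR`, Gram matrices. -/

set_option autoImplicit false
set_option linter.unusedSectionVars false

namespace Crest.Agent.R217

open Filter Topology CategoryTheory

variable {ι : Type} {P : ι → Type} {K K' : Ctx P} {I : ι → Type} [∀ x, Fintype (I x)]
  [∀ x, DecidableEq (I x)] {loc : ∀ x, I x → P x}

omit [∀ x, Fintype (I x)] in
theorem bf_supp_single {x : ι} {b : I x} {c : ℂ} {w : P x}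
    (h : w ∈ (finSM (loc x)).supp (Pi.single b c : I x → ℂ)) : w = loc x b ∧ c ≠ 0 := by
  obtain ⟨a, h1, rfl⟩ := h
  by_cases e : a = b
  · subst e; exact ⟨rfl, by simpa using h1⟩
  · exact absurd (Pi.single_eq_of_ne (M := fun _ : I x => ℂ) e c) h1

/-- partition into the coordinates -/
theorem fine_fin : Fine (finOb K loc) := by
  refine fun ε hε => .of_forall fun x => ⟨Fintype.card (I x),
    fun s => (LinearMap.single ℂ (fun _ : I x => ℂ) ((Fintype.equivFin (I x)).symm s) ∘ₗ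
      LinearMap.proj ((Fintype.equivFin (I x)).symm s) : (I x → ℂ) →ₗ[ℂ] (I x → ℂ)),
    fun s => loc x ((Fintype.equivFin (I x)).symm s), fun v => ?_, fun s v w hw => ?_⟩
  · have : ∑ s, (Pi.single ((Fintype.equivFin (I x)).symm s)
        ((v : I x → ℂ) ((Fintype.equivFin (I x)).symm s)) : I x → ℂ) = v := by
      rw [Equiv.sum_comp (Fintype.equivFin (I x)).symm
        (fun a => (Pi.single a ((v : I x → ℂ) a) : I x → ℂ))]
      exact Finset.univ_sum_single _
    exact (congrArg _ (sub_eq_zero.2 this.symm)).trans (finSM (loc x)).supp_zero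
  · obtain ⟨rfl, h⟩ := bf_supp_single hw
    exact ⟨⟨_, h, rfl⟩, by rw [K.d_self]; exact hε⟩

omit [∀ x, DecidableEq (I x)] in
theorem bf_mulVec_ne {x : ι} {A : Matrix (I x) (I x) ℂ} {v : I x → ℂ} {a : I x}
    (h : A.mulVec v a ≠ 0) : ∃ b, A a b ≠ 0 ∧ v b ≠ 0 := by
  obtain ⟨b, -, hb⟩ := Finset.exists_ne_zero_of_sum_ne_zero (show ∑ b, A a b * v b ≠ 0 from h)
  exact ⟨b, mul_ne_zero_iff.1 hb⟩

theorem ctrl_toLin {A : MF I} (hA : MC (K.comap loc) A) :
    Ctrl K (A := (finOb K loc).A) (B := (finOb K loc).A) fun x => Matrix.toLin' (A x) := by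
  refine ⟨_, bd_smR.1 hA, .of_forall ?_⟩
  rintro x v _ ⟨a, ha, rfl⟩
  obtain ⟨b, h1, h2⟩ := bf_mulVec_ne ha
  exact ⟨_, ⟨b, h2, rfl⟩, a, b, h1, rfl, rfl⟩

theorem mc_finMat {f : Fam (finOb K loc).A (finOb K loc).A} (hf : Ctrl K f) :
    MC (K.comap loc) fun x => finMat (f x) := by
  intro ε hε
  filter_upwards [hf.eps ε hε] with x hx a b h
  obtain ⟨w', h1, h2⟩ := hx _ _ ⟨a, h, rfl⟩
  rwa [(bf_supp_single h1).1] at h2

theorem bf_van_toLin {A : MF I} (hA : MV (K.comap loc) A) :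
    Van K (A := (finOb K loc).A) (B := (finOb K loc).A) fun x => Matrix.toLin' (A x) := by
  intro ε hε
  filter_upwards [hA ε hε] with x hx
  rintro _ ⟨v, a, ha, rfl⟩
  obtain ⟨b, h1, -⟩ := bf_mulVec_ne ha
  exact hx a ⟨b, h1⟩

theorem bf_mv_finMat {f : Fam (finOb K loc).A (finOb K loc).A} (hf : Van K f) :
    MV (K.comap loc) fun x => finMat (f x) := by
  intro ε hε
  filter_upwards [hf ε hε] with x hx a ⟨b, h⟩
  exact hx _ ⟨_, a, h, rfl⟩

theorem bf_finMat_toLin {x : ι} (A : Matrix (I x) (I x) ℂ) :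
    finMat (loc := loc x) (Matrix.toLin' A) = A := by
  ext a b
  show A.mulVec (Pi.single b 1) a = A a b
  simp

theorem bf_toLin_finMat {x : ι} (f : (finSM (loc x)).V →ₗ[ℂ] (finSM (loc x)).V) :
    Matrix.toLin' (finMat f) = f := by
  change (I x → ℂ) →ₗ[ℂ] (I x → ℂ) at f
  have : finMat (loc := loc x) f = LinearMap.toMatrix' f := by
    ext a b
    exact (LinearMap.toMatrix'_apply f a b).symm
  exact (congrArg _ this).trans (Matrix.toLin'_toMatrix' f)

theorem ofR_mk {A : MF I} (hA : MC (K.comap loc) A) : ofR K loc (mk _ A) =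
    hmk (finOb K loc) (finOb K loc) fun x => Matrix.toLin' (A x) := by
  rw [ofR, hmk_eq_iff (ctrl_toLin (rep_mc _)) (ctrl_toLin hA)]
  refine (congrArg (Van K) (funext fun x => ?_)).mp (bf_van_toLin (mv_rep_mk hA))
  exact map_sub Matrix.toLin' _ _

theorem toR_hmk {f : Fam (finOb K loc).A (finOb K loc).A} (hf : Ctrl K f) :
    toR (hmk (finOb K loc) (finOb K loc) f) = mk _ fun x => finMat (f x) := by
  rw [toR, mk_eq_iff (mc_finMat (hrep_ctrl _)) (mc_finMat hf)]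
  exact bf_mv_finMat (van_hrep_hmk hf)

theorem toR_ofR (φ : R (K.comap loc)) : toR (ofR K loc φ) = φ := by
  rw [ofR, toR_hmk (ctrl_toLin (rep_mc φ))]
  simp only [bf_finMat_toLin]
  exact mk_rep φ
theorem ofR_toR (f : finOb K loc ⟶ finOb K loc) : ofR K loc (toR f) = f := by
  rw [toR, ofR_mk (mc_finMat (hrep_ctrl f))]
  simp only [bf_toLin_finMat]
  exact hmk_hrep f
theorem ofR_mul (φ ψ : R (K.comap loc)) : ofR K loc (φ * ψ) = ofR K loc ψ ≫ ofR K loc φ := by
  obtain ⟨A, hA, rfl⟩ := exists_mk φ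
  obtain ⟨B, hB, rfl⟩ := exists_mk ψ
  rw [← mk_mul hA hB, ofR_mk hA, ofR_mk hB, ofR_mk (hA.mul hB),
    hmk_comp (ctrl_toLin hB) (ctrl_toLin hA)]
  congr 1
  funext x
  exact Matrix.toLin'_mul _ _
theorem ofR_add (φ ψ : R (K.comap loc)) : ofR K loc (φ + ψ) = ofR K loc φ + ofR K loc ψ := by
  obtain ⟨A, hA, rfl⟩ := exists_mk φ
  obtain ⟨B, hB, rfl⟩ := exists_mk ψ
  rw [← mk_add hA hB, ofR_mk hA, ofR_mk hB, ofR_mk (hA.add hB),
    ← hmk_add (ctrl_toLin hA) (ctrl_toLin hB)]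
  congr 1
  funext x
  exact map_add Matrix.toLin' _ _
theorem ofR_sub (φ ψ : R (K.comap loc)) : ofR K loc (φ - ψ) = ofR K loc φ - ofR K loc ψ := by
  rw [eq_sub_iff_add_eq, ← ofR_add, sub_add_cancel]
theorem ofR_neg (φ : R (K.comap loc)) : ofR K loc (-φ) = -ofR K loc φ := by
  have h0 := ofR_sub (K := K) (loc := loc) 0 0
  rw [sub_self, sub_self] at h0
  rw [← zero_sub, ofR_sub, h0, zero_sub]
theorem ofR_one : ofR K loc 1 = 𝟙 _ := by
  rw [← mk_one, ofR_mk mc_one, ← hmk_id]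
  congr 1
  funext x
  exact Matrix.toLin'_one
theorem ofR_zero : ofR K loc 0 = 0 := by
  have h0 := ofR_sub (K := K) (loc := loc) 0 0
  rwa [sub_self, sub_self] at h0
theorem toR_comp (f g : finOb K loc ⟶ finOb K loc) : toR (f ≫ g) = toR g * toR f := by
  conv_lhs => rw [← ofR_toR f, ← ofR_toR g, ← ofR_mul, toR_ofR]
theorem toR_add (f g : finOb K loc ⟶ finOb K loc) : toR (f + g) = toR f + toR g := by
  conv_lhs => rw [← ofR_toR f, ← ofR_toR g, ← ofR_add, toR_ofR]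
theorem toR_sub (f g : finOb K loc ⟶ finOb K loc) : toR (f - g) = toR f - toR g := by
  conv_lhs => rw [← ofR_toR f, ← ofR_toR g, ← ofR_sub, toR_ofR]
theorem toR_id : toR (𝟙 (finOb K loc)) = 1 := by rw [← ofR_one, toR_ofR]
theorem toR_zero : toR (0 : finOb K loc ⟶ finOb K loc) = 0 := by rw [← ofR_zero, toR_ofR]
theorem resH_ofR (h : K.Le K') (φ : R (K.comap loc)) :
    resH K' (ofR K loc φ) = ofR K' loc (res (K'.comap loc) φ) := by
  obtain ⟨A, hA, rfl⟩ := exists_mk φ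
  rw [ofR_mk hA, resH_hmk h (ctrl_toLin hA), res_mk (h.comap loc) hA,
    ofR_mk (hA.le (h.comap loc))]
theorem res_toR (h : K.Le K') (f : finOb K loc ⟶ finOb K loc) :
    res (K'.comap loc) (toR f) = toR (K := K') (loc := loc) (resH K' f) := by
  conv_rhs => rw [← ofR_toR f, resH_ofR h]
  exact (toR_ofR _).symm

/-- two vectors of the finite object that agree at deep coordinates -/
theorem hmk_span_eq {y y' : ∀ x, I x → ℂ}
    (h : ∀ ε > (0 : ℝ), ∀ᶠ x in K.F, ∀ a, ε ≤ K.dep x (loc x a) → y x a = y' x a) :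
    hmk (cst K) (finOb K loc) (spanF (A := (finOb K loc).A) y) =
      hmk (cst K) (finOb K loc) (spanF (A := (finOb K loc).A) y') := by
  rw [hmk_eq_iff (ctrl_cst _) (ctrl_cst _)]
  intro ε hε
  filter_upwards [h ε hε] with x hx
  rintro _ ⟨c, a, ha, rfl⟩
  refine not_le.1 fun h1 => ha ?_
  change ℂ at c
  show c * y x a - c * y' x a = 0
  rw [hx a h1, sub_self]

theorem span_ofR (y : ∀ x, I x → ℂ) {A : MF I} (hA : MC (K.comap loc) A) :
    hmk (cst K) (finOb K loc) (spanF (A := (finOb K loc).A) y) ≫ ofR K loc (mk _ A) =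
      hmk (cst K) (finOb K loc) (spanF (A := (finOb K loc).A) fun x => (A x).mulVec (y x)) := by
  rw [ofR_mk hA, hmk_comp (ctrl_cst _) (ctrl_toLin hA)]
  congr 1
  funext x
  refine LinearMap.ext fun c : ℂ => ?_
  exact Matrix.mulVec_smul (A x) c (y x)

section Gram

variable {X : Ob K} {B : ∀ x, (X.A x).V → (X.A x).V → ℂ}

theorem mc_gram (hB : LocPair K.F X.A B) {u v : Fam (finOb K loc).A X.A} (hu : Ctrl K u)
    (hv : Ctrl K v) : MC (K.comap loc) fun x => Matrix.of fun a b =>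
      B x (u x (Pi.single a 1 : I x → ℂ)) (v x (Pi.single b 1 : I x → ℂ)) := by
  intro ε hε
  filter_upwards [hB.loc, hu.eps _ (half_pos hε), hv.eps _ (half_pos hε)] with x h1 h2 h3 a b h
  obtain ⟨w, k1, k2⟩ := Set.not_disjoint_iff.1 fun hd => h (h1 _ _ hd)
  obtain ⟨w₁, k3, k4⟩ := h2 _ w k1
  obtain ⟨w₂, k5, k6⟩ := h3 _ w k2
  rw [(bf_supp_single k3).1] at k4
  rw [(bf_supp_single k5).1] at k6
  have := K.d_tri x (loc x a) w (loc x b)
  rw [K.d_symm x _ w] at this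
  show K.d x (loc x a) (loc x b) < ε
  linarith

omit [∀ x, Fintype (I x)] in
theorem bf_deep {u : Fam (finOb K loc).A X.A} (hu : Ctrl K u) {ε : ℝ} (hε : 0 < ε) :
    ∀ᶠ x in K.F, ∀ a, ε ≤ K.dep x (loc x a) →
      ∀ w ∈ (X.A x).supp (u x (Pi.single a 1 : I x → ℂ)), ε / 2 ≤ K.dep x w := by
  filter_upwards [hu.eps _ (half_pos hε)] with x hx a ha w hw
  obtain ⟨w₁, k3, k4⟩ := hx _ w hw
  rw [(bf_supp_single k3).1, K.d_symm] at k4
  linarith [K.dep_lip x (loc x a) w]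

omit [∀ x, Fintype (I x)] in
theorem bf_disj {Y : ∀ x, SM (P x)} {u : Fam (finOb K loc).A X.A} (hu : Ctrl K u) {g : Fam Y X.A}
    (hg : Van K g) {ε : ℝ} (hε : 0 < ε) : ∀ᶠ x in K.F, ∀ a, ε ≤ K.dep x (loc x a) → ∀ y,
      Disjoint ((X.A x).supp (u x (Pi.single a 1 : I x → ℂ))) ((X.A x).supp (g x y)) := by
  filter_upwards [bf_deep hu hε, hg _ (half_pos hε)] with x h1 h2 a ha y
  exact Set.disjoint_left.2 fun w k1 k2 => (h2 w ⟨y, k2⟩).not_ge (h1 a ha w k1)

theorem LocPair.sub_left {F : Filter ι} {A : ∀ x, SM (P x)} {B : ∀ x, (A x).V → (A x).V → ℂ}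
    (hB : LocPair F A B) (x : ι) (a a' b : (A x).V) : B x (a - a') b = B x a b - B x a' b := by
  rw [eq_sub_iff_add_eq, ← hB.add_left, sub_add_cancel]

theorem LocPair.sub_right {F : Filter ι} {A : ∀ x, SM (P x)} {B : ∀ x, (A x).V → (A x).V → ℂ}
    (hB : LocPair F A B) (x : ι) (a b b' : (A x).V) : B x a (b - b') = B x a b - B x a b' := by
  rw [eq_sub_iff_add_eq, ← hB.add_right, sub_add_cancel]

theorem LocPair.sum_left {F : Filter ι} {A : ∀ x, SM (P x)} {B : ∀ x, (A x).V → (A x).V → ℂ}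
    (hB : LocPair F A B) (x : ι) {S : Type*} (s : Finset S) (a : S → (A x).V) (b : (A x).V) :
    B x (∑ j ∈ s, a j) b = ∑ j ∈ s, B x (a j) b := by
  classical
  induction s using Finset.induction_on with
  | empty => simpa using hB.sub_left x 0 0 b
  | insert j s hj ih => rw [Finset.sum_insert hj, Finset.sum_insert hj, hB.add_left, ih]

theorem LocPair.sum_right {F : Filter ι} {A : ∀ x, SM (P x)} {B : ∀ x, (A x).V → (A x).V → ℂ}
    (hB : LocPair F A B) (x : ι) {S : Type*} (s : Finset S) (a : (A x).V) (b : S → (A x).V) :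
    B x a (∑ j ∈ s, b j) = ∑ j ∈ s, B x a (b j) := by
  classical
  induction s using Finset.induction_on with
  | empty => simpa using hB.sub_right x a 0 0
  | insert j s hj ih => rw [Finset.sum_insert hj, Finset.sum_insert hj, hB.add_right, ih]

theorem bf_expand {x : ι} {M : Type} [AddCommGroup M] [Module ℂ M]
    (u : (finSM (loc x)).V →ₗ[ℂ] M) (y : I x → ℂ) :
    u y = ∑ c, y c • u (Pi.single c 1 : I x → ℂ) :=
  LinearMap.pi_apply_eq_sum_univ (u : (I x → ℂ) →ₗ[ℂ] M) y |>.trans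
    (Finset.sum_congr rfl fun c _ => congrArg _ (congrArg _ (funext fun j => by
      rw [Pi.single_apply]; exact if_congr eq_comm rfl rfl)))

/-- for a deep row `a`: `Van.empty` on the left, disjoint supports on the right -/
theorem gram_hmk (hB : LocPair K.F X.A B) {u v : Fam (finOb K loc).A X.A} (hu : Ctrl K u)
    (hv : Ctrl K v) : gram B (hmk (finOb K loc) X u) (hmk (finOb K loc) X v) =
      mk _ fun x => Matrix.of fun a b =>
        B x (u x (Pi.single a 1 : I x → ℂ)) (v x (Pi.single b 1 : I x → ℂ)) := by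
  refine mk_eq_of_eps (mc_gram hB (hrep_ctrl _) (hrep_ctrl _)) (mc_gram hB hu hv) fun ε hε => ?_
  filter_upwards [hB.loc, (van_hrep_hmk (X := finOb K loc) (Y := X) hu).empty
    ((hrep_ctrl _).sub hu) ε hε, bf_disj hu (van_hrep_hmk (X := finOb K loc) (Y := X) hv) hε]
    with x h1 h2 h3 a b ha
  have e1 := h1 _ (hrep (hmk (finOb K loc) X v) x (Pi.single b 1 : I x → ℂ)) (by
    rw [h2 (Pi.single a 1 : I x → ℂ) fun w hw => by rw [(bf_supp_single hw).1]; exact ha]
    exact Set.empty_disjoint _)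
  have e2 := h1 _ _ (h3 a ha (Pi.single b 1 : I x → ℂ))
  exact (sub_eq_zero.1 ((hB.sub_left x _ _ _).symm.trans e1)).trans
    (sub_eq_zero.1 ((hB.sub_right x _ _ _).symm.trans e2))

theorem gram_add_left (hB : LocPair K.F X.A B) (u u' v : finOb K loc ⟶ X) :
    gram B (u + u') v = gram B u v + gram B u' v := by
  obtain ⟨u, hu, rfl⟩ := exists_hmk u
  obtain ⟨u', hu', rfl⟩ := exists_hmk u'
  obtain ⟨v, hv, rfl⟩ := exists_hmk v
  rw [← hmk_add hu hu', gram_hmk hB hu hv, gram_hmk hB hu' hv, gram_hmk hB (hu.add hu') hv,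
    ← mk_add (mc_gram hB hu hv) (mc_gram hB hu' hv)]
  congr 1
  funext x
  ext a b
  exact hB.add_left x _ _ _
theorem gram_add_right (hB : LocPair K.F X.A B) (u v v' : finOb K loc ⟶ X) :
    gram B u (v + v') = gram B u v + gram B u v' := by
  obtain ⟨u, hu, rfl⟩ := exists_hmk u
  obtain ⟨v', hv', rfl⟩ := exists_hmk v'
  obtain ⟨v, hv, rfl⟩ := exists_hmk v
  rw [← hmk_add hv hv', gram_hmk hB hu hv, gram_hmk hB hu hv', gram_hmk hB hu (hv.add hv'),
    ← mk_add (mc_gram hB hu hv) (mc_gram hB hu hv')]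
  congr 1
  funext x
  ext a b
  exact hB.add_right x _ _ _
theorem gram_comp_left (hB : LocPair K.F X.A B) (p : R (K.comap loc)) (u v : finOb K loc ⟶ X) :
    gram B (ofR K loc p ≫ u) v = star p * gram B u v := by
  obtain ⟨u, hu, rfl⟩ := exists_hmk u
  obtain ⟨v, hv, rfl⟩ := exists_hmk v
  obtain ⟨A, hA, rfl⟩ := exists_mk p
  rw [ofR_mk hA, hmk_comp (ctrl_toLin hA) hu, gram_hmk hB hu hv,
    gram_hmk hB ((ctrl_toLin hA).comp hu) hv, ← mk_star hA, ← mk_mul hA.star (mc_gram hB hu hv)]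
  congr 1
  funext x
  ext a b
  show B x (u x ((A x).mulVec (Pi.single a 1))) _ = ∑ c, star (A x c a) * B x _ _
  rw [bf_expand (u x), hB.sum_left]
  simp only [hB.smul_left, Matrix.mulVec_single_one, Matrix.col_apply]
theorem gram_comp_right (hB : LocPair K.F X.A B) (q : R (K.comap loc)) (u v : finOb K loc ⟶ X) :
    gram B u (ofR K loc q ≫ v) = gram B u v * q := by
  obtain ⟨u, hu, rfl⟩ := exists_hmk u
  obtain ⟨v, hv, rfl⟩ := exists_hmk v
  obtain ⟨A, hA, rfl⟩ := exists_mk q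
  rw [ofR_mk hA, hmk_comp (ctrl_toLin hA) hv, gram_hmk hB hu hv,
    gram_hmk hB hu ((ctrl_toLin hA).comp hv), ← mk_mul (mc_gram hB hu hv) hA]
  congr 1
  funext x
  ext a b
  show B x _ (v x ((A x).mulVec (Pi.single b 1))) = ∑ c, B x _ _ * A x c b
  rw [bf_expand (v x), hB.sum_right]
  simp only [hB.smul_right, Matrix.mulVec_single_one, Matrix.col_apply, mul_comm]

theorem gram_adj (hB : LocPair K.F X.A B) {f g : Fam X.A X.A} (hf : Ctrl K f) (hg : Ctrl K g) (c : ℂ)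
    (h : ∀ ε > (0 : ℝ), ∀ᶠ x in K.F, ∀ a b, (∀ w ∈ (X.A x).supp a, ε ≤ K.dep x w) →
      B x (f x a) b = c * B x a (g x b)) (u v : finOb K loc ⟶ X) :
    gram B (u ≫ hmk X X f) v = c • gram B u (v ≫ hmk X X g) := by
  obtain ⟨u, hu, rfl⟩ := exists_hmk u
  obtain ⟨v, hv, rfl⟩ := exists_hmk v
  rw [hmk_comp hu hf, hmk_comp hv hg, gram_hmk hB (hu.comp hf) hv, gram_hmk hB hu (hv.comp hg),
    ← mk_smul c (mc_gram hB hu (hv.comp hg))]
  refine mk_eq_of_eps (mc_gram hB (hu.comp hf) hv) ((mc_gram hB hu (hv.comp hg)).smul c)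
    fun ε hε => ?_
  filter_upwards [h _ (half_pos hε), bf_deep hu hε] with x h1 h2 a b ha
  exact h1 _ _ (h2 a ha)

theorem res_gram (hB : LocPair K.F X.A B) (h : K.Le K') (u v : finOb K loc ⟶ X) :
    res (K'.comap loc) (gram B u v) =
      gram (K := K') (loc := loc) (X := X.re K') B (resH K' u) (resH K' v) := by
  obtain ⟨u, hu, rfl⟩ := exists_hmk u
  obtain ⟨v, hv, rfl⟩ := exists_hmk v
  have hB' : LocPair K'.F (X.re K').A B :=
    ⟨hB.add_left, hB.add_right, hB.smul_left, hB.smul_right, h.F hB.loc⟩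
  rw [gram_hmk hB hu hv, res_mk (h.comap loc) (mc_gram hB hu hv), resH_hmk h hu, resH_hmk h hv]
  exact (gram_hmk (X := X.re K') hB' (hu.le h) (hv.le h)).symm

/-- `(Φᴴ n) b = conj (B (u n) (v e_b))` -/
theorem gram_span (hB : LocPair K.F X.A B) (η : cst K ⟶ finOb K loc) (u : finOb K loc ⟶ X)
    {v : Fam (finOb K loc).A X.A} (hv : Ctrl K v) (y : ∀ x, (X.A x).V)
    (h : η ≫ u = hmk (cst K) X (spanF y)) :
    η ≫ ofR K loc (star (gram B u (hmk (finOb K loc) X v))) =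
      hmk (cst K) (finOb K loc) (spanF (A := (finOb K loc).A) fun x b =>
        star (B x (y x) (v x (Pi.single b 1 : I x → ℂ)))) := by
  obtain ⟨u, hu, rfl⟩ := exists_hmk u
  obtain ⟨η, hη, rfl⟩ := exists_hmk η
  obtain ⟨n, rfl⟩ : ∃ n : ∀ x, I x → ℂ, η = spanF (A := (finOb K loc).A) n := by
    refine ⟨fun x => η x (1 : ℂ), funext fun x => LinearMap.ext fun c : ℂ => ?_⟩
    exact (congrArg (η x) (mul_one c).symm).trans (map_smul (η x) c (1 : ℂ))
  rw [hmk_comp hη hu, hmk_eq_iff (hη.comp hu) (ctrl_cst _)] at h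
  rw [gram_hmk hB hu hv, ← mk_star (mc_gram hB hu hv), span_ofR _ (mc_gram hB hu hv).star]
  refine hmk_span_eq fun ε hε => ?_
  filter_upwards [hB.loc, bf_disj hv h hε] with x h1 h2 b hb
  have e1 := h1 _ _ (h2 b hb (1 : ℂ)).symm
  have e2 : spanF y x (1 : ℂ) = y x := one_smul ℂ (y x)
  have e3 : spanF (A := (finOb K loc).A) n x (1 : ℂ) = n x := one_smul ℂ (n x)
  have e4 : B x (u x (spanF (A := (finOb K loc).A) n x (1 : ℂ))) _ = B x (spanF y x (1 : ℂ)) _ :=
    sub_eq_zero.1 ((hB.sub_left x _ _ _).symm.trans e1)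
  rw [e2, e3] at e4
  rw [← e4, bf_expand (u x) (n x), hB.sum_left, star_sum]
  show ∑ a, star (B x _ _) * _ = _
  simp only [hB.smul_left, star_mul', star_star, mul_comm]

end Gram

end Crest.Agent.R217
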