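import Crest.Agent.R217.BRes

/-! Row 217, part B: Hadamard products `had1`, `had`, `bdg`.  Method: `exists_mk`, the `_mk`
lemmas, `mk_eq_iff`, and the definitions of `Adm`, `Near`, `Near3` applied to the supports. -/

set_option autoImplicit false
set_option linter.unusedSectionVars false
set_option linter.unusedVariables false

namespace Crest.Agent.R217

open Filter Topology

variable {ι : Type} {I J L : ι → Type} [∀ x, Fintype (I x)] [∀ x, DecidableEq (I x)]
  [∀ x, Fintype (J x)] [∀ x, DecidableEq (J x)] [∀ x, Fintype (L x)] [∀ x, DecidableEq (L x)]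

section Aux

variable {K : Ctx I}

theorem bh_ext {A B : MF I} (h : ∀ x a b, A x a b = B x a b) : mk K A = mk K B :=
  congrArg _ (funext fun x => Matrix.ext (h x))

theorem bh_eq {A B : MF I} (hA : MC K A) (hB : MC K B) {Z : ∀ x, I x → Prop} (hZ : K.SmS Z)
    (h : ∀ x a b, A x a b ≠ B x a b → Z x a) : mk K A = mk K B :=
  (mk_eq_iff hA hB).2 (hZ.mono (.of_forall fun x a ⟨b, hb⟩ => h x a b (sub_ne_zero.1 hb)))

theorem bh_eq' {A B : MF fun x => I x × J x} (hA : MC (K.prod J) A) (hB : MC (K.prod J) B)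
    {Z : ∀ x, I x → Prop} (hZ : K.SmS Z) (h : ∀ x p q, A x p q ≠ B x p q → Z x p.1) :
    mk (K.prod J) A = mk (K.prod J) B :=
  bh_eq hA hB (Z := fun x p => Z x p.1) (fun ε hε => (hZ ε hε).mono fun _ hx p => hx p.1) h

theorem bh_trM {A B : Type} [Fintype A] [DecidableEq B] (e : A ↪ B) {M : Matrix B B ℂ}
    {N : Matrix A A ℂ} (h : ∀ a b, M (e a) (e b) = N a b)
    (h1 : ∀ p q, (∀ a, e a ≠ p) → M p q = 0) (h2 : ∀ p q, (∀ a, e a ≠ q) → M p q = 0) :
    M = trM e N := by
  ext p q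
  by_cases hp : ∀ a, e a ≠ p
  · rw [h1 p q hp, trM_apply_left _ _ _ hp]
  by_cases hq : ∀ a, e a ≠ q
  · rw [h2 p q hq, trM_apply_right _ _ _ hq]
  push Not at hp hq
  obtain ⟨a, rfl⟩ := hp
  obtain ⟨b, rfl⟩ := hq
  rw [h, trM_apply]

theorem bh_hadM_mul {A T : Type} [Fintype A] [Fintype T] (k k' : A → A → Matrix T T ℂ)
    (M N : Matrix A A ℂ) (p q : A × T) :
    (hadM k M * hadM k' N) p q = ∑ b, M p.1 b * N b q.1 * (k p.1 b * k' b q.1) p.2 q.2 := by
  simp only [hadM, Matrix.mul_apply, Matrix.of_apply, Fintype.sum_prod_type, Finset.mul_sum]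
  exact Finset.sum_congr rfl fun b _ => Finset.sum_congr rfl fun t _ => by ring

theorem bh_one_mul {A T : Type} [Fintype A] [DecidableEq A] [Fintype T] (g : A → Matrix T T ℂ)
    (k : A → A → Matrix T T ℂ) (M : Matrix A A ℂ) :
    hadM (fun a _ => g a) 1 * hadM k M = hadM (fun a b => g a * k a b) M := by
  ext p q
  rw [bh_hadM_mul]
  simp [hadM, Matrix.one_apply]

theorem bh_mul_one {A T : Type} [Fintype A] [DecidableEq A] [Fintype T] (g : A → Matrix T T ℂ)
    (k : A → A → Matrix T T ℂ) (M : Matrix A A ℂ) :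
    hadM k M * hadM (fun _ b => g b) 1 = hadM (fun a b => k a b * g b) M := by
  ext p q
  rw [bh_hadM_mul]
  simp [hadM, Matrix.one_apply]

theorem bh_mc (k : ∀ x, I x → I x → Matrix (J x) (J x) ℂ) :
    MC (K.prod J) fun x => hadM (k x) 1 :=
  fun ε hε => (mc_one (K := K) ε hε).mono fun _ hx p q hn => hx p.1 q.1 (left_ne_zero_of_mul hn)

theorem bh_bdg (g : ∀ x, I x → Matrix (J x) (J x) ℂ) :
    bdg K g = mk _ fun x => hadM (fun a _ => g x a) 1 :=
  bh_ext fun x p q => by simp [hadM, Matrix.one_apply]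

theorem bh_bdg' (g : ∀ x, I x → Matrix (J x) (J x) ℂ) :
    bdg K g = mk _ fun x => hadM (fun _ b => g x b) 1 :=
  bh_ext fun x p q => by
    by_cases e : p.1 = q.1 <;> simp [hadM, Matrix.one_apply, e]

end Aux

section Had1

variable {K K' K'' : Ctx I} {k k' k'' : ∀ x, I x → I x → ℂ}

theorem MC.had1 (h : Adm K K' fun x a b => k x a b ≠ 0) {A : MF I} (hA : MC K A) :
    MC K' fun x => Matrix.of fun a b => k x a b * A x a b :=
  (h.smR _ hA).mono (.of_forall fun _ _ _ hn => ⟨right_ne_zero_of_mul hn, left_ne_zero_of_mul hn⟩)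
theorem had1_mk (h : Adm K K' fun x a b => k x a b ≠ 0) {A : MF I} (hA : MC K A) :
    had1 K' k (mk K A) = mk K' fun x => Matrix.of fun a b => k x a b * A x a b :=
  bh_eq (MC.had1 h (rep_mc _)) (hA.had1 h) (h.smS _ ((rep_mc _).sub hA) (mv_rep_mk hA))
    fun x a b hn => ⟨b, fun e => hn (by
      rw [Matrix.of_apply, Matrix.of_apply, (sub_eq_zero.1 e : rep (mk K A) x a b = A x a b)]),
      fun e => hn (by simp [e])⟩
theorem had1_add (h : Adm K K' fun x a b => k x a b ≠ 0) (φ ψ : R K) :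
    had1 K' k (φ + ψ) = had1 K' k φ + had1 K' k ψ := by
  obtain ⟨A, hA, rfl⟩ := exists_mk φ
  obtain ⟨B, hB, rfl⟩ := exists_mk ψ
  rw [← mk_add hA hB, had1_mk h hA, had1_mk h hB, had1_mk h (hA.add hB),
    ← mk_add (hA.had1 h) (hB.had1 h)]
  exact bh_ext fun x a b => by simp [mul_add]
theorem had1_neg (h : Adm K K' fun x a b => k x a b ≠ 0) (φ : R K) :
    had1 K' k (-φ) = -had1 K' k φ :=
  (AddMonoidHom.mk' (had1 K' k : R K → R K') (had1_add h)).map_neg φ
theorem had1_smul (h : Adm K K' fun x a b => k x a b ≠ 0) (c : ℂ) (φ : R K) :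
    had1 K' k (c • φ) = c • had1 K' k φ := by
  obtain ⟨A, hA, rfl⟩ := exists_mk φ
  rw [← mk_smul c hA, had1_mk h hA, had1_mk h (hA.smul c), ← mk_smul c (hA.had1 h)]
  exact bh_ext fun x a b => by simp [mul_left_comm]
theorem had1_zero (h : Adm K K' fun x a b => k x a b ≠ 0) : had1 K' k (0 : R K) = 0 :=
  (AddMonoidHom.mk' (had1 K' k : R K → R K') (had1_add h)).map_zero
theorem had1_congr (h : Adm K K' fun x a b => k x a b ≠ 0) (h' : Adm K K' fun x a b => k' x a b ≠ 0)
    (hk : Near K K' fun x a b => k x a b = k' x a b) (φ : R K) : had1 K' k φ = had1 K' k' φ :=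
  bh_eq (MC.had1 h (rep_mc _)) (MC.had1 h' (rep_mc _)) (hk _ (rep_mc φ))
    fun x a b hn => ⟨b, fun e => hn (by simp [e]), fun e => hn (by simp [e])⟩
theorem had1_star (h : Adm K K' fun x a b => k x a b ≠ 0) (h' : Adm K K' fun x a b => k' x a b ≠ 0)
    (hk : Near K K' fun x a b => star (k x b a) = k' x a b) (φ : R K) :
    star (had1 K' k φ) = had1 K' k' (star φ) := by
  obtain ⟨A, hA, rfl⟩ := exists_mk φ
  rw [← mk_star hA, had1_mk h hA, had1_mk h' hA.star, ← mk_star (hA.had1 h)]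
  refine bh_eq (hA.had1 h).star (hA.star.had1 h') (hk _ hA.star) fun x a b hn =>
    ⟨b, fun e => hn ?_, fun e => hn ?_⟩
  · simp only [Pi.star_apply, Matrix.star_apply, Matrix.of_apply, star_mul'] at e ⊢
    rw [e, mul_zero, mul_zero]
  · simp only [Pi.star_apply, Matrix.star_apply, Matrix.of_apply, star_mul', e]
theorem had1_mul (h : Adm K K' fun x a b => k x a b ≠ 0) (h' : Adm K K' fun x a b => k' x a b ≠ 0)
    (h'' : Adm K K' fun x a b => k'' x a b ≠ 0)
    (hk : Near3 K K' fun x a b c => k x a b * k' x b c = k'' x a c) (φ ψ : R K) :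
    had1 K' k φ * had1 K' k' ψ = had1 K' k'' (φ * ψ) := by
  obtain ⟨A, hA, rfl⟩ := exists_mk φ
  obtain ⟨B, hB, rfl⟩ := exists_mk ψ
  rw [← mk_mul hA hB, had1_mk h hA, had1_mk h' hB, had1_mk h'' (hA.mul hB),
    ← mk_mul (hA.had1 h) (hB.had1 h')]
  refine bh_eq ((hA.had1 h).mul (hB.had1 h')) ((hA.mul hB).had1 h'') (hk _ _ hA hB)
    fun x a c hn => ?_
  by_contra hc
  refine hn ?_
  simp only [Pi.mul_apply, Matrix.mul_apply, Matrix.of_apply, Finset.mul_sum]
  refine Finset.sum_congr rfl fun b _ => ?_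
  by_cases e1 : A x a b = 0
  · simp [e1]
  by_cases e2 : B x b c = 0
  · simp [e2]
  rw [← not_not.1 fun e => hc ⟨b, c, e1, e2, e⟩]
  ring
theorem had1_dg (h : Adm K K' fun x a b => k x a b ≠ 0) (g : ∀ x, I x → ℂ) :
    had1 K' k (dg K g) = dg K' fun x a => k x a a * g x a := by
  rw [dg, had1_mk h (mc_diagonal g)]
  refine bh_ext fun x a b => ?_
  by_cases e : a = b
  · simp [e]
  · simp [e]
theorem dg_had1_dg (h : Adm K K' fun x a b => k x a b ≠ 0) (g g' : ∀ x, I x → ℂ) (φ : R K) :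
    dg K' g * had1 K' k φ * dg K' g' = had1 K' (fun x a b => g x a * k x a b * g' x b) φ := by
  rw [had1, dg_mul_mk_mul_dg _ _ (MC.had1 h (rep_mc _))]
  exact bh_ext fun x a b => by simp only [Matrix.of_apply]; ring
theorem had1_one (h : K.Le K') (φ : R K) : had1 K' (fun _ _ _ => 1) φ = res K' φ :=
  bh_ext fun x a b => one_mul _
theorem had1_had1 (h : Adm K K' fun x a b => k x a b ≠ 0) (h' : Adm K' K'' fun x a b => k' x a b ≠ 0)
    (φ : R K) : had1 K'' k' (had1 K' k φ) = had1 K'' (fun x a b => k' x a b * k x a b) φ :=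
  (had1_mk h' (MC.had1 h (rep_mc φ))).trans (bh_ext fun _ _ _ => (mul_assoc _ _ _).symm)
theorem had1_res {K₀ : Ctx I} (h0 : K₀.Le K) (h : Adm K K' fun x a b => k x a b ≠ 0) (φ : R K₀) :
    had1 K' k (res K φ) = had1 K' k φ :=
  had1_mk h ((rep_mc φ).le h0)
theorem had1_tr {K₁ : Ctx J} {e : ∀ x, I x ↪ J x} (k₁ : ∀ x, J x → J x → ℂ)
    (h : K.Le (K₁.comap fun x => e x)) (φ : R K) :
    had1 K₁ k₁ (tr K₁ e φ) = tr K₁ e (had1 K (fun x a b => k₁ x (e x a) (e x b)) φ) := by
  have h1 := (Ctx.Le.refl K).adm fun x a b => k₁ x (e x a) (e x b) ≠ 0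
  refine (had1_mk ((Ctx.Le.refl K₁).adm _) ((rep_mc φ).tr h)).trans
    (Eq.trans ?_ (tr_mk h (MC.had1 h1 (rep_mc φ))).symm)
  refine congrArg _ (funext fun x => bh_trM _ (fun a b => ?_) (fun p q hp => ?_) fun p q hq => ?_)
  · rw [Matrix.of_apply, Matrix.of_apply, trM_apply]
  · rw [Matrix.of_apply, trM_apply_left _ _ _ hp, mul_zero]
  · rw [Matrix.of_apply, trM_apply_right _ _ _ hq, mul_zero]
theorem had1_blk {T : Type} [Fintype T] [DecidableEq T] (h : Adm K K' fun x a b => k x a b ≠ 0)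
    (M : Matrix T T (R K)) :
    had1 (K'.prod fun _ => T) (fun x p q => k x p.1 q.1) (blk M) = blk (M.map (had1 K' k)) := by
  have hM : MC (K.prod fun _ => T) fun x => Matrix.of fun p q => rep (M p.2 q.2) x p.1 q.1 :=
    fun ε hε => (eventually_all.2 fun s => eventually_all.2 fun t => rep_mc (M s t) ε hε).mono
      fun x hx p q => hx p.2 q.2 p.1 q.1
  exact (had1_mk (h.comap fun x (p : I x × T) => p.1) hM).trans
    (blk_mk (M := Matrix.of fun s t x => Matrix.of fun a b => k x a b * rep (M s t) x a b)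
      fun s t => MC.had1 h (rep_mc (M s t))).symm

open Classical in
/-- pushing the corner `χ R χ` to another context -/
theorem push_hom (p : ∀ x, I x → Prop) (h : Adm K K' fun x a b => p x a ∧ p x b) :
    CornerHom (had1 K' (fun x a b => if p x a ∧ p x b then 1 else 0) : R K → R K') (chi K p) := by
  have h1 : Adm K K' fun x a b => (if p x a ∧ p x b then (1 : ℂ) else 0) ≠ 0 :=
    h.mono fun x a b hn => by_contra fun hc => hn (if_neg hc)
  refine ⟨chi_star p, chi_idem p, had1_add h1, fun φ => (had1_star h1 h1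
    (Near.of_forall fun x a b => by simp [and_comm]) φ).symm, fun φ ψ hφ _ => ?_⟩
  obtain ⟨A, hA, rfl⟩ := exists_mk φ
  obtain ⟨B, hB, rfl⟩ := exists_mk ψ
  rw [chi, dg_mul_mk_mul_dg _ _ hA] at hφ
  have hA' : MC K fun x => Matrix.of fun a b =>
      (if p x a then (1 : ℂ) else 0) * A x a b * if p x b then 1 else 0 :=
    hA.of_le fun x a b hn => right_ne_zero_of_mul (left_ne_zero_of_mul hn)
  rw [← hφ, ← mk_mul hA' hB, had1_mk h1 hA', had1_mk h1 hB, had1_mk h1 (hA'.mul hB),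
    ← mk_mul (hA'.had1 h1) (hB.had1 h1)]
  refine bh_ext fun x a c => ?_
  simp only [Pi.mul_apply, Matrix.mul_apply, Matrix.of_apply, Finset.mul_sum]
  refine Finset.sum_congr rfl fun b _ => ?_
  by_cases e1 : p x a <;> by_cases e2 : p x b <;> simp [e1, e2]

end Had1

section Had

variable {K K' K'' : Ctx I} {k k' k'' : ∀ x, I x → I x → Matrix (J x) (J x) ℂ}

theorem MC.had (h : Adm K K' fun x a b => k x a b ≠ 0) {A : MF I} (hA : MC K A) :
    MC (K'.prod J) fun x => hadM (k x) (A x) :=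
  fun ε hε => (h.smR _ hA ε hε).mono fun _ hx p q hn =>
    hx p.1 q.1 ⟨left_ne_zero_of_mul hn, fun e => hn (by simp [hadM, e])⟩
theorem had_mk (h : Adm K K' fun x a b => k x a b ≠ 0) {A : MF I} (hA : MC K A) :
    had K' k (mk K A) = mk _ fun x => hadM (k x) (A x) :=
  bh_eq' (MC.had h (rep_mc _)) (hA.had h) (h.smS _ ((rep_mc _).sub hA) (mv_rep_mk hA))
    fun x p q hn => ⟨q.1, fun e => hn (by
      simp only [hadM, Matrix.of_apply, (sub_eq_zero.1 e : rep (mk K A) x p.1 q.1 = A x p.1 q.1)]),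
      fun e => hn (by simp [hadM, e])⟩
theorem had_add (h : Adm K K' fun x a b => k x a b ≠ 0) (φ ψ : R K) :
    had K' k (φ + ψ) = had K' k φ + had K' k ψ := by
  obtain ⟨A, hA, rfl⟩ := exists_mk φ
  obtain ⟨B, hB, rfl⟩ := exists_mk ψ
  rw [← mk_add hA hB, had_mk h hA, had_mk h hB, had_mk h (hA.add hB),
    ← mk_add (hA.had h) (hB.had h)]
  exact bh_ext fun x a b => by simp [hadM, add_mul]
theorem had_neg (h : Adm K K' fun x a b => k x a b ≠ 0) (φ : R K) :
    had K' k (-φ) = -had K' k φ :=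
  (AddMonoidHom.mk' (had K' k : R K → R (K'.prod J)) (had_add h)).map_neg φ
theorem had_zero (h : Adm K K' fun x a b => k x a b ≠ 0) : had K' k (0 : R K) = 0 :=
  (AddMonoidHom.mk' (had K' k : R K → R (K'.prod J)) (had_add h)).map_zero
theorem had_zero_ker (φ : R K) : had K' (fun x _ _ => (0 : Matrix (J x) (J x) ℂ)) φ = 0 :=
  (bh_ext fun x a b => by simp [hadM]).trans mk_zero
theorem had_add_ker (h : Adm K K' fun x a b => k x a b ≠ 0) (h' : Adm K K' fun x a b => k' x a b ≠ 0)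
    (φ : R K) : had K' (fun x a b => k x a b + k' x a b) φ = had K' k φ + had K' k' φ :=
  (bh_ext fun x a b => by simp [hadM, mul_add]).trans
    (mk_add (MC.had h (rep_mc φ)) (MC.had h' (rep_mc φ)))
theorem had_neg_ker (h : Adm K K' fun x a b => k x a b ≠ 0) (φ : R K) :
    had K' (fun x a b => -k x a b) φ = -had K' k φ :=
  (bh_ext fun x a b => by simp [hadM]).trans (mk_neg (MC.had h (rep_mc φ)))
theorem had_congr (h : Adm K K' fun x a b => k x a b ≠ 0) (h' : Adm K K' fun x a b => k' x a b ≠ 0)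
    (hk : Near K K' fun x a b => k x a b = k' x a b) (φ : R K) : had K' k φ = had K' k' φ :=
  bh_eq' (MC.had h (rep_mc _)) (MC.had h' (rep_mc _)) (hk _ (rep_mc φ))
    fun x p q hn => ⟨q.1, fun e => hn (by simp [hadM, e]), fun e => hn (by simp [hadM, e])⟩
theorem had_star (h : Adm K K' fun x a b => k x a b ≠ 0) (h' : Adm K K' fun x a b => k' x a b ≠ 0)
    (hk : Near K K' fun x a b => star (k x b a) = k' x a b) (φ : R K) :
    star (had K' k φ) = had K' k' (star φ) := by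
  obtain ⟨A, hA, rfl⟩ := exists_mk φ
  rw [← mk_star hA, had_mk h hA, had_mk h' hA.star, ← mk_star (hA.had h)]
  refine bh_eq' (hA.had h).star (hA.star.had h') (hk _ hA.star) fun x p q hn =>
    ⟨q.1, fun e => hn ?_, fun e => hn ?_⟩
  · simp only [hadM, Pi.star_apply, Matrix.star_apply, Matrix.of_apply, star_mul'] at e ⊢
    rw [e, zero_mul, zero_mul]
  · simp only [hadM, Pi.star_apply, Matrix.star_apply, Matrix.of_apply, star_mul', ← e]
theorem had_mul (h : Adm K K' fun x a b => k x a b ≠ 0) (h' : Adm K K' fun x a b => k' x a b ≠ 0)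
    (h'' : Adm K K' fun x a b => k'' x a b ≠ 0)
    (hk : Near3 K K' fun x a b c => k x a b * k' x b c = k'' x a c) (φ ψ : R K) :
    had K' k φ * had K' k' ψ = had K' k'' (φ * ψ) := by
  obtain ⟨A, hA, rfl⟩ := exists_mk φ
  obtain ⟨B, hB, rfl⟩ := exists_mk ψ
  rw [← mk_mul hA hB, had_mk h hA, had_mk h' hB, had_mk h'' (hA.mul hB),
    ← mk_mul (hA.had h) (hB.had h')]
  refine bh_eq' ((hA.had h).mul (hB.had h')) ((hA.mul hB).had h'') (hk _ _ hA hB)
    fun x p q hn => ?_
  by_contra hc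
  refine hn ?_
  rw [Pi.mul_apply, bh_hadM_mul]
  simp only [hadM, Pi.mul_apply, Matrix.of_apply, Matrix.mul_apply (M := A x), Finset.sum_mul]
  refine Finset.sum_congr rfl fun b _ => ?_
  by_cases e1 : A x p.1 b = 0
  · simp [e1]
  by_cases e2 : B x b q.1 = 0
  · simp [e2]
  rw [not_not.1 fun e => hc ⟨b, q.1, e1, e2, e⟩]
theorem had_one (h : Adm K K' fun x a b => k x a b ≠ 0) :
    had K' k (1 : R K) = bdg K' fun x a => k x a a := by
  rw [← mk_one, had_mk h mc_one]
  refine bh_ext fun x p q => ?_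
  by_cases e : p.1 = q.1 <;> simp [hadM, Matrix.one_apply, e]
theorem bdg_had_bdg (h : Adm K K' fun x a b => k x a b ≠ 0)
    (g g' : ∀ x, I x → Matrix (J x) (J x) ℂ) (φ : R K) :
    bdg K' g * had K' k φ * bdg K' g' = had K' (fun x a b => g x a * k x a b * g' x b) φ := by
  rw [bh_bdg, bh_bdg', had, ← mk_mul (bh_mc _) (MC.had h (rep_mc φ)),
    ← mk_mul ((bh_mc _).mul (MC.had h (rep_mc φ))) (bh_mc _)]
  exact congrArg _ (funext fun x => by rw [Pi.mul_apply, Pi.mul_apply, bh_one_mul, bh_mul_one])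
theorem had_dg_dg (h : Adm K K' fun x a b => k x a b ≠ 0) (g g' : ∀ x, I x → ℂ) (φ : R K) :
    had K' k (dg K g * φ * dg K g') =
      dg _ (fun x p => g x p.1) * had K' k φ * dg _ fun x p => g' x p.1 := by
  obtain ⟨A, hA, rfl⟩ := exists_mk φ
  have hA' : MC K fun x => Matrix.of fun a b => g x a * A x a b * g' x b :=
    hA.of_le fun x a b hn => right_ne_zero_of_mul (left_ne_zero_of_mul hn)
  rw [dg_mul_mk_mul_dg _ _ hA, had_mk h hA, dg_mul_mk_mul_dg _ _ (hA.had h), had_mk h hA']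
  exact bh_ext fun x p q => by simp only [hadM, Matrix.of_apply]; ring
theorem had_chi_chi (h : Adm K K' fun x a b => k x a b ≠ 0) (p q : ∀ x, I x → Prop) (φ : R K) :
    had K' k (chi K p * φ * chi K q) =
      chi _ (fun x a => p x a.1) * had K' k φ * chi _ fun x a => q x a.1 :=
  had_dg_dg h _ _ φ
theorem had_res {K₀ : Ctx I} (h0 : K₀.Le K) (h : Adm K K' fun x a b => k x a b ≠ 0) (φ : R K₀) :
    had K' k (res K φ) = had K' k φ :=
  had_mk h ((rep_mc φ).le h0)
theorem res_had (h : Adm K K' fun x a b => k x a b ≠ 0) (h' : K'.Le K'') (φ : R K) :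
    res (K''.prod J) (had K' k φ) = had K'' k φ :=
  res_mk (h'.comap fun x (p : I x × J x) => p.1) (MC.had h (rep_mc φ))
theorem had1_had {u : ∀ x, I x → I x → ℂ} (h : Adm K K' fun x a b => k x a b ≠ 0)
    (h' : Adm K' K'' fun x a b => u x a b ≠ 0) (φ : R K) :
    had1 (K''.prod J) (fun x p q => u x p.1 q.1) (had K' k φ) =
      had K'' (fun x a b => u x a b • k x a b) φ :=
  (had1_mk (h'.comap fun x (p : I x × J x) => p.1) (MC.had h (rep_mc φ))).trans
    (bh_ext fun x p q => by simp [hadM, mul_left_comm])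
theorem had_tr {K₁ K₁' : Ctx L} {e : ∀ x, I x ↪ L x} (k₁ : ∀ x, L x → L x → Matrix (J x) (J x) ℂ)
    (h : K.Le (K₁.comap fun x => e x)) (h₁ : Adm K₁ K₁' fun x a b => k₁ x a b ≠ 0) (φ : R K) :
    had K₁' k₁ (tr K₁ e φ) = tr (K₁'.prod J) (embProd e J)
      (had (K₁'.comap fun x => e x) (fun x a b => k₁ x (e x a) (e x b)) φ) := by
  refine (had_mk h₁ ((rep_mc φ).tr h)).trans (Eq.trans ?_ (tr_mk (Ctx.Le.refl _)
    (MC.had ((h₁.comap fun x => e x).le h (Ctx.Le.refl _)) (rep_mc φ))).symm)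
  refine congrArg _ (funext fun x => bh_trM _ (fun a b => ?_) (fun p q hp => ?_) fun p q hq => ?_)
  · exact congrArg (· * _) (trM_apply (e x) _ a.1 b.1)
  · exact mul_eq_zero_of_left (trM_apply_left _ _ _ fun a ha => hp (a, p.2) (Prod.ext ha rfl)) _
  · exact mul_eq_zero_of_left (trM_apply_right _ _ _ fun a ha => hq (a, q.2) (Prod.ext ha rfl)) _

theorem bdg_mul (g g' : ∀ x, I x → Matrix (J x) (J x) ℂ) :
    bdg K g * bdg K g' = bdg K fun x a => g x a * g' x a := by
  rw [bh_bdg, bh_bdg, bh_bdg, ← mk_mul (bh_mc _) (bh_mc _)]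
  exact congrArg _ (funext fun x => by rw [Pi.mul_apply, bh_one_mul])
theorem bdg_sub (g g' : ∀ x, I x → Matrix (J x) (J x) ℂ) :
    bdg K g - bdg K g' = bdg K fun x a => g x a - g' x a := by
  rw [bh_bdg, bh_bdg, bh_bdg, ← mk_sub (bh_mc _) (bh_mc _)]
  exact bh_ext fun x p q => by simp [hadM, mul_sub]
theorem bdg_star (g : ∀ x, I x → Matrix (J x) (J x) ℂ) :
    star (bdg K g) = bdg K fun x a => star (g x a) := by
  rw [bh_bdg, bh_bdg', ← mk_star (bh_mc _)]
  exact bh_ext fun x p q => by simp [hadM, Matrix.one_apply, eq_comm, apply_ite (starRingEnd ℂ)]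
theorem bdg_one : bdg K (fun x _ => (1 : Matrix (J x) (J x) ℂ)) = 1 :=
  (bh_ext fun x p q => by simp [Matrix.one_apply, Prod.ext_iff, ite_and]).trans mk_one
theorem bdg_congr {g g' : ∀ x, I x → Matrix (J x) (J x) ℂ}
    (h : K.SmS fun x a => g x a ≠ g' x a) : bdg K g = bdg K g' := by
  rw [bh_bdg, bh_bdg]
  exact bh_eq' (bh_mc _) (bh_mc _) h fun x p q hn e => hn (by simp [hadM, e])
open Classical in
theorem chi_eq_bdg (p : ∀ x, I x → Prop) : chi (K.prod J) (fun x a => p x a.1) =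
    bdg K fun x a => if p x a then (1 : Matrix (J x) (J x) ℂ) else 0 := by
  refine bh_ext fun x a b => ?_
  by_cases e : p x a.1 <;>
    simp [Matrix.one_apply, Matrix.diagonal_apply, Prod.ext_iff, ite_and, e]

end Had

end Crest.Agent.R217
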