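import Crest.Agent.R217.BDefs

/-! Row 217, part B: operations on `R K`. Definitions only: DO NOT CHANGE (owner helper92). -/

set_option autoImplicit false

namespace Crest.Agent.R217

open Filter Topology

variable {ι : Type} {I J : ι → Type} [∀ x, Fintype (I x)] [∀ x, DecidableEq (I x)]
  [∀ x, Fintype (J x)] [∀ x, DecidableEq (J x)]

/-- change of context -/
noncomputable def res {K : Ctx I} (K' : Ctx I) (φ : R K) : R K' := mk K' (rep φ)

/-- the matrix of an embedding -/
def embM {A B : Type} [DecidableEq B] (e : A ↪ B) : Matrix B A ℂ :=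
  Matrix.of fun b a => if e a = b then 1 else 0

/-- extension by zero -/
noncomputable def trM {A B : Type} [Fintype A] [DecidableEq B] (e : A ↪ B) (M : Matrix A A ℂ) :
    Matrix B B ℂ := embM e * M * (embM e).transpose

/-- extension by zero along index embeddings -/
noncomputable def tr {K : Ctx I} (K' : Ctx J) (e : ∀ x, I x ↪ J x) (φ : R K) : R K' :=
  mk K' fun x => trM (e x) (rep φ x)

/-- compression to a sub-family of indices -/
noncomputable def sub {K' : Ctx J} (e : ∀ x, I x ↪ J x) (φ : R K') :
    R (K'.comap fun x => e x) :=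
  mk _ fun x => (rep φ x).submatrix (e x) (e x)

/-- diagonal elements -/
noncomputable def dg (K : Ctx I) (g : ∀ x, I x → ℂ) : R K := mk K fun x => Matrix.diagonal (g x)

open Classical in
/-- diagonal projections -/
noncomputable def chi (K : Ctx I) (p : ∀ x, I x → Prop) : R K :=
  dg K fun x a => if p x a then 1 else 0

/-- Hadamard product with a scalar kernel -/
noncomputable def had1 {K : Ctx I} (K' : Ctx I) (k : ∀ x, I x → I x → ℂ) (φ : R K) : R K' :=
  mk K' fun x => Matrix.of fun a b => k x a b * rep φ x a b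

/-- Hadamard product with a matrix valued kernel -/
def hadM {A T : Type} (k : A → A → Matrix T T ℂ) (M : Matrix A A ℂ) : Matrix (A × T) (A × T) ℂ :=
  Matrix.of fun p q => M p.1 q.1 * k p.1 q.1 p.2 q.2

/-- Hadamard product with a matrix valued kernel -/
noncomputable def had {K : Ctx I} (K' : Ctx I) (k : ∀ x, I x → I x → Matrix (J x) (J x) ℂ)
    (φ : R K) : R (K'.prod J) :=
  mk _ fun x => hadM (k x) (rep φ x)

/-- block diagonal elements -/
noncomputable def bdg (K : Ctx I) (g : ∀ x, I x → Matrix (J x) (J x) ℂ) : R (K.prod J) :=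
  mk _ fun x => Matrix.of fun p q => if p.1 = q.1 then g x p.1 p.2 q.2 else 0

/-- matrices over `R K` -/
noncomputable def blk {K : Ctx I} {T : Type} [Fintype T] [DecidableEq T] (M : Matrix T T (R K)) :
    R (K.prod fun _ => T) :=
  mk _ fun x => Matrix.of fun p q => rep (M p.2 q.2) x p.1 q.1

/-- the embedding `a ↦ (a, t)` -/
def inT (I : ι → Type) {T : Type} (t : T) (x : ι) : I x ↪ I x × T :=
  ⟨fun a => (a, t), fun _ _ h => (Prod.mk.inj h).1⟩

/-- `e × id` -/
def embProd (e : ∀ x, I x ↪ J x) (T : ι → Type) (x : ι) : I x × T x ↪ J x × T x :=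
  (e x).prodMap (Function.Embedding.refl _)

end Crest.Agent.R217
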