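import Crest.Agent.R217.CStage

/-! Row 217, part C: the comparison theorem for the stage map.

Proof.  Let `Ω : Ctx I` have filter `K.F` (`= K'.F`), metric `max (K.d a b) (max (dist (w a) (w b))
(dist (w' a) (w' b)))` and depth `min (K.dep a) (min over the 4 distances of w a, w' a to p₁, p₂,
minus 1/2)`.  Then `K.Le Ω`, and `Ω`-deep points are `farC`.  In `R (Ω.prod _)` put (`had Ω · ·`)
`Φ̃ = had (hM * tM (w a) (w b)) Φ`, `Ψ̃ = had (tM (w a) (w b) * hM) Ψ`,
`ũ = had (tM (w a) (w' b)) u`, `ṽ = had (tM (w' a) (w b)) v`,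
`Φ̃' = had (hM * tM (w' a) (w' b)) (u⋆ Φ u)`.  By `had_mul`/`had_star`/`had_one` and
`tM_cocycle`, `tM_star` (distances `≤ 1/10 + small ≤ 1/4`): `Inv Φ̃ Ψ̃`, `ũ ṽ = 1 = ṽ ũ`,
`Φ̃' = ũ⋆ Φ̃ ũ`.  Let `c₁ = bdg (cM 1 (w a))`, `c₁' = bdg (cM 1 (w' a))`,
`c₂ = bdg (cM (13/10) (w a))`.  `rel_nested` (`T = c₂`, `T' = 1`; `cM_coiso`, `bdg_had_bdg`,
`had_congr`, `had_zero_ker`) relates `c₁⋆ Φ̃ c₁` to `X₀ = c₂⋆ Φ̃ c₂`, and (`T = ṽ c₂`, `T' = ũ`,
`Inv.iso`, `cM_nested_tM`) relates `c₁'⋆ Φ̃' c₁'` to `T⋆ Φ̃' T = X₀`; `reg_compress` gives regularity.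
The three forms lie in the corner of `χ = chi {31/50 ≤ dist (w a) pᵢ, ‖w a‖ ≤ 17/2}` (`cM_ker_zero`:
outside this set close points lie in `inU 1` for `w` and `w'`), so `push_hom` (to `K'.prod _`;
`Adm` from `AdmS`) transports `Reg` and `Rel`; finally `had1_had`, `had_congr`, `kM_eq` identify
the pushed forms with `stage K' w Φ` and `stage K' w' (u⋆ Φ u)`. -/

set_option autoImplicit false

namespace Crest.Agent.R217

open Filter Topology

variable {ι : Type} {I : ι → Type} [∀ x, Fintype (I x)] [∀ x, DecidableEq (I x)]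
  {K K' : Ctx I} {w w' : ∀ x, I x → ℝ × ℝ}

theorem cc_min {a b a' b' d : ℝ} (h : a ≤ a' + d) (h' : b ≤ b' + d) : min a b ≤ min a' b' + d :=
  (min_le_min h h').trans_eq (min_add_add_right _ _ _)

/-- the auxiliary context -/
noncomputable def ccOm (K K' : Ctx I) (W : Bool → ∀ x, I x → ℝ × ℝ) : Ctx I where
  F := K'.F
  d x a b := max (K.d x a b) (max (dist (W false x a) (W false x b)) (dist (W true x a) (W true x b)))
  dep x a := min (K.dep x a) (min (min (dist (W false x a) p₁) (dist (W false x a) p₂))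
    (min (dist (W true x a) p₁) (dist (W true x a) p₂)) - 1 / 2)
  d_self x a := by simp [K.d_self]
  d_symm x a b := by rw [K.d_symm, dist_comm (W false x a), dist_comm (W true x a)]
  d_tri x a b c := max_le ((K.d_tri x a b c).trans (add_le_add (le_max_left _ _) (le_max_left _ _)))
    (max_le ((dist_triangle _ (W false x b) _).trans (add_le_add
      (le_max_of_le_right (le_max_left _ _)) (le_max_of_le_right (le_max_left _ _))))
      ((dist_triangle _ (W true x b) _).trans (add_le_add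
        (le_max_of_le_right (le_max_right _ _)) (le_max_of_le_right (le_max_right _ _)))))
  dep_lip x a b := by
    have h1 : ∀ p, dist (W false x a) p ≤ dist (W false x b) p + max (K.d x a b)
        (max (dist (W false x a) (W false x b)) (dist (W true x a) (W true x b))) := fun p =>
      (dist_triangle_left _ _ (W false x b)).trans (by
        rw [add_comm, dist_comm (W false x b) (W false x a)]
        exact add_le_add le_rfl (le_max_of_le_right (le_max_left _ _)))
    have h2 : ∀ p, dist (W true x a) p ≤ dist (W true x b) p + max (K.d x a b)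
        (max (dist (W false x a) (W false x b)) (dist (W true x a) (W true x b))) := fun p =>
      (dist_triangle_left _ _ (W true x b)).trans (by
        rw [add_comm, dist_comm (W true x b) (W true x a)]
        exact add_le_add le_rfl (le_max_of_le_right (le_max_right _ _)))
    refine cc_min ((K.dep_lip x a b).trans (add_le_add le_rfl (le_max_left _ _))) ?_
    linarith [cc_min (cc_min (h1 p₁) (h1 p₂)) (cc_min (h2 p₁) (h2 p₂))]

/-- the core of the plane -/
def ccP (z : ℝ × ℝ) : Prop := 31 / 50 ≤ dist z p₁ ∧ 31 / 50 ≤ dist z p₂ ∧ ‖z‖ ≤ 17 / 2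

theorem cc_inU {z z' : ℝ × ℝ} (h : ¬ccP z) (hz : dist z z' ≤ 1 / 4) {r : ℝ} (hr : 1 ≤ r) :
    inU r z' := by
  simp only [ccP, not_and_or, not_le] at h
  have h1 := norm_sub_norm_le z z'
  rw [← dist_eq_norm] at h1
  rw [dist_comm] at hz
  rcases h with h | h | h
  · exact .inl (by linarith [dist_triangle z' z p₁])
  · exact .inr (.inl (by linarith [dist_triangle z' z p₂]))
  · exact .inr (.inr (by linarith [dist_comm z z']))

theorem cc_zero {W : Bool → Bool → ℝ × ℝ} (h : ∀ s t, dist (W s false) (W t true) ≤ 1 / 8)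
    (hp : ¬(ccP (W false false) ∧ ccP (W false true))) (s : Bool) {r : ℝ} (hr : 1 ≤ r)
    (hr' : r ≤ 3 / 2) : star (cM r (W s false)) * (hM * tM (W s false) (W s true)) *
      cM r (W s true) = 0 := by
  rcases not_and_or.1 hp with hp | hp
  · exact cM_ker_zero hr' hr' (cc_inU hp (by
      linarith [dist_triangle_right (W false false) (W s false) (W false true), h false false,
        h s false]) hr) (cc_inU hp (by linarith [h false s]) hr) (by linarith [h s s])
  · exact cM_ker_zero hr' hr' (cc_inU hp (by rw [dist_comm]; linarith [h s false]) hr)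
      (cc_inU hp (by
        linarith [dist_triangle_left (W false true) (W s true) (W false false), h false false,
          h false s]) hr) (by linarith [h s s])

section
variable {W : Bool → ∀ x, I x → ℝ × ℝ}

omit [∀ x, Fintype (I x)] [∀ x, DecidableEq (I x)]

theorem cc_le (h : ∀ s, AdmS K K' (W s)) : K.Le (ccOm K K' W) := by
  refine ⟨(h false).F, fun S hS ε hε => ?_, fun S hS ε hε => ?_⟩
  · filter_upwards [(h false).F (hS ε hε), (h false).wc S hS ε hε, (h true).wc S hS ε hε]
      with x h1 h2 h3 a b hab using max_lt (h1 a b hab) (max_lt (h2 a b hab) (h3 a b hab))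
  · filter_upwards [(h false).F (hS ε hε)] with x h1 a ha using (min_le_left _ _).trans_lt (h1 a ha)

theorem cc_dist {x : ι} (hw : ∀ a, dist (W false x a) (W true x a) ≤ 1 / 10) {a b : I x}
    (h : (ccOm K K' W).d x a b < 1 / 100) (s t : Bool) : dist (W s x a) (W t x b) ≤ 1 / 8 := by
  obtain ⟨-, h1, h2⟩ : _ ∧ _ ∧ _ := by simpa only [ccOm, max_lt_iff] using h
  cases s <;> cases t
  · linarith
  · linarith [dist_triangle (W false x a) (W false x b) (W true x b), hw b]
  · linarith [dist_triangle_left (W true x a) (W false x b) (W false x a), hw a]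
  · linarith

theorem cc_far {x : ι} {a : I x} (h : 0 < (ccOm K K' W).dep x a) (s : Bool) : farC (W s x a) := by
  obtain ⟨-, ⟨h1, h2⟩, h3, h4⟩ : _ ∧ (_ ∧ _) ∧ _ ∧ _ := by
    simpa only [ccOm, lt_min_iff, sub_pos] using h
  cases s
  exacts [⟨h1, h2⟩, ⟨h3, h4⟩]

/-- close pairs away from the centres -/
def ccG (W : Bool → ∀ x, I x → ℝ × ℝ) (x : ι) (a b : I x) : Prop :=
  ∀ s t, farC (W s x a) ∧ farC (W t x b) ∧ dist (W s x a) (W t x b) ≤ 1 / 8

theorem cc_near3 (h : ∀ s, AdmS K K' (W s))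
    (hw : ∀ᶠ x in K'.F, ∀ a, dist (W false x a) (W true x a) ≤ 1 / 10) :
    Near3 K (ccOm K K' W) fun x a b c => ccG W x a b ∧ ccG W x b c := by
  refine Near3.le (Near3.of_eps (K := ccOm K K' W) (K' := ccOm K K' W) le_rfl fun ε hε => ⟨min (ε / 3) (1 / 100), by positivity,
    hw.mono fun x hx a b c h1 h2 h3 => ?_⟩) (cc_le h) (Ctx.Le.refl _)
  rw [lt_min_iff] at h1 h2
  have h4 := (ccOm K K' W).dep_lip x a b
  have h5 := (ccOm K K' W).dep_lip x b c
  exact ⟨fun s t => ⟨cc_far (by linarith) s, cc_far (by linarith) t, cc_dist hx h1.2 s t⟩,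
    fun s t => ⟨cc_far (by linarith) s, cc_far (by linarith) t, cc_dist hx h2.2 s t⟩⟩

theorem cc_near (h : ∀ s, AdmS K K' (W s))
    (hw : ∀ᶠ x in K'.F, ∀ a, dist (W false x a) (W true x a) ≤ 1 / 10) :
    Near K (ccOm K K' W) (ccG W) := fun S hS =>
  (cc_near3 h hw S _ hS K.smR_eq).mono (.of_forall fun _ _ ⟨b, h1, h2⟩ =>
    ⟨b, b, h1, rfl, fun h3 => h2 h3.1⟩)

theorem cc_near' (h : ∀ s, AdmS K K' (W s))
    (hw : ∀ᶠ x in K'.F, ∀ a, dist (W false x a) (W true x a) ≤ 1 / 10) :
    Near K K' fun x a b => ∀ s t, dist (W s x a) (W t x b) ≤ 1 / 8 := fun S hS =>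
  K'.smS_false.mono (((cc_le h).smR S hS (1 / 100) (by norm_num)).and hw |>.mono
    fun _ hx a ⟨b, h1, h2⟩ => h2 (cc_dist hx.2 (hx.1 a b h1)))

theorem cc_adm (hF : K.F ≤ K'.F) (h : ∀ s, AdmS K K' (W s))
    (hw : ∀ᶠ x in K'.F, ∀ a, dist (W false x a) (W true x a) ≤ 1 / 10) :
    Adm (ccOm K K' W) K' fun x a b => ccP (W false x a) ∧ ccP (W false x b) := by
  refine ⟨le_rfl, fun S hS => (h false).smR _ fun ε hε => ?_, fun S _ hS => ?_⟩
  · filter_upwards [hF (hS ε hε)] with x h1 a b hab using (le_max_left _ _).trans_lt (h1 a b hab.1)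
  refine ((h false).smS (fun x a => (∃ b, S x a b) ∧ ccP (W false x a)) fun ε hε => ?_).mono
    (.of_forall fun x a ⟨b, h1, h2, _⟩ => ⟨⟨⟨b, h1⟩, h2⟩, by linarith [h2.2.2]⟩)
  filter_upwards [hF (hS (min ε (1 / 100)) (by positivity)), hF hw] with x h1 h2 a ha
  have h4 := fun p => dist_triangle (W false x a) (W true x a) p
  obtain ⟨h5, h6, -⟩ := ha.2
  refine not_le.1 fun h7 => (h1 a ha.1).not_ge (min_le_min h7 (le_sub_iff_add_le.2
    (le_min (le_min ?_ ?_) (le_min ?_ ?_)))) <;> linarith [h4 p₁, h4 p₂, h2 a]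

end

open Classical in
theorem stage_cmp (hF : K.F ≤ K'.F) (h : AdmS K K' w) (h' : AdmS K K' w')
    (hw : ∀ᶠ x in K'.F, ∀ a, dist (w x a) (w' x a) ≤ 1 / 10) {Φ Ψ u v : R K} (hΦ : Inv Φ Ψ)
    (h1 : u * v = 1) (h2 : v * u = 1) :
    Reg (stage K' w Φ) ∧ Reg (stage K' w' (star u * Φ * u)) ∧
      ∃ X : R (K'.prod fun _ => Fin 2), Reg X ∧ Rel (stage K' w Φ) X ∧
        Rel (stage K' w' (star u * Φ * u)) X := by
  let W : Bool → ∀ x, I x → ℝ × ℝ := fun s => bif s then w' else w
  have hW : ∀ s, AdmS K K' (W s) := fun s => by cases s; exacts [h, h']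
  have hle := cc_le hW
  let H : (∀ x, I x → I x → M2) → R K → R ((ccOm K K' W).prod fun _ => Fin 2) := had (ccOm K K' W)
  let B : (∀ x, I x → M2) → R ((ccOm K K' W).prod fun _ => Fin 2) := bdg (ccOm K K' W)
  have hmul : ∀ {k k' k'' : ∀ x, I x → I x → M2}, (∀ x a b c, ccG W x a b → ccG W x b c →
      k x a b * k' x b c = k'' x a c) → ∀ φ ψ, H k φ * H k' ψ = H k'' (φ * ψ) := fun hk =>
    had_mul (hle.adm _) (hle.adm _) (hle.adm _)
      ((cc_near3 hW hw).mono fun x a b c h => hk x a b c h.1 h.2)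
  have hstar : ∀ {k k' : ∀ x, I x → I x → M2}, (∀ x a b, ccG W x a b →
      star (k x b a) = k' x a b) → ∀ φ, star (H k φ) = H k' (star φ) := fun hk =>
    had_star (hle.adm _) (hle.adm _) ((cc_near hW hw).mono hk)
  have hcon : ∀ {k k' : ∀ x, I x → I x → M2}, (∀ x a b, ccG W x a b →
      k x a b = k' x a b) → ∀ φ, H k φ = H k' φ := fun hk =>
    had_congr (hle.adm _) (hle.adm _) ((cc_near hW hw).mono hk)
  have hone : ∀ {k : ∀ x, I x → I x → M2}, (∀ x a, k x a a = 1) → H k 1 = 1 := fun hk =>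
    (had_one (hle.adm _)).trans (by simp only [hk, bdg_one])
  have hbdg : ∀ (g g' : ∀ x, I x → M2) (k : ∀ x, I x → I x → M2) φ, B g * H k φ * B g' =
      H (fun x a b => g x a * k x a b * g' x b) φ := fun g g' k φ =>
    bdg_had_bdg (hle.adm _) g g' φ
  have hcoc : ∀ x a b c, ccG W x a b → ccG W x b c → ∀ s t r,
      tM (W s x a) (W t x b) * tM (W t x b) (W r x c) = tM (W s x a) (W r x c) :=
    fun x a b c h1 h2 s t r => tM_cocycle (h1 s t).1 (h1 s t).2.1 (h2 t r).2.1
      (by linarith [(h1 s t).2.2]) (by linarith [(h2 t r).2.2])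
  have hst : ∀ x a b, ccG W x a b → ∀ s t,
      star (tM (W t x b) (W s x a)) * hM = hM * tM (W s x a) (W t x b) :=
    fun x a b h1 s t => tM_star (h1 s t).1 (h1 s t).2.1 (by linarith [(h1 s t).2.2])
  let τ : Bool → Bool → ∀ x, I x → I x → M2 := fun s t x a b => tM (W s x a) (W t x b)
  let F : Bool → R K → R ((ccOm K K' W).prod fun _ => Fin 2) := fun s =>
    H fun x a b => hM * τ s s x a b
  let G : Bool → R K → R ((ccOm K K' W).prod fun _ => Fin 2) := fun s =>
    H fun x a b => τ s s x a b * hM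
  let c : Bool → ℝ → R ((ccOm K K' W).prod fun _ => Fin 2) := fun s r =>
    B fun x a => cM r (W s x a)
  have hinv : ∀ s {φ ψ : R K}, Inv φ ψ → Inv (F s φ) (G s ψ) := fun s φ ψ hi => by
    refine ⟨(hstar (fun x a b h1 => ?_) φ).trans (by rw [hi.1]), ?_, ?_⟩
    · rw [star_mul, hM_star]; exact hst x a b h1 s s
    · refine (hmul (k'' := fun x a b => hM * τ s s x a b * hM) (fun x a b c h1 h2 => ?_) φ ψ).trans ?_
      · rw [← mul_assoc, mul_assoc hM, hcoc x a b c h1 h2]
      · rw [hi.2.1]; exact hone fun x a => by simp only [τ, tM_self, mul_one, hM_mul]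
    · refine (hmul (k'' := τ s s) (fun x a b c h1 h2 => ?_) ψ φ).trans ?_
      · rw [mul_assoc, ← mul_assoc hM, hM_mul, one_mul, hcoc x a b c h1 h2]
      · rw [hi.2.2]; exact hone fun x a => tM_self _
  have hc1 : ∀ s r, 1 - c s r = B fun x a => 1 - cM r (W s x a) := fun s r => by
    rw [← bdg_one, bdg_sub]
  have hcc : ∀ s {r r'}, r ≤ r' → c s r * c s r' = c s r' := fun s r r' hr =>
    (bdg_mul _ _).trans (by simp only [cM_nested hr]; rfl)
  have hco : ∀ s r, r ≤ 3 / 2 → ∀ ψ, (1 - c s r * 1) * G s ψ * star (1 - c s r * 1) = 0 :=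
    fun s r hr ψ => by
      rw [mul_one, hc1, bdg_star, hbdg, hcon (k' := fun _ _ _ => 0)
        fun x a b h1 => cM_coiso hr (by linarith [(h1 s s).2.2])]
      exact had_zero_ker ψ
  have hreg : ∀ s r, r ≤ 3 / 2 → ∀ {φ ψ : R K}, Inv φ ψ → Reg (star (c s r) * F s φ * c s r) :=
    fun s r hr φ ψ hi => reg_compress (hinv s hi) (by rw [mul_one, hcc s le_rfl]) (hco s r hr ψ)
  have huv : ∀ s t {u v : R K}, u * v = 1 → H (τ s t) u * H (τ t s) v = 1 := fun s t u v huv => by
    rw [hmul (k'' := τ s s) (fun x a b c h1 h2 => hcoc x a b c h1 h2 s t s), huv]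
    exact hone fun x a => tM_self _
  have e1 := huv false true h1
  have e2 := huv true false h2
  have e3 : F true (star u * Φ * u) =
      star (H (τ false true) u) * F false Φ * H (τ false true) u := by
    rw [hstar (k' := fun x a b => star (τ false true x b a)) (fun _ _ _ _ => rfl),
      hmul (k'' := fun x a b => hM * τ true false x a b) (fun x a b c h1 h2 => by
        rw [← mul_assoc, hst x a b h1, mul_assoc, hcoc x a b c h1 h2]),
      hmul (k'' := fun x a b => hM * τ true true x a b) (fun x a b c h1 h2 => by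
        rw [mul_assoc, hcoc x a b c h1 h2])]
  have e4 : (1 - c true 1) * H (τ true false) v * c false (13 / 10) = 0 := by
    rw [hc1, hbdg, hcon (k' := fun _ _ _ => 0) fun x a b h1 => cM_nested_tM (by norm_num)
      (by linarith [(h1 true false).2.2]) (by linarith [(h1 true false).2.2])]
    exact had_zero_ker v
  have r1 := rel_nested (hinv false hΦ) (hcc false (le_refl 1))
    (hcc false (show (1 : ℝ) ≤ 13 / 10 by norm_num)) (by rw [mul_one, hcc false le_rfl])
    (hco false _ (by norm_num) Ψ)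
  have r2 : Rel (star (c true 1) * F true (star u * Φ * u) * c true 1)
      (star (c false (13 / 10)) * F false Φ * c false (13 / 10)) := by
    have e5 := hco false (13 / 10) (by norm_num) Ψ
    have e6 := hcc false (le_refl (13 / 10))
    have e7 := hcc true (le_refl 1)
    have hi := hinv false hΦ
    rw [e3]
    generalize H (τ false true) u = U at *
    generalize H (τ true false) v = V at *
    generalize c false (13 / 10) = c₂ at *
    have e8 : star V * star U = 1 := by rw [← star_mul, e1, star_one]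
    have e9 : 1 - V * c₂ * U = V * (1 - c₂ * 1) * U := by
      rw [mul_one, mul_sub, mul_one, sub_mul, e2]
    have := rel_nested (T := V * c₂) (T' := U) (hi.iso e1 e2) e7
      (by rw [sub_mul, sub_mul, one_mul, sub_eq_zero, mul_assoc] at e4; exact e4.symm)
      (by rw [mul_assoc, ← mul_assoc U, e1, one_mul, mul_assoc, e6])
      (by
        rw [e9, star_mul, star_mul]
        calc _ = V * ((1 - c₂ * 1) * (U * V) * G false Ψ * (star V * star U) *
              star (1 - c₂ * 1)) * star V := by simp only [mul_assoc]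
          _ = 0 := by rw [e1, e8, mul_one, mul_one, e5, mul_zero, zero_mul])
    convert this using 1
    calc _ = star c₂ * (star V * star U) * F false Φ * (U * V) * c₂ := by
          rw [e1, e8, mul_one, mul_one]
      _ = _ := by simp only [star_mul, mul_assoc]
  have hA := cc_adm hF hW hw
  have hform : ∀ s r φ, star (c s r) * F s φ * c s r = H (fun x a b =>
      star (cM r (W s x a)) * (hM * tM (W s x a) (W s x b)) * cM r (W s x b)) φ := fun s r φ => by
    rw [bdg_star, hbdg]
  have hz : ∀ x a b, (∀ s t, dist (W s x a) (W t x b) ≤ 1 / 8) →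
      ¬(ccP (W false x a) ∧ ccP (W false x b)) → ∀ s r, 1 ≤ r → r ≤ 3 / 2 →
      star (cM r (W s x a)) * (hM * tM (W s x a) (W s x b)) * cM r (W s x b) = 0 :=
    fun x a b h1 h2 s r hr hr' => cc_zero (W := fun s j => bif j then W s x b else W s x a) h1 h2 s hr hr'
  have hcor : ∀ s r, 1 ≤ r → r ≤ 3 / 2 → ∀ φ,
      chi _ (fun x a => ccP (W false x a.1)) * (star (c s r) * F s φ * c s r) *
        chi _ (fun x a => ccP (W false x a.1)) = star (c s r) * F s φ * c s r :=
    fun s r hr hr' φ => by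
      rw [hform, chi_eq_bdg (p := fun x a => ccP (W false x a)), hbdg]
      refine hcon (fun x a b h1 => ?_) φ
      by_cases h2 : ccP (W false x a) ∧ ccP (W false x b)
      · rw [if_pos h2.1, if_pos h2.2, one_mul, mul_one]
      · rw [hz x a b (fun s t => (h1 s t).2.2) h2 s r hr hr', mul_zero, zero_mul]
  have hpush := push_hom (fun x (a : I x × Fin 2) => ccP (W false x a.1))
    (hA.comap fun x (p : I x × Fin 2) => p.1)
  have hfin : ∀ s φ, had1 (K'.prod fun _ => Fin 2) (fun x p q =>
      if ccP (W false x p.1) ∧ ccP (W false x q.1) then 1 else 0) (star (c s 1) * F s φ * c s 1) =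
      stage K' (W s) φ := fun s φ => by
    rw [hform]
    refine (had1_had (u := fun x a b => if ccP (W false x a) ∧ ccP (W false x b) then 1 else 0)
      (hle.adm _) (hA.mono fun x a b h1 => by
        by_contra h2; exact h1 (if_neg h2)) φ).trans (had_congr
      ((hA.le hle (Ctx.Le.refl _)).mono fun x a b h1 => by
        by_contra h2; exact h1 (by rw [if_neg h2, zero_smul])) (hW s).adm
      ((cc_near' hW hw).mono fun x a b h1 => ?_) φ)
    rw [kM_eq (by linarith [h1 s s])]
    split_ifs with h2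
    · exact one_smul _ _
    · rw [zero_smul, hz x a b h1 h2 s 1 le_rfl (by norm_num)]
  have c1 := hcor false 1 le_rfl (by norm_num) Φ
  have c2 := hcor true 1 le_rfl (by norm_num) (star u * Φ * u)
  have c3 := hcor false (13 / 10) (by norm_num) (by norm_num) Φ
  exact ⟨hfin false Φ ▸ hpush.reg c1 (hreg false 1 (by norm_num) hΦ),
    hfin true _ ▸ hpush.reg c2 (hreg true 1 (by norm_num) (hΦ.iso h1 h2)), _,
    hpush.reg c3 (hreg false _ (by norm_num) hΦ), hfin false Φ ▸ hpush.rel c1 c3 r1,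
    hfin true _ ▸ hpush.rel c2 c3 r2⟩

theorem stage_reg (hF : K.F ≤ K'.F) (h : AdmS K K' w) {Φ Ψ : R K} (hΦ : Inv Φ Ψ) :
    Reg (stage K' w Φ) :=
  (stage_cmp hF h h (Eventually.of_forall fun _ _ => by simp) hΦ (mul_one 1) (mul_one 1)).1

end Crest.Agent.R217
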