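import Crest.Agent.R217.BOps

/-! Row 217, part C: the signature invariant `nu`. Definitions only: DO NOT CHANGE (owner helper92).

The planar gadget: a flat `SL(2,ℤ)` bundle on the plane minus the centres `(∓3, 0)` (cuts below the
centres, monodromies `g₁ = !![1,1;0,1]`, `g₂ = !![1,0;-4,1]`), the invariant Hermitian form `hM`,
and a parallel isotropic line field near the centres and near infinity. -/

set_option autoImplicit false

namespace Crest.Agent.R217

open Filter Topology Matrix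

/-- the real quadratic form `v ↦ re (v⋆ A v)` -/
noncomputable def qf {T : Type} [Fintype T] (A : Matrix T T ℂ) : QuadraticForm ℝ (T → ℂ) :=
  LinearMap.BilinMap.toQuadraticMap (LinearMap.mk₂ ℝ (fun u v : T → ℂ => (star u ⬝ᵥ A *ᵥ v).re)
    (fun u u' v => by simp [add_dotProduct])
    (fun c u v => by
      rw [star_smul, smul_dotProduct]; simp)
    (fun u v v' => by simp [mulVec_add, dotProduct_add])
    (fun c u v => by
      rw [mulVec_smul, dotProduct_smul]; simp))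

/-- (twice the) signature of a Hermitian matrix -/
noncomputable def sig {T : Type} [Fintype T] (A : Matrix T T ℂ) : ℤ :=
  (sigPos (qf A) : ℤ) - (sigNeg (qf A) : ℤ)

abbrev M2 := Matrix (Fin 2) (Fin 2) ℂ

noncomputable def hM : M2 := !![0, Complex.I; -Complex.I, 0]

noncomputable def zM (w : ℝ × ℝ) : M2 :=
  if w.1 < -3 then 1 else if w.1 < 3 then !![1, 1; 0, 1] else !![-3, 1; -4, 1]

noncomputable def zI (w : ℝ × ℝ) : M2 :=
  if w.1 < -3 then 1 else if w.1 < 3 then !![1, -1; 0, 1] else !![1, -1; 4, -3]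

/-- parallel transport from `w'` to `w` -/
noncomputable def tM (w w' : ℝ × ℝ) : M2 := if w.2 < 0 then zI w * zM w' else 1

def p₁ : ℝ × ℝ := (-3, 0)

def p₂ : ℝ × ℝ := (3, 0)

/-- the orthogonal projection that kills the isotropic line (spanned by `(1,0)`, `(0,1)`, `(-1,2)`,
`(1,2)` respectively) -/
noncomputable def piL (w : ℝ × ℝ) : M2 :=
  if dist w p₁ < 2 then !![0, 0; 0, 1] else if dist w p₂ < 2 then !![1, 0; 0, 0]
  else if w.2 < 0 ∧ -3 ≤ w.1 ∧ w.1 < 3 then !![4 / 5, 2 / 5; 2 / 5, 1 / 5]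
  else !![4 / 5, -2 / 5; -2 / 5, 1 / 5]

def inU (r : ℝ) (w : ℝ × ℝ) : Prop := dist w p₁ < r ∨ dist w p₂ < r ∨ 8 - r < ‖w‖

open Classical in
noncomputable def cM (r : ℝ) (w : ℝ × ℝ) : M2 := if inU r w then 1 - piL w else 1

def inK (w : ℝ × ℝ) : Prop := 3 / 4 ≤ dist w p₁ ∧ 3 / 4 ≤ dist w p₂ ∧ ‖w‖ ≤ 8

def farC (w : ℝ × ℝ) : Prop := 1 / 2 < dist w p₁ ∧ 1 / 2 < dist w p₂

open Classical in
/-- the kernel of the stage map -/
noncomputable def kM (w w' : ℝ × ℝ) : M2 :=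
  if inK w ∧ inK w' then star (cM 1 w) * (hM * tM w w') * cM 1 w' else 0

def hd {n : ℕ} (c : Fin (n + 2) → ℝ) : ℝ × ℝ := (c 0, c 1)

def tl {n : ℕ} {α : Type} (c : Fin (n + 2) → α) : Fin n → α := fun k => c k.succ.succ

variable {ι : Type}

section

variable {I : ι → Type} [∀ x, Fintype (I x)] [∀ x, DecidableEq (I x)]

/-- integrate out two coordinates -/
noncomputable def stage {K : Ctx I} (K' : Ctx I) (w : ∀ x, I x → ℝ × ℝ) (Φ : R K) :
    R (K'.prod fun _ => Fin 2) :=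
  had K' (fun x a b => kM (w x a) (w x b)) Φ

end

/-- compatibility of the contexts of `stage` -/
structure AdmS {P : ι → Type} (K K' : Ctx P) (w : ∀ x, P x → ℝ × ℝ) : Prop where
  F : K'.F ≤ K.F
  smR : ∀ S, K.SmR S → K'.SmR S
  wc : ∀ S, K.SmR S → ∀ ε > (0 : ℝ), ∀ᶠ x in K'.F, ∀ a b, S x a b → dist (w x a) (w x b) < ε
  smS : ∀ Z, K.SmS Z → K'.SmS fun x a => Z x a ∧ ‖w x a‖ ≤ 9

/-- the invariant -/
noncomputable def nu (F : Filter ι) : (n : ℕ) → {I : ι → Type} → [∀ x, Fintype (I x)] →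
    [∀ x, DecidableEq (I x)] → (∀ x, I x → Fin n → ℝ) → {K : Ctx I} → R K → ι → ℤ
  | 0, _, _, _, _, _, φ => fun x => sig (rep φ x)
  | 1, _, _, _, _, _, _ => 0
  | n + 2, I, _, _, c, _, φ =>
    nu F n (I := fun x => (I x × Fin 2) × Fin 2) (fun x p => tl (c x p.1.1))
      (stage (coord F fun x (p : I x × Fin 2) => tl (c x p.1)) (fun x p => hd (c x p.1))
        (blk (dbl (res (coord F c) φ) (ginv (res (coord F c) φ)))))

/-- the invariant of an invertible form -/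
noncomputable def mu (F : Filter ι) (n : ℕ) {I : ι → Type} [∀ x, Fintype (I x)]
    [∀ x, DecidableEq (I x)] (c : ∀ x, I x → Fin (n + 2) → ℝ) {K : Ctx I} (Φ : R K) : ι → ℤ :=
  nu F n (I := fun x => I x × Fin 2) (fun x p => tl (c x p.1))
    (stage (coord F fun x a => tl (c x a)) (fun x a => hd (c x a)) Φ)

theorem nu_add_two (F : Filter ι) (n : ℕ) {I : ι → Type} [∀ x, Fintype (I x)]
    [∀ x, DecidableEq (I x)] (c : ∀ x, I x → Fin (n + 2) → ℝ) {K : Ctx I} (φ : R K) :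
    nu F (n + 2) c φ = mu F n (I := fun x => I x × Fin 2) (fun x p => c x p.1)
      (blk (dbl (res (coord F c) φ) (ginv (res (coord F c) φ)))) := rfl

theorem coordR_comap {P Q : ι → Type} {n : ℕ} (F : Filter ι) (r : ℝ) (c : ∀ x, P x → Fin n → ℝ)
    (f : ∀ x, Q x → P x) : (coordR F r c).comap f = coordR F r fun x a => c x (f x a) := rfl

/-- the properties of `nu F n` proved by induction on `n` -/
structure Pk (F : Filter ι) (n : ℕ) : Prop where
  add : ∀ {I : ι → Type} [∀ x, Fintype (I x)] [∀ x, DecidableEq (I x)] (c : ∀ x, I x → Fin n → ℝ)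
    {K : Ctx I}, K.Le (coord F c) → ∀ (p : ∀ x, I x → Prop) {φ₁ φ₂ : R K}, Reg φ₁ → Reg φ₂ →
    chi K p * φ₁ * chi K p = φ₁ → (1 - chi K p) * φ₂ * (1 - chi K p) = φ₂ →
    nu F n c (φ₁ + φ₂) =ᶠ[F] nu F n c φ₁ + nu F n c φ₂
  neg : ∀ {I : ι → Type} [∀ x, Fintype (I x)] [∀ x, DecidableEq (I x)] (c : ∀ x, I x → Fin n → ℝ)
    {K : Ctx I}, K.Le (coord F c) → ∀ {φ : R K}, Reg φ → nu F n c (-φ) =ᶠ[F] -nu F n c φ
  null : ∀ {I : ι → Type} [∀ x, Fintype (I x)] [∀ x, DecidableEq (I x)] (c : ∀ x, I x → Fin n → ℝ)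
    {K : Ctx I}, K.Le (coord F c) → ∀ {φ : R K}, Reg φ → Null φ → nu F n c φ =ᶠ[F] 0
  ext : ∀ {I J : ι → Type} [∀ x, Fintype (I x)] [∀ x, DecidableEq (I x)] [∀ x, Fintype (J x)]
    [∀ x, DecidableEq (J x)] (c : ∀ x, J x → Fin n → ℝ) {K : Ctx I} {K' : Ctx J}
    (e : ∀ x, I x ↪ J x), K'.Le (coord F c) → K.Le (K'.comap fun x => e x) → ∀ {φ : R K}, Reg φ →
    nu F n c (tr K' e φ) =ᶠ[F] nu F n (fun x a => c x (e x a)) φ

end Crest.Agent.R217
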