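import Crest.Agent.R217.CDefs

/-! Row 217, part C: elementary geometry of the planar gadget (case analysis on the zones;
`Prod.dist_eq`, `Prod.norm_def`, `Real.dist_eq`, `abs_lt`, `fin_cases`, `norm_num`). -/

set_option autoImplicit false

namespace Crest.Agent.R217

open Matrix

theorem hM_star : star hM = hM := by
  ext i j; fin_cases i <;> fin_cases j <;> simp [hM]

theorem hM_mul : hM * hM = 1 := by
  ext i j; fin_cases i <;> fin_cases j <;> simp [hM, Matrix.mul_apply, Fin.sum_univ_two]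

theorem cgeo_zI_zM (w : ℝ × ℝ) : zI w * zM w = 1 := by
  unfold zI zM
  split_ifs <;>
    (ext i j; fin_cases i <;> fin_cases j <;> simp [Matrix.mul_apply, Fin.sum_univ_two] <;> norm_num)

theorem cgeo_zM_zI (w : ℝ × ℝ) : zM w * zI w = 1 := mul_eq_one_comm.1 (cgeo_zI_zM w)

theorem cgeo_zM_unitary (w : ℝ × ℝ) : star (zM w) * hM * zM w = hM := by
  unfold zM
  split_ifs <;>
    (ext i j; fin_cases i <;> fin_cases j <;>
      simp [hM, Matrix.mul_apply, Fin.sum_univ_two, Complex.conj_ofNat] <;> ring)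

theorem cgeo_zI_unitary (w : ℝ × ℝ) : star (zI w) * hM * zI w = hM := by
  unfold zI
  split_ifs <;>
    (ext i j; fin_cases i <;> fin_cases j <;>
      simp [hM, Matrix.mul_apply, Fin.sum_univ_two, Complex.conj_ofNat] <;> ring)

theorem cgeo_dist {a b : ℝ × ℝ} {r : ℝ} (h : dist a b ≤ r) : |a.1 - b.1| ≤ r ∧ |a.2 - b.2| ≤ r := by
  rwa [Prod.dist_eq, max_le_iff, Real.dist_eq, Real.dist_eq] at h

theorem cgeo_dist_lt {a b : ℝ × ℝ} {r : ℝ} (h : dist a b < r) : |a.1 - b.1| < r := by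
  rw [Prod.dist_eq, max_lt_iff, Real.dist_eq] at h
  exact h.1

theorem cgeo_zone {b c : ℝ × ℝ} (hb : farC b) (h : |b.2| ≤ 1 / 2) (hc : |b.1 - c.1| ≤ 1 / 4) :
    zM b = zM c := by
  obtain ⟨h1, h2⟩ := hb
  rw [Prod.dist_eq, lt_max_iff, Real.dist_eq, Real.dist_eq] at h1 h2
  simp only [p₁, p₂, sub_zero] at h1 h2
  have h3 := h1.resolve_right (not_lt.2 h)
  have h4 := h2.resolve_right (not_lt.2 h)
  rw [lt_abs] at h3 h4
  rw [abs_le] at hc
  have e1 : b.1 < -3 ↔ c.1 < -3 := by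
    constructor <;> intro h5 <;> rcases h3 with h3 | h3 <;> linarith [hc.1, hc.2]
  have e2 : b.1 < 3 ↔ c.1 < 3 := by
    constructor <;> intro h5 <;> rcases h4 with h4 | h4 <;> linarith [hc.1, hc.2]
  simp only [zM, e1, e2]

theorem tM_self (w : ℝ × ℝ) : tM w w = 1 := by
  unfold tM
  split_ifs
  · exact cgeo_zI_zM w
  · rfl

/-- transports are real of determinant one, so they preserve `hM` -/
theorem tM_unitary (a b : ℝ × ℝ) : star (tM a b) * hM * tM a b = hM := by
  unfold tM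
  split_ifs
  · calc star (zI a * zM b) * hM * (zI a * zM b)
        = star (zM b) * (star (zI a) * hM * zI a) * zM b := by
          rw [star_mul]
          simp only [Matrix.mul_assoc]
      _ = hM := by rw [cgeo_zI_unitary, cgeo_zM_unitary]
  · simp

/-- flatness away from the centres: either the three points are on the same side of `w.2 < 0`, or
all have `|w.2| ≤ 1/2`, hence `|w.1 ∓ 3| > 1/2`, lie in the same zone and all transports are `1` -/
theorem tM_cocycle {a b c : ℝ × ℝ} (ha : farC a) (hb : farC b) (hc : farC c)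
    (hab : dist a b ≤ 1 / 4) (hbc : dist b c ≤ 1 / 4) : tM a b * tM b c = tM a c := by
  obtain ⟨-, h1⟩ := cgeo_dist hab
  obtain ⟨h2, -⟩ := cgeo_dist hbc
  rw [abs_le] at h1
  unfold tM
  split_ifs with p q q
  · rw [Matrix.mul_assoc, ← Matrix.mul_assoc (zM b), cgeo_zM_zI, Matrix.one_mul]
  · rw [Matrix.mul_one, cgeo_zone hb (abs_le.2 ⟨by linarith, by linarith⟩) h2]
  · rw [Matrix.one_mul, ← cgeo_zone hb (abs_le.2 ⟨by linarith, by linarith⟩) h2, cgeo_zI_zM]
  · exact Matrix.one_mul _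

theorem tM_star {a b : ℝ × ℝ} (ha : farC a) (hb : farC b) (hab : dist a b ≤ 1 / 4) :
    star (tM b a) * hM = hM * tM a b := by
  have h1 := tM_cocycle hb ha hb (dist_comm a b ▸ hab) hab
  rw [tM_self] at h1
  conv_rhs => rw [← tM_unitary b a]
  rw [Matrix.mul_assoc, h1, Matrix.mul_one]

theorem piL_star (w : ℝ × ℝ) : star (piL w) = piL w := by
  unfold piL
  split_ifs <;> (ext i j; fin_cases i <;> fin_cases j <;> simp)

theorem piL_idem (w : ℝ × ℝ) : piL w * piL w = piL w := by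
  unfold piL
  split_ifs <;>
    (ext i j; fin_cases i <;> fin_cases j <;> simp [Matrix.mul_apply, Fin.sum_univ_two] <;> norm_num)

theorem piL_iso (w : ℝ × ℝ) : (1 - piL w) * hM * (1 - piL w) = 0 := by
  unfold piL
  split_ifs <;>
    (ext i j; fin_cases i <;> fin_cases j <;>
      simp [hM, Matrix.mul_apply, Fin.sum_univ_two, Matrix.one_apply] <;> ring)

theorem piL_coiso (w : ℝ × ℝ) : piL w * hM * piL w = 0 := by
  unfold piL
  split_ifs <;>
    (ext i j; fin_cases i <;> fin_cases j <;>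
      simp [hM, Matrix.mul_apply, Fin.sum_univ_two] <;> ring)

theorem cgeo_par₁ {a b : ℝ × ℝ} (ha : dist a p₁ < 2) (hb : dist b p₁ < 2) :
    piL a * tM a b * (1 - piL b) = 0 := by
  have h1 := (abs_lt.1 (cgeo_dist_lt ha)).2
  have h2 := (abs_lt.1 (cgeo_dist_lt hb)).2
  simp only [p₁] at h1 h2
  simp only [piL, tM, zI, zM, if_pos ha, if_pos hb, if_pos (show a.1 < 3 by linarith),
    if_pos (show b.1 < 3 by linarith)]
  split_ifs <;>
    (ext i j; fin_cases i <;> fin_cases j <;>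
      simp [Matrix.mul_apply, Fin.sum_univ_two, Matrix.one_apply])

theorem cgeo_not₁ {a : ℝ × ℝ} (h : -1 ≤ a.1) : ¬dist a p₁ < 2 := fun h1 => by
  have h2 := (abs_lt.1 (cgeo_dist_lt h1)).2
  simp only [p₁] at h2
  linarith

theorem cgeo_par₂ {a b : ℝ × ℝ} (ha : dist a p₂ < 2) (hb : dist b p₂ < 2) :
    piL a * tM a b * (1 - piL b) = 0 := by
  have h1 := (abs_lt.1 (cgeo_dist_lt ha)).1
  have h2 := (abs_lt.1 (cgeo_dist_lt hb)).1
  simp only [p₂] at h1 h2
  simp only [piL, tM, zI, zM, if_pos ha, if_pos hb, if_neg (cgeo_not₁ (a := a) (by linarith)),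
    if_neg (cgeo_not₁ (a := b) (by linarith)), if_neg (show ¬a.1 < -3 by linarith),
    if_neg (show ¬b.1 < -3 by linarith)]
  split_ifs <;>
    (ext i j; fin_cases i <;> fin_cases j <;>
      simp [Matrix.mul_apply, Fin.sum_univ_two, Matrix.one_apply])

theorem cgeo_far_piL {a : ℝ × ℝ} (ha : 6 < ‖a‖) : piL a =
    if a.2 < 0 ∧ -3 ≤ a.1 ∧ a.1 < 3 then !![4 / 5, 2 / 5; 2 / 5, 1 / 5]
    else !![4 / 5, -2 / 5; -2 / 5, 1 / 5] := by
  have h1 := norm_sub_norm_le a p₁
  have h2 := norm_sub_norm_le a p₂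
  have h3 : ‖p₁‖ = 3 := by simp [p₁, Prod.norm_def]
  have h4 : ‖p₂‖ = 3 := by simp [p₂, Prod.norm_def]
  rw [← dist_eq_norm] at h1 h2
  rw [piL, if_neg (by linarith), if_neg (by linarith)]

theorem cgeo_far_mid {a : ℝ × ℝ} (ha : 6 < ‖a‖) (h1 : -3 ≤ a.1) (h2 : a.1 < 3) : 6 < |a.2| := by
  rw [Prod.norm_def, lt_max_iff, Real.norm_eq_abs, Real.norm_eq_abs] at ha
  exact ha.resolve_left (not_lt.2 (abs_le.2 ⟨by linarith, by linarith⟩))

theorem cgeo_far_cases {a : ℝ × ℝ} (ha : 6 < ‖a‖) (h : a.2 < 1) :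
    (piL a = !![4 / 5, -2 / 5; -2 / 5, 1 / 5] ∧ zM a = 1 ∧ zI a = 1) ∨
    (piL a = !![4 / 5, 2 / 5; 2 / 5, 1 / 5] ∧ zM a = !![1, 1; 0, 1] ∧ zI a = !![1, -1; 0, 1]) ∨
    (piL a = !![4 / 5, -2 / 5; -2 / 5, 1 / 5] ∧ zM a = !![-3, 1; -4, 1] ∧
      zI a = !![1, -1; 4, -3]) := by
  rw [cgeo_far_piL ha]
  unfold zM zI
  by_cases h1 : a.1 < -3
  · exact Or.inl ⟨if_neg fun h2 => by linarith [h2.2.1], if_pos h1, if_pos h1⟩
  by_cases h2 : a.1 < 3
  · have h3 := cgeo_far_mid ha (not_lt.1 h1) h2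
    rw [lt_abs] at h3
    refine Or.inr (Or.inl ⟨if_pos ⟨by rcases h3 with h3 | h3 <;> linarith, not_lt.1 h1, h2⟩, ?_, ?_⟩) <;>
      rw [if_neg h1, if_pos h2]
  · refine Or.inr (Or.inr ⟨if_neg fun h3 => h2 h3.2.2, ?_, ?_⟩) <;> rw [if_neg h1, if_neg h2]

theorem cgeo_par₃ {a b : ℝ × ℝ} (ha : 6 < ‖a‖) (hb : 6 < ‖b‖) (hab : dist a b ≤ 1 / 4) :
    piL a * tM a b * (1 - piL b) = 0 := by
  have h1 := abs_le.1 (cgeo_dist hab).2
  unfold tM
  split_ifs with h
  · rcases cgeo_far_cases ha (by linarith) with ⟨e1, -, e2⟩ | ⟨e1, -, e2⟩ | ⟨e1, -, e2⟩ <;>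
      rcases cgeo_far_cases hb (by linarith [h1.1]) with ⟨e3, e4, -⟩ | ⟨e3, e4, -⟩ | ⟨e3, e4, -⟩ <;>
      rw [e1, e2, e3, e4] <;>
      (ext i j; fin_cases i <;> fin_cases j <;>
        simp [Matrix.mul_apply, Fin.sum_univ_two, Matrix.one_apply] <;> norm_num)
  · have h2 : piL a = piL b := by
      rw [cgeo_far_piL ha, cgeo_far_piL hb, if_neg fun h3 => h h3.1, if_neg]
      rintro ⟨h3, h4, h5⟩
      have h6 := cgeo_far_mid hb h4 h5
      rw [lt_abs] at h6
      rcases h6 with h6 | h6 <;> linarith [h1.2]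
    rw [h2, Matrix.mul_one, Matrix.mul_sub, Matrix.mul_one, piL_idem, sub_self]

/-- the line field is parallel on `U (3/2)` (no `farC` needed) -/
theorem piL_parallel {a b : ℝ × ℝ} (ha : inU (3 / 2) a) (hb : inU (3 / 2) b)
    (hab : dist a b ≤ 1 / 4) : piL a * tM a b * (1 - piL b) = 0 := by
  have t1 := dist_triangle a b p₁
  have t2 := dist_triangle b a p₁
  have t3 := dist_triangle a b p₂
  have t4 := dist_triangle b a p₂
  rw [dist_comm b a] at t2 t4
  by_cases h1 : dist a p₁ < 2 ∧ dist b p₁ < 2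
  · exact cgeo_par₁ h1.1 h1.2
  by_cases h2 : dist a p₂ < 2 ∧ dist b p₂ < 2
  · exact cgeo_par₂ h2.1 h2.2
  refine cgeo_par₃ ?_ ?_ hab
  · rcases ha with h | h | h
    · exact absurd ⟨by linarith, by linarith⟩ h1
    · exact absurd ⟨by linarith, by linarith⟩ h2
    · linarith
  · rcases hb with h | h | h
    · exact absurd ⟨by linarith, by linarith⟩ h1
    · exact absurd ⟨by linarith, by linarith⟩ h2
    · linarith

theorem inU_mono {r r' : ℝ} {a b : ℝ × ℝ} (ha : inU r a) (h : r + dist a b ≤ r') : inU r' b := by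
  have t1 := dist_triangle b a p₁
  have t2 := dist_triangle b a p₂
  have t3 := norm_sub_norm_le a b
  rw [dist_comm b a] at t1 t2
  rw [← dist_eq_norm] at t3
  rcases ha with ha | ha | ha
  · exact Or.inl (by linarith)
  · exact Or.inr (Or.inl (by linarith))
  · exact Or.inr (Or.inr (by linarith))

theorem inU_of_not_inK {a b : ℝ × ℝ} (ha : ¬inK a) (hab : dist a b ≤ 1 / 4) : inU 1 b := by
  refine inU_mono (r := 3 / 4) (a := a) ?_ (by linarith)
  by_contra h
  simp only [inU, not_or, not_lt] at h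
  exact ha ⟨h.1, h.2.1, by linarith [h.2.2]⟩

theorem cgeo_inU_le {r r' : ℝ} {a : ℝ × ℝ} (ha : inU r a) (h : r ≤ r') : inU r' a :=
  inU_mono ha (by rwa [dist_self, add_zero])

theorem cgeo_compl_idem (w : ℝ × ℝ) : (1 - piL w) * (1 - piL w) = 1 - piL w := by
  rw [Matrix.sub_mul, Matrix.one_mul, Matrix.mul_sub, Matrix.mul_one, piL_idem, sub_self, sub_zero]

theorem cgeo_far {w : ℝ × ℝ} (h : inK w) : farC w := ⟨by linarith [h.1], by linarith [h.2.1]⟩

theorem cM_star (r : ℝ) (w : ℝ × ℝ) : star (cM r w) = cM r w := by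
  unfold cM
  split_ifs
  · rw [star_sub, star_one, piL_star]
  · exact star_one _

theorem cM_idem (r : ℝ) (w : ℝ × ℝ) : cM r w * cM r w = cM r w := by
  unfold cM
  split_ifs
  · exact cgeo_compl_idem w
  · exact Matrix.one_mul _

theorem cM_nested {r r' : ℝ} (h : r ≤ r') (w : ℝ × ℝ) : cM r w * cM r' w = cM r' w := by
  unfold cM
  split_ifs with h1 h2 h2
  · exact cgeo_compl_idem w
  · exact absurd (cgeo_inU_le h1 h) h2
  · exact Matrix.one_mul _
  · exact Matrix.one_mul _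

/-- the compressed kernel vanishes on `U` -/
theorem cM_ker_zero {r r' : ℝ} (hr : r ≤ 3 / 2) (hr' : r' ≤ 3 / 2) {a b : ℝ × ℝ} (ha : inU r a)
    (hb : inU r' b) (hab : dist a b ≤ 1 / 4) :
    star (cM r a) * (hM * tM a b) * cM r' b = 0 := by
  have h1 := piL_parallel (cgeo_inU_le ha hr) (cgeo_inU_le hb hr') hab
  have h2 := piL_iso a
  rw [cM_star]
  simp only [cM, if_pos ha, if_pos hb]
  calc (1 - piL a) * (hM * tM a b) * (1 - piL b)
      = (1 - piL a) * hM * (1 - piL a) * tM a b * (1 - piL b) +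
        (1 - piL a) * hM * (piL a * tM a b * (1 - piL b)) := by noncomm_ring
    _ = 0 := by rw [h1, h2]; simp

/-- coisotropy -/
theorem cM_coiso {r : ℝ} (hr : r ≤ 3 / 2) {a b : ℝ × ℝ} (hab : dist a b ≤ 1 / 4) :
    (1 - cM r a) * (tM a b * hM) * star (1 - cM r b) = 0 := by
  rw [star_sub, star_one, cM_star]
  unfold cM
  split_ifs with ha hb
  · have h1 := piL_parallel (cgeo_inU_le ha hr) (cgeo_inU_le hb hr) hab
    have h2 := piL_coiso b
    calc (1 - (1 - piL a)) * (tM a b * hM) * (1 - (1 - piL b))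
        = piL a * tM a b * (piL b * hM * piL b) +
          piL a * tM a b * (1 - piL b) * hM * piL b := by noncomm_ring
      _ = 0 := by rw [h1, h2]; simp
  all_goals simp

/-- nestedness across a transport -/
theorem cM_nested_tM {r r' : ℝ} (hr' : r' ≤ 3 / 2) {a b : ℝ × ℝ} (hab : dist a b ≤ 1 / 4)
    (h : r + dist a b ≤ r') : (1 - cM r a) * tM a b * cM r' b = 0 := by
  by_cases ha : inU r a
  · have hb := inU_mono ha h
    have h1 := piL_parallel (cgeo_inU_le ha (by linarith [dist_nonneg (x := a) (y := b)]))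
      (cgeo_inU_le hb hr') hab
    simp only [cM, if_pos ha, if_pos hb, sub_sub_cancel]
    exact h1
  · simp [cM, if_neg ha]

theorem kM_star {a b : ℝ × ℝ} (hab : dist a b ≤ 1 / 4) : star (kM b a) = kM a b := by
  unfold kM
  by_cases h : inK a ∧ inK b
  · rw [if_pos h, if_pos h.symm, star_mul, star_mul, star_mul, star_star, hM_star,
      tM_star (cgeo_far h.1) (cgeo_far h.2) hab, ← Matrix.mul_assoc]
  · rw [if_neg h, if_neg fun h' => h h'.symm, star_zero]

/-- for close points the cut-off in `kM` is superfluous -/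
theorem kM_eq {a b : ℝ × ℝ} (hab : dist a b ≤ 1 / 4) :
    kM a b = star (cM 1 a) * (hM * tM a b) * cM 1 b := by
  unfold kM
  split_ifs with h
  · rfl
  · have h0 : ∀ w : ℝ × ℝ, dist w w ≤ 1 / 4 := fun w => by simp
    rcases not_and_or.1 h with h1 | h1
    · exact (cM_ker_zero (by norm_num) (by norm_num) (inU_of_not_inK h1 (h0 a))
        (inU_of_not_inK h1 hab) hab).symm
    · exact (cM_ker_zero (by norm_num) (by norm_num) (inU_of_not_inK h1 (dist_comm a b ▸ hab))
        (inU_of_not_inK h1 (h0 b)) hab).symm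

end Crest.Agent.R217
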