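import Crest.Agent.R217.CStep

/-! Row 217, part C: twisting by a flat line bundle of finite order does not change `nu`. -/

set_option autoImplicit false

namespace Crest.Agent.R217

open Filter Topology

theorem cnil_per {p : ℕ} (N : ℕ) {a : ℕ → ℤ} (ha : ∀ k, a (k + p) = a k) (k : ℕ) :
    (fwdDiff 1)^[N] a (k + p) = (fwdDiff 1)^[N] a k := by
  rw [← fwdDiff_iter_comp_add]
  exact congrFun (congrArg _ (funext ha)) k

theorem cnil_const {p : ℕ} (hp : 0 < p) (N : ℕ) : ∀ {a : ℕ → ℤ}, (∀ k, a (k + p) = a k) →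
    (∀ k, (fwdDiff 1)^[N] a k = 0) → ∀ k, a (k + 1) = a k := by
  induction N with
  | zero => intro a _ h k; exact (h (k + 1)).trans (h k).symm
  | succ N ih =>
    intro a ha h
    have h1 : ∀ k, fwdDiff 1 a (k + 1) = fwdDiff 1 a k :=
      ih (fun k => cnil_per 1 ha k) fun k => by rw [← Function.iterate_succ_apply]; exact h k
    have h2 : ∀ k, a (k + 1) - a k = a 1 - a 0 := fun k => by
      induction k with
      | zero => rfl
      | succ k ihk => exact (h1 k).trans ihk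
    have h3 : ∀ k : ℕ, a k = a 0 + k * (a 1 - a 0) := fun k => by
      induction k with
      | zero => simp
      | succ k ihk => have := h2 k; push_cast; linarith
    have h4 := ha 0
    rw [zero_add, h3 p, add_eq_left, mul_eq_zero] at h4
    have h5 : a 1 - a 0 = 0 := h4.resolve_left (by exact_mod_cast hp.ne')
    intro k
    have := h2 k
    linarith

/-- a periodic sequence with vanishing `N`-th difference is constant (downward induction: a periodic
sequence whose difference is constant has difference `0`) -/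
theorem periodic_fwdDiff {a : ℕ → ℤ} {p : ℕ} (hp : 0 < p) (ha : ∀ k, a (k + p) = a k) (N : ℕ)
    (h : ∀ k < p, (fwdDiff 1)^[N] a k = 0) : a 1 = a 0 := by
  refine cnil_const hp N ha (fun k => ?_) 0
  induction k using Nat.strong_induction_on with
  | _ k ih =>
    by_cases hk : k < p
    · exact h k hk
    · obtain ⟨m, rfl⟩ := Nat.exists_eq_add_of_le' (not_lt.1 hk)
      rw [cnil_per N ha]
      exact ih m (by omega)

variable {ι : Type} {P : ι → Type}

/-- a unitary cocycle on close deep points -/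
structure Coc (K : Ctx P) (u : ∀ x, P x → P x → ℂ) : Prop where
  self : K.SmS fun x a => u x a a ≠ 1
  symm : Near K K fun x a b => star (u x b a) = u x a b
  coc : Near3 K K fun x a b c => u x a b * u x b c = u x a c

theorem Coc.pow {K : Ctx P} {u : ∀ x, P x → P x → ℂ} (h : Coc K u) (k : ℕ) :
    Coc K fun x a b => u x a b ^ k :=
  ⟨h.self.mono (.of_forall fun x a ha h1 => ha (by rw [h1, one_pow])),
    h.symm.mono fun x a b h1 => by rw [star_pow, h1],
    h.coc.mono fun x a b c h1 => by rw [← mul_pow, h1]⟩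

theorem Coc.comap {Q : ι → Type} {K : Ctx P} {u : ∀ x, P x → P x → ℂ} (h : Coc K u)
    (f : ∀ x, Q x → P x) : Coc (K.comap f) fun x a b => u x (f x a) (f x b) :=
  ⟨fun ε hε => (h.self ε hε).mono fun _ hx _ ha => hx _ ha, h.symm.comap f, h.coc.comap f⟩

section

variable {I : ι → Type} [∀ x, Fintype (I x)] [∀ x, DecidableEq (I x)] {K : Ctx I}
  {u : ∀ x, I x → I x → ℂ}

theorem Coc.hom (h : Coc K u) : CornerHom (had1 K u : R K → R K) 1 :=
  cornerHom_of_mul (had1_add ((Ctx.Le.refl K).adm _))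
    (fun φ => (had1_star ((Ctx.Le.refl K).adm _) ((Ctx.Le.refl K).adm _) h.symm φ).symm)
    fun φ ψ => (had1_mul ((Ctx.Le.refl K).adm _) ((Ctx.Le.refl K).adm _) ((Ctx.Le.refl K).adm _)
      h.coc φ ψ).symm

theorem cnil_fix_dg (h : Coc K u) (g : ∀ x, I x → ℂ) : had1 K u (dg K g) = dg K g := by
  rw [had1_dg ((Ctx.Le.refl K).adm _)]
  exact dg_congr (h.self.mono (.of_forall fun x a ha h1 => ha (by rw [h1, one_mul])))

theorem Coc.fix_one (h : Coc K u) : had1 K u (1 : R K) = 1 := by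
  rw [← dg_one]
  exact cnil_fix_dg h _

theorem Coc.fix_dg (h : Coc K u) (g : ∀ x, I x → ℂ) : had1 K u (dg K g) = dg K g :=
  cnil_fix_dg h g

theorem cnil_alg {A : Type*} [Ring A] [StarRing A] [Algebra ℂ A] [StarModule ℂ A]
    {χ D Γ Φ Ψ Φ' Ψ' : A} (hΦ : Inv Φ Ψ) (hΦ' : Inv Φ' Ψ') (hχ : star χ = χ) (hχχ : χ * χ = χ)
    (hD : star D = D) (hsep : ∀ y, (1 - D) * y * (1 - χ) = 0) (hΓ : star Γ * χ * Γ = χ)
    (h1 : χ * Φ' * χ = χ * Γ * Φ * (star Γ * χ)) (h2 : χ * Ψ' * χ = χ * Γ * Ψ * (star Γ * χ)) :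
    ∃ X : Matrix (Fin 2) (Fin 2) A, Reg X ∧ Rel !![Φ', 0; 0, -Φ] X ∧
      !![D, 0; 0, D] * X * !![D, 0; 0, D] = X := by
  have hn : Inv (-Φ) (-Ψ) :=
    ⟨by rw [star_neg, hΦ.1], by rw [neg_mul_neg, hΦ.2.1], by rw [neg_mul_neg, hΦ.2.2]⟩
  have hM := inv_diag hΦ' hn
  have e1 : (1 - χ) * χ = 0 := by rw [sub_mul, one_mul, hχχ, sub_self]
  have e2 : (1 - χ) * (1 - χ) = 1 - χ := by rw [mul_sub, mul_one, e1, sub_zero]
  set C : Matrix (Fin 2) (Fin 2) A := !![1 - χ, χ * Γ; 0, 1] with hC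
  have hCC : C * 1 * C = C := by
    rw [mul_one, hC, Matrix.mul_fin_two]
    refine a2_ext ?_ ?_ ?_ ?_
    · rw [e2, mul_zero, add_zero]
    · rw [← mul_assoc, e1, zero_mul, zero_add, mul_one]
    · rw [zero_mul, mul_zero, add_zero]
    · rw [zero_mul, zero_add, mul_one]
  have hco : (1 - C * 1) * !![Ψ', 0; 0, -Ψ] * star (1 - C * 1) = 0 := by
    have : (1 : Matrix (Fin 2) (Fin 2) A) - C * 1 = !![χ, -(χ * Γ); 0, 0] := by
      rw [mul_one, hC, Matrix.one_fin_two, a2_sub]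
      refine a2_ext ?_ ?_ ?_ ?_ <;> simp
    rw [this, a1_star, Matrix.mul_fin_two, Matrix.mul_fin_two]
    have z : (0 : Matrix (Fin 2) (Fin 2) A) = !![0, 0; 0, 0] := by
      ext i j; fin_cases i <;> fin_cases j <;> rfl
    rw [z]
    refine a2_ext ?_ ?_ ?_ ?_
    · rw [star_neg, star_mul, hχ]
      simp only [mul_zero, add_zero, zero_add, mul_neg, neg_mul, neg_neg]
      rw [h2, add_neg_cancel]
    · simp
    · simp
    · simp
  have hR := reg_compress hM hCC hco
  have hRel := rel_nested (c₁ := 1) hM (mul_one _) (one_mul _) hCC hco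
  rw [star_one, one_mul, mul_one] at hRel
  refine ⟨_, hR, hRel, ?_⟩
  set X := star C * !![Φ', 0; 0, -Φ] * C with hX
  set E : Matrix (Fin 2) (Fin 2) A := !![D, 0; 0, D] with hE
  have f1 : (1 - D) * (1 - χ) = 0 := by simpa using hsep 1
  have f2 : (1 - D) * χ = 1 - D := by
    rw [mul_sub, mul_one, sub_eq_zero] at f1; exact f1.symm
  have hEX : E * X = X := by
    have : (1 - E) * X = 0 := by
      have h1E : (1 : Matrix (Fin 2) (Fin 2) A) - E = !![1 - D, 0; 0, 1 - D] := by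
        rw [hE, Matrix.one_fin_two, a2_sub]
        refine a2_ext ?_ ?_ ?_ ?_ <;> simp
      have z : (0 : Matrix (Fin 2) (Fin 2) A) = !![0, 0; 0, 0] := by
        ext i j; fin_cases i <;> fin_cases j <;> rfl
      rw [h1E, hX, hC, a1_star, Matrix.mul_fin_two, Matrix.mul_fin_two, Matrix.mul_fin_two, z]
      simp only [star_sub, star_one, star_zero, star_mul, hχ, mul_zero, zero_mul, add_zero, zero_add,
        mul_one, one_mul]
      refine a2_ext ?_ ?_ ?_ ?_
      · rw [← mul_assoc, ← mul_assoc, f1, zero_mul, zero_mul]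
      · simp only [← mul_assoc, f1, zero_mul]
      · rw [← mul_assoc, hsep]
      · have : star Γ * χ * Φ' * (χ * Γ) = χ * Φ * χ := by
          calc star Γ * χ * Φ' * (χ * Γ) = star Γ * (χ * Φ' * χ) * Γ := by noncomm_ring
            _ = (star Γ * χ * Γ) * Φ * (star Γ * χ * Γ) := by rw [h1]; noncomm_ring
            _ = _ := by rw [hΓ]
        rw [this]
        calc (1 - D) * (χ * Φ * χ + -Φ) = ((1 - D) * χ) * Φ * χ - (1 - D) * Φ := by noncomm_ring
          _ = -((1 - D) * Φ * (1 - χ)) := by rw [f2]; noncomm_ring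
          _ = 0 := by rw [hsep, neg_zero]
    rw [sub_mul, one_mul, sub_eq_zero] at this
    exact this.symm
  have hEs : star E = E := by rw [hE, a1_star, hD, star_zero]
  have hXE : X * E = X := by
    have := congrArg star hEX
    rwa [star_mul, hEs, hR.1] at this
  rw [hEX, hXE]

theorem cnil_gauge (p : ∀ x, I x → Prop) (γ : ∀ x, I x → ℂ)
    (hu : Near K K fun x a b => p x a → u x a b = γ x a * star (γ x b)) (Φ : R K) :
    chi K p * had1 K u Φ * chi K p = chi K p * dg K γ * Φ * (star (dg K γ) * chi K p) := by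
  conv_rhs => rw [← res_self Φ, ← had1_one (Ctx.Le.refl K)]
  rw [dg_star]
  unfold chi
  rw [dg_mul, dg_mul, dg_had1_dg ((Ctx.Le.refl K).adm _), dg_had1_dg ((Ctx.Le.refl K).adm _)]
  refine had1_congr ((Ctx.Le.refl K).adm _) ((Ctx.Le.refl K).adm _) (hu.mono fun x a b h => ?_) Φ
  by_cases hp : p x a
  · simp only [hp, if_true, one_mul, mul_one, h hp, mul_assoc]
  · simp only [hp, if_false, zero_mul]

/-- One chart.  With `χ = chi {t/3 < g}`, `Γ = dg γ`, `τ = had1 K u`: `M = diag (τ Φ, -Φ)` has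
inverse `diag (τ Ψ, -Ψ)`; `C = !![1 - χ, χ Γ; 0, 1]` is idempotent and coisotropic since
`χ (τ Ψ) χ = χ Γ Ψ Γ⋆ χ` (`dg_had1_dg`, `had1_congr`, `had1_one`).  `X = C⋆ M C` is regular
(`reg_compress`), related to `M` (`rel_nested` with `c₁ = 1`), and with `χ' = chi {2t/3 < g}`:
`χ' · (1 - χ) = 0` across any element (`chi_mul_mul_chi`), `χ' Γ⋆ (τ Φ) Γ χ = χ' Φ χ`, so the rows
and columns of `X` in `{2t/3 < g}` vanish. -/
theorem coc_chart (h : Coc K u) (g : ∀ x, I x → ℝ) (hg : ∀ x a b, g x a ≤ g x b + K.d x a b)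
    {t : ℝ} (ht : 0 < t) (γ : ∀ x, I x → ℂ) (hγ : ∀ x a, star (γ x a) * γ x a = 1)
    (hu : Near K K fun x a b => 0 < g x a → u x a b = γ x a * star (γ x b)) {Φ Ψ : R K}
    (hΦ : Inv Φ Ψ) :
    ∃ X : Matrix (Fin 2) (Fin 2) (R K), Reg X ∧ Rel !![had1 K u Φ, 0; 0, -Φ] X ∧
      !![chi K fun x a => g x a ≤ 2 * t / 3, 0; 0, chi K fun x a => g x a ≤ 2 * t / 3] * X *
        !![chi K fun x a => g x a ≤ 2 * t / 3, 0; 0, chi K fun x a => g x a ≤ 2 * t / 3] = X := by
  have hu' : Near K K fun x a b => t / 3 < g x a → u x a b = γ x a * star (γ x b) :=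
    hu.mono fun x a b h1 h2 => h1 (by linarith)
  refine cnil_alg (χ := chi K fun x a => t / 3 < g x a) (Γ := dg K γ) hΦ
    (h.hom.inv h.fix_one hΦ) (chi_star _) (chi_idem _) (chi_star _) (fun y => ?_) ?_
    (cnil_gauge _ γ hu' Φ) (cnil_gauge _ γ hu' Ψ)
  · rw [← chi_not, ← chi_not]
    refine chi_mul_mul_chi (Near.of_eps le_rfl fun ε _ => ⟨t / 3, by positivity,
      .of_forall fun x a b hd _ ⟨h1, h2⟩ => ?_⟩) y
    have := hg x a b
    push Not at h1 h2
    linarith
  · rw [dg_star]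
    unfold chi
    rw [dg_mul, dg_mul]
    congr 1
    funext x a
    rw [mul_right_comm, hγ, one_mul]

/-- one step of the induction -/
theorem cnil_step {n : ℕ} {F : Filter ι} {c : ∀ x, I x → Fin n → ℝ} (hK : K.Le (coord F c))
    (h : Coc K u) (g : ∀ x, I x → ℝ) (hg : ∀ x a b, g x a ≤ g x b + K.d x a b)
    {t : ℝ} (ht : 0 < t) (γ : ∀ x, I x → ℂ) (hγ : ∀ x a, star (γ x a) * γ x a = 1)
    (hu : Near K K fun x a b => 0 < g x a → u x a b = γ x a * star (γ x b)) {φ : R K}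
    (r : Reg φ) :
    ∃ Y : R (K.comap fun x (p : {p : (I x × Fin 2) × Fin 2 // g x p.1.1 ≤ 2 * t / 3}) => p.1.1.1),
      Reg Y ∧ ∀ k : ℕ, ∀ᶠ x in F,
        nu F n (fun x (p : {p : (I x × Fin 2) × Fin 2 // g x p.1.1 ≤ 2 * t / 3}) => c x p.1.1.1)
          (had1 (K.comap fun x (p : {p : (I x × Fin 2) × Fin 2 // g x p.1.1 ≤ 2 * t / 3}) => p.1.1.1)
            (fun x a b => u x a.1.1.1 b.1.1.1 ^ k) Y) x =
        2 * (nu F n c (had1 K (fun x a b => u x a b ^ (k + 1)) φ) x -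
          nu F n c (had1 K (fun x a b => u x a b ^ k) φ) x) := by
  have hP := pk F n
  have hG := r.ginv
  have hI : Inv (blk (dbl φ (ginv φ))) _ := blk_hom.inv blk_one (dbl_inv hG)
  have h2 : Coc (K.prod fun _ => Fin 2) fun x a b => u x a.1 b.1 := h.comap _
  have hK2 : (K.prod fun _ => Fin 2).Le (coord F fun x p => c x p.1) := hK.comap _
  have hK3 : ((K.prod fun _ => Fin 2).prod fun _ => Fin 2).Le (coord F fun x p => c x p.1.1) :=
    hK2.comap _
  have h3 : Coc ((K.prod fun _ => Fin 2).prod fun _ => Fin 2) fun x a b => u x a.1.1 b.1.1 :=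
    h2.comap _
  obtain ⟨X, hX, hrel, hcut⟩ := coc_chart h2 (fun x p => g x p.1) (fun x a b => hg x a.1 b.1) ht
    (fun x p => γ x p.1) (fun x a => hγ x a.1) (hu.comap _) hI
  set Φ := blk (dbl φ (ginv φ)) with hΦ
  let e : ∀ x, {p : (I x × Fin 2) × Fin 2 // g x p.1.1 ≤ 2 * t / 3} ↪ (I x × Fin 2) × Fin 2 :=
    fun x => Function.Embedding.subtype _
  have hchi : (chi ((K.prod fun _ => Fin 2).prod fun _ => Fin 2) fun x b => ∃ a, e x a = b) =
      chi _ fun x a => g x a.1.1 ≤ 2 * t / 3 := by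
    congr 1
    funext x b
    exact propext ⟨fun ⟨a, ha⟩ => ha ▸ a.2, fun hb => ⟨⟨b, hb⟩, rfl⟩⟩
  have hcut' : (chi ((K.prod fun _ => Fin 2).prod fun _ => Fin 2) fun x b => ∃ a, e x a = b) *
      blk X * (chi _ fun x b => ∃ a, e x a = b) = blk X := by
    rw [hchi, ← blk_diag_chi (K := K.prod fun _ => Fin 2) fun x a => g x a.1 ≤ 2 * t / 3,
      ← blk_mul, ← blk_mul, hcut]
  have rX : Reg (blk X) := blk_hom.reg (by rw [one_mul, mul_one]) hX
  have rY : Reg (sub e (blk X)) := sub_hom.reg hcut' rX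
  have hY : tr _ e (sub e (blk X)) = blk X := (tr_sub _).trans hcut'
  refine ⟨sub e (blk X), rY, fun k => ?_⟩
  have rΦ : ∀ m : ℕ, Reg (had1 (K.prod fun _ => Fin 2) (fun x a b => u x a.1 b.1 ^ m) Φ) :=
    fun m => (h2.pow m).hom.reg (by rw [one_mul, mul_one]) hI.reg
  have hd : ∀ m : ℕ, nu F n (I := fun x => I x × Fin 2) (fun x a => c x a.1)
      (had1 (K.prod fun _ => Fin 2) (fun x a b => u x a.1 b.1 ^ m) Φ) =ᶠ[F]
      nu F n c (had1 K (fun x a b => u x a b ^ m) φ) +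
        nu F n c (had1 K (fun x a b => u x a b ^ m) φ) := fun m => by
    rw [hΦ, had1_blk (k := fun x a b => u x a b ^ m) ((Ctx.Le.refl K).adm _),
      (h.pow m).hom.map_dbl (h.pow m).fix_one]
    exact hP.double hK ((h.pow m).hom.ginv hG)
  have rM : Reg (!![had1 (K.prod fun _ => Fin 2) (fun x a b => u x a.1 b.1) Φ, 0; 0, -Φ] :
      Matrix (Fin 2) (Fin 2) _) :=
    (h2.hom.reg (by rw [one_mul, mul_one]) hI.reg).diag hI.reg.neg
  have rM' := blk_hom.reg (by rw [one_mul, mul_one]) rM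
  have hrel' := (h3.pow k).hom.rel (by rw [one_mul, mul_one]) (by rw [one_mul, mul_one])
    (blk_hom.rel (by rw [one_mul, mul_one]) (by rw [one_mul, mul_one]) hrel)
  have e1 := hP.rel hK3 ((h3.pow k).hom.reg (by rw [one_mul, mul_one]) rM')
    ((h3.pow k).hom.reg (by rw [one_mul, mul_one]) rX) hrel'
  have e2 : had1 ((K.prod fun _ => Fin 2).prod fun _ => Fin 2) (fun x a b => u x a.1.1 b.1.1 ^ k)
      (blk (!![had1 (K.prod fun _ => Fin 2) (fun x a b => u x a.1 b.1) Φ, 0; 0, -Φ] :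
        Matrix (Fin 2) (Fin 2) _)) =
      blk (!![had1 (K.prod fun _ => Fin 2) (fun x a b => u x a.1 b.1 ^ (k + 1)) Φ, 0; 0,
        -had1 (K.prod fun _ => Fin 2) (fun x a b => u x a.1 b.1 ^ k) Φ] :
        Matrix (Fin 2) (Fin 2) _) := by
    rw [had1_blk (k := fun x (a b : I x × Fin 2) => u x a.1 b.1 ^ k) ((Ctx.Le.refl _).adm _)]
    congr 1
    ext i j
    fin_cases i <;> fin_cases j
    · simp only [pow_succ]
      exact had1_had1 ((Ctx.Le.refl _).adm _) ((Ctx.Le.refl _).adm _) Φ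
    · exact (h2.pow k).hom.zero
    · exact (h2.pow k).hom.zero
    · exact (h2.pow k).hom.neg Φ
  rw [e2, ← hY, had1_tr _ (Ctx.Le.refl _)] at e1
  have e3 := hP.diag hK2 (rΦ (k + 1)) (rΦ k).neg
  have e4 := hP.neg _ hK2 (rΦ k)
  have e5 := hP.ext _ e hK3 (Ctx.Le.refl _)
    (((h3.pow k).comap fun x => e x).hom.reg (by rw [one_mul, mul_one]) rY)
  filter_upwards [e1, e3, e4, e5, hd k, hd (k + 1)] with x e1 e3 e4 e5 d1 d2
  simp only [Pi.add_apply, Pi.neg_apply] at e3 e4 d1 d2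
  refine e5.symm.trans (e1.symm.trans (e3.trans ?_))
  rw [e4, d1, d2]
  ring

end

/-- Induction on `s`, for all `J, π, φ`; write `τ k = had1 _ (u ^ k)`, `a φ x k = nu (τ k φ) x`.
`s = ∅`: every index is shallow, `1 = chi True = 0`, so `φ = 0`.  `s = insert i s'`: `Φ = blk (dbl φ ψ)`
on `J × Fin 2`, `a Φ = 2 a φ` (`Pk.double`, `had1_blk`, `CornerHom.map_dbl`); `coc_chart` gives `X`;
applying the `⋆`-homomorphisms `τ k` (entrywise, `had1_had1`) and `blk`:
`nu (τ k (blk X)) = a Φ (k+1) - a Φ k` (`Pk.rel`, `Pk.diag`, `neg`); `blk X = tr e X'` with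
`X' = sub e (blk X)` on the sub-index `{g i ≤ 2t/3}` (`tr_sub`, `sub_hom`, `had1_tr`, `ext`), which is
covered by `s'`.  So `fwdDiff^[N] (2 * fwdDiff (a φ x)) k = 0` eventually. -/
theorem nu_twist_aux {n : ℕ} {F : Filter ι} (K : Ctx P) (c : ∀ x, P x → Fin n → ℝ)
    (hK : K.Le (coord F c)) {u : ∀ x, P x → P x → ℂ} (hu : Coc K u) {S : Type}
    (g : S → ∀ x, P x → ℝ) (hg : ∀ j x a b, g j x a ≤ g j x b + K.d x a b) {t : ℝ} (ht : 0 < t)
    (γ : S → ∀ x, P x → ℂ) (hγ : ∀ j x a, star (γ j x a) * γ j x a = 1)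
    (hc : ∀ j, Near K K fun x a b => 0 < g j x a → u x a b = γ j x a * star (γ j x b))
    (s : Finset S) {J : ι → Type} [∀ x, Fintype (J x)] [∀ x, DecidableEq (J x)]
    (π : ∀ x, J x → P x) (hs : (K.comap π).SmS fun x a => ∀ j ∈ s, g j x (π x a) < t)
    {φ : R (K.comap π)} (r : Reg φ) (k : ℕ) :
    ∀ᶠ x in F, (fwdDiff 1)^[s.card] (fun k : ℕ => nu F n (fun x a => c x (π x a))
      (had1 (K.comap π) (fun x a b => u x (π x a) (π x b) ^ k) φ) x) k = 0 := by
  classical
  induction s using Finset.induction_on generalizing J k with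
  | empty =>
    have h1 : (1 : R (K.comap π)) = 0 := by
      rw [← chi_true]
      exact chi_eq_zero (hs.mono (.of_forall fun x a _ j hj => absurd hj (Finset.notMem_empty j)))
    have h2 : had1 (K.comap π) (fun x a b => u x (π x a) (π x b) ^ k) φ = 0 := by
      rw [← mul_one (had1 _ _ φ), h1, mul_zero]
    have h3 := (pk F n).zero (c := fun x a => c x (π x a)) (hK.comap π)
    filter_upwards [h3] with x hx
    rw [Finset.card_empty, Function.iterate_zero_apply, h2]
    exact hx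
  | insert i s hi ih =>
    obtain ⟨Y, rY, hY⟩ := cnil_step (c := fun x a => c x (π x a)) (hK.comap π) (hu.comap π)
      (fun x a => g i x (π x a)) (fun x a b => hg i x _ _) ht (fun x a => γ i x (π x a))
      (fun x a => hγ i x _) ((hc i).comap π) r
    have h1 := ih (J := fun x => {p : (J x × Fin 2) × Fin 2 // g i x (π x p.1.1) ≤ 2 * t / 3})
      (fun x p => π x p.1.1.1) (fun ε hε => (hs ε hε).mono fun x hx a ha => hx a.1.1.1 (by
        intro j hj
        rcases Finset.mem_insert.1 hj with rfl | hj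
        · linarith [a.2]
        · exact ha j hj)) (φ := Y) rY k
    have h2 := (Finset.eventually_all (Finset.range (s.card + 1))).2 fun j _ => hY (k + j • 1)
    filter_upwards [h1, h2] with x h1 h2
    rw [Finset.card_insert_of_notMem hi, Function.iterate_succ_apply]
    have h3 := fwdDiff_iter_const_smul (h := 1) (2 : ℤ) (fwdDiff 1 fun k : ℕ =>
      nu F n (fun x a => c x (π x a))
        (had1 (K.comap π) (fun x a b => u x (π x a) (π x b) ^ k) φ) x) s.card
    have h4 := congrFun h3 k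
    rw [Pi.smul_apply, smul_eq_mul, fwdDiff_iter_eq_sum_shift] at h4
    rw [fwdDiff_iter_eq_sum_shift] at h1
    refine (mul_eq_zero.1 (h4.symm.trans (Eq.trans ?_ h1))).resolve_left two_ne_zero
    exact Finset.sum_congr rfl fun j hj => congrArg _ (h2 j hj).symm

theorem nu_twist {n : ℕ} {F : Filter ι} (K : Ctx P) (c : ∀ x, P x → Fin n → ℝ)
    (hK : K.Le (coord F c)) {u : ∀ x, P x → P x → ℂ} (hu : Coc K u) {p : ℕ} (hp : 0 < p)
    (hup : ∀ x a b, u x a b ^ p = 1) {S : Type}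
    (g : S → ∀ x, P x → ℝ) (hg : ∀ j x a b, g j x a ≤ g j x b + K.d x a b) {t : ℝ} (ht : 0 < t)
    (γ : S → ∀ x, P x → ℂ) (hγ : ∀ j x a, star (γ j x a) * γ j x a = 1)
    (hc : ∀ j, Near K K fun x a b => 0 < g j x a → u x a b = γ j x a * star (γ j x b))
    (s : Finset S) {J : ι → Type} [∀ x, Fintype (J x)] [∀ x, DecidableEq (J x)]
    (π : ∀ x, J x → P x) (hs : (K.comap π).SmS fun x a => ∀ j ∈ s, g j x (π x a) < t)
    {φ : R (K.comap π)} (r : Reg φ) :
    nu F n (fun x a => c x (π x a)) (had1 (K.comap π) (fun x a b => u x (π x a) (π x b)) φ) =ᶠ[F]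
      nu F n (fun x a => c x (π x a)) φ := by
  have h1 := (Finset.eventually_all (Finset.range p)).2 fun k _ =>
    nu_twist_aux K c hK hu g hg ht γ hγ hc s π hs r k
  filter_upwards [h1] with x hx
  have h2 := periodic_fwdDiff hp (a := fun k : ℕ => nu F n (fun x a => c x (π x a))
      (had1 (K.comap π) (fun x a b => u x (π x a) (π x b) ^ k) φ) x)
    (fun k => by simp only [pow_add, hup, mul_one]) s.card fun k hk => hx k (Finset.mem_range.2 hk)
  simp only [pow_one, pow_zero] at h2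
  rw [had1_one (Ctx.Le.refl _), res_self] at h2
  exact h2

end Crest.Agent.R217
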