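import Crest.Agent.R217.CDefs
import Crest.Agent.R217.BRes

/-! Row 217, part C: signature of complex matrices (finite-dimensional linear algebra; use
`Mathlib/LinearAlgebra/QuadraticForm/Signature.lean` and `Matrix.IsHermitian.spectral_theorem`). -/

set_option autoImplicit false
set_option linter.unusedSectionVars false
set_option linter.unusedVariables false

namespace Crest.Agent.R217

open Matrix

variable {T T' : Type} [Fintype T] [DecidableEq T] [Fintype T'] [DecidableEq T']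

theorem qf_apply (A : Matrix T T ℂ) (v : T → ℂ) : qf A v = (star v ⬝ᵥ A *ᵥ v).re := rfl

theorem cs_pos_le {M M' : Type*} [AddCommGroup M] [AddCommGroup M'] [Module ℝ M] [Module ℝ M']
    [Module.Finite ℝ M] [Module.Finite ℝ M'] {Q : QuadraticForm ℝ M} {Q' : QuadraticForm ℝ M'}
    (f : M →ₗ[ℝ] M') (h : ∀ v, Q v = Q' (f v)) : sigPos Q ≤ sigPos Q' := by
  obtain ⟨V, hV, hp⟩ := exists_finrank_eq_sigPos_and_posDef Q
  have hinj : Function.Injective (f.domRestrict V) := by
    rw [injective_iff_map_eq_zero]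
    intro v hv
    by_contra h0
    have h1 := hp v h0
    rw [QuadraticMap.restrict_apply, h, show f v = 0 from hv, map_zero] at h1
    exact lt_irrefl _ h1
  rw [← hV, ← LinearMap.finrank_range_of_inj hinj]
  refine le_sigPos_of_posDef Q' ?_
  rintro ⟨_, v, rfl⟩ h0
  have h1 := hp v (by rintro rfl; exact h0 (Subtype.ext (map_zero _)))
  rw [QuadraticMap.restrict_apply, h] at h1
  exact h1

theorem cs_neg_le {M M' : Type*} [AddCommGroup M] [AddCommGroup M'] [Module ℝ M] [Module ℝ M']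
    [Module.Finite ℝ M] [Module.Finite ℝ M'] {Q : QuadraticForm ℝ M} {Q' : QuadraticForm ℝ M'}
    (f : M →ₗ[ℝ] M') (h : ∀ v, Q v = Q' (f v)) : sigNeg Q ≤ sigNeg Q' := by
  rw [← sigPos_neg, ← sigPos_neg]
  exact cs_pos_le f fun v => by simp [h]

theorem cs_qf_conj (A : Matrix T' T' ℂ) (u : Matrix T' T ℂ) (v : T → ℂ) :
    qf (uᴴ * A * u) v = qf A (u *ᵥ v) := by
  rw [qf_apply, qf_apply, star_mulVec, ← mulVec_mulVec, ← mulVec_mulVec, dotProduct_mulVec]

theorem cs_le_conj (A : Matrix T' T' ℂ) (u : Matrix T' T ℂ) :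
    sigPos (qf (uᴴ * A * u)) ≤ sigPos (qf A) ∧ sigNeg (qf (uᴴ * A * u)) ≤ sigNeg (qf A) :=
  ⟨cs_pos_le (u.mulVecLin.restrictScalars ℝ) (cs_qf_conj A u),
    cs_neg_le (u.mulVecLin.restrictScalars ℝ) (cs_qf_conj A u)⟩

theorem cs_sig_eq {A : Matrix T' T' ℂ} {B : Matrix T T ℂ} (u : Matrix T' T ℂ) (w : Matrix T T' ℂ)
    (h1 : B = uᴴ * A * u) (h2 : A = wᴴ * B * w) : sig B = sig A := by
  have k1 := cs_le_conj A u
  have k2 := cs_le_conj B w
  rw [← h1] at k1
  rw [← h2] at k2
  rw [sig, sig, le_antisymm k1.1 k2.1, le_antisymm k1.2 k2.2]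

theorem cs_qf_neg (A : Matrix T T ℂ) : qf (-A) = -qf A := by
  ext v
  rw [_root_.neg_apply, qf_apply, qf_apply, neg_mulVec, dotProduct_neg, Complex.neg_re]

theorem sig_neg (A : Matrix T T ℂ) : sig (-A) = -sig A := by
  rw [sig, sig, cs_qf_neg, sigPos_neg, sigNeg_neg, neg_sub]

theorem sig_zero : sig (0 : Matrix T T ℂ) = 0 := by
  have := sig_neg (0 : Matrix T T ℂ)
  rw [neg_zero] at this
  omega

/-- invariance under isometries -/
theorem sig_iso (A u v : Matrix T T ℂ) (h1 : u * v = 1) : sig (star u * A * u) = sig A := by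
  refine cs_sig_eq u v rfl ?_
  have h2 : vᴴ * star u = 1 := by
    rw [star_eq_conjTranspose, ← conjTranspose_mul, h1, conjTranspose_one]
  rw [mul_assoc, mul_assoc, h1, mul_one, ← mul_assoc, h2, one_mul]

/-- a real diagonal matrix: every entry counts twice (real and imaginary part) -/
theorem sig_diagonal (g : T → ℝ) : sig (Matrix.diagonal fun t => (g t : ℂ)) =
    2 * ((Finset.univ.filter fun t => 0 < g t).card - (Finset.univ.filter fun t => g t < 0).card) := by
  let f : (T → ℂ) →ₗ[ℝ] (T ⊕ T → ℝ) :=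
    { toFun := fun v => Sum.elim (fun t => (v t).re) fun t => (v t).im
      map_add' := fun u v => by ext (t | t) <;> simp
      map_smul' := fun c v => by ext (t | t) <;> simp }
  let f' : (T ⊕ T → ℝ) →ₗ[ℝ] (T → ℂ) :=
    { toFun := fun x t => ⟨x (.inl t), x (.inr t)⟩
      map_add' := fun u v => by ext t : 1; apply Complex.ext <;> simp
      map_smul' := fun c v => by ext t : 1; apply Complex.ext <;> simp }
  have h1 : ∀ v, qf (Matrix.diagonal fun t => (g t : ℂ)) v =
      QuadraticMap.weightedSumSquares ℝ (Sum.elim g g) (f v) := fun v => by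
    rw [qf_apply, QuadraticMap.weightedSumSquares_apply, Fintype.sum_sum_type,
      ← Finset.sum_add_distrib, dotProduct, Complex.re_sum]
    refine Finset.sum_congr rfl fun t _ => ?_
    simp [mulVec_diagonal, f]
    ring
  have h2 : ∀ x, QuadraticMap.weightedSumSquares ℝ (Sum.elim g g) x =
      qf (Matrix.diagonal fun t => (g t : ℂ)) (f' x) := fun x => by
    rw [h1]
    congr 1
    ext (t | t) <;> rfl
  have cnt : ∀ (p : ℝ → Prop) [DecidablePred p], {i | p (Sum.elim g g i)}.ncard =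
      2 * (Finset.univ.filter fun t => p (g t)).card := fun p _ => by
    rw [Set.ncard_eq_toFinset_card', Set.toFinset_ofPred, Finset.card_filter, Finset.card_filter,
      Fintype.sum_sum_type, two_mul]
    rfl
  rw [sig, le_antisymm (cs_pos_le f h1) (cs_pos_le f' h2),
    le_antisymm (cs_neg_le f h1) (cs_neg_le f' h2), QuadraticForm.sigPos_weightedSumSquares,
    QuadraticForm.sigNeg_weightedSumSquares, cnt fun x => 0 < x, cnt fun x => x < 0]
  push_cast
  ring

/-- `A = u⋆ diag(±1, 0) u` with `u` invertible -/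
theorem exists_diag_sign {A : Matrix T T ℂ} (hA : star A = A) :
    ∃ (u v : Matrix T T ℂ) (g : T → ℝ), u * v = 1 ∧ v * u = 1 ∧ (∀ t, g t = 1 ∨ g t = -1 ∨ g t = 0) ∧
      A = star u * Matrix.diagonal (fun t => (g t : ℂ)) * u := by
  have hH : A.IsHermitian := hA
  let l := hH.eigenvalues
  let U : Matrix T T ℂ := hH.eigenvectorUnitary
  have hU1 : star U * U = 1 := hH.eigenvectorUnitary.2.1
  have hU2 : U * star U = 1 := hH.eigenvectorUnitary.2.2
  have hs : A = U * diagonal (fun t => (l t : ℂ)) * star U := hH.spectral_theorem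
  let d : T → ℝ := fun t => if l t = 0 then 1 else √|l t|
  have hd : ∀ t, d t ≠ 0 := fun t => by
    simp only [d]
    split_ifs with h
    · exact one_ne_zero
    · exact (Real.sqrt_pos.2 (abs_pos.2 h)).ne'
  let g : T → ℝ := fun t => if 0 < l t then 1 else if l t < 0 then -1 else 0
  have hl : ∀ t, d t * g t * d t = l t := fun t => by
    simp only [d, g]
    rcases lt_trichotomy (l t) 0 with h | h | h
    · rw [if_neg h.ne, if_neg h.not_gt, if_pos h, mul_neg, mul_one, neg_mul,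
        Real.mul_self_sqrt (abs_nonneg _), abs_of_neg h, neg_neg]
    · simp [h]
    · rw [if_neg h.ne', if_pos h, mul_one, Real.mul_self_sqrt (abs_nonneg _), abs_of_pos h]
  have e1 : diagonal (fun t => (d t : ℂ)) * diagonal (fun t => (d t : ℂ)⁻¹) = 1 := by
    rw [diagonal_mul_diagonal, ← diagonal_one]
    congr 1
    funext t
    exact mul_inv_cancel₀ (Complex.ofReal_ne_zero.2 (hd t))
  have e2 : (diagonal (fun t => (d t : ℂ)) * star U) * (U * diagonal (fun t => (d t : ℂ)⁻¹)) = 1 := by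
    rw [mul_assoc, ← mul_assoc (star U), hU1, one_mul, e1]
  refine ⟨diagonal (fun t => (d t : ℂ)) * star U, U * diagonal (fun t => (d t : ℂ)⁻¹), g, e2,
    mul_eq_one_comm.1 e2, fun t => ?_, ?_⟩
  · simp only [g]
    split_ifs <;> simp
  · have e3 : star (diagonal fun t => (d t : ℂ)) = diagonal fun t => (d t : ℂ) := by
      rw [star_eq_conjTranspose, diagonal_conjTranspose]
      congr 1
      funext t
      simp
    have e4 : diagonal (fun t => (l t : ℂ)) = diagonal (fun t => (d t : ℂ)) *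
        diagonal (fun t => (g t : ℂ)) * diagonal (fun t => (d t : ℂ)) := by
      rw [diagonal_mul_diagonal, diagonal_mul_diagonal]
      congr 1
      funext t
      rw [← hl t]
      push_cast
      rfl
    rw [star_mul, star_star, e3]
    refine hs.trans ?_
    rw [e4]
    simp only [mul_assoc]

theorem reg_of_herm {A : Matrix T T ℂ} (hA : star A = A) : Reg A := by
  obtain ⟨u, v, g, h1, -, hg, h3⟩ := exists_diag_sign hA
  refine ⟨hA, v * diagonal (fun t => (g t : ℂ)) * star v, ?_⟩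
  have h2 : star v * star u = 1 := by rw [← star_mul, h1, star_one]
  have h4 : diagonal (fun t => (g t : ℂ)) * diagonal (fun t => (g t : ℂ)) *
      diagonal (fun t => (g t : ℂ)) = diagonal (fun t => (g t : ℂ)) := by
    rw [diagonal_mul_diagonal, diagonal_mul_diagonal]
    congr 1
    funext t
    rcases hg t with h | h | h <;> simp [h]
  rw [h3]
  calc _ = star u * (diagonal (fun t => (g t : ℂ)) * (u * v) * diagonal (fun t => (g t : ℂ)) *
        (star v * star u) * diagonal (fun t => (g t : ℂ))) * u := by simp only [mul_assoc]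
    _ = _ := by rw [h1, h2, mul_one, mul_one, h4]

/-- `σ = 1 - 2 e` satisfies `σ⋆ A σ = -A`; `σ` need not be invertible, but a positive definite
subspace is mapped injectively onto a negative definite one and conversely. -/
theorem sig_null {A : Matrix T T ℂ} (hA : star A = A) (h : Null A) : sig A = 0 := by
  obtain ⟨e, h1, h2⟩ := h
  have h3 : (1 - (e + e))ᴴ * A * (1 - (e + e)) = -A := by
    rw [← star_eq_conjTranspose, star_sub, star_add, star_one]
    calc _ = A - (A * e + star e * A) - (A * e + star e * A) +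
        (star e * A * e + star e * A * e + star e * A * e + star e * A * e) := by noncomm_ring
      _ = _ := by rw [← h2, h1]; abel
  have h4 := cs_le_conj A (1 - (e + e))
  rw [h3, cs_qf_neg, sigPos_neg, sigNeg_neg] at h4
  rw [sig, le_antisymm h4.1 h4.2, sub_self]

/-- pair the `+1` and the `-1` entries by a bijection -/
theorem null_of_sig_zero {A : Matrix T T ℂ} (hA : star A = A) (h : sig A = 0) : Null A := by
  obtain ⟨u, v, g, h1, -, hg, h3⟩ := exists_diag_sign hA
  rw [h3, sig_iso _ u v h1, sig_diagonal] at h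
  have hc : Fintype.card {t // 0 < g t} = Fintype.card {t // g t < 0} := by
    rw [Fintype.card_subtype, Fintype.card_subtype]
    omega
  let β := Fintype.equivOfCardEq hc
  let π : T → T := fun t =>
    if h : 0 < g t then β ⟨t, h⟩ else if h : g t < 0 then β.symm ⟨t, h⟩ else t
  have hπ : ∀ t, π (π t) = t ∧ g (π t) = -g t := fun t => by
    rcases lt_trichotomy (g t) 0 with h | h | h
    · have e1 : π t = β.symm ⟨t, h⟩ := by simp only [π]; rw [dif_neg h.not_gt, dif_pos h]
      have h4 := (β.symm ⟨t, h⟩).2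
      rw [e1]
      constructor
      · simp only [π]; rw [dif_pos h4]; simp
      · rcases hg t with k | k | k <;> rcases hg (β.symm ⟨t, h⟩) with k' | k' | k' <;> linarith
    · have e1 : π t = t := by simp only [π]; rw [dif_neg h.not_gt, dif_neg h.not_lt]
      rw [e1, e1, h, neg_zero]
      exact ⟨rfl, rfl⟩
    · have e1 : π t = β ⟨t, h⟩ := by simp only [π]; rw [dif_pos h]
      have h4 := (β ⟨t, h⟩).2
      rw [e1]
      constructor
      · simp only [π]; rw [dif_neg h4.not_gt, dif_pos h4]; simp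
      · rcases hg t with k | k | k <;> rcases hg (β ⟨t, h⟩) with k' | k' | k' <;> linarith
  let P : Matrix T T ℂ := Matrix.of fun a b => if π a = b then 1 else 0
  set D : Matrix T T ℂ := diagonal fun t => (g t : ℂ) with hD
  have p1 : star P = P := by
    ext a b
    have : π b = a ↔ π a = b := ⟨fun h => by rw [← h, (hπ b).1], fun h => by rw [← h, (hπ a).1]⟩
    simp [P, star_apply, this]
  have p2 : P * P = 1 := by
    ext a b
    rw [mul_apply, Finset.sum_eq_single (π a) (fun c _ hc => by simp [P, hc.symm]) (by simp)]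
    simp [P, (hπ a).1, one_apply]
  have p3 : P * D = -(D * P) := by
    ext a b
    rw [hD, mul_diagonal, Matrix.neg_apply, diagonal_mul]
    simp only [P, of_apply]
    split_ifs with h
    · rw [← h, (hπ a).2]; simp
    · simp
  have h2 : star v * star u = 1 := by rw [← star_mul, h1, star_one]
  let e : Matrix T T ℂ := (2⁻¹ : ℂ) • (1 + P)
  have se : star e = e := by
    simp only [e]
    rw [star_smul, star_add, star_one, p1]
    simp
  have q1 : e * D * e = 0 := by
    simp only [e, smul_mul_assoc, mul_smul_comm]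
    rw [add_mul, one_mul, p3, add_mul, mul_add, mul_add, mul_one, mul_one, neg_mul, mul_assoc, p2,
      mul_one]
    simp
  have q2 : D * e + e * D = D := by
    simp only [e, smul_mul_assoc, mul_smul_comm]
    rw [add_mul, one_mul, p3, mul_add, mul_one, ← smul_add,
      show D + D * P + (D + -(D * P)) = (2 : ℂ) • D by rw [two_smul]; abel, smul_smul]
    simp
  refine ⟨v * e * u, ?_, ?_⟩
  · rw [h3, star_mul, star_mul, se]
    calc _ = star u * (e * (star v * star u) * D * (u * v) * e) * u := by simp only [mul_assoc]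
      _ = 0 := by rw [h1, h2, mul_one, mul_one, q1, mul_zero, zero_mul]
  · rw [h3, star_mul, star_mul, se]
    calc _ = star u * (D * (u * v) * e + e * (star v * star u) * D) * u := by
          rw [h1, h2, mul_one, mul_one, q2]
      _ = _ := by simp only [mul_add, add_mul, mul_assoc]

theorem sig_fromBlocks {A : Matrix T T ℂ} {B : Matrix T' T' ℂ} (hA : star A = A) (hB : star B = B) :
    sig (Matrix.fromBlocks A 0 0 B) = sig A + sig B := by
  obtain ⟨u, v, g, h1, -, -, h3⟩ := exists_diag_sign hA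
  obtain ⟨u', v', g', h1', -, -, h3'⟩ := exists_diag_sign hB
  have e : fromBlocks A 0 0 B = star (fromBlocks u 0 0 u') *
      (diagonal fun t => ((Sum.elim g g' t : ℝ) : ℂ)) * fromBlocks u 0 0 u' := by
    have : (diagonal fun t => ((Sum.elim g g' t : ℝ) : ℂ)) =
        fromBlocks (diagonal fun t => (g t : ℂ)) 0 0 (diagonal fun t => (g' t : ℂ)) := by
      rw [fromBlocks_diagonal]
      congr 1
      ext (t | t) <;> rfl
    rw [this, star_eq_conjTranspose, fromBlocks_conjTranspose, fromBlocks_multiply,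
      fromBlocks_multiply, h3, h3']
    simp [star_eq_conjTranspose]
  rw [e, sig_iso _ _ (fromBlocks v 0 0 v') (by rw [fromBlocks_multiply]; simp [h1, h1']),
    h3, h3', sig_iso _ _ _ h1, sig_iso _ _ _ h1', sig_diagonal, sig_diagonal, sig_diagonal]
  have cnt : ∀ (p : ℝ → Prop) [DecidablePred p],
      (Finset.univ.filter fun t => p (Sum.elim g g' t)).card =
      (Finset.univ.filter fun t => p (g t)).card + (Finset.univ.filter fun t => p (g' t)).card :=
    fun p _ => by
      rw [Finset.card_filter, Finset.card_filter, Finset.card_filter, Fintype.sum_sum_type]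
      rfl
  rw [cnt fun x => 0 < x, cnt fun x => x < 0]
  push_cast
  ring

theorem cs_embM_conj (e : T ↪ T') : (embM e)ᴴ = (embM e)ᵀ := by
  ext a b
  simp [embM, conjTranspose_apply]

theorem sig_reindex (e : T ≃ T') (A : Matrix T' T' ℂ) : sig (A.submatrix e e) = sig A := by
  refine cs_sig_eq (embM e.toEmbedding) (embM e.symm.toEmbedding) ?_ ?_
  · rw [cs_embM_conj]
    exact bres_submatrix e.toEmbedding A
  · rw [cs_embM_conj, ← bres_submatrix]
    simp

theorem sig_trM (e : T ↪ T') {A : Matrix T T ℂ} (hA : star A = A) : sig (trM e A) = sig A := by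
  refine cs_sig_eq (embM e)ᴴ (embM e) ?_ ?_
  · rw [conjTranspose_conjTranspose, cs_embM_conj, trM]
  · rw [cs_embM_conj, trM, ← Matrix.mul_assoc, ← Matrix.mul_assoc, bres_embM_tmul, Matrix.one_mul,
      Matrix.mul_assoc, bres_embM_tmul, Matrix.mul_one]

open Classical in
theorem sig_add_orth (p : T → Prop) {A B : Matrix T T ℂ} (hA : star A = A) (hB : star B = B)
    (h1 : ∀ a b, A a b ≠ 0 → p a ∧ p b) (h2 : ∀ a b, B a b ≠ 0 → ¬p a ∧ ¬p b) :
    sig (A + B) = sig A + sig B := by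
  let e := Equiv.sumCompl p
  let A' : Matrix {a // p a} {a // p a} ℂ := A.submatrix Subtype.val Subtype.val
  let B' : Matrix {a // ¬p a} {a // ¬p a} ℂ := B.submatrix Subtype.val Subtype.val
  have hA' : star A' = A' := (show A.IsHermitian from hA).submatrix _
  have hB' : star B' = B' := (show B.IsHermitian from hB).submatrix _
  have k1 : ∀ a b, ¬p a ∨ ¬p b → A a b = 0 := fun a b h => by
    by_contra h0
    have := h1 a b h0
    tauto
  have k2 : ∀ a b, p a ∨ p b → B a b = 0 := fun a b h => by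
    by_contra h0
    have := h2 a b h0
    tauto
  have eA : A.submatrix e e = fromBlocks A' 0 0 0 := by
    ext (a | a) (b | b)
    · rfl
    · exact k1 _ _ (Or.inr b.2)
    · exact k1 _ _ (Or.inl a.2)
    · exact k1 _ _ (Or.inl a.2)
  have eB : B.submatrix e e = fromBlocks 0 0 0 B' := by
    ext (a | a) (b | b)
    · exact k2 _ _ (Or.inl a.2)
    · exact k2 _ _ (Or.inl a.2)
    · exact k2 _ _ (Or.inr b.2)
    · rfl
  rw [← sig_reindex e, ← sig_reindex e A, ← sig_reindex e B, submatrix_add, Pi.add_apply,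
    Pi.add_apply, eA, eB, fromBlocks_add, add_zero, add_zero, add_zero, zero_add,
    sig_fromBlocks hA' hB', sig_fromBlocks hA' (star_zero _), sig_fromBlocks (star_zero _) hB',
    sig_zero, sig_zero, add_zero, zero_add]

theorem sig_one_two : sig (1 : Matrix (Fin 2) (Fin 2) ℂ) = 4 := by
  have := sig_diagonal (T := Fin 2) fun _ => 1
  rw [Complex.ofReal_one, diagonal_one] at this
  rw [this]
  simp [zero_le_one.not_gt]

theorem cs_symm {A : Matrix T T ℂ} (hA : star A = A) (u v : T → ℂ) :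
    star v ⬝ᵥ A *ᵥ u = star (star u ⬝ᵥ A *ᵥ v) := by
  rw [← star_dotProduct_star, star_star, star_mulVec, ← star_eq_conjTranspose, hA,
    dotProduct_mulVec]

theorem cs_polar {A : Matrix T T ℂ} (hA : star A = A) (u v : T → ℂ) :
    QuadraticMap.polar (qf A) u v = 2 * (star u ⬝ᵥ A *ᵥ v).re := by
  rw [QuadraticMap.polar, qf_apply, qf_apply, qf_apply, star_add, mulVec_add, add_dotProduct,
    dotProduct_add, dotProduct_add, cs_symm hA u v]
  simp
  ring

open scoped ComplexOrder in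
theorem cs_rad {A : Matrix T T ℂ} (hA : star A = A) {n : T → ℂ} (hn : n ∈ (qf A).radical) :
    A *ᵥ n = 0 := by
  have h1 : QuadraticMap.polar (qf A) n (A *ᵥ n) = 0 := LinearMap.congr_fun hn.2 (A *ᵥ n)
  rw [QuadraticMap.polar_comm, cs_polar hA] at h1
  rw [← dotProduct_star_self_eq_zero]
  refine Complex.ext (by simpa using h1) ?_
  simp [dotProduct, mul_comm]

theorem cs_isotropic {A : Matrix T T ℂ} (hA : star A = A) (Λ : Submodule ℂ (T → ℂ))
    (y₁ y₂ : T → ℂ) (hΛ : ∀ l ∈ Λ, ∀ l' ∈ Λ, star l ⬝ᵥ A *ᵥ l' = 0)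
    (h1 : ∀ l ∈ Λ, star l ⬝ᵥ A *ᵥ y₁ = 0) (h2 : ∀ l ∈ Λ, star l ⬝ᵥ A *ᵥ y₂ = 0)
    (h12 : star y₁ ⬝ᵥ A *ᵥ y₂ = 0) (h11 : 0 < (star y₁ ⬝ᵥ A *ᵥ y₁).re)
    (h22 : 0 < (star y₂ ⬝ᵥ A *ᵥ y₂).re) (hN : ∀ n, A *ᵥ n = 0 → n ∈ Λ)
    (hperp : ∀ v, (∀ l ∈ Λ, star l ⬝ᵥ A *ᵥ v = 0) →
      ∃ l ∈ Λ, ∃ α₁ α₂ : ℂ, A *ᵥ (v - l - α₁ • y₁ - α₂ • y₂) = 0) : sig A = 4 := by
  let W : Submodule ℝ (T → ℂ) := Λ.restrictScalars ℝ
  let ψ : ℂ × ℂ →ₗ[ℝ] (T → ℂ) :=
    { toFun := fun α => α.1 • y₁ + α.2 • y₂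
      map_add' := fun α β => by simp only [Prod.fst_add, Prod.snd_add, add_smul]; abel
      map_smul' := fun c α => by simp only [Prod.smul_fst, Prod.smul_snd, smul_assoc, smul_add,
        RingHom.id_apply] }
  have h21 : star y₂ ⬝ᵥ A *ᵥ y₁ = 0 := by rw [cs_symm hA, h12, star_zero]
  have hψ : ∀ α, qf A (ψ α) = Complex.normSq α.1 * (star y₁ ⬝ᵥ A *ᵥ y₁).re +
      Complex.normSq α.2 * (star y₂ ⬝ᵥ A *ᵥ y₂).re := fun α => by
    change (star (α.1 • y₁ + α.2 • y₂) ⬝ᵥ A *ᵥ (α.1 • y₁ + α.2 • y₂)).re = _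
    simp only [star_add, star_smul, mulVec_add, mulVec_smul, add_dotProduct, dotProduct_add,
      smul_dotProduct, dotProduct_smul, h12, h21, smul_eq_mul, mul_zero, add_zero, zero_add,
      ← mul_assoc, Complex.star_def, Complex.mul_conj, Complex.add_re, Complex.re_ofReal_mul]
  have hψ0 : ∀ α, 0 ≤ qf A (ψ α) := fun α => by
    rw [hψ]
    exact add_nonneg (mul_nonneg (Complex.normSq_nonneg _) h11.le)
      (mul_nonneg (Complex.normSq_nonneg _) h22.le)
  have hψ1 : ∀ α, qf A (ψ α) = 0 → α = 0 := fun α h => by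
    rw [hψ] at h
    have k1 := mul_nonneg (Complex.normSq_nonneg α.1) h11.le
    have k2 := mul_nonneg (Complex.normSq_nonneg α.2) h22.le
    refine Prod.ext (Complex.normSq_eq_zero.1 ?_) (Complex.normSq_eq_zero.1 ?_)
    · exact (mul_eq_zero.1 (by linarith)).resolve_right h11.ne'
    · exact (mul_eq_zero.1 (by linarith)).resolve_right h22.ne'
  have hW : ∀ w ∈ W, qf A w = 0 := fun w hw => by rw [qf_apply, hΛ w hw w hw, Complex.zero_re]
  have hWψ : ∀ w ∈ W, ∀ α, qf A (w + ψ α) = qf A (ψ α) := fun w hw α => by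
    rw [QuadraticMap.map_add (qf A), hW w hw, cs_polar hA]
    change _ + 2 * (star w ⬝ᵥ A *ᵥ (α.1 • y₁ + α.2 • y₂)).re = _
    simp only [mulVec_add, mulVec_smul, dotProduct_add, dotProduct_smul, h1 w hw, h2 w hw,
      smul_zero, add_zero, Complex.zero_re, mul_zero, zero_add]
  have dY : Module.finrank ℝ (LinearMap.range ψ) = 4 := by
    rw [LinearMap.finrank_range_of_inj ((injective_iff_map_eq_zero ψ).2 fun α h =>
      hψ1 α (by rw [h, map_zero])), Module.finrank_prod, Complex.finrank_real_complex]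
  have dX : Module.finrank ℝ ↥(W ⊔ LinearMap.range ψ) = Module.finrank ℝ W + 4 := by
    have := Submodule.finrank_sup_add_finrank_inf_eq W (LinearMap.range ψ)
    rw [show W ⊓ LinearMap.range ψ = ⊥ from ?_, finrank_bot, add_zero, dY] at this
    · exact this
    · rw [Submodule.eq_bot_iff]
      rintro _ ⟨hw, α, rfl⟩
      rw [hψ1 α (hW _ hw), map_zero]
  have b1 := QuadraticForm.sigPos_add_finrank_le_of_nonpos (Q := qf A) (V := W)
    fun w hw => (hW w hw).le
  have b2 := QuadraticForm.sigPos_add_finrank_le_of_nonpos (Q := -qf A)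
    (V := W ⊔ LinearMap.range ψ) fun x hx => by
      obtain ⟨w, hw, _, ⟨α, rfl⟩, rfl⟩ := Submodule.mem_sup.1 hx
      rw [_root_.neg_apply, hWψ w hw, neg_nonpos]
      exact hψ0 α
  have b3 := QuadraticForm.sigPos_add_sigNeg_add_radical (Q := qf A)
  obtain ⟨C, hC⟩ := (qf A).radical.exists_isCompl
  have hRW : (qf A).radical ≤ W := fun n hn => hN n (cs_rad hA hn)
  have b4 : Module.finrank ℝ (qf A).radical + Module.finrank ℝ ↥(W ⊓ C) ≤ Module.finrank ℝ W := by
    rw [← Submodule.finrank_sup_add_finrank_inf_eq,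
      (hC.disjoint.mono_right inf_le_right).eq_bot, finrank_bot, add_zero]
    exact Submodule.finrank_mono (sup_le hRW inf_le_left)
  let φ : (T → ℂ) →ₗ[ℝ] Module.Dual ℝ ↥(W ⊓ C) :=
    (W ⊓ C).subtype.dualMap ∘ₗ (qf A).polarBilin
  have b5 : LinearMap.ker φ ≤ W ⊔ LinearMap.range ψ := fun v hv => by
    have k1 : ∀ l ∈ Λ, (star l ⬝ᵥ A *ᵥ v).re = 0 := fun l hl => by
      obtain ⟨n, hn, c, hc, rfl⟩ := Submodule.mem_sup.1 (hC.sup_eq_top ▸ Submodule.mem_top (x := l))
      have hc' : c ∈ W := by simpa using W.sub_mem hl (hRW hn)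
      have k2 : QuadraticMap.polar (qf A) v c = 0 :=
        LinearMap.congr_fun (LinearMap.mem_ker.1 hv) ⟨c, hc', hc⟩
      have k3 : QuadraticMap.polar (qf A) n v = 0 := LinearMap.congr_fun hn.2 v
      rw [QuadraticMap.polar_comm, cs_polar hA] at k2
      rw [cs_polar hA] at k3
      rw [star_add, add_dotProduct, Complex.add_re]
      linarith
    obtain ⟨l, hl, α₁, α₂, h⟩ := hperp v fun l hl => by
      have k2 := k1 _ (Λ.smul_mem Complex.I hl)
      rw [star_smul, smul_dotProduct] at k2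
      exact Complex.ext (k1 l hl) (by simpa using k2)
    refine Submodule.mem_sup.2 ⟨l + (v - l - α₁ • y₁ - α₂ • y₂), Λ.add_mem hl (hN _ h),
      ψ (α₁, α₂), ⟨_, rfl⟩, ?_⟩
    change _ + (α₁ • y₁ + α₂ • y₂) = _
    abel
  have b6 := LinearMap.finrank_range_add_finrank_ker φ
  have b7 := Submodule.finrank_mono b5
  have b8 := (LinearMap.range φ).finrank_le
  rw [Subspace.dual_finrank_eq] at b8
  rw [sigPos_neg] at b2
  rw [sig]
  omega

/-- Reduction along an isotropic subspace `Λ`: if `Λ^⊥ = Λ + ⟨y₁, y₂⟩ + radical` and the form is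
definite on `⟨y₁, y₂⟩ ⊥ Λ`, the signature is that of `⟨y₁, y₂⟩`.
Proof (say `ε = 1`; `n₊, n₋, n₀` real dimensions, `N` the radical, `W = Λ + N`,
`Y = ⟨y₁, y₂⟩` of real dimension 4): `W^⊥ = W ⊕ Y`, so `2 dim W + 4 = dim V + n₀`;
`W ⊕ Y` is positive semidefinite, so `n₋ + dim W + 4 ≤ dim V`, and `W` is negative semidefinite, so
`n₊ + dim W ≤ dim V` (`sigPos_add_finrank_le_of_nonpos`); with `n₊ + n₋ + n₀ = dim V` both are
equalities, hence `n₊ - n₋ = 4`. -/
theorem sig_of_isotropic {A : Matrix T T ℂ} (hA : star A = A) (Λ : Submodule ℂ (T → ℂ))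
    (y₁ y₂ : T → ℂ) (ε : ℤ) (hε : ε = 1 ∨ ε = -1)
    (hΛ : ∀ l ∈ Λ, ∀ l' ∈ Λ, star l ⬝ᵥ A *ᵥ l' = 0)
    (h1 : ∀ l ∈ Λ, star l ⬝ᵥ A *ᵥ y₁ = 0) (h2 : ∀ l ∈ Λ, star l ⬝ᵥ A *ᵥ y₂ = 0)
    (h12 : star y₁ ⬝ᵥ A *ᵥ y₂ = 0) (h11 : 0 < (ε : ℝ) * (star y₁ ⬝ᵥ A *ᵥ y₁).re)
    (h22 : 0 < (ε : ℝ) * (star y₂ ⬝ᵥ A *ᵥ y₂).re)
    (hperp : ∀ v, (∀ l ∈ Λ, star l ⬝ᵥ A *ᵥ v = 0) →
      ∃ l ∈ Λ, ∃ α₁ α₂ : ℂ, A *ᵥ (v - l - α₁ • y₁ - α₂ • y₂) = 0) :
    sig A = 4 * ε := by
  have key : ∀ {A : Matrix T T ℂ}, star A = A → (∀ l ∈ Λ, ∀ l' ∈ Λ, star l ⬝ᵥ A *ᵥ l' = 0) →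
      (∀ l ∈ Λ, star l ⬝ᵥ A *ᵥ y₁ = 0) → (∀ l ∈ Λ, star l ⬝ᵥ A *ᵥ y₂ = 0) →
      star y₁ ⬝ᵥ A *ᵥ y₂ = 0 → 0 < (star y₁ ⬝ᵥ A *ᵥ y₁).re → 0 < (star y₂ ⬝ᵥ A *ᵥ y₂).re →
      (∀ v, (∀ l ∈ Λ, star l ⬝ᵥ A *ᵥ v = 0) →
        ∃ l ∈ Λ, ∃ α₁ α₂ : ℂ, A *ᵥ (v - l - α₁ • y₁ - α₂ • y₂) = 0) → sig A = 4 := by
    intro A hA hΛ h1 h2 h12 h11 h22 hperp
    have k0 : ∀ v, (∀ l ∈ Λ, star l ⬝ᵥ A *ᵥ v = 0) →
        ∀ l ∈ Λ ⊔ LinearMap.ker A.mulVecLin, star l ⬝ᵥ A *ᵥ v = 0 := fun v hv l hl => by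
      obtain ⟨a, ha, n, hn, rfl⟩ := Submodule.mem_sup.1 hl
      rw [star_add, add_dotProduct, hv a ha, cs_symm hA, show A *ᵥ n = 0 from hn]
      simp
    refine cs_isotropic hA (Λ ⊔ LinearMap.ker A.mulVecLin) y₁ y₂ (fun l hl l' hl' => ?_)
      (k0 _ h1) (k0 _ h2) h12 h11 h22 (fun n hn => Submodule.mem_sup_right hn) fun v hv => ?_
    · refine k0 l' (fun a ha => ?_) l hl
      rw [cs_symm hA, k0 a (fun b hb => hΛ b hb a ha) l' hl', star_zero]
    · obtain ⟨l, hl, h⟩ := hperp v fun l hl => hv l (Submodule.mem_sup_left hl)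
      exact ⟨l, Submodule.mem_sup_left hl, h⟩
  rcases hε with rfl | rfl
  · simpa using key hA hΛ h1 h2 h12 (by simpa using h11) (by simpa using h22) hperp
  · have := key (A := -A) (by rw [star_neg, hA]) (by simpa [neg_mulVec] using hΛ)
      (by simpa [neg_mulVec] using h1) (by simpa [neg_mulVec] using h2)
      (by simpa [neg_mulVec] using h12) (by simpa [neg_mulVec] using h11)
      (by simpa [neg_mulVec] using h22) (by simpa only [neg_mulVec, dotProduct_neg, neg_eq_zero] using hperp)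
    rw [sig_neg] at this
    omega

end Crest.Agent.R217
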