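import Crest.Agent.R217.CCmp
import Crest.Agent.R217.CSig

/-! Row 217, part C: the base cases of `Pk`, and consequences of `Pk F n`. -/

set_option autoImplicit false

namespace Crest.Agent.R217

open Filter Topology

variable {ι : Type} {I J : ι → Type} [∀ x, Fintype (I x)] [∀ x, DecidableEq (I x)]
  [∀ x, Fintype (J x)] [∀ x, DecidableEq (J x)] {F : Filter ι} {n : ℕ}

/-- with no coordinate left every index has depth `10` (`eq_of_mk_eq` in `coord F c`) -/
theorem ev_eq_of_mk_eq {K : Ctx I} {c : ∀ x, I x → Fin 0 → ℝ} (hK : K.Le (coord F c))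
    {A B : MF I} (hA : MC K A) (hB : MC K B) (h : mk K A = mk K B) : ∀ᶠ x in F, A x = B x := by
  have h1 : mk (coord F c) A = mk (coord F c) B := by
    rw [← res_mk hK hA, ← res_mk hK hB, h]
  have h2 : ∀ᶠ x in F, ∀ a b, ((1 : ℝ) ≤ (coord F c).dep x a ∨ (1 : ℝ) ≤ (coord F c).dep x b) →
      A x a b = B x a b := eq_of_mk_eq (hA.le hK) (hB.le hK) h1 1 one_pos
  filter_upwards [h2] with x hx
  ext a b
  refine hx a b (Or.inl ?_)
  change (1 : ℝ) ≤ 10 - ‖c x a‖
  rw [norm_of_subsingleton]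
  norm_num

theorem nu_zero_mk {K : Ctx I} {c : ∀ x, I x → Fin 0 → ℝ} (hK : K.Le (coord F c))
    {A : MF I} (hA : MC K A) : nu F 0 c (mk K A) =ᶠ[F] fun x => sig (A x) := by
  filter_upwards [ev_eq_of_mk_eq hK (rep_mc _) hA (mk_rep (mk K A))] with x hx
  change sig (rep (mk K A) x) = _
  rw [hx]

theorem nu_res {K K' : Ctx I} {c : ∀ x, I x → Fin n → ℝ} (h : K.Le K') (h' : K'.Le (coord F c))
    (φ : R K) : nu F n c (res K' φ) =ᶠ[F] nu F n c φ := by
  rcases n with _ | _ | n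
  · obtain ⟨A, hA, rfl⟩ := exists_mk φ
    rw [res_mk h hA]
    exact (nu_zero_mk h' (hA.le h)).trans (nu_zero_mk (h.trans h') hA).symm
  · exact EventuallyEq.rfl
  · rw [nu_add_two, nu_add_two, res_res h h']

theorem cpk_star {K : Ctx I} {c : ∀ x, I x → Fin 0 → ℝ} (hK : K.Le (coord F c))
    {A : MF I} (hA : MC K A) (h : star (mk K A) = mk K A) : ∀ᶠ x in F, star (A x) = A x :=
  ev_eq_of_mk_eq (A := star A) hK hA.star hA ((mk_star hA).trans h)

theorem cpk_corner {K : Ctx I} {c : ∀ x, I x → Fin 0 → ℝ} (hK : K.Le (coord F c))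
    (p : ∀ x, I x → Prop) {A : MF I} (hA : MC K A) (h : chi K p * mk K A * chi K p = mk K A) :
    ∀ᶠ x in F, ∀ a b, A x a b ≠ 0 → p x a ∧ p x b := by
  unfold chi at h
  rw [dg_mul_mk_mul_dg _ _ hA] at h
  filter_upwards [ev_eq_of_mk_eq hK (hA.of_le fun x a b h1 => by
    intro h2
    exact h1 (by simp [h2])) hA h] with x hx a b h1
  have h2 := congrFun (congrFun hx a) b
  by_contra h3
  apply h1
  rw [← h2]
  rcases not_and_or.1 h3 with h4 | h4 <;> simp [h4]

/-- representatives satisfy the ring identities eventually (`ev_eq_of_mk_eq`); use `CSig` -/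
theorem pk_zero (F : Filter ι) : Pk F 0 := by
  refine ⟨?_, ?_, ?_, ?_⟩
  · intro I _ _ c K hK p φ₁ φ₂ r1 r2 h1 h2
    obtain ⟨A, hA, rfl⟩ := exists_mk φ₁
    obtain ⟨B, hB, rfl⟩ := exists_mk φ₂
    rw [← chi_not] at h2
    rw [← mk_add hA hB]
    filter_upwards [nu_zero_mk hK (hA.add hB), nu_zero_mk hK hA, nu_zero_mk hK hB,
      cpk_star hK hA r1.1, cpk_star hK hB r2.1, cpk_corner hK _ hA h1, cpk_corner hK _ hB h2]
      with x e0 e1 e2 s1 s2 c1 c2
    rw [Pi.add_apply, e0, e1, e2]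
    exact sig_add_orth (p x) s1 s2 c1 c2
  · intro I _ _ c K hK φ _
    obtain ⟨A, hA, rfl⟩ := exists_mk φ
    rw [← mk_neg hA]
    filter_upwards [nu_zero_mk hK hA.neg, nu_zero_mk hK hA] with x e0 e1
    rw [Pi.neg_apply, e0, e1]
    exact sig_neg _
  · intro I _ _ c K hK φ r ⟨e, h1, h2⟩
    obtain ⟨A, hA, rfl⟩ := exists_mk φ
    obtain ⟨E, hE, rfl⟩ := exists_mk e
    rw [← mk_star hE, ← mk_mul hE.star hA, ← mk_mul (hE.star.mul hA) hE, ← mk_zero] at h1
    rw [← mk_star hE, ← mk_mul hE.star hA, ← mk_mul hA hE,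
      ← mk_add (hA.mul hE) (hE.star.mul hA)] at h2
    filter_upwards [nu_zero_mk hK hA, cpk_star hK hA r.1,
      ev_eq_of_mk_eq hK ((hE.star.mul hA).mul hE) mc_zero h1,
      ev_eq_of_mk_eq hK hA ((hA.mul hE).add (hE.star.mul hA)) h2] with x e0 s1 e1 e2
    rw [e0]
    exact sig_null s1 ⟨E x, e1, e2⟩
  · intro I J _ _ _ _ c K K' e hK' hK φ r
    obtain ⟨A, hA, rfl⟩ := exists_mk φ
    have hK1 : K.Le (coord F fun x a => c x (e x a)) := hK.trans (hK'.coord_comap _)
    rw [tr_mk hK hA]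
    filter_upwards [nu_zero_mk hK' (hA.tr hK), nu_zero_mk hK1 hA, cpk_star hK1 hA r.1]
      with x e0 e1 s1
    rw [e0, e1]
    exact sig_trM _ s1

theorem pk_one (F : Filter ι) : Pk F 1 := by
  refine ⟨?_, ?_, ?_, ?_⟩
  · intro I _ _ c K _ p φ₁ φ₂ _ _ _ _
    exact Eventually.of_forall fun x => (add_zero (0 : ℤ)).symm
  · intro I _ _ c K _ φ _
    exact Eventually.of_forall fun x => (neg_zero (G := ℤ)).symm
  · intro I _ _ c K _ φ _ _
    exact EventuallyEq.rfl
  · intro I J _ _ _ _ c K K' e _ _ φ _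
    exact EventuallyEq.rfl

variable {K : Ctx I} {c : ∀ x, I x → Fin n → ℝ}

theorem Pk.zero (hP : Pk F n) (hK : K.Le (coord F c)) : nu F n c (0 : R K) =ᶠ[F] 0 :=
  hP.null c hK reg_zero null_zero

theorem cpk_one {S : Type*} [Monoid S] (a : S) : 1 * a * 1 = a := by rw [one_mul, mul_one]

theorem cpk_tr_corner {K' : Ctx J} {e : ∀ x, I x ↪ J x} (h : K.Le (K'.comap fun x => e x))
    (φ : R K) : chi K' (fun x b => ∃ a, e x a = b) * tr K' e φ *
      chi K' (fun x b => ∃ a, e x a = b) = tr K' e φ := by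
  rw [← tr_one h, ← tr_mul h, ← tr_mul h, cpk_one]

/-- `blk_diag`, `add` with `p a = (a.2 = 0)`, `ext` -/
theorem Pk.diag (hP : Pk F n) (hK : K.Le (coord F c)) {φ φ' : R K} (h : Reg φ) (h' : Reg φ') :
    nu F n (I := fun x => I x × Fin 2) (fun x a => c x a.1)
      (blk (!![φ, 0; 0, φ'] : Matrix (Fin 2) (Fin 2) (R K))) =ᶠ[F] nu F n c φ + nu F n c φ' := by
  have hK' : (K.prod fun _ => Fin 2).Le (coord F fun x (a : I x × Fin 2) => c x a.1) :=
    hK.coord_comap _
  have e1 : (1 : R (K.prod fun _ => Fin 2)) - chi _ (fun x b => ∃ a, inT I (0 : Fin 2) x a = b) =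
      chi _ (fun x b => ∃ a, inT I (1 : Fin 2) x a = b) := by
    rw [← chi_not]
    congr 1
    funext x ⟨b, t⟩
    apply propext
    constructor
    · intro h1
      refine ⟨b, ?_⟩
      fin_cases t
      · exact absurd ⟨b, rfl⟩ h1
      · rfl
    · rintro ⟨a, ha⟩ ⟨a', ha'⟩
      exact absurd (show (0 : Fin 2) = 1 from congrArg Prod.snd (ha'.trans ha.symm)) (by decide)
  rw [blk_diag]
  refine (hP.add _ hK' (fun x b => ∃ a, inT I (0 : Fin 2) x a = b)
    ((tr_hom (le_inT 0)).reg (cpk_one _) h) ((tr_hom (le_inT 1)).reg (cpk_one _) h')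
    (cpk_tr_corner (le_inT 0) φ) (by rw [e1]; exact cpk_tr_corner (le_inT 1) φ')).trans ?_
  exact (hP.ext _ (inT I 0) hK' (le_inT 0) h).add (hP.ext _ (inT I 1) hK' (le_inT 1) h')

theorem Pk.rel (hP : Pk F n) (hK : K.Le (coord F c)) {φ φ' : R K} (h : Reg φ) (h' : Reg φ')
    (hr : Rel φ φ') : nu F n c φ =ᶠ[F] nu F n c φ' := by
  have hK' : (K.prod fun _ => Fin 2).Le (coord F fun x (a : I x × Fin 2) => c x a.1) :=
    hK.coord_comap _
  filter_upwards [hP.null _ hK' (blk_hom.reg (cpk_one _) (h.diag h'.neg))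
    (blk_hom.null (cpk_one _) hr), hP.diag hK h h'.neg, hP.neg c hK h'] with x e0 e1 e2
  rw [e1, Pi.add_apply, e2, Pi.neg_apply, Pi.zero_apply] at e0
  linarith

theorem Pk.iso (hP : Pk F n) (hK : K.Le (coord F c)) {φ u v : R K} (h : Reg φ) (h1 : u * v = 1)
    (h2 : v * u = 1) : nu F n c (star u * φ * u) =ᶠ[F] nu F n c φ :=
  (hP.rel hK h (h.iso h1 h2) (rel_iso h h1 h2)).symm

/-- `rel_dbl` transported by `blk_hom` -/
theorem Pk.double (hP : Pk F n) (hK : K.Le (coord F c)) {φ ψ : R K} (h : Ginv φ ψ) :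
    nu F n (I := fun x => I x × Fin 2) (fun x a => c x a.1) (blk (dbl φ ψ)) =ᶠ[F]
      nu F n c φ + nu F n c φ := by
  have hK' : (K.prod fun _ => Fin 2).Le (coord F fun x (a : I x × Fin 2) => c x a.1) :=
    hK.coord_comap _
  exact (hP.rel hK' (blk_hom.reg (cpk_one _) (dbl_inv h).reg)
    (blk_hom.reg (cpk_one _) (h.reg.diag h.reg))
    (blk_hom.rel (cpk_one _) (cpk_one _) (rel_dbl h))).trans (hP.diag hK h.reg h.reg)

section Mu

variable {c : ∀ x, I x → Fin (n + 2) → ℝ}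

theorem mu_res {K' : Ctx I} (h : K.Le K') (h' : K'.Le (coord F c)) (Φ : R K) :
    mu F n c (res K' Φ) = mu F n c Φ := by
  unfold mu
  rw [stage_res h (admS_coord h')]

/-- `stage_res` to `coord F c`, then `stage_reg` -/
theorem stage_reg_coord (hK : K.Le (coord F c)) {Φ Ψ : R K} (h : Inv Φ Ψ) :
    Reg (stage (coord F fun x a => tl (c x a)) (fun x a => hd (c x a)) Φ) := by
  rw [← stage_res hK (admS_coord (Ctx.Le.refl _))]
  exact stage_reg (K := coord F c) (K' := coord F fun x a => tl (c x a))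
    (show F ≤ F from le_rfl) (admS_coord (Ctx.Le.refl _)) ((res_hom hK).inv (res_one hK) h)

/-- `mu_res` to `coord F c` (so that the filters agree), then `stage_cmp` with `w = w'` -/
theorem Pk.mu_iso (hP : Pk F n) (hK : K.Le (coord F c)) {Φ Ψ u v : R K} (h : Inv Φ Ψ)
    (h1 : u * v = 1) (h2 : v * u = 1) : mu F n c (star u * Φ * u) =ᶠ[F] mu F n c Φ := by
  rw [← mu_res hK (Ctx.Le.refl _) Φ, ← mu_res hK (Ctx.Le.refl _) (star u * Φ * u), res_mul hK,
    res_mul hK, res_star hK]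
  have a := admS_coord (Ctx.Le.refl (coord F c))
  obtain ⟨r1, r2, X, rX, e1, e2⟩ := stage_cmp (K := coord F c)
    (K' := coord F fun x a => tl (c x a)) (w := fun x a => hd (c x a))
    (w' := fun x a => hd (c x a)) (u := res (coord F c) u) (v := res (coord F c) v)
    (show F ≤ F from le_rfl) a a (Eventually.of_forall fun _ _ => by simp) ((res_hom hK).inv (res_one hK) h)
    (by rw [← res_mul hK, h1, res_one hK]) (by rw [← res_mul hK, h2, res_one hK])
  have hK' : ((coord F fun x a => tl (c x a)).prod fun _ => Fin 2).Le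
      (coord F fun x (p : I x × Fin 2) => tl (c x p.1)) := Ctx.Le.refl _
  exact (hP.rel hK' r2 rX e2).trans (hP.rel hK' r1 rX e1).symm

/-- `nu_add_two`, `dbl_indep`, `mu_iso`, `res_blk`, `CornerHom.map_dbl`, `mu_res` -/
theorem Pk.nu_eq_mu (hP : Pk F n) (hK : K.Le (coord F c)) {φ ψ : R K} (h : Ginv φ ψ) :
    nu F (n + 2) c φ =ᶠ[F]
      mu F n (I := fun x => I x × Fin 2) (fun x a => c x a.1) (blk (dbl φ ψ)) := by
  have g1 : Ginv (res (coord F c) φ) (res (coord F c) ψ) := (res_hom hK).ginv h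
  obtain ⟨u, v, h1, h2, h3⟩ := dbl_indep g1 g1.reg.ginv
  have hK' : ((coord F c).prod fun _ => Fin 2).Le (coord F fun x (a : I x × Fin 2) => c x a.1) :=
    Ctx.Le.refl _
  rw [nu_add_two, h3, blk_mul, blk_mul, blk_star]
  refine (hP.mu_iso (v := blk v) hK' (blk_hom.inv blk_one (dbl_inv g1))
    (by rw [← blk_mul, h1, blk_one]) (by rw [← blk_mul, h2, blk_one])).trans ?_
  rw [← (res_hom hK).map_dbl (res_one hK), ← res_blk hK, mu_res (hK.comap _) hK']

end Mu

end Crest.Agent.R217
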