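import Crest.Agent.R217.CStep

/-! Row 217, part C: `nu` does not depend on the filter, nor on small moves of the coordinates. -/

set_option autoImplicit false
set_option linter.unusedSectionVars false

namespace Crest.Agent.R217

open Filter Topology

variable {ι : Type}

theorem crob_inv {I : ι → Type} [∀ x, Fintype (I x)] [∀ x, DecidableEq (I x)] {K : Ctx I}
    {φ ψ : R K} (h : Ginv φ ψ) : ∃ Ψ, Inv (blk (dbl φ ψ)) Ψ :=
  ⟨_, blk_hom.inv blk_one (dbl_inv h)⟩

/-- induction on `n` (two steps), for all `I, c, K`.  With `ψ = ginv φ`: `nu_eq_mu` for `F'` and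
`F`; then `res_stage`/`nu_res` from `coord F _` to `coord F' _` (`coordR_le`) and the induction
hypothesis for the regular element `stage (coord F _) _ (blk (dbl φ ψ))`. -/
theorem nu_mono {F F' : Filter ι} (hF : F' ≤ F) (n : ℕ) {I : ι → Type} [∀ x, Fintype (I x)]
    [∀ x, DecidableEq (I x)] (c : ∀ x, I x → Fin n → ℝ) {K : Ctx I} (hK : K.Le (coord F c))
    {φ : R K} (r : Reg φ) : nu F' n c φ =ᶠ[F'] nu F n c φ := by
  induction n using Nat.twoStepInduction generalizing I with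
  | zero => exact EventuallyEq.rfl
  | one => exact EventuallyEq.rfl
  | more n ih _ =>
    have hg := r.ginv
    obtain ⟨Ψ, hΨ⟩ := crob_inv hg
    have hK2 := hK.coord_comap (Q := fun x => I x × Fin 2) fun _ p => p.1
    have hle := coordR_le hF (le_refl 10) fun x (p : I x × Fin 2) => tl (c x p.1)
    refine ((pk F' n).nu_eq_mu (hK.trans (coordR_le hF le_rfl c)) hg).trans
      (EventuallyEq.trans ?_ (((pk F n).nu_eq_mu hK hg).filter_mono hF).symm)
    unfold mu
    rw [← res_stage (admS_coord hK2) hle]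
    exact (nu_res (hle.comap _) (Ctx.Le.refl _) _).trans
      (ih _ (Ctx.Le.refl _) (stage_reg_coord hK2 hΨ))

/-- the joint context of two coordinate systems -/
noncomputable def crobJ {P : ι → Type} {n : ℕ} (F : Filter ι) (c c' : ∀ x, P x → Fin n → ℝ) :
    Ctx P where
  F := F
  d x a b := max ((coord F c).d x a b) ((coord F c').d x a b)
  dep x a := max ((coord F c).dep x a) ((coord F c').dep x a)
  d_self x a := by rw [Ctx.d_self, Ctx.d_self, max_self]
  d_symm x a b := by rw [(coord F c).d_symm, (coord F c').d_symm]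
  d_tri x a b e := max_le
    (((coord F c).d_tri x a b e).trans (add_le_add (le_max_left _ _) (le_max_left _ _)))
    (((coord F c').d_tri x a b e).trans (add_le_add (le_max_right _ _) (le_max_right _ _)))
  dep_lip x a b := max_le
    (((coord F c).dep_lip x a b).trans (add_le_add (le_max_left _ _) (le_max_left _ _)))
    (((coord F c').dep_lip x a b).trans (add_le_add (le_max_right _ _) (le_max_right _ _)))

section

variable {P : ι → Type} {n : ℕ} {F : Filter ι}

theorem crobJ_left (c c' : ∀ x, P x → Fin n → ℝ) : (crobJ F c c').Le (coord F c) :=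
  ⟨le_rfl, fun _ hS ε hε => (hS ε hε).mono fun _ hx a b h => (le_max_left _ _).trans_lt (hx a b h),
    fun _ hS ε hε => (hS ε hε).mono fun _ hx a h => (le_max_left _ _).trans_lt (hx a h)⟩

theorem crobJ_right (c c' : ∀ x, P x → Fin n → ℝ) : (crobJ F c c').Le (coord F c') :=
  ⟨le_rfl, fun _ hS ε hε => (hS ε hε).mono fun _ hx a b h => (le_max_right _ _).trans_lt (hx a b h),
    fun _ hS ε hε => (hS ε hε).mono fun _ hx a h => (le_max_right _ _).trans_lt (hx a h)⟩

theorem crobJ_smR {c c' : ∀ x, P x → Fin n → ℝ} {S : ∀ x, P x → P x → Prop}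
    (h : (coord F c).SmR S) (h' : (coord F c').SmR S) : (crobJ F c c').SmR S := fun ε hε =>
  ((h ε hε).and (h' ε hε)).mono fun _ hx a b h1 => max_lt (hx.1 a b h1) (hx.2 a b h1)

theorem crobJ_smS {c c' : ∀ x, P x → Fin n → ℝ} {S : ∀ x, P x → Prop}
    (h : (coord F c).SmS S) (h' : (coord F c').SmS S) : (crobJ F c c').SmS S := fun ε hε =>
  ((h ε hε).and (h' ε hε)).mono fun _ hx a h1 => max_lt (hx.1 a h1) (hx.2 a h1)

theorem le_crobJ {c c' : ∀ x, P x → Fin n → ℝ} {K : Ctx P} (h : K.Le (coord F c))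
    (h' : K.Le (coord F c')) : K.Le (crobJ F c c') :=
  ⟨h.F, fun S hS => crobJ_smR (h.smR S hS) (h'.smR S hS),
    fun S hS => crobJ_smS (h.smS S hS) (h'.smS S hS)⟩

theorem crob_dist_hd (u v : Fin (n + 2) → ℝ) : dist (hd u) (hd v) ≤ ‖u - v‖ := by
  rw [← dist_eq_norm, Prod.dist_eq]
  exact max_le (dist_le_pi_dist u v 0) (dist_le_pi_dist u v 1)

theorem crob_tl (u v : Fin (n + 2) → ℝ) : ‖tl u - tl v‖ ≤ ‖u - v‖ :=
  (pi_norm_le_iff_of_nonneg (norm_nonneg _)).2 fun k => norm_le_pi_norm (u - v) k.succ.succ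

theorem crob_norm_le (u : Fin (n + 2) → ℝ) : ‖u‖ ≤ max ‖hd u‖ ‖tl u‖ := by
  refine (pi_norm_le_iff_of_nonneg (le_max_of_le_left (norm_nonneg _))).2 fun k => ?_
  refine Fin.cases ?_ (Fin.cases ?_ fun k => ?_) k
  · exact le_max_of_le_left (norm_fst_le (hd u))
  · exact le_max_of_le_left (norm_snd_le (hd u))
  · exact le_max_of_le_right (norm_le_pi_norm (tl u) k)

theorem crob_smS {K : Ctx P} {c : ∀ x, P x → Fin (n + 2) → ℝ} (hK : K.Le (coord F c))
    {w : ∀ x, P x → ℝ × ℝ} (hw : ∀ᶠ x in F, ∀ a, dist (hd (c x a)) (w x a) ≤ 1 / 10)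
    {Z : ∀ x, P x → Prop} (hZ : K.SmS Z) :
    (coord F fun x a => tl (c x a)).SmS fun x a => Z x a ∧ ‖w x a‖ ≤ 9 := by
  intro ε hε
  filter_upwards [hK.smS Z hZ ε hε, hK.smS Z hZ (1 / 2) (by norm_num), hw] with x h1 h2 h3 a ha
  have h4 : 10 - ‖c x a‖ < ε := h1 a ha.1
  have h5 : 10 - ‖c x a‖ < 1 / 2 := h2 a ha.1
  have h6 := norm_sub_norm_le (hd (c x a)) (w x a)
  rw [← dist_eq_norm] at h6
  have h7 := h3 a
  have h8 := ha.2
  change 10 - ‖tl (c x a)‖ < ε
  rcases le_max_iff.1 (crob_norm_le (c x a)) with h | h <;> linarith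

end

/-- induction on `n`.  WLOG (`nu_res`) `K` is the joint context (filter `F`, metric the max of the
`c`- and `c'`-distances, depth the max of the two depths).  Let `Φ = blk (dbl φ ψ)` on `I × Fin 2` and let `K₂` be the joint tail context
(filter `F`, metric the max of the two `tl`-distances, depth the max of the two `tl`-depths); then
`AdmS (K.prod _) K₂ (hd c)`, `AdmS (K.prod _) K₂ (hd c')` (if both `‖c‖, ‖c'‖ > 10 - ε` and
`‖hd c‖ ≤ 9` then both tails have norm `> 10 - ε`), `K₂.Le` both tail coordinate contexts.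
`stage_cmp` with `u = v = 1` gives `X`; use `Pk.rel`, `nu_res`, `res_stage`, and the induction
hypothesis for `X`. -/
theorem nu_rob {F : Filter ι} (n : ℕ) {I : ι → Type} [∀ x, Fintype (I x)]
    [∀ x, DecidableEq (I x)] (c c' : ∀ x, I x → Fin n → ℝ) {K : Ctx I} (hK : K.Le (coord F c))
    (hK' : K.Le (coord F c')) (hc : ∀ᶠ x in F, ∀ a, ‖c x a - c' x a‖ ≤ 1 / 10) {φ : R K}
    (r : Reg φ) : nu F n c φ =ᶠ[F] nu F n c' φ := by
  induction n using Nat.twoStepInduction generalizing I with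
  | zero => exact EventuallyEq.rfl
  | one => exact EventuallyEq.rfl
  | more n ih _ =>
    have hJ := le_crobJ hK hK'
    have l1 := crobJ_left (F := F) c c'
    have l2 := crobJ_right (F := F) c c'
    have hg := ((res_hom hJ).reg (by simp) r).ginv
    obtain ⟨Ψ, hΨ⟩ := crob_inv hg
    refine (nu_res hJ l1 φ).symm.trans (EventuallyEq.trans ?_ (nu_res hJ l2 φ))
    refine ((pk F n).nu_eq_mu l1 hg).trans (EventuallyEq.trans ?_ ((pk F n).nu_eq_mu l2 hg).symm)
    have m1 := l1.coord_comap (Q := fun x => I x × Fin 2) fun _ p => p.1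
    have m2 := l2.coord_comap (Q := fun x => I x × Fin 2) fun _ p => p.1
    have a1 := admS_coord m1
    have a2 := admS_coord m2
    have t1 := crobJ_left (F := F) (fun x (p : I x × Fin 2) => tl (c x p.1))
      fun x p => tl (c' x p.1)
    have t2 := crobJ_right (F := F) (fun x (p : I x × Fin 2) => tl (c x p.1))
      fun x p => tl (c' x p.1)
    have hw : ∀ᶠ x in F, ∀ p : I x × Fin 2, dist (hd (c x p.1)) (hd (c' x p.1)) ≤ 1 / 10 :=
      hc.mono fun x hx p => (crob_dist_hd _ _).trans (hx p.1)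
    have b1 : AdmS _ (crobJ F (fun x (p : I x × Fin 2) => tl (c x p.1)) fun x p => tl (c' x p.1))
        fun x p => hd (c x p.1) :=
      ⟨a1.F, fun S hS => crobJ_smR (a1.smR S hS) (a2.smR S hS), a1.wc, fun Z hZ =>
        crobJ_smS (a1.smS Z hZ) (crob_smS m2 (hw.mono fun x hx p => (dist_comm _ _).trans_le (hx p)) hZ)⟩
    have b2 : AdmS _ (crobJ F (fun x (p : I x × Fin 2) => tl (c x p.1)) fun x p => tl (c' x p.1))
        fun x p => hd (c' x p.1) :=
      ⟨a2.F, fun S hS => crobJ_smR (a1.smR S hS) (a2.smR S hS), a2.wc, fun Z hZ =>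
        crobJ_smS (crob_smS m1 hw hZ) (a2.smS Z hZ)⟩
    obtain ⟨r1, r2, X, rX, q1, q2⟩ := stage_cmp (le_refl F) b1 b2 hw hΨ (mul_one 1) (mul_one 1)
    rw [star_one, one_mul, mul_one] at r2 q2
    have s1 := t1.coord_comap (Q := fun x => (I x × Fin 2) × Fin 2) fun _ p => p.1
    have s2 := t2.coord_comap (Q := fun x => (I x × Fin 2) × Fin 2) fun _ p => p.1
    unfold mu
    rw [← res_stage b1 t1, ← res_stage b2 t2]
    exact (nu_res (t1.comap _) (Ctx.Le.refl _) _).trans (((pk F n).rel s1 r1 rX q1).trans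
      ((ih _ _ s1 s2 (hc.mono fun x hx p => (crob_tl _ _).trans (hx p.1.1)) rX).trans
        (((pk F n).rel s2 r2 rX q2).symm.trans (nu_res (t2.comap _) (Ctx.Le.refl _) _).symm)))

/-- finitely many steps `t = k / N` of `nu_rob` (the path is Lipschitz in `t`, uniformly) -/
theorem nu_move {F : Filter ι} (n : ℕ) {I : ι → Type} [∀ x, Fintype (I x)]
    [∀ x, DecidableEq (I x)] (f : ∀ x, I x → Fin n → ℝ) (C : ℝ) (hf : ∀ᶠ x in F, ∀ a, ‖f x a‖ ≤ C)
    (b : Fin n → ℝ) {ρ : ℝ} (hρ : 0 < ρ) (hρ1 : ρ ≤ 1) {K : Ctx I}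
    (hK : ∀ t ∈ Set.Icc (0 : ℝ) 1,
      K.Le (coord F fun x a => (1 + t * (ρ - 1))⁻¹ • (f x a - t • b))) {φ : R K} (r : Reg φ) :
    nu F n (fun x a => ρ⁻¹ • (f x a - b)) φ =ᶠ[F] nu F n f φ := by
  have key := isPreconnected_Icc.induction₂' (s := Set.Icc (0 : ℝ) 1)
    (fun s t => nu F n (fun x a => (1 + s * (ρ - 1))⁻¹ • (f x a - s • b)) φ =ᶠ[F]
      nu F n (fun x a => (1 + t * (ρ - 1))⁻¹ • (f x a - t • b)) φ) (fun s hs => ?_)
    (fun _ _ _ _ _ _ h1 h2 => h1.trans h2) (Set.right_mem_Icc.2 zero_le_one)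
    (Set.left_mem_Icc.2 zero_le_one)
  · simpa using key
  have h0 : 1 + s * (ρ - 1) ≠ 0 := by nlinarith [hs.1, hs.2]
  have hc : ContinuousAt (fun t : ℝ => |(1 + s * (ρ - 1))⁻¹ - (1 + t * (ρ - 1))⁻¹| * C +
      |(1 + s * (ρ - 1))⁻¹ * s - (1 + t * (ρ - 1))⁻¹ * t| * ‖b‖) s := by
    fun_prop (disch := exact h0)
  have h1 := hc.eventually_lt (continuousAt_const (y := (1 / 10 : ℝ))) (by simp)
  filter_upwards [self_mem_nhdsWithin, nhdsWithin_le_nhds h1] with t ht h2
  have h3 := nu_rob n _ _ (hK s hs) (hK t ht) (hf.mono fun x hx a => ?_) r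
  · exact ⟨h3, h3.symm⟩
  refine le_trans ?_ (le_of_lt h2)
  have e : (1 + s * (ρ - 1))⁻¹ • (f x a - s • b) - (1 + t * (ρ - 1))⁻¹ • (f x a - t • b) =
      ((1 + s * (ρ - 1))⁻¹ - (1 + t * (ρ - 1))⁻¹) • f x a -
        ((1 + s * (ρ - 1))⁻¹ * s - (1 + t * (ρ - 1))⁻¹ * t) • b := by
    simp only [smul_sub, sub_smul, mul_smul]
    abel
  rw [e]
  refine (norm_sub_le _ _).trans ?_
  rw [norm_smul, norm_smul, Real.norm_eq_abs, Real.norm_eq_abs]
  have := hx a
  gcongr

section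

variable {I J L : ι → Type} [∀ x, Fintype (I x)] [∀ x, DecidableEq (I x)] [∀ x, Fintype (J x)]
  [∀ x, DecidableEq (J x)] [∀ x, Fintype (L x)] [∀ x, DecidableEq (L x)] {K : Ctx I}

theorem crob_adm {N : ∀ x, I x → I x → Prop} : Adm K K N := (Ctx.Le.refl K).adm N

theorem crob_near {p : ι → Prop} (h : ∀ᶠ x in K.F, p x) : Near K K fun x _ _ => p x :=
  Near.of_eps le_rfl fun _ _ => ⟨1, one_pos, h.mono fun _ hx _ _ _ _ => hx⟩

theorem crob_reg {φ : R K} (r : Reg φ) (G : ∀ x, Matrix (J x) (J x) ℂ)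
    (hG : ∀ x, star (G x) = G x) : Reg (had K (fun x _ _ => G x) φ) := by
  choose H hH using fun x => (reg_of_herm (hG x)).2
  obtain ⟨h1, ψ, h2⟩ := r
  refine ⟨?_, had K (fun x _ _ => H x) ψ, ?_⟩
  · rw [had_star (k' := fun x _ _ => G x) crob_adm crob_adm (Near.of_forall fun x _ _ => hG x), h1]
  · rw [had_mul (k'' := fun x _ _ => G x * H x) crob_adm crob_adm crob_adm
      (Near3.of_forall fun _ _ _ _ => rfl), had_mul (k'' := fun x _ _ => G x) crob_adm crob_adm
      crob_adm (Near3.of_forall fun x _ _ _ => hH x), h2]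

theorem crob_null (φ : R K) (G : ∀ x, Matrix (J x) (J x) ℂ) (hG : ∀ᶠ x in K.F, Null (G x)) :
    Null (had K (fun x _ _ => G x) φ) := by
  have h0 : ∀ x, ∃ e, Null (G x) → star e * G x * e = 0 ∧ G x = G x * e + star e * G x := fun x => by
    by_cases h : Null (G x)
    · exact h.imp fun e he _ => he
    · exact ⟨0, fun h' => (h h').elim⟩
  choose e he using h0
  refine ⟨bdg K fun x _ => e x, ?_, ?_⟩
  · rw [bdg_star, bdg_had_bdg crob_adm, ← had_zero_ker (J := J) φ]
    exact had_congr crob_adm crob_adm (crob_near (hG.mono fun x hx => (he x hx).1)) φ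
  · have h1 := bdg_had_bdg (K := K) (K' := K) (k := fun x _ _ => G x) crob_adm (fun _ _ => 1)
      (fun x _ => e x) φ
    have h2 := bdg_had_bdg (K := K) (K' := K) (k := fun x _ _ => G x) crob_adm
      (fun x _ => star (e x)) (fun _ _ => 1) φ
    rw [bdg_one, one_mul] at h1
    rw [bdg_one, mul_one] at h2
    rw [bdg_star, h1, h2, ← had_add_ker crob_adm crob_adm]
    refine had_congr crob_adm crob_adm (crob_near (hG.mono fun x hx => ?_)) φ
    rw [one_mul, mul_one]
    exact (he x hx).2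

/-- `id × inl` -/
def crobL (I J L : ι → Type) (x : ι) : I x × J x ↪ I x × (J x ⊕ L x) :=
  ⟨fun p => (p.1, Sum.inl p.2), fun _ _ h =>
    Prod.ext (Prod.mk.inj h).1 (Sum.inl_injective (Prod.mk.inj h).2)⟩

/-- `id × inr` -/
def crobR (I J L : ι → Type) (x : ι) : I x × L x ↪ I x × (J x ⊕ L x) :=
  ⟨fun p => (p.1, Sum.inr p.2), fun _ _ h =>
    Prod.ext (Prod.mk.inj h).1 (Sum.inr_injective (Prod.mk.inj h).2)⟩

theorem crob_leL : (K.prod J).Le ((K.prod fun x => J x ⊕ L x).comap fun x => crobL I J L x) :=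
  Ctx.Le.refl _

theorem crob_leR : (K.prod L).Le ((K.prod fun x => J x ⊕ L x).comap fun x => crobR I J L x) :=
  Ctx.Le.refl _

theorem crob_split (φ : R K) (G : ∀ x, Matrix (J x) (J x) ℂ) (B : ∀ x, Matrix (L x) (L x) ℂ) :
    had K (fun x _ _ => Matrix.fromBlocks (G x) 0 0 (B x)) φ =
      tr (K.prod fun x => J x ⊕ L x) (crobL I J L) (had K (fun x _ _ => G x) φ) +
      tr (K.prod fun x => J x ⊕ L x) (crobR I J L) (had K (fun x _ _ => B x) φ) := by
  obtain ⟨M, hM, rfl⟩ := exists_mk φ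
  rw [had_mk crob_adm hM, had_mk crob_adm hM, had_mk crob_adm hM,
    tr_mk crob_leL (hM.had crob_adm), tr_mk crob_leR (hM.had crob_adm),
    ← mk_add ((hM.had crob_adm).tr crob_leL) ((hM.had crob_adm).tr crob_leR)]
  refine bh_ext fun x p q => ?_
  have h1 : hadM (fun _ _ => Matrix.fromBlocks (G x) 0 0 (0 : Matrix (L x) (L x) ℂ)) (M x) =
      trM (crobL I J L x) (hadM (fun _ _ => G x) (M x)) := by
    refine bh_trM _ (fun _ _ => rfl) ?_ ?_
    · rintro ⟨a, s | s⟩ ⟨b, t | t⟩ h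
      · exact (h (a, s) rfl).elim
      · exact (h (a, s) rfl).elim
      · simp [hadM]
      · simp [hadM]
    · rintro ⟨a, s | s⟩ ⟨b, t | t⟩ h
      · exact (h (b, t) rfl).elim
      · simp [hadM]
      · exact (h (b, t) rfl).elim
      · simp [hadM]
  have h2 : hadM (fun _ _ => Matrix.fromBlocks (0 : Matrix (J x) (J x) ℂ) 0 0 (B x)) (M x) =
      trM (crobR I J L x) (hadM (fun _ _ => B x) (M x)) := by
    refine bh_trM _ (fun _ _ => rfl) ?_ ?_
    · rintro ⟨a, s | s⟩ ⟨b, t | t⟩ h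
      · simp [hadM]
      · simp [hadM]
      · exact (h (a, s) rfl).elim
      · exact (h (a, s) rfl).elim
    · rintro ⟨a, s | s⟩ ⟨b, t | t⟩ h
      · simp [hadM]
      · exact (h (b, t) rfl).elim
      · simp [hadM]
      · exact (h (b, t) rfl).elim
  rw [Pi.add_apply, ← h1, ← h2]
  obtain ⟨a, s | s⟩ := p <;> obtain ⟨b, t | t⟩ := q <;> simp [hadM]

theorem crob_one (φ : R K) : had K (fun _ _ _ => (1 : Matrix (Fin 2) (Fin 2) ℂ)) φ =
    blk (!![φ, 0; 0, φ] : Matrix (Fin 2) (Fin 2) (R K)) := by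
  obtain ⟨M, hM, rfl⟩ := exists_mk φ
  have h1 : (!![mk K M, 0; 0, mk K M] : Matrix (Fin 2) (Fin 2) (R K)) =
      (!![M, 0; 0, M] : Matrix (Fin 2) (Fin 2) (MF I)).map (mk K) := by
    ext s t
    fin_cases s <;> fin_cases t <;> simp [mk_zero]
  rw [had_mk crob_adm hM, h1, blk_mk fun s t => by
    fin_cases s <;> fin_cases t <;> first | exact hM | exact mc_zero]
  refine bh_ext fun x ⟨a, s⟩ ⟨b, t⟩ => ?_
  fin_cases s <;> fin_cases t <;> simp [hadM]

theorem crob_add {F : Filter ι} {n : ℕ} {c : ∀ x, I x → Fin n → ℝ} (hK : K.Le (coord F c))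
    {φ : R K} (r : Reg φ) (G : ∀ x, Matrix (J x) (J x) ℂ) (B : ∀ x, Matrix (L x) (L x) ℂ)
    (hG : ∀ x, star (G x) = G x) (hB : ∀ x, star (B x) = B x) :
    nu F n (I := fun x => I x × (J x ⊕ L x)) (fun x a => c x a.1)
      (had K (fun x _ _ => Matrix.fromBlocks (G x) 0 0 (B x)) φ) =ᶠ[F]
      nu F n (I := fun x => I x × J x) (fun x a => c x a.1) (had K (fun x _ _ => G x) φ) +
      nu F n (I := fun x => I x × L x) (fun x a => c x a.1) (had K (fun x _ _ => B x) φ) := by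
  have hK' := hK.coord_comap (Q := fun x => I x × (J x ⊕ L x)) fun _ p => p.1
  have r1 := crob_reg r G hG
  have r2 := crob_reg r B hB
  have e : 1 - chi (K.prod fun x => J x ⊕ L x) (fun x b => ∃ a, crobL I J L x a = b) =
      chi (K.prod fun x => J x ⊕ L x) fun x b => ∃ a, crobR I J L x a = b := by
    rw [← chi_not]
    congr 1
    funext x ⟨a, s⟩
    rcases s with s | s
    · exact propext ⟨fun h => (h ⟨(a, s), rfl⟩).elim,
        fun ⟨_, h⟩ => (Sum.inr_ne_inl (Prod.mk.inj h).2).elim⟩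
    · exact propext ⟨fun _ => ⟨(a, s), rfl⟩,
        fun _ ⟨_, h⟩ => (Sum.inl_ne_inr (Prod.mk.inj h).2).elim⟩
  rw [crob_split]
  refine ((pk F n).add _ hK' (fun x b => ∃ a, crobL I J L x a = b)
    ((tr_hom crob_leL).reg (by simp) r1) ((tr_hom crob_leR).reg (by simp) r2) ?_ ?_).trans
    (((pk F n).ext _ _ hK' crob_leL r1).add ((pk F n).ext _ _ hK' crob_leR r2))
  · rw [← tr_one crob_leL, ← tr_mul crob_leL, ← tr_mul crob_leL, one_mul, mul_one]
  · rw [e, ← tr_one crob_leR, ← tr_mul crob_leR, ← tr_mul crob_leR, one_mul, mul_one]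

end

/-- Kronecker product with a family of Hermitian matrices of signature `4 ε` (= two copies of `ε`).
WLOG `K = coord F c` (`nu_res`, `res_had`, `had_res`).  `G' x = fromBlocks (G x) 0 0 (-ε • 1)` on
`J x ⊕ Fin 2` has signature `0`, hence is `Null` eventually (`null_of_sig_zero`, witness `e x`); so
`had K G' φ` is `Null` (witness `bdg K e`, `bdg_had_bdg`) and `Reg` (`reg_of_herm`, `had_mul`).
It is the orthogonal sum of `tr inl (had K G φ)` and `tr inr (blk (diag (-ε φ, -ε φ)))`. -/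
theorem nu_kron {F : Filter ι} (n : ℕ) {I J : ι → Type} [∀ x, Fintype (I x)]
    [∀ x, DecidableEq (I x)] [∀ x, Fintype (J x)] [∀ x, DecidableEq (J x)]
    (c : ∀ x, I x → Fin n → ℝ) {K : Ctx I} (hK : K.Le (coord F c)) {φ : R K} (r : Reg φ)
    (G : ∀ x, Matrix (J x) (J x) ℂ) (hG : ∀ x, star (G x) = G x) (ε : ℤ) (hε : ε = 1 ∨ ε = -1)
    (hs : ∀ᶠ x in F, sig (G x) = 4 * ε) :
    Reg (had K (fun x _ _ => G x) φ) ∧
    nu F n (I := fun x => I x × J x) (fun x a => c x a.1) (had K (fun x _ _ => G x) φ) =ᶠ[F]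
      fun x => 2 * ε * nu F n c φ x := by
  refine ⟨crob_reg r G hG, ?_⟩
  have r0 := (res_hom hK).reg (by simp) r
  have h0 := Ctx.Le.refl (coord F c)
  have h1 := nu_res hK h0 φ
  have h2 := nu_res (F := F) (c := fun x (a : I x × J x) => c x a.1) (hK.comap fun _ p => p.1)
    (Ctx.Le.refl _) (had K (fun x _ _ => G x) φ)
  rw [res_had crob_adm hK, ← had_res hK crob_adm] at h2
  generalize res (coord F c) φ = φ₀ at r0 h1 h2
  have h3 := (pk F n).diag h0 r0 r0
  rw [← crob_one] at h3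
  obtain ⟨B, hB, hB1, hB2⟩ : ∃ B : Matrix (Fin 2) (Fin 2) ℂ, star B = B ∧ sig B = -(4 * ε) ∧
      nu F n (I := fun x => I x × Fin 2) (fun x a => c x a.1)
        (had (coord F c) (fun _ _ _ => B) φ₀) =ᶠ[F] fun x => -(2 * ε * nu F n c φ₀ x) := by
    rcases hε with rfl | rfl
    · refine ⟨-1, by simp, by rw [sig_neg, sig_one_two]; rfl, ?_⟩
      rw [had_neg_ker crob_adm]
      refine ((pk F n).neg _ (h0.coord_comap _) (crob_reg r0 _ fun _ => star_one _)).trans ?_
      filter_upwards [h3] with x hx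
      rw [Pi.neg_apply, hx, Pi.add_apply]
      ring
    · refine ⟨1, star_one _, by rw [sig_one_two]; rfl, ?_⟩
      filter_upwards [h3] with x hx
      rw [hx, Pi.add_apply]
      ring
  have hG' : ∀ x, star (Matrix.fromBlocks (G x) 0 0 B) = Matrix.fromBlocks (G x) 0 0 B :=
    fun x => Matrix.IsHermitian.fromBlocks (hG x) (by simp) hB
  have h4 := (pk F n).null (fun x (a : I x × (J x ⊕ Fin 2)) => c x a.1) (h0.coord_comap _)
    (crob_reg r0 _ hG') (crob_null φ₀ _ (hs.mono fun x hx => null_of_sig_zero (hG' x) (by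
      rw [sig_fromBlocks (hG x) hB, hx, hB1, add_neg_cancel])))
  have h5 := crob_add (L := fun _ => Fin 2) h0 r0 G (fun _ => B) hG fun _ => hB
  filter_upwards [h1, h2, hB2, h4, h5] with x e1 e2 e3 e4 e5
  rw [e4, Pi.add_apply, e2, e3, e1, Pi.zero_apply] at e5
  linarith

end Crest.Agent.R217
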