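import Crest.Agent.R217.CGeo
import Crest.Agent.R217.BHad
import Crest.Agent.R217.A2

/-! Row 217, part C: the stage map. -/

set_option autoImplicit false

namespace Crest.Agent.R217

open Filter Topology

variable {ι : Type} {I J : ι → Type} [∀ x, Fintype (I x)] [∀ x, DecidableEq (I x)]
  [∀ x, Fintype (J x)] [∀ x, DecidableEq (J x)]

theorem cs_tl {n : ℕ} (c : Fin (n + 2) → ℝ) : ‖tl c‖ ≤ ‖c‖ :=
  (pi_norm_le_iff_of_nonneg (norm_nonneg _)).2 fun _ => norm_le_pi_norm c _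

theorem cs_hd {n : ℕ} (c : Fin (n + 2) → ℝ) : ‖hd c‖ ≤ ‖c‖ :=
  max_le (norm_le_pi_norm c 0) (norm_le_pi_norm c 1)

theorem cs_max {n : ℕ} (c : Fin (n + 2) → ℝ) : ‖c‖ ≤ max ‖hd c‖ ‖tl c‖ := by
  refine (pi_norm_le_iff_of_nonneg (le_max_of_le_left (norm_nonneg _))).2 fun i => ?_
  refine Fin.cases ?_ (fun i => Fin.cases ?_ (fun i => ?_) i) i
  · exact le_max_of_le_left (norm_fst_le (hd c))
  · exact le_max_of_le_left (norm_snd_le (hd c))
  · exact le_max_of_le_right (norm_le_pi_norm (tl c) i)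

theorem cs_kM {a b : ℝ × ℝ} (h : kM a b ≠ 0) : ‖a‖ ≤ 9 := by
  by_contra hc
  refine h (if_neg fun h1 => hc ?_)
  linarith [h1.1.2.2]

section

variable {P Q : ι → Type} {K K' : Ctx P} {w : ∀ x, P x → ℝ × ℝ}

theorem AdmS.adm (h : AdmS K K' w) : Adm K K' fun x a b => kM (w x a) (w x b) ≠ 0 :=
  ⟨h.F, fun S hS => (h.smR S hS).mono (.of_forall fun _ _ _ h => h.1),
    fun _ _ hS => (h.smS _ hS).mono (.of_forall fun _ _ ⟨b, h1, h2⟩ => ⟨⟨b, h1⟩, cs_kM h2⟩)⟩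

theorem AdmS.le {K₀ K₁ : Ctx P} (h : AdmS K K' w) (h0 : K₀.Le K) (h1 : K'.Le K₁) : AdmS K₀ K₁ w :=
  ⟨h1.F.trans (h.F.trans h0.F), fun S hS => h1.smR _ (h.smR S (h0.smR S hS)),
    fun S hS ε hε => h1.F (h.wc S (h0.smR S hS) ε hε), fun Z hZ => h1.smS _ (h.smS Z (h0.smS Z hZ))⟩

theorem AdmS.comap (h : AdmS K K' w) (f : ∀ x, Q x → P x) :
    AdmS (K.comap f) (K'.comap f) fun x a => w x (f x a) :=
  ⟨h.F, fun _ hS => bd_smR.2 (h.smR _ (bd_smR.1 hS)),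
    fun _ hS ε hε => (h.wc _ (bd_smR.1 hS) ε hε).mono fun _ hx a b h1 =>
      hx _ _ ⟨a, b, h1, rfl, rfl⟩,
    fun _ hZ ε hε => (h.smS _ (bd_smS.1 hZ) ε hε).mono fun _ hx a h1 =>
      hx _ ⟨⟨a, h1.1, rfl⟩, h1.2⟩⟩

/-- sup norm: `‖c‖ = max ‖hd c‖ ‖tl c‖` -/
theorem admS_coord {n : ℕ} {F : Filter ι} {c : ∀ x, P x → Fin (n + 2) → ℝ}
    (h : K.Le (coord F c)) : AdmS K (coord F fun x a => tl (c x a)) fun x a => hd (c x a) := by
  refine ⟨h.F, fun S hS ε hε => (h.smR S hS ε hε).mono fun x hx a b h1 => ?_,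
    fun S hS ε hε => (h.smR S hS ε hε).mono fun x hx a b h1 => ?_,
    fun Z hZ ε hε => (h.smS Z hZ _ (lt_min hε one_pos)).mono fun x hx a h1 => ?_⟩
  · exact (cs_tl (c x a - c x b)).trans_lt (hx a b h1)
  · rw [dist_eq_norm]
    exact (cs_hd (c x a - c x b)).trans_lt (hx a b h1)
  · have h2 : 10 - ‖c x a‖ < min ε 1 := hx a h1.1
    rw [lt_min_iff] at h2
    change 10 - ‖tl (c x a)‖ < ε
    rcases le_max_iff.1 (cs_max (c x a)) with h3 | h3 <;> linarith [h1.2, h2.1, h2.2]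

theorem Ctx.Le.coord_comap {n : ℕ} {F : Filter ι} {r : ℝ} {c : ∀ x, P x → Fin n → ℝ}
    (h : K.Le (coordR F r c)) (f : ∀ x, Q x → P x) :
    (K.comap f).Le (coordR F r fun x a => c x (f x a)) := h.comap f

theorem coordR_le {n : ℕ} {F F' : Filter ι} (hF : F' ≤ F) {r r' : ℝ} (hr : r' ≤ r)
    (c : ∀ x, P x → Fin n → ℝ) : (coordR F r c).Le (coordR F' r' c) :=
  ⟨hF, fun _ hS ε hε => hF (hS ε hε), fun _ hS ε hε => (hS ε hε).filter_mono hF |>.mono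
    fun _ hx a h1 => (sub_le_sub_right hr _).trans_lt (hx a h1)⟩

end

variable {K K' : Ctx I} {w w' : ∀ x, I x → ℝ × ℝ}

theorem stage_add (h : AdmS K K' w) (Φ Ψ : R K) :
    stage K' w (Φ + Ψ) = stage K' w Φ + stage K' w Ψ := had_add h.adm Φ Ψ

theorem stage_neg (h : AdmS K K' w) (Φ : R K) : stage K' w (-Φ) = -stage K' w Φ := had_neg h.adm Φ

theorem stage_star (h : AdmS K K' w) (Φ : R K) : star (stage K' w Φ) = stage K' w (star Φ) :=
  had_star h.adm h.adm (fun S hS _ _ => (h.wc S hS (1 / 4) (by norm_num)).mono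
    fun _ hx a ⟨b, h1, h2⟩ => (h2 (kM_star (hx a b h1).le)).elim) Φ

theorem stage_chi (h : AdmS K K' w) (p q : ∀ x, I x → Prop) (Φ : R K) :
    stage K' w (chi K p * Φ * chi K q) =
      chi _ (fun x a => p x a.1) * stage K' w Φ * chi _ fun x a => q x a.1 :=
  had_chi_chi h.adm p q Φ

theorem stage_res {K₀ : Ctx I} (h0 : K₀.Le K) (h : AdmS K K' w) (Φ : R K₀) :
    stage K' w (res K Φ) = stage K' w Φ := had_res h0 h.adm Φ

theorem res_stage {K₁ : Ctx I} (h : AdmS K K' w) (h1 : K'.Le K₁) (Φ : R K) :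
    res (K₁.prod fun _ => Fin 2) (stage K' w Φ) = stage K₁ w Φ := res_had h.adm h1 Φ

theorem stage_tr {K₁ K₁' : Ctx J} {w₁ : ∀ x, J x → ℝ × ℝ} {e : ∀ x, I x ↪ J x}
    (h : K.Le (K₁.comap fun x => e x)) (h₁ : AdmS K₁ K₁' w₁) (Φ : R K) :
    stage K₁' w₁ (tr K₁ e Φ) = tr (K₁'.prod fun _ => Fin 2) (embProd e fun _ => Fin 2)
      (stage (K₁'.comap fun x => e x) (fun x a => w₁ x (e x a)) Φ) :=
  had_tr (fun x a b => kM (w₁ x a) (w₁ x b)) h h₁.adm Φ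

/-- a form with a diagonal Lagrangian stays hyperbolic (`null_of_proj`, `stage_chi`) -/
theorem stage_null_chi (h : AdmS K K' w) (p : ∀ x, I x → Prop) {Φ : R K}
    (h1 : chi K p * Φ * chi K p = 0) (h2 : (1 - chi K p) * Φ * (1 - chi K p) = 0) :
    Null (stage K' w Φ) := by
  refine null_of_proj (chi_star fun x a => p x a.1) (chi_idem _) ?_ ?_
  · rw [← stage_chi h, h1]
    exact had_zero h.adm
  · rw [← chi_not] at h2 ⊢
    rw [← stage_chi h (fun x a => ¬p x a) fun x a => ¬p x a, h2]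
    exact had_zero h.adm

end Crest.Agent.R217
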