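import Crest.Agent.R217.CPk

/-! Row 217, part C: the induction step `Pk F n → Pk F (n+2)`. -/

set_option autoImplicit false

namespace Crest.Agent.R217

open Filter Topology

variable {ι : Type} {I J : ι → Type} [∀ x, Fintype (I x)] [∀ x, DecidableEq (I x)]
  [∀ x, Fintype (J x)] [∀ x, DecidableEq (J x)] {F : Filter ι} {n : ℕ}
  {K : Ctx I} {c : ∀ x, I x → Fin (n + 2) → ℝ}

theorem cstep_right {S : Type*} [Ring S] [StarRing S] [Algebra ℂ S] [StarModule ℂ S] {φ₁ φ₂ χ : S}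
    (hχ : star χ = χ) (hχχ : χ * χ = χ) (h1 : χ * φ₁ * χ = φ₁)
    (h2 : (1 - χ) * φ₂ * (1 - χ) = φ₂) (h : Reg (φ₁ + φ₂)) : Reg φ₂ := by
  refine Reg.left_of_add (χ := 1 - χ) (φ₂ := φ₁) ?_ ?_ h2 ?_ (by rwa [add_comm] at h)
  · rw [star_sub, star_one, hχ]
  · rw [sub_mul, one_mul, mul_sub, mul_one, hχχ]; simp
  · rw [sub_sub_cancel]; exact h1

theorem cstep_corner {S : Type*} [Ring S] {χ : S} {M : Matrix (Fin 2) (Fin 2) S}
    (h : ∀ i j, χ * M i j * χ = M i j) : !![χ, 0; 0, χ] * M * !![χ, 0; 0, χ] = M := by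
  ext i j
  fin_cases i <;> fin_cases j <;>
    simp [Matrix.mul_apply, Fin.sum_univ_two, Matrix.vecMul, dotProduct, h]

/-- orthogonal pieces of an invertible form: the two stages are orthogonal (`stage_chi`), regular
(`stage_reg_coord`, `Reg.left_of_add`), and `mu` is additive (`stage_add`, `hP.add`) -/
theorem Pk.mu_add (hP : Pk F n) (hK : K.Le (coord F c)) (p : ∀ x, I x → Prop) {Φ₁ Φ₂ Ψ : R K}
    (h : Inv (Φ₁ + Φ₂) Ψ) (h1 : chi K p * Φ₁ * chi K p = Φ₁)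
    (h2 : (1 - chi K p) * Φ₂ * (1 - chi K p) = Φ₂) :
    Reg (stage (coord F fun x a => tl (c x a)) (fun x a => hd (c x a)) Φ₁) ∧
    Reg (stage (coord F fun x a => tl (c x a)) (fun x a => hd (c x a)) Φ₂) ∧
    mu F n c (Φ₁ + Φ₂) =ᶠ[F] mu F n c Φ₁ + mu F n c Φ₂ := by
  have A := admS_coord hK
  have s1 := stage_chi A p p Φ₁
  rw [h1] at s1
  have s2 := stage_chi A (fun x a => ¬p x a) (fun x a => ¬p x a) Φ₂
  rw [chi_not, h2, chi_not] at s2
  have r := stage_reg_coord hK h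
  rw [stage_add A] at r
  have r1 := Reg.left_of_add (chi_star _) (chi_idem _) s1.symm s2.symm r
  have r2 := cstep_right (chi_star _) (chi_idem _) s1.symm s2.symm r
  refine ⟨r1, r2, ?_⟩
  unfold mu
  rw [stage_add A]
  exact hP.add _ (Ctx.Le.refl _) _ r1 r2 s1.symm s2.symm

/-- `stage_null_chi` with `blk_e0` -/
theorem Pk.mu_offdiag (hP : Pk F n) (hK : K.Le (coord F c)) (a b : R K)
    (hr : Reg (stage (coord F fun x (p : I x × Fin 2) => tl (c x p.1)) (fun x p => hd (c x p.1))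
      (blk (!![0, a; b, 0] : Matrix (Fin 2) (Fin 2) (R K))))) :
    mu F n (I := fun x => I x × Fin 2) (fun x p => c x p.1)
      (blk (!![0, a; b, 0] : Matrix (Fin 2) (Fin 2) (R K))) =ᶠ[F] 0 := by
  have hK' := hK.coord_comap (Q := fun x => I x × Fin 2) fun _ p => p.1
  refine hP.null _ (Ctx.Le.refl _) hr (stage_null_chi (admS_coord hK') (fun _ p => p.2 = 0) ?_ ?_)
  · rw [← blk_e0, ← blk_mul, ← blk_mul, ← blk_hom.zero]
    congr 1
    ext i j
    fin_cases i <;> fin_cases j <;> simp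
  · rw [← blk_e0, ← blk_one, ← blk_hom.sub, ← blk_mul, ← blk_mul, ← blk_hom.zero, Matrix.one_fin_two,
      a2_sub]
    congr 1
    ext i j
    fin_cases i <;> fin_cases j <;> simp

theorem Pk.cstep_blk (hP : Pk F n) (hK : K.Le (coord F c)) (p : ∀ x, I x → Prop)
    {D₁ D₂ Ψ : Matrix (Fin 2) (Fin 2) (R K)} (h : Inv (D₁ + D₂) Ψ)
    (h1 : !![chi K p, 0; 0, chi K p] * D₁ * !![chi K p, 0; 0, chi K p] = D₁)
    (h2 : (1 - !![chi K p, 0; 0, chi K p]) * D₂ * (1 - !![chi K p, 0; 0, chi K p]) = D₂) :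
    Reg (stage (coord F fun x (p : I x × Fin 2) => tl (c x p.1)) (fun x p => hd (c x p.1))
      (blk D₁)) ∧
    Reg (stage (coord F fun x (p : I x × Fin 2) => tl (c x p.1)) (fun x p => hd (c x p.1))
      (blk D₂)) ∧
    mu F n (I := fun x => I x × Fin 2) (fun x p => c x p.1) (blk (D₁ + D₂)) =ᶠ[F]
      mu F n (I := fun x => I x × Fin 2) (fun x p => c x p.1) (blk D₁) +
        mu F n (I := fun x => I x × Fin 2) (fun x p => c x p.1) (blk D₂) := by
  have hK' := hK.coord_comap (Q := fun x => I x × Fin 2) fun _ p => p.1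
  have hi := blk_hom.inv blk_one h
  rw [blk_add] at hi ⊢
  refine hP.mu_add hK' (fun x a => p x a.1) hi ?_ ?_
  · rw [← blk_diag_chi, ← blk_mul, ← blk_mul, h1]
  · rw [← blk_diag_chi, ← blk_one, ← blk_hom.sub, ← blk_mul, ← blk_mul, h2]

theorem cstep_off1 {S : Type*} [Ring S] {χ : S} (h : χ * χ = χ) :
    (!![χ, 0; 0, χ] : Matrix (Fin 2) (Fin 2) S) * !![0, χ; χ, 0] * !![χ, 0; 0, χ] =
      !![0, χ; χ, 0] := by
  ext i j
  fin_cases i <;> fin_cases j <;> simp [h]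

theorem cstep_off2 {S : Type*} [Ring S] {χ : S} (h : χ * χ = χ) :
    (1 - !![χ, 0; 0, χ] : Matrix (Fin 2) (Fin 2) S) * !![0, 1 - χ; 1 - χ, 0] * (1 - !![χ, 0; 0, χ]) =
      !![0, 1 - χ; 1 - χ, 0] := by
  have h' : (1 - χ) * (1 - χ) = 1 - χ := by rw [sub_mul, one_mul, mul_sub, mul_one, h]; simp
  have : (1 - !![χ, 0; 0, χ] : Matrix (Fin 2) (Fin 2) S) = !![1 - χ, 0; 0, 1 - χ] := by
    ext i j
    fin_cases i <;> fin_cases j <;> simp
  rw [this]
  exact cstep_off1 h'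

/-- `dbl_orth`, `blk_diag_chi`, `mu_add` three times, `mu_offdiag` twice -/
theorem Pk.step_add (hP : Pk F n) (hK : K.Le (coord F c)) (p : ∀ x, I x → Prop) {φ₁ φ₂ : R K}
    (r1 : Reg φ₁) (r2 : Reg φ₂) (h1 : chi K p * φ₁ * chi K p = φ₁)
    (h2 : (1 - chi K p) * φ₂ * (1 - chi K p) = φ₂) :
    nu F (n + 2) c (φ₁ + φ₂) =ᶠ[F] nu F (n + 2) c φ₁ + nu F (n + 2) c φ₂ := by
  obtain ⟨ψ₁, ψ₂, g1, g2, g, D₁, D₂, d1, d2, e, e1, e2⟩ :=
    dbl_orth (chi_star p) (chi_idem p) h1 h2 r1 r2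
  have n0 := hP.nu_eq_mu hK g
  have n1 := hP.nu_eq_mu hK g1
  have n2 := hP.nu_eq_mu hK g2
  have i0 := dbl_inv g
  have i1 := dbl_inv g1
  have i2 := dbl_inv g2
  rw [e] at n0 i0
  rw [e1] at n1 i1
  rw [e2] at n2 i2
  obtain ⟨-, -, m0⟩ := hP.cstep_blk hK p i0 d1 d2
  obtain ⟨-, q1, m1⟩ := hP.cstep_blk hK p i1 d1 (cstep_off2 (chi_idem p))
  obtain ⟨q2, -, m2⟩ := hP.cstep_blk hK p i2 (cstep_off1 (chi_idem p)) d2
  have o1 := hP.mu_offdiag hK _ _ q1
  have o2 := hP.mu_offdiag hK _ _ q2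
  filter_upwards [n0, n1, n2, m0, m1, m2, o1, o2] with x n0 n1 n2 m0 m1 m2 o1 o2
  simp only [Pi.add_apply, Pi.zero_apply] at *
  omega

/-- `dbl_neg`, `stage_neg`, `hP.neg`, `mu_iso` -/
theorem Pk.step_neg (hP : Pk F n) (hK : K.Le (coord F c)) {φ : R K} (r : Reg φ) :
    nu F (n + 2) c (-φ) =ᶠ[F] -nu F (n + 2) c φ := by
  have hK' := hK.coord_comap (Q := fun x => I x × Fin 2) fun _ p => p.1
  obtain ⟨ψ, g⟩ := r.exists_ginv
  have n0 := hP.nu_eq_mu hK g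
  have n1 := hP.nu_eq_mu hK g.neg
  have hu : (!![1, 0; 0, -1] : Matrix (Fin 2) (Fin 2) (R K)) * !![1, 0; 0, -1] = 1 := by
    ext i j
    fin_cases i <;> fin_cases j <;> simp
  have hu' : blk (!![1, 0; 0, -1] : Matrix (Fin 2) (Fin 2) (R K)) * blk !![1, 0; 0, -1] = 1 := by
    rw [← blk_mul, hu, blk_one]
  have hi := blk_hom.inv blk_one (dbl_inv g)
  have m1 := hP.mu_iso hK' hi hu' hu'
  have rr := stage_reg_coord hK' (hi.iso hu' hu')
  have m2 := hP.neg (fun x (p : (I x × Fin 2) × Fin 2) => tl (c x p.1.1)) (Ctx.Le.refl _) rr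
  rw [dbl_neg, blk_neg, blk_mul, blk_mul, blk_star] at n1
  unfold mu at n0 n1 m1
  rw [stage_neg (admS_coord hK')] at n1
  filter_upwards [n0, n1, m1, m2] with x n0 n1 m1 m2
  exact n1.trans (m2.trans (congrArg Neg.neg (m1.trans n0.symm)))

/-- `dbl_null`, `mu_iso`, `mu_offdiag` -/
theorem Pk.step_null (hP : Pk F n) (hK : K.Le (coord F c)) {φ : R K} (r : Reg φ) (h : Null φ) :
    nu F (n + 2) c φ =ᶠ[F] 0 := by
  have hK' := hK.coord_comap (Q := fun x => I x × Fin 2) fun _ p => p.1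
  obtain ⟨ψ, g⟩ := r.exists_ginv
  have n0 := hP.nu_eq_mu hK g
  obtain ⟨u, v, h1, h2, e⟩ := dbl_null g h
  have hi := blk_hom.inv blk_one (dbl_inv g)
  have m1 := hP.mu_iso hK' hi (u := blk u) (v := blk v) (by rw [← blk_mul, h1, blk_one])
    (by rw [← blk_mul, h2, blk_one])
  rw [← blk_star, ← blk_mul, ← blk_mul, ← e] at m1
  have o := hP.mu_offdiag hK 1 1 (stage_reg_coord hK' (blk_hom.inv blk_one hyp_inv))
  exact n0.trans (m1.symm.trans o)

/-- `mu` of an extension by zero -/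
theorem Pk.cstep_mu_tr (hP : Pk F n) (c : ∀ x, J x → Fin (n + 2) → ℝ) {K' : Ctx J}
    (e : ∀ x, I x ↪ J x) (hK' : K'.Le (coord F c)) (hK : K.Le (K'.comap fun x => e x)) {Φ Ψ : R K}
    (h : Inv Φ Ψ) : mu F n c (tr K' e Φ) =ᶠ[F] mu F n (fun x a => c x (e x a)) Φ := by
  have r := stage_reg_coord (hK.trans (hK'.coord_comap fun x => e x)) h
  unfold mu
  rw [stage_tr hK (admS_coord hK')]
  exact hP.ext (fun x (p : J x × Fin 2) => tl (c x p.1)) (embProd e fun _ => Fin 2) (Ctx.Le.refl _)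
    (Ctx.Le.refl _) r

/-- `CornerHom.map_dbl'` for `tr_hom`, `tr_one`, `tr_blk`, `mu_add` with `p = range`, `mu_offdiag`,
`stage_tr`, `hP.ext` -/
theorem Pk.step_ext (hP : Pk F n) (c : ∀ x, J x → Fin (n + 2) → ℝ) {K' : Ctx J}
    (e : ∀ x, I x ↪ J x) (hK' : K'.Le (coord F c)) (hK : K.Le (K'.comap fun x => e x)) {φ : R K}
    (r : Reg φ) :
    nu F (n + 2) c (tr K' e φ) =ᶠ[F] nu F (n + 2) (fun x a => c x (e x a)) φ := by
  obtain ⟨ψ, g⟩ := r.exists_ginv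
  have g' := (tr_hom hK).ginv g
  have n0 := hP.nu_eq_mu hK' g'
  have n1 := hP.nu_eq_mu (hK.trans (hK'.coord_comap fun x => e x)) g
  have i0 := dbl_inv g'
  rw [(tr_hom hK).map_dbl', tr_one hK] at n0 i0
  have hc : ∀ a : R K, chi K' (fun x b => ∃ a, e x a = b) * tr K' e a = tr K' e a ∧
      tr K' e a * chi K' (fun x b => ∃ a, e x a = b) = tr K' e a := fun a => by
    rw [← tr_one hK, ← tr_mul hK, ← tr_mul hK, one_mul, mul_one]
    exact ⟨rfl, rfl⟩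
  obtain ⟨-, q, m⟩ := hP.cstep_blk hK' (fun x b => ∃ a, e x a = b) i0
    (cstep_corner fun i j => by rw [Matrix.map_apply, (hc _).1, (hc _).2])
    (cstep_off2 (chi_idem _))
  have o := hP.mu_offdiag hK' _ _ q
  have hK₂ := hK'.coord_comap (Q := fun x => J x × Fin 2) fun _ p => p.1
  have t := hP.cstep_mu_tr (fun x (p : J x × Fin 2) => c x p.1) (embProd e fun _ => Fin 2) hK₂
    (hK.comap (Q := fun x => I x × Fin 2) fun _ p => p.1) (blk_hom.inv blk_one (dbl_inv g))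
  rw [tr_blk hK] at t
  filter_upwards [n0, n1, m, o, t] with x n0 n1 m o t
  simp only [Pi.add_apply, Pi.zero_apply] at *
  rw [n0, n1, m, o, add_zero]
  exact t

theorem Pk.step (hP : Pk F n) : Pk F (n + 2) where
  add _ _ hK p _ _ r1 r2 h1 h2 := hP.step_add hK p r1 r2 h1 h2
  neg _ _ hK _ r := hP.step_neg hK r
  null _ _ hK _ r h := hP.step_null hK r h
  ext c _ _ e hK' hK _ r := hP.step_ext c e hK' hK r

theorem pk (F : Filter ι) : ∀ n, Pk F n
  | 0 => pk_zero F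
  | 1 => pk_one F
  | n + 2 => (pk F n).step

/-- for invertible forms (`dbl_free`, `blk_diag`, `mu_add`, `stage_tr`, `ext`) -/
theorem nu_inv (hK : K.Le (coord F c)) {Φ Ψ : R K} (h : Inv Φ Ψ) :
    nu F (n + 2) c Φ =ᶠ[F] mu F n c Φ + mu F n c Φ := by
  have hP := pk F n
  have hK' := hK.coord_comap (Q := fun x => I x × Fin 2) fun _ p => p.1
  have n0 := hP.nu_eq_mu hK h.ginv
  obtain ⟨u, v, h1, h2, e⟩ := dbl_free h
  have hi := blk_hom.inv blk_one (dbl_inv h.ginv)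
  have m1 := hP.mu_iso hK' hi (u := blk u) (v := blk v) (by rw [← blk_mul, h1, blk_one])
    (by rw [← blk_mul, h2, blk_one])
  rw [← blk_star, ← blk_mul, ← blk_mul, ← e, blk_diag] at m1
  have i2 := blk_hom.inv blk_one (inv_diag h h)
  rw [blk_diag Φ Φ] at i2
  have e0 : tr (K.prod fun _ => Fin 2) (inT I 0) Φ = blk !![Φ, 0; 0, 0] := by
    rw [blk_diag, (tr_hom (le_inT 1)).zero, add_zero]
  have e1 : tr (K.prod fun _ => Fin 2) (inT I 1) Φ = blk !![0, 0; 0, Φ] := by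
    rw [blk_diag, (tr_hom (le_inT 0)).zero, zero_add]
  obtain ⟨-, -, m2⟩ := hP.mu_add hK' (fun _ a => a.2 = 0) i2 (by
      rw [e0, ← blk_e0, ← blk_mul, ← blk_mul]
      congr 1
      ext i j
      fin_cases i <;> fin_cases j <;> simp) (by
      rw [e1, ← blk_e0, ← blk_one, ← blk_hom.sub, ← blk_mul, ← blk_mul, Matrix.one_fin_two, a2_sub]
      congr 1
      ext i j
      fin_cases i <;> fin_cases j <;> simp)
  have t0 := hP.cstep_mu_tr (fun x (p : I x × Fin 2) => c x p.1) (inT I 0) hK' (le_inT 0) h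
  have t1 := hP.cstep_mu_tr (fun x (p : I x × Fin 2) => c x p.1) (inT I 1) hK' (le_inT 1) h
  filter_upwards [n0, m1, m2, t0, t1] with x n0 m1 m2 t0 t1
  simp only [Pi.add_apply] at *
  rw [n0, ← m1, m2, t0, t1]
  rfl

end Crest.Agent.R217
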