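import Crest.Agent.R217.DDefs

/-! Row 217, part D: algebraic identities for `dK`, `phiK` (induction on `n`;
`Fintype.sum_prod_type`, `Fintype.sum_bool`). -/

set_option autoImplicit false
set_option backward.isDefEq.respectTransparency false
set_option linter.unusedSectionVars false

namespace Crest.Agent.R217

theorem Ty.deg_f {n : ℕ} (τ : Ty n) : Ty.deg (n := n + 1) ((false, τ) : Bool × Ty n) = τ.deg :=
  Nat.zero_add _

theorem Ty.deg_t {n : ℕ} (τ : Ty n) : Ty.deg (n := n + 1) ((true, τ) : Bool × Ty n) = τ.deg + 1 :=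
  Nat.add_comm _ _

theorem Ty.mk_eq_top {n : ℕ} (b : Bool) (τ : Ty n) :
    @Eq (Ty (n + 1)) ((b, τ) : Bool × Ty n) (Ty.top (n + 1)) ↔ b = true ∧ τ = Ty.top n :=
  Prod.mk_inj

theorem Ty.mk_eq_bot {n : ℕ} (b : Bool) (τ : Ty n) :
    @Eq (Ty (n + 1)) ((b, τ) : Bool × Ty n) (Ty.bot (n + 1)) ↔ b = false ∧ τ = Ty.bot n :=
  Prod.mk_inj

theorem Ty.sum_succ {M : Type} [AddCommMonoid M] {n : ℕ} (f : Ty (n + 1) → M) :
    ∑ s : Ty (n + 1), f s = ∑ τ : Ty n, f ((true, τ) : Bool × Ty n) +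
      ∑ τ : Ty n, f ((false, τ) : Bool × Ty n) := by
  show ∑ s : Bool × Ty n, f s = _
  rw [Fintype.sum_prod_type, Fintype.sum_bool]

theorem Ty.deg_le {n : ℕ} (τ : Ty n) : τ.deg ≤ n := by
  induction n with
  | zero => exact le_rfl
  | succ n ih =>
    obtain ⟨b, τ⟩ := τ
    have := ih τ
    cases b
    · rw [Ty.deg_f]; omega
    · rw [Ty.deg_t]; omega

theorem Ty.deg_eq_iff {n : ℕ} (τ : Ty n) : τ.deg = n ↔ τ = Ty.top n := by
  induction n with
  | zero => exact ⟨fun _ => rfl, fun _ => rfl⟩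
  | succ n ih =>
    obtain ⟨b, τ⟩ := τ
    rw [Ty.mk_eq_top, ← ih τ]
    have := τ.deg_le
    cases b
    · rw [Ty.deg_f]; simp; omega
    · rw [Ty.deg_t]; simp

theorem Ty.deg_eq_zero {n : ℕ} (τ : Ty n) : τ.deg = 0 ↔ τ = Ty.bot n := by
  induction n with
  | zero => exact ⟨fun _ => rfl, fun _ => rfl⟩
  | succ n ih =>
    obtain ⟨b, τ⟩ := τ
    rw [Ty.mk_eq_bot, ← ih τ]
    cases b
    · rw [Ty.deg_f]; simp
    · rw [Ty.deg_t]; simp

variable {A : Type} [CommRing A] [StarRing A] [Algebra ℂ A] [StarModule ℂ A] {n : ℕ}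

section entries

omit [StarRing A] [Algebra ℂ A] [StarModule ℂ A]

theorem dK_ff (X : Fin (n + 1) → A) (s t : Ty n) :
    dK (n + 1) X ((false, s) : Bool × Ty n) ((false, t) : Bool × Ty n) =
      dK n (fun k => X k.succ) s t := rfl

theorem dK_tf (X : Fin (n + 1) → A) (s t : Ty n) :
    dK (n + 1) X ((true, s) : Bool × Ty n) ((false, t) : Bool × Ty n) =
      if s = t then X 0 - 1 else 0 := rfl

theorem dK_tt (X : Fin (n + 1) → A) (s t : Ty n) :
    dK (n + 1) X ((true, s) : Bool × Ty n) ((true, t) : Bool × Ty n) =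
      -dK n (fun k => X k.succ) s t := rfl

theorem dK_ft (X : Fin (n + 1) → A) (s t : Ty n) :
    dK (n + 1) X ((false, s) : Bool × Ty n) ((true, t) : Bool × Ty n) = 0 := rfl

end entries

theorem dK_sq (X : Fin n → A) : dK n X * dK n X = 0 := by
  induction n with
  | zero => exact Matrix.mul_zero _
  | succ n ih =>
    ext ⟨b, s⟩ ⟨c, t⟩
    have h := congrFun (congrFun (ih fun k => X k.succ) s) t
    rw [Matrix.mul_apply] at h
    rw [Matrix.mul_apply, Ty.sum_succ]
    cases b <;> cases c <;>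
      simp only [dK_ff, dK_ft, dK_tf, dK_tt, zero_mul, mul_zero, Finset.sum_const_zero,
        add_zero, neg_mul_neg, h, Matrix.zero_apply, mul_ite, ite_mul, Finset.sum_ite_eq,
        Finset.sum_ite_eq', Finset.mem_univ, if_true]
    ring

theorem dK_deg (X : Fin n → A) {s t : Ty n} (h : dK n X s t ≠ 0) : s.deg = t.deg + 1 := by
  induction n with
  | zero => exact absurd rfl h
  | succ n ih =>
    obtain ⟨b, s⟩ := s
    obtain ⟨c, t⟩ := t
    cases b <;> cases c
    · rw [Ty.deg_f, Ty.deg_f]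
      exact ih _ h
    · exact absurd rfl h
    · rw [dK_tf] at h
      rw [Ty.deg_t, Ty.deg_f]
      by_cases hst : s = t
      · rw [hst]
      · exact absurd (if_neg hst) h
    · rw [dK_tt, neg_ne_zero] at h
      rw [Ty.deg_t, Ty.deg_t, ih _ h]

/-- every entry is `0` or `± (X k - 1)` -/
theorem dK_entry (X : Fin n → A) (s t : Ty n) :
    dK n X s t = 0 ∨ ∃ k, dK n X s t = X k - 1 ∨ dK n X s t = -(X k - 1) := by
  induction n with
  | zero => exact Or.inl rfl
  | succ n ih =>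
    obtain ⟨b, s⟩ := s
    obtain ⟨c, t⟩ := t
    cases b <;> cases c
    · rw [dK_ff]
      rcases ih (fun k => X k.succ) s t with h | ⟨k, h⟩
      · exact Or.inl h
      · exact Or.inr ⟨k.succ, h⟩
    · exact Or.inl rfl
    · rw [dK_tf]
      by_cases hst : s = t
      · exact Or.inr ⟨0, Or.inl (if_pos hst)⟩
      · exact Or.inl (if_neg hst)
    · rw [dK_tt]
      rcases ih (fun k => X k.succ) s t with h | ⟨k, h | h⟩
      · exact Or.inl (by rw [h, neg_zero])
      · exact Or.inr ⟨k.succ, Or.inr (by rw [h])⟩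
      · exact Or.inr ⟨k.succ, Or.inl (by rw [h, neg_neg])⟩

/-- the codimension one face in direction `k` -/
theorem dK_face (X : Fin n → A) (k : Fin n) : ∃ τ : Ty n,
    (∀ σ, dK n X σ τ = if σ = Ty.top n then X k - 1 else 0) ∨
    (∀ σ, dK n X σ τ = if σ = Ty.top n then -(X k - 1) else 0) := by
  induction n with
  | zero => exact k.elim0
  | succ n ih =>
    refine Fin.cases ?_ (fun k => ?_) k
    · refine ⟨((false, Ty.top n) : Bool × Ty n), Or.inl ?_⟩
      rintro ⟨b, s⟩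
      cases b
      · rw [dK_ff, if_neg (by rw [Ty.mk_eq_top]; simp)]
        by_contra h
        have h1 := dK_deg _ h
        have h2 := s.deg_le
        rw [(Ty.deg_eq_iff _).2 rfl] at h1
        omega
      · rw [dK_tf]
        simp only [Ty.mk_eq_top, true_and]
    · obtain ⟨τ, h | h⟩ := ih (fun k => X k.succ) k
      · refine ⟨((true, τ) : Bool × Ty n), Or.inr ?_⟩
        rintro ⟨b, s⟩
        cases b
        · rw [dK_ft, if_neg (by rw [Ty.mk_eq_top]; simp)]
        · rw [dK_tt, h]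
          simp only [Ty.mk_eq_top, true_and]
          split_ifs <;> simp
      · refine ⟨((true, τ) : Bool × Ty n), Or.inl ?_⟩
        rintro ⟨b, s⟩
        cases b
        · rw [dK_ft, if_neg (by rw [Ty.mk_eq_top]; simp)]
        · rw [dK_tt, h]
          simp only [Ty.mk_eq_top, true_and]
          split_ifs <;> simp

section kron

omit [Algebra ℂ A] [StarModule ℂ A]

/-- Kronecker product of a `4 × 4` block and an `n`-dimensional block -/
def dalgKr (G : Matrix (Bool × Bool) (Bool × Bool) A) (P : Matrix (Ty n) (Ty n) A) :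
    Matrix (Ty (n + 2)) (Ty (n + 2)) A := fun (s : Bool × Bool × Ty n) (t : Bool × Bool × Ty n) =>
  G (s.1, s.2.1) (t.1, t.2.1) * P s.2.2 t.2.2

omit [StarRing A] in
theorem dalgKr_apply (G : Matrix (Bool × Bool) (Bool × Bool) A) (P : Matrix (Ty n) (Ty n) A)
    (b₀ b₁ c₀ c₁ : Bool) (s t : Ty n) :
    dalgKr G P ((b₀, b₁, s) : Bool × Bool × Ty n) ((c₀, c₁, t) : Bool × Bool × Ty n) =
      G (b₀, b₁) (c₀, c₁) * P s t := rfl

omit [StarRing A] in
theorem dalgKr_mul (G H : Matrix (Bool × Bool) (Bool × Bool) A) (P Q : Matrix (Ty n) (Ty n) A) :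
    dalgKr G P * dalgKr H Q = dalgKr (G * H) (P * Q) := by
  ext ⟨b₀, b₁, s⟩ ⟨c₀, c₁, t⟩
  rw [dalgKr_apply, Matrix.mul_apply, Matrix.mul_apply, Matrix.mul_apply, Finset.sum_mul_sum]
  show ∑ u : Bool × Bool × Ty n, dalgKr G P _ u * dalgKr H Q u _ = _
  simp only [Fintype.sum_prod_type]
  refine Finset.sum_congr rfl fun _ _ => Finset.sum_congr rfl fun _ _ =>
    Finset.sum_congr rfl fun _ _ => ?_
  exact mul_mul_mul_comm _ _ _ _

theorem dalgKr_star (G : Matrix (Bool × Bool) (Bool × Bool) A) (P : Matrix (Ty n) (Ty n) A) :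
    star (dalgKr G P) = dalgKr (star G) (star P) := by
  ext ⟨b₀, b₁, s⟩ ⟨c₀, c₁, t⟩
  rw [Matrix.star_apply, dalgKr_apply, dalgKr_apply, star_mul', Matrix.star_apply,
    Matrix.star_apply]

omit [StarRing A] in
theorem dalgKr_add_left (G H : Matrix (Bool × Bool) (Bool × Bool) A) (P : Matrix (Ty n) (Ty n) A) :
    dalgKr (G + H) P = dalgKr G P + dalgKr H P := by
  ext ⟨b₀, b₁, s⟩ ⟨c₀, c₁, t⟩
  rw [Matrix.add_apply, dalgKr_apply, dalgKr_apply, dalgKr_apply, Matrix.add_apply, add_mul]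

omit [StarRing A] in
theorem dalgKr_add_right (G : Matrix (Bool × Bool) (Bool × Bool) A) (P Q : Matrix (Ty n) (Ty n) A) :
    dalgKr G (P + Q) = dalgKr G P + dalgKr G Q := by
  ext ⟨b₀, b₁, s⟩ ⟨c₀, c₁, t⟩
  rw [Matrix.add_apply, dalgKr_apply, dalgKr_apply, dalgKr_apply, Matrix.add_apply, mul_add]

omit [StarRing A] in
theorem dalgKr_zero_left (P : Matrix (Ty n) (Ty n) A) : dalgKr 0 P = 0 := by
  ext ⟨b₀, b₁, s⟩ ⟨c₀, c₁, t⟩
  rw [dalgKr_apply, Matrix.zero_apply, zero_mul, Matrix.zero_apply]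

omit [StarRing A] in
theorem dalgKr_zero_right (G : Matrix (Bool × Bool) (Bool × Bool) A) :
    dalgKr G (0 : Matrix (Ty n) (Ty n) A) = 0 := by
  ext ⟨b₀, b₁, s⟩ ⟨c₀, c₁, t⟩
  rw [dalgKr_apply, Matrix.zero_apply, mul_zero, Matrix.zero_apply]

omit [StarRing A] in
theorem dalgKr_one : dalgKr 1 (1 : Matrix (Ty n) (Ty n) A) = 1 := by
  ext ⟨b₀, b₁, s⟩ ⟨c₀, c₁, t⟩
  have h : @Eq (Ty (n + 2)) ((b₀, b₁, s) : Bool × Bool × Ty n) ((c₀, c₁, t) : Bool × Bool × Ty n) ↔
      (b₀, b₁) = (c₀, c₁) ∧ s = t := by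
    show ((b₀, b₁, s) : Bool × Bool × Ty n) = (c₀, c₁, t) ↔ _
    simp only [Prod.mk_inj, and_assoc]
  rw [dalgKr_apply, Matrix.one_apply, Matrix.one_apply, Matrix.one_apply, ite_zero_mul_ite_zero,
    one_mul]
  exact if_congr h.symm rfl rfl

omit [StarRing A] in
/-- the Koszul differential of the plane -/
def dalgD (X Y : A) : Matrix (Bool × Bool) (Bool × Bool) A := fun s t =>
  match s.1, s.2, t.1, t.2 with
  | true, false, false, false => X - 1
  | true, true, false, true => X - 1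
  | false, true, false, false => Y - 1
  | true, true, true, false => -(Y - 1)
  | _, _, _, _ => 0

omit [StarRing A] in
/-- the parity -/
def dalgS (A : Type) [CommRing A] : Matrix (Bool × Bool) (Bool × Bool) A := fun s t =>
  match s.1, s.2, t.1, t.2 with
  | false, false, false, false => 1
  | true, true, true, true => 1
  | true, false, true, false => -1
  | false, true, false, true => -1
  | _, _, _, _ => 0

omit [StarRing A] in
theorem dalg_dK_eq (X : Fin (n + 2) → A) :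
    dK (n + 2) X = dalgKr (dalgD (X 0) (X 1)) 1 + dalgKr (dalgS A) (dK n (tl X)) := by
  ext ⟨b₀, b₁, s⟩ ⟨c₀, c₁, t⟩
  have h : ∀ b c : Bool, @Eq (Ty (n + 1)) ((b, s) : Bool × Ty n) ((c, t) : Bool × Ty n) ↔
      b = c ∧ s = t := fun _ _ => Prod.mk_inj
  have h1 : X (Fin.succ 0) = X 1 := rfl
  have h2 : (fun k : Fin n => X k.succ.succ) = tl X := rfl
  rw [Matrix.add_apply, dalgKr_apply, dalgKr_apply, Matrix.one_apply]
  cases b₀ <;> cases c₀ <;> cases b₁ <;> cases c₁ <;>
    simp only [dK_ff, dK_ft, dK_tf, dK_tt, h, h1, h2, dalgD, dalgS] <;> split_ifs <;> simp_all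

end kron

/-- `i/2` -/
noncomputable def dalgJ (A : Type) [CommRing A] [Algebra ℂ A] : A := algebraMap ℂ A (Complex.I / 2)

omit [StarRing A] [StarModule ℂ A] in
theorem dalgJ_sq : 4 * dalgJ A ^ 2 = -1 := by
  have h : (4 : ℂ) * (Complex.I / 2) ^ 2 = -1 := by
    rw [div_pow, Complex.I_sq]; norm_num
  have := congrArg (algebraMap ℂ A) h
  rwa [map_mul, map_pow, map_neg, map_one, map_ofNat] at this

theorem dalgJ_star : star (dalgJ A) = -dalgJ A := by
  unfold dalgJ
  rw [← algebraMap_star_comm, ← map_neg]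
  congr 1
  simp [neg_div]

omit [StarRing A] [StarModule ℂ A] in
theorem dalgJ_I : algebraMap ℂ A Complex.I = 2 * dalgJ A := by
  unfold dalgJ
  rw [← map_ofNat (algebraMap ℂ A) 2, ← map_mul]
  congr 1
  ring

/-- `g2` as a matrix -/
noncomputable def dalgG (X Y : A) : Matrix (Bool × Bool) (Bool × Bool) A := fun s t =>
  g2 X Y s.1 s.2 t.1 t.2

/-- `g2` in terms of `j = i/2` -/
def dalgG' (j X Y : A) : Matrix (Bool × Bool) (Bool × Bool) A := fun s t =>
  match s.1, s.2, t.1, t.2 with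
  | true, true, false, false => -(2 * j)
  | false, false, true, true => 2 * j
  | true, false, true, false => j * (star Y - Y)
  | true, false, false, true => j * (X + X * star Y + star Y - 1)
  | false, true, true, false => -j * (star X + star X * Y + Y - 1)
  | false, true, false, true => j * (X - star X)
  | _, _, _, _ => 0

/-- the inverse of `g2` -/
def dalgH (j X Y : A) : Matrix (Bool × Bool) (Bool × Bool) A := fun s t =>
  match s.1, s.2, t.1, t.2 with
  | true, true, false, false => -(2 * j)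
  | false, false, true, true => 2 * j
  | true, false, true, false => -(j * (X - star X))
  | true, false, false, true => j * (X + X * star Y + star Y - 1)
  | false, true, true, false => -j * (star X + star X * Y + Y - 1)
  | false, true, false, true => -(j * (star Y - Y))
  | _, _, _, _ => 0

omit [StarModule ℂ A] in
theorem dalgG_eq (X Y : A) : dalgG X Y = dalgG' (dalgJ A) X Y := by
  ext ⟨b₀, b₁⟩ ⟨c₀, c₁⟩
  cases b₀ <;> cases c₀ <;> cases b₁ <;> cases c₁ <;>
    simp only [dalgG, dalgG', g2, map_neg, dalgJ_I, neg_div] <;> rfl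

omit [StarModule ℂ A] in
theorem dalg_phiK_eq (X : Fin (n + 2) → A) :
    phiK (n + 2) X = dalgKr (dalgG (X 0) (X 1)) (phiK n (tl X)) := rfl

theorem dalgG_star (X Y : A) : star (dalgG X Y) = dalgG X Y := by
  rw [dalgG_eq]
  ext ⟨b₀, b₁⟩ ⟨c₀, c₁⟩
  rw [Matrix.star_apply]
  cases b₀ <;> cases c₀ <;> cases b₁ <;> cases c₁ <;>
    simp only [dalgG', star_zero, star_neg, star_mul', star_add, star_sub, star_star, star_one,
      star_ofNat, dalgJ_star] <;> ring

omit [Algebra ℂ A] [StarModule ℂ A] in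
theorem dalgS_star : star (dalgS A) = dalgS A := by
  ext ⟨b₀, b₁⟩ ⟨c₀, c₁⟩
  rw [Matrix.star_apply]
  cases b₀ <;> cases c₀ <;> cases b₁ <;> cases c₁ <;> simp [dalgS]

omit [StarModule ℂ A] in
theorem dalgG_S (X Y : A) : dalgS A * dalgG X Y = dalgG X Y * dalgS A := by
  rw [dalgG_eq]
  ext ⟨b₀, b₁⟩ ⟨c₀, c₁⟩
  simp only [Matrix.mul_apply, Fintype.sum_prod_type, Fintype.sum_bool]
  cases b₀ <;> cases c₀ <;> cases b₁ <;> cases c₁ <;> simp only [dalgG', dalgS] <;> ring

omit [StarModule ℂ A] in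
theorem dalgG_D {X Y : A} (hX : star X * X = 1) (hY : star Y * Y = 1) :
    dalgG X Y * dalgD X Y + star (dalgD X Y) * dalgG X Y = 0 := by
  rw [dalgG_eq]
  ext ⟨b₀, b₁⟩ ⟨c₀, c₁⟩
  simp only [Matrix.add_apply, Matrix.mul_apply, Fintype.sum_prod_type, Fintype.sum_bool,
    Matrix.star_apply, Matrix.zero_apply]
  cases b₀ <;> cases c₀ <;> cases b₁ <;> cases c₁ <;>
    simp only [dalgG', dalgD, star_zero, star_neg, star_sub, star_one] <;>
    first
    | ring1
    | linear_combination (dalgJ A * (X + 1)) * hY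
    | linear_combination (-dalgJ A * (star X + 1)) * hY
    | linear_combination (-dalgJ A * (Y + 1)) * hX
    | linear_combination (dalgJ A * (star Y + 1)) * hX

omit [StarModule ℂ A] in
theorem dalgG_H {X Y : A} (hX : star X * X = 1) (hY : star Y * Y = 1) :
    dalgG X Y * dalgH (dalgJ A) X Y = 1 := by
  rw [dalgG_eq]
  have hj := dalgJ_sq (A := A)
  ext ⟨b₀, b₁⟩ ⟨c₀, c₁⟩
  simp only [Matrix.mul_apply, Fintype.sum_prod_type, Fintype.sum_bool, Matrix.one_apply]
  cases b₀ <;> cases c₀ <;> cases b₁ <;> cases c₁ <;>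
    simp only [dalgG', dalgH, Prod.mk_inj, Bool.true_eq_false, Bool.false_eq_true, and_false,
      and_true, if_true, if_false] <;>
    first
    | ring1
    | linear_combination (-1 : A) * hj
    | linear_combination (-1 : A) * hj - dalgJ A ^ 2 * (1 + Y + star Y + Y * star Y) * hX -
        dalgJ A ^ 2 * (2 + X + star X) * hY

theorem dalg_phiK_star : ∀ (n : ℕ) (X : Fin n → A), star (phiK n X) = phiK n X
  | 0, _ => star_one _
  | 1, _ => star_zero _
  | n + 2, X => by rw [dalg_phiK_eq, dalgKr_star, dalgG_star, dalg_phiK_star n]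

theorem dalg_phiK_chain : ∀ (n : ℕ) (X : Fin n → A), (∀ k, star (X k) * X k = 1) →
    phiK n X * dK n X + star (dK n X) * phiK n X = 0
  | 0, X, _ => by
    have : dK 0 X = 0 := rfl
    rw [this, star_zero, mul_zero, zero_mul, add_zero]
  | 1, X, _ => by
    have : phiK 1 X = 0 := rfl
    rw [this, mul_zero, zero_mul, add_zero]
  | n + 2, X, hX => by
    have ih := dalg_phiK_chain n (tl X) fun k => hX _
    rw [dalg_phiK_eq, dalg_dK_eq, star_add, dalgKr_star, dalgKr_star, mul_add, add_mul, dalgKr_mul,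
      dalgKr_mul, dalgKr_mul, dalgKr_mul, star_one, mul_one, one_mul, dalgS_star, dalgG_S,
      add_add_add_comm, ← dalgKr_add_left, ← dalgKr_add_right, dalgG_D (hX 0) (hX 1), ih,
      dalgKr_zero_left, dalgKr_zero_right, add_zero]

omit [StarModule ℂ A] in
theorem dalg_phiK_inv : ∀ (n : ℕ), Even n → ∀ X : Fin n → A, (∀ k, star (X k) * X k = 1) →
    ∃ Ψ, phiK n X * Ψ = 1
  | 0, _, _, _ => ⟨1, mul_one _⟩
  | 1, hn, _, _ => absurd hn (by decide)
  | n + 2, hn, X, hX => by
    obtain ⟨Ψ, h⟩ := dalg_phiK_inv n (by simpa [Nat.even_add] using hn) (tl X) fun k => hX _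
    exact ⟨dalgKr (dalgH (dalgJ A) (X 0) (X 1)) Ψ, by
      rw [dalg_phiK_eq, dalgKr_mul, dalgG_H (hX 0) (hX 1), h, dalgKr_one]⟩

omit [StarModule ℂ A] in
theorem dalg_phiK_bot : ∀ (n : ℕ), Even n → ∀ (X : Fin n → A) (τ : Ty n), phiK n X τ (Ty.bot n) =
    if τ = Ty.top n then algebraMap ℂ A ((-Complex.I) ^ (n / 2)) else 0
  | 0, _, _, τ => by
    rw [if_pos (show τ = Ty.top 0 from rfl), Nat.zero_div, pow_zero, map_one]
    exact Matrix.one_apply_eq _
  | 1, hn, _, _ => absurd hn (by decide)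
  | n + 2, hn, X, ⟨b₀, b₁, τ⟩ => by
    have ih := dalg_phiK_bot n (by simpa [Nat.even_add] using hn) (tl X) τ
    have h1 : phiK (n + 2) X ((b₀, b₁, τ) : Bool × Bool × Ty n) (Ty.bot (n + 2)) =
        g2 (X 0) (X 1) b₀ b₁ false false * phiK n (tl X) τ (Ty.bot n) := rfl
    have h2 : @Eq (Ty (n + 2)) ((b₀, b₁, τ) : Bool × Bool × Ty n) (Ty.top (n + 2)) ↔
        b₀ = true ∧ b₁ = true ∧ τ = Ty.top n := by
      show ((b₀, b₁, τ) : Bool × Bool × Ty n) = (true, true, Ty.top n) ↔ _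
      simp only [Prod.mk_inj]
    rw [h1, ih, Nat.add_div_right _ two_pos, pow_succ', map_mul]
    cases b₀ <;> cases b₁ <;> simp [h2, g2]

theorem phiK_star (X : Fin n → A) (hX : ∀ k, star (X k) * X k = 1) : star (phiK n X) = phiK n X := 
  dalg_phiK_star n X

/-- `d (n+2) = d₂ ⊗ 1 + σ ⊗ d n`, `g2` commutes with the parity `σ`; for `g2` itself e.g.
`G₁₁ (X - 1) + G₁₂ (Y - 1) = -i (Y⋆ - 1)`, `G₂₁ (X - 1) + G₂₂ (Y - 1) = i (X⋆ - 1)`
(`linear_combination` with `hX`). -/
theorem phiK_chain (X : Fin n → A) (hX : ∀ k, star (X k) * X k = 1) :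
    phiK n X * dK n X + star (dK n X) * phiK n X = 0 := dalg_phiK_chain n X hX

/-- the middle block has determinant `-1`; inverse of `g2`: `(ff,tt) ↦ i`, `(tt,ff) ↦ -i`, middle
`!![-G₂₂, G₁₂; G₂₁, -G₁₁]` -/
theorem phiK_inv (hn : Even n) (X : Fin n → A) (hX : ∀ k, star (X k) * X k = 1) :
    ∃ Ψ, phiK n X * Ψ = 1 ∧ Ψ * phiK n X = 1 := by
  obtain ⟨Ψ, h⟩ := dalg_phiK_inv n hn X hX
  exact ⟨Ψ, h, mul_eq_one_comm.1 h⟩

theorem phiK_bot (hn : Even n) (X : Fin n → A) (τ : Ty n) : phiK n X τ (Ty.bot n) =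
    if τ = Ty.top n then algebraMap ℂ A ((-Complex.I) ^ (n / 2)) else 0 := dalg_phiK_bot n hn X τ

theorem coeff_XX_sub_one (j : Fin n) (k : Fin n → ℤ) : (XX n j - 1).coeff k =
    (if k = Pi.single j 1 then 1 else 0) - if k = 0 then 1 else 0 := by
  simp [XX, AddMonoidAlgebra.one_def, Finsupp.single_apply, eq_comm]

section nat

omit [StarModule ℂ A]

variable {B : Type} [CommRing B] [StarRing B] [Algebra ℂ B]

theorem dalg_map_g2 (f : A →ₐ[ℂ] B) (hf : ∀ a, f (star a) = star (f a)) (X Y : A)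
    (b₀ b₁ c₀ c₁ : Bool) : f (g2 X Y b₀ b₁ c₀ c₁) = g2 (f X) (f Y) b₀ b₁ c₀ c₁ := by
  cases b₀ <;> cases c₀ <;> cases b₁ <;> cases c₁ <;>
    simp only [g2, map_zero, map_mul, map_add, map_sub, map_one, AlgHom.commutes, hf]

theorem dalg_map_phiK (f : A →ₐ[ℂ] B) (hf : ∀ a, f (star a) = star (f a)) :
    ∀ (n : ℕ) (X : Fin n → A) (s t : Ty n), f (phiK n X s t) = phiK n (fun k => f (X k)) s t
  | 0, _, _, _ => map_one f
  | 1, _, _, _ => map_zero f
  | n + 2, X, ⟨b₀, b₁, s⟩, ⟨c₀, c₁, t⟩ => by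
    show f (g2 (X 0) (X 1) b₀ b₁ c₀ c₁ * phiK n (tl X) s t) =
      g2 (f (X 0)) (f (X 1)) b₀ b₁ c₀ c₁ * phiK n (fun k => f (tl X k)) s t
    rw [map_mul, dalg_map_g2 f hf, dalg_map_phiK f hf n]

end nat

/-- change of variables along an additive map of lattices -/
noncomputable def dalgE {m l : ℕ} (e : (Fin m → ℤ) →+ (Fin l → ℤ)) : LA m →ₐ[ℂ] LA l :=
  AddMonoidAlgebra.mapDomainAlgHom ℂ ℂ e

theorem dalgE_single {m l : ℕ} (e : (Fin m → ℤ) →+ (Fin l → ℤ)) (a : Fin m → ℤ) (r : ℂ) :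
    dalgE e (AddMonoidAlgebra.single a r) = AddMonoidAlgebra.single (e a) r :=
  AddMonoidAlgebra.mapDomain_single

theorem dalg_star_single {m : ℕ} (a : Fin m → ℤ) (r : ℂ) :
    star (AddMonoidAlgebra.single a r : LA m) = AddMonoidAlgebra.single (-a) (star r) := by
  ext k
  rw [LA.coeff_star, AddMonoidAlgebra.coeff_single, AddMonoidAlgebra.coeff_single,
    Finsupp.single_apply, Finsupp.single_apply, apply_ite star, star_zero]
  exact if_congr neg_eq_iff_eq_neg.symm rfl rfl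

theorem dalgE_star {m l : ℕ} (e : (Fin m → ℤ) →+ (Fin l → ℤ)) (P : LA m) :
    dalgE e (star P) = star (dalgE e P) := by
  induction P using AddMonoidAlgebra.induction_linear with
  | zero => rw [star_zero, map_zero, star_zero]
  | add x y hx hy => rw [star_add, map_add, map_add, star_add, hx, hy]
  | single a r => rw [dalg_star_single, dalgE_single, dalgE_single, dalg_star_single, map_neg]

/-- the first two coordinates -/
def dalgE1 (n : ℕ) : (Fin 2 → ℤ) →+ (Fin (n + 2) → ℤ) where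
  toFun v := Fin.cons (v 0) (Fin.cons (v 1) 0)
  map_zero' := by
    funext i
    refine Fin.cases ?_ (fun i => Fin.cases ?_ (fun i => ?_) i) i <;> simp
  map_add' v w := by
    funext i
    refine Fin.cases ?_ (fun i => Fin.cases ?_ (fun i => ?_) i) i <;> simp

/-- the last `n` coordinates -/
def dalgE2 (n : ℕ) : (Fin n → ℤ) →+ (Fin (n + 2) → ℤ) where
  toFun v := Fin.cons 0 (Fin.cons 0 v)
  map_zero' := by
    funext i
    refine Fin.cases ?_ (fun i => Fin.cases ?_ (fun i => ?_) i) i <;> simp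
  map_add' v w := by
    funext i
    refine Fin.cases ?_ (fun i => Fin.cases ?_ (fun i => ?_) i) i <;> simp

theorem dalgE_add_eq (a : Fin 2 → ℤ) (b : Fin n → ℤ) (k : Fin (n + 2) → ℤ) :
    dalgE1 n a + dalgE2 n b = k ↔ a = ![k 0, k 1] ∧ b = tl k := by
  constructor
  · rintro rfl
    refine ⟨?_, ?_⟩
    · funext i
      fin_cases i <;> simp [dalgE1, dalgE2]
    · funext i
      simp [dalgE1, dalgE2, tl]
  · rintro ⟨rfl, rfl⟩
    funext i
    refine Fin.cases ?_ (fun i => Fin.cases ?_ (fun i => ?_) i) i <;> simp [dalgE1, dalgE2, tl]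

theorem dalg_coeff_mul (P : LA 2) (Q : LA n) (k : Fin (n + 2) → ℤ) :
    (dalgE (dalgE1 n) P * dalgE (dalgE2 n) Q).coeff k = P.coeff ![k 0, k 1] * Q.coeff (tl k) := by
  induction P using AddMonoidAlgebra.induction_linear with
  | zero => simp
  | add x y hx hy => simp [add_mul, hx, hy]
  | single a r =>
    induction Q using AddMonoidAlgebra.induction_linear with
    | zero => simp
    | add x y hx hy => simp only [map_add, mul_add, AddMonoidAlgebra.coeff_add, Finsupp.add_apply,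
        hx, hy]
    | single b s =>
      rw [dalgE_single, dalgE_single, AddMonoidAlgebra.single_mul_single]
      simp only [AddMonoidAlgebra.coeff_single, Finsupp.single_apply, dalgE_add_eq,
        ite_zero_mul_ite_zero]

/-- naturality of `phiK` under the ring homomorphisms `LA 2 → LA (n+2)`, `LA n → LA (n+2)`
(`AddMonoidAlgebra.mapDomain…` along the coordinate embeddings, they commute with `star`), and the
coefficients of a product of an element in the first two variables and one in the last `n`. -/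
theorem phiK_coeff (b₀ b₁ c₀ c₁ : Bool) (τ σ : Ty n) (k : Fin (n + 2) → ℤ) :
    (phiK (n + 2) (XX (n + 2)) ((b₀, b₁, τ) : Bool × Bool × Ty n) ((c₀, c₁, σ) : Bool × Bool × Ty n)).coeff k =
      (g2 (XX 2 0) (XX 2 1) b₀ b₁ c₀ c₁).coeff ![k 0, k 1] * (phiK n (XX n) τ σ).coeff (tl k) := by
  have h0 : XX (n + 2) 0 = dalgE (dalgE1 n) (XX 2 0) := by
    rw [XX, XX, dalgE_single]
    congr 1
    funext i
    refine Fin.cases ?_ (fun i => Fin.cases ?_ (fun i => ?_) i) i <;>
      simp [dalgE1, Fin.succ_ne_zero]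
  have h1 : XX (n + 2) 1 = dalgE (dalgE1 n) (XX 2 1) := by
    rw [XX, XX, dalgE_single]
    congr 1
    funext i
    refine Fin.cases ?_ (fun i => Fin.cases ?_ (fun i => ?_) i) i <;>
      simp [dalgE1, Fin.ext_iff]
  have h2 : tl (XX (n + 2)) = fun j => dalgE (dalgE2 n) (XX n j) := by
    funext j
    rw [tl, XX, XX, dalgE_single]
    congr 1
    funext i
    refine Fin.cases ?_ (fun i => Fin.cases ?_ (fun i => ?_) i) i <;>
      simp [dalgE2, Pi.single_apply, Fin.ext_iff]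
  have h3 : phiK (n + 2) (XX (n + 2)) ((b₀, b₁, τ) : Bool × Bool × Ty n)
      ((c₀, c₁, σ) : Bool × Bool × Ty n) =
      g2 (XX (n + 2) 0) (XX (n + 2) 1) b₀ b₁ c₀ c₁ * phiK n (tl (XX (n + 2))) τ σ := rfl
  rw [h3, h0, h1, h2, ← dalg_map_g2 _ (dalgE_star _), ← dalg_map_phiK _ (dalgE_star _),
    dalg_coeff_mul]

end Crest.Agent.R217
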