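import Crest.Agent.R217.CGeo

/-! Row 217, part D: the base computation (twisted cochains on `ℤ²`, mesh `1/M`).
Definitions only: DO NOT CHANGE (owner helper92). -/

set_option autoImplicit false

namespace Crest.Agent.R217.DB

open Matrix

abbrev Z2 := ℤ × ℤ
abbrev E2 := Fin 2 → ℂ
/-- `0`-cochains (and `2`-cochains) -/
abbrev C0 := Z2 → E2
/-- `1`-cochains: `x a 0` on the edge `a → a + (1,0)`, `x a 1` on the edge `a → a + (0,1)` -/
abbrev C1 := Z2 → Fin 2 → E2

variable (M : ℕ)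

noncomputable def wp (a : Z2) : ℝ × ℝ := ((a.1 : ℝ) / M, (a.2 : ℝ) / M)

noncomputable def TT (a b : Z2) : M2 := tM (wp M a) (wp M b)

noncomputable def PP (a : Z2) : M2 := piL (wp M a)

def UU (a : Z2) : Prop := inU 1 (wp M a)

def U0 (p : Z2) : Prop := UU M p ∨ UU M (p - (1, 0)) ∨ UU M (p - (0, 1))

/-- the value at `a + σ` transported to `a` -/
noncomputable def tp (s : C0) (a σ : Z2) : E2 := TT M a (a + σ) *ᵥ s (a + σ)

noncomputable def dT (s : C0) : C1 := fun a => ![tp M s a (1, 0) - s a, tp M s a (0, 1) - s a]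

noncomputable def cT (x : C1) : C0 := fun p =>
  -(tp M (fun a => x a 0) p (0, 1) - x p 0) + (tp M (fun a => x a 1) p (1, 0) - x p 1)

/-- the twisted middle block of `g2` -/
noncomputable def GT (x : C1) : C1 := fun a =>
  ![(Complex.I / 2) • (tp M (fun a => x a 0) a (0, -1) - tp M (fun a => x a 0) a (0, 1)) +
      (Complex.I / 2) • (tp M (fun a => x a 1) a (1, 0) + tp M (fun a => x a 1) a (1, -1) +
        tp M (fun a => x a 1) a (0, -1) - x a 1),
    (-Complex.I / 2) • (tp M (fun a => x a 0) a (-1, 0) + tp M (fun a => x a 0) a (-1, 1) +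
        tp M (fun a => x a 0) a (0, 1) - x a 0) +
      (Complex.I / 2) • (tp M (fun a => x a 1) a (1, 0) - tp M (fun a => x a 1) a (-1, 0))]

noncomputable def hf (u v : E2) : ℂ := star u ⬝ᵥ hM *ᵥ v

noncomputable def Bx : Finset Z2 := Finset.Icc (-11 * M : ℤ) (11 * M) ×ˢ Finset.Icc (-11 * M : ℤ) (11 * M)

noncomputable def Bx' : Finset Z2 :=
  Finset.Icc (-11 * M - 1 : ℤ) (11 * M) ×ˢ Finset.Icc (-11 * M - 1 : ℤ) (11 * M)

noncomputable def rB (x : C1) : C1 := fun a => if a ∈ Bx M then x a else 0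

noncomputable def bt (x y : C1) : ℂ := ∑ a ∈ Bx M, ∑ i, hf (x a i) (GT M y a i)

def InV (x : C1) : Prop := ∀ a i, UU M a → PP M a *ᵥ x a i = 0

def InS (s : C0) : Prop := ∀ p, U0 M p → PP M p *ᵥ s p = 0

def InZ (z : C1) : Prop := (∀ a i, PP M a *ᵥ z a i = 0) ∧
  (∀ a, z a 0 ≠ 0 → U0 M a ∧ U0 M (a - (0, 1))) ∧ ∀ a, z a 1 ≠ 0 → U0 M a ∧ U0 M (a - (1, 0))

noncomputable def σ₁ : C0 := fun p => if dist (wp M p) p₁ < 2 then ![0, 1] else 0

noncomputable def σ₂ : C0 := fun p => if dist (wp M p) p₂ < 2 then ![1, 0] else 0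

end Crest.Agent.R217.DB
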