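import Crest.Agent.R217.DB0

/-! Row 217, part D: local identities for twisted cochains (checked numerically for `M = 8`). -/

set_option autoImplicit false

namespace Crest.Agent.R217.DB

open Matrix

variable {M : ℕ}

theorem db1_hfl (A : M2) (u v : E2) : hf (A *ᵥ u) v = star u ⬝ᵥ (star A * hM) *ᵥ v := by
  rw [hf, star_mulVec, ← dotProduct_mulVec, mulVec_mulVec, star_eq_conjTranspose]

theorem db1_hf_add (u v w : E2) : hf u (v + w) = hf u v + hf u w := by
  rw [hf, mulVec_add, dotProduct_add]; rfl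

theorem db1_hf_sub (u v w : E2) : hf u (v - w) = hf u v - hf u w := by
  rw [hf, mulVec_sub, dotProduct_sub]; rfl

theorem db1_hf_smul (c : ℂ) (u v : E2) : hf u (c • v) = c * hf u v := by
  rw [hf, mulVec_smul, dotProduct_smul]; rfl

theorem db1_add_hf (u v w : E2) : hf (u + v) w = hf u w + hf v w := by
  rw [hf, star_add, add_dotProduct]; rfl

theorem db1_sub_hf (u v w : E2) : hf (u - v) w = hf u w - hf v w := by
  rw [hf, star_sub, sub_dotProduct]; rfl

theorem db1_neg_hf (u w : E2) : hf (-u) w = -hf u w := by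
  rw [hf, star_neg, neg_dotProduct]; rfl

theorem db1_zero_hf (w : E2) : hf 0 w = 0 := by simp [hf]

theorem db1_hf_zero (w : E2) : hf w 0 = 0 := by simp [hf]

theorem db1_hf_star (u v : E2) : star (hf u v) = hf v u := by
  simp [hf, hM, dotProduct, mulVec, Fin.sum_univ_two]
  ring

theorem db1_compl {a : Z2} {u : E2} (hu : PP M a *ᵥ u = 0) : (1 - PP M a) *ᵥ u = u := by
  rw [sub_mulVec, one_mulVec, hu, sub_zero]

theorem db1_eq_zero {u : E2} (h : ∀ v, hf u v = 0) : u = 0 := by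
  have h0 := h ![0, 1]
  have h1 := h ![1, 0]
  simp [hf, hM, dotProduct, mulVec, Fin.sum_univ_two] at h0 h1
  funext i
  fin_cases i
  exacts [h0, h1]

/-- two vectors on the isotropic line are orthogonal (`piL_iso`, `piL_star`) -/
theorem hf_line {a : Z2} {u v : E2} (hu : PP M a *ᵥ u = 0) (hv : PP M a *ᵥ v = 0) : hf u v = 0 := by
  rw [← db1_compl hu, ← db1_compl hv, db1_hfl, mulVec_mulVec, star_sub, star_one, PP, piL_star,
    piL_iso, zero_mulVec, dotProduct_zero]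

/-- the line is its own orthogonal complement -/
theorem line_of_hf {a : Z2} {u : E2} (h : ∀ v, PP M a *ᵥ v = 0 → hf u v = 0) : PP M a *ᵥ u = 0 := by
  refine db1_eq_zero fun w => ?_
  have e : PP M a * hM = hM * (1 - PP M a) := by
    have h1 := piL_iso (wp M a)
    have h2 := piL_coiso (wp M a)
    rw [PP, ← sub_eq_zero, ← sub_eq_zero_of_eq (h2.trans h1.symm)]
    noncomm_ring
  rw [db1_hfl, PP, piL_star, ← PP, e, ← mulVec_mulVec]
  refine h _ ?_
  rw [mulVec_mulVec, mul_sub, mul_one, PP, piL_idem, sub_self, zero_mulVec]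

theorem eq_zero_of_hf {u : E2} (h : ∀ v, hf u v = 0) : u = 0 := by
  exact db1_eq_zero h

theorem db1_dist (hM : 8 ≤ M) {a b : Z2} (h1 : |a.1 - b.1| ≤ 1) (h2 : |a.2 - b.2| ≤ 1) :
    dist (wp M a) (wp M b) ≤ 1 / 8 := by
  have h0 : (8 : ℝ) ≤ M := by exact_mod_cast hM
  have key : ∀ x y : ℤ, |x - y| ≤ 1 → dist ((x : ℝ) / M) ((y : ℝ) / M) ≤ 1 / 8 := fun x y h => by
    have h3 : |(x : ℝ) - y| ≤ 1 := by exact_mod_cast h
    rw [Real.dist_eq, ← sub_div, abs_div, abs_of_nonneg (by linarith : (0 : ℝ) ≤ M)]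
    exact div_le_div₀ zero_le_one h3 (by norm_num) h0
  exact max_le (key _ _ h1) (key _ _ h2)

theorem db1_dist' (hM : 8 ≤ M) (a : Z2) {σ : Z2} (h1 : |σ.1| ≤ 1) (h2 : |σ.2| ≤ 1) :
    dist (wp M a) (wp M (a + σ)) ≤ 1 / 8 :=
  db1_dist hM (by simpa using h1) (by simpa using h2)

theorem db1_U0 (hM : 8 ≤ M) {p : Z2} (h : U0 M p) : inU (9 / 8) (wp M p) := by
  rcases h with h | h | h
  · exact cgeo_inU_le h (by norm_num)
  · exact inU_mono h (by linarith [db1_dist hM (a := p - (1, 0)) (b := p) (by simp) (by simp)])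
  · exact inU_mono h (by linarith [db1_dist hM (a := p - (0, 1)) (b := p) (by simp) (by simp)])

/-- transport preserves the line near `U` (`piL_parallel`; `U0` and its neighbours lie in `inU (3/2)`) -/
theorem line_tp (hM : 8 ≤ M) {a σ : Z2} (h1 : |σ.1| ≤ 1) (h2 : |σ.2| ≤ 1)
    (ha : U0 M a ∨ U0 M (a + σ)) {v : E2} (hv : PP M (a + σ) *ᵥ v = 0) :
    PP M a *ᵥ (TT M a (a + σ) *ᵥ v) = 0 := by
  have hd := db1_dist' hM a h1 h2
  have h : inU (3 / 2) (wp M a) ∧ inU (3 / 2) (wp M (a + σ)) := by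
    rcases ha with h | h
    · exact ⟨cgeo_inU_le (db1_U0 hM h) (by norm_num), inU_mono (db1_U0 hM h) (by linarith)⟩
    · exact ⟨inU_mono (db1_U0 hM h) (by rw [dist_comm]; linarith),
        cgeo_inU_le (db1_U0 hM h) (by norm_num)⟩
  rw [← db1_compl hv, mulVec_mulVec, mulVec_mulVec, PP, PP, TT,
    piL_parallel h.1 h.2 (by linarith), zero_mulVec]

theorem db1_TT_fst (a : Z2) {b c : Z2} (h : b.1 = c.1) : TT M a b = TT M a c := by
  have e : (wp M b).1 = (wp M c).1 := by simp only [wp, h]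
  rw [TT, TT, tM, tM, zM, zM, e]

theorem TT_vert (a : Z2) (k : ℤ) : TT M a (a + (0, k)) = 1 := by
  rw [db1_TT_fst a (c := a) (add_zero _), TT, tM_self]

/-- horizontal transports are mutually inverse -/
theorem TT_horiz (a : Z2) (k : ℤ) : TT M (a + (k, 0)) a * TT M a (a + (k, 0)) = 1 := by
  have e : (wp M (a + (k, 0))).2 = (wp M a).2 := by simp [wp]
  rw [TT, TT, tM, tM, e]
  split_ifs
  · rw [mul_assoc, ← mul_assoc (zM _), cgeo_zM_zI, one_mul, cgeo_zI_zM]
  · exact one_mul _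

theorem db1_lt (hM : 8 ≤ M) (x c : ℤ) : (x : ℝ) / M < c ↔ x < c * M := by
  rw [div_lt_iff₀ (by exact_mod_cast (by omega : 0 < M))]
  exact_mod_cast Iff.rfl

/-- horizontal transports: trivial except across the two cuts -/
theorem TT_step (hM : 8 ≤ M) (a : Z2) : TT M a (a + (1, 0)) =
    if a.2 < 0 ∧ a.1 = -3 * M - 1 then !![1, 1; 0, 1]
    else if a.2 < 0 ∧ a.1 = 3 * M - 1 then !![1, 0; -4, 1] else 1 := by
  have e0 : ∀ x : ℤ, (x : ℝ) / M < 0 ↔ x < 0 := fun x => by simpa using db1_lt hM x 0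
  have e1 : ∀ x : ℤ, (x : ℝ) / M < -3 ↔ x < -3 * M := fun x => by simpa using db1_lt hM x (-3)
  have e2 : ∀ x : ℤ, (x : ℝ) / M < 3 ↔ x < 3 * M := fun x => by simpa using db1_lt hM x 3
  simp only [TT, tM, zI, zM, wp, e0, e1, e2, Prod.fst_add]
  split_ifs <;> first
    | (exfalso; omega)
    | rfl
    | (ext i j; fin_cases i <;> fin_cases j <;> simp [Matrix.mul_apply, Fin.sum_univ_two] <;> norm_num)

/-- the curvature matrix -/
noncomputable def db1D (M : ℕ) (p : Z2) : M2 :=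
  if p = (-3 * (M : ℤ) - 1, -1) then !![0, 1; 0, 0]
  else if p = (3 * (M : ℤ) - 1, -1) then !![0, 0; -4, 0] else 0

theorem db1_D (hM : 8 ≤ M) (p : Z2) :
    TT M p (p + (1, 0)) = TT M (p + (0, 1)) (p + (1, 1)) + db1D M p := by
  rw [show p + (1, 1) = p + (0, 1) + (1, 0) by simp [add_assoc], TT_step hM, TT_step hM, db1D]
  simp only [Prod.ext_iff, Prod.fst_add, Prod.snd_add, add_zero]
  split_ifs <;> first
    | (exfalso; omega)
    | exact (add_zero _).symm
    | (ext i j; fin_cases i <;> fin_cases j <;> simp)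

theorem db1_HD (hM : 8 ≤ M) (p : Z2) : TT M p (p + (1, 0)) * db1D M p = db1D M p := by
  rw [TT_step hM, db1D]
  simp only [Prod.ext_iff]
  split_ifs <;> first
    | (exfalso; omega)
    | exact mul_zero _
    | (ext i j; fin_cases i <;> fin_cases j <;> simp [Matrix.mul_apply, Fin.sum_univ_two])

theorem db1_near (hM : 8 ≤ M) {a : Z2} {c : ℤ} (h1 : |a.1 - c * M| ≤ 1) (h2 : |a.2| ≤ 1) :
    dist (wp M a) ((c : ℝ), 0) < 1 := by
  have := db1_dist hM (a := a) (b := (c * M, 0)) h1 (by simpa using h2)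
  have h0 : (M : ℝ) ≠ 0 := by exact_mod_cast (by omega : M ≠ 0)
  have e : wp M (c * M, 0) = ((c : ℝ), 0) := by simp [wp, h0]
  rw [e] at this
  linarith

theorem db1_PD (hM : 8 ≤ M) (a : Z2) {p : Z2} (h : p = a ∨ p = a + (0, -1) ∨ p = a + (-1, 0)) :
    (¬UU M a → db1D M p = 0) ∧ PP M a * db1D M p = 0 := by
  have h' : (a.1 = p.1 ∨ a.1 = p.1 + 1) ∧ (a.2 = p.2 ∨ a.2 = p.2 + 1) := by
    rcases h with rfl | rfl | rfl <;> simp
  unfold db1D
  split_ifs with h1 h2
  · have h3 : dist (wp M a) p₁ < 1 := by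
      have := db1_near hM (a := a) (c := -3) (by rw [h1] at h'; rw [abs_le]; omega)
        (by rw [h1] at h'; rw [abs_le]; omega)
      rwa [Int.cast_neg, Int.cast_ofNat] at this
    refine ⟨fun h => absurd (Or.inl h3) h, ?_⟩
    rw [PP, piL, if_pos (by linarith)]
    ext i j; fin_cases i <;> fin_cases j <;> simp [Matrix.mul_apply, Fin.sum_univ_two]
  · have h3 : dist (wp M a) p₂ < 1 := by
      have := db1_near hM (a := a) (c := 3) (by rw [h2] at h'; rw [abs_le]; omega)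
        (by rw [h2] at h'; rw [abs_le]; omega)
      rwa [Int.cast_ofNat] at this
    refine ⟨fun h => absurd (Or.inr (Or.inl h3)) h, ?_⟩
    have h4 := (abs_lt.1 (cgeo_dist_lt h3)).1
    rw [PP, piL, if_neg (cgeo_not₁ (by simp only [p₂] at h4; linarith)), if_pos (by linarith)]
    ext i j; fin_cases i <;> fin_cases j <;> simp [Matrix.mul_apply, Fin.sum_univ_two]
  · exact ⟨fun _ => rfl, mul_zero _⟩

theorem db1_tp_vert (s : C0) (a : Z2) (k : ℤ) : tp M s a (0, k) = s (a + (0, k)) := by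
  rw [tp, TT_vert, one_mulVec]

theorem db1_tp (s : C0) (a : Z2) (k l : ℤ) :
    tp M s a (k, l) = TT M a (a + (k, 0)) *ᵥ s (a + (k, l)) := by
  rw [tp, db1_TT_fst a (b := a + (k, l)) (c := a + (k, 0)) rfl]

theorem db1_dT0 (s : C0) (a : Z2) : dT M s a 0 = TT M a (a + (1, 0)) *ᵥ s (a + (1, 0)) - s a := rfl

theorem db1_dT1 (s : C0) (a : Z2) : dT M s a 1 = s (a + (0, 1)) - s a :=
  congrArg (· - s a) (db1_tp_vert s a 1)

/-- curvature -/
theorem cT_dT (hM : 8 ≤ M) (s : C0) (p : Z2) : cT M (dT M s) p =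
    if p = (-3 * (M : ℤ) - 1, -1) then ![s (p + (1, 1)) 1, 0]
    else if p = (3 * (M : ℤ) - 1, -1) then ![0, -4 * s (p + (1, 1)) 0] else 0 := by
  have e : cT M (dT M s) p = db1D M p *ᵥ s (p + (1, 1)) := by
    simp only [cT, db1_tp_vert]
    simp only [db1_tp, db1_dT0, db1_dT1, add_assoc, Prod.mk_add_mk, add_zero,
      zero_add, db1_D hM p, mulVec_sub, add_mulVec]
    abel
  rw [e, db1D]
  split_ifs
  · ext i; fin_cases i <;> simp [mulVec, dotProduct, Fin.sum_univ_two]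
  · ext i; fin_cases i <;> simp [mulVec, dotProduct, Fin.sum_univ_two]
  · exact zero_mulVec _

theorem db1_G0 (hM : 8 ≤ M) (s : C0) (a : Z2) :
    GT M (dT M s) a 0 - (-Complex.I) • (tp M s a (0, -1) - s a) = (Complex.I / 2) •
      (db1D M (a + (0, -1)) *ᵥ s (a + (1, -1)) + db1D M a *ᵥ s (a + (1, 1))) := by
  have h1 := db1_D hM (a + (0, -1))
  have h2 := eq_sub_of_add_eq (db1_D hM a).symm
  simp only [add_assoc, Prod.mk_add_mk, add_zero, zero_add, neg_add_cancel, Prod.mk_zero_zero] at h1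
  simp only [GT, cons_val_zero, db1_tp_vert]
  simp only [db1_tp, db1_dT0, db1_dT1, add_assoc, Prod.mk_add_mk,
    add_zero, zero_add, neg_add_cancel, Prod.mk_zero_zero]
  rw [h1, h2]
  simp only [mulVec_sub, add_mulVec, sub_mulVec]
  module

theorem db1_G1 (hM : 8 ≤ M) (s : C0) (a : Z2) :
    GT M (dT M s) a 1 - Complex.I • (tp M s a (-1, 0) - s a) = (Complex.I / 2) •
      (db1D M (a + (-1, 0)) *ᵥ s (a + (0, 1)) + db1D M a *ᵥ s (a + (1, 1))) := by
  have h1 := eq_sub_of_add_eq (db1_D hM (a + (-1, 0))).symm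
  have h2 := eq_sub_of_add_eq (db1_D hM a).symm
  have h3 := TT_horiz (M := M) (a + (-1, 0)) 1
  have h4 := db1_HD hM (a + (-1, 0))
  simp only [add_assoc, Prod.mk_add_mk, add_zero, zero_add, neg_add_cancel, Prod.mk_zero_zero]
    at h1 h3 h4
  have h5 : TT M a (a + (-1, 0)) * db1D M (a + (-1, 0)) = db1D M (a + (-1, 0)) := by
    rw [← h4, ← mul_assoc, h3, one_mul, h4]
  simp only [GT, cons_val_one, cons_val_zero, db1_tp_vert]
  simp only [db1_tp, db1_dT0, db1_dT1, add_assoc,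
    Prod.mk_add_mk, add_zero, zero_add, neg_add_cancel, Prod.mk_zero_zero]
  rw [h1, h2]
  simp only [mulVec_sub, sub_mulVec, mulVec_mulVec, h3, h5, one_mulVec]
  module

/-- `G d = -δ⋆ φ₂₀`: exact where the transports are flat (`tM_cocycle`: if `wp a` is at distance
`≥ 1` from both centres all points within `2/M` are `farC`), and modulo the line near the centres (there
`PP a * TT b c = PP a` for all `b, c` within distance `< 2` of the centre). -/
theorem GT_dT (hM : 8 ≤ M) (s : C0) (a : Z2) :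
    (¬UU M a → GT M (dT M s) a 0 = (-Complex.I) • (tp M s a (0, -1) - s a) ∧
      GT M (dT M s) a 1 = Complex.I • (tp M s a (-1, 0) - s a)) ∧
    (UU M a → PP M a *ᵥ (GT M (dT M s) a 0 - (-Complex.I) • (tp M s a (0, -1) - s a)) = 0 ∧
      PP M a *ᵥ (GT M (dT M s) a 1 - Complex.I • (tp M s a (-1, 0) - s a)) = 0) := by
  have h0 := db1_PD hM a (Or.inl rfl)
  have h1 := db1_PD hM a (Or.inr (Or.inl rfl))
  have h2 := db1_PD hM a (Or.inr (Or.inr rfl))
  refine ⟨fun h => ⟨sub_eq_zero.1 ?_, sub_eq_zero.1 ?_⟩, fun _ => ⟨?_, ?_⟩⟩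
  · rw [db1_G0 hM, h0.1 h, h1.1 h, zero_mulVec, zero_mulVec, add_zero, smul_zero]
  · rw [db1_G1 hM, h0.1 h, h2.1 h, zero_mulVec, zero_mulVec, add_zero, smul_zero]
  · rw [db1_G0 hM, mulVec_smul, mulVec_add, mulVec_mulVec, mulVec_mulVec, h0.2, h1.2, zero_mulVec,
      zero_mulVec, add_zero, smul_zero]
  · rw [db1_G1 hM, mulVec_smul, mulVec_add, mulVec_mulVec, mulVec_mulVec, h0.2, h2.2, zero_mulVec,
      zero_mulVec, add_zero, smul_zero]

theorem db1_shift {S T : Finset Z2} (σ : Z2) (f : Z2 → ℂ) (hS : ∀ a ∉ S, f a = 0)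
    (hT : ∀ p ∉ T, f (p + σ) = 0) : ∑ a ∈ S, f a = ∑ p ∈ T, f (p + σ) := by
  rw [← finsum_eq_sum_of_support_subset f fun a ha => by_contra fun h => ha (hS a h),
    ← finsum_eq_sum_of_support_subset (fun p => f (p + σ))
      fun a ha => by_contra fun h => ha (hT a h)]
  exact (finsum_comp_equiv (Equiv.addRight σ)).symm

theorem db1_Bx {p σ : Z2} (hσ : σ = 0 ∨ σ = (1, 0) ∨ σ = (0, 1)) (h : p ∉ Bx' M) :
    p + σ ∉ Bx M := fun h1 => h (by
  simp only [Bx, Bx', Finset.mem_product, Finset.mem_Icc, Prod.fst_add, Prod.snd_add] at h1 ⊢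
  rcases hσ with rfl | rfl | rfl <;> simp only [Prod.fst_zero, Prod.snd_zero] at h1 <;> omega)

theorem db1_hf_TT (p : Z2) (u v : E2) :
    hf (TT M p (p + (1, 0)) *ᵥ u) v = hf u (TT M (p + (1, 0)) p *ᵥ v) := by
  have h := mul_eq_one_comm.1 (TT_horiz (M := M) p 1)
  rw [db1_hfl, hf, mulVec_mulVec]
  conv_rhs => rw [← tM_unitary (wp M p) (wp M (p + (1, 0))), ← TT, mul_assoc, h, mul_one]

/-- summation by parts (`tM_unitary`, `TT_horiz`, `TT_vert`) -/
theorem bt_dT (hM : 8 ≤ M) {x : C1} (hx : InV M x) (hs : ∀ a ∉ Bx M, x a = 0) (s : C0) :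
    bt M x (dT M s) = Complex.I * ∑ p ∈ Bx' M, hf (cT M x p) (s p) := by
  have e : ∀ a, ∑ i, hf (x a i) (GT M (dT M s) a i) =
      Complex.I * (-hf (x a 0) (s (a + (0, -1))) + hf (x a 0) (s a) +
        hf (x a 1) (TT M a (a + (-1, 0)) *ᵥ s (a + (-1, 0))) - hf (x a 1) (s a)) := fun a => by
    have k : hf (x a 0) (GT M (dT M s) a 0) =
        hf (x a 0) ((-Complex.I) • (tp M s a (0, -1) - s a)) ∧ hf (x a 1) (GT M (dT M s) a 1) =
        hf (x a 1) (Complex.I • (tp M s a (-1, 0) - s a)) := by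
      by_cases h : UU M a
      · have := (GT_dT hM s a).2 h
        exact ⟨sub_eq_zero.1 ((db1_hf_sub _ _ _).symm.trans (hf_line (hx a 0 h) this.1)),
          sub_eq_zero.1 ((db1_hf_sub _ _ _).symm.trans (hf_line (hx a 1 h) this.2))⟩
      · have := (GT_dT hM s a).1 h
        rw [this.1, this.2]
        exact ⟨rfl, rfl⟩
    rw [Fin.sum_univ_two, k.1, k.2, db1_tp_vert, db1_hf_smul, db1_hf_smul, db1_hf_sub, db1_hf_sub,
      tp]
    ring
  have sh : ∀ (σ : Z2) (i : Fin 2) (v : C0), σ = 0 ∨ σ = (1, 0) ∨ σ = (0, 1) →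
      ∑ a ∈ Bx M, hf (x a i) (v a) = ∑ p ∈ Bx' M, hf (x (p + σ) i) (v (p + σ)) :=
    fun σ i v hσ => db1_shift σ (fun a => hf (x a i) (v a))
      (fun a ha => by rw [hs a ha]; exact db1_zero_hf _)
      fun p hp => by rw [hs _ (db1_Bx hσ hp)]; exact db1_zero_hf _
  rw [bt, Finset.sum_congr rfl fun a _ => e a, ← Finset.mul_sum]
  congr 1
  simp only [cT, db1_tp_vert]
  simp only [db1_tp, db1_add_hf, db1_sub_hf, db1_neg_hf, db1_hf_TT,
    Finset.sum_add_distrib, Finset.sum_sub_distrib, Finset.sum_neg_distrib]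
  rw [sh (0, 1) 0 _ (by simp), sh 0 0 s (by simp), sh (1, 0) 1 _ (by simp), sh 0 1 s (by simp)]
  simp only [add_assoc, Prod.mk_add_mk, add_zero, add_neg_cancel, Prod.mk_zero_zero]
  ring

theorem InV.rB {x : C1} (hx : InV M x) : InV M (rB M x) := by
  intro a i h
  unfold DB.rB
  split_ifs
  · exact hx a i h
  · exact mulVec_zero _

/-- the elementary pairings -/
noncomputable def db1F (M : ℕ) (x y : C1) (i j : Fin 2) (σ : Z2) : ℂ :=
  ∑ a ∈ Bx M, hf (x a i) (tp M (fun b => y b j) a σ)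

theorem db1_bt (x y : C1) : bt M x y =
    Complex.I / 2 * (db1F M x y 0 0 (0, -1) - db1F M x y 0 0 (0, 1)) +
      Complex.I / 2 * (db1F M x y 0 1 (1, 0) + db1F M x y 0 1 (1, -1) + db1F M x y 0 1 (0, -1) -
        db1F M x y 0 1 (0, 0)) +
    (-Complex.I / 2 * (db1F M x y 1 0 (-1, 0) + db1F M x y 1 0 (-1, 1) + db1F M x y 1 0 (0, 1) -
        db1F M x y 1 0 (0, 0)) +
      Complex.I / 2 * (db1F M x y 1 1 (1, 0) - db1F M x y 1 1 (-1, 0))) := by
  have e : ∀ (s : C0) a, tp M s a (0, 0) = s a := fun s a => by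
    rw [db1_tp_vert, Prod.mk_zero_zero, add_zero]
  simp only [bt, db1F, Fin.sum_univ_two, GT, cons_val_zero, cons_val_one, e, db1_hf_add, db1_hf_sub,
    db1_hf_smul, Finset.sum_add_distrib, Finset.sum_sub_distrib, ← Finset.mul_sum]

theorem db1_out (hM : 8 ≤ M) {a : Z2} (h : a ∉ Bx M) : inU (-3) (wp M a) := by
  refine Or.inr (Or.inr ?_)
  have h0 : (0 : ℝ) < M := by exact_mod_cast (by omega : 0 < M)
  have key : ∀ x : ℤ, ¬(-11 * M ≤ x ∧ x ≤ 11 * M) → 8 - -3 < ‖(x : ℝ) / M‖ := fun x hx => by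
    have h1 : 11 * (M : ℤ) < |x| := by rw [lt_abs]; omega
    have h2 : 11 * (M : ℝ) < |(x : ℝ)| := by exact_mod_cast h1
    rw [Real.norm_eq_abs, abs_div, abs_of_pos h0, lt_div_iff₀ h0]
    linarith
  simp only [Bx, Finset.mem_product, Finset.mem_Icc] at h
  rcases not_and_or.1 h with h | h
  · exact (key _ h).trans_le (norm_fst_le (wp M a))
  · exact (key _ h).trans_le (norm_snd_le (wp M a))

theorem db1_vanish (hM : 8 ≤ M) {x y : C1} (hx : InV M x) (hy : InV M y) (i j : Fin 2) {a σ : Z2}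
    (h1 : |σ.1| ≤ 1) (h2 : |σ.2| ≤ 1) (ha : UU M a) (hb : UU M (a + σ)) :
    hf (x a i) (TT M a (a + σ) *ᵥ y (a + σ) j) = 0 :=
  hf_line (hx a i ha) (line_tp hM h1 h2 (Or.inl (Or.inl ha)) (hy _ j hb))

theorem db1F_rB (hM : 8 ≤ M) {x y : C1} (hx : InV M x) (hy : InV M y) (i j : Fin 2) {σ : Z2}
    (h1 : |σ.1| ≤ 1) (h2 : |σ.2| ≤ 1) : db1F M x (rB M y) i j σ = db1F M x y i j σ := by
  refine Finset.sum_congr rfl fun a _ => ?_
  simp only [tp, rB]
  split_ifs with h
  · rfl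
  · have hd := db1_dist' hM a h1 h2
    rw [db1_vanish hM hx hy i j h1 h2 (inU_mono (db1_out hM h) (by rw [dist_comm]; linarith))
      (cgeo_inU_le (db1_out hM h) (by norm_num)), Pi.zero_apply, mulVec_zero, db1_hf_zero]

/-- outside the box and next to it everything lies on the line -/
theorem bt_rB (hM : 8 ≤ M) {x y : C1} (hx : InV M x) (hy : InV M y) :
    bt M x (rB M y) = bt M x y := by
  rw [db1_bt, db1_bt]
  simp (disch := norm_num) only [db1F_rB hM hx hy]

theorem db1_notfar {a : ℝ × ℝ} (h : ¬farC a) : inU (3 / 4) a := by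
  rcases not_and_or.1 h with h | h
  · exact Or.inl (by linarith [not_lt.1 h])
  · exact Or.inr (Or.inl (by linarith [not_lt.1 h]))

theorem db1F_star (hM : 8 ≤ M) {x y : C1} (hx : InV M x) (hy : InV M y)
    (hxs : ∀ a ∉ Bx M, x a = 0) (hys : ∀ a ∉ Bx M, y a = 0) (i j : Fin 2) {k l : ℤ}
    (h1 : |k| ≤ 1) (h2 : |l| ≤ 1) : star (db1F M y x j i (k, l)) = db1F M x y i j (-k, -l) := by
  rw [db1F, db1F, star_sum, db1_shift (T := Bx M) (k, l)
    (fun a => hf (x a i) (tp M (fun b => y b j) a (-k, -l)))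
    (fun a ha => by rw [hxs a ha]; exact db1_zero_hf _) fun p hp => by
      simp only [tp, add_assoc, Prod.mk_add_mk, add_neg_cancel, Prod.mk_zero_zero, add_zero,
        hys p hp, Pi.zero_apply, mulVec_zero, db1_hf_zero]]
  refine Finset.sum_congr rfl fun a _ => ?_
  have hd := db1_dist' hM a (σ := (k, l)) h1 h2
  have e : a + (k, l) + (-k, -l) = a := by simp [add_assoc, Prod.mk_zero_zero]
  simp only [tp]
  by_cases h : farC (wp M a) ∧ farC (wp M (a + (k, l)))
  · rw [e, db1_hf_star, db1_hfl, TT, tM_star h.2 h.1 (by rw [dist_comm]; linarith), hf,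
      mulVec_mulVec, TT]
  · have hU : UU M a ∧ UU M (a + (k, l)) := by
      rcases not_and_or.1 h with h | h
      · exact ⟨cgeo_inU_le (db1_notfar h) (by norm_num), inU_mono (db1_notfar h) (by linarith)⟩
      · exact ⟨inU_mono (db1_notfar h) (by rw [dist_comm]; linarith),
          cgeo_inU_le (db1_notfar h) (by norm_num)⟩
    rw [db1_vanish hM hy hx j i (σ := (k, l)) h1 h2 hU.1 hU.2, star_zero,
      db1_vanish hM hx hy i j (σ := (-k, -l)) (by simpa using h1) (by simpa using h2) hU.2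
        (e.symm ▸ hU.1)]

/-- Hermitian symmetry: termwise by `tM_star` for `farC` pairs; other pairs lie in `UU` and both
terms vanish -/
theorem bt_symm (hM : 8 ≤ M) {x y : C1} (hx : InV M x) (hy : InV M y)
    (hxs : ∀ a ∉ Bx M, x a = 0) (hys : ∀ a ∉ Bx M, y a = 0) : bt M x y = star (bt M y x) := by
  rw [db1_bt, db1_bt]
  simp (disch := norm_num) only [star_add, star_sub, star_mul', db1F_star hM hx hy hxs hys,
    neg_zero, neg_neg, star_div₀, star_neg, star_ofNat, Complex.star_def, Complex.conj_I]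
  ring

end Crest.Agent.R217.DB
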