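import Crest.Agent.R217.DB1

/-! Row 217, part D: the isotropic subspace and the two negative classes. -/

set_option autoImplicit false

namespace Crest.Agent.R217.DB

open Matrix

variable {M : ℕ}

theorem db2_hf_add_left (u u' v : E2) : hf (u + u') v = hf u v + hf u' v := by
  simp only [hf, star_add, add_dotProduct]

theorem db2_hf_add_right (u v v' : E2) : hf u (v + v') = hf u v + hf u v' := by
  simp only [hf, mulVec_add, dotProduct_add]

theorem db2_hf_zero_left (v : E2) : hf 0 v = 0 := by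
  simp only [hf, star_zero, zero_dotProduct]

theorem db2_hf_zero_right (u : E2) : hf u 0 = 0 := by
  simp only [hf, mulVec_zero, dotProduct_zero]

theorem db2_GT_add (y y' : C1) (a : Z2) (i : Fin 2) :
    GT M (y + y') a i = GT M y a i + GT M y' a i := by
  fin_cases i
  · simp only [GT, tp, Pi.add_apply, mulVec_add, Fin.zero_eta, cons_val_zero]
    module
  · simp only [GT, tp, Pi.add_apply, mulVec_add, Fin.mk_one, cons_val_one, cons_val_zero]
    module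

theorem db2_cT_add (y y' : C1) (p : Z2) : cT M (y + y') p = cT M y p + cT M y' p := by
  simp only [cT, tp, Pi.add_apply, mulVec_add]
  abel

theorem db2_lt_div (hM : 8 ≤ M) (c x : ℤ) : (c : ℝ) < (x : ℝ) / M ↔ c * M < x := by
  have h0 : (0 : ℝ) < M := by exact_mod_cast (by omega : 0 < M)
  rw [lt_div_iff₀ h0]
  exact_mod_cast Iff.rfl

theorem db2_div_lt (hM : 8 ≤ M) (c x : ℤ) : (x : ℝ) / M < c ↔ x < c * M := by
  have h0 : (0 : ℝ) < M := by exact_mod_cast (by omega : 0 < M)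
  rw [div_lt_iff₀ h0]
  exact_mod_cast Iff.rfl

theorem db2_dist (hM : 8 ≤ M) (a : Z2) (c r : ℤ) : dist (wp M a) ((c : ℝ), (0 : ℝ)) < r ↔
    ((c - r) * M < a.1 ∧ a.1 < (c + r) * M) ∧ ((-r) * M < a.2 ∧ a.2 < r * M) := by
  rw [← db2_lt_div hM, ← db2_lt_div hM, ← db2_div_lt hM, ← db2_div_lt hM, Prod.dist_eq, max_lt_iff,
    Real.dist_eq, Real.dist_eq, abs_lt, abs_lt]
  simp only [wp]
  push_cast
  constructor
  · rintro ⟨⟨h1, h2⟩, h3, h4⟩
    exact ⟨⟨by linarith, by linarith⟩, by linarith, by linarith⟩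
  · rintro ⟨⟨h1, h2⟩, h3, h4⟩
    exact ⟨⟨by linarith, by linarith⟩, by linarith, by linarith⟩

theorem db2_d₁ (hM : 8 ≤ M) (a : Z2) : dist (wp M a) p₁ < 2 ↔
    (-5 * (M : ℤ) < a.1 ∧ a.1 < -1 * M) ∧ (-2 * (M : ℤ) < a.2 ∧ a.2 < 2 * M) := by
  have := db2_dist hM a (-3) 2
  norm_num at this
  simpa [p₁] using this

theorem db2_d₂ (hM : 8 ≤ M) (a : Z2) : dist (wp M a) p₂ < 2 ↔
    (1 * (M : ℤ) < a.1 ∧ a.1 < 5 * M) ∧ (-2 * (M : ℤ) < a.2 ∧ a.2 < 2 * M) := by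
  have := db2_dist hM a 3 2
  norm_num at this
  simpa [p₂] using this

theorem db2_UU (hM : 8 ≤ M) (a : Z2) : UU M a ↔
    ((-4 * (M : ℤ) < a.1 ∧ a.1 < -2 * M) ∧ (-1 * (M : ℤ) < a.2 ∧ a.2 < 1 * M)) ∨
    ((2 * (M : ℤ) < a.1 ∧ a.1 < 4 * M) ∧ (-1 * (M : ℤ) < a.2 ∧ a.2 < 1 * M)) ∨
    ((7 * (M : ℤ) < a.1 ∨ a.1 < -7 * M) ∨ (7 * (M : ℤ) < a.2 ∨ a.2 < -7 * M)) := by
  have h1 := db2_dist hM a (-3) 1
  have h2 := db2_dist hM a 3 1
  have h3 : (8 : ℝ) - 1 < ‖wp M a‖ ↔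
      ((7 * (M : ℤ) < a.1 ∨ a.1 < -7 * M) ∨ (7 * (M : ℤ) < a.2 ∨ a.2 < -7 * M)) := by
    rw [← db2_lt_div hM, ← db2_lt_div hM, ← db2_div_lt hM, ← db2_div_lt hM, Prod.norm_def,
      lt_max_iff, Real.norm_eq_abs, Real.norm_eq_abs, lt_abs, lt_abs]
    simp only [wp]
    push_cast
    constructor
    · rintro ((h | h) | (h | h))
      · exact Or.inl (Or.inl (by linarith))
      · exact Or.inl (Or.inr (by linarith))
      · exact Or.inr (Or.inl (by linarith))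
      · exact Or.inr (Or.inr (by linarith))
    · rintro ((h | h) | (h | h))
      · exact Or.inl (Or.inl (by linarith))
      · exact Or.inl (Or.inr (by linarith))
      · exact Or.inr (Or.inl (by linarith))
      · exact Or.inr (Or.inr (by linarith))
  norm_num at h1 h2
  unfold UU inU
  rw [h3]
  refine or_congr ?_ (or_congr ?_ Iff.rfl)
  · simpa [p₁] using h1
  · simpa [p₂] using h2

/-- a neighbourhood of `U0` in integer terms -/
def db2_N (M : ℕ) (k : ℤ) (a : Z2) : Prop :=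
  ((-4 * (M : ℤ) - k < a.1 ∧ a.1 < -2 * M + k) ∧ (-1 * (M : ℤ) - k < a.2 ∧ a.2 < 1 * M + k)) ∨
    ((2 * (M : ℤ) - k < a.1 ∧ a.1 < 4 * M + k) ∧ (-1 * (M : ℤ) - k < a.2 ∧ a.2 < 1 * M + k)) ∨
    ((7 * (M : ℤ) - k < a.1 ∨ a.1 < -7 * M + k) ∨ (7 * (M : ℤ) - k < a.2 ∨ a.2 < -7 * M + k))

theorem db2_N_of_U0 (hM : 8 ≤ M) {a : Z2} (h : U0 M a) : db2_N M 1 a := by
  unfold U0 at h
  simp only [db2_UU hM, Prod.fst_sub, Prod.snd_sub] at h
  unfold db2_N
  omega

theorem db2_mem_Bx (a : Z2) : a ∈ Bx M ↔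
    (-11 * (M : ℤ) ≤ a.1 ∧ a.1 ≤ 11 * M) ∧ (-11 * (M : ℤ) ≤ a.2 ∧ a.2 ≤ 11 * M) := by
  simp only [Bx, Finset.mem_product, Finset.mem_Icc]

theorem db2_mem_Bx' (a : Z2) : a ∈ Bx' M ↔
    (-11 * (M : ℤ) - 1 ≤ a.1 ∧ a.1 ≤ 11 * M) ∧ (-11 * (M : ℤ) - 1 ≤ a.2 ∧ a.2 ≤ 11 * M) := by
  simp only [Bx', Finset.mem_product, Finset.mem_Icc]

theorem db2_PP₁ {a : Z2} (h : dist (wp M a) p₁ < 2) : PP M a = !![0, 0; 0, 1] := by
  simp only [PP, piL, if_pos h]

theorem db2_PP₂ (hM : 8 ≤ M) {a : Z2} (h : dist (wp M a) p₂ < 2) : PP M a = !![1, 0; 0, 0] := by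
  have h' : ¬dist (wp M a) p₁ < 2 := by
    rw [db2_d₁ hM]; rw [db2_d₂ hM] at h; omega
  simp only [PP, piL, if_neg h', if_pos h]

theorem db2_σ₁_pos {a : Z2} (h : dist (wp M a) p₁ < 2) : σ₁ M a = ![0, 1] := if_pos h

theorem db2_σ₁_neg {a : Z2} (h : ¬dist (wp M a) p₁ < 2) : σ₁ M a = 0 := if_neg h

theorem db2_σ₂_pos {a : Z2} (h : dist (wp M a) p₂ < 2) : σ₂ M a = ![1, 0] := if_pos h

theorem db2_σ₂_neg {a : Z2} (h : ¬dist (wp M a) p₂ < 2) : σ₂ M a = 0 := if_neg h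

/-- near `U`, `σ₁` is locally constant -/
theorem db2_σ₁_loc (hM : 8 ≤ M) {a b : Z2} (h : db2_N M 2 a) (h1 : |b.1 - a.1| ≤ 1)
    (h2 : |b.2 - a.2| ≤ 1) : σ₁ M b = σ₁ M a := by
  have : dist (wp M b) p₁ < 2 ↔ dist (wp M a) p₁ < 2 := by
    rw [db2_d₁ hM, db2_d₁ hM]
    rw [abs_le] at h1 h2
    unfold db2_N at h
    omega
  simp only [σ₁, this]

theorem db2_σ₂_loc (hM : 8 ≤ M) {a b : Z2} (h : db2_N M 2 a) (h1 : |b.1 - a.1| ≤ 1)
    (h2 : |b.2 - a.2| ≤ 1) : σ₂ M b = σ₂ M a := by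
  have : dist (wp M b) p₂ < 2 ↔ dist (wp M a) p₂ < 2 := by
    rw [db2_d₂ hM, db2_d₂ hM]
    rw [abs_le] at h1 h2
    unfold db2_N at h
    omega
  simp only [σ₂, this]

theorem db2_σ₁_step (hM : 8 ≤ M) (a : Z2) :
    PP M a *ᵥ (TT M a (a + (1, 0)) *ᵥ σ₁ M a - σ₁ M a) = 0 := by
  by_cases h : dist (wp M a) p₁ < 2
  · rw [db2_PP₁ h, db2_σ₁_pos h, TT_step hM]
    split_ifs
    · ext i; fin_cases i <;> simp [mulVec, dotProduct, Fin.sum_univ_two]
    · ext i; fin_cases i <;> simp [mulVec, dotProduct, Fin.sum_univ_two]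
    · simp
  · rw [db2_σ₁_neg h]; simp

theorem db2_σ₂_step (hM : 8 ≤ M) (a : Z2) :
    PP M a *ᵥ (TT M a (a + (1, 0)) *ᵥ σ₂ M a - σ₂ M a) = 0 := by
  by_cases h : dist (wp M a) p₂ < 2
  · rw [db2_PP₂ hM h, db2_σ₂_pos h, TT_step hM]
    split_ifs
    · ext i; fin_cases i <;> simp [mulVec, dotProduct, Fin.sum_univ_two]
    · ext i; fin_cases i <;> simp [mulVec, dotProduct, Fin.sum_univ_two]
    · simp
  · rw [db2_σ₂_neg h]; simp

/-- the properties of `σ₁`, `σ₂` that are used -/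
structure db2_Good (M : ℕ) (σ : C0) : Prop where
  loc : ∀ a b : Z2, db2_N M 2 a → |b.1 - a.1| ≤ 1 → |b.2 - a.2| ≤ 1 → σ b = σ a
  step : ∀ a, PP M a *ᵥ (TT M a (a + (1, 0)) *ᵥ σ a - σ a) = 0
  supp : ∀ a ∉ Bx M, σ a = 0

theorem db2_good₁ (hM : 8 ≤ M) : db2_Good M (σ₁ M) :=
  ⟨fun _ _ => db2_σ₁_loc hM, db2_σ₁_step hM, fun a ha => db2_σ₁_neg (by
    rw [db2_d₁ hM]; rw [db2_mem_Bx] at ha; omega)⟩

theorem db2_good₂ (hM : 8 ≤ M) : db2_Good M (σ₂ M) :=
  ⟨fun _ _ => db2_σ₂_loc hM, db2_σ₂_step hM, fun a ha => db2_σ₂_neg (by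
    rw [db2_d₂ hM]; rw [db2_mem_Bx] at ha; omega)⟩

theorem db2_Good.line {σ : C0} (h : db2_Good M σ) {a : Z2} (ha : db2_N M 2 a) (i : Fin 2) :
    PP M a *ᵥ dT M σ a i = 0 := by
  fin_cases i
  · simp only [dT, tp, Fin.zero_eta, cons_val_zero]
    rw [h.loc a (a + (1, 0)) ha (by simp) (by simp)]
    exact h.step a
  · simp only [dT, tp, Fin.mk_one, cons_val_one, cons_val_zero]
    rw [h.loc a (a + (0, 1)) ha (by simp) (by simp), TT_vert]
    simp

theorem db2_Good.inV (hM : 8 ≤ M) {σ : C0} (h : db2_Good M σ) : InV M (dT M σ) := by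
  intro a i ha
  refine h.line ?_ i
  rw [db2_UU hM] at ha
  unfold db2_N
  omega

theorem db2_Good.dT_supp (_hM : 8 ≤ M) {σ : C0} (h : db2_Good M σ) :
    ∀ a ∉ Bx M, dT M σ a = 0 := by
  intro a ha
  have hN : db2_N M 2 a := by
    rw [db2_mem_Bx] at ha
    unfold db2_N
    omega
  have h0 := h.supp a ha
  funext i
  fin_cases i
  · simp only [dT, tp, Fin.zero_eta, cons_val_zero]
    rw [h.loc a (a + (1, 0)) hN (by simp) (by simp), h0]
    simp
  · simp only [dT, tp, Fin.mk_one, cons_val_one, cons_val_zero]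
    rw [h.loc a (a + (0, 1)) hN (by simp) (by simp), h0]
    simp

/-- the curl lies on the line if the four edge values do -/
theorem db2_cT_line (hM : 8 ≤ M) {x : C1} {p : Z2} (hp : U0 M p) (h0 : ∀ i, PP M p *ᵥ x p i = 0)
    (h1 : PP M (p + (0, 1)) *ᵥ x (p + (0, 1)) 0 = 0)
    (h2 : PP M (p + (1, 0)) *ᵥ x (p + (1, 0)) 1 = 0) : PP M p *ᵥ cT M x p = 0 := by
  have e1 := line_tp hM (σ := (0, 1)) (by simp) (by simp) (Or.inl hp) h1
  have e2 := line_tp hM (σ := (1, 0)) (by simp) (by simp) (Or.inl hp) h2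
  simp only [cT, tp, mulVec_add, mulVec_neg, mulVec_sub, e1, e2, h0, sub_zero, neg_zero, add_zero]

/-- the curvature lies on the line -/
theorem db2_curv (hM : 8 ≤ M) (s : C0) (p : Z2) :
    (¬U0 M p → cT M (dT M s) p = 0) ∧ PP M p *ᵥ cT M (dT M s) p = 0 := by
  rw [cT_dT hM]
  split_ifs with h1 h2
  · refine ⟨fun h => absurd (Or.inl ?_) h, ?_⟩
    · rw [db2_UU hM, h1]; simp only; omega
    · rw [db2_PP₁ (by rw [db2_d₁ hM, h1]; simp only; omega)]
      ext i; fin_cases i <;> simp [mulVec, dotProduct, Fin.sum_univ_two]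
  · refine ⟨fun h => absurd (Or.inl ?_) h, ?_⟩
    · rw [db2_UU hM, h2]; simp only; omega
    · rw [db2_PP₂ hM (by rw [db2_d₂ hM, h2]; simp only; omega)]
      ext i; fin_cases i <;> simp [mulVec, dotProduct, Fin.sum_univ_two]
  · exact ⟨fun _ => rfl, mulVec_zero _⟩

theorem db2_curlZ (hM : 8 ≤ M) {z : C1} (hz : InZ M z) (p : Z2) :
    (¬U0 M p → cT M z p = 0) ∧ (U0 M p → PP M p *ᵥ cT M z p = 0) := by
  refine ⟨fun h => ?_, fun h => db2_cT_line hM h (hz.1 p) (hz.1 _ _) (hz.1 _ _)⟩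
  have e0 : z p 0 = 0 := by
    by_contra h'; exact h (hz.2.1 p h').1
  have e1 : z p 1 = 0 := by
    by_contra h'; exact h (hz.2.2 p h').1
  have e2 : z (p + (0, 1)) 0 = 0 := by
    by_contra h'
    have := (hz.2.1 _ h').2
    rw [add_sub_cancel_right] at this
    exact h this
  have e3 : z (p + (1, 0)) 1 = 0 := by
    by_contra h'
    have := (hz.2.2 _ h').2
    rw [add_sub_cancel_right] at this
    exact h this
  simp only [cT, tp, e0, e1, e2, e3, mulVec_zero, sub_zero, neg_zero, add_zero]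

theorem db2_inV_add {x y : C1} (hx : InV M x) (hy : InV M y) : InV M (x + y) := by
  intro a i ha
  simp only [Pi.add_apply, mulVec_add, hx a i ha, hy a i ha, add_zero]

theorem db2_rB_supp (x : C1) : ∀ a ∉ Bx M, rB M x a = 0 := fun _ ha => if_neg ha

theorem db2_dT_zero : dT M (0 : C0) = 0 := by
  funext a i
  fin_cases i <;> simp [dT, tp]


theorem bt_add_right (x y y' : C1) : bt M x (y + y') = bt M x y + bt M x y' := by
  simp only [bt, db2_GT_add, db2_hf_add_right, Finset.sum_add_distrib]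

theorem bt_add_left (x x' y : C1) : bt M (x + x') y = bt M x y + bt M x' y := by
  simp only [bt, Pi.add_apply, db2_hf_add_left, Finset.sum_add_distrib]

theorem bt_rB_left (x y : C1) : bt M (rB M x) y = bt M x y := by
  refine Finset.sum_congr rfl fun a ha => ?_
  simp only [rB, if_pos ha]

theorem inV_dT (hM : 8 ≤ M) {s : C0} (hs : InS M s) : InV M (dT M s) := by
  intro a i ha
  have h0 := hs a (Or.inl ha)
  fin_cases i
  · have h1 := hs (a + (1, 0)) (Or.inr (Or.inl (by rwa [add_sub_cancel_right])))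
    have := line_tp hM (σ := (1, 0)) (by simp) (by simp) (Or.inl (Or.inl ha)) h1
    simp only [dT, tp, Fin.zero_eta, cons_val_zero, mulVec_sub, this, h0, sub_zero]
  · have h1 := hs (a + (0, 1)) (Or.inr (Or.inr (by rwa [add_sub_cancel_right])))
    have := line_tp hM (σ := (0, 1)) (by simp) (by simp) (Or.inl (Or.inl ha)) h1
    simp only [dT, tp, Fin.mk_one, cons_val_one, cons_val_zero, mulVec_sub, this, h0, sub_zero]

theorem InZ.inV {z : C1} (hz : InZ M z) : InV M z := fun a i _ => hz.1 a i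

theorem inV_y₁ (hM : 8 ≤ M) : InV M (dT M (σ₁ M)) := (db2_good₁ hM).inV hM

theorem inV_y₂ (hM : 8 ≤ M) : InV M (dT M (σ₂ M)) := (db2_good₂ hM).inV hM

theorem db2_bt_S (hM : 8 ≤ M) {s s' : C0} {z : C1} (hs : InV M (dT M s)) (hz : InZ M z)
    (hs' : InS M s') : bt M (dT M s + z) (dT M s') = 0 := by
  have hx : InV M (dT M s + z) := db2_inV_add hs hz.inV
  rw [← bt_rB_left, bt_dT hM hx.rB (db2_rB_supp _)]
  refine mul_eq_zero_of_right _ (Finset.sum_eq_zero fun p _ => ?_)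
  by_cases hin : p ∈ Bx M ∧ p + (0, 1) ∈ Bx M ∧ p + (1, 0) ∈ Bx M
  · have e : cT M (rB M (dT M s + z)) p = cT M (dT M s) p + cT M z p := by
      rw [← db2_cT_add]
      simp only [cT, tp, rB, if_pos hin.1, if_pos hin.2.1, if_pos hin.2.2]
    rw [e]
    by_cases hp : U0 M p
    · refine hf_line (M := M) (a := p) ?_ (hs' p hp)
      rw [mulVec_add, (db2_curv hM s p).2, (db2_curlZ hM hz p).2 hp, add_zero]
    · rw [(db2_curv hM s p).1 hp, (db2_curlZ hM hz p).1 hp, add_zero, db2_hf_zero_left]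
  · simp only [db2_mem_Bx, Prod.fst_add, Prod.snd_add] at hin
    have h0 : UU M p := by rw [db2_UU hM]; omega
    have h1 : UU M (p + (0, 1)) := by
      rw [db2_UU hM]; simp only [Prod.fst_add, Prod.snd_add]; omega
    have h2 : UU M (p + (1, 0)) := by
      rw [db2_UU hM]; simp only [Prod.fst_add, Prod.snd_add]; omega
    exact hf_line (M := M) (a := p)
      (db2_cT_line hM (Or.inl h0) (fun i => hx.rB p i h0) (hx.rB _ _ h1) (hx.rB _ _ h2))
      (hs' p (Or.inl h0))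

theorem db2_bt_symm (hM : 8 ≤ M) {x y : C1} (hx : InV M x) (hy : InV M y) :
    bt M x y = star (bt M y x) := by
  rw [← bt_rB_left x y, ← bt_rB hM hx.rB hy, bt_symm hM hx.rB hy.rB (db2_rB_supp _) (db2_rB_supp _),
    bt_rB hM hy.rB hx, bt_rB_left]

theorem db2_inZ_zero : InZ M (0 : C1) :=
  ⟨fun _ _ => mulVec_zero _, fun _ h => absurd rfl h, fun _ h => absurd rfl h⟩

theorem db2_inV_zero : InV M (dT M (0 : C0)) := by
  rw [db2_dT_zero]; exact db2_inZ_zero.inV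


/-- `bt_dT` for `rB (dT s + z)`: its curl is non-zero only at points of `U0`, and lies on the line
there (`cT_dT`, `line_tp`; near the boundary of the box everything is on the line) -/
theorem bt_S (hM : 8 ≤ M) {s s' : C0} {z : C1} (hs : InS M s) (hz : InZ M z) (hs' : InS M s') :
    bt M (dT M s + z) (dT M s') = 0 :=
  db2_bt_S hM (inV_dT hM hs) hz hs'

theorem bt_ZZ (hM : 8 ≤ M) {z z' : C1} (hz : InZ M z) (hz' : InZ M z') : bt M z z' = 0 := by
  refine Finset.sum_eq_zero fun a _ => Finset.sum_eq_zero fun i _ => ?_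
  by_cases h0 : z a i = 0
  · rw [h0, db2_hf_zero_left]
  have hU : U0 M a := by
    fin_cases i
    · exact (hz.2.1 a h0).1
    · exact (hz.2.2 a h0).1
  refine hf_line (M := M) (a := a) (hz.1 a i) ?_
  have key : ∀ (σ : Z2) (j : Fin 2), |σ.1| ≤ 1 → |σ.2| ≤ 1 →
      PP M a *ᵥ tp M (fun b => z' b j) a σ = 0 :=
    fun σ j h1 h2 => line_tp hM h1 h2 (Or.inl hU) (hz'.1 _ j)
  fin_cases i
  · simp only [GT, Fin.zero_eta, cons_val_zero, mulVec_add, mulVec_smul, mulVec_sub]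
    rw [key _ _ (by simp) (by simp), key _ _ (by simp) (by simp), key _ _ (by simp) (by simp),
      key _ _ (by simp) (by simp), key _ _ (by simp) (by simp), hz'.1]
    simp
  · simp only [GT, Fin.mk_one, cons_val_one, cons_val_zero, mulVec_add, mulVec_smul, mulVec_sub]
    rw [key _ _ (by simp) (by simp), key _ _ (by simp) (by simp), key _ _ (by simp) (by simp),
      key _ _ (by simp) (by simp), key _ _ (by simp) (by simp), hz'.1]
    simp

/-- `bt_S`, `bt_ZZ`, and `bt_symm`, `bt_rB` for the term `bt (dT s) z'` -/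
theorem bt_iso (hM : 8 ≤ M) {s s' : C0} {z z' : C1} (hs : InS M s) (hz : InZ M z) (hs' : InS M s')
    (hz' : InZ M z') : bt M (dT M s + z) (dT M s' + z') = 0 := by
  have h := db2_bt_S hM db2_inV_zero hz' hs
  rw [db2_dT_zero, zero_add] at h
  rw [bt_add_right, bt_S hM hs hz hs', bt_add_left, bt_ZZ hM hz hz',
    db2_bt_symm hM (inV_dT hM hs) hz'.inV, h]
  simp

theorem db2_bt_zy (hM : 8 ≤ M) {σ : C0} (hσ : db2_Good M σ) {z : C1} (hz : InZ M z) :
    bt M z (dT M σ) = 0 := by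
  refine Finset.sum_eq_zero fun a _ => Finset.sum_eq_zero fun i _ => ?_
  by_cases h0 : z a i = 0
  · rw [h0, db2_hf_zero_left]
  have hU : U0 M a := by
    fin_cases i
    · exact (hz.2.1 a h0).1
    · exact (hz.2.2 a h0).1
  have hN := db2_N_of_U0 hM hU
  have hN2 : db2_N M 2 a := by unfold db2_N at hN ⊢; omega
  have hN3 : db2_N M 2 (a + (-1, 0)) := by
    unfold db2_N at hN ⊢; simp only [Prod.fst_add, Prod.snd_add]; omega
  have e0 : tp M σ a (0, -1) - σ a = 0 := by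
    rw [tp, TT_vert, hσ.loc a (a + (0, -1)) hN2 (by simp) (by simp), one_mulVec, sub_self]
  have e1 : PP M a *ᵥ (tp M σ a (-1, 0) - σ a) = 0 := by
    have hb : a + (-1, 0) + (1, 0) = a := by ext <;> simp
    have h1 := line_tp hM (a := a) (σ := (-1, 0)) (by simp) (by simp) (Or.inl hU)
      (hσ.step (a + (-1, 0)))
    have h2 := TT_horiz (M := M) (a + (-1, 0)) 1
    rw [hb] at h1 h2
    rw [mulVec_sub (TT M a (a + (-1, 0))), mulVec_mulVec _ (TT M a (a + (-1, 0))), h2, one_mulVec,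
      ← neg_sub, mulVec_neg, neg_eq_zero] at h1
    have h3 : σ a = σ (a + (-1, 0)) := hσ.loc _ _ hN3 (by simp) (by simp)
    rw [tp, h3]
    exact h1
  refine hf_line (M := M) (a := a) (hz.1 a i) ?_
  obtain ⟨g1, g2⟩ := GT_dT hM σ a
  by_cases hUU : UU M a
  · obtain ⟨g3, g4⟩ := g2 hUU
    fin_cases i
    · rw [e0, smul_zero, sub_zero] at g3
      exact g3
    · rw [mulVec_sub, mulVec_smul, e1, smul_zero, sub_zero] at g4
      exact g4
  · obtain ⟨g3, g4⟩ := g1 hUU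
    fin_cases i
    · simp only [Fin.zero_eta]
      rw [g3, e0, smul_zero, mulVec_zero]
    · simp only [Fin.mk_one]
      rw [g4, mulVec_smul, e1, smul_zero]

theorem db2_bt_y (hM : 8 ≤ M) {σ : C0} (hσ : db2_Good M σ) {s : C0} {z : C1} (hs : InS M s)
    (hz : InZ M z) : bt M (dT M s + z) (dT M σ) = 0 := by
  have h := db2_bt_S hM (hσ.inV hM) db2_inZ_zero hs
  rw [add_zero] at h
  rw [bt_add_left, db2_bt_zy hM hσ hz, add_zero, db2_bt_symm hM (inV_dT hM hs) (hσ.inV hM), h,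
    star_zero]

theorem db2_bt_form (hM : 8 ≤ M) {σ : C0} (hσ : db2_Good M σ) (s : C0) :
    bt M (dT M σ) (dT M s) = Complex.I *
      (hf ![σ (-3 * (M : ℤ), 0) 1, 0] (s (-3 * (M : ℤ) - 1, -1)) +
        hf ![0, -4 * σ (3 * (M : ℤ), 0) 0] (s (3 * (M : ℤ) - 1, -1))) := by
  rw [bt_dT hM (hσ.inV hM) (hσ.dT_supp hM)]
  congr 1
  have hne : ((-3 * (M : ℤ) - 1, -1) : Z2) ≠ (3 * (M : ℤ) - 1, -1) := by
    intro h
    have := congrArg Prod.fst h
    simp only at this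
    omega
  rw [Finset.sum_eq_add_of_mem (-3 * (M : ℤ) - 1, -1) (3 * (M : ℤ) - 1, -1)
    (by rw [db2_mem_Bx']; simp only; omega) (by rw [db2_mem_Bx']; simp only; omega) hne]
  · rw [cT_dT hM, cT_dT hM, if_pos rfl, if_neg hne.symm, if_pos rfl]
    simp
  · intro c _ hc
    rw [cT_dT hM, if_neg hc.1, if_neg hc.2, db2_hf_zero_left]


/-- `bt (dT s) y = conj (bt y (dT s))` sees only the curvature of `σᵢ`, which is on the line;
`bt z y` by `GT_dT`: if `z a 0 ≠ 0` then `σᵢ (a - (0,1)) = σᵢ a`, if `z a 1 ≠ 0` then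
`tp σᵢ a (-1,0) - σᵢ a` is on the line -/
theorem bt_y (hM : 8 ≤ M) {s : C0} {z : C1} (hs : InS M s) (hz : InZ M z) :
    bt M (dT M s + z) (dT M (σ₁ M)) = 0 ∧ bt M (dT M s + z) (dT M (σ₂ M)) = 0 :=
  ⟨db2_bt_y hM (db2_good₁ hM) hs hz, db2_bt_y hM (db2_good₂ hM) hs hz⟩

/-- `bt_dT`, `cT_dT` (the `yᵢ` are supported well inside the box) -/
theorem bt_yy (hM : 8 ≤ M) : bt M (dT M (σ₁ M)) (dT M (σ₁ M)) = -1 ∧
    bt M (dT M (σ₂ M)) (dT M (σ₂ M)) = -4 ∧ bt M (dT M (σ₁ M)) (dT M (σ₂ M)) = 0 := by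
  have a1 : σ₁ M (-3 * (M : ℤ), 0) = ![0, 1] := db2_σ₁_pos (by rw [db2_d₁ hM]; simp only; omega)
  have a2 : σ₁ M (-3 * (M : ℤ) - 1, -1) = ![0, 1] :=
    db2_σ₁_pos (by rw [db2_d₁ hM]; simp only; omega)
  have a3 : σ₁ M (3 * (M : ℤ), 0) = 0 := db2_σ₁_neg (by rw [db2_d₁ hM]; simp only; omega)
  have a4 : σ₁ M (3 * (M : ℤ) - 1, -1) = 0 := db2_σ₁_neg (by rw [db2_d₁ hM]; simp only; omega)
  have b1 : σ₂ M (-3 * (M : ℤ), 0) = 0 := db2_σ₂_neg (by rw [db2_d₂ hM]; simp only; omega)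
  have b2 : σ₂ M (-3 * (M : ℤ) - 1, -1) = 0 := db2_σ₂_neg (by rw [db2_d₂ hM]; simp only; omega)
  have b3 : σ₂ M (3 * (M : ℤ), 0) = ![1, 0] := db2_σ₂_pos (by rw [db2_d₂ hM]; simp only; omega)
  have b4 : σ₂ M (3 * (M : ℤ) - 1, -1) = ![1, 0] :=
    db2_σ₂_pos (by rw [db2_d₂ hM]; simp only; omega)
  rw [db2_bt_form hM (db2_good₁ hM), db2_bt_form hM (db2_good₂ hM), db2_bt_form hM (db2_good₁ hM),
    a1, a2, a3, a4, b1, b2, b3, b4]
  refine ⟨?_, ?_, ?_⟩
  · simp [hf, R217.hM, mulVec, dotProduct, Fin.sum_univ_two]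
  · simp [hf, R217.hM, mulVec, dotProduct, Fin.sum_univ_two]
    rw [show (starRingEnd ℂ) 4 = 4 from map_ofNat _ 4]
    linear_combination 4 * Complex.I_mul_I
  · simp [hf, R217.hM, mulVec, dotProduct, Fin.sum_univ_two]

/-- test against `s = Pi.single p v` -/
theorem curl_of_perp (hM : 8 ≤ M) {x : C1} (hx : InV M x) (hs : ∀ a ∉ Bx M, x a = 0)
    (h : ∀ s, InS M s → bt M x (dT M s) = 0) (p : Z2) :
    (¬U0 M p → cT M x p = 0) ∧ (U0 M p → PP M p *ᵥ cT M x p = 0) := by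
  by_cases hp : p ∈ Bx' M
  · have key : ∀ v : E2, (U0 M p → PP M p *ᵥ v = 0) → hf (cT M x p) v = 0 := by
      intro v hv
      have hS : InS M (Pi.single p v) := by
        intro q hq
        by_cases hqp : q = p
        · subst hqp
          rw [Pi.single_eq_same]
          exact hv hq
        · rw [Pi.single_eq_of_ne hqp, mulVec_zero]
      have h1 := h _ hS
      rw [bt_dT hM hx hs, Finset.sum_eq_single_of_mem p hp, Pi.single_eq_same] at h1
      · exact (mul_eq_zero.1 h1).resolve_left Complex.I_ne_zero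
      · intro q _ hqp
        rw [Pi.single_eq_of_ne hqp, db2_hf_zero_right]
    exact ⟨fun hU => eq_zero_of_hf fun v => key v fun h' => absurd h' hU,
      fun _ => line_of_hf fun v hv => key v fun _ => hv⟩
  · rw [db2_mem_Bx'] at hp
    have e0 : x p = 0 := hs p (by rw [db2_mem_Bx]; omega)
    have e1 : x (p + (0, 1)) = 0 :=
      hs _ (by rw [db2_mem_Bx]; simp only [Prod.fst_add, Prod.snd_add]; omega)
    have e2 : x (p + (1, 0)) = 0 :=
      hs _ (by rw [db2_mem_Bx]; simp only [Prod.fst_add, Prod.snd_add]; omega)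
    have e : cT M x p = 0 := by
      simp only [cT, tp, e0, e1, e2, Pi.zero_apply, mulVec_zero, sub_zero, neg_zero, add_zero]
    rw [e]
    exact ⟨fun _ => rfl, fun _ => mulVec_zero _⟩

end Crest.Agent.R217.DB
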