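import Crest.Agent.R217.DB3Aux

/-! Row 217, part D: the relative twisted cohomology is spanned by the two classes.

Integer description (`m = M`): hole `i`: `|k - cᵢ| < m ∧ |l| < m`, `c₁ = -3m`, `c₂ = 3m`; outer part of
`UU`: `7m < |k| ∨ 7m < |l|`; the points outside the outer part of `U0` are `-7m < k, l ≤ 7m`.  With
`k₀ = c - m + 1`, `k₁ = c + m - 1`, `l₀ = -m + 1`, `l₁ = m - 1` the hole part of `U0` is
`[k₀, k₁+1] × [l₀, l₁] ∪ [k₀, k₁] × [l₀, l₁+1]`.  `PP` is `!![0,0;0,1]` near hole 1 (line `e₁`),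
`!![1,0;0,0]` near hole 2 (line `e₂`); in the outer part the line is killed by the functional
`2 v 0 + v 1` (if `l < 0`, `-3m ≤ k < 3m`) or `2 v 0 - v 1` (otherwise).

1. Integrate `x` along the row `l = 4m` and then vertically (`s₁`): `x₁ = x - dT s₁` has no vertical
part, its horizontal part `μ (k,l)` vanishes on the row `4m`, and `μ (k,l) - μ (k,l+1) = cT x₁ (k,l)`
vanishes off `U0` and is on the line on `U0` (`cT_dT`).  So for `-7m < k ≤ 7m`, `-7m < l ≤ 7m+1`: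
`μ = 0` outside the columns `[k₀, k₁+1]` and above the holes, and `μ (k,l) = μ k ∈ ℓᵢ` for `l ≤ l₀`.
2. `s₂ (k,l)`, for `l ≤ l₀`: `∑_{k₀ ≤ j < k} μ j` if `k₀ ≤ k < c`, `-∑_{k ≤ j ≤ k₁+1} μ j` if
`c ≤ k ≤ k₁+1`, else `0` (both holes).  The horizontal part of `dT s₂` is `μ k`, except on the cut
column `k = c - 1` where it is `μ k - Pᵢ`, `Pᵢ = ∑ μ j ∈ ℓᵢ`; the vertical part lives on the edges
`(k, l₀)`, `k₀ < k ≤ k₁ + 1`.
3. A constant `ξ` has `dT ξ = (gᵢ - 1) ξ` on the cut edges (`l < 0`); choose `ξ 1 = P₁ 0`,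
`-4 ξ 0 = P₂ 1`.  Then `z = x - dT (s₁ + s₂ + ξ)` is in `InZ`.
4. `s = s₁ + s₂ + ξ` has `dT s` on the line on all edges starting in `UU`.  So `s p 1` is a constant `α₁`
on the `U0`-part of hole 1, `s p 0` a constant `α₂` on that of hole 2, and in the outer part the
functional `φ p` is constant along edges except that it changes sign across the second cut
(`(2,-1) g₁ = (2,1)`, `(2,1) g₂ = -(2,-1)`); going around the square `max |k| |l| = 7m+1` gives
`φ = -φ = 0`, and every outer point is joined to that square by straight edges in `UU`.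
So `s - α₁ σ₁ - α₂ σ₂` is in `InS`. -/

set_option autoImplicit false

namespace Crest.Agent.R217.DB

open Matrix

variable {M : ℕ}

theorem d3_dT1 (s : C0) (k l : ℤ) : dT M s (k, l) 1 = s (k, l + 1) - s (k, l) := by
  have h := TT_vert (M := M) (k, l) 1
  simp only [dT, tp, h, Matrix.one_mulVec, Matrix.cons_val_one, Matrix.cons_val_zero]
  simp

theorem d3_dT0 (hM : 8 ≤ M) (s : C0) (k l : ℤ) : dT M s (k, l) 0 =
    (if l < 0 ∧ k = -3 * M - 1 then ![s (k + 1, l) 0 + s (k + 1, l) 1, s (k + 1, l) 1]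
    else if l < 0 ∧ k = 3 * M - 1 then ![s (k + 1, l) 0, -4 * s (k + 1, l) 0 + s (k + 1, l) 1]
    else s (k + 1, l)) - s (k, l) := by
  have h := TT_step hM (k, l)
  simp only [Prod.mk_add_mk, add_zero] at h
  simp only [dT, tp, Matrix.cons_val_zero, Prod.mk_add_mk, add_zero, h]
  congr 1
  split_ifs
  · ext i; fin_cases i <;> simp [Matrix.mulVec, dotProduct, Fin.sum_univ_two]
  · ext i; fin_cases i <;> simp [Matrix.mulVec, dotProduct, Fin.sum_univ_two]
  · exact Matrix.one_mulVec _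

theorem d3_dT_apply (s : C0) (a : Z2) (i : Fin 2) :
    dT M s a i = TT M a (a + ![(1, 0), (0, 1)] i) *ᵥ s (a + ![(1, 0), (0, 1)] i) - s a := by
  fin_cases i <;> rfl

theorem d3_dT_add (s t : C0) : dT M (s + t) = dT M s + dT M t := by
  funext a i
  simp only [d3_dT_apply, Pi.add_apply, Matrix.mulVec_add]
  abel

theorem d3_dT_sub (s t : C0) : dT M (s - t) = dT M s - dT M t := by
  funext a i
  simp only [d3_dT_apply, Pi.sub_apply, Matrix.mulVec_sub]
  abel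

theorem d3_dT_smul (c : ℂ) (s : C0) : dT M (c • s) = c • dT M s := by
  funext a i
  simp only [d3_dT_apply, Pi.smul_apply, Matrix.mulVec_smul, smul_sub]

theorem d3_cT_sub (x y : C1) (p : Z2) : cT M (x - y) p = cT M x p - cT M y p := by
  simp only [cT, tp, Pi.sub_apply, Matrix.mulVec_sub]
  abel

theorem d3_cT_horiz {x : C1} (hx : ∀ a, x a 1 = 0) (k l : ℤ) :
    cT M x (k, l) = x (k, l) 0 - x (k, l + 1) 0 := by
  have h := TT_vert (M := M) (k, l) 1
  simp only [cT, tp, h, hx, Matrix.one_mulVec, Matrix.mulVec_zero]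
  simp

/-- integer form of `U0` -/
def d3U0 (m k l : ℤ) : Prop := d3U m k l ∨ d3U m (k - 1) l ∨ d3U m k (l - 1)

/-- the hypothesis on the curl in integer form -/
def d3Good (M : ℕ) (x : C1) : Prop :=
  ∀ k l, d3φ M k l (cT M x (k, l)) = 0 ∧ (¬d3U0 M k l → cT M x (k, l) = 0)

theorem d3Good.sub_dT (hM : 8 ≤ M) {x : C1} (hx : d3Good M x) (s : C0) :
    d3Good M (x - dT M s) := by
  intro k l
  rw [d3_cT_sub, d3φ_sub, (hx k l).1, cT_dT hM]
  split_ifs with h1 h2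
  · obtain ⟨rfl, rfl⟩ := Prod.mk.inj h1
    refine ⟨?_, fun h => (h (Or.inl (Or.inl (by omega)))).elim⟩
    rw [d3φ, if_pos (by omega)]
    simp
  · obtain ⟨rfl, rfl⟩ := Prod.mk.inj h2
    refine ⟨?_, fun h => (h (Or.inl (Or.inr (Or.inl (by omega))))).elim⟩
    rw [d3φ, if_neg (by omega), if_pos (by omega)]
    simp
  · rw [d3φ_zero, sub_zero, sub_zero]
    exact ⟨rfl, (hx k l).2⟩

theorem d3_step1 (hM : 8 ≤ M) (x : C1) :
    ∃ s : C0, (∀ a, (x - dT M s) a 1 = 0) ∧ ∀ k, (x - dT M s) (k, 4 * (M : ℤ)) 0 = 0 := by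
  obtain ⟨F, -, hF⟩ := d3_prim (fun k => x (k, 4 * (M : ℤ)) 0) 0
  choose H hH0 hH using fun k => d3_prim (fun l => x (k, l) 1) (4 * (M : ℤ))
  refine ⟨fun p => F p.1 + H p.1 p.2, ?_, fun k => ?_⟩
  · rintro ⟨k, l⟩
    rw [Pi.sub_apply, Pi.sub_apply, d3_dT1, ← hH k l]
    abel
  · rw [Pi.sub_apply, Pi.sub_apply, d3_dT0 hM, if_neg (by omega), if_neg (by omega), ← hF k]
    simp only [hH0]
    abel

theorem d3φ_eq {m k l l' : ℤ} (hm : 0 < m)
    (h : (-2 * m < l ∧ l < 2 * m ∧ -2 * m < l' ∧ l' < 2 * m ∧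
        ((-5 * m < k ∧ k < -m) ∨ (m < k ∧ k < 5 * m))) ∨
      (l ≤ -2 * m ∧ l' ≤ -2 * m) ∨ (2 * m ≤ l ∧ 2 * m ≤ l') ∨ k ≤ -5 * m ∨ 5 * m ≤ k) (v : E2) :
    d3φ m k l v = d3φ m k l' v := by
  unfold d3φ
  split_ifs <;> first | rfl | omega

theorem d3_line {m k : ℤ} {μ : ℤ → E2} (h1 : ∀ l, d3φ m k l (μ l - μ (l + 1)) = 0) (a b c : ℤ)
    (hφ : ∀ l, min a b ≤ l → l < max a b → ∀ v, d3φ m k l v = d3φ m k c v) :
    d3φ m k c (μ b) = d3φ m k c (μ a) :=
  d3_const' (fun l => d3φ m k c (μ l)) a b fun l h2 h3 => by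
    have h4 := h1 l
    rw [hφ l h2 h3, d3φ_sub] at h4
    exact (sub_eq_zero.1 h4).symm

/-- the value below the holes -/
def d3ν (m k : ℤ) (v : E2) : E2 :=
  ![if -4 * m + 1 ≤ k ∧ k ≤ -2 * m then v 0 else 0, if 2 * m + 1 ≤ k ∧ k ≤ 4 * m then v 1 else 0]

theorem d3_col {m k : ℤ} (hm : 8 ≤ m) {μ : ℤ → E2} (h0 : μ (4 * m) = 0)
    (h1 : ∀ l, d3φ m k l (μ l - μ (l + 1)) = 0) (h2 : ∀ l, ¬d3U0 m k l → μ (l + 1) = μ l) (l : ℤ) :
    d3φ m k l (μ l - if l ≤ -m + 1 then d3ν m k (μ (-m + 1)) else 0) = 0 ∧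
      ((μ l - if l ≤ -m + 1 then d3ν m k (μ (-m + 1)) else 0) ≠ 0 →
        d3U0 m k l ∧ d3U0 m k (l - 1)) := by
  have hm0 : 0 < m := by omega
  by_cases ho : k ≤ -7 * m ∨ 7 * m < k
  · have e : d3ν m k (μ (-m + 1)) = 0 := by
      rw [d3ν, if_neg (by omega), if_neg (by omega)]
      simp
    rw [e, ite_self, sub_zero]
    refine ⟨?_, fun _ => ?_⟩
    · rw [d3_line h1 (4 * m) l l fun j _ _ => d3φ_eq hm0 (by omega), h0, d3φ_zero]
    · unfold d3U0 d3U
      omega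
  have hB : ∀ j, m < j → j ≤ 7 * m + 1 → μ j = 0 := fun j a b => by
    rw [← h0]
    refine d3_const' μ (4 * m) j fun i _ _ => h2 i ?_
    unfold d3U0 d3U
    omega
  have hN : ¬(-4 * m + 1 ≤ k ∧ k ≤ -2 * m) → ¬(2 * m + 1 ≤ k ∧ k ≤ 4 * m) →
      ∀ j, -7 * m < j → j ≤ 7 * m + 1 → μ j = 0 := fun c1 c2 j a b => by
    rw [← h0]
    refine d3_const' μ (4 * m) j fun i _ _ => h2 i ?_
    unfold d3U0 d3U
    omega
  have hC : ∀ j, -m + 1 ≤ j → j ≤ m + 1 → d3φ m k j (μ j) = 0 := fun j a b => by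
    by_cases c : (-4 * m + 1 ≤ k ∧ k ≤ -2 * m) ∨ (2 * m + 1 ≤ k ∧ k ≤ 4 * m)
    · rw [d3_line h1 (m + 1) j j fun i _ _ => d3φ_eq hm0 (by omega), hB (m + 1) (by omega) (by omega),
        d3φ_zero]
    · rw [hN (by omega) (by omega) j (by omega) (by omega), d3φ_zero]
  have hν : d3ν m k (μ (-m + 1)) = μ (-m + 1) := by
    have c := hC (-m + 1) le_rfl (by omega)
    by_cases c1 : -4 * m + 1 ≤ k ∧ k ≤ -2 * m
    · rw [d3φ, if_pos (by omega)] at c
      rw [d3ν, if_pos c1, if_neg (by omega)]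
      ext i; fin_cases i <;> simp [c]
    by_cases c2 : 2 * m + 1 ≤ k ∧ k ≤ 4 * m
    · rw [d3φ, if_neg (by omega), if_pos (by omega)] at c
      rw [d3ν, if_neg c1, if_pos c2]
      ext i; fin_cases i <;> simp [c]
    · rw [d3ν, if_neg c1, if_neg c2, hN c1 c2 _ (by omega) (by omega)]
      simp
  have hD : ∀ j, -7 * m < j → j ≤ -m + 1 → μ j = μ (-m + 1) := fun j a b => by
    refine (d3_const μ b fun i _ _ => h2 i ?_).symm
    unfold d3U0 d3U
    omega
  rw [hν]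
  by_cases r1 : l ≤ -7 * m
  · rw [if_pos (by omega)]
    refine ⟨?_, fun _ => ?_⟩
    · rw [d3φ_sub, d3_line h1 (-7 * m + 1) l l fun j _ _ => d3φ_eq hm0 (by omega),
        hD _ (by omega) (by omega), sub_self]
    · unfold d3U0 d3U
      omega
  by_cases r2 : l ≤ -m + 1
  · rw [if_pos r2, hD l (by omega) r2, sub_self, d3φ_zero]
    exact ⟨rfl, fun h => (h rfl).elim⟩
  rw [if_neg r2, sub_zero]
  by_cases r3 : l ≤ m
  · refine ⟨hC l (by omega) (by omega), fun h => ?_⟩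
    by_cases c : (-4 * m + 1 ≤ k ∧ k ≤ -2 * m) ∨ (2 * m + 1 ≤ k ∧ k ≤ 4 * m)
    · by_cases c' : l = m ∧ (k = -2 * m ∨ k = 4 * m)
      · refine (h ?_).elim
        rw [← h2 l (by unfold d3U0 d3U; omega)]
        exact hB _ (by omega) (by omega)
      · unfold d3U0 d3U
        omega
    · exact (h (hN (by omega) (by omega) l (by omega) (by omega))).elim
  by_cases r4 : l ≤ 7 * m + 1
  · rw [hB l (by omega) r4, d3φ_zero]
    exact ⟨rfl, fun h => (h rfl).elim⟩
  refine ⟨?_, fun _ => ?_⟩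
  · rw [d3_line h1 (7 * m + 1) l l fun j _ _ => d3φ_eq hm0 (by omega), hB _ (by omega) le_rfl,
      d3φ_zero]
  · unfold d3U0 d3U
    omega

theorem d3φ_one {m k l : ℤ} (h : -5 * m < k ∧ k < -m ∧ -2 * m < l ∧ l < 2 * m) (v : E2) :
    d3φ m k l v = v 1 := by
  rw [d3φ, if_pos h]

theorem d3φ_two {m k l : ℤ} (hm : 0 < m) (h : m < k ∧ k < 5 * m ∧ -2 * m < l ∧ l < 2 * m) (v : E2) :
    d3φ m k l v = v 0 := by
  rw [d3φ, if_neg (by omega), if_pos h]

theorem d3_of_zero {m k l : ℤ} {w : E2} {P : Prop} (h : w = 0) :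
    d3φ m k l w = 0 ∧ (w ≠ 0 → P) :=
  ⟨by rw [h, d3φ_zero], fun h' => (h' h).elim⟩

theorem d3_step3 (hM : 8 ≤ M) (v : ℤ → E2) : ∃ s : C0, ∀ k l,
    (d3φ M k l (dT M s (k, l) 0 - if l ≤ -(M : ℤ) + 1 then d3ν M k (v k) else 0) = 0 ∧
      ((dT M s (k, l) 0 - if l ≤ -(M : ℤ) + 1 then d3ν M k (v k) else 0) ≠ 0 →
        d3U0 M k l ∧ d3U0 M k (l - 1))) ∧
    d3φ M k l (dT M s (k, l) 1) = 0 ∧ (dT M s (k, l) 1 ≠ 0 → d3U0 M k l ∧ d3U0 M (k - 1) l) := by
  have hm : (8 : ℤ) ≤ M := by exact_mod_cast hM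
  obtain ⟨A, P, hA, hA0⟩ := d3_bump (fun k => v k 0) (lo := -4 * (M : ℤ) + 1) (c := -3 * M)
    (hi := -2 * M) (by omega) (by omega)
  obtain ⟨B, Q, hB, hB0⟩ := d3_bump (fun k => v k 1) (lo := 2 * (M : ℤ) + 1) (c := 3 * M)
    (hi := 4 * M) (by omega) (by omega)
  refine ⟨fun p => ![-Q / 4, P] + if p.2 ≤ -(M : ℤ) + 1 then ![A p.1, B p.1] else 0,
    fun k l => ⟨?_, ?_⟩⟩
  · rw [d3_dT0 hM]
    have a := hA k
    have b := hB k
    by_cases r : l ≤ -(M : ℤ) + 1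
    · simp only [if_pos r]
      refine d3_of_zero ?_
      by_cases c1 : k = -3 * M - 1
      · rw [if_pos c1] at a
        rw [if_neg (show ¬k = 3 * M - 1 by omega)] at b
        have b1 := hB0 (k + 1) (by omega)
        rw [if_pos ⟨by omega, c1⟩]
        ext i
        fin_cases i
        · simp [d3ν] at a ⊢
          linear_combination a + b1
        · simp [d3ν] at b ⊢
          linear_combination b
      rw [if_neg c1] at a
      rw [if_neg fun h => c1 h.2]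
      by_cases c2 : k = 3 * M - 1
      · rw [if_pos c2] at b
        have a1 := hA0 (k + 1) (by omega)
        rw [if_pos ⟨by omega, c2⟩]
        ext i
        fin_cases i
        · simp [d3ν] at a ⊢
          linear_combination a
        · simp [d3ν] at b ⊢
          linear_combination b - 4 * a1
      · rw [if_neg c2] at b
        rw [if_neg fun h => c2 h.2]
        ext i
        fin_cases i
        · simp [d3ν] at a ⊢
          linear_combination a
        · simp [d3ν] at b ⊢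
          linear_combination b
    · simp only [if_neg r, add_zero, sub_zero]
      split_ifs with c1 c2
      · refine ⟨?_, fun _ => ?_⟩
        · rw [d3φ_one (by omega)]
          simp
        · unfold d3U0 d3U
          omega
      · refine ⟨?_, fun _ => ?_⟩
        · rw [d3φ_two (by omega) (by omega)]
          simp
        · unfold d3U0 d3U
          omega
      · rw [sub_self, d3φ_zero]
        exact ⟨rfl, fun h => (h rfl).elim⟩
  · rw [d3_dT1]
    by_cases r : l = -(M : ℤ) + 1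
    · simp only [if_neg (show ¬l + 1 ≤ -(M : ℤ) + 1 by omega), if_pos r.le]
      by_cases c1 : -4 * (M : ℤ) + 1 < k ∧ k ≤ -2 * M
      · refine ⟨?_, fun _ => ?_⟩
        · rw [d3φ_one (by omega)]
          simp [hB0 k (by omega)]
        · unfold d3U0 d3U
          omega
      by_cases c2 : 2 * (M : ℤ) + 1 < k ∧ k ≤ 4 * M
      · refine ⟨?_, fun _ => ?_⟩
        · rw [d3φ_two (by omega) (by omega)]
          simp [hA0 k (by omega)]
        · unfold d3U0 d3U
          omega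
      · refine d3_of_zero ?_
        ext i
        fin_cases i <;> simp [hA0 k (by omega), hB0 k (by omega)]
    · refine d3_of_zero ?_
      by_cases r' : l ≤ -(M : ℤ) + 1
      · simp only [if_pos r', if_pos (show l + 1 ≤ -(M : ℤ) + 1 by omega), sub_self]
      · simp only [if_neg r', if_neg (show ¬l + 1 ≤ -(M : ℤ) + 1 by omega), sub_self]

/-- the outer functional -/
def d3ψ (m k l : ℤ) (v : E2) : ℂ :=
  if l < 0 ∧ -3 * m ≤ k ∧ k < 3 * m then 2 * v 0 + v 1 else 2 * v 0 - v 1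

theorem d3φ_out {m k l : ℤ} (h : k ≤ -5 * m ∨ 5 * m ≤ k ∨ l ≤ -2 * m ∨ 2 * m ≤ l) (hm : 0 < m)
    (v : E2) : d3φ m k l v = d3ψ m k l v := by
  rw [d3φ, if_neg (by omega), if_neg (by omega), d3ψ]

theorem d3_outer (hM : 8 ≤ M) {s : C0} (hs : InV M (dT M s)) (k l : ℤ)
    (h : k ≤ -7 * (M : ℤ) ∨ 7 * (M : ℤ) < k ∨ l ≤ -7 * (M : ℤ) ∨ 7 * (M : ℤ) < l)
    (hU : d3U0 M k l) : d3ψ M k l (s (k, l)) = 0 := by
  have hm : (8 : ℤ) ≤ M := by exact_mod_cast hM
  have hH : ∀ k l : ℤ, (k < -7 * (M : ℤ) ∨ 7 * (M : ℤ) < k ∨ l < -7 * (M : ℤ) ∨ 7 * (M : ℤ) < l) →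
      d3ψ M (k + 1) l (s (k + 1, l)) =
        (if l < 0 ∧ k = 3 * M - 1 then -1 else 1) * d3ψ M k l (s (k, l)) := by
    intro k l h
    have e := (d3_PP hM k l _).1 (hs (k, l) 0 ((d3_UU hM k l).2 (Or.inr (Or.inr h))))
    rw [d3φ_out (by omega) (by omega), d3_dT0 hM] at e
    unfold d3ψ at e ⊢
    split_ifs at e ⊢ <;> first
      | omega
      | (simp only [Pi.sub_apply, Matrix.cons_val_zero, Matrix.cons_val_one] at e
         first | linear_combination e | linear_combination -e)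
  have hV : ∀ k l : ℤ, (k < -7 * (M : ℤ) ∨ 7 * (M : ℤ) < k ∨ l < -7 * (M : ℤ) ∨ 7 * (M : ℤ) < l) →
      d3ψ M k (l + 1) (s (k, l + 1)) = d3ψ M k l (s (k, l)) := by
    intro k l h
    have e := (d3_PP hM k l _).1 (hs (k, l) 1 ((d3_UU hM k l).2 (Or.inr (Or.inr h))))
    rw [d3φ_out (by omega) (by omega), d3_dT1] at e
    unfold d3ψ at e ⊢
    split_ifs at e ⊢ <;> first
      | omega
      | (simp only [Pi.sub_apply] at e
         linear_combination e)
  have col : ∀ k l l' : ℤ, (k < -7 * (M : ℤ) ∨ 7 * (M : ℤ) < k) →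
      d3ψ M k l (s (k, l)) = d3ψ M k l' (s (k, l')) := fun k l l' h =>
    d3_const' (fun l => d3ψ M k l (s (k, l))) l' l fun j _ _ => hV k j (by omega)
  have row : ∀ k k' l : ℤ, (l < -7 * (M : ℤ) ∨ 7 * (M : ℤ) < l) →
      (0 ≤ l ∨ (k < 3 * M ∧ k' < 3 * M) ∨ (3 * (M : ℤ) ≤ k ∧ 3 * (M : ℤ) ≤ k')) →
      d3ψ M k l (s (k, l)) = d3ψ M k' l (s (k', l)) := fun k k' l h h' =>
    d3_const' (fun k => d3ψ M k l (s (k, l))) k' k fun j _ _ => by
      rw [hH j l (by omega), if_neg (by omega), one_mul]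
  have loop : d3ψ M (8 * M) (8 * M) (s (8 * M, 8 * M)) = 0 := by
    have e1 := col (8 * M) (8 * M) (-8 * M) (by omega)
    have e2 := row (8 * M) (3 * M - 1 + 1) (-8 * M) (by omega) (by omega)
    have e3 := hH (3 * M - 1) (-8 * M) (by omega)
    rw [if_pos (by omega)] at e3
    have e4 := row (3 * M - 1) (-8 * M) (-8 * M) (by omega) (by omega)
    have e5 := col (-8 * M) (-8 * M) (8 * M) (by omega)
    have e6 := row (-8 * M) (8 * M) (8 * M) (by omega) (by omega)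
    linear_combination (1 / 2) * (e1 + e2 + e3 - e4 - e5 - e6)
  have z1 : ∀ k l : ℤ, (k < -7 * (M : ℤ) ∨ 7 * (M : ℤ) < k) → d3ψ M k l (s (k, l)) = 0 := by
    intro k l h
    rw [col k l (8 * M) h, row k (8 * M) (8 * M) (by omega) (by omega), loop]
  have z2 : ∀ k l : ℤ, (k < -7 * (M : ℤ) ∨ 7 * (M : ℤ) < k ∨ l < -7 * (M : ℤ) ∨ 7 * (M : ℤ) < l) →
      d3ψ M k l (s (k, l)) = 0 := by
    intro k l h
    by_cases c : k < -7 * (M : ℤ) ∨ 7 * (M : ℤ) < k
    · exact z1 k l c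
    by_cases c' : k < 3 * M
    · rw [row k (-8 * M) l (by omega) (by omega), z1 _ _ (by omega)]
    · rw [row k (8 * M) l (by omega) (by omega), z1 _ _ (by omega)]
  rcases hU with hU | hU | hU
  · exact z2 k l (by unfold d3U at hU; omega)
  · have e := hH (k - 1) l (by unfold d3U at hU; omega)
    rwa [z2 (k - 1) l (by unfold d3U at hU; omega), mul_zero, sub_add_cancel] at e
  · have e := hV k (l - 1) (by unfold d3U at hU; omega)
    rwa [z2 k (l - 1) (by unfold d3U at hU; omega), sub_add_cancel] at e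

theorem d3_hole {V : Type*} {m c : ℤ} (hm : 0 < m) (f : ℤ → ℤ → V)
    (hH : ∀ k l, c - m < k → k < c + m → -m < l → l < m → f (k + 1) l = f k l)
    (hV : ∀ k l, c - m < k → k < c + m → -m < l → l < m → f k (l + 1) = f k l) (k l : ℤ)
    (h : (c - m < k ∧ k ≤ c + m ∧ -m < l ∧ l < m) ∨ (c - m < k ∧ k < c + m ∧ l = m)) :
    f k l = f c 0 := by
  have e : ∀ k l, c - m < k → k ≤ c + m → -m < l → l < m → f k l = f c 0 := by
    intro k l h1 h2 h3 h4
    have e1 : f k l = f c l :=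
      d3_const' (fun k => f k l) c k fun j _ _ => hH j l (by omega) (by omega) h3 h4
    have e2 : f c l = f c 0 :=
      d3_const' (f c) 0 l fun j _ _ => hV c j (by omega) (by omega) (by omega) (by omega)
    rw [e1, e2]
  rcases h with h | h
  · exact e k l h.1 h.2.1 h.2.2.1 h.2.2.2
  · have e1 := hV k (m - 1) h.1 h.2.1 (by omega) (by omega)
    rw [sub_add_cancel] at e1
    rw [h.2.2, e1]
    exact e k (m - 1) h.1 h.2.1.le (by omega) (by omega)

/-- steps 1-3 -/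
theorem exists_primitive (hM : 8 ≤ M) {x : C1}
    (h : ∀ p, (¬U0 M p → cT M x p = 0) ∧ (U0 M p → PP M p *ᵥ cT M x p = 0)) :
    ∃ s : C0, InZ M (x - dT M s) := by
  have hm : (8 : ℤ) ≤ M := by exact_mod_cast hM
  have hx : d3Good M x := fun k l => by
    by_cases c : U0 M (k, l)
    · exact ⟨(d3_PP hM k l _).1 ((h _).2 c), fun c' => (c' ((d3_U0 hM k l).1 c)).elim⟩
    · exact ⟨by rw [(h _).1 c, d3φ_zero], fun _ => (h _).1 c⟩
  obtain ⟨s₁, h1, h0⟩ := d3_step1 hM x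
  have hg := hx.sub_dT hM s₁
  obtain ⟨s₂, h2⟩ := d3_step3 hM fun k => (x - dT M s₁) (k, -(M : ℤ) + 1) 0
  have key : ∀ k l, _ := fun k l => d3_col (k := k) hm (μ := fun l => (x - dT M s₁) (k, l) 0) (h0 k)
    (fun l => by rw [← d3_cT_horiz h1]; exact (hg k l).1)
    (fun l c => by
      have e := (hg k l).2 c
      rw [d3_cT_horiz h1] at e
      exact (sub_eq_zero.1 e).symm) l
  refine ⟨s₁ + s₂, ?_⟩
  rw [d3_dT_add, ← sub_sub]
  generalize x - dT M s₁ = y at h1 h2 key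
  have e0 : ∀ k l, (y - dT M s₂) (k, l) 0 =
      (y (k, l) 0 - if l ≤ -(M : ℤ) + 1 then d3ν M k (y (k, -(M : ℤ) + 1) 0) else 0) -
      (dT M s₂ (k, l) 0 - if l ≤ -(M : ℤ) + 1 then d3ν M k (y (k, -(M : ℤ) + 1) 0) else 0) := by
    intro k l
    rw [Pi.sub_apply, Pi.sub_apply]
    abel
  have e1 : ∀ k l, (y - dT M s₂) (k, l) 1 = 0 - dT M s₂ (k, l) 1 := by
    intro k l
    rw [Pi.sub_apply, Pi.sub_apply, h1]
  refine ⟨?_, ?_, ?_⟩
  · rintro ⟨k, l⟩ i
    rw [d3_PP hM]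
    fin_cases i
    · show d3φ M k l ((y - dT M s₂) (k, l) 0) = 0
      rw [e0, d3φ_sub, (key k l).1, (h2 k l).1.1, sub_zero]
    · show d3φ M k l ((y - dT M s₂) (k, l) 1) = 0
      rw [e1, d3φ_sub, (h2 k l).2.1, d3φ_zero, sub_zero]
  · rintro ⟨k, l⟩ hne
    rw [Prod.mk_sub_mk, sub_zero, d3_U0 hM, d3_U0 hM]
    rw [e0] at hne
    by_contra c
    refine hne ?_
    rw [not_not.1 (mt (key k l).2 c), not_not.1 (mt (h2 k l).1.2 c), sub_zero]
  · rintro ⟨k, l⟩ hne
    rw [Prod.mk_sub_mk, sub_zero, d3_U0 hM, d3_U0 hM]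
    rw [e1] at hne
    refine (h2 k l).2.2 fun c => hne ?_
    rw [c, sub_zero]

/-- step 4 -/
theorem exists_alpha (hM : 8 ≤ M) {s : C0} (hs : InV M (dT M s)) :
    ∃ α₁ α₂ : ℂ, InS M (s - α₁ • σ₁ M - α₂ • σ₂ M) := by
  have hm : (8 : ℤ) ≤ M := by exact_mod_cast hM
  refine ⟨s (-3 * M, 0) 1, s (3 * M, 0) 0, ?_⟩
  rintro ⟨k, l⟩ hU
  rw [d3_U0 hM] at hU
  rw [d3_PP hM]
  by_cases c : k ≤ -7 * (M : ℤ) ∨ 7 * (M : ℤ) < k ∨ l ≤ -7 * (M : ℤ) ∨ 7 * (M : ℤ) < l
  · rw [d3φ_out (by omega) (by omega), ← d3_outer hM hs k l c hU]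
    congr 1
    simp only [Pi.sub_apply, Pi.smul_apply, σ₁, σ₂, d3_near1 hM, d3_near2 hM]
    rw [if_neg (by omega), if_neg (by omega), smul_zero, smul_zero, sub_zero, sub_zero]
  unfold d3U at hU
  by_cases c1 : k < 0
  · have e := d3_hole (m := M) (c := -3 * M) (by omega) (fun k l => s (k, l) 1)
      (fun k l h1 h2 h3 h4 => by
        have e := (d3_PP hM k l _).1 (hs (k, l) 0 ((d3_UU hM k l).2 (Or.inl (by omega))))
        rw [d3φ_one (by omega), d3_dT0 hM] at e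
        split_ifs at e <;> first
          | omega
          | (simp only [Pi.sub_apply, Matrix.cons_val_zero, Matrix.cons_val_one] at e
             exact sub_eq_zero.1 e))
      (fun k l h1 h2 h3 h4 => by
        have e := (d3_PP hM k l _).1 (hs (k, l) 1 ((d3_UU hM k l).2 (Or.inl (by omega))))
        rw [d3φ_one (by omega), d3_dT1] at e
        exact sub_eq_zero.1 e) k l (by omega)
    rw [d3φ_one (by omega)]
    simp only [Pi.sub_apply, Pi.smul_apply, σ₁, σ₂, d3_near1 hM, d3_near2 hM]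
    rw [if_pos (by omega), if_neg (by omega)]
    simpa [sub_eq_zero] using e
  · have e := d3_hole (m := M) (c := 3 * M) (by omega) (fun k l => s (k, l) 0)
      (fun k l h1 h2 h3 h4 => by
        have e := (d3_PP hM k l _).1 (hs (k, l) 0 ((d3_UU hM k l).2 (Or.inr (Or.inl (by omega)))))
        rw [d3φ_two (by omega) (by omega), d3_dT0 hM] at e
        split_ifs at e <;> first
          | omega
          | (simp only [Pi.sub_apply, Matrix.cons_val_zero, Matrix.cons_val_one] at e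
             exact sub_eq_zero.1 e))
      (fun k l h1 h2 h3 h4 => by
        have e := (d3_PP hM k l _).1 (hs (k, l) 1 ((d3_UU hM k l).2 (Or.inr (Or.inl (by omega)))))
        rw [d3φ_two (by omega) (by omega), d3_dT1] at e
        exact sub_eq_zero.1 e) k l (by omega)
    rw [d3φ_two (by omega) (by omega)]
    simp only [Pi.sub_apply, Pi.smul_apply, σ₁, σ₂, d3_near1 hM, d3_near2 hM]
    rw [if_neg (by omega), if_pos (by omega)]
    simpa [sub_eq_zero] using e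

theorem decomp (hM : 8 ≤ M) {x : C1} (hx : InV M x)
    (h : ∀ p, (¬U0 M p → cT M x p = 0) ∧ (U0 M p → PP M p *ᵥ cT M x p = 0)) :
    ∃ (s : C0) (z : C1) (α₁ α₂ : ℂ), InS M s ∧ InZ M z ∧
      x = dT M s + z + α₁ • dT M (σ₁ M) + α₂ • dT M (σ₂ M) := by
  obtain ⟨s, hz⟩ := exists_primitive hM h
  have hs : InV M (dT M s) := fun a i ha => by
    have e := hz.1 a i
    rw [Pi.sub_apply, Pi.sub_apply, Matrix.mulVec_sub, hx a i ha, zero_sub, neg_eq_zero] at e
    exact e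
  obtain ⟨α₁, α₂, hα⟩ := exists_alpha hM hs
  refine ⟨_, _, α₁, α₂, hα, hz, ?_⟩
  rw [d3_dT_sub, d3_dT_sub, d3_dT_smul, d3_dT_smul]
  abel

end Crest.Agent.R217.DB
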