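import Crest.Agent.R217.DB1

/-! Row 217, part D: integer descriptions of the zones and one-dimensional sums (used by `DB3`). -/

set_option autoImplicit false

namespace Crest.Agent.R217.DB

open Matrix

variable {M : ℕ}

theorem d3_lt (hM : 8 ≤ M) (k c : ℤ) : (k : ℝ) / M < c ↔ k < c * M := by
  have h0 : (0 : ℝ) < M := by exact_mod_cast (show 0 < M by omega)
  rw [div_lt_iff₀ h0]
  exact_mod_cast Iff.rfl

theorem d3_gt (hM : 8 ≤ M) (k c : ℤ) : (c : ℝ) < (k : ℝ) / M ↔ c * M < k := by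
  have h0 : (0 : ℝ) < M := by exact_mod_cast (show 0 < M by omega)
  rw [lt_div_iff₀ h0]
  exact_mod_cast Iff.rfl

theorem d3_dist (hM : 8 ≤ M) (k l c r : ℤ) : dist (wp M (k, l)) ((c : ℝ), (0 : ℝ)) < r ↔
    (c - r) * M < k ∧ k < (c + r) * M ∧ -r * M < l ∧ l < r * M := by
  rw [Prod.dist_eq, max_lt_iff, Real.dist_eq, Real.dist_eq, abs_lt, abs_lt,
    ← d3_lt hM, ← d3_lt hM, ← d3_gt hM, ← d3_gt hM]
  simp only [wp]
  push_cast
  constructor
  · rintro ⟨⟨h1, h2⟩, h3, h4⟩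
    refine ⟨?_, ?_, ?_, ?_⟩ <;> linarith
  · rintro ⟨h1, h2, h3, h4⟩
    refine ⟨⟨?_, ?_⟩, ?_, ?_⟩ <;> linarith

theorem d3_p1 (hM : 8 ≤ M) (k l r : ℤ) : dist (wp M (k, l)) p₁ < r ↔
    (-3 - r) * M < k ∧ k < (-3 + r) * M ∧ -r * M < l ∧ l < r * M := by
  rw [← d3_dist hM]
  simp [p₁]

theorem d3_p2 (hM : 8 ≤ M) (k l r : ℤ) : dist (wp M (k, l)) p₂ < r ↔
    (3 - r) * M < k ∧ k < (3 + r) * M ∧ -r * M < l ∧ l < r * M := by
  rw [← d3_dist hM]
  simp [p₂]

theorem d3_norm (hM : 8 ≤ M) (k l : ℤ) : (8 : ℝ) - 1 < ‖wp M (k, l)‖ ↔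
    k < -7 * M ∨ 7 * (M : ℤ) < k ∨ l < -7 * M ∨ 7 * (M : ℤ) < l := by
  rw [Prod.norm_def, lt_max_iff, Real.norm_eq_abs, Real.norm_eq_abs, lt_abs, lt_abs,
    ← d3_lt hM, ← d3_lt hM, ← d3_gt hM, ← d3_gt hM]
  simp only [wp]
  push_cast
  constructor
  · rintro ((h | h) | h | h)
    · exact Or.inr (Or.inl (by linarith))
    · exact Or.inl (by linarith)
    · exact Or.inr (Or.inr (Or.inr (by linarith)))
    · exact Or.inr (Or.inr (Or.inl (by linarith)))
  · rintro (h | h | h | h)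
    · exact Or.inl (Or.inr (by linarith))
    · exact Or.inl (Or.inl (by linarith))
    · exact Or.inr (Or.inr (by linarith))
    · exact Or.inr (Or.inl (by linarith))

/-- integer form of `UU` -/
def d3U (m k l : ℤ) : Prop :=
  (-4 * m < k ∧ k < -2 * m ∧ -m < l ∧ l < m) ∨ (2 * m < k ∧ k < 4 * m ∧ -m < l ∧ l < m) ∨
    k < -7 * m ∨ 7 * m < k ∨ l < -7 * m ∨ 7 * m < l

theorem d3_UU (hM : 8 ≤ M) (k l : ℤ) : UU M (k, l) ↔ d3U M k l := by
  have h1 := d3_p1 hM k l 1
  have h2 := d3_p2 hM k l 1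
  rw [Int.cast_one] at h1 h2
  rw [UU, inU, h1, h2, d3_norm hM, d3U]
  omega

theorem d3_U0 (hM : 8 ≤ M) (k l : ℤ) :
    U0 M (k, l) ↔ d3U M k l ∨ d3U M (k - 1) l ∨ d3U M k (l - 1) := by
  rw [U0, Prod.mk_sub_mk, Prod.mk_sub_mk, sub_zero, sub_zero, d3_UU hM, d3_UU hM, d3_UU hM]

/-- the functional that kills the line -/
def d3φ (m k l : ℤ) (v : E2) : ℂ :=
  if -5 * m < k ∧ k < -m ∧ -2 * m < l ∧ l < 2 * m then v 1
  else if m < k ∧ k < 5 * m ∧ -2 * m < l ∧ l < 2 * m then v 0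
  else if l < 0 ∧ -3 * m ≤ k ∧ k < 3 * m then 2 * v 0 + v 1 else 2 * v 0 - v 1

theorem d3_near1 (hM : 8 ≤ M) (k l : ℤ) : dist (wp M (k, l)) p₁ < 2 ↔
    -5 * (M : ℤ) < k ∧ k < -(M : ℤ) ∧ -2 * (M : ℤ) < l ∧ l < 2 * (M : ℤ) := by
  have h1 := d3_p1 hM k l 2
  rw [Int.cast_ofNat] at h1
  rw [h1]
  omega

theorem d3_near2 (hM : 8 ≤ M) (k l : ℤ) : dist (wp M (k, l)) p₂ < 2 ↔
    (M : ℤ) < k ∧ k < 5 * (M : ℤ) ∧ -2 * (M : ℤ) < l ∧ l < 2 * (M : ℤ) := by
  have h1 := d3_p2 hM k l 2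
  rw [Int.cast_ofNat] at h1
  rw [h1]
  omega

theorem d3_PP (hM : 8 ≤ M) (k l : ℤ) (v : E2) : PP M (k, l) *ᵥ v = 0 ↔ d3φ M k l v = 0 := by
  have h3 : ((wp M (k, l)).2 < 0 ∧ -3 ≤ (wp M (k, l)).1 ∧ (wp M (k, l)).1 < 3) ↔
      (l < 0 ∧ -3 * (M : ℤ) ≤ k ∧ k < 3 * (M : ℤ)) := by
    have a1 := d3_lt hM l 0
    have a2 := d3_lt hM k (-3)
    have a3 := d3_lt hM k 3
    push_cast at a1 a2 a3
    simp only [wp]
    rw [a1, a3, ← not_lt, a2]
    omega
  unfold PP piL d3φ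
  simp only [d3_near1 hM, d3_near2 hM, h3]
  split_ifs
  · simp [funext_iff, Fin.forall_fin_two, dotProduct, Fin.sum_univ_two]
  · simp [funext_iff, Fin.forall_fin_two, dotProduct, Fin.sum_univ_two]
  · simp only [funext_iff, Fin.forall_fin_two, Matrix.mulVec, dotProduct, Fin.sum_univ_two,
      Matrix.of_apply, Matrix.cons_val', Matrix.cons_val_zero, Matrix.cons_val_one,
      Matrix.cons_val_fin_one, Pi.zero_apply]
    constructor
    · rintro ⟨h1, -⟩
      linear_combination (5 / 2) * h1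
    · intro h1
      exact ⟨by linear_combination (2 / 5) * h1, by linear_combination (1 / 5) * h1⟩
  · simp only [funext_iff, Fin.forall_fin_two, Matrix.mulVec, dotProduct, Fin.sum_univ_two,
      Matrix.of_apply, Matrix.cons_val', Matrix.cons_val_zero, Matrix.cons_val_one,
      Matrix.cons_val_fin_one, Pi.zero_apply]
    constructor
    · rintro ⟨h1, -⟩
      linear_combination (5 / 2) * h1
    · intro h1
      exact ⟨by linear_combination (2 / 5) * h1, by linear_combination (-1 / 5) * h1⟩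

theorem d3φ_sub (m k l : ℤ) (u v : E2) : d3φ m k l (u - v) = d3φ m k l u - d3φ m k l v := by
  unfold d3φ
  split_ifs <;> simp only [Pi.sub_apply] <;> ring

theorem d3φ_zero (m k l : ℤ) : d3φ m k l 0 = 0 := by
  unfold d3φ
  split_ifs <;> simp

theorem d3_const {V : Type*} (f : ℤ → V) {a b : ℤ} (hab : a ≤ b)
    (h : ∀ l, a ≤ l → l < b → f (l + 1) = f l) : f b = f a := by
  induction b, hab using Int.leInduction with
  | base => rfl
  | succ n hn ih => rw [h n hn (by omega), ih fun l h1 h2 => h l h1 (by omega)]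

theorem d3_const' {V : Type*} (f : ℤ → V) (a b : ℤ)
    (h : ∀ l, min a b ≤ l → l < max a b → f (l + 1) = f l) : f b = f a := by
  rcases le_total a b with hab | hab
  · exact d3_const f hab fun l h1 h2 => h l (by omega) (by omega)
  · exact (d3_const f hab fun l h1 h2 => h l (by omega) (by omega)).symm

theorem d3_prim {V : Type*} [AddCommGroup V] (f : ℤ → V) (b : ℤ) :
    ∃ F : ℤ → V, F b = 0 ∧ ∀ k, F (k + 1) - F k = f k := by
  refine ⟨fun k => ∑ j ∈ Finset.Ico b k, f j - ∑ j ∈ Finset.Ico k b, f j, by simp, fun k => ?_⟩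
  beta_reduce
  rcases le_or_gt b k with h | h
  · have e1 : Finset.Ico b (k + 1) = insert k (Finset.Ico b k) := by
      ext j; simp only [Finset.mem_Ico, Finset.mem_insert]; omega
    rw [e1, Finset.sum_insert (by simp), Finset.Ico_eq_empty (show ¬k + 1 < b by omega),
      Finset.Ico_eq_empty (show ¬k < b by omega)]
    simp
  · have e1 : Finset.Ico k b = insert k (Finset.Ico (k + 1) b) := by
      ext j; simp only [Finset.mem_Ico, Finset.mem_insert]; omega
    rw [e1, Finset.sum_insert (by simp), Finset.Ico_eq_empty (show ¬b < k + 1 by omega),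
      Finset.Ico_eq_empty (show ¬b < k by omega)]
    simp

theorem d3_bump (a : ℤ → ℂ) {lo c hi : ℤ} (h1 : lo < c) (h2 : c ≤ hi) :
    ∃ (A : ℤ → ℂ) (P : ℂ), (∀ k, A (k + 1) - A k =
      (if lo ≤ k ∧ k ≤ hi then a k else 0) - if k = c - 1 then P else 0) ∧
      ∀ k, k ≤ lo ∨ hi < k → A k = 0 := by
  obtain ⟨F, hF0, hF⟩ := d3_prim (fun k => if lo ≤ k ∧ k ≤ hi then a k else 0) lo
  refine ⟨fun k => F k - if c ≤ k then F (hi + 1) else 0, F (hi + 1), fun k => ?_, fun k hk => ?_⟩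
  · beta_reduce
    rw [← hF k]
    by_cases e : k = c - 1
    · rw [if_pos (show c ≤ k + 1 by omega), if_neg (show ¬c ≤ k by omega), if_pos e]
      ring
    · rw [if_neg e]
      by_cases e' : c ≤ k
      · rw [if_pos (show c ≤ k + 1 by omega), if_pos e']
        ring
      · rw [if_neg (show ¬c ≤ k + 1 by omega), if_neg e']
        ring
  · rcases hk with hk | hk
    · have := d3_const F hk fun l _ hl => by
        have := hF l
        rw [if_neg (by omega)] at this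
        exact sub_eq_zero.1 this
      simp only [if_neg (show ¬c ≤ k by omega)]
      rw [← this, hF0, sub_zero]
    · have := d3_const F (show hi + 1 ≤ k by omega) fun l _ hl => by
        have := hF l
        rw [if_neg (by omega)] at this
        exact sub_eq_zero.1 this
      simp only [if_pos (show c ≤ k by omega)]
      rw [this, sub_self]

end Crest.Agent.R217.DB
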