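import Crest.Agent.R217.DB2
import Crest.Agent.R217.DB3
import Crest.Agent.R217.DAlg
import Crest.Agent.R217.CSig

/-! Row 217, part D: the signature of the stage of the plane lattice. -/

set_option autoImplicit false

namespace Crest.Agent.R217

open Matrix

/-- the stage of the plane duality -/
noncomputable def GM (M : ℕ) : Matrix ((LP M (Metric.closedBall (0 : Fin 2 → ℝ) 11) × (Bool × Bool)) × Fin 2)
    ((LP M (Metric.closedBall (0 : Fin 2 → ℝ) 11) × (Bool × Bool)) × Fin 2) ℂ :=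
  Matrix.of fun p q =>
    (g2 (XX 2 0) (XX 2 1) p.1.2.1 p.1.2.2 q.1.2.1 q.1.2.2).coeff (q.1.1.1 - p.1.1.1) *
      kM (hd (n := 0) (lpt M p.1.1.1)) (hd (n := 0) (lpt M q.1.1.1)) p.2 q.2

/-- monomials -/
noncomputable def db4mon (i j : ℤ) : LA 2 := AddMonoidAlgebra.single ![i, j] 1

theorem db4_coeff_mon (i j : ℤ) (k : Fin 2 → ℤ) :
    (db4mon i j).coeff k = if (k 0, k 1) = (i, j) then 1 else 0 := by
  rw [db4mon, AddMonoidAlgebra.coeff_single, Finsupp.single_apply]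
  refine if_congr ⟨fun h => by rw [← h]; rfl, fun h => ?_⟩ rfl rfl
  rw [Prod.mk.injEq] at h
  funext t
  fin_cases t
  · exact h.1.symm
  · exact h.2.symm

theorem db4_X0 : XX 2 0 = db4mon 1 0 := by
  unfold XX db4mon
  congr 1
  funext t
  fin_cases t <;> rfl

theorem db4_X1 : XX 2 1 = db4mon 0 1 := by
  unfold XX db4mon
  congr 1
  funext t
  fin_cases t <;> rfl

theorem db4_one : (1 : LA 2) = db4mon 0 0 := by
  rw [AddMonoidAlgebra.one_def, db4mon]
  congr 1
  funext t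
  fin_cases t <;> rfl

theorem db4_star_mon (i j : ℤ) : star (db4mon i j) = db4mon (-i) (-j) := by
  ext k
  rw [LA.coeff_star, db4_coeff_mon, db4_coeff_mon]
  simp only [Pi.neg_apply, Prod.mk.injEq, neg_eq_iff_eq_neg]
  split_ifs <;> simp

theorem db4_mul_mon (i j k l : ℤ) : db4mon i j * db4mon k l = db4mon (i + k) (j + l) := by
  rw [db4mon, db4mon, db4mon, AddMonoidAlgebra.single_mul_single, one_mul]
  congr 1
  funext t
  fin_cases t <;> rfl

/-- the entries of `g2` -/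
noncomputable def db4g : Bool × Bool → Bool × Bool → LA 2
  | (true, true), (false, false) => (-Complex.I) • db4mon 0 0
  | (false, false), (true, true) => Complex.I • db4mon 0 0
  | (true, false), (true, false) => (Complex.I / 2) • (db4mon 0 (-1) - db4mon 0 1)
  | (true, false), (false, true) =>
      (Complex.I / 2) • (db4mon 1 0 + db4mon 1 (-1) + db4mon 0 (-1) - db4mon 0 0)
  | (false, true), (true, false) =>
      (-Complex.I / 2) • (db4mon (-1) 0 + db4mon (-1) 1 + db4mon 0 1 - db4mon 0 0)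
  | (false, true), (false, true) => (Complex.I / 2) • (db4mon 1 0 - db4mon (-1) 0)
  | _, _ => 0

theorem db4_g2 (τ σ : Bool × Bool) : g2 (XX 2 0) (XX 2 1) τ.1 τ.2 σ.1 σ.2 = db4g τ σ := by
  rcases τ with ⟨_ | _, _ | _⟩ <;> rcases σ with ⟨_ | _, _ | _⟩ <;>
    simp only [g2, db4g, db4_X0, db4_X1, db4_star_mon, db4_mul_mon, Algebra.smul_def, ← db4_one,
      mul_one, neg_zero, add_zero, zero_add]

theorem db4_g_star (τ σ : Bool × Bool) : star (db4g σ τ) = db4g τ σ := by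
  rcases τ with ⟨_ | _, _ | _⟩ <;> rcases σ with ⟨_ | _, _ | _⟩ <;>
    simp only [db4g, star_zero, star_smul, star_sub, star_add, db4_star_mon, neg_zero, neg_neg,
      Complex.star_def, map_neg, map_div₀, Complex.conj_I, Complex.conj_ofNat] <;>
    module

theorem db4_g_supp (τ σ : Bool × Bool) {k : Fin 2 → ℤ} (h : ¬(|k 0| ≤ 1 ∧ |k 1| ≤ 1)) :
    (db4g τ σ).coeff k = 0 := by
  have h0 : ∀ i j : ℤ, |i| ≤ 1 → |j| ≤ 1 → (db4mon i j).coeff k = 0 := fun i j hi hj => by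
    rw [db4_coeff_mon, if_neg]
    intro e
    rw [Prod.mk.injEq] at e
    exact h ⟨e.1 ▸ hi, e.2 ▸ hj⟩
  rcases τ with ⟨_ | _, _ | _⟩ <;> rcases σ with ⟨_ | _, _ | _⟩ <;>
    simp [db4g, h0]

theorem db4_dist {M : ℕ} (hM : 8 ≤ M) (a : DB.Z2) {i j : ℤ} (hi : |i| ≤ 1) (hj : |j| ≤ 1) :
    dist (DB.wp M a) (DB.wp M (a + (i, j))) ≤ 1 / 4 := by
  have h8 : (8 : ℝ) ≤ M := by exact_mod_cast hM
  have key : ∀ x i : ℤ, |i| ≤ 1 → dist ((x : ℝ) / M) (((x + i : ℤ) : ℝ) / M) ≤ 1 / 4 := by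
    intro x i hi
    have h1 : |(i : ℝ)| ≤ 1 := by exact_mod_cast hi
    rw [Real.dist_eq, ← sub_div, abs_div, Int.cast_add, sub_add_cancel_left, abs_neg,
      Nat.abs_cast, div_le_iff₀ (by linarith)]
    linarith
  rw [Prod.dist_eq]
  exact max_le (key _ _ hi) (key _ _ hj)

/-- the coefficients of `g2` live on `{-1,0,1}²`; `LA.coeff_star`, `phiK_star`, `kM_star` -/
theorem GM_star {M : ℕ} (hM : 8 ≤ M) : star (GM M) = GM M := by
  ext p q
  simp only [star_apply, GM, of_apply, db4_g2, star_mul']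
  rw [← db4_g_star p.1.2 q.1.2, LA.coeff_star, neg_sub]
  by_cases h : |(q.1.1.1 - p.1.1.1) 0| ≤ 1 ∧ |(q.1.1.1 - p.1.1.1) 1| ≤ 1
  · have hd := db4_dist hM (p.1.1.1 0, p.1.1.1 1) h.1 h.2
    simp only [Pi.sub_apply, Prod.mk_add_mk, add_sub_cancel] at hd
    exact congrArg _ (congrFun (congrFun (kM_star hd) p.2) q.2)
  · rw [db4_g_supp _ _ (k := p.1.1.1 - q.1.1.1), star_zero, zero_mul, zero_mul]
    simpa only [Pi.sub_apply, abs_sub_comm] using h

abbrev db4L (M : ℕ) := LP M (Metric.closedBall (0 : Fin 2 → ℝ) 11)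

abbrev db4T (M : ℕ) := (db4L M × (Bool × Bool)) × Fin 2

def db4pt {M : ℕ} (a : db4L M) : DB.Z2 := (a.1 0, a.1 1)

section

open DB

variable {M : ℕ}

theorem db4_inj : Function.Injective (db4pt (M := M)) := fun a b h => by
  rw [db4pt, db4pt, Prod.mk.injEq] at h
  refine Subtype.ext (funext fun t => ?_)
  fin_cases t
  · exact h.1
  · exact h.2

theorem db4_mem_iff (hM : 8 ≤ M) (a : Fin 2 → ℤ) :
    lpt M a ∈ Metric.closedBall (0 : Fin 2 → ℝ) 11 ↔ (a 0, a 1) ∈ Bx M := by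
  have h8 : (8 : ℝ) ≤ M := by exact_mod_cast hM
  have key : ∀ x : ℤ, ‖(x : ℝ) / M‖ ≤ 11 ↔ x ∈ Finset.Icc (-11 * M : ℤ) (11 * M) := by
    intro x
    rw [Real.norm_eq_abs, abs_div, Nat.abs_cast, div_le_iff₀ (by linarith), abs_le, Finset.mem_Icc,
      ← neg_mul]
    norm_cast
  rw [mem_closedBall_zero_iff, pi_norm_le_iff_of_nonneg (by norm_num), Fin.forall_fin_two, Bx,
    Finset.mem_product]
  exact and_congr (key _) (key _)

theorem db4_range (hM : 8 ≤ M) (p : Z2) : (∃ a : db4L M, db4pt a = p) ↔ p ∈ Bx M :=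
  ⟨fun ⟨a, ha⟩ => ha ▸ (db4_mem_iff hM a.1).1 a.2,
    fun h => ⟨⟨![p.1, p.2], (db4_mem_iff hM _).2 h⟩, rfl⟩⟩

/-- a component of a vector, compressed and extended by zero -/
noncomputable def db4Y (v : db4T M → ℂ) (τ : Bool × Bool) (p : Z2) : E2 :=
  cM 1 (wp M p) *ᵥ Function.extend db4pt (fun a i => v ((a, τ), i)) 0 p

theorem db4Y_pt (v : db4T M → ℂ) (τ : Bool × Bool) (a : db4L M) :
    db4Y v τ (db4pt a) = cM 1 (wp M (db4pt a)) *ᵥ fun i => v ((a, τ), i) := by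
  rw [db4Y, db4_inj.extend_apply]

theorem db4Y_out (v : db4T M → ℂ) (τ : Bool × Bool) {p : Z2} (h : ¬∃ a : db4L M, db4pt a = p) :
    db4Y v τ p = 0 := by
  rw [db4Y, Function.extend_apply' _ _ _ h, Pi.zero_apply, mulVec_zero]

theorem db4Y_add (v w : db4T M → ℂ) (τ : Bool × Bool) :
    db4Y (v + w) τ = db4Y v τ + db4Y w τ := by
  funext p
  by_cases h : ∃ a : db4L M, db4pt a = p
  · obtain ⟨a, rfl⟩ := h
    rw [Pi.add_apply, db4Y_pt, db4Y_pt, db4Y_pt, ← mulVec_add]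
    rfl
  · rw [Pi.add_apply, db4Y_out _ _ h, db4Y_out _ _ h, db4Y_out _ _ h, add_zero]

theorem db4Y_smul (c : ℂ) (v : db4T M → ℂ) (τ : Bool × Bool) :
    db4Y (c • v) τ = c • db4Y v τ := by
  funext p
  by_cases h : ∃ a : db4L M, db4pt a = p
  · obtain ⟨a, rfl⟩ := h
    rw [Pi.smul_apply, db4Y_pt, db4Y_pt, ← mulVec_smul]
    rfl
  · rw [Pi.smul_apply, db4Y_out _ _ h, db4Y_out _ _ h, smul_zero]

/-- the `1`-cochain of a vector -/
noncomputable def db4X : (db4T M → ℂ) →ₗ[ℂ] C1 where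
  toFun v := fun p => ![db4Y v (true, false) p, db4Y v (false, true) p]
  map_add' v w := by
    funext p i
    fin_cases i <;> simp [db4Y_add]
  map_smul' c v := by
    funext p i
    fin_cases i <;> simp [db4Y_smul]

theorem db4X_apply (v : db4T M → ℂ) (p : Z2) :
    db4X v p = ![db4Y v (true, false) p, db4Y v (false, true) p] := rfl

theorem db4X_inV (v : db4T M → ℂ) : InV M (db4X v) := by
  intro a i ha
  have h : PP M a * cM 1 (wp M a) = 0 := by
    rw [cM, if_pos (show inU 1 (wp M a) from ha), PP, Matrix.mul_sub, Matrix.mul_one, piL_idem,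
      sub_self]
  have h' : ∀ τ, PP M a *ᵥ db4Y v τ a = 0 := fun τ => by rw [db4Y, mulVec_mulVec, h, zero_mulVec]
  fin_cases i
  · exact h' _
  · exact h' _

theorem db4X_out (hM : 8 ≤ M) (v : db4T M → ℂ) (p : Z2) (hp : p ∉ Bx M) : db4X v p = 0 := by
  have h := mt (db4_range hM p).1 hp
  funext i
  fin_cases i <;> simp [db4X_apply, db4Y_out _ _ h]

/-- the vector with prescribed components of degree `0` and `1` -/
def db4mk (w : db4L M → E2) (x : C1) : db4T M → ℂ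
  | ((a, (false, false)), i) => w a i
  | ((a, (true, false)), i) => x (db4pt a) 0 i
  | ((a, (false, true)), i) => x (db4pt a) 1 i
  | ((_, (true, true)), _) => 0

theorem db4X_mk (hM : 8 ≤ M) (w : db4L M → E2) {x : C1} (hx : InV M x) :
    db4X (db4mk w x) = rB M x := by
  funext p
  by_cases hp : p ∈ Bx M
  · obtain ⟨a, rfl⟩ := (db4_range hM p).2 hp
    have h : ∀ i, cM 1 (wp M (db4pt a)) *ᵥ x (db4pt a) i = x (db4pt a) i := fun i => by
      unfold cM
      split_ifs with h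
      · rw [sub_mulVec, one_mulVec, show piL (wp M (db4pt a)) *ᵥ _ = 0 from hx _ i h, sub_zero]
      · exact one_mulVec _
    rw [rB, if_pos hp, db4X_apply, db4Y_pt, db4Y_pt]
    funext i
    fin_cases i
    · exact h 0
    · exact h 1
  · rw [db4X_out hM _ _ hp, rB, if_neg hp]

theorem db4Y_zero {v : db4T M → ℂ} {τ : Bool × Bool} (h : ∀ a i, v ((a, τ), i) = 0) :
    db4Y v τ = 0 := by
  funext p
  by_cases hp : ∃ a : db4L M, db4pt a = p
  · obtain ⟨a, rfl⟩ := hp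
    rw [db4Y_pt, show (fun i => v ((a, τ), i)) = 0 from funext (h a), mulVec_zero]
    rfl
  · exact db4Y_out _ _ hp

theorem db4_tp_add (s s' : C0) (a σ : Z2) : tp M (s + s') a σ = tp M s a σ + tp M s' a σ := by
  simp only [tp, Pi.add_apply, mulVec_add]

theorem db4_tp_smul (c : ℂ) (s : C0) (a σ : Z2) : tp M (c • s) a σ = c • tp M s a σ := by
  simp only [tp, Pi.smul_apply, mulVec_smul]

theorem db4_tp_zero (s : C0) (a : Z2) : tp M s a (0, 0) = s a := by
  rw [tp, show a + (0, 0) = a from add_zero a, TT, tM_self, one_mulVec]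

theorem db4_dT_add (s s' : C0) : dT M (s + s') = dT M s + dT M s' := by
  funext a i
  fin_cases i <;> simp [dT, db4_tp_add] <;> abel

theorem db4_dT_smul (c : ℂ) (s : C0) : dT M (c • s) = c • dT M s := by
  funext a i
  fin_cases i <;> simp [dT, db4_tp_smul, smul_sub]

theorem db4_rB_add (x y : C1) : rB M (x + y) = rB M x + rB M y := by
  funext a
  simp only [rB, Pi.add_apply]
  split_ifs <;> simp

theorem db4_rB_smul (c : ℂ) (x : C1) : rB M (c • x) = c • rB M x := by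
  funext a
  simp only [rB, Pi.smul_apply]
  split_ifs <;> simp

theorem db4_inV_add {x y : C1} (hx : InV M x) (hy : InV M y) : InV M (x + y) := fun a i h => by
  rw [Pi.add_apply, Pi.add_apply, mulVec_add, hx a i h, hy a i h, add_zero]

theorem db4_inZ_zero : InZ M 0 :=
  ⟨fun _ _ => mulVec_zero _, fun _ h => absurd rfl h, fun _ h => absurd rfl h⟩

/-- the isotropic subspace -/
noncomputable def db4Λ (M : ℕ) : Submodule ℂ (db4T M → ℂ) where
  carrier := {v | (∀ a i, v ((a, (true, true)), i) = 0) ∧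
    ∃ s z, InS M s ∧ InZ M z ∧ db4X v = rB M (dT M s + z)}
  add_mem' := by
    rintro v w ⟨h1, s, z, hs, hz, h2⟩ ⟨h1', s', z', hs', hz', h2'⟩
    refine ⟨fun a i => by rw [Pi.add_apply, h1, h1', add_zero], s + s', z + z', fun p hp => ?_,
      ⟨fun a i => ?_, fun a h => ?_, fun a h => ?_⟩, ?_⟩
    · rw [Pi.add_apply, mulVec_add, hs p hp, hs' p hp, add_zero]
    · rw [Pi.add_apply, Pi.add_apply, mulVec_add, hz.1, hz'.1, add_zero]
    · by_cases h0 : z a 0 = 0
      · exact hz'.2.1 a fun h3 => h (by rw [Pi.add_apply, Pi.add_apply, h0, h3, add_zero])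
      · exact hz.2.1 a h0
    · by_cases h0 : z a 1 = 0
      · exact hz'.2.2 a fun h3 => h (by rw [Pi.add_apply, Pi.add_apply, h0, h3, add_zero])
      · exact hz.2.2 a h0
    · rw [map_add, h2, h2', db4_dT_add, ← db4_rB_add, add_add_add_comm]
  zero_mem' := by
    refine ⟨fun _ _ => rfl, 0, 0, fun _ _ => mulVec_zero _, db4_inZ_zero, ?_⟩
    rw [map_zero, add_zero, ← zero_smul ℂ (0 : C0), db4_dT_smul, db4_rB_smul, zero_smul]
  smul_mem' := by
    rintro c v ⟨h1, s, z, hs, hz, h2⟩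
    refine ⟨fun a i => by rw [Pi.smul_apply, h1, smul_zero], c • s, c • z, fun p hp => ?_,
      ⟨fun a i => ?_, fun a h => ?_, fun a h => ?_⟩, ?_⟩
    · rw [Pi.smul_apply, mulVec_smul, hs p hp, smul_zero]
    · rw [Pi.smul_apply, Pi.smul_apply, mulVec_smul, hz.1, smul_zero]
    · exact hz.2.1 a fun h3 => h (by rw [Pi.smul_apply, Pi.smul_apply, h3, smul_zero])
    · exact hz.2.2 a fun h3 => h (by rw [Pi.smul_apply, Pi.smul_apply, h3, smul_zero])
    · rw [map_smul, h2, db4_dT_smul, ← smul_add, db4_rB_smul]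

theorem db4_mk_mem (hM : 8 ≤ M) (w : db4L M → E2) {s : C0} {z : C1} (hs : InS M s) (hz : InZ M z) :
    db4mk w (dT M s + z) ∈ db4Λ M :=
  ⟨fun _ _ => rfl, s, z, hs, hz, db4X_mk hM w (db4_inV_add (inV_dT hM hs) hz.inV)⟩

variable [Fintype (db4L M)]

/-- the action of a Laurent polynomial -/
noncomputable def db4S (a : db4L M) (v : db4T M → ℂ) (τ : Bool × Bool) : LA 2 →ₗ[ℂ] E2 where
  toFun P := ∑ b, P.coeff (b.1 - a.1) •
    (kM (wp M (db4pt a)) (wp M (db4pt b)) *ᵥ fun i => v ((b, τ), i))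
  map_add' P Q := by
    simp only [AddMonoidAlgebra.coeff_add, Finsupp.add_apply, add_smul, Finset.sum_add_distrib]
  map_smul' c P := by
    simp only [AddMonoidAlgebra.coeff_smul_apply, Finset.smul_sum, smul_assoc, RingHom.id_apply]

theorem db4S_apply (a : db4L M) (v : db4T M → ℂ) (τ : Bool × Bool) (P : LA 2) :
    db4S a v τ P = ∑ b : db4L M, P.coeff (b.1 - a.1) •
      (kM (wp M (db4pt a)) (wp M (db4pt b)) *ᵥ fun i => v ((b, τ), i)) := rfl

theorem db4S_mon (hM : 8 ≤ M) (a : db4L M) (v : db4T M → ℂ) (τ : Bool × Bool) {i j : ℤ}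
    (hi : |i| ≤ 1) (hj : |j| ≤ 1) : db4S a v τ (db4mon i j) =
      (cM 1 (wp M (db4pt a)) * R217.hM) *ᵥ tp M (db4Y v τ) (db4pt a) (i, j) := by
  have e : ∀ b : db4L M, (db4mon i j).coeff (b.1 - a.1) =
      if db4pt b = db4pt a + (i, j) then 1 else 0 := fun b => by
    rw [db4_coeff_mon]
    refine if_congr ?_ rfl rfl
    simp only [db4pt, Pi.sub_apply, Prod.mk_add_mk, Prod.mk.injEq, sub_eq_iff_eq_add']
  simp only [db4S_apply, e]
  by_cases h : ∃ b : db4L M, db4pt b = db4pt a + (i, j)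
  · obtain ⟨b, hb⟩ := h
    have hd := db4_dist hM (db4pt a) hi hj
    rw [Finset.sum_eq_single b, if_pos hb, one_smul, tp, ← hb, db4Y_pt, kM_eq (hb ▸ hd), cM_star,
      TT, mulVec_mulVec, mulVec_mulVec]
    · simp only [Matrix.mul_assoc]
    · intro c _ hc
      rw [if_neg fun h => hc (db4_inj (h.trans hb.symm)), zero_smul]
    · simp
  · rw [tp, db4Y_out _ _ h, mulVec_zero, mulVec_zero]
    exact Finset.sum_eq_zero fun b _ => by rw [if_neg fun hb => h ⟨b, hb⟩, zero_smul]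

theorem db4_row (v : db4T M → ℂ) (a : db4L M) (τ : Bool × Bool) :
    (fun i => (GM M *ᵥ v) ((a, τ), i)) = ∑ σ, db4S a v σ (db4g τ σ) := by
  funext i
  simp only [db4S_apply, Finset.sum_apply, Pi.smul_apply, smul_eq_mul, mulVec, dotProduct, Finset.mul_sum]
  rw [Fintype.sum_prod_type, Fintype.sum_prod_type, Finset.sum_comm]
  refine Finset.sum_congr rfl fun σ _ => Finset.sum_congr rfl fun b _ =>
    Finset.sum_congr rfl fun j _ => ?_
  rw [← mul_assoc, ← db4_g2]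
  rfl

/-- the four rows of `GM` -/
noncomputable def db4R (v : db4T M → ℂ) (p : Z2) : Bool × Bool → E2
  | (true, true) => (-Complex.I) • db4Y v (false, false) p
  | (false, false) => Complex.I • db4Y v (true, true) p
  | (true, false) => GT M (db4X v) p 0
  | (false, true) => GT M (db4X v) p 1

theorem db4_row' (hM : 8 ≤ M) (v : db4T M → ℂ) (a : db4L M) (τ : Bool × Bool) :
    (fun i => (GM M *ᵥ v) ((a, τ), i)) =
      (cM 1 (wp M (db4pt a)) * R217.hM) *ᵥ db4R v (db4pt a) τ := by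
  have e0' : ∀ p, db4X v p 0 = db4Y v (true, false) p := fun _ => rfl
  have e1' : ∀ p, db4X v p 1 = db4Y v (false, true) p := fun _ => rfl
  have h0 : |(0 : ℤ)| ≤ 1 := by norm_num
  have h1 : |(1 : ℤ)| ≤ 1 := by norm_num
  have h2 : |(-1 : ℤ)| ≤ 1 := by norm_num
  rw [db4_row]
  rcases τ with ⟨_ | _, _ | _⟩ <;>
    simp only [Fintype.sum_prod_type, Fintype.sum_bool, db4g, db4R, GT, map_zero, map_smul, map_add,
      map_sub, db4S_mon hM, h0, h1, h2, db4_tp_zero, add_zero, zero_add, e0', e1',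
      cons_val_zero, cons_val_one, mulVec_add, mulVec_sub, mulVec_smul]

theorem db4_form (hM : 8 ≤ M) (v w : db4T M → ℂ) : star v ⬝ᵥ GM M *ᵥ w =
    bt M (db4X v) (db4X w) + ∑ p ∈ Bx M,
      (hf (db4Y v (true, true) p) ((-Complex.I) • db4Y w (false, false) p) +
        hf (db4Y v (false, false) p) (Complex.I • db4Y w (true, true) p)) := by
  have e : ∀ (a : db4L M) (τ : Bool × Bool), ∑ i, star v ((a, τ), i) * (GM M *ᵥ w) ((a, τ), i) =
      hf (db4Y v τ (db4pt a)) (db4R w (db4pt a) τ) := fun a τ => by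
    rw [hf, db4Y_pt, star_mulVec, ← dotProduct_mulVec, ← star_eq_conjTranspose, cM_star,
      mulVec_mulVec, ← db4_row' hM]
    rfl
  rw [dotProduct, Fintype.sum_prod_type, Fintype.sum_prod_type, bt, ← Finset.sum_add_distrib]
  refine Finset.sum_bij (fun a _ => db4pt a) (fun a _ => (db4_range hM _).1 ⟨a, rfl⟩)
    (fun a _ b _ h => db4_inj h)
    (fun p hp => ((db4_range hM p).2 hp).imp fun a ha => ⟨Finset.mem_univ _, ha⟩) fun a _ => ?_
  simp only [e, Fintype.sum_prod_type, Fintype.sum_bool, Fin.sum_univ_two, db4R, db4X_apply,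
    cons_val_zero, cons_val_one]
  ring

theorem db4_form' (hM : 8 ≤ M) {v w : db4T M → ℂ} {x y : C1}
    (hv : ∀ a i, v ((a, (true, true)), i) = 0) (hw : ∀ a i, w ((a, (true, true)), i) = 0)
    (hx : InV M x) (hy : InV M y) (h1 : db4X v = rB M x) (h2 : db4X w = rB M y) :
    star v ⬝ᵥ GM M *ᵥ w = bt M x y := by
  rw [db4_form hM, h1, h2, bt_rB_left, bt_rB hM hx hy, db4Y_zero hv, db4Y_zero hw]
  simp [hf]

end

/-- Lattice points of the cube ↔ `DB.Bx M` (`a ↦ (a 0, a 1)`; `hd (lpt M a) = DB.wp M (a 0, a 1)`).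
For a vector `v` let `X v : DB.C1` be `cM 1 (wp a) *ᵥ` (the `(true,false)` resp. `(false,true)`
component of `v` at `a`), zero outside the box; it is `InV`.  By `kM_eq` and the coefficients of `g2`:
`star v ⬝ᵥ GM *ᵥ v' = bt (X v) (X v') + ∑ₐ i (v_ff a)⋆ kM(a,a) (v'_tt a) - i (v_tt a)⋆ kM(a,a) (v'_ff a)`.
Apply `sig_of_isotropic` with `ε = -1`, `Λ = {v | v_tt = 0 ∧ ∃ s z, InS s ∧ InZ z ∧ X v = rB (dT s + z)}`,
`yᵢ` = the middle-degree vectors with components `dT σᵢ` (`X yᵢ = rB (dT σᵢ)` since `cM 1` fixes the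
line).  If `v ⊥ Λ`: testing with degree-`0` vectors gives `kM(a,a) v_tt a = 0`; testing with the
vectors of `dT s` gives `curl_of_perp`, then `decomp`; `l` = (degree-`0` part of `v`) + (vector of
`dT s + z`). -/
theorem sig_GM {M : ℕ} (hM : 8 ≤ M) [Fintype (LP M (Metric.closedBall (0 : Fin 2 → ℝ) 11))] :
    sig (GM M) = 4 * (-1 : ℤ) := by
  have V : ∀ {s z}, DB.InS M s → DB.InZ M z → DB.InV M (DB.dT M s + z) := fun hs hz =>
    db4_inV_add (DB.inV_dT hM hs) hz.inV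
  have Y1 := db4X_mk hM 0 (DB.inV_y₁ hM)
  have Y2 := db4X_mk hM 0 (DB.inV_y₂ hM)
  refine sig_of_isotropic (GM_star hM) (db4Λ M) (db4mk 0 (DB.dT M (DB.σ₁ M)))
    (db4mk 0 (DB.dT M (DB.σ₂ M))) (-1) (Or.inr rfl) ?_ ?_ ?_ ?_ ?_ ?_ fun v hv => ?_
  · rintro l ⟨h1, s, z, hs, hz, h2⟩ l' ⟨h1', s', z', hs', hz', h2'⟩
    rw [db4_form' hM h1 h1' (V hs hz) (V hs' hz') h2 h2', DB.bt_iso hM hs hz hs' hz']
  · rintro l ⟨h1, s, z, hs, hz, h2⟩
    rw [db4_form' hM h1 (fun _ _ => rfl) (V hs hz) (DB.inV_y₁ hM) h2 Y1, (DB.bt_y hM hs hz).1]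
  · rintro l ⟨h1, s, z, hs, hz, h2⟩
    rw [db4_form' hM h1 (fun _ _ => rfl) (V hs hz) (DB.inV_y₂ hM) h2 Y2, (DB.bt_y hM hs hz).2]
  · rw [db4_form' hM (fun _ _ => rfl) (fun _ _ => rfl) (DB.inV_y₁ hM) (DB.inV_y₂ hM) Y1 Y2,
      (DB.bt_yy hM).2.2]
  · rw [db4_form' hM (fun _ _ => rfl) (fun _ _ => rfl) (DB.inV_y₁ hM) (DB.inV_y₁ hM) Y1 Y1,
      (DB.bt_yy hM).1]
    norm_num
  · rw [db4_form' hM (fun _ _ => rfl) (fun _ _ => rfl) (DB.inV_y₂ hM) (DB.inV_y₂ hM) Y2 Y2,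
      (DB.bt_yy hM).2.1]
    norm_num
  have hS0 : DB.InS M 0 := fun _ _ => mulVec_zero _
  have hd0 : DB.dT M 0 = 0 := by rw [← zero_smul ℂ (0 : DB.C0), db4_dT_smul, zero_smul]
  have k1 : ∀ a i, (GM M *ᵥ v) ((a, (false, false)), i) = 0 := fun a i => by
    have h := hv _ (db4_mk_mem hM (Pi.single a (Pi.single i 1)) hS0 db4_inZ_zero)
    have e : db4mk (Pi.single a (Pi.single i 1)) (DB.dT M 0 + 0) =
        Pi.single ((a, (false, false)), i) (1 : ℂ) := by
      rw [hd0, add_zero]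
      funext ⟨⟨b, τ⟩, j⟩
      rcases τ with ⟨_ | _, _ | _⟩ <;> by_cases h1 : b = a <;> by_cases h2 : j = i <;>
        simp [db4mk, h1, h2]
    rw [e, Pi.star_single, single_dotProduct, star_one, one_mul] at h
    exact h
  have k2 : ∀ s, DB.InS M s → DB.bt M (db4X v) (DB.dT M s) = 0 := fun s hs => by
    have hm := db4_mk_mem hM 0 hs db4_inZ_zero
    have h := cs_symm (GM_star hM) (db4mk 0 (DB.dT M s + 0)) v
    rw [hv _ hm, star_zero, db4_form hM, db4X_mk hM 0 (V hs db4_inZ_zero), add_zero,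
      DB.bt_rB hM (db4X_inV v) (DB.inV_dT hM hs), db4Y_zero (v := db4mk _ _) fun _ _ => rfl,
      db4Y_zero (v := db4mk _ _) fun _ _ => rfl] at h
    simpa [DB.hf] using h
  obtain ⟨s, z, α₁, α₂, hs, hz, hx⟩ := DB.decomp hM (db4X_inV v)
    (DB.curl_of_perp hM (db4X_inV v) (db4X_out hM v) k2)
  refine ⟨_, db4_mk_mem hM (fun a i => v ((a, (false, false)), i)) hs hz, α₁, α₂, ?_⟩
  set u := v - db4mk (fun a i => v ((a, (false, false)), i)) (DB.dT M s + z) -
    α₁ • db4mk 0 (DB.dT M (DB.σ₁ M)) - α₂ • db4mk 0 (DB.dT M (DB.σ₂ M)) with hu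
  have u1 : db4X u = 0 := by
    have h : DB.rB M (db4X v) = db4X v := by
      funext p
      by_cases hp : p ∈ DB.Bx M
      · rw [DB.rB, if_pos hp]
      · rw [DB.rB, if_neg hp, db4X_out hM v p hp]
    rw [hu, map_sub, map_sub, map_sub, map_smul, map_smul, Y1, Y2, db4X_mk hM _ (V hs hz), ← h]
    conv_lhs => rw [hx]
    rw [db4_rB_add, db4_rB_add, db4_rB_smul, db4_rB_smul]
    abel
  have u2 : db4Y u (false, false) = 0 := db4Y_zero fun a i => by simp [hu, db4mk]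
  have u3 : db4Y u (true, true) = db4Y v (true, true) := by
    unfold db4Y
    simp [hu, db4mk]
  funext ⟨⟨a, τ⟩, i⟩
  have r1 := congrFun (db4_row' hM u a τ) i
  rcases τ with ⟨_ | _, _ | _⟩
  · have r2 := congrFun (db4_row' hM v a (false, false)) i
    simp only [db4R, u3] at r1 r2
    rw [r1, ← r2, k1]
    rfl
  all_goals simpa [db4R, u1, u2, DB.GT, DB.tp] using r1

end Crest.Agent.R217
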