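import Crest.Agent.R217.CDefs
import Crest.Agent.R217.BExt

/-! Row 217, part D: the cubical cochain complex of a lattice with an invertible Hermitian duality.
Definitions: DO NOT CHANGE (owner helper92); only fill in the proofs. -/

set_option autoImplicit false

namespace Crest.Agent.R217

open Filter Topology CategoryTheory

/-- types of cells: subsets of the coordinates -/
def Ty : ℕ → Type
  | 0 => Unit
  | n + 1 => Bool × Ty n

instance Ty.fintype : (n : ℕ) → Fintype (Ty n)
  | 0 => inferInstanceAs (Fintype Unit)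
  | n + 1 => @instFintypeProd Bool (Ty n) _ (Ty.fintype n)

instance Ty.decEq : (n : ℕ) → DecidableEq (Ty n)
  | 0 => inferInstanceAs (DecidableEq Unit)
  | n + 1 => @instDecidableEqProd Bool (Ty n) _ (Ty.decEq n)

def Ty.deg : {n : ℕ} → Ty n → ℕ
  | 0, _ => 0
  | _ + 1, (b, τ) => (if b then 1 else 0) + Ty.deg τ

def Ty.bot : (n : ℕ) → Ty n
  | 0 => ()
  | n + 1 => (false, Ty.bot n)

def Ty.top : (n : ℕ) → Ty n
  | 0 => ()
  | n + 1 => (true, Ty.top n)

section Alg

variable {A : Type} [CommRing A] [StarRing A] [Algebra ℂ A]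

/-- the Koszul differential of `X k - 1` (rows = outputs) -/
def dK : (n : ℕ) → (Fin n → A) → Matrix (Ty n) (Ty n) A
  | 0, _ => 0
  | n + 1, X => fun (s : Bool × Ty n) (t : Bool × Ty n) =>
    match s.1, t.1 with
    | false, false => dK n (fun k => X k.succ) s.2 t.2
    | true, false => if s.2 = t.2 then X 0 - 1 else 0
    | true, true => -dK n (fun k => X k.succ) s.2 t.2
    | false, true => 0

/-- the invertible Hermitian duality of the plane lattice -/
noncomputable def g2 (X Y : A) : Bool → Bool → Bool → Bool → A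
  | true, true, false, false => algebraMap ℂ A (-Complex.I)
  | false, false, true, true => algebraMap ℂ A Complex.I
  | true, false, true, false => algebraMap ℂ A (Complex.I / 2) * (star Y - Y)
  | true, false, false, true => algebraMap ℂ A (Complex.I / 2) * (X + X * star Y + star Y - 1)
  | false, true, true, false => algebraMap ℂ A (-Complex.I / 2) * (star X + star X * Y + Y - 1)
  | false, true, false, true => algebraMap ℂ A (Complex.I / 2) * (X - star X)
  | _, _, _, _ => 0

/-- the duality in even dimension: Kronecker product of copies of `g2` -/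
noncomputable def phiK : (n : ℕ) → (Fin n → A) → Matrix (Ty n) (Ty n) A
  | 0, _ => 1
  | 1, _ => 0
  | n + 2, X => fun (s : Bool × Bool × Ty n) (t : Bool × Bool × Ty n) =>
    g2 (X 0) (X 1) s.1 s.2.1 t.1 t.2.1 * phiK n (tl X) s.2.2 t.2.2

end Alg

/-- Laurent polynomials -/
abbrev LA (n : ℕ) := AddMonoidAlgebra ℂ (Fin n → ℤ)

/-- the involution of Laurent polynomials (auxiliary copy of the `star` operation) -/
noncomputable def dd_st {n : ℕ} (P : LA n) : LA n := AddMonoidAlgebra.ofCoeff
  (Finsupp.mapRange star (star_zero ℂ) (Finsupp.equivMapDomain (Equiv.neg _) P.coeff))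

theorem dd_coeff {n : ℕ} (P : LA n) (k : Fin n → ℤ) : (dd_st P).coeff k = star (P.coeff (-k)) := rfl

theorem dd_ext {n : ℕ} {P Q : LA n} (h : ∀ k, P.coeff k = Q.coeff k) : P = Q :=
  AddMonoidAlgebra.coeff_injective (Finsupp.ext h)

theorem dd_add {n : ℕ} (P Q : LA n) : dd_st (P + Q) = dd_st P + dd_st Q :=
  dd_ext fun _ => star_add _ _

theorem dd_zero {n : ℕ} : dd_st (0 : LA n) = 0 := dd_ext fun _ => star_zero ℂ

theorem dd_single {n : ℕ} (a : Fin n → ℤ) (c : ℂ) :
    dd_st (AddMonoidAlgebra.single a c) = AddMonoidAlgebra.single (-a) (star c) := by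
  refine dd_ext fun k => ?_
  rw [dd_coeff, AddMonoidAlgebra.coeff_single, AddMonoidAlgebra.coeff_single, Finsupp.single_apply,
    Finsupp.single_apply, apply_ite star, star_zero]
  exact if_congr neg_eq_iff_eq_neg.symm rfl rfl

theorem dd_mul {n : ℕ} (P Q : LA n) : dd_st (P * Q) = dd_st Q * dd_st P := by
  induction P using AddMonoidAlgebra.induction_linear with
  | zero => rw [zero_mul, dd_zero, mul_zero]
  | add P P' h h' => rw [add_mul, dd_add, dd_add, h, h', mul_add]
  | single a c =>
    induction Q using AddMonoidAlgebra.induction_linear with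
    | zero => rw [mul_zero, dd_zero, zero_mul]
    | add Q Q' h h' => rw [mul_add, dd_add, dd_add, h, h', add_mul]
    | single b e =>
      rw [AddMonoidAlgebra.single_mul_single, dd_single, dd_single, dd_single,
        AddMonoidAlgebra.single_mul_single, neg_add_rev, star_mul]

noncomputable instance LA.starRing (n : ℕ) : StarRing (LA n) where
  star P := AddMonoidAlgebra.ofCoeff
    (Finsupp.mapRange star (star_zero ℂ) (Finsupp.equivMapDomain (Equiv.neg _) P.coeff))
  star_involutive := fun P => dd_ext fun k => by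
    change star (star (P.coeff (- -k))) = _
    rw [star_star, neg_neg]
  star_mul := dd_mul
  star_add := dd_add

instance LA.starModule (n : ℕ) : StarModule ℂ (LA n) := ⟨fun c _ => dd_ext fun _ => star_smul c _⟩

theorem LA.coeff_star {n : ℕ} (P : LA n) (k : Fin n → ℤ) :
    (star P).coeff k = star (P.coeff (-k)) := rfl

/-- the shifts -/
noncomputable def XX (n : ℕ) (k : Fin n) : LA n := AddMonoidAlgebra.single (Pi.single k 1) 1

theorem XX_unitary (n : ℕ) (k : Fin n) : star (XX n k) * XX n k = 1 := by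
  change dd_st _ * _ = _
  rw [XX, dd_single, AddMonoidAlgebra.single_mul_single, neg_add_cancel, star_one, mul_one]
  rfl

variable {ι : Type} {n : ℕ}

section Lat

variable {Λ : ι → Type} [∀ x, Fintype (Λ x)] [∀ x, DecidableEq (Λ x)]
  {T : Type} [Fintype T] [DecidableEq T]

/-- translation invariant operators on a finite set of lattice points -/
noncomputable def latM {L : Type} (pos : L → Fin n → ℤ) (M : Matrix T T (LA n)) :
    Matrix (L × T) (L × T) ℂ :=
  Matrix.of fun p q => (M p.2 q.2).coeff (pos q.1 - pos p.1)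

noncomputable def lat (K : Ctx Λ) (pos : ∀ x, Λ x → Fin n → ℤ) (M : Matrix T T (LA n)) :
    R (K.prod fun _ => T) :=
  mk _ fun x => latM (pos x) M

end Lat

/-- neighbours are close, and deep points have all their neighbours -/
structure LatCtx {Λ : ι → Type} (K : Ctx Λ) (pos : ∀ x, Λ x → Fin n → ℤ) : Prop where
  inj : ∀ x, Function.Injective (pos x)
  smR : ∀ σ, K.SmR fun x a b => pos x b - pos x a = σ
  smS : ∀ σ, K.SmS fun x a => ∀ b, pos x b - pos x a ≠ σ

/-- compact subsets of `ℝⁿ` and meshes `1 / M x` -/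
structure Geo (ι : Type) (n : ℕ) where
  W : ι → Set (Fin n → ℝ)
  cW : ∀ x, IsCompact (W x)
  M : ι → ℕ
  M_pos : ∀ x, 0 < M x

/-- the point of a lattice vector -/
noncomputable def lpt (M : ℕ) (a : Fin n → ℤ) : Fin n → ℝ := fun k => (a k : ℝ) / M

/-- lattice points in a set -/
def LP (M : ℕ) (W : Set (Fin n → ℝ)) : Type := {a : Fin n → ℤ // lpt M a ∈ W}

theorem LP.finite {M : ℕ} (hM : 0 < M) {W : Set (Fin n → ℝ)} (hW : IsCompact W) :
    Finite (LP M W) := by
  obtain ⟨r, hr⟩ := hW.isBounded.exists_norm_le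
  have hM' : (0 : ℝ) < M := by exact_mod_cast hM
  refine Set.Finite.subset (Set.finite_Icc (fun _ : Fin n => -⌈r * M⌉) fun _ => ⌈r * M⌉)
    fun a ha => ?_
  have h : ∀ k, |(a k : ℝ)| ≤ (⌈r * M⌉ : ℤ) := fun k => by
    have h1 := (norm_le_pi_norm (lpt M a) k).trans (hr _ ha)
    rw [lpt, Real.norm_eq_abs, abs_div, abs_of_pos hM', div_le_iff₀ hM'] at h1
    exact h1.trans (Int.le_ceil _)
  exact ⟨fun k => by exact_mod_cast (abs_le.1 (h k)).1, fun k => by exact_mod_cast (abs_le.1 (h k)).2⟩

instance (M : ℕ) (W : Set (Fin n → ℝ)) : DecidableEq (LP M W) :=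
  inferInstanceAs (DecidableEq {a : Fin n → ℤ // lpt M a ∈ W})

namespace Geo

variable (G : Geo ι n)

abbrev P (x : ι) : Type := G.W x

abbrev Λ (x : ι) : Type := LP (G.M x) (G.W x)

noncomputable instance (x : ι) : Fintype (G.Λ x) :=
  @Fintype.ofFinite _ (LP.finite (G.M_pos x) (G.cW x))

def pos (x : ι) (a : G.Λ x) : Fin n → ℤ := a.1

noncomputable def loc0 (x : ι) (a : G.Λ x) : G.P x := ⟨lpt (G.M x) a.1, a.2⟩

abbrev I (x : ι) : Type := G.Λ x × Ty n

noncomputable abbrev loc (x : ι) (a : G.I x) : G.P x := G.loc0 x a.1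

variable (K : Ctx G.P)

/-- lattice operators in a context on `W` -/
noncomputable def lt (M : Matrix (Ty n) (Ty n) (LA n)) : R (K.comap G.loc) :=
  lat (K.comap G.loc0) G.pos M

noncomputable abbrev N : Ob K := finOb K G.loc

noncomputable def Nd : G.N K ⟶ G.N K := ofR K G.loc (G.lt K (dK n (XX n)))

noncomputable def Nπ (q : ℕ) : G.N K ⟶ G.N K := ofR K G.loc (chi _ fun _ a => a.2.deg = q)

noncomputable def Nη : cst K ⟶ G.N K :=
  hmk (cst K) (G.N K) (spanF (A := (G.N K).A) fun _ a => if a.2 = Ty.bot n then 1 else 0)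

/-- small `K`-balls around deep points are squeezed between cubes contained in `W` -/
def Bal : Prop :=
  ∀ ε > (0 : ℝ), ∃ ρ > (0 : ℝ), ∃ δ > (0 : ℝ), ∀ᶠ x in K.F, ∀ w : G.P x, ε ≤ K.dep x w →
    Metric.closedBall w.1 ρ ⊆ G.W x ∧ (∀ w' : G.P x, dist w.1 w'.1 ≤ ρ → K.d x w w' < ε) ∧
      ∀ w' : G.P x, K.d x w w' < δ → dist w.1 w'.1 < ρ / 2

/-- the Euclidean context: depth = distance to the complement of `W` -/
noncomputable def K0 (F : Filter ι) : Ctx G.P where
  F := F
  d _ a b := dist a.1 b.1
  dep x a := Metric.infDist a.1 (G.W x)ᶜ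
  d_self _ _ := dist_self _
  d_symm _ _ _ := dist_comm _ _
  d_tri _ _ _ _ := dist_triangle _ _ _
  dep_lip _ _ _ := Metric.infDist_le_infDist_add_dist

end Geo

/-- the cube of radius `11` -/
def Geo.box (n : ℕ) (M : ι → ℕ) (hM : ∀ x, 0 < M x) : Geo ι n where
  W _ := Metric.closedBall 0 11
  cW _ := isCompact_closedBall _ _
  M := M
  M_pos := hM

end Crest.Agent.R217
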