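import Crest.Agent.R217.DAlg
import Crest.Agent.R217.BHad
import Crest.Agent.R217.BFin

/-! Row 217, part D: lattice operators in `R K`, and the lattice complex as a `Cx`. -/

set_option autoImplicit false

namespace Crest.Agent.R217

open Filter Topology CategoryTheory

variable {ι : Type} {n : ℕ}

section Lat

variable {Λ Λ' : ι → Type} [∀ x, Fintype (Λ x)] [∀ x, DecidableEq (Λ x)]
  [∀ x, Fintype (Λ' x)] [∀ x, DecidableEq (Λ' x)]
  {T : Type} [Fintype T] [DecidableEq T] {K K' : Ctx Λ} {pos : ∀ x, Λ x → Fin n → ℤ}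

theorem dl_smR_fin {α : Type} (S : Finset α) {Z : α → ∀ x, Λ x → Λ x → Prop}
    (hZ : ∀ σ, K.SmR (Z σ)) : K.SmR fun x a b => ∃ σ ∈ S, Z σ x a b := by
  intro ε hε
  filter_upwards [(eventually_all_finset S).2 fun σ _ => hZ σ ε hε] with x hx a b ⟨σ, hσ, h⟩
  exact hx σ hσ a b h

theorem dl_smS_fin {α : Type} (S : Finset α) {Z : α → ∀ x, Λ x → Prop}
    (hZ : ∀ σ, K.SmS (Z σ)) : K.SmS fun x a => ∃ σ ∈ S, Z σ x a := by
  intro ε hε
  filter_upwards [(eventually_all_finset S).2 fun σ _ => hZ σ ε hε] with x hx a ⟨σ, hσ, h⟩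
  exact hx σ hσ a h

/-- the union of the supports of the entries -/
noncomputable def dlS (M : Matrix T T (LA n)) : Finset (Fin n → ℤ) :=
  Finset.univ.biUnion fun p : T × T => (M p.1 p.2).coeff.support

theorem dl_mem {M : Matrix T T (LA n)} {s t : T} {σ : Fin n → ℤ} (h : (M s t).coeff σ ≠ 0) :
    σ ∈ dlS M :=
  Finset.mem_biUnion.2 ⟨(s, t), Finset.mem_univ _, Finsupp.mem_support_iff.2 h⟩

theorem dl_latM {L : Type} (pos : L → Fin n → ℤ) (M : Matrix T T (LA n)) (p q : L × T) :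
    latM pos M p q = (M p.2 q.2).coeff (pos q.1 - pos p.1) := rfl

theorem dl_sum {L : Type} [Fintype L] {pos : L → Fin n → ℤ} (hi : Function.Injective pos) (a : L)
    (f : (Fin n → ℤ) →₀ ℂ) (g : (Fin n → ℤ) → ℂ) (h : ∀ σ, f σ ≠ 0 → ∃ b, pos b - pos a = σ) :
    ∑ b, f (pos b - pos a) * g (pos b - pos a) = f.sum fun σ r => r * g σ := by
  classical
  have hinj : Function.Injective fun b => pos b - pos a := fun b b' hb => hi (sub_left_injective hb)
  rw [← Finset.sum_image (f := fun σ => f σ * g σ) hinj.injOn, Finsupp.sum]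
  refine (Finset.sum_subset (fun σ hσ => ?_) fun σ _ hσ => ?_).symm
  · obtain ⟨b, hb⟩ := h σ (Finsupp.mem_support_iff.1 hσ)
    exact Finset.mem_image.2 ⟨b, Finset.mem_univ _, hb⟩
  · rw [Finsupp.notMem_support_iff.1 hσ, zero_mul]

theorem dl_sum_ite {L : Type} [Fintype L] {pos : L → Fin n → ℤ} (hi : Function.Injective pos) {a b₀ : L}
    {σ : Fin n → ℤ} (h : pos b₀ - pos a = σ) (c : ℂ) :
    ∑ b, (if pos b - pos a = σ then c else 0) = c := by
  rw [Finset.sum_eq_single b₀, if_pos h]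
  · intro b _ hb
    exact if_neg fun h' => hb (hi (sub_left_injective (h'.trans h.symm)))
  · simp

theorem dl_mulVec {L : Type} [Fintype L] (pos : L → Fin n → ℤ) (M : Matrix T T (LA n)) (t : T)
    (p : L × T) : (latM pos M).mulVec (fun q => if q.2 = t then 1 else 0) p =
      ∑ b, (M p.2 t).coeff (pos b - pos p.1) := by
  simp [Matrix.mulVec, dotProduct, Fintype.sum_prod_type, dl_latM]

theorem LatCtx.le (h : LatCtx K pos) (hK : K.Le K') : LatCtx K' pos := by
  exact ⟨h.inj, fun σ => hK.smR _ (h.smR σ), fun σ => hK.smS _ (h.smS σ)⟩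

/-- finitely many `σ` occur (supports of the entries) -/
theorem LatCtx.mc (h : LatCtx K pos) (M : Matrix T T (LA n)) :
    MC (K.prod fun _ => T) fun x => latM (pos x) M := by
  intro ε hε
  filter_upwards [dl_smR_fin (dlS M) h.smR ε hε] with x hx p q hpq
  exact hx p.1 q.1 ⟨_, dl_mem hpq, rfl⟩

theorem lat_add (h : LatCtx K pos) (M N : Matrix T T (LA n)) :
    lat K pos (M + N) = lat K pos M + lat K pos N := by
  rw [lat, lat, lat, ← mk_add (h.mc M) (h.mc N)]
  exact bh_ext fun _ _ _ => rfl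

theorem lat_zero : lat K pos (0 : Matrix T T (LA n)) = 0 := by
  rw [lat, ← mk_zero]
  exact bh_ext fun _ _ _ => rfl

theorem lat_one (h : LatCtx K pos) : lat K pos (1 : Matrix T T (LA n)) = 1 := by
  rw [lat, ← mk_one]
  refine bh_ext fun x p q => ?_
  rw [dl_latM, Pi.one_apply, Matrix.one_apply, Matrix.one_apply]
  by_cases hpq : p = q
  · subst hpq
    simp
  · rw [if_neg hpq]
    split_ifs with h2
    · rw [AddMonoidAlgebra.one_def, AddMonoidAlgebra.coeff_single, Finsupp.single_eq_of_ne]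
      intro h3
      exact hpq (Prod.ext (h.inj x (sub_eq_zero.1 h3)).symm h2)
    · rfl

theorem lat_star (h : LatCtx K pos) (M : Matrix T T (LA n)) :
    lat K pos (star M) = star (lat K pos M) := by
  rw [lat, lat, ← mk_star (h.mc M)]
  refine bh_ext fun x p q => ?_
  rw [dl_latM, Matrix.star_apply, LA.coeff_star, neg_sub]
  rfl

/-- on deep rows `a` all `pos a + σ`, `σ` in the supports of the entries of `M`, are positions -/
theorem lat_mul (h : LatCtx K pos) (M N : Matrix T T (LA n)) :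
    lat K pos (M * N) = lat K pos M * lat K pos N := by
  rw [lat, lat, lat, ← mk_mul (h.mc M) (h.mc N)]
  refine bh_eq' (h.mc _) ((h.mc M).mul (h.mc N)) (dl_smS_fin (dlS M) h.smS) fun x p q hpq => ?_
  by_contra hc
  push Not at hc
  refine hpq ?_
  rw [dl_latM, Pi.mul_apply, Matrix.mul_apply, Matrix.mul_apply, AddMonoidAlgebra.coeff_sum,
    Finsupp.finsetSum_apply, Fintype.sum_prod_type_right]
  refine Finset.sum_congr rfl fun t _ => ?_
  rw [AddMonoidAlgebra.coeff_mul_apply_left,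
    ← dl_sum (h.inj x) p.1 _ (fun σ => (N t q.2).coeff (-σ + (pos x q.1 - pos x p.1)))
      fun σ hσ => hc σ (dl_mem hσ)]
  refine Finset.sum_congr rfl fun b _ => ?_
  rw [dl_latM, dl_latM]
  congr 2
  abel

theorem res_lat (h : LatCtx K pos) (hK : K.Le K') (M : Matrix T T (LA n)) :
    res (K'.prod fun _ => T) (lat K pos M) = lat K' pos M := by
  exact res_mk (hK.comap _) (h.mc M)

theorem tr_lat {K₁ : Ctx Λ'} {pos₁ : ∀ x, Λ' x → Fin n → ℤ} (e : ∀ x, Λ x ↪ Λ' x)
    (h : LatCtx K pos) (h₁ : LatCtx K₁ pos₁) (he : ∀ x a, pos₁ x (e x a) = pos x a)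
    (hK : K.Le (K₁.comap fun x => e x)) (hs : K₁.SmS fun x b => ∀ a, e x a ≠ b)
    (M : Matrix T T (LA n)) :
    tr (K₁.prod fun _ => T) (embProd e fun _ => T) (lat K pos M) = lat K₁ pos₁ M := by
  have h2 : (K.prod fun _ => T).Le ((K₁.prod fun _ => T).comap fun x => embProd e (fun _ => T) x) :=
    hK.comap fun x (p : Λ x × T) => p.1
  rw [lat, lat, tr_mk h2 (h.mc M)]
  refine bh_eq' ((h.mc M).tr h2) (h₁.mc M) (hs.or (Ctx.SmS.near (dl_smR_fin (dlS M) h₁.smR) hs))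
    fun x p q hpq => ?_
  by_cases hp : ∀ a, e x a ≠ p.1
  · exact Or.inl hp
  push Not at hp
  obtain ⟨a, ha⟩ := hp
  by_cases hq : ∀ a, e x a ≠ q.1
  · rw [trM_apply_right _ _ _ fun a' ha' => hq a'.1 (congrArg Prod.fst ha')] at hpq
    exact Or.inr ⟨q.1, ⟨_, dl_mem hpq.symm, rfl⟩, hq⟩
  push Not at hq
  obtain ⟨b, hb⟩ := hq
  refine (hpq ?_).elim
  have e1 : p = embProd e (fun _ => T) x (a, p.2) := Prod.ext ha.symm rfl
  have e2 : q = embProd e (fun _ => T) x (b, q.2) := Prod.ext hb.symm rfl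
  rw [dl_latM, ← ha, ← hb, he, he, e1, e2, trM_apply]
  rfl

theorem had1_lat (h : LatCtx K pos) {u : ∀ x, Λ x → Λ x → ℂ}
    (hu : ∀ σ, K.SmS fun x a => ∃ b, pos x b - pos x a = σ ∧ u x a b ≠ 1) (M : Matrix T T (LA n)) :
    had1 (K.prod fun _ => T) (fun x p q => u x p.1 q.1) (lat K pos M) = lat K pos M := by
  have ha : Adm (K.prod fun _ => T) (K.prod fun _ => T) fun x p q => u x p.1 q.1 ≠ 0 :=
    (Ctx.Le.refl _).adm _
  rw [lat, had1_mk ha (h.mc M)]
  refine bh_eq' ((h.mc M).had1 ha) (h.mc M) (dl_smS_fin (dlS M) hu) fun x p q hpq => ?_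
  rw [Matrix.of_apply] at hpq
  have h1 : latM (pos x) M p q ≠ 0 := fun h0 => hpq (by rw [h0, mul_zero])
  exact ⟨_, dl_mem h1, q.1, rfl, fun h0 => hpq (by rw [h0, one_mul])⟩

theorem lat_phi_inv (h : LatCtx K pos) (hn : Even n) :
    ∃ Ψ, Inv (lat K pos (phiK n (XX n))) Ψ := by
  obtain ⟨Ψ, h1, h2⟩ := phiK_inv hn (XX n) (XX_unitary n)
  exact ⟨lat K pos Ψ, by rw [← lat_star h, phiK_star _ (XX_unitary n)], by rw [← lat_mul h, h1, lat_one h],
    by rw [← lat_mul h, h2, lat_one h]⟩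

theorem lat_dd (h : LatCtx K pos) : lat K pos (dK n (XX n)) * lat K pos (dK n (XX n)) = 0 := by
  rw [← lat_mul h, dK_sq, lat_zero]

theorem lat_chain (h : LatCtx K pos) : lat K pos (phiK n (XX n)) * lat K pos (dK n (XX n)) +
    star (lat K pos (dK n (XX n))) * lat K pos (phiK n (XX n)) = 0 := by
  rw [← lat_star h, ← lat_mul h, ← lat_mul h, ← lat_add h, phiK_chain _ (XX_unitary n), lat_zero]

theorem dl_d_chi (h : LatCtx K pos) (q : ℕ) :
    lat K pos (dK n (XX n)) * chi _ (fun _ a => a.2.deg = q) =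
      chi _ (fun _ a => a.2.deg = q + 1) * lat K pos (dK n (XX n)) := by
  rw [lat, chi, chi, dg, dg, ← mk_mul (h.mc _) (mc_diagonal _), ← mk_mul (mc_diagonal _) (h.mc _)]
  refine bh_ext fun x a b => ?_
  rw [Pi.mul_apply, Pi.mul_apply, Matrix.mul_diagonal, Matrix.diagonal_mul, dl_latM]
  by_cases h0 : dK n (XX n) a.2 b.2 = 0
  · simp [h0]
  · by_cases hq : b.2.deg = q <;> simp [dK_deg _ h0, hq]

theorem dl_chi_d (h : LatCtx K pos) :
    chi _ (fun _ a => a.2.deg = 0) * lat K pos (dK n (XX n)) = 0 := by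
  rw [lat, chi, dg, ← mk_mul (mc_diagonal _) (h.mc _), ← mk_zero]
  refine bh_ext fun x a b => ?_
  rw [Pi.mul_apply, Matrix.diagonal_mul, dl_latM]
  by_cases h0 : dK n (XX n) a.2 b.2 = 0
  · simp [h0]
  · simp [dK_deg _ h0]

theorem dl_dist (M : ℕ) (a σ : Fin n → ℤ) :
    ‖lpt M a - lpt M (a + σ)‖ = ‖fun k => (σ k : ℝ)‖ / M := by
  have e : lpt M a - lpt M (a + σ) = -((M : ℝ)⁻¹ • fun k => (σ k : ℝ)) := by
    funext k
    simp only [lpt, Pi.sub_apply, Pi.add_apply, Pi.neg_apply, Pi.smul_apply, smul_eq_mul]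
    push_cast
    ring
  rw [e, norm_neg, norm_smul, norm_inv, Real.norm_natCast, div_eq_inv_mul]

theorem dl_small {F : Filter ι} {M : ι → ℕ} (hM : Tendsto M F atTop) (C : ℝ) {ε : ℝ} (hε : 0 < ε) :
    ∀ᶠ x in F, C / M x < ε :=
  ((tendsto_const_div_atTop_nhds_zero_nat C).comp hM).eventually (gt_mem_nhds hε)

end Lat

namespace Geo

variable (G : Geo ι n)

theorem latCtx_K0 {F : Filter ι} (hM : Tendsto G.M F atTop) :
    LatCtx ((G.K0 F).comap G.loc0) G.pos := by
  refine ⟨fun x => Subtype.val_injective, fun σ ε hε => ?_, fun σ ε hε => ?_⟩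
  · filter_upwards [dl_small hM ‖fun k => (σ k : ℝ)‖ hε] with x hx a b hab
    change dist (lpt (G.M x) a.1) (lpt (G.M x) b.1) < ε
    have e : b.1 = a.1 + σ := (sub_eq_iff_eq_add'.1 hab :)
    rwa [e, dist_eq_norm, dl_dist]
  · filter_upwards [dl_small hM ‖fun k => (σ k : ℝ)‖ hε] with x hx a ha
    change Metric.infDist (lpt (G.M x) a.1) (G.W x)ᶜ < ε
    have hn : lpt (G.M x) (a.1 + σ) ∈ (G.W x)ᶜ := fun hm =>
      ha ⟨a.1 + σ, hm⟩ (add_sub_cancel_left a.1 σ)
    refine (Metric.infDist_le_dist_of_mem hn).trans_lt ?_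
    rwa [dist_eq_norm, dl_dist]

theorem bal_K0 (F : Filter ι) : G.Bal (G.K0 F) := by
  intro ε hε
  refine ⟨ε / 2, half_pos hε, ε / 2 / 2, half_pos (half_pos hε), .of_forall fun x w hw =>
    ⟨fun y hy => ?_, fun w' h => h.trans_lt (half_lt_self hε), fun w' h => h⟩⟩
  by_contra hn
  have h1 : Metric.infDist w.1 (G.W x)ᶜ ≤ dist w.1 y := Metric.infDist_le_dist_of_mem hn
  have h2 : ε ≤ Metric.infDist w.1 (G.W x)ᶜ := hw
  have h3 : dist w.1 y ≤ ε / 2 := Metric.mem_closedBall'.1 hy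
  linarith

variable {K K' : Ctx G.P}

theorem dl_πD (hL : LatCtx (K.comap G.loc0) G.pos) (q : ℕ) :
    G.Nπ K q ≫ G.Nd K = G.Nd K ≫ G.Nπ K (q + 1) := by
  rw [Nπ, Nπ, Nd, ← ofR_mul, ← ofR_mul]
  exact congrArg _ (dl_d_chi hL q)

theorem dl_span (hL : LatCtx (K.comap G.loc0) G.pos) (M : Matrix (Ty n) (Ty n) (LA n)) :
    G.Nη K ≫ ofR K G.loc (G.lt K M) = hmk (cst K) (G.N K) (spanF (A := (G.N K).A) fun x a =>
      ∑ b, (M a.2 (Ty.bot n)).coeff (G.pos x b - G.pos x a.1)) := by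
  refine (span_ofR (K := K) (loc := G.loc) _ (hL.mc M)).trans ?_
  congr 2
  funext x a
  exact dl_mulVec _ _ _ _

theorem dl_ηD (hL : LatCtx (K.comap G.loc0) G.pos) : G.Nη K ≫ G.Nd K = 0 := by
  rw [Nd, G.dl_span hL]
  refine (hmk_span_eq (K := K) (loc := G.loc) (y' := fun _ _ => 0) fun ε hε => ?_).trans ?_
  · filter_upwards [dl_smS_fin Finset.univ (fun k : Fin n => hL.smS (Pi.single k 1)) ε hε]
      with x hx a ha
    have h1 : ∀ k : Fin n, ∑ b, (XX n k - 1).coeff (G.pos x b - G.pos x a.1) = 0 := by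
      intro k
      have h2 : ∃ b, G.pos x b - G.pos x a.1 = Pi.single k 1 := by
        by_contra hc
        push Not at hc
        exact (hx a.1 ⟨k, Finset.mem_univ _, hc⟩).not_ge ha
      obtain ⟨b, hb⟩ := h2
      simp only [coeff_XX_sub_one, Finset.sum_sub_distrib]
      rw [dl_sum_ite (hL.inj x) hb, dl_sum_ite (hL.inj x) (sub_self _), sub_self]
    rcases dK_entry (XX n) a.2 (Ty.bot n) with h | ⟨k, h | h⟩
    · simp [h]
    · rw [h, h1]
    · simp only [h, AddMonoidAlgebra.coeff_neg, Finsupp.neg_apply, Finset.sum_neg_distrib, h1, neg_zero]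
  · rw [← hmk_zero]
    congr 1
    funext x
    exact LinearMap.toSpanSingleton_zero _ _

theorem dl_ηπ : G.Nη K ≫ G.Nπ K 0 = G.Nη K := by
  refine (span_ofR (K := K) (loc := G.loc) _ (mc_diagonal _)).trans ?_
  rw [Nη]
  congr 2
  funext x a
  rw [Matrix.mulVec_diagonal]
  by_cases h : a.2 = Ty.bot n
  · rw [if_pos h, if_pos ((Ty.deg_eq_zero _).2 h), one_mul]
  · rw [if_neg h, mul_zero]

theorem dl_sumπ (m : ℕ) :
    ∑ q ∈ Finset.range m, G.Nπ K q = ofR K G.loc (chi _ fun _ a => a.2.deg < m) := by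
  induction m with
  | zero =>
    rw [Finset.range_zero, Finset.sum_empty, chi_eq_zero, ofR_zero]
    exact (Ctx.smS_false _).mono (.of_forall fun _ _ h => (Nat.not_lt_zero _ h).elim)
  | succ m ih =>
    rw [Finset.sum_range_succ, ih, Nπ, ← ofR_add, chi, chi, chi, dg_add]
    congr 2
    funext x a
    rcases lt_trichotomy a.2.deg m with h | h | h
    · rw [if_pos h, if_neg h.ne, if_pos (h.trans m.lt_succ_self), add_zero]
    · rw [if_neg (by omega), if_pos h, if_pos (by omega), zero_add]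
    · rw [if_neg (by omega), if_neg (by omega), if_neg (by omega), add_zero]

/-- the lattice complex -/
noncomputable def NCx (hL : LatCtx (K.comap G.loc0) G.pos) : Cx K where
  A := G.N K
  D := G.Nd K
  π := G.Nπ K
  η := G.Nη K
  DD := by
    rw [Nd, ← ofR_mul, ← ofR_zero]
    exact congrArg _ (lat_dd hL)
  ππ := by
    intro p q
    rw [Nπ, Nπ, ← ofR_mul]
    split_ifs with h
    · rw [h, chi_idem]
    · rw [chi_mul, chi_eq_zero, ofR_zero]
      exact (Ctx.smS_false _).mono (.of_forall fun _ _ h' => h (h'.2.symm.trans h'.1))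
  πD := by
    exact G.dl_πD hL
  Dπ := by
    rw [Nπ, Nd, ← ofR_mul, ← ofR_zero]
    exact congrArg _ (dl_chi_d hL)
  ηD := by
    exact G.dl_ηD hL
  ηπ := by
    exact G.dl_ηπ

theorem NCx_ϖ (hL : LatCtx (K.comap G.loc0) G.pos) : (G.NCx hL).ϖ n = 𝟙 _ := by
  refine (G.dl_sumπ (n + 1)).trans ?_
  have e : (fun (x : ι) (a : G.I x) => a.2.deg < n + 1) = fun _ _ => True := by
    funext x a
    exact eq_true (Nat.lt_succ_of_le (Ty.deg_le _))
  rw [e, chi_true, ofR_one]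
  rfl

theorem Nπ_Nd (hL : LatCtx (K.comap G.loc0) G.pos) : G.Nπ K n ≫ G.Nd K = 0 := by
  rw [G.dl_πD hL, Nπ, chi_eq_zero, ofR_zero, Limits.comp_zero]
  exact (Ctx.smS_false _).mono (.of_forall fun _ a h => by have := Ty.deg_le a.2; omega)

theorem res_lt (hL : LatCtx (K.comap G.loc0) G.pos) (h : K.Le K')
    (M : Matrix (Ty n) (Ty n) (LA n)) : res (K'.comap G.loc) (G.lt K M) = G.lt K' M := by
  exact res_lat hL (h.comap _) M

theorem resH_Nd (hL : LatCtx (K.comap G.loc0) G.pos) (h : K.Le K') :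
    resH K' (G.Nd K) = G.Nd K' := by
  rw [Nd, resH_ofR h, G.res_lt hL h]
  rfl

theorem resH_Nπ (h : K.Le K') (q : ℕ) : resH K' (G.Nπ K q) = G.Nπ K' q := by
  rw [Nπ, resH_ofR h, res_chi (h.comap _)]
  rfl

theorem resH_Nη (h : K.Le K') : resH K' (G.Nη K) = G.Nη K' := by
  exact resH_hmk h (ctrl_cst _)

/-- `φ η` is the constant `(-i)^(n/2)` in top degree (`phiK_bot`, `span_ofR`, `hmk_span_eq`) -/
theorem Nη_phi (hL : LatCtx (K.comap G.loc0) G.pos) (hn : Even n) :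
    G.Nη K ≫ ofR K G.loc (G.lt K (phiK n (XX n))) = hmk (cst K) (G.N K)
      (spanF (A := (G.N K).A) fun _ a => if a.2 = Ty.top n then (-Complex.I) ^ (n / 2) else 0) :=
  by
  rw [G.dl_span hL]
  congr 2
  funext x a
  rw [phiK_bot hn]
  split_ifs with h
  · simp only [AddMonoidAlgebra.coe_algebraMap, Function.comp_apply, AddMonoidAlgebra.coeff_single,
      Finsupp.single_apply, eq_comm (a := (0 : Fin n → ℤ))]
    exact dl_sum_ite (hL.inj x) (sub_self _) _
  · simp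

end Geo

theorem box_latCtx {F : Filter ι} {M : ι → ℕ} (hM : ∀ x, 0 < M x) (hM' : Tendsto M F atTop) {r : ℝ}
    (hr : r ≤ 11) : LatCtx (coordR F r fun x (a : (Geo.box n M hM).Λ x) => lpt (M x) a.1)
      (Geo.box n M hM).pos := by
  refine ⟨fun x => Subtype.val_injective, fun σ ε hε => ?_, fun σ ε hε => ?_⟩
  · filter_upwards [dl_small hM' ‖fun k => (σ k : ℝ)‖ hε] with x hx a b hab
    change ‖lpt (M x) a.1 - lpt (M x) b.1‖ < ε
    have e : b.1 = a.1 + σ := (sub_eq_iff_eq_add'.1 hab :)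
    rwa [e, dl_dist]
  · filter_upwards [dl_small hM' ‖fun k => (σ k : ℝ)‖ hε] with x hx a ha
    change r - ‖lpt (M x) a.1‖ < ε
    have hn : lpt (M x) (a.1 + σ) ∉ Metric.closedBall (0 : Fin n → ℝ) 11 := fun hm =>
      ha ⟨a.1 + σ, hm⟩ (add_sub_cancel_left a.1 σ)
    rw [mem_closedBall_zero_iff, not_le] at hn
    have h1 := norm_sub_norm_le (lpt (M x) (a.1 + σ)) (lpt (M x) a.1)
    rw [norm_sub_rev, dl_dist] at h1
    linarith

end Crest.Agent.R217
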