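import Crest.Agent.R217.DAlg

/-! Row 217, part D: the discrete Poincaré lemma on boxes. -/

set_option autoImplicit false

namespace Crest.Agent.R217

variable {n : ℕ}

/-- the cubical differential on all functions on `ℤⁿ` -/
noncomputable def dF (v : (Fin n → ℤ) → Ty n → ℂ) (a : Fin n → ℤ) (σ : Ty n) : ℂ :=
  ∑ τ, (dK n (XX n) σ τ).coeff.sum fun k c => c * v (a + k) τ

theorem dpoin_nat {A : Type} [CommRing A] (L : A →+ ℂ) : ∀ (n : ℕ) (X : Fin n → A) (σ τ : Ty n),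
    L (dK n X σ τ) = dK n (fun k => L (X k) - L 1 + 1) σ τ
  | 0, _, _, _ => L.map_zero
  | n + 1, X, (false, σ), (false, τ) => dpoin_nat L n (fun k => X k.succ) σ τ
  | n + 1, X, (true, σ), (false, τ) => by
    change L (if σ = τ then X 0 - 1 else 0) = if σ = τ then L (X 0) - L 1 + 1 - 1 else 0
    split_ifs
    · rw [map_sub, add_sub_cancel_right]
    · exact L.map_zero
  | n + 1, X, (true, σ), (true, τ) =>
    (L.map_neg _).trans (congrArg Neg.neg (dpoin_nat L n (fun k => X k.succ) σ τ))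
  | _ + 1, _, (false, _), (true, _) => L.map_zero

theorem dpoin_eq (v : (Fin n → ℤ) → Ty n → ℂ) (a : Fin n → ℤ) (σ : Ty n) :
    dF v a σ = ∑ τ, dK n (fun k => v (a + Pi.single k 1) τ - v a τ + 1) σ τ := by
  refine Finset.sum_congr rfl fun τ _ => ?_
  let L : LA n →+ ℂ :=
    { toFun := fun P => P.coeff.sum fun k c => c * v (a + k) τ
      map_zero' := by simp
      map_add' := fun P Q => by
        rw [AddMonoidAlgebra.coeff_add]
        exact Finsupp.sum_add_index' (fun _ => zero_mul _) fun _ _ _ => add_mul _ _ _ }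
  have h : ∀ k, L (AddMonoidAlgebra.single k 1) = v (a + k) τ := fun k => by
    change (AddMonoidAlgebra.single k (1 : ℂ)).coeff.sum (fun k c => c * v (a + k) τ) = _
    simp
  refine (dpoin_nat L n (XX n) σ τ).trans ?_
  simp only [XX, AddMonoidAlgebra.one_def, h, add_zero]

/-- a type of cells from its first coordinate and the rest -/
def dpoin_c (b : Bool) (τ : Ty n) : Ty (n + 1) := (b, τ)

theorem dpoin_sum (f : Ty (n + 1) → ℂ) :
    ∑ τ, f τ = ∑ τ : Ty n, f (dpoin_c true τ) + ∑ τ : Ty n, f (dpoin_c false τ) :=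
  (Fintype.sum_prod_type (α₁ := Bool) (α₂ := Ty n) f).trans (Fintype.sum_bool _)

theorem dpoin_succ (i : ℤ) (a : Fin n → ℤ) (k : Fin n) :
    (Fin.cons i a : Fin (n + 1) → ℤ) + Pi.single k.succ 1 = Fin.cons i (a + Pi.single k 1) := by
  funext j
  refine Fin.cases ?_ (fun j => ?_) j
  · simp
  · simp [Pi.single_apply]

theorem dpoin_zero (i : ℤ) (a : Fin n → ℤ) :
    (Fin.cons i a : Fin (n + 1) → ℤ) + Pi.single 0 1 = Fin.cons (i + 1) a := by
  funext j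
  refine Fin.cases ?_ (fun j => ?_) j
  · simp
  · simp

theorem dpoin_false (v : (Fin (n + 1) → ℤ) → Ty (n + 1) → ℂ) (i : ℤ) (a : Fin n → ℤ) (σ : Ty n) :
    dF v (Fin.cons i a) (dpoin_c false σ) =
      dF (fun a' τ => v (Fin.cons i a') (dpoin_c false τ)) a σ := by
  rw [dpoin_eq v, dpoin_eq, dpoin_sum]
  simp only [← dpoin_succ]
  exact (congrArg (· + _) Finset.sum_const_zero).trans (zero_add _)

theorem dpoin_true (v : (Fin (n + 1) → ℤ) → Ty (n + 1) → ℂ) (i : ℤ) (a : Fin n → ℤ) (σ : Ty n) :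
    dF v (Fin.cons i a) (dpoin_c true σ) =
      v (Fin.cons (i + 1) a) (dpoin_c false σ) - v (Fin.cons i a) (dpoin_c false σ) -
        dF (fun a' τ => v (Fin.cons i a') (dpoin_c true τ)) a σ := by
  have e1 : ∀ (X : Fin (n + 1) → ℂ) τ, dK (n + 1) X (dpoin_c true σ) (dpoin_c true τ) =
      -dK n (fun k => X k.succ) σ τ := fun _ _ => rfl
  have e2 : ∀ (X : Fin (n + 1) → ℂ) τ, dK (n + 1) X (dpoin_c true σ) (dpoin_c false τ) =
      if σ = τ then X 0 - 1 else 0 := fun _ _ => rfl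
  rw [dpoin_eq v, dpoin_eq, dpoin_sum]
  simp only [e1, e2, Finset.sum_neg_distrib, dpoin_succ, dpoin_zero, Finset.sum_ite_eq,
    Finset.mem_univ, if_true]
  ring

/-- the recursion: with `a = Fin.cons i a'`, and `vᵇ i a' τ = v (Fin.cons i a') (b, τ)`:
`dF v a (false, σ) = dF (v^false i) a' σ`,
`dF v a (true, σ) = v^false (i+1) a' σ - v^false i a' σ - dF (v^true i) a' σ`. -/
theorem dF_false (v : (Fin (n + 1) → ℤ) → Ty (n + 1) → ℂ) (i : ℤ) (a : Fin n → ℤ) (σ : Ty n) :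
    dF v (Fin.cons i a) ((false, σ) : Bool × Ty n) =
      dF (fun a' τ => v (Fin.cons i a') ((false, τ) : Bool × Ty n)) a σ :=
  dpoin_false v i a σ

theorem dF_true (v : (Fin (n + 1) → ℤ) → Ty (n + 1) → ℂ) (i : ℤ) (a : Fin n → ℤ) (σ : Ty n) :
    dF v (Fin.cons i a) ((true, σ) : Bool × Ty n) =
      v (Fin.cons (i + 1) a) ((false, σ) : Bool × Ty n) - v (Fin.cons i a) ((false, σ) : Bool × Ty n) -
        dF (fun a' τ => v (Fin.cons i a') ((true, τ) : Bool × Ty n)) a σ :=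
  dpoin_true v i a σ

theorem dpoin_lin {ι : Type} (s : Finset ι) (f : ι → (Fin n → ℤ) → Ty n → ℂ)
    (g : (Fin n → ℤ) → Ty n → ℂ) (a : Fin n → ℤ) (σ : Ty n) :
    dF (fun a τ => ∑ j ∈ s, f j a τ + g a τ) a σ = ∑ j ∈ s, dF (f j) a σ + dF g a σ := by
  simp only [dF, Finsupp.sum, mul_add, Finset.mul_sum, Finset.sum_add_distrib]
  rw [Finset.sum_comm (s := s)]
  congr 1
  exact Finset.sum_congr rfl fun τ _ => Finset.sum_comm

theorem dpoin_dF_zero (a : Fin n → ℤ) (σ : Ty n) : dF (fun _ _ => 0) a σ = 0 := by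
  simp [dF]

/-- the homotopy operator -/
noncomputable def dpoin_H : (n : ℕ) → (Fin n → ℤ) → ((Fin n → ℤ) → Ty n → ℂ) →
    (Fin n → ℤ) → Ty n → ℂ
  | 0, _, _, _, _ => 0
  | _ + 1, _, _, _, (true, _) => 0
  | n + 1, l, v, a, (false, τ) =>
    ∑ j ∈ Finset.range (a 0 - l 0).toNat, v (Fin.cons (l 0 + j) (Fin.tail a)) (dpoin_c true τ) +
      dpoin_H n (Fin.tail l) (fun a' τ' => v (Fin.cons (l 0) a') (dpoin_c false τ')) (Fin.tail a) τ

theorem dpoin_H_true (l : Fin (n + 1) → ℤ) (v : (Fin (n + 1) → ℤ) → Ty (n + 1) → ℂ)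
    (a : Fin (n + 1) → ℤ) (τ : Ty n) : dpoin_H (n + 1) l v a (dpoin_c true τ) = 0 := rfl

theorem dpoin_H_false' (l : Fin (n + 1) → ℤ) (v : (Fin (n + 1) → ℤ) → Ty (n + 1) → ℂ)
    (a : Fin (n + 1) → ℤ) (τ : Ty n) : dpoin_H (n + 1) l v a (dpoin_c false τ) =
    ∑ j ∈ Finset.range (a 0 - l 0).toNat, v (Fin.cons (l 0 + j) (Fin.tail a)) (dpoin_c true τ) +
      dpoin_H n (Fin.tail l) (fun a' τ' => v (Fin.cons (l 0) a') (dpoin_c false τ'))
        (Fin.tail a) τ := rfl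

theorem dpoin_H_false (l₀ : ℤ) (l : Fin n → ℤ) (v : (Fin (n + 1) → ℤ) → Ty (n + 1) → ℂ) (m : ℕ)
    (a : Fin n → ℤ) (τ : Ty n) :
    dpoin_H (n + 1) (Fin.cons l₀ l) v (Fin.cons (l₀ + m) a) (dpoin_c false τ) =
      ∑ j ∈ Finset.range m, v (Fin.cons (l₀ + j) a) (dpoin_c true τ) +
        dpoin_H n l (fun a' τ' => v (Fin.cons l₀ a') (dpoin_c false τ')) a τ := by
  simp [dpoin_H_false']

theorem dpoin_cases (σ : Ty (n + 1)) : (∃ τ, σ = dpoin_c true τ) ∨ ∃ τ, σ = dpoin_c false τ :=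
  match σ with
  | (true, τ) => Or.inl ⟨τ, rfl⟩
  | (false, τ) => Or.inr ⟨τ, rfl⟩

theorem dpoin_deg (P : ℕ → Prop) (n : ℕ) : ∀ (l : Fin n → ℤ) (v : (Fin n → ℤ) → Ty n → ℂ),
    (∀ a τ, P τ.deg → v a τ = 0) → ∀ a τ, P (τ.deg + 1) → dpoin_H n l v a τ = 0 := by
  induction n with
  | zero => exact fun _ _ _ _ _ _ => rfl
  | succ n ih =>
    intro l v hv a σ h
    have e1 : ∀ τ : Ty n, (dpoin_c false τ).deg = τ.deg := fun τ => zero_add _
    have e2 : ∀ τ : Ty n, (dpoin_c true τ).deg = τ.deg + 1 := fun τ => add_comm 1 _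
    obtain ⟨τ, rfl⟩ | ⟨τ, rfl⟩ := dpoin_cases σ
    · rfl
    · rw [e1] at h
      rw [dpoin_H_false', ih _ _ (fun a' τ' h' => hv _ _ (by rwa [e1])) _ τ h, add_zero]
      exact Finset.sum_eq_zero fun j _ => hv _ _ (by rwa [e2])

theorem dpoin_loc (n : ℕ) : ∀ (l u : Fin n → ℤ) (v : (Fin n → ℤ) → Ty n → ℂ),
    (∀ a ∈ Set.Icc l u, ∀ τ, v a τ = 0) → ∀ a ∈ Set.Icc l u, ∀ τ, dpoin_H n l v a τ = 0 := by
  induction n with
  | zero => exact fun _ _ _ _ _ _ _ => rfl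
  | succ n ih =>
    intro l u v hv a ha σ
    have h1 : Fin.tail a ∈ Set.Icc (Fin.tail l) (Fin.tail u) :=
      ⟨fun k => ha.1 k.succ, fun k => ha.2 k.succ⟩
    have h2 : ∀ i, l 0 ≤ i → i ≤ a 0 → ∀ a' ∈ Set.Icc (Fin.tail l) (Fin.tail u),
        (Fin.cons i a' : Fin (n + 1) → ℤ) ∈ Set.Icc l u := fun i hi hi' a' h' =>
      ⟨Fin.le_cons.2 ⟨hi, h'.1⟩, Fin.cons_le.2 ⟨hi'.trans (ha.2 0), h'.2⟩⟩
    obtain ⟨τ, rfl⟩ | ⟨τ, rfl⟩ := dpoin_cases σ
    · rfl
    · rw [dpoin_H_false', ih _ (Fin.tail u) _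
        (fun a' h' τ' => hv _ (h2 _ le_rfl (ha.1 0) a' h') _) _ h1, add_zero]
      refine Finset.sum_eq_zero fun j hj => hv _ (h2 _ ?_ ?_ _ h1) _
      · omega
      · have := Finset.mem_range.1 hj
        omega

theorem dpoin_id (n : ℕ) : ∀ (l : Fin n → ℤ) (v : (Fin n → ℤ) → Ty n → ℂ) (a : Fin n → ℤ),
    l ≤ a → ∀ σ, dF (dpoin_H n l v) a σ + dpoin_H n l (dF v) a σ =
      v a σ - if σ = Ty.bot n then v l (Ty.bot n) else 0 := by
  induction n with
  | zero =>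
    intro l v a _ σ
    obtain rfl : l = a := Subsingleton.elim _ _
    have : σ = Ty.bot 0 := rfl
    rw [if_pos this, this, sub_self]
    simp [dF, dK, dpoin_H]
  | succ n ih =>
    intro l v a h σ
    obtain ⟨l₀, l, rfl⟩ : ∃ l₀ l', l = Fin.cons l₀ l' := ⟨_, _, (Fin.cons_self_tail l).symm⟩
    obtain ⟨i, a, rfl⟩ : ∃ l₀ l', a = Fin.cons l₀ l' := ⟨_, _, (Fin.cons_self_tail a).symm⟩
    obtain ⟨h1, h2⟩ := Fin.cons_le_cons.1 h
    obtain ⟨m, rfl⟩ := Int.le.dest h1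
    have e : ∀ j : ℕ, l₀ + j + 1 = l₀ + (j + 1 : ℕ) := fun j => by push_cast; ring
    obtain ⟨σ, rfl⟩ | ⟨σ, rfl⟩ := dpoin_cases σ
    · have e0 : dpoin_c true σ ≠ Ty.bot (n + 1) := fun h =>
        Bool.noConfusion (congrArg Prod.fst h : true = false)
      rw [dpoin_true, dpoin_H_true, e, dpoin_H_false, dpoin_H_false, Finset.sum_range_succ,
        if_neg e0]
      simp only [dpoin_H_true, dpoin_dF_zero]
      ring
    · have e1 := Finset.sum_range_sub (fun j : ℕ => v (Fin.cons (l₀ + j) a) (dpoin_c false σ)) m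
      have e2 := ih l (fun a' τ' => v (Fin.cons l₀ a') (dpoin_c false τ')) a h2 σ
      have e3 : (if dpoin_c false σ = Ty.bot (n + 1) then v (Fin.cons l₀ l) (Ty.bot (n + 1))
          else 0) = if σ = Ty.bot n then v (Fin.cons l₀ l) (dpoin_c false (Ty.bot n)) else 0 :=
        if_congr ⟨fun h => congrArg Prod.snd h, fun h => congrArg (dpoin_c false) h⟩ rfl rfl
      rw [dpoin_false, dpoin_H_false, e3]
      simp only [dpoin_H_false, dpoin_true, dpoin_false, e]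
      rw [dpoin_lin, Finset.sum_sub_distrib, e1]
      simp only [Nat.cast_zero, add_zero]
      linear_combination e2

theorem poincare_zero (v : (Fin n → ℤ) → Ty n → ℂ) (hv : ∀ a τ, τ ≠ Ty.bot n → v a τ = 0)
    (l u : Fin n → ℤ) (h : ∀ a ∈ Set.Icc l (u + 1), ∀ σ, dF v a σ = 0) :
    ∃ c, ∀ a ∈ Set.Icc l u, v a (Ty.bot n) = c := by
  refine ⟨v l (Ty.bot n), fun a ha => ?_⟩
  have h1 := dpoin_id n l v a ha.1 (Ty.bot n)
  have h2 : dpoin_H n l v = fun _ _ => 0 := funext fun a => funext fun τ =>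
    dpoin_deg (· ≠ 0) n l v (fun a τ h => hv a τ fun h' => h ((Ty.deg_eq_zero τ).2 h')) a τ
      (Nat.succ_ne_zero _)
  rw [h2, dpoin_dF_zero, dpoin_loc n l (u + 1) _ h a
    ⟨ha.1, ha.2.trans fun k => by simp⟩, if_pos rfl, add_zero] at h1
  exact sub_eq_zero.1 h1.symm

/-- Prove by induction on `n` the sharper statement for the cells contained in a box (`(a, σ)` with
`l k ≤ a k` and `a k + [k ∈ σ] ≤ u k`), for all degrees at once together with degree `0`.  Step: integrate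
in the first direction, `h i a' τ = ∑_{l 0 ≤ j < i} v^true j a' τ` placed in `false`-type; then
`v - dF h` has no `true`-part, its `false`-part does not depend on `i`, and is closed. -/
theorem poincare_succ (q : ℕ) (v : (Fin n → ℤ) → Ty n → ℂ) (hv : ∀ a τ, τ.deg ≠ q + 1 → v a τ = 0)
    (l u : Fin n → ℤ) (h : ∀ a ∈ Set.Icc l (u + 1), ∀ σ, dF v a σ = 0) :
    ∃ w : (Fin n → ℤ) → Ty n → ℂ, (∀ a τ, τ.deg ≠ q → w a τ = 0) ∧
      ∀ a ∈ Set.Icc l u, ∀ τ, v a τ = dF w a τ := by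
  refine ⟨dpoin_H n l v, fun a τ hτ => dpoin_deg (· ≠ q + 1) n l v hv a τ (by simpa using hτ),
    fun a ha τ => ?_⟩
  have h1 := dpoin_id n l v a ha.1 τ
  rw [dpoin_loc n l (u + 1) _ h a ⟨ha.1, ha.2.trans fun k => by simp⟩, add_zero,
    hv l (Ty.bot n) (by rw [(Ty.deg_eq_zero _).2 rfl]; omega), ite_self, sub_zero] at h1
  exact h1.symm

end Crest.Agent.R217
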