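import Crest.Agent.R217.DLat
import Crest.Agent.R217.DPoin

/-! Row 217, part D: the lattice complex is a resolution. -/

set_option autoImplicit false

namespace Crest.Agent.R217

open Filter Topology CategoryTheory

variable {ι : Type} {n : ℕ}

theorem dres_box {M : ℕ} (hM : 0 < M) {ρ : ℝ} (h : 2 / ρ ≤ (M : ℝ)) (hρ : 0 < ρ) (w : Fin n → ℝ) :
    ∃ l u : Fin n → ℤ, l ≤ u + 1 ∧ (∀ a ∈ Set.Icc l (u + 1), dist w (lpt M a) ≤ ρ) ∧
      ∀ a, dist w (lpt M a) < ρ / 2 → a ∈ Set.Icc l u := by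
  have hM' : (0 : ℝ) < M := by exact_mod_cast hM
  have h2 : 2 ≤ M * ρ := by rwa [div_le_iff₀ hρ] at h
  refine ⟨fun k => ⌈M * (w k - ρ / 2)⌉, fun k => ⌊M * (w k + ρ / 2)⌋, fun k => ?_, ?_, ?_⟩
  · have a1 := Int.ceil_lt_add_one ((M : ℝ) * (w k - ρ / 2))
    have a2 := Int.lt_floor_add_one ((M : ℝ) * (w k + ρ / 2))
    have : ((⌈M * (w k - ρ / 2)⌉ : ℤ) : ℝ) < ((⌊M * (w k + ρ / 2)⌋ + 1 : ℤ) : ℝ) := by
      push_cast; nlinarith
    exact (Int.cast_lt.1 this).le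
  · rintro a ⟨h1, h3⟩
    refine (dist_pi_le_iff hρ.le).2 fun k => ?_
    have a1 : (M : ℝ) * (w k - ρ / 2) ≤ a k := (Int.le_ceil _).trans (Int.cast_le.2 (h1 k))
    have a2 : (a k : ℝ) ≤ M * (w k + ρ / 2) + 1 := by
      have b1 : a k ≤ ⌊M * (w k + ρ / 2)⌋ + 1 := h3 k
      have b2 : (a k : ℝ) ≤ ((⌊M * (w k + ρ / 2)⌋ + 1 : ℤ) : ℝ) := Int.cast_le.2 b1
      push_cast at b2
      linarith [Int.floor_le ((M : ℝ) * (w k + ρ / 2))]
    rw [Real.dist_eq, abs_le]
    simp only [lpt]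
    constructor
    · have : (a k : ℝ) / M ≤ w k + ρ := by rw [div_le_iff₀ hM']; nlinarith
      linarith
    · have : w k - ρ ≤ (a k : ℝ) / M := by rw [le_div_iff₀ hM']; nlinarith
      linarith
  · intro a ha
    have hk : ∀ k, |w k - (a k : ℝ) / M| < ρ / 2 := fun k =>
      (dist_pi_lt_iff (half_pos hρ)).1 ha k
    refine ⟨fun k => Int.ceil_le.2 ?_, fun k => Int.le_floor.2 ?_⟩
    · have : w k - ρ / 2 ≤ (a k : ℝ) / M := by linarith [(abs_lt.1 (hk k)).2]
      rw [le_div_iff₀ hM'] at this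
      linarith
    · have : (a k : ℝ) / M ≤ w k + ρ / 2 := by linarith [(abs_lt.1 (hk k)).1]
      rw [div_le_iff₀ hM'] at this
      linarith

open Classical in
/-- extension by zero -/
noncomputable def dresExt {M : ℕ} {W : Set (Fin n → ℝ)} (v : LP M W × Ty n → ℂ) (a : Fin n → ℤ)
    (τ : Ty n) : ℂ :=
  if h : lpt M a ∈ W then v (⟨a, h⟩, τ) else 0

theorem dresExt_mem {M : ℕ} {W : Set (Fin n → ℝ)} (v : LP M W × Ty n → ℂ) (a : LP M W) (τ : Ty n) :
    dresExt v a.1 τ = v (a, τ) := dif_pos a.2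

theorem dres_mulVec {M : ℕ} {W : Set (Fin n → ℝ)} [Fintype (LP M W)] (v : LP M W × Ty n → ℂ)
    (a : LP M W) (σ : Ty n) :
    (latM (fun b : LP M W => b.1) (dK n (XX n))).mulVec v (a, σ) = dF (dresExt v) a.1 σ := by
  classical
  simp only [Matrix.mulVec, dotProduct, latM, Matrix.of_apply, dF]
  rw [Fintype.sum_prod_type, Finset.sum_comm]
  refine Finset.sum_congr rfl fun τ _ => ?_
  set f := (dK n (XX n) σ τ).coeff
  rw [Finsupp.sum]
  have e1 : ∑ b : LP M W, f (b.1 - a.1) * v (b, τ) =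
      ∑ b ∈ Finset.univ.filter (fun b : LP M W => b.1 - a.1 ∈ f.support), f (b.1 - a.1) * v (b, τ) := by
    rw [Finset.sum_filter]
    refine Finset.sum_congr rfl fun b _ => ?_
    split_ifs with hb
    · rfl
    · rw [Finsupp.notMem_support_iff.1 hb, zero_mul]
  have e2 : ∑ k ∈ f.support, f k * dresExt v (a.1 + k) τ =
      ∑ k ∈ f.support.filter (fun k => lpt M (a.1 + k) ∈ W), f k * dresExt v (a.1 + k) τ := by
    rw [Finset.sum_filter]
    refine Finset.sum_congr rfl fun k _ => ?_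
    split_ifs with hk
    · rfl
    · rw [dresExt, dif_neg hk, mul_zero]
  rw [e1, e2]
  refine Finset.sum_bij (fun b _ => b.1 - a.1) ?_ ?_ ?_ ?_
  · intro b hb
    rw [Finset.mem_filter] at hb ⊢
    refine ⟨hb.2, ?_⟩
    rw [add_sub_cancel]
    exact b.2
  · intro b _ b' _ h
    exact Subtype.ext (sub_left_injective h)
  · intro k hk
    rw [Finset.mem_filter] at hk
    refine ⟨⟨a.1 + k, hk.2⟩, ?_, ?_⟩
    · refine Finset.mem_filter.2 ⟨Finset.mem_univ _, ?_⟩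
      change a.1 + k - a.1 ∈ f.support
      rw [add_sub_cancel_left]
      exact hk.1
    · simp
  · intro b _
    rw [add_sub_cancel, dresExt_mem]

/-- `dF v a` only depends on the values at `a` and `a + e_j` -/
theorem dres_dF_congr {v v' : (Fin n → ℤ) → Ty n → ℂ} {a : Fin n → ℤ}
    (h0 : ∀ τ, v a τ = v' a τ) (h1 : ∀ j τ, v (a + Pi.single j 1) τ = v' (a + Pi.single j 1) τ)
    (σ : Ty n) : dF v a σ = dF v' a σ := by
  refine Finset.sum_congr rfl fun τ _ => Finsupp.sum_congr fun k hk => ?_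
  have hk' : (dK n (XX n) σ τ).coeff k ≠ 0 := Finsupp.mem_support_iff.1 hk
  have key : ∀ j, (XX n j - 1).coeff k ≠ 0 → v (a + k) τ = v' (a + k) τ := by
    intro j hj
    rw [coeff_XX_sub_one] at hj
    by_cases e1 : k = Pi.single j 1
    · rw [e1]; exact h1 j τ
    · by_cases e2 : k = 0
      · rw [e2, add_zero]; exact h0 τ
      · simp [e1, e2] at hj
  rcases dK_entry (XX n) σ τ with h | ⟨j, h | h⟩
  · rw [h] at hk'; simp at hk'
  · rw [h] at hk'; rw [key j hk']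
  · rw [h] at hk'
    rw [key j (fun e => hk' (by rw [AddMonoidAlgebra.coeff_neg, Finsupp.neg_apply, e, neg_zero]))]

/-- the geometric input: boxes squeezed between balls -/
theorem dres_geo (G : Geo ι n) {K : Ctx G.P} (hB : G.Bal K) (hM : Tendsto G.M K.F atTop)
    {ε : ℝ} (hε : 0 < ε) : ∃ δ > (0 : ℝ), ∀ᶠ x in K.F, ∀ w : G.P x, ε ≤ K.dep x w →
      ∃ l u : Fin n → ℤ, l ≤ u + 1 ∧
        (∀ a ∈ Set.Icc l (u + 1), ∃ h : lpt (G.M x) a ∈ G.W x, K.d x w ⟨_, h⟩ < ε) ∧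
        ∀ a : G.Λ x, K.d x w (G.loc0 x a) < δ → a.1 ∈ Set.Icc l u := by
  obtain ⟨ρ, hρ, δ, hδ, h⟩ := hB ε hε
  refine ⟨δ, hδ, ?_⟩
  have h2 : ∀ᶠ x in K.F, 2 / ρ ≤ (G.M x : ℝ) :=
    (tendsto_natCast_atTop_atTop.comp hM).eventually (eventually_ge_atTop _)
  filter_upwards [h, h2] with x a1 a2 w hw
  obtain ⟨b1, b2, b3⟩ := a1 w hw
  obtain ⟨l, u, c1, c2, c3⟩ := dres_box (G.M_pos x) a2 hρ w.1
  refine ⟨l, u, c1, fun a ha => ?_, fun a ha => c3 _ (b3 _ ha)⟩
  have := c2 a ha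
  exact ⟨b1 (by rwa [Metric.mem_closedBall, dist_comm]), b2 _ this⟩

theorem dres_zb (G : Geo ι n) {K : Ctx G.P} {x : ι} {w : G.P x} {ε : ℝ} {v : G.I x → ℂ} :
    Zb K ((G.N K).A x) w ε v ↔ ∀ a, K.d x w (G.loc x a) < ε → v a = 0 := by
  constructor
  · intro h a ha
    by_contra h'
    exact (h _ ⟨a, h', rfl⟩).not_gt ha
  · rintro h _ ⟨a, h', rfl⟩
    exact not_lt.1 fun e => h' (h a e)

theorem dres_π (G : Geo ι n) (K : Ctx G.P) (q : ℕ) : G.Nπ K q = hmk (G.N K) (G.N K)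
    fun x => Matrix.toLin' (Matrix.diagonal fun a : G.I x => if a.2.deg = q then (1 : ℂ) else 0) := by
  rw [← ofR_mk (mc_diagonal _), Geo.Nπ, chi, dg]
  congr!

theorem dres_diag {I : Type} [Fintype I] [DecidableEq I] (p : I → Prop) [DecidablePred p]
    (v : I → ℂ) : Matrix.toLin' (Matrix.diagonal fun a => if p a then (1 : ℂ) else 0) v =
      fun a => if p a then v a else 0 := by
  funext a
  simp [Matrix.mulVec_diagonal]

theorem dres_D (G : Geo ι n) {K : Ctx G.P} (hL : LatCtx (K.comap G.loc0) G.pos) :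
    G.Nd K = hmk (G.N K) (G.N K) fun x => Matrix.toLin' (latM (G.pos x) (dK n (XX n))) :=
  ofR_mk (hL.mc _)

/-- Use `lex_of_fam` with the explicit representatives (`ofR_mk`, `latM`, diagonal matrices).  Given
`ε`, `Bal` gives `ρ, δ`; when the mesh is small pick `l, u` with `lpt (Icc l (u + 2)) ⊆ closedBall w ρ`
and all lattice points of `ball w (ρ/2)` in `Icc l u` (non-empty); extend vectors by zero to `ℤⁿ`;
at `a ∈ Icc l (u+1)` the matrix `latM` acts as `dF` (`dK_entry`, `coeff_XX_sub_one`); apply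
`poincare_zero`, `poincare_succ`. -/
theorem Geo.N_res (G : Geo ι n) {K : Ctx G.P} (hL : LatCtx (K.comap G.loc0) G.pos) (hB : G.Bal K)
    (hM : Tendsto G.M K.F atTop) : (G.NCx hL).Res := by
  classical
  have cπ : ∀ q : ℕ, Ctrl K (A := (G.N K).A) (B := (G.N K).A) fun x =>
      Matrix.toLin' (Matrix.diagonal fun a : G.I x => if a.2.deg = q then (1 : ℂ) else 0) :=
    fun q => ctrl_toLin (mc_diagonal _)
  have cD : Ctrl K (A := (G.N K).A) (B := (G.N K).A) fun x =>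
      Matrix.toLin' (latM (G.pos x) (dK n (XX n))) := ctrl_toLin (hL.mc _)
  refine ⟨?_, ?_, fun q => ?_⟩
  · change LEx (𝟙 (cst K)) (0 : cst K ⟶ cst K) (G.Nη K)
    rw [← hmk_id, ← hmk_zero, Geo.Nη]
    refine lex_of_fam ctrl_id ctrl_zero (ctrl_cst _) fun ε hε => ?_
    obtain ⟨δ, hδ, h⟩ := dres_geo G hB hM hε
    refine ⟨δ, hδ, h.mono fun x hx w hw v hv => ⟨(0 : ℂ), ?_⟩⟩
    obtain ⟨l, u, c1, c2, -⟩ := hx w hw
    obtain ⟨hl, hd⟩ := c2 l ⟨le_rfl, c1⟩
    have := (dres_zb G).1 hv (⟨l, hl⟩, Ty.bot n) hd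
    have hv0 : (v : ℂ) = (0 : ℂ) := by
      change (show ℂ from v) * (if Ty.bot n = Ty.bot n then (1 : ℂ) else 0) = 0 at this
      rwa [if_pos rfl, mul_one] at this
    intro w' hw'
    refine absurd ?_ hw'
    change (show ℂ from v) - 0 = 0
    exact (sub_zero _).trans hv0
  · change LEx (G.Nπ K 0) (G.Nη K) (G.Nd K)
    rw [dres_π, dres_D G hL, Geo.Nη]
    refine lex_of_fam (cπ 0) (ctrl_cst _) cD fun ε hε => ?_
    obtain ⟨δ, hδ, h⟩ := dres_geo G hB hM hε
    refine ⟨δ, hδ, h.mono fun x hx w hw v hv => ?_⟩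
    obtain ⟨l, u, -, c2, c3⟩ := hx w hw
    set v' : G.I x → ℂ := fun a => if a.2.deg = 0 then (show G.I x → ℂ from v) a else 0 with hv'
    have e : Matrix.toLin' (Matrix.diagonal fun a : G.I x => if a.2.deg = 0 then (1 : ℂ) else 0)
        (show G.I x → ℂ from v) = v' := dres_diag _ _
    obtain ⟨c, hc⟩ := poincare_zero (dresExt v') (fun a τ hτ => by
      unfold dresExt
      split_ifs with ha
      · exact if_neg fun e => hτ ((Ty.deg_eq_zero τ).1 e)
      · rfl) l u (fun a ha σ => by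
      obtain ⟨hl, hd⟩ := c2 a ha
      have := (dres_zb G).1 hv (⟨a, hl⟩, σ) hd
      rw [← dres_mulVec v' ⟨a, hl⟩ σ, ← this, ← e]
      rfl)
    refine ⟨c, (dres_zb G).2 fun a ha => ?_⟩
    change Matrix.toLin' (Matrix.diagonal fun a : G.I x => if a.2.deg = 0 then (1 : ℂ) else 0)
        (show G.I x → ℂ from v) a - c * (if a.2 = Ty.bot n then (1 : ℂ) else 0) = 0
    rw [e]
    obtain ⟨a, τ⟩ := a
    by_cases hτ : τ = Ty.bot n
    · subst hτ
      rw [← hc a.1 (c3 a ha), dresExt_mem]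
      simp
    · have : ¬τ.deg = 0 := fun e => hτ ((Ty.deg_eq_zero τ).1 e)
      simp [hv', hτ, this]
  · change LEx (G.Nπ K (q + 1)) (G.Nπ K q ≫ G.Nd K) (G.Nd K)
    rw [dres_π, dres_π, dres_D G hL, hmk_comp (cπ q) cD]
    refine lex_of_fam (cπ (q + 1)) ((cπ q).comp cD) cD fun ε hε => ?_
    obtain ⟨δ, hδ, h⟩ := dres_geo G hB hM hε
    refine ⟨δ, hδ, h.mono fun x hx w hw v hv => ?_⟩
    obtain ⟨l, u, -, c2, c3⟩ := hx w hw
    set v' : G.I x → ℂ := fun a => if a.2.deg = q + 1 then (show G.I x → ℂ from v) a else 0 with hv'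
    have e : Matrix.toLin' (Matrix.diagonal fun a : G.I x => if a.2.deg = q + 1 then (1 : ℂ) else 0)
        (show G.I x → ℂ from v) = v' := dres_diag _ _
    obtain ⟨z, hz, hc⟩ := poincare_succ q (dresExt v') (fun a τ hτ => by
      unfold dresExt
      split_ifs with ha
      · exact if_neg hτ
      · rfl) l u (fun a ha σ => by
      obtain ⟨hl, hd⟩ := c2 a ha
      have := (dres_zb G).1 hv (⟨a, hl⟩, σ) hd
      rw [← dres_mulVec v' ⟨a, hl⟩ σ, ← this, ← e]
      rfl)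
    set z' : G.I x → ℂ := fun a => z a.1.1 a.2 with hz'
    have e' : Matrix.toLin' (Matrix.diagonal fun a : G.I x => if a.2.deg = q then (1 : ℂ) else 0)
        z' = z' := by
      funext a
      by_cases ha : a.2.deg = q
      · simp [Matrix.mulVec_diagonal, ha]
      · simp [Matrix.mulVec_diagonal, ha, hz', hz _ _ ha]
    refine ⟨z', (dres_zb G).2 fun a ha => ?_⟩
    change Matrix.toLin' (Matrix.diagonal fun a : G.I x => if a.2.deg = q + 1 then (1 : ℂ) else 0)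
        (show G.I x → ℂ from v) a - (latM (G.pos x) (dK n (XX n))).mulVec
          (Matrix.toLin' (Matrix.diagonal fun a : G.I x => if a.2.deg = q then (1 : ℂ) else 0) z') a = 0
    rw [e, e']
    obtain ⟨a, τ⟩ := a
    have ha' := c3 a ha
    have hin : ∀ b ∈ Set.Icc l (u + 1), ∀ σ, dresExt z' b σ = z b σ := fun b hb σ =>
      dresExt_mem z' ⟨b, (c2 b hb).1⟩ σ
    have e3 := dres_mulVec z' a τ
    change v' (a, τ) - (latM (fun b : G.Λ x => b.1) (dK n (XX n))).mulVec z' (a, τ) = 0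
    rw [e3, ← dresExt_mem v' a τ, hc a.1 ha' τ, sub_eq_zero]
    refine dres_dF_congr (fun σ => (hin _ ⟨ha'.1, fun k => ?_⟩ σ).symm)
      (fun j σ => (hin _ ⟨fun k => ?_, fun k => ?_⟩ σ).symm) τ
    · have : a.1 k ≤ u k := ha'.2 k
      simp only [Pi.add_apply, Pi.one_apply]
      omega
    · have : l k ≤ a.1 k := ha'.1 k
      simp only [Pi.add_apply, Pi.single_apply]
      split_ifs <;> omega
    · have : a.1 k ≤ u k := ha'.2 k
      simp only [Pi.add_apply, Pi.single_apply, Pi.one_apply]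
      split_ifs <;> omega

end Crest.Agent.R217
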