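import Crest.Agent.R217.DB4
import Crest.Agent.R217.DLat
import Crest.Agent.R217.CRob

/-! Row 217, part D: the invariant of the standard lattice form does not vanish. -/

set_option autoImplicit false

namespace Crest.Agent.R217

open Filter Topology

variable {ι : Type}

theorem dstd_mem {n M : ℕ} {a : Fin (n + 2) → ℤ} :
    lpt M a ∈ Metric.closedBall (0 : Fin (n + 2) → ℝ) 11 ↔
      lpt M ![a 0, a 1] ∈ Metric.closedBall (0 : Fin 2 → ℝ) 11 ∧
        lpt M (tl a) ∈ Metric.closedBall (0 : Fin n → ℝ) 11 := by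
  simp only [mem_closedBall_zero_iff, pi_norm_le_iff_of_nonneg (show (0 : ℝ) ≤ 11 by norm_num),
    Fin.forall_fin_succ, and_assoc]
  simp [lpt, tl]

theorem dstd_eta (a : Fin 2 → ℤ) : ![a 0, a 1] = a := by
  funext k; fin_cases k <;> rfl

/-- lattice points of the cube: splitting off two coordinates -/
def dstdE (n M : ℕ) : ((LP M (Metric.closedBall (0 : Fin n → ℝ) 11) × Ty n) ×
      ((LP M (Metric.closedBall (0 : Fin 2 → ℝ) 11) × (Bool × Bool)) × Fin 2)) ↪
    ((LP M (Metric.closedBall (0 : Fin (n + 2) → ℝ) 11) × Ty (n + 2)) × Fin 2) where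
  toFun p := ((⟨Matrix.vecCons (p.2.1.1.1 0) (Matrix.vecCons (p.2.1.1.1 1) p.1.1.1), dstd_mem.2
      ⟨by
        change lpt M ![p.2.1.1.1 0, p.2.1.1.1 1] ∈ _
        rw [dstd_eta]; exact p.2.1.1.2, p.1.1.2⟩⟩,
    ((p.2.1.2.1, p.2.1.2.2, p.1.2) : Bool × Bool × Ty n)), p.2.2)
  inj' := by
    rintro ⟨⟨a, τ⟩, ⟨b, s, t⟩, i⟩ ⟨⟨a', τ'⟩, ⟨b', s', t'⟩, i'⟩ h
    obtain ⟨h0, rfl⟩ := Prod.mk.inj h
    obtain ⟨h1, h2⟩ := Prod.mk.inj h0
    have h3 := congrArg Subtype.val h1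
    obtain ⟨rfl, h4⟩ := Prod.mk.inj h2
    obtain ⟨rfl, rfl⟩ := Prod.mk.inj h4
    obtain rfl : a = a' := Subtype.ext (congrArg tl h3)
    obtain rfl : b = b' := Subtype.ext (by
      rw [← dstd_eta b.1, ← dstd_eta b'.1, show b.1 0 = b'.1 0 from congrFun h3 0,
        show b.1 1 = b'.1 1 from congrFun h3 1])
    rfl

theorem dstdE_surj (n M : ℕ) : Function.Surjective (dstdE n M) := by
  rintro ⟨⟨a, s, t, τ⟩, i⟩
  refine ⟨((⟨tl a.1, (dstd_mem.1 a.2).2⟩, τ), (⟨![a.1 0, a.1 1], (dstd_mem.1 a.2).1⟩, s, t), i),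
    Prod.ext (Prod.ext (Subtype.ext ?_) rfl) rfl⟩
  funext k
  refine Fin.cases rfl (Fin.cases rfl fun _ => rfl) k

theorem dstd_entry (n M : ℕ) (p q) :
    hadM (fun a b : LP M (Metric.closedBall (0 : Fin (n + 2) → ℝ) 11) × Ty (n + 2) =>
        kM (hd (lpt M a.1.1)) (hd (lpt M b.1.1))) (latM (fun a => a.1) (phiK (n + 2) (XX (n + 2))))
      (dstdE n M p) (dstdE n M q) =
    hadM (fun _ _ => GM M) (latM (fun a => a.1) (phiK n (XX n))) p q := by
  obtain ⟨⟨a, τ⟩, ⟨b, s, t⟩, i⟩ := p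
  obtain ⟨⟨a', τ'⟩, ⟨b', s', t'⟩, i'⟩ := q
  have h := phiK_coeff s t s' t' τ τ' (Matrix.vecCons (b'.1 0) (Matrix.vecCons (b'.1 1) a'.1) -
    Matrix.vecCons (b.1 0) (Matrix.vecCons (b.1 1) a.1))
  have e : ![(Matrix.vecCons (b'.1 0) (Matrix.vecCons (b'.1 1) a'.1) -
      Matrix.vecCons (b.1 0) (Matrix.vecCons (b.1 1) a.1) : Fin (n + 2) → ℤ) 0,
      (Matrix.vecCons (b'.1 0) (Matrix.vecCons (b'.1 1) a'.1) -
      Matrix.vecCons (b.1 0) (Matrix.vecCons (b.1 1) a.1) : Fin (n + 2) → ℤ) 1] = b'.1 - b.1 :=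
    dstd_eta (b'.1 - b.1)
  rw [e] at h
  refine (congrArg (· * kM (hd (n := 0) (lpt M b.1)) (hd (n := 0) (lpt M b'.1)) i i') h).trans ?_
  change _ = (phiK n (XX n) τ τ').coeff (a'.1 - a.1) * ((g2 (XX 2 0) (XX 2 1) s t s' t').coeff
    (b'.1 - b.1) * kM (hd (n := 0) (lpt M b.1)) (hd (n := 0) (lpt M b'.1)) i i')
  rw [← mul_assoc, mul_comm ((phiK n (XX n) τ τ').coeff _)]
  rfl

/-- the same with the types of `Geo.box` -/
def dstdE' (n : ℕ) {M : ι → ℕ} (hM : ∀ x, 0 < M x) (x : ι) :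
    ((Geo.box n M hM).I x × (((Geo.box 2 M hM).Λ x × (Bool × Bool)) × Fin 2)) ↪
      ((Geo.box (n + 2) M hM).I x × Fin 2) := dstdE n (M x)

/-- the planar stage, or zero for a coarse mesh -/
noncomputable def dstdG {M : ι → ℕ} (hM : ∀ x, 0 < M x) (x : ι) :
    Matrix (((Geo.box 2 M hM).Λ x × (Bool × Bool)) × Fin 2)
      (((Geo.box 2 M hM).Λ x × (Bool × Bool)) × Fin 2) ℂ :=
  if 8 ≤ M x then GM (M x) else 0

theorem dstdG_pos {M : ι → ℕ} (hM : ∀ x, 0 < M x) {x : ι} (h : 8 ≤ M x) :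
    dstdG hM x = GM (M x) := if_pos h

/-- Two-step induction on `n`.  `n = 0`: a `1 × 1` identity matrix, `sig = 2` (`nu_zero_mk`,
`sig_diagonal`).  Step: `nu_inv` (`lat_phi_inv`, `box_latCtx`, `coordR_le`) reduces to `mu`.  With
`J x = (LP (M x) (closedBall 0 11) × (Bool × Bool)) × Fin 2`, `G x = GM (M x)` if `8 ≤ M x` and `0`
otherwise, and the bijection `e : (Λₙ × Ty n) × J ↪ (Λₙ₊₂ × Ty (n+2)) × Fin 2`
(`(a', τ), ((a₂, b₀, b₁), i) ↦ ((cons (a₂ 0) (cons (a₂ 1) a'), (b₀, b₁, τ)), i)`; sup norm):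
`stage _ _ (lat φₙ₊₂) = tr e (had _ G (lat φₙ))` eventually as matrices (`phiK_coeff`, `had_mk`, `tr_mk`,
`mk_congr`).  Then `Pk.ext`, `nu_kron` with `ε = -1` (`sig_GM`): the value is multiplied by `-4`. -/
theorem nu_std {F : Filter ι} {M : ι → ℕ} (hM : ∀ x, 0 < M x) (hM' : Tendsto M F atTop) (n : ℕ)
    (hn : Even n) {r : ℝ} (hr : 10 ≤ r) (hr' : r ≤ 11) :
    ∀ᶠ x in F, nu F n (I := (Geo.box n M hM).I) (fun x a => lpt (M x) a.1.1)
      (lat (coordR F r fun x (a : (Geo.box n M hM).Λ x) => lpt (M x) a.1) (Geo.box n M hM).pos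
        (phiK n (XX n))) x ≠ 0 := by
  have hK : ∀ n, ((coordR F r fun x (a : (Geo.box n M hM).Λ x) => lpt (M x) a.1).prod
      fun _ => Ty n).Le (coord F fun x (a : (Geo.box n M hM).I x) => lpt (M x) a.1.1) :=
    fun n => coordR_le le_rfl hr _
  have hL := fun n => box_latCtx (n := n) hM hM' hr'
  induction n using Nat.twoStepInduction with
  | zero =>
    filter_upwards [nu_zero_mk (hK 0) ((hL 0).mc (phiK 0 (XX 0)))] with x hx
    refine hx.trans_ne ?_
    have e : latM ((Geo.box 0 M hM).pos x) (phiK 0 (XX 0)) =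
        Matrix.diagonal fun _ => ((1 : ℝ) : ℂ) := by
      ext p q
      obtain rfl : p = q := Prod.ext (Subtype.ext (Subsingleton.elim _ _)) rfl
      simp [latM, phiK, AddMonoidAlgebra.one_def]
    have hne : Nonempty ((Geo.box 0 M hM).I x) :=
      ⟨(⟨0, by
        rw [Subsingleton.elim (lpt _ _) 0]; exact Metric.mem_closedBall_self (by norm_num)⟩, ())⟩
    rw [e, sig_diagonal]
    have := Fintype.card_ne_zero (α := (Geo.box 0 M hM).I x)
    simpa [show ¬ (1 : ℝ) < 0 by norm_num] using this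
  | one => exact absurd hn (by decide)
  | more n ih _ =>
    have hn' : Even n := (Nat.even_add.1 hn).2 even_two
    obtain ⟨Ψ, hΨ⟩ := lat_phi_inv (hL (n + 2)) hn
    obtain ⟨Ψ', hΨ'⟩ := lat_phi_inv (hL n) hn'
    have h8 : ∀ᶠ x in F, 8 ≤ M x := hM'.eventually_ge_atTop 8
    obtain ⟨h1, h2⟩ := nu_kron (J := fun x => ((Geo.box 2 M hM).Λ x × (Bool × Bool)) × Fin 2) n _
      (hK n) hΨ'.reg (dstdG hM) (fun x => by
        by_cases h : 8 ≤ M x
        · rw [dstdG_pos hM h]; exact GM_star h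
        · rw [show dstdG hM x = 0 from if_neg h]; exact star_zero _) (-1) (Or.inr rfl)
      (h8.mono fun x hx => by
        rw [dstdG_pos hM hx]
        exact @sig_GM _ hx (Geo.instFintypeΛ (Geo.box 2 M hM) x))
    have hle : ((((coordR F r fun x (a : (Geo.box n M hM).Λ x) => lpt (M x) a.1).prod
        fun _ => Ty n)).prod fun x => ((Geo.box 2 M hM).Λ x × (Bool × Bool)) × Fin 2).Le
        ((coord F fun x (p : (Geo.box (n + 2) M hM).I x × Fin 2) =>
          tl (lpt (M x) p.1.1.1)).comap fun x => dstdE' n hM x) := coordR_le le_rfl hr _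
    have h3 := (pk F n).ext (fun x (p : (Geo.box (n + 2) M hM).I x × Fin 2) =>
      tl (lpt (M x) p.1.1.1)) (dstdE' n hM) (Ctx.Le.refl _) hle h1
    have ha := (admS_coord (hK (n + 2))).adm
    have h4 : stage (coord F fun x (a : (Geo.box (n + 2) M hM).I x) => tl (lpt (M x) a.1.1))
        (fun x a => hd (lpt (M x) a.1.1))
        (lat (coordR F r fun x (a : (Geo.box (n + 2) M hM).Λ x) => lpt (M x) a.1)
          (Geo.box (n + 2) M hM).pos (phiK (n + 2) (XX (n + 2)))) =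
        tr (coord F fun x (p : (Geo.box (n + 2) M hM).I x × Fin 2) => tl (lpt (M x) p.1.1.1))
          (dstdE' n hM)
          (had ((coordR F r fun x (a : (Geo.box n M hM).Λ x) => lpt (M x) a.1).prod fun _ => Ty n)
            (fun x _ _ => dstdG hM x)
            (lat (coordR F r fun x (a : (Geo.box n M hM).Λ x) => lpt (M x) a.1)
              (Geo.box n M hM).pos (phiK n (XX n)))) := by
      unfold stage lat
      rw [had_mk ha ((hL (n + 2)).mc _), had_mk crob_adm ((hL n).mc _),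
        tr_mk hle (MC.had crob_adm ((hL n).mc _))]
      refine mk_congr (MC.had ha ((hL (n + 2)).mc _)) (h8.mono fun x hx => ?_)
      refine bh_trM _ (fun p q => ?_) (fun p q h => ?_) fun p q h => ?_
      · rw [dstdG_pos hM hx]
        exact dstd_entry n (M x) p q
      · obtain ⟨a, ha⟩ := dstdE_surj n (M x) p
        exact absurd ha (h a)
      · obtain ⟨a, ha⟩ := dstdE_surj n (M x) q
        exact absurd ha (h a)
    filter_upwards [nu_inv (hK (n + 2)) hΨ, h2, h3, ih hn'] with x e1 e2 e3 e4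
    rw [e1, Pi.add_apply]
    unfold mu
    rw [h4]
    have e5 := e3.trans e2
    refine (congrArg₂ (· + ·) e5 e5).trans_ne ?_
    omega

end Crest.Agent.R217
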