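import Crest.Agent.R217.EDefs

/-! Row 217, part E1: algebra of cochains (induction on the list, generalising the cochains). -/

set_option autoImplicit false

namespace Crest.Agent.R217

open Filter Topology

variable {Y : Type} [TopologicalSpace Y]

section Raw

omit [TopologicalSpace Y]

theorem e1_rd_congr (l : List Y) : ∀ {a b : List Y → ℂ},
    (∀ l' : List Y, l'.length + 1 = l.length → (∀ y ∈ l', y ∈ l) → a l' = b l') →
    rd l a = rd l b := by
  induction l with
  | nil => intro a b _; rfl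
  | cons x l ih =>
    intro a b h
    simp only [rd]
    rw [h l rfl fun y hy => List.mem_cons_of_mem _ hy]
    congr 1
    refine ih fun l' h1 h2 => h _ (by simpa using h1) fun y hy => ?_
    rcases List.mem_cons.1 hy with rfl | hy
    · exact List.mem_cons_self
    · exact List.mem_cons_of_mem _ (h2 y hy)

theorem e1_rd_zero (l : List Y) : rd l (fun _ => 0) = 0 := by
  induction l with
  | nil => rfl
  | cons x l ih => simp only [rd, ih, sub_zero]

theorem e1_rd_add (l : List Y) : ∀ a b : List Y → ℂ,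
    rd l (fun l' => a l' + b l') = rd l a + rd l b := by
  induction l with
  | nil => intro a b; simp only [rd, add_zero]
  | cons x l ih => intro a b; simp only [rd, ih]; ring

theorem e1_rd_sub (l : List Y) : ∀ a b : List Y → ℂ,
    rd l (fun l' => a l' - b l') = rd l a - rd l b := by
  induction l with
  | nil => intro a b; simp only [rd, sub_zero]
  | cons x l ih => intro a b; simp only [rd, ih]; ring

theorem e1_rd_mul (c : ℂ) (l : List Y) : ∀ a : List Y → ℂ,
    rd l (fun l' => c * a l') = c * rd l a := by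
  induction l with
  | nil => intro a; simp only [rd, mul_zero]
  | cons x l ih => intro a; simp only [rd, ih]; ring

theorem e1_rd_star (l : List Y) : ∀ a : List Y → ℂ,
    rd l (fun l' => star (a l')) = star (rd l a) := by
  induction l with
  | nil => intro a; simp only [rd, star_zero]
  | cons x l ih => intro a; simp only [rd, ih, star_sub]

theorem e1_rd_rd (l : List Y) : ∀ a : List Y → ℂ, rd l (fun l' => rd l' a) = 0 := by
  induction l with
  | nil => intro a; rfl
  | cons x l ih =>
    intro a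
    simp only [rd]
    rw [e1_rd_sub, ih, sub_zero, sub_self]

theorem e1_cup_congr (l : List Y) : ∀ {a a' b b' : List Y → ℂ},
    (∀ l' : List Y, l' ≠ [] → l'.length ≤ l.length → (∀ y ∈ l', y ∈ l) → a l' = a' l') →
    (∀ l' : List Y, l' ≠ [] → l'.length ≤ l.length → (∀ y ∈ l', y ∈ l) → b l' = b' l') →
    cupR l a b = cupR l a' b' := by
  induction l with
  | nil => intro a a' b b' _ _; rfl
  | cons x l ih =>
    intro a a' b b' h h'
    simp only [cupR]
    rw [h [x] (by simp) (by simp) (by simp), h' (x :: l) (by simp) le_rfl fun _ hy => hy]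
    congr 1
    refine ih (fun l' _ h1 h2 => h _ (by simp) (by simpa using h1) fun y hy => ?_)
      fun l' h0 h1 h2 => h' _ h0 (h1.trans (by simp)) fun y hy => List.mem_cons_of_mem _ (h2 y hy)
    rcases List.mem_cons.1 hy with rfl | hy
    · exact List.mem_cons_self
    · exact List.mem_cons_of_mem _ (h2 y hy)

theorem e1_cup_zero_left (l : List Y) (b : List Y → ℂ) : cupR l (fun _ => 0) b = 0 := by
  induction l with
  | nil => rfl
  | cons x l ih => simp only [cupR, ih, zero_mul, add_zero]

theorem e1_cup_zero_right (l : List Y) : ∀ a : List Y → ℂ, cupR l a (fun _ => 0) = 0 := by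
  induction l with
  | nil => intro a; rfl
  | cons x l ih => intro a; simp only [cupR, ih, mul_zero, add_zero]

theorem e1_cup_add_left (b : List Y → ℂ) (l : List Y) : ∀ a a' : List Y → ℂ,
    cupR l (fun l' => a l' + a' l') b = cupR l a b + cupR l a' b := by
  induction l with
  | nil => intro a a'; simp only [cupR, add_zero]
  | cons x l ih => intro a a'; simp only [cupR, ih]; ring

theorem e1_cup_sub_left (b : List Y → ℂ) (l : List Y) : ∀ a a' : List Y → ℂ,
    cupR l (fun l' => a l' - a' l') b = cupR l a b - cupR l a' b := by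
  induction l with
  | nil => intro a a'; simp only [cupR, sub_zero]
  | cons x l ih => intro a a'; simp only [cupR, ih]; ring

theorem e1_cup_mul_left (c : ℂ) (b : List Y → ℂ) (l : List Y) : ∀ a : List Y → ℂ,
    cupR l (fun l' => c * a l') b = c * cupR l a b := by
  induction l with
  | nil => intro a; simp only [cupR, mul_zero]
  | cons x l ih => intro a; simp only [cupR, ih]; ring

theorem e1_cup_add_right (b b' : List Y → ℂ) (l : List Y) : ∀ a : List Y → ℂ,
    cupR l a (fun l' => b l' + b' l') = cupR l a b + cupR l a b' := by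
  induction l with
  | nil => intro a; simp only [cupR, add_zero]
  | cons x l ih => intro a; simp only [cupR, ih]; ring

theorem e1_cup_mul_right (c : ℂ) (b : List Y → ℂ) (l : List Y) : ∀ a : List Y → ℂ,
    cupR l a (fun l' => c * b l') = c * cupR l a b := by
  induction l with
  | nil => intro a; simp only [cupR, mul_zero]
  | cons x l ih => intro a; simp only [cupR, ih]; ring

theorem e1_leibniz {b : List Y → ℂ} (hb : b [] = 0) (l : List Y) : ∀ a : List Y → ℂ,
    rd l (fun l' => cupR l' a b) = cupR l (fun l' => rd l' a) b +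
      cupR l (fun l' => (-1) ^ (l'.length - 1) * a l') (fun l' => rd l' b) - a [] * b l := by
  induction l with
  | nil => intro a; simp only [rd, cupR, hb, mul_zero, add_zero, sub_zero]
  | cons x l ih =>
    intro a
    have h1 : cupR l (fun l' => (-1 : ℂ) ^ ((x :: l').length - 1) * a (x :: l')) (fun l' => rd l' b) =
        -1 * cupR l (fun l' => (-1 : ℂ) ^ (l'.length - 1) * a (x :: l')) (fun l' => rd l' b) := by
      rw [← e1_cup_mul_left]
      refine e1_cup_congr l (fun l' h0 _ _ => ?_) fun _ _ _ _ => rfl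
      obtain ⟨y, l'', rfl⟩ := List.exists_cons_of_ne_nil h0
      simp only [List.length_cons, Nat.add_sub_cancel, pow_succ]
      ring
    simp only [rd, cupR]
    rw [h1, e1_rd_add, e1_rd_mul, ih, e1_cup_sub_left]
    simp only [List.length_cons, List.length_nil, zero_add, Nat.sub_self, pow_zero]
    ring

end Raw

theorem e1_ext {a b : AS Y} (h : ∀ l, a.1 l = b.1 l) : a = b := Subtype.ext (funext h)

theorem e1_D (a : AS Y) (l : List Y) : (asD a).1 l = rd l a.1 := rfl

theorem e1_Gr (c : ℕ → ℂ) (a : AS Y) (l : List Y) : (asGr c a).1 l = c (l.length - 1) * a.1 l := rfl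

theorem e1_Cup (a b : AS Y) (l : List Y) : (asCup a b).1 l = cupR l a.1 b.1 := rfl

theorem e1_Conj (a : AS Y) (l : List Y) : (asConj a).1 l = star (a.1 l) := rfl

theorem e1_One (l : List Y) : (asOne Y).1 l = if l.length = 1 then 1 else 0 := rfl

theorem e1_nil (a : AS Y) : a.1 [] = 0 := a.2.1

theorem e1_nullAt_le {a : List Y → ℂ} {w : Y} (h : NullAt a w) (q : ℕ) :
    ∃ V ∈ 𝓝 w, ∀ l : List Y, l.length ≤ q → (∀ y ∈ l, y ∈ V) → a l = 0 := by
  induction q with
  | zero =>
    obtain ⟨V, hV, h1⟩ := h 0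
    exact ⟨V, hV, fun l hl => h1 l (Nat.le_zero.1 hl)⟩
  | succ q ih =>
    obtain ⟨V, hV, h1⟩ := ih
    obtain ⟨V', hV', h2⟩ := h (q + 1)
    refine ⟨V ∩ V', inter_mem hV hV', fun l hl hl' => ?_⟩
    rcases Nat.lt_or_eq_of_le hl with hl | hl
    · exact h1 l (Nat.lt_succ_iff.1 hl) fun y hy => (hl' y hy).1
    · exact h2 l hl fun y hy => (hl' y hy).2

theorem asD_asD (a : AS Y) : asD (asD a) = 0 :=
  e1_ext fun l => e1_rd_rd l a.1

theorem asGr_asGr (c c' : ℕ → ℂ) (a : AS Y) : asGr c (asGr c' a) = asGr (fun q => c q * c' q) a :=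
  e1_ext fun l => by simp only [e1_Gr, mul_assoc]

/-- `rd l` only reads lists of length `l.length - 1` -/
theorem asD_asGr (c : ℕ → ℂ) (a : AS Y) : asD (asGr (fun q => c (q + 1)) a) = asGr c (asD a) := by
  refine e1_ext fun l => ?_
  rw [e1_Gr, e1_D, e1_D, ← e1_rd_mul]
  refine e1_rd_congr l fun l' h _ => ?_
  rw [e1_Gr, ← h]
  rcases l' with _ | ⟨y, l'⟩
  · rw [e1_nil, mul_zero, mul_zero]
  · rfl

theorem asD_asπ (q : ℕ) (a : AS Y) : asD (asπ q a) = asπ (q + 1) (asD a) := by
  rw [asπ, asπ, ← asD_asGr]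
  simp only [Nat.add_right_cancel_iff]

theorem asπ_zero_asD (a : AS Y) : asπ 0 (asD a) = 0 := by
  rw [asπ, ← asD_asGr]
  have : asGr (fun q => if q + 1 = 0 then 1 else 0) a = 0 :=
    e1_ext fun l => by simp [e1_Gr]
  rw [this, map_zero]

theorem asπ_asπ (p q : ℕ) (a : AS Y) : asπ q (asπ p a) = if p = q then asπ p a else 0 := by
  refine e1_ext fun l => ?_
  split_ifs with h
  · subst h
    simp only [asπ, e1_Gr]
    split_ifs <;> simp
  · simp only [asπ, e1_Gr]
    split_ifs with h1 h2
    · exact absurd (h2.symm.trans h1) h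
    all_goals simp

theorem asD_one : asD (asOne Y) = 0 := by
  refine e1_ext fun l => ?_
  rw [e1_D]
  change _ = 0
  match l with
  | [] => rfl
  | [x] => simp [rd, e1_One]
  | [x, y] => simp [rd, e1_One]
  | x :: y :: z :: l =>
    refine (e1_rd_congr _ fun l' h _ => ?_).trans (e1_rd_zero _)
    rw [e1_One, if_neg]
    simp only [List.length_cons] at h
    omega

theorem asπ_one : asπ 0 (asOne Y) = asOne Y := by
  refine e1_ext fun l => ?_
  simp only [asπ, e1_Gr, e1_One]
  split_ifs with h1 h2 h2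
  · exact one_mul _
  · exact mul_zero _
  · exact absurd (by rw [h2]) h1
  · exact mul_zero _

theorem asConj_add (a b : AS Y) : asConj (a + b) = asConj a + asConj b :=
  e1_ext fun l => star_add (a.1 l) (b.1 l)

theorem asConj_smul (c : ℂ) (a : AS Y) : asConj (c • a) = star c • asConj a :=
  e1_ext fun l => star_smul c (a.1 l)

theorem asD_asConj (a : AS Y) : asD (asConj a) = asConj (asD a) :=
  e1_ext fun l => e1_rd_star l a.1

theorem asCup_add_left (a a' b : AS Y) : asCup (a + a') b = asCup a b + asCup a' b :=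
  e1_ext fun l => e1_cup_add_left b.1 l a.1 a'.1

theorem asCup_add_right (a b b' : AS Y) : asCup a (b + b') = asCup a b + asCup a b' :=
  e1_ext fun l => e1_cup_add_right b.1 b'.1 l a.1

theorem asCup_smul_left (c : ℂ) (a b : AS Y) : asCup (c • a) b = c • asCup a b :=
  e1_ext fun l => e1_cup_mul_left c b.1 l a.1

theorem asCup_smul_right (c : ℂ) (a b : AS Y) : asCup a (c • b) = c • asCup a b :=
  e1_ext fun l => e1_cup_mul_right c b.1 l a.1

theorem asCup_one (b : AS Y) : asCup (asOne Y) b = b := by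
  refine e1_ext fun l => ?_
  rw [e1_Cup]
  rcases l with _ | ⟨x, l⟩
  · exact (e1_nil b).symm
  · have h : cupR l (fun l' => (asOne Y).1 (x :: l')) b.1 = 0 := by
      refine (e1_cup_congr l (fun l' h0 _ _ => ?_) fun _ _ _ _ => rfl).trans (e1_cup_zero_left l b.1)
      rw [e1_One, if_neg]
      simpa using h0
    simp only [cupR]
    rw [h, e1_One]
    simp

/-- Leibniz rule.  Raw version for arbitrary `a` and `b [] = 0` (induction on `l`, generalising `a`;
`a' = a (x :: ·)`, `ā l = (-1)^(l.length - 1) a l`):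
`rd l (cupR · a b) = cupR l (rd · a) b + cupR l ā (rd · b) - a [] * b l`. -/
theorem asD_asCup (a b : AS Y) :
    asD (asCup a b) = asCup (asD a) b + asCup (asGr (fun q => (-1) ^ q) a) (asD b) := by
  refine e1_ext fun l => ?_
  have h := e1_leibniz (e1_nil b) l a.1
  rw [e1_nil a, zero_mul, sub_zero] at h
  exact h

theorem supp_asD (a : AS Y) : (asSM Y).supp (asD a) ⊆ (asSM Y).supp a := by
  intro w hw h
  refine hw fun q => ?_
  obtain ⟨V, hV, h1⟩ := h (q - 1)
  refine ⟨V, hV, fun l hl hl' => ?_⟩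
  refine (e1_rd_congr l fun l' h2 h3 => ?_).trans (e1_rd_zero l)
  exact h1 l' (by omega) fun y hy => hl' y (h3 y hy)

theorem supp_asGr (c : ℕ → ℂ) (a : AS Y) : (asSM Y).supp (asGr c a) ⊆ (asSM Y).supp a := by
  intro w hw h
  refine hw fun q => ?_
  obtain ⟨V, hV, h1⟩ := h q
  exact ⟨V, hV, fun l hl hl' => by rw [e1_Gr, h1 l hl hl', mul_zero]⟩

theorem supp_asConj (a : AS Y) : (asSM Y).supp (asConj a) ⊆ (asSM Y).supp a := by
  intro w hw h
  refine hw fun q => ?_
  obtain ⟨V, hV, h1⟩ := h q
  exact ⟨V, hV, fun l hl hl' => by rw [e1_Conj, h1 l hl hl', star_zero]⟩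

theorem supp_asCup (a b : AS Y) :
    (asSM Y).supp (asCup a b) ⊆ (asSM Y).supp a ∩ (asSM Y).supp b := by
  intro w hw
  refine ⟨fun h => hw fun q => ?_, fun h => hw fun q => ?_⟩
  · obtain ⟨V, hV, h1⟩ := e1_nullAt_le h q
    refine ⟨V, hV, fun l hl hl' => ?_⟩
    refine (e1_cup_congr l (fun l' _ h2 h3 => ?_) fun _ _ _ _ => rfl).trans (e1_cup_zero_left l b.1)
    exact h1 l' (hl ▸ h2) fun y hy => hl' y (h3 y hy)
  · obtain ⟨V, hV, h1⟩ := e1_nullAt_le h q
    refine ⟨V, hV, fun l hl hl' => ?_⟩
    refine (e1_cup_congr l (fun _ _ _ _ => rfl) fun l' _ h2 h3 => ?_).trans (e1_cup_zero_right l a.1)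
    exact h1 l' (hl ▸ h2) fun y hy => hl' y (h3 y hy)

theorem pairB_one (κ : ℂ) (lam : AS Y →ₗ[ℂ] ℂ) (b : AS Y) :
    pairB κ lam (asOne Y) b = star κ * lam b := by
  have h : asConj (asGr sg (asOne Y)) = asOne Y := by
    refine e1_ext fun l => ?_
    rw [e1_Conj, e1_Gr, e1_One]
    split_ifs with h
    · simp [h, sg]
    · simp
  rw [pairB, h, asCup_one]

/-- Leibniz rule for `α = asConj (asGr (fun q => sg (q+1)) a)` -/
theorem pairB_D (κ : ℂ) (lam : AS Y →ₗ[ℂ] ℂ) (a b : AS Y)
    (h : ∀ α : AS Y, (asSM Y).supp α ⊆ (asSM Y).supp a → lam (asD α) = 0) :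
    pairB κ lam (asD a) b = -1 * pairB κ lam a (asD b) := by
  have h1 : asConj (asGr sg (asD a)) = asD (asConj (asGr (fun q => sg (q + 1)) a)) := by
    rw [asD_asConj, asD_asGr]
  have h2 : asGr (fun q => (-1) ^ q) (asConj (asGr (fun q => sg (q + 1)) a)) =
      asConj (asGr sg a) := by
    refine e1_ext fun l => ?_
    simp only [e1_Gr, e1_Conj, sg, star_mul', star_pow, star_neg, star_one]
    rw [← mul_assoc, ← mul_assoc, ← mul_pow]
    simp
  have h3 := h (asCup (asConj (asGr (fun q => sg (q + 1)) a)) b)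
    ((supp_asCup _ _).trans (Set.inter_subset_left.trans ((supp_asConj _).trans (supp_asGr _ _))))
  rw [asD_asCup, h2, map_add] at h3
  rw [pairB, pairB, h1, eq_neg_of_add_eq_zero_left h3]
  ring

theorem locPair_pairB {ι : Type} {P : ι → Type} [∀ x, TopologicalSpace (P x)] {F : Filter ι} (κ : ℂ)
    (lam : ∀ x, AS (P x) →ₗ[ℂ] ℂ)
    (h : ∀ᶠ x in F, ∀ α : AS (P x), (asSM (P x)).supp α = ∅ → lam x α = 0) :
    LocPair F (fun x => asSM (P x)) fun x => pairB κ (lam x) := by
  refine ⟨fun x (a a' b : AS (P x)) => ?_, fun x (a b b' : AS (P x)) => ?_,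
    fun x c (a b : AS (P x)) => ?_, fun x c (a b : AS (P x)) => ?_,
    h.mono fun x hx (a b : AS (P x)) hab => ?_⟩
  · change pairB κ (lam x) (a + a') b = pairB κ (lam x) a b + pairB κ (lam x) a' b
    simp only [pairB, map_add, asConj_add, asCup_add_left, mul_add]
  · change pairB κ (lam x) a (b + b') = pairB κ (lam x) a b + pairB κ (lam x) a b'
    simp only [pairB, map_add, asCup_add_right, mul_add]
  · change pairB κ (lam x) (c • a) b = star c * pairB κ (lam x) a b
    simp only [pairB, map_smul, asConj_smul, asCup_smul_left, smul_eq_mul]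
    ring
  · change pairB κ (lam x) a (c • b) = c * pairB κ (lam x) a b
    simp only [pairB, map_smul, asCup_smul_right, smul_eq_mul]
    ring
  · have h1 : lam x (asCup (asConj (asGr sg a)) b) = 0 := by
      refine hx _ (Set.subset_empty_iff.1 ((supp_asCup _ _).trans ?_))
      rw [← hab.inter_eq]
      exact Set.inter_subset_inter_left _ ((supp_asConj _).trans (supp_asGr _ _))
    change star κ * lam x (asCup (asConj (asGr sg a)) b) = 0
    rw [h1, mul_zero]

namespace Geo

open CategoryTheory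

variable {ι : Type} {n : ℕ} (G : Geo ι n) {K K' : Ctx G.P}

theorem ctrl_asD : Ctrl K (A := (G.D K).A) (B := (G.D K).A) fun _ => asD :=
  ctrl_of_subset (.of_forall fun _ v => supp_asD v)

theorem ctrl_asπ (q : ℕ) : Ctrl K (A := (G.D K).A) (B := (G.D K).A) fun _ => asπ q :=
  ctrl_of_subset (.of_forall fun _ v => supp_asGr _ v)

/-- the Alexander–Spanier complex -/
noncomputable def DCx (K : Ctx G.P) : Cx K where
  A := G.D K
  D := G.Dd K
  π := G.Dπ K
  η := G.Dη K
  DD := by
    refine (hmk_comp G.ctrl_asD G.ctrl_asD).trans (Eq.trans (congrArg _ ?_) hmk_zero)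
    funext x
    exact LinearMap.ext fun a => asD_asD a
  ππ := fun p q => by
    refine (hmk_comp (G.ctrl_asπ p) (G.ctrl_asπ q)).trans ?_
    split_ifs with h
    · refine congrArg _ (funext fun x => LinearMap.ext fun a => ?_)
      exact (asπ_asπ p q a).trans (if_pos h)
    · refine Eq.trans (congrArg _ (funext fun x => LinearMap.ext fun a => ?_)) hmk_zero
      exact (asπ_asπ p q a).trans (if_neg h)
  πD := fun q => by
    refine (hmk_comp (G.ctrl_asπ q) G.ctrl_asD).trans
      (Eq.trans (congrArg _ ?_) (hmk_comp G.ctrl_asD (G.ctrl_asπ (q + 1))).symm)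
    funext x
    exact LinearMap.ext fun a => asD_asπ q a
  Dπ := by
    refine (hmk_comp G.ctrl_asD (G.ctrl_asπ 0)).trans (Eq.trans (congrArg _ ?_) hmk_zero)
    funext x
    exact LinearMap.ext fun a => asπ_zero_asD a
  ηD := by
    refine (hmk_comp (ctrl_cst _) G.ctrl_asD).trans (Eq.trans (congrArg _ ?_) hmk_zero)
    funext x
    refine LinearMap.ext fun (c : ℂ) => ?_
    change asD (c • asOne (G.P x)) = 0
    rw [map_smul, asD_one, smul_zero]
  ηπ := by
    refine (hmk_comp (ctrl_cst _) (G.ctrl_asπ 0)).trans (congrArg _ ?_)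
    funext x
    refine LinearMap.ext fun (c : ℂ) => ?_
    change asπ 0 (c • asOne (G.P x)) = c • asOne (G.P x)
    rw [map_smul, asπ_one]

theorem resH_Dd (h : K.Le K') : resH K' (G.Dd K) = G.Dd K' :=
  resH_hmk h G.ctrl_asD

theorem resH_Dπ (h : K.Le K') (q : ℕ) : resH K' (G.Dπ K q) = G.Dπ K' q :=
  resH_hmk h (G.ctrl_asπ q)

theorem resH_Dη (h : K.Le K') : resH K' (G.Dη K) = G.Dη K' :=
  resH_hmk h (ctrl_cst _)

theorem resH_Dϖ (h : K.Le K') (T : ℕ) : resH K' ((G.DCx K).ϖ T) = (G.DCx K').ϖ T := by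
  refine (resH_sum h _ _).trans (Finset.sum_congr rfl fun q _ => ?_)
  exact G.resH_Dπ h q

end Geo

end Crest.Agent.R217
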