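import Crest.Agent.R217.E1

/-! Row 217, part E2: averaging of cochains. -/

set_option autoImplicit false

namespace Crest.Agent.R217

open Filter Topology

universe u

variable {Z : Type} [MetricSpace Z] [CompactSpace Z]
  {H : Type u} [Group H] [TopologicalSpace H] [IsTopologicalGroup H] [CompactSpace H] [T2Space H]
  [SecondCountableTopology H] [MulAction H Z] [ContinuousSMul H Z] {ψ : H →* ℂ}

set_option linter.unusedSectionVars false

section Aux

variable {Y : Type}

theorem e2_rd_map (f : Y → Y) (l : List Y) (a : List Y → ℂ) :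
    rd (l.map f) a = rd l fun l' => a (l'.map f) := by
  induction l generalizing a with
  | nil => rfl
  | cons x l ih => simp only [List.map_cons, rd, ih]

theorem e2_cupR_map (f : Y → Y) (l : List Y) (a b : List Y → ℂ) :
    cupR (l.map f) a b = cupR l (fun l' => a (l'.map f)) fun l' => b (l'.map f) := by
  induction l generalizing a with
  | nil => rfl
  | cons x l ih => simp only [List.map_cons, cupR, ih, List.map_nil]

theorem e2_rd_mul (c : ℂ) (l : List Y) (a : List Y → ℂ) :
    c * rd l a = rd l fun l' => c * a l' := by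
  induction l generalizing a with
  | nil => simp [rd]
  | cons x l ih => simp only [rd, mul_sub, ih]

theorem e2_cupR_mul (c : ℂ) (l : List Y) (a b : List Y → ℂ) :
    cupR l (fun l' => c * a l') b = cupR l a fun l' => c * b l' := by
  induction l generalizing a with
  | nil => rfl
  | cons x l ih =>
    simp only [cupR]
    rw [ih fun l' => a (x :: l')]
    ring

theorem e2_rd_cont {T : Type u} [TopologicalSpace T] (l : List Y) {F : T → List Y → ℂ}
    (h : ∀ l', Continuous fun g => F g l') : Continuous fun g => rd l (F g) := by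
  induction l generalizing F with
  | nil => exact continuous_const
  | cons x l ih => exact (h l).sub (ih (F := fun g l' => F g (x :: l')) fun l' => h _)

theorem e2_cupR_cont {T : Type u} [TopologicalSpace T] (l : List Y) {F G : T → List Y → ℂ}
    (h : ∀ l', Continuous fun g => F g l') (h' : ∀ l', Continuous fun g => G g l') :
    Continuous fun g => cupR l (F g) (G g) := by
  induction l generalizing F with
  | nil => exact continuous_const
  | cons x l ih =>
    exact ((h _).mul (h' _)).add (ih (F := fun g l' => F g (x :: l')) fun l' => h _)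

variable {H : Type u} [Group H] [TopologicalSpace H] [IsTopologicalGroup H] [CompactSpace H]

theorem e2_avg_sub {F F' : H → ℂ} (h : Continuous F) (h' : Continuous F') :
    avg (fun g => F g - F' g) = avg F - avg F' := by
  have := avg_add h (continuous_const (y := (-1 : ℂ)).fun_mul h')
  rw [avg_mul] at this
  simpa [sub_eq_add_neg] using this

theorem e2_avg_mul' (c : ℂ) (F : H → ℂ) : avg (fun g => F g * c) = avg F * c := by
  simp only [mul_comm _ c, avg_mul]

theorem e2_avg_rd (l : List Y) {F : H → List Y → ℂ} (h : ∀ l', Continuous fun g => F g l') :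
    avg (fun g => rd l (F g)) = rd l fun l' => avg fun g => F g l' := by
  induction l generalizing F with
  | nil => exact avg_const 0
  | cons x l ih =>
    simp only [rd]
    rw [e2_avg_sub (h l) (e2_rd_cont l (F := fun g l' => F g (x :: l')) fun l' => h _),
      ih (F := fun g l' => F g (x :: l')) fun l' => h _]

theorem e2_avg_cupR_left (l : List Y) {F : H → List Y → ℂ} (h : ∀ l', Continuous fun g => F g l')
    (b : List Y → ℂ) :
    avg (fun g => cupR l (F g) b) = cupR l (fun l' => avg fun g => F g l') b := by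
  induction l generalizing F with
  | nil => exact avg_const 0
  | cons x l ih =>
    simp only [cupR]
    rw [avg_add ((h _).fun_mul continuous_const) (e2_cupR_cont l (F := fun g l' => F g (x :: l'))
      (G := fun _ => b) (fun l' => h _) fun _ => continuous_const),
      ih (F := fun g l' => F g (x :: l')) fun l' => h _, e2_avg_mul']

theorem e2_avg_cupR_right (l : List Y) (a : List Y → ℂ) {F : H → List Y → ℂ}
    (h : ∀ l', Continuous fun g => F g l') :
    avg (fun g => cupR l a (F g)) = cupR l a fun l' => avg fun g => F g l' := by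
  induction l generalizing a with
  | nil => exact avg_const 0
  | cons x l ih =>
    simp only [cupR]
    rw [avg_add (continuous_const.fun_mul (h _)) (e2_cupR_cont l (F := fun _ l' => a (x :: l'))
      (fun l' => continuous_const) h), ih, avg_mul]

end Aux

omit [CompactSpace Z] [IsTopologicalGroup H] [CompactSpace H] [T2Space H]
  [SecondCountableTopology H] in
theorem e2_cont (a : AS Z) (l : List Z) : Continuous fun g : H => a.1 (l.map fun y => g • y) := by
  have := (a.2.2 l.length).comp (f := fun g : H => fun i => g • l.get i)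
    (continuous_pi fun i => continuous_id.smul continuous_const)
  refine this.congr fun g => ?_
  simp only [Function.comp]
  conv_rhs => rw [← List.ofFn_get l, List.map_ofFn]
  rfl

omit [CompactSpace Z] [IsTopologicalGroup H] [CompactSpace H] [T2Space H]
  [SecondCountableTopology H] in
theorem e2_cont' (hψ : UChar ψ) (a : AS Z) (l : List Z) :
    Continuous fun g : H => star (ψ g) * a.1 (l.map fun y => g • y) :=
  hψ.cont.star.mul (e2_cont a l)

omit [T2Space H] in
theorem e2_apply (hψ : UChar ψ) (a : AS Z) (l : List Z) :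
    (asE hψ a).1 l = avg fun g : H => star (ψ g) * a.1 (l.map fun y => g • y) := rfl

omit [CompactSpace Z] [IsTopologicalGroup H] [CompactSpace H] [T2Space H]
  [SecondCountableTopology H] in
/-- the tube lemma -/
theorem e2_tube {a : List Z → ℂ} {w : Z} {K : Set H} (hK : IsCompact K)
    (h : ∀ g ∈ K, NullAt a (g • w)) (q : ℕ) :
    ∃ V ∈ 𝓝 w, ∀ l : List Z, l.length = q → (∀ y ∈ l, y ∈ V) →
      ∀ g ∈ K, a (l.map fun y => g • y) = 0 := by
  refine hK.induction_on (p := fun S => ∃ V ∈ 𝓝 w, ∀ l : List Z, l.length = q → (∀ y ∈ l, y ∈ V) →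
      ∀ g ∈ S, a (l.map fun y => g • y) = 0) ?_ ?_ ?_ ?_
  · exact ⟨Set.univ, univ_mem, fun _ _ _ _ hg => hg.elim⟩
  · rintro S T hST ⟨V, hV, hT⟩
    exact ⟨V, hV, fun l h1 h2 g hg => hT l h1 h2 g (hST hg)⟩
  · rintro S T ⟨V, hV, hS⟩ ⟨V', hV', hT⟩
    refine ⟨V ∩ V', inter_mem hV hV', fun l h1 h2 g hg => ?_⟩
    rcases hg with hg | hg
    · exact hS l h1 (fun y hy => (h2 y hy).1) g hg
    · exact hT l h1 (fun y hy => (h2 y hy).2) g hg
  · intro g hg
    obtain ⟨W, hW, hW'⟩ := h g hg q
    have hc : ContinuousAt (fun p : H × Z => p.1 • p.2) (g, w) := continuous_smul.continuousAt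
    obtain ⟨U, hU, V, hV, hUV⟩ := mem_nhds_prod_iff.1 (hc hW)
    refine ⟨U, mem_nhdsWithin_of_mem_nhds hU, V, hV, fun l h1 h2 g' hg' => ?_⟩
    refine hW' _ (by simpa using h1) fun y hy => ?_
    obtain ⟨y', hy', rfl⟩ := List.mem_map.1 hy
    exact hUV (Set.mk_mem_prod hg' (h2 y' hy'))

theorem uchar_one : UChar (1 : H →* ℂ) := ⟨continuous_const, fun _ => by simp⟩

theorem uchar_of_pow {p : ℕ} (hc : Continuous ψ) (hp : 0 < p) (h : ∀ g, ψ g ^ p = 1) : UChar ψ :=
  ⟨hc, fun g => by
    have := Complex.norm_eq_one_of_pow_eq_one (h g) hp.ne'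
    rw [Complex.star_def, Complex.conj_mul', this]
    simp⟩

theorem asE_equiv (hψ : UChar ψ) (a : AS Z) (h : H) (l : List Z) :
    (asE hψ a).1 (l.map fun y => h • y) = ψ h * (asE hψ a).1 l := by
  rw [e2_apply, e2_apply, ← avg_mul_right (e2_cont' hψ a l) h, ← avg_mul]
  congr 1
  funext g
  simp only [List.map_map, Function.comp_def, mul_smul, map_mul, star_mul']
  have := hψ.unit h
  linear_combination (-star (ψ g) * a.1 (l.map fun y => g • h • y)) * this

theorem asE_asE (hψ : UChar ψ) (a : AS Z) : asE hψ (asE hψ a) = asE hψ a := by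
  refine Subtype.ext (funext fun l => ?_)
  rw [e2_apply]
  simp only [asE_equiv, ← mul_assoc, hψ.unit, one_mul, avg_const]

/-- `rd l a = ∑ k, (-1)^k * a (l.eraseIdx k)`, or induction on `l` for families `H → List Z → ℂ` -/
theorem asE_asD (hψ : UChar ψ) (a : AS Z) : asE hψ (asD a) = asD (asE hψ a) := by
  refine Subtype.ext (funext fun l => ?_)
  change (avg fun g : H => star (ψ g) * rd (l.map fun y => g • y) a.1) = rd l (asE hψ a).1
  simp only [e2_rd_map, e2_rd_mul]
  exact e2_avg_rd l (e2_cont' hψ a)

theorem asE_asGr (hψ : UChar ψ) (c : ℕ → ℂ) (a : AS Z) : asE hψ (asGr c a) = asGr c (asE hψ a) := by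
  refine Subtype.ext (funext fun l => ?_)
  change (avg fun g : H => star (ψ g) * (c ((l.map fun y => g • y).length - 1) *
    a.1 (l.map fun y => g • y))) = c (l.length - 1) * (asE hψ a).1 l
  rw [e2_apply, ← avg_mul]
  simp only [List.length_map, mul_left_comm]

theorem asE_one (h1 : UChar (1 : H →* ℂ)) : asE h1 (asOne Z) = asOne Z := by
  refine Subtype.ext (funext fun l => ?_)
  change (avg fun g : H => star ((1 : H →* ℂ) g) *
    if (l.map fun y => g • y).length = 1 then 1 else 0) = if l.length = 1 then 1 else 0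
  simp only [MonoidHom.one_apply, star_one, one_mul, List.length_map, avg_const]

/-- `avg ψ̄ = ψ̄ h * avg ψ̄` -/
theorem asE_one_of_ne (hψ : UChar ψ) (h : ∃ g, ψ g ≠ 1) : asE hψ (asOne Z) = 0 := by
  refine Subtype.ext (funext fun l => ?_)
  change (avg fun g : H => star (ψ g) * if (l.map fun y => g • y).length = 1 then 1 else 0) = 0
  obtain ⟨g, hg⟩ := h
  have h1 := avg_mul_left (fun g' : H => star (ψ g')) g
  simp only [map_mul, star_mul', avg_mul] at h1
  have h2 : star (ψ g) - 1 ≠ 0 := fun e => hg (by
    have := congrArg star (sub_eq_zero.1 e)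
    simpa using this)
  have h3 : (avg fun g' : H => star (ψ g')) = 0 :=
    (mul_eq_zero.1 (by linear_combination h1)).resolve_left h2
  simp only [List.length_map, e2_avg_mul', h3, zero_mul]

/-- both sides are `asCup (asConj (asE a)) (asE b)` (`asE_equiv`; write `cupR` as a finite sum) -/
theorem asE_cup (h1 : UChar (1 : H →* ℂ)) (hψ : UChar ψ) (a b : AS Z) :
    asE h1 (asCup (asConj (asE hψ a)) b) = asE h1 (asCup (asConj a) (asE hψ b)) := by
  refine Subtype.ext (funext fun l => ?_)
  change (avg fun g : H => star ((1 : H →* ℂ) g) *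
      cupR (l.map fun y => g • y) (fun l' => star ((asE hψ a).1 l')) b.1) =
    avg fun g : H => star ((1 : H →* ℂ) g) *
      cupR (l.map fun y => g • y) (fun l' => star (a.1 l')) (asE hψ b).1
  simp only [MonoidHom.one_apply, star_one, one_mul, e2_cupR_map, asE_equiv, star_mul']
  simp only [e2_cupR_mul _ l fun l' => star ((asE hψ a).1 l'), ← e2_cupR_mul _ l _ (asE hψ b).1]
  rw [e2_avg_cupR_right l _ (e2_cont' hψ b),
    e2_avg_cupR_left l (F := fun g l' => ψ g * star (a.1 (l'.map fun y => g • y)))
      fun l' => hψ.cont.mul (e2_cont a l').star]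
  congr 1
  funext l'
  rw [e2_apply, ← avg_star]
  simp only [star_mul', star_star]

theorem pairB_E (h1 : UChar (1 : H →* ℂ)) (hψ : UChar ψ) (κ : ℂ) (lam : AS Z →ₗ[ℂ] ℂ) (a b : AS Z) :
    pairB κ (lam ∘ₗ asE h1) (asE hψ a) b = 1 * pairB κ (lam ∘ₗ asE h1) a (asE hψ b) := by
  simp only [pairB, LinearMap.comp_apply, one_mul]
  rw [← asE_asGr, asE_cup]

/-- tube lemma over the compact group, one length at a time -/
theorem supp_asE (hψ : UChar ψ) (a : AS Z) {w : Z} (hw : w ∈ (asSM Z).supp (asE hψ a)) :
    ∃ g : H, g • w ∈ (asSM Z).supp a := by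
  by_contra hc
  push Not at hc
  refine hw fun q => ?_
  obtain ⟨V, hV, h⟩ := e2_tube (a := a.1) (w := w) (isCompact_univ (X := H))
    (fun g _ => not_not.1 (hc g)) q
  refine ⟨V, hV, fun l h1 h2 => ?_⟩
  rw [e2_apply]
  simp only [h l h1 h2 _ (Set.mem_univ _), mul_zero, avg_const]

/-- `{g | star (ψ g) ≠ ζ}` is closed since `ψ` has finite image; tube lemma over it -/
theorem supp_asE_twist (h1 : UChar (1 : H →* ℂ)) (hψ : UChar ψ) {p : ℕ} (hp : 0 < p)
    (hpow : ∀ g, ψ g ^ p = 1) (a : AS Z) (ζ : ℂ) {w : Z}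
    (h : ∀ g : H, g • w ∈ (asSM Z).supp a → star (ψ g) = ζ) :
    w ∉ (asSM Z).supp (asE hψ a - ζ • asE h1 a) := by
  have hK : IsClosed {g : H | star (ψ g) ≠ ζ} := by
    have hf : ({z : ℂ | z ^ p = 1} \ {ζ}).Finite :=
      ((Polynomial.nthRootsFinset p (1 : ℂ)).finite_toSet.subset fun z hz => by
        simpa [Polynomial.mem_nthRootsFinset hp] using hz).sdiff
    have : {g : H | star (ψ g) ≠ ζ} = (fun g => star (ψ g)) ⁻¹' ({z : ℂ | z ^ p = 1} \ {ζ}) := by
      ext g
      have : star (ψ g) ^ p = 1 := by rw [← star_pow, hpow, star_one]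
      simp only [Set.mem_ofPred_eq, Set.mem_preimage, Set.mem_sdiff, this, true_and,
        Set.mem_singleton_iff]
    rw [this]
    exact hf.isClosed.preimage hψ.cont.star
  refine not_not.2 fun q => ?_
  obtain ⟨V, hV, hv⟩ := e2_tube (a := a.1) (w := w) hK.isCompact
    (fun g hg => not_not.1 fun hn => hg (h g hn)) q
  refine ⟨V, hV, fun l e1 e2 => ?_⟩
  change (asE hψ a).1 l - ζ * (asE h1 a).1 l = 0
  rw [e2_apply, e2_apply, ← avg_mul,
    ← e2_avg_sub (e2_cont' hψ a l) (continuous_const.fun_mul (e2_cont' h1 a l)), ← avg_const (H := H) 0]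
  congr 1
  funext g
  by_cases hg : star (ψ g) = ζ
  · simp [hg]
  · simp [hv l e1 e2 g hg]

end Crest.Agent.R217
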