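import Crest.Agent.R217.E1

/-! Row 217, part E3: the Alexander–Spanier complex is fine, and a resolution. -/

set_option autoImplicit false

namespace Crest.Agent.R217

open Filter Topology Metric CategoryTheory

variable {n : ℕ}

section List

variable {Y : Type}

/-- the prism operator -/
noncomputable def e3_prism (f g : Y → Y) : List Y → (List Y → ℂ) → ℂ
  | [], _ => 0
  | x :: l, a => a (f x :: g x :: l.map g) - e3_prism f g l fun l' => a (f x :: l')

theorem e3_rd_sub (l : List Y) (a b : List Y → ℂ) :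
    rd l (fun m => a m - b m) = rd l a - rd l b := by
  induction l generalizing a b with
  | nil => simp [rd]
  | cons x l ih =>
    simp only [rd, ih]
    ring

theorem e3_rd_sum {S : Type} (s : Finset S) (l : List Y) (a : S → List Y → ℂ) :
    rd l (fun m => ∑ k ∈ s, a k m) = ∑ k ∈ s, rd l (a k) := by
  induction l generalizing a with
  | nil => simp [rd]
  | cons x l ih => simp only [rd, ih, Finset.sum_sub_distrib]

theorem e3_rd_map (g : Y → Y) (l : List Y) (a : List Y → ℂ) :
    rd (l.map g) a = rd l fun m => a (m.map g) := by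
  induction l generalizing a with
  | nil => simp [rd]
  | cons x l ih => simp only [List.map_cons, rd, ih]

theorem e3_rd_const (c : ℂ) (l : List Y) (a : List Y → ℂ)
    (h : ∀ m : List Y, m.length + 1 = l.length → (∀ y ∈ m, y ∈ l) → a m = c) :
    rd l a = if Even l.length then 0 else c := by
  induction l generalizing a with
  | nil => simp [rd]
  | cons x l ih =>
    rw [rd, h l rfl fun y hy => List.mem_cons_of_mem _ hy, ih _ fun m h1 h2 => h (x :: m)
      (by simp [h1]) (by
        simp only [List.mem_cons, forall_eq_or_imp, true_or, true_and]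
        exact fun y hy => Or.inr (h2 y hy)), List.length_cons]
    by_cases e : Even l.length <;> simp [e, Nat.even_add_one]

theorem e3_prism_sub (f g : Y → Y) (l : List Y) (a b : List Y → ℂ) :
    e3_prism f g l (fun m => a m - b m) = e3_prism f g l a - e3_prism f g l b := by
  induction l generalizing a b with
  | nil => simp [e3_prism]
  | cons x l ih =>
    simp only [e3_prism, ih]
    ring

theorem e3_prism_eq (f g : Y → Y) (l : List Y) (a : List Y → ℂ) :
    rd l (fun m => e3_prism f g m a) + e3_prism f g l (fun m => rd m a) =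
      a (l.map g) - a (l.map f) := by
  induction l generalizing a with
  | nil => simp [rd, e3_prism]
  | cons x l ih =>
    have h := ih fun l' => a (f x :: l')
    simp only [rd, e3_prism, e3_rd_sub, e3_prism_sub, e3_rd_map, List.map_cons]
    linear_combination h

theorem e3_prism_zero {f g : Y → Y} {S : Set Y} (l : List Y) (a : List Y → ℂ)
    (h1 : ∀ x ∈ l, f x ∈ S ∧ g x ∈ S)
    (h2 : ∀ m : List Y, m.length = l.length + 1 → (∀ y ∈ m, y ∈ S) → a m = 0) :
    e3_prism f g l a = 0 := by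
  induction l generalizing a with
  | nil => rfl
  | cons x l ih =>
    have h3 := h1 x List.mem_cons_self
    have h4 : ∀ y ∈ l, f y ∈ S ∧ g y ∈ S := fun y hy => h1 y (List.mem_cons_of_mem _ hy)
    rw [e3_prism, ih _ h4 fun m k1 k2 => h2 _ (by simp [k1]) (List.forall_mem_cons.2 ⟨h3.1, k2⟩),
      h2 _ (by simp) (List.forall_mem_cons.2 ⟨h3.1, List.forall_mem_cons.2 ⟨h3.2,
        List.forall_mem_map.2 fun y hy => (h4 y hy).2⟩⟩), sub_zero]

variable [TopologicalSpace Y]

theorem e3_prism_cts {f g : Y → Y} (hf : Continuous f) (hg : Continuous g) (q : ℕ) :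
    ∀ (T : Type) [TopologicalSpace T] (a : T → List Y → ℂ),
      (∀ q, Continuous fun p : T × (Fin q → Y) => a p.1 (List.ofFn p.2)) →
      Continuous fun p : T × (Fin q → Y) => e3_prism f g (List.ofFn p.2) (a p.1) := by
  induction q with
  | zero => exact fun T _ a h => by simpa [e3_prism] using continuous_const
  | succ q ih =>
    intro T _ a h
    have h1 := (CtsL.cons_param (q := q + 1) h).comp
      (f := fun p : T × (Fin (q + 1) → Y) => ((p.1, f (p.2 0)), fun i => g (p.2 i))) (by fun_prop)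
    have h2 := (ih (T × Y) (fun t m => a t.1 (t.2 :: m)) fun q => CtsL.cons_param h).comp
      (f := fun p : T × (Fin (q + 1) → Y) => ((p.1, f (p.2 0)), fun i : Fin q => p.2 i.succ))
      (by fun_prop)
    refine (h1.sub h2).congr fun p => ?_
    simp only [Function.comp_def, List.ofFn_succ, e3_prism, List.map_ofFn, Pi.sub_apply]

theorem CtsL.e3_prism {f g : Y → Y} (hf : Continuous f) (hg : Continuous g) {a : List Y → ℂ}
    (h : CtsL a) : CtsL fun l => e3_prism f g l a := fun q =>
  (e3_prism_cts hf hg q Unit (fun _ => a) fun q => (h q).comp continuous_snd).comp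
    (f := fun v => ((), v)) (by fun_prop)

theorem e3_null {a : AS Y} {y : Y} : y ∉ (asSM Y).supp a ↔ NullAt a.1 y := not_not

theorem e3_null_π {a : AS Y} {y : Y} {q : ℕ} : y ∉ (asSM Y).supp (asπ (q + 1) a) ↔
    ∃ V ∈ 𝓝 y, ∀ l : List Y, l.length = q + 2 → (∀ z ∈ l, z ∈ V) → a.1 l = 0 := by
  have e : ∀ l, (asπ (q + 1) a).1 l = (if l.length - 1 = q + 1 then 1 else 0) * a.1 l :=
    fun _ => rfl
  refine e3_null.trans ⟨fun h => ?_, fun ⟨V, hV, h⟩ p => ⟨V, hV, fun l _ hl => ?_⟩⟩
  · obtain ⟨V, hV, h⟩ := h (q + 2)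
    refine ⟨V, hV, fun l h1 h2 => ?_⟩
    have h3 := h l h1 h2
    rwa [e, if_pos (by omega), one_mul] at h3
  · rw [e]
    split_ifs with h1
    · rw [h l (by omega) hl, mul_zero]
    · rw [zero_mul]

/-- multiplication by a function of the first entry -/
noncomputable def e3_mul (f : C(Y, ℝ)) : AS Y →ₗ[ℂ] AS Y where
  toFun a := ⟨fun l => (l.head?.elim 0 fun x => (f x : ℂ)) * a.1 l, by simp, fun q => by
    refine Continuous.mul ?_ (a.2.2 q)
    cases q with
    | zero => simpa using continuous_const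
    | succ q =>
      simp only [List.ofFn_succ, List.head?_cons, Option.elim_some]
      fun_prop⟩
  map_add' a b := Subtype.ext (funext fun l => mul_add _ _ _)
  map_smul' c a := Subtype.ext (funext fun l => mul_left_comm _ _ _)

end List

theorem e3_image {W : Set (Fin n → ℝ)} {w : W} {ρ : ℝ} (hW : closedBall w.1 ρ ⊆ W) :
    Subtype.val '' closedBall w ρ = closedBall w.1 ρ :=
  Set.Subset.antisymm (by rintro _ ⟨y, hy, rfl⟩; exact hy) fun y hy => ⟨⟨y, hW hy⟩, hy, rfl⟩

theorem e3_retr {W : Set (Fin n → ℝ)} {w : W} {ρ : ℝ} (hρ : 0 < ρ) (hW : closedBall w.1 ρ ⊆ W) :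
    ∃ F : ℝ → W → W, (∀ t, Continuous (F t)) ∧ ∀ t, 0 ≤ t → t ≤ 1 → ∀ y ∈ closedBall w ρ,
      (F t y).1 = w.1 + t • (y.1 - w.1) := by
  have h1 : ∀ z : Fin n → ℝ, 0 < max ρ ‖z‖ := fun z => lt_max_of_lt_left hρ
  have h2 : ∀ z : Fin n → ℝ, w.1 + (ρ / max ρ ‖z‖) • z ∈ W := fun z => hW (by
    rw [mem_closedBall, dist_self_add_left, norm_smul, Real.norm_of_nonneg (div_pos hρ (h1 z)).le,
      div_mul_eq_mul_div, div_le_iff₀ (h1 z)]
    exact mul_le_mul_of_nonneg_left (le_max_right _ _) hρ.le)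
  refine ⟨fun t y => ⟨_, h2 (t • (y.1 - w.1))⟩, fun t => Continuous.subtype_mk ?_ _,
    fun t h0 h3 y hy => ?_⟩
  · exact continuous_const.add ((continuous_const.div (by fun_prop) fun _ => (h1 _).ne').smul
      (by fun_prop))
  · have h4 : ‖t • (y.1 - w.1)‖ ≤ ρ := by
      rw [norm_smul, Real.norm_of_nonneg h0, ← dist_eq_norm]
      exact (mul_le_of_le_one_left dist_nonneg h3).trans hy
    simp only [max_eq_left h4, div_self hρ.ne', one_smul]

/-- degree `0`: a function whose coboundary vanishes near the diagonal is locally constant, hence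
constant on the (convex) ball -/
theorem as_poincare_zero {W : Set (Fin n → ℝ)} {w : W} {ρ : ℝ} (hρ : 0 < ρ)
    (hW : closedBall w.1 ρ ⊆ W) (v : AS W)
    (h : ∀ y : W, dist w.1 y.1 ≤ ρ → y ∉ (asSM W).supp (asD (asπ 0 v))) :
    ∃ c : ℂ, ∀ y : W, dist w.1 y.1 < ρ → y ∉ (asSM W).supp (asπ 0 v - c • asOne W) := by
  have h1 : _root_.IsPreconnected (closedBall w ρ) := by
    rw [← Topology.IsInducing.subtypeVal.isPreconnected_image, e3_image hW]
    exact (convex_closedBall _ _).isPreconnected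
  have h2 : ∀ y ∈ closedBall w ρ, v.1 [y] = v.1 [w] := fun y hy =>
    h1.induction₂ (fun x y => v.1 [x] = v.1 [y]) (fun x hx => by
      rw [asD_asπ] at h
      obtain ⟨V, hV, h3⟩ := e3_null_π.1 (h x (mem_closedBall'.1 hx))
      filter_upwards [mem_nhdsWithin_of_mem_nhds hV] with z hz
      have h4 : rd [z, x] v.1 = 0 := h3 [z, x] rfl (by simp [hz, mem_of_mem_nhds hV])
      simpa [rd, sub_eq_zero] using h4) (fun _ _ _ _ _ _ => Eq.trans)
      (fun _ _ _ _ => Eq.symm) hy
      (mem_closedBall_self hρ.le)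
  refine ⟨v.1 [w], fun y hy => e3_null.2 fun q => ⟨closedBall w ρ,
    Filter.mem_of_superset (isOpen_ball.mem_nhds (mem_ball'.2 hy)) ball_subset_closedBall,
    fun l _ hl => ?_⟩⟩
  change (if l.length - 1 = 0 then 1 else 0) * v.1 l - v.1 [w] * (if l.length = 1 then 1 else 0) = 0
  match l with
  | [] => simp [v.2.1]
  | [x] => simp [h2 x (hl x List.mem_cons_self)]
  | _ :: _ :: _ => simp

/-- Let `B` be the closed ball (a cube), `κ : W → B ⊆ W` the `1`-Lipschitz clamp retraction, and
`f t = w + t • (κ - w)`.  By compactness (Lebesgue number) there is `η` such that `asD v'`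
(`v' = asπ (q+1) v`) vanishes on lists of length `q+3` in `B` of diameter `< η`.  The prism operator
`P f g a (x :: l) = a (f x :: g x :: l.map g) - P f g (a (f x :: ·)) l` (`P _ _ _ [] = 0`) satisfies
`rd l (P f g a) + P f g (rd · a) l = a (l.map g) - a (l.map f)` for `l ≠ []` and `a [] = 0` (prove a raw version
by induction on `l` generalising `a`).  Telescoping over `t = k / N` with `ρ / N < η / 2`:
`κ^* v' - (const w)^* v' = asD u + (null everywhere)`; `v' - κ^* v'` is null on the open ball;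
`(const w)^* v' = c • 1_{length = q+2}` is `asD (c • 1_{length = q+1})` if `q+1` is even, and `c = 0`
if `q+1` is odd since `asD v'` vanishes at `replicate (q+3) w`. -/
theorem as_poincare_succ {W : Set (Fin n → ℝ)} {w : W} {ρ : ℝ} (hρ : 0 < ρ)
    (hW : closedBall w.1 ρ ⊆ W) (q : ℕ) (v : AS W)
    (h : ∀ y : W, dist w.1 y.1 ≤ ρ → y ∉ (asSM W).supp (asD (asπ (q + 1) v))) :
    ∃ u : AS W, ∀ y : W, dist w.1 y.1 < ρ →
      y ∉ (asSM W).supp (asπ (q + 1) v - asD (asπ q u)) := by
  have hB : IsCompact (closedBall w ρ) := by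
    rw [Topology.IsInducing.subtypeVal.isCompact_iff, e3_image hW]
    exact isCompact_closedBall _ _
  rw [asD_asπ] at h
  choose V hV hVz using fun y : closedBall w ρ => e3_null_π.1 (h y.1 (mem_closedBall'.1 y.2))
  obtain ⟨η, hη, hL⟩ := lebesgue_number_lemma_of_metric (c := fun y => interior (V y)) hB
    (fun _ => isOpen_interior) fun y hy =>
      Set.mem_iUnion.2 ⟨⟨y, hy⟩, mem_interior_iff_mem_nhds.2 (hV ⟨y, hy⟩)⟩
  have hz : ∀ x ∈ closedBall w ρ, ∀ m : List W, m.length = q + 3 → (∀ y ∈ m, y ∈ ball x η) →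
      rd m v.1 = 0 := fun x hx m h1 h2 => by
    obtain ⟨y, hy⟩ := hL x hx
    exact hVz y m h1 fun z hz => interior_subset (hy (h2 z hz))
  obtain ⟨F, hF, hFe⟩ := e3_retr hρ hW
  obtain ⟨N, hN⟩ := exists_nat_gt (ρ / (η / 2))
  have hN0 : (0 : ℝ) < N := (div_pos hρ (half_pos hη)).trans hN
  have hc : v.1 (List.replicate (q + 2) w) =
      if Even (q + 2) then 0 else v.1 (List.replicate (q + 2) w) := by
    have h1 := e3_rd_const (v.1 (List.replicate (q + 2) w)) (List.replicate (q + 3) w) v.1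
      fun m k1 k2 => by
        rw [List.eq_replicate_iff.2 ⟨(by simpa using k1 : m.length = q + 2),
          fun y hy => List.eq_of_mem_replicate (k2 y hy)⟩]
    rw [hz w (mem_closedBall_self hρ.le) _ (by simp) fun y hy => by
      rw [List.eq_of_mem_replicate hy]; exact mem_ball_self hη, List.length_replicate] at h1
    by_cases e : Even (q + 2)
    · rw [if_neg (Nat.even_add_one.not.2 (not_not.2 e))] at h1
      rw [if_pos e, ← h1]
    · rw [if_neg e]
  refine ⟨⟨fun l => ∑ k ∈ Finset.range N, e3_prism (F (k / N)) (F ((k + 1 : ℕ) / N)) l v.1 -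
    -(if l.length = q + 1 then v.1 (List.replicate (q + 2) w) else 0), by simp [e3_prism],
    fun p => (continuous_finsetSum _ fun k _ => v.2.2.e3_prism (hF _) (hF _) p).sub
      (by simpa using continuous_const)⟩, fun y hy => ?_⟩
  rw [asD_asπ, ← map_sub]
  have hy' : y ∈ closedBall w ρ := mem_closedBall'.2 hy.le
  refine e3_null_π.2 ⟨closedBall w ρ ∩ ball y (η / 2), Filter.inter_mem (Filter.mem_of_superset
    (isOpen_ball.mem_nhds (mem_ball'.2 hy)) ball_subset_closedBall)
    (ball_mem_nhds _ (half_pos hη)), fun l h1 h2 => ?_⟩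
  have h3 : ∀ k ∈ Finset.range N, rd l (fun m => e3_prism (F (k / N)) (F ((k + 1 : ℕ) / N)) m v.1) =
      v.1 (l.map (F ((k + 1 : ℕ) / N))) - v.1 (l.map (F (k / N))) := fun k hk => by
    have k0 : (0 : ℝ) ≤ k / N := by positivity
    have k1 : ((k + 1 : ℕ) : ℝ) / N ≤ 1 :=
      (div_le_one hN0).2 (Nat.cast_le.2 (Finset.mem_range.1 hk))
    have k2 : (k : ℝ) / N ≤ 1 := le_trans (by gcongr; omega) k1
    have k3 : F (k / N) y ∈ closedBall w ρ := by
      rw [mem_closedBall, Subtype.dist_eq, hFe _ k0 k2 y hy', dist_self_add_left, norm_smul,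
        Real.norm_of_nonneg k0, ← dist_eq_norm]
      exact (mul_le_of_le_one_left dist_nonneg k2).trans hy'
    have k4 : ∀ x ∈ l, dist (F (k / N) x) (F (k / N) y) < η / 2 := fun x hx => by
      rw [Subtype.dist_eq, hFe _ k0 k2 y hy', hFe _ k0 k2 x (h2 x hx).1, dist_add_left, dist_smul₀,
        dist_sub_right, Real.norm_of_nonneg k0]
      exact (mul_le_of_le_one_left dist_nonneg k2).trans_lt (h2 x hx).2
    have k5 : ∀ x ∈ l, dist (F ((k + 1 : ℕ) / N) x) (F (k / N) x) < η / 2 := fun x hx => by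
      rw [Subtype.dist_eq, hFe _ (by positivity) k1 x (h2 x hx).1, hFe _ k0 k2 x (h2 x hx).1,
        dist_add_left, dist_eq_norm, ← sub_smul, norm_smul, ← sub_div, Nat.cast_succ,
        add_sub_cancel_left, Real.norm_of_nonneg (by positivity), ← dist_eq_norm,
        one_div_mul_eq_div, div_lt_iff₀ hN0]
      rw [div_lt_iff₀' (half_pos hη)] at hN
      exact lt_of_le_of_lt (h2 x hx).1 hN
    rw [← e3_prism_eq, e3_prism_zero (S := ball (F (k / N) y) η) l _ (fun x hx =>
      ⟨(k4 x hx).trans (half_lt_self hη), (dist_triangle _ _ _).trans_lt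
        ((add_lt_add (k5 x hx) (k4 x hx)).trans_eq (add_halves η))⟩)
      fun m k6 k7 => hz _ k3 m (by omega) k7, add_zero]
  have h4 : l.map (F (N / N)) = l := by
    conv_rhs => rw [← l.map_id]
    refine List.map_congr_left fun x hx => Subtype.ext ?_
    rw [div_self hN0.ne', hFe 1 zero_le_one le_rfl x (h2 x hx).1, one_smul, add_sub_cancel, id]
  have h5 : l.map (F ((0 : ℕ) / N)) = List.replicate (q + 2) w := by
    refine List.eq_replicate_iff.2 ⟨by simpa using h1, List.forall_mem_map.2 fun x hx =>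
      Subtype.ext ?_⟩
    rw [Nat.cast_zero, zero_div, hFe 0 le_rfl zero_le_one x (h2 x hx).1, zero_smul, add_zero]
  change v.1 l - rd l _ = 0
  rw [e3_rd_sub, e3_rd_sum, Finset.sum_congr rfl h3,
    Finset.sum_range_sub fun k => v.1 (l.map (F (k / N))), h4, h5,
    e3_rd_const (-v.1 (List.replicate (q + 2) w)) l _ fun m k1 _ => by rw [if_pos (by omega)], h1]
  split_ifs at hc ⊢ <;> simp [hc]

variable {ι : Type}

/-- a continuous partition of unity subordinate to a finite cover by `ε`-balls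
(`PartitionOfUnity.exists_isSubordinate`), acting by `(ρ • a) (x :: l) = ρ x * a (x :: l)` -/
theorem Geo.fine_D (G : Geo ι n) (F : Filter ι) : Fine (G.D (G.K0 F)) := by
  refine fun ε hε => .of_forall fun x => ?_
  have := isCompact_iff_compactSpace.1 (G.cW x)
  obtain ⟨t, -, ht, hc⟩ := finite_cover_balls_of_compact (isCompact_univ (X := G.P x)) hε
  have := ht.fintype
  let c : Fin (Fintype.card t) → G.P x := fun s => ((Fintype.equivFin t).symm s).1
  obtain ⟨f, hf⟩ := PartitionOfUnity.exists_isSubordinate isClosed_univ (fun s => ball (c s) ε)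
    (fun _ => isOpen_ball) fun y hy => by
      obtain ⟨z, hz, h⟩ := Set.mem_iUnion₂.1 (hc hy)
      exact Set.mem_iUnion.2 ⟨Fintype.equivFin t ⟨z, hz⟩, by simpa [c] using h⟩
  refine ⟨_, fun s => e3_mul (f s), c, fun v => ?_, fun s v w hw => ⟨fun h => hw fun q => ?_, ?_⟩⟩
  · have h1 : ∑ s, e3_mul (f s) v = v := Subtype.ext (funext fun l => by
      rw [Submodule.coe_sum, Finset.sum_apply]
      change ∑ s, (l.head?.elim 0 fun x => (f s x : ℂ)) * v.1 l = v.1 l
      rw [← Finset.sum_mul]
      cases l with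
      | nil => rw [v.2.1, mul_zero]
      | cons y l =>
        have h2 := f.sum_eq_one (Set.mem_univ y)
        rw [finsum_eq_sum_of_fintype] at h2
        simp only [List.head?_cons, Option.elim_some, ← Complex.ofReal_sum, h2, Complex.ofReal_one,
          one_mul])
    exact (congrArg (asSM _).supp (sub_eq_zero.2 h1.symm)).trans (asSM _).supp_zero
  · obtain ⟨V, hV, h⟩ := h q
    exact ⟨V, hV, fun l h1 h2 => mul_eq_zero_of_right _ (h l h1 h2)⟩
  · refine mem_ball'.1 (hf s (by_contra fun h => hw fun q =>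
      ⟨_, notMem_tsupport_iff_eventuallyEq.1 h, fun l _ h2 => mul_eq_zero_of_left ?_ _⟩))
    cases l with
    | nil => rfl
    | cons y l => exact Complex.ofReal_eq_zero.2 (h2 y List.mem_cons_self)

/-- `lex_of_fam`, `hmk_comp`, `as_poincare_zero`, `as_poincare_succ` -/
theorem Geo.D_res (G : Geo ι n) {K : Ctx G.P} (hB : G.Bal K) : (G.DCx K).Res := by
  refine ⟨?_, ?_, fun q => ?_⟩
  · rw [← hmk_id, ← hmk_zero]
    refine lex_of_fam (X'' := G.D K) ctrl_id ctrl_zero (ctrl_cst _) fun ε hε =>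
      ⟨1, one_pos, .of_forall fun x w _ (v : ℂ) hv => ⟨0, fun w' hw' => absurd ?_ hw'⟩⟩
    have h1 : w ∉ (asSM (G.P x)).supp (v • asOne (G.P x)) := fun h => by
      have := hv w h
      rw [K.d_self] at this
      exact this.not_gt hε
    obtain ⟨V, hV, h⟩ := e3_null.1 h1 1
    have h2 : v * (if [w].length = 1 then 1 else 0) = 0 :=
      h [w] rfl (by simpa using mem_of_mem_nhds hV)
    exact (sub_zero v).trans (by simpa using h2)
  · refine lex_of_fam (X := G.D K) (X' := cst K) (X'' := G.D K) (G.ctrl_asπ 0) (ctrl_cst _)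
      G.ctrl_asD fun ε hε => ?_
    obtain ⟨ρ, hρ, δ, hδ, h⟩ := hB ε hε
    refine ⟨δ, hδ, h.mono fun x hx w hw v hv => ?_⟩
    obtain ⟨h1, h2, h3⟩ := hx w hw
    obtain ⟨c, hc⟩ := as_poincare_zero hρ h1 v fun y hy k => (hv y k).not_gt (h2 y hy)
    exact ⟨c, fun y k => not_lt.1 fun k' => hc y ((h3 y k').trans (half_lt_self hρ)) k⟩
  · have e : (G.DCx K).π q ≫ (G.DCx K).D = hmk (G.D K) (G.D K) fun _ => asD ∘ₗ asπ q :=
      hmk_comp (X := G.D K) (Y := G.D K) (Z := G.D K) (G.ctrl_asπ q) G.ctrl_asD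
    rw [e]
    refine lex_of_fam (X := G.D K) (X' := G.D K) (X'' := G.D K) (G.ctrl_asπ (q + 1))
      ((G.ctrl_asπ q).comp G.ctrl_asD) G.ctrl_asD fun ε hε => ?_
    obtain ⟨ρ, hρ, δ, hδ, h⟩ := hB ε hε
    refine ⟨δ, hδ, h.mono fun x hx w hw v hv => ?_⟩
    obtain ⟨h1, h2, h3⟩ := hx w hw
    obtain ⟨c, hc⟩ := as_poincare_succ hρ h1 q v fun y hy k => (hv y k).not_gt (h2 y hy)
    exact ⟨c, fun y k => not_lt.1 fun k' => hc y ((h3 y k').trans (half_lt_self hρ)) k⟩

end Crest.Agent.R217
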