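import Crest.Agent.R217.DDefs

/-! Row 217, part E: Alexander–Spanier cochains as functions on lists.
Definitions: DO NOT CHANGE (owner helper92); only fill in the proofs. -/

set_option autoImplicit false

namespace Crest.Agent.R217

open Filter Topology MeasureTheory

universe u

variable {Y : Type}

/-- the simplicial coboundary `∑ₖ (-1)ᵏ a (l without its k-th entry)` -/
noncomputable def rd : List Y → (List Y → ℂ) → ℂ
  | [], _ => 0
  | x :: l, a => a l - rd l fun l' => a (x :: l')

/-- the cup product `∑ₖ a (l.take (k+1)) * b (l.drop k)` -/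
noncomputable def cupR : List Y → (List Y → ℂ) → (List Y → ℂ) → ℂ
  | [], _, _ => 0
  | x :: l, a, b => a [x] * b (x :: l) + cupR l (fun l' => a (x :: l')) b

variable [TopologicalSpace Y]

/-- continuity in each length -/
def CtsL (a : List Y → ℂ) : Prop := ∀ q, Continuous fun v : Fin q → Y => a (List.ofFn v)

theorem CtsL.cons_param {T : Type} [TopologicalSpace T] {a : T → List Y → ℂ} {q : ℕ}
    (h : ∀ q, Continuous fun p : T × (Fin q → Y) => a p.1 (List.ofFn p.2)) :
    Continuous fun p : (T × Y) × (Fin q → Y) => a p.1.1 (p.1.2 :: List.ofFn p.2) := by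
  have h1 : Continuous fun p : (T × Y) × (Fin q → Y) =>
      (p.1.1, (Fin.cons p.1.2 p.2 : Fin (q + 1) → Y)) := by fun_prop
  simpa [Function.comp_def] using (h (q + 1)).comp h1

theorem edefs_rd (q : ℕ) : ∀ (T : Type) [TopologicalSpace T] (a : T → List Y → ℂ),
    (∀ q, Continuous fun p : T × (Fin q → Y) => a p.1 (List.ofFn p.2)) →
    Continuous fun p : T × (Fin q → Y) => rd (List.ofFn p.2) (a p.1) := by
  induction q with
  | zero => intro T _ a _; simpa [rd] using continuous_const
  | succ q ih =>
    intro T _ a h
    have h1 : Continuous fun p : T × (Fin (q + 1) → Y) => ((p.1, p.2 0), fun i : Fin q => p.2 i.succ) := by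
      fun_prop
    have h2 : Continuous fun p : T × (Fin (q + 1) → Y) => (p.1, fun i : Fin q => p.2 i.succ) := by
      fun_prop
    simp only [List.ofFn_succ, rd]
    exact ((h q).comp h2).sub ((ih (T × Y) (fun t l => a t.1 (t.2 :: l))
      fun _ => CtsL.cons_param h).comp h1)

theorem edefs_cup {b : List Y → ℂ} (hb : CtsL b) (q : ℕ) : ∀ (T : Type) [TopologicalSpace T]
    (a : T → List Y → ℂ), (∀ q, Continuous fun p : T × (Fin q → Y) => a p.1 (List.ofFn p.2)) →
    Continuous fun p : T × (Fin q → Y) => cupR (List.ofFn p.2) (a p.1) b := by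
  induction q with
  | zero => intro T _ a _; simpa [cupR] using continuous_const
  | succ q ih =>
    intro T _ a h
    have h1 : Continuous fun p : T × (Fin (q + 1) → Y) => ((p.1, p.2 0), fun i : Fin q => p.2 i.succ) := by
      fun_prop
    have h2 : Continuous fun p : T × (Fin (q + 1) → Y) => (p.1, fun _ : Fin 1 => p.2 0) := by
      fun_prop
    have h3 := (h 1).comp h2
    have h4 := (hb (q + 1)).comp (continuous_snd (X := T))
    simp only [Function.comp_def, List.ofFn_succ, List.ofFn_zero] at h3 h4
    simp only [List.ofFn_succ, cupR]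
    exact (h3.mul h4).add ((ih (T × Y) (fun t l => a t.1 (t.2 :: l))
      fun _ => CtsL.cons_param h).comp h1)

/-- prove the parametrised statement (`a : T → List Y → ℂ` jointly continuous, all `T`) by induction
on the length -/
theorem CtsL.rd {a : List Y → ℂ} (h : CtsL a) : CtsL fun l => rd l a := fun q =>
  (edefs_rd q Unit (fun _ => a) fun q => (h q).comp continuous_snd).comp
    (Continuous.prodMk_right ())

theorem CtsL.cupR {a b : List Y → ℂ} (ha : CtsL a) (hb : CtsL b) : CtsL fun l => cupR l a b :=
  fun q => (edefs_cup hb q Unit (fun _ => a) fun q => (ha q).comp continuous_snd).comp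
    (Continuous.prodMk_right ())

set_option linter.unusedSectionVars false in
theorem rd_add (l : List Y) (a b : List Y → ℂ) : rd l (a + b) = rd l a + rd l b := by
  induction l generalizing a b with
  | nil => simp [rd]
  | cons x l ih =>
    have := ih (fun l' => a (x :: l')) fun l' => b (x :: l')
    simp only [rd, Pi.add_apply, Pi.add_def] at this ⊢
    rw [this]; ring

set_option linter.unusedSectionVars false in
theorem rd_smul (l : List Y) (c : ℂ) (a : List Y → ℂ) : rd l (c • a) = c * rd l a := by
  induction l generalizing a with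
  | nil => simp [rd]
  | cons x l ih =>
    have := ih (fun l' => a (x :: l'))
    simp only [rd, Pi.smul_def, smul_eq_mul] at this ⊢
    rw [this]; ring

/-- cochains -/
def AS (Y : Type) [TopologicalSpace Y] : Submodule ℂ (List Y → ℂ) where
  carrier := {a | a [] = 0 ∧ CtsL a}
  add_mem' ha hb := ⟨by rw [Pi.add_apply, ha.1, hb.1, add_zero], fun q => (ha.2 q).add (hb.2 q)⟩
  zero_mem' := ⟨rfl, fun _ => continuous_const⟩
  smul_mem' c _ ha := ⟨by rw [Pi.smul_apply, ha.1, smul_zero], fun q => (ha.2 q).const_smul c⟩

/-- `a` vanishes near the diagonal at `w` -/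
def NullAt (a : List Y → ℂ) (w : Y) : Prop :=
  ∀ q, ∃ V ∈ 𝓝 w, ∀ l : List Y, l.length = q → (∀ y ∈ l, y ∈ V) → a l = 0

def asSM (Y : Type) [TopologicalSpace Y] : SM Y where
  V := AS Y
  supp a := {w | ¬NullAt a.1 w}
  supp_zero := Set.eq_empty_of_forall_notMem fun _ h =>
    h fun _ => ⟨Set.univ, univ_mem, fun _ _ _ => rfl⟩
  supp_add u v w h := by
    by_contra hc
    simp only [Set.mem_union, Set.mem_ofPred_eq, not_or, not_not] at hc
    refine h fun q => ?_
    obtain ⟨V, hV, h1⟩ := hc.1 q
    obtain ⟨V', hV', h2⟩ := hc.2 q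
    refine ⟨V ∩ V', inter_mem hV hV', fun l hl hy => ?_⟩
    change u.1 l + v.1 l = 0
    rw [h1 l hl fun y h => (hy y h).1, h2 l hl fun y h => (hy y h).2, add_zero]
  supp_smul c v w h hc := by
    refine h fun q => ?_
    obtain ⟨V, hV, h1⟩ := hc q
    refine ⟨V, hV, fun l hl hy => ?_⟩
    change c * v.1 l = 0
    rw [h1 l hl hy, mul_zero]

noncomputable def asD : AS Y →ₗ[ℂ] AS Y where
  toFun a := ⟨fun l => rd l a.1, rfl, a.2.2.rd⟩
  map_add' a b := Subtype.ext (funext fun l => rd_add l a.1 b.1)
  map_smul' c a := Subtype.ext (funext fun l => rd_smul l c a.1)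

/-- multiplication by `c q` in degree `q` (= length `q + 1`) -/
noncomputable def asGr (c : ℕ → ℂ) : AS Y →ₗ[ℂ] AS Y where
  toFun a := ⟨fun l => c (l.length - 1) * a.1 l, by
    refine ⟨mul_eq_zero_of_right _ a.2.1, fun q => ?_⟩
    simp only [List.length_ofFn]
    exact (a.2.2 q).const_mul _⟩
  map_add' a b := Subtype.ext (funext fun l => mul_add _ (a.1 l) (b.1 l))
  map_smul' d a := Subtype.ext (funext fun l => mul_left_comm _ d (a.1 l))

noncomputable def asπ (q : ℕ) : AS Y →ₗ[ℂ] AS Y := asGr fun p => if p = q then 1 else 0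

noncomputable def asCup (a b : AS Y) : AS Y := ⟨fun l => cupR l a.1 b.1, rfl, a.2.2.cupR b.2.2⟩

noncomputable def asConj (a : AS Y) : AS Y := 
  ⟨fun l => star (a.1 l), star_eq_zero.2 a.2.1, fun q => (a.2.2 q).star⟩

noncomputable def asOne (Y : Type) [TopologicalSpace Y] : AS Y :=
  ⟨fun l => if l.length = 1 then 1 else 0, if_neg (by simp), fun q => by
    simp only [List.length_ofFn]
    exact continuous_const⟩

section Avg

variable {H : Type u} [Group H] [TopologicalSpace H] [IsTopologicalGroup H] [CompactSpace H]

/-- the mean over a compact group -/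
noncomputable def avg (F : H → ℂ) : ℂ :=
  letI : MeasurableSpace H := borel H
  haveI : BorelSpace H := ⟨rfl⟩
  ∫ g, F g ∂(Measure.haarMeasure (⊤ : TopologicalSpace.PositiveCompacts H))

theorem edefs_prob [MeasurableSpace H] [BorelSpace H] :
    IsProbabilityMeasure (Measure.haarMeasure (⊤ : TopologicalSpace.PositiveCompacts H)) :=
  ⟨by rw [← TopologicalSpace.PositiveCompacts.coe_top, Measure.haarMeasure_self]⟩

theorem avg_add {F F' : H → ℂ} (h : Continuous F) (h' : Continuous F') :
    avg (fun g => F g + F' g) = avg F + avg F' := by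
  borelize H
  exact integral_add (h.integrable_of_hasCompactSupport (HasCompactSupport.of_compactSpace _))
    (h'.integrable_of_hasCompactSupport (HasCompactSupport.of_compactSpace _))

theorem avg_mul (c : ℂ) (F : H → ℂ) : avg (fun g => c * F g) = c * avg F := by
  borelize H
  exact integral_const_mul c F

theorem avg_const (c : ℂ) : avg (fun _ : H => c) = c := by
  borelize H
  have := edefs_prob (H := H)
  simp [avg]

theorem avg_star (F : H → ℂ) : avg (fun g => star (F g)) = star (avg F) := by
  borelize H
  exact integral_conj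

theorem avg_mul_left (F : H → ℂ) (h : H) : avg (fun g => F (h * g)) = avg F := by
  borelize H
  exact integral_mul_left_eq_self F h

set_option linter.unusedVariables false in
/-- compact groups are unimodular -/
theorem avg_mul_right [T2Space H] [SecondCountableTopology H] {F : H → ℂ} (hF : Continuous F) (h : H) :
    avg (fun g => F (g * h)) = avg F := by
  borelize H
  have := edefs_prob (H := H)
  have : (Measure.haarMeasure (⊤ : TopologicalSpace.PositiveCompacts H)).IsMulRightInvariant :=
    ⟨fun g => by
      have := Measure.isProbabilityMeasure_map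
        (μ := Measure.haarMeasure (⊤ : TopologicalSpace.PositiveCompacts H))
        (measurable_mul_const g).aemeasurable
      exact Measure.isHaarMeasure_eq_of_isProbabilityMeasure _ _⟩
  exact integral_mul_right_eq_self F h

theorem avg_continuous [SecondCountableTopology H] {T : Type} [TopologicalSpace T]
    [FirstCountableTopology T] [LocallyCompactSpace T] {F : T → H → ℂ}
    (h : Continuous fun p : T × H => F p.1 p.2) : Continuous fun t => avg (F t) := by
  borelize H
  have := continuous_parametric_integral_of_continuous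
    (μ := Measure.haarMeasure (⊤ : TopologicalSpace.PositiveCompacts H)) (f := F) h isCompact_univ
  simp only [Measure.restrict_univ] at this
  exact this

end Avg

/-- a unitary continuous character -/
structure UChar {H : Type u} [Group H] [TopologicalSpace H] (ψ : H →* ℂ) : Prop where
  cont : Continuous ψ
  unit : ∀ g, star (ψ g) * ψ g = 1

section E

variable {Z : Type} [MetricSpace Z] [CompactSpace Z]
  {H : Type u} [Group H] [TopologicalSpace H] [IsTopologicalGroup H] [CompactSpace H]
  [SecondCountableTopology H] [MulAction H Z] [ContinuousSMul H Z]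

omit [CompactSpace Z] [IsTopologicalGroup H] [CompactSpace H] [SecondCountableTopology H] in
theorem edefs_act {ψ : H →* ℂ} (hψ : UChar ψ) (a : AS Z) (q : ℕ) :
    Continuous fun p : (Fin q → Z) × H =>
      star (ψ p.2) * a.1 ((List.ofFn p.1).map fun y => p.2 • y) := by
  have h1 : Continuous fun p : (Fin q → Z) × H => fun i => p.2 • p.1 i := by fun_prop
  simp only [List.map_ofFn]
  exact (hψ.cont.comp continuous_snd).star.mul ((a.2.2 q).comp h1)

omit [CompactSpace Z] [IsTopologicalGroup H] [CompactSpace H] [SecondCountableTopology H] in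
theorem edefs_act' {ψ : H →* ℂ} (hψ : UChar ψ) (a : AS Z) (l : List Z) :
    Continuous fun g : H => star (ψ g) * a.1 (l.map fun y => g • y) := by
  simpa [Function.comp_def] using (edefs_act hψ a _).comp (Continuous.prodMk_right l.get)

/-- projection on the `ψ`-isotypic cochains -/
noncomputable def asE {ψ : H →* ℂ} (hψ : UChar ψ) : AS Z →ₗ[ℂ] AS Z where
  toFun a := ⟨fun l => avg fun g : H => star (ψ g) * a.1 (l.map fun y => g • y), by
    refine ⟨?_, fun q => avg_continuous (edefs_act hψ a q)⟩
    simp only [List.map_nil, a.2.1, mul_zero, avg_const]⟩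
  map_add' a b := Subtype.ext (funext fun l =>
    (congrArg avg (funext fun g => mul_add _ (a.1 _) (b.1 _))).trans
      (avg_add (edefs_act' hψ a l) (edefs_act' hψ b l)))
  map_smul' c a := Subtype.ext (funext fun l =>
    (congrArg avg (funext fun g => mul_left_comm _ c (a.1 _))).trans (avg_mul c _))

end E

/-- the signs `(-1)^(q(q-1)/2)` -/
noncomputable def sg : ℕ → ℂ
  | 0 => 1
  | q + 1 => (-1) ^ q * sg q

/-- the pairing attached to a functional -/
noncomputable def pairB (κ : ℂ) (lam : AS Y →ₗ[ℂ] ℂ) (a b : AS Y) : ℂ :=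
  star κ * lam (asCup (asConj (asGr sg a)) b)

namespace Geo

open CategoryTheory

variable {ι : Type} {n : ℕ} (G : Geo ι n) (K : Ctx G.P)

noncomputable abbrev D : Ob K := ⟨fun x => asSM (G.P x)⟩

noncomputable def Dd : G.D K ⟶ G.D K := hmk (G.D K) (G.D K) fun _ => asD

noncomputable def Dπ (q : ℕ) : G.D K ⟶ G.D K := hmk (G.D K) (G.D K) fun _ => asπ q

noncomputable def Dη : cst K ⟶ G.D K :=
  hmk (cst K) (G.D K) (spanF (A := (G.D K).A) fun x => asOne (G.P x))

end Geo

end Crest.Agent.R217
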