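import Crest.Agent.R217.FDefs
import Crest.Agent.R217.CStage

/-! Row 217, part F1: filters and contexts (`Ctx.Le.of_eps`, `Ctx.Le.of_fun` with `δ x` depending on
`x.1`). -/

set_option autoImplicit false

namespace Crest.Agent.R217

open Filter Topology CategoryTheory Metric

universe u

variable {n : ℕ}

theorem eventually_Fi {i : ℕ} {p : NN → Prop} : (∀ᶠ x in Fi i, p x) ↔ ∀ᶠ m in atTop, p (i, m) :=
  Iff.rfl

theorem eventually_Fg {good : Set ℕ} {p : NN → Prop} :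
    (∀ᶠ x in Fg good, p x) ↔ ∀ i ∈ good, ∀ᶠ m in atTop, p (i, m) := by
  simp only [Fg, eventually_iSup, eventually_Fi]

theorem eventually_Fc {p : NN → Prop} :
    (∀ᶠ x in Fc, p x) ↔ ∀ᶠ i in atTop, ∀ᶠ m in atTop, p (i, m) := Iff.rfl

theorem eventually_of_F0 {p : NN → Prop} (h : ∀ᶠ x in F0, p x) (i : ℕ) : ∀ᶠ m in atTop, p (i, m) :=
  (eventually_comap.1 h).mono fun _ hm => hm _ rfl

theorem Fc_neBot : Fc.NeBot := by
  refine ⟨fun h => ?_⟩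
  have h1 : ∀ᶠ x in Fc, False := by rw [h]; exact eventually_bot
  obtain ⟨i, hi⟩ := (eventually_Fc.1 h1).exists
  exact hi.exists.elim fun _ h => h

theorem mic_Fi (i : ℕ) : Mic (Fi i) := fun _ hA => eventually_Fi.2 (eventually_of_F0 (hA i) i)

theorem mic_Fg (good : Set ℕ) : Mic (Fg good) :=
  fun _ hA => eventually_Fg.2 fun i _ => eventually_of_F0 (hA i) i

theorem mic_Fc : Mic Fc :=
  fun _ hA => eventually_Fc.2 (.of_forall fun i => eventually_of_F0 (hA i) i)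

theorem Mic.le {F : Filter NN} (h : Mic F) : F ≤ F0 := fun A hA => h (fun _ => A) fun _ => hA

theorem Fi_le_Fg {good : Set ℕ} {i : ℕ} (h : i ∈ good) : Fi i ≤ Fg good :=
  le_iSup₂_of_le i h le_rfl

theorem Fc_le_Fg {good : Set ℕ} (h : ∀ᶠ i in atTop, i ∈ good) : Fc ≤ Fg good :=
  fun _ hA => eventually_Fc.2 (h.mono fun i hi => eventually_Fg.1 hA i hi)

theorem hasW_of_le {F : Filter NN} (h : F ≤ F0) : HasW F :=
  ⟨Prod.snd, tendsto_comap.mono_left h⟩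

theorem tendsto_M (Δ : ℕ → Dat.{u} n) {F : Filter NN} (h : F ≤ F0) : Tendsto (geo Δ).M F atTop :=
  (tendsto_add_atTop_nat 1).comp (tendsto_comap.mono_left h)

/-- compactness of `H × closedBall o R`; `Wᶜ` is non-empty -/
theorem Dat.margin (D : Dat.{u} n) (hn : 0 < n) : ∃ δ > (0 : ℝ), ∀ (g : D.H) (y : D.W),
    y.1 ∈ closedBall D.o D.R → δ ≤ infDist (g • y).1 D.Wᶜ := by
  have : Nonempty (Fin n) := ⟨⟨0, hn⟩⟩
  have hne : D.Wᶜ.Nonempty := Set.nonempty_compl.2 D.cW.ne_univ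
  have hc : IsCompact {p : D.H × D.W | p.2.1 ∈ closedBall D.o D.R} :=
    (isClosed_closedBall.preimage (by fun_prop)).isCompact
  obtain ⟨δ, hδ, h⟩ := hc.exists_forall_le' (f := fun p => infDist (p.1 • p.2).1 D.Wᶜ) (a := 0)
    ((continuous_infDist_pt _).comp (f := fun p : D.H × D.W => (p.1 • p.2).1)
      (by fun_prop)).continuousOn fun p hp =>
      (infDist_pos_iff_notMem_closure hne).1 (by
        rw [closure_compl]
        exact fun h => h (D.int p.1 p.2 hp))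
  exact ⟨δ, hδ, fun g y hy => h (g, y) hy⟩

theorem Dat.margin' (D : Dat.{u} n) : ∃ δ > (0 : ℝ), ∀ y : D.W, ‖D.f y - D.β‖ ≤ D.S →
    δ ≤ D.R - dist y.1 D.o := by
  have hf := D.f_cont
  have hc : IsCompact {y : D.W | ‖D.f y - D.β‖ ≤ D.S} :=
    (isClosed_le (by fun_prop) continuous_const).isCompact
  exact hc.exists_forall_le' (f := fun y => D.R - dist y.1 D.o) (a := 0) (by fun_prop)
    fun y hy => sub_pos.2 (D.pre y hy)

theorem Dat.ball_sub (D : Dat.{u} n) : closedBall (0 : Fin n → ℝ) 12 ⊆ closedBall D.o D.R :=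
  closedBall_subset_closedBall' (by rw [dist_comm, dist_zero_right]; linarith [D.hR])

variable {Δ : ℕ → Dat.{u} n}

/-- `Ctx.Le.of_fun` with a modulus depending on the datum -/
theorem f1_le {K K' : Ctx (geo Δ).P} (hF : K'.F ≤ K.F)
    (hA : ∀ A : ℕ → Set NN, (∀ i, A i ∈ K.F) → ∀ᶠ x in K'.F, x ∈ A x.1)
    (h : ∀ ε > (0 : ℝ), ∀ i, ∃ δ > (0 : ℝ), ∀ m,
      (∀ a b, K.d (i, m) a b < δ → K'.d (i, m) a b < ε) ∧
        ∀ a, K.dep (i, m) a < δ → K'.dep (i, m) a < ε) : K.Le K' := by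
  refine Ctx.Le.of_fun hF fun ε hε => ?_
  choose δ hδ h using h ε hε
  exact ⟨fun x => δ x.1, fun A hA' => hA (fun i => A (δ i)) fun i => hA' _ (hδ i),
    .of_forall fun x => h x.1 x.2⟩

/-- uniform continuity of `f` -/
theorem f1_unif (D : Dat.{u} n) {ε : ℝ} (hε : 0 < ε) : ∃ δ > (0 : ℝ), ∀ a b : D.W,
    dist a b < δ → ‖D.f a - D.f b‖ < ε := by
  obtain ⟨δ, hδ, h⟩ := Metric.uniformContinuous_iff.1
    (CompactSpace.uniformContinuous_of_continuous D.f_cont) ε hε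
  exact ⟨δ, hδ, fun a b hab => by rw [← dist_eq_norm]; exact h hab⟩

theorem f1_orb (D : Dat.{u} n) (c : (Fin n → ℝ) → Fin n → ℝ) (g : D.H) (y : D.W) :
    max (dH D (g • y) y) ‖c (D.f (g • y)) - c (D.f y)‖ = 0 := by
  rw [dH_smul, D.f_inv, sub_self, norm_zero, max_self]

theorem le_K1 (hn : 0 < n) {F : Filter NN} (h : Mic F) : (KE Δ).Le (K1 Δ F) := by
  refine f1_le h.le h fun ε hε i => ?_
  obtain ⟨δ, hδ, h1⟩ := (Δ i).margin hn
  refine ⟨min ε δ, lt_min hε hδ, fun m => ⟨fun a b hab => hab.trans_le (min_le_left _ _),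
    fun a ha => ?_⟩⟩
  change (Δ i).R - dist a.1 (Δ i).o < ε
  have h2 : a.1 ∉ closedBall (Δ i).o (Δ i).R := fun h2 => by
    have h3 : ∀ y : (Δ i).W, y.1 ∈ closedBall (Δ i).o (Δ i).R → δ ≤ infDist y.1 (Δ i).Wᶜ :=
      fun y hy => by simpa only [one_smul] using h1 1 y hy
    exact (ha.trans_le (min_le_right _ _)).not_ge (h3 a h2)
  rw [mem_closedBall, not_le] at h2
  linarith

theorem K1_le_KH (good : Set ℕ) : (K1 Δ (Fg good)).Le (KH Δ (Fg good)) := by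
  refine f1_le le_rfl (fun A hA => eventually_Fg.2 fun i hi => eventually_Fg.1 (hA i) i hi)
    fun ε hε i => ?_
  obtain ⟨δ₁, h₁, a₁⟩ := dH_lt (Δ i) hε
  obtain ⟨δ₂, h₂, a₂⟩ := f1_unif (Δ i) hε
  obtain ⟨δ₃, h₃, a₃⟩ := (Δ i).margin'
  refine ⟨min (min δ₁ δ₂) δ₃, by positivity, fun m => ⟨fun a b hab => ?_, fun a ha => ?_⟩⟩
  · have hab' : dist a.1 b.1 < min (min δ₁ δ₂) δ₃ := hab
    simp only [lt_min_iff] at hab'
    refine max_lt (a₁ a b hab'.1.1) ?_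
    rw [sub_sub_sub_cancel_right]
    exact a₂ a b hab'.1.2
  · change (Δ i).S - ‖(Δ i).f a - (Δ i).β‖ < ε
    have h2 : ¬ ‖(Δ i).f a - (Δ i).β‖ ≤ (Δ i).S := fun h2 =>
      (ha.trans_le (min_le_right _ _)).not_ge (a₃ a h2)
    linarith [not_le.1 h2]

theorem orb_KH (hn : 0 < n) (good : Set ℕ) : OrbCtx Δ (KH Δ (Fg good)) := by
  refine ⟨(le_K1 hn (mic_Fg good)).trans (K1_le_KH good), fun x g y => ?_⟩
  exact f1_orb (Δ x.1) (fun v => v - (Δ x.1).β) g y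

theorem KH_le_coord {F F' : Filter NN} (h : F' ≤ F) : (KH Δ F).Le (coord F' (cf Δ)) := by
  refine Ctx.Le.of_eps h (fun ε hε => ⟨ε, hε, .of_forall fun x a b hab => ?_⟩)
    fun ε hε => ⟨ε, hε, .of_forall fun x a ha => ?_⟩
  · have h1 := (le_max_right _ _).trans_lt hab
    rwa [sub_sub_sub_cancel_right] at h1
  · change (Δ x.1).S - ‖cf Δ x a - (Δ x.1).β‖ < ε at ha
    change 10 - ‖cf Δ x a‖ < ε
    linarith [norm_sub_le (cf Δ x a) (Δ x.1).β, (Δ x.1).hS]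

theorem orb_KM (hn : 0 < n) : OrbCtx Δ (KM Δ) := by
  refine ⟨(orb_KH hn Set.univ).le.trans
    (KH_le_coord (Fc_le_Fg (.of_forall fun _ => trivial))), fun x g y => ?_⟩
  exact norm_eq_zero.2 (sub_eq_zero.2 ((Δ x.1).f_inv g y))

theorem f1_dep {s S ε : ℝ} {f β b : Fin n → ℝ} (hs : 0 < s) (hb : ‖b - β‖ + 10 * s ≤ S)
    (h : S - ‖f - β‖ < ε * s) : 10 - ‖s⁻¹ • (f - b)‖ < ε := by
  have h1 := norm_sub_le_norm_sub_add_norm_sub f b β
  rw [norm_smul, norm_inv, Real.norm_of_nonneg hs.le, sub_lt_comm, ← div_eq_inv_mul,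
    lt_div_iff₀ hs]
  linarith

theorem f1_d {s ε : ℝ} {f f' β b : Fin n → ℝ} (hs : 0 < s) (h : ‖f - β - (f' - β)‖ < ε * s) :
    ‖s⁻¹ • (f - b) - s⁻¹ • (f' - b)‖ < ε := by
  rw [sub_sub_sub_cancel_right] at h
  rwa [← smul_sub, sub_sub_sub_cancel_right, norm_smul, norm_inv, Real.norm_of_nonneg hs.le,
    ← div_eq_inv_mul, div_lt_iff₀ hs]

/-- `‖t • b - β‖ + 10 (1 + t (ρ - 1)) ≤ S` by convexity -/
theorem KH_le_path {F : Filter NN} {i : ℕ} (h : Fi i ≤ F) {ρ : ℝ} (hρ : 0 < ρ) (hρ1 : ρ ≤ 1)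
    (hb : ‖(Δ i).b - (Δ i).β‖ + 10 * ρ ≤ (Δ i).S) {t : ℝ} (ht : t ∈ Set.Icc (0 : ℝ) 1) :
    (KH Δ F).Le (coord (Fi i) fun x y => (1 + t * (ρ - 1))⁻¹ • (cf Δ x y - t • (Δ i).b)) := by
  obtain ⟨ht0, ht1⟩ := ht
  have hs : 0 < 1 + t * (ρ - 1) := by nlinarith
  have hb' : ‖t • (Δ i).b - (Δ i).β‖ + 10 * (1 + t * (ρ - 1)) ≤ (Δ i).S := by
    have e : t • (Δ i).b - (Δ i).β = t • ((Δ i).b - (Δ i).β) - (1 - t) • (Δ i).β := by module
    have h1 := norm_sub_le (t • ((Δ i).b - (Δ i).β)) ((1 - t) • (Δ i).β)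
    rw [← e, norm_smul, norm_smul, Real.norm_of_nonneg ht0,
      Real.norm_of_nonneg (sub_nonneg.2 ht1)] at h1
    nlinarith [mul_le_mul_of_nonneg_left hb ht0,
      mul_le_mul_of_nonneg_left (Δ i).hS (sub_nonneg.2 ht1)]
  exact Ctx.Le.of_eps h (fun ε hε => ⟨_, mul_pos hε hs, .of_forall fun x a b hab =>
      f1_d hs ((le_max_right _ _).trans_lt hab)⟩)
    fun ε hε => ⟨_, mul_pos hε hs, eventually_Fi.2 (.of_forall fun m a ha => f1_dep hs hb' ha)⟩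

theorem KH_le_KT {F : Filter NN} {i : ℕ} (h : Fi i ≤ F) {ρ : ℝ} (hρ : 0 < ρ)
    (hb : ‖(Δ i).b - (Δ i).β‖ + 10 * ρ ≤ (Δ i).S) : (KH Δ F).Le (KT Δ i ρ) := by
  refine Ctx.Le.of_eps h (fun ε hε => ⟨min ε (ε * ρ), by positivity, .of_forall fun x a b hab => ?_⟩)
    fun ε hε => ⟨_, mul_pos hε hρ, eventually_Fi.2 (.of_forall fun m a ha => f1_dep hρ hb ha)⟩
  exact max_lt (((le_max_left _ _).trans_lt hab).trans_le (min_le_left _ _))
    (f1_d hρ (((le_max_right _ _).trans_lt hab).trans_le (min_le_right _ _)))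

theorem KT_le_coord (i : ℕ) (ρ : ℝ) : (KT Δ i ρ).Le (coord (Fi i) (cb Δ i ρ)) :=
  Ctx.Le.of_eps le_rfl
    (fun ε hε => ⟨ε, hε, .of_forall fun _ _ _ hab => (le_max_right _ _).trans_lt hab⟩)
    fun ε hε => ⟨ε, hε, .of_forall fun _ _ ha => ha⟩

theorem orb_KT (hn : 0 < n) {i : ℕ} {ρ : ℝ} (hρ : 0 < ρ)
    (hb : ‖(Δ i).b - (Δ i).β‖ + 10 * ρ ≤ (Δ i).S) : OrbCtx Δ (KT Δ i ρ) := by
  refine ⟨(orb_KH hn Set.univ).le.trans (KH_le_KT (Fi_le_Fg (Set.mem_univ i)) hρ hb), fun x g y => ?_⟩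
  exact f1_orb (Δ x.1) (fun v => ρ⁻¹ • (v - (Δ i).b)) g y

theorem bal_K1 (F : Filter NN) : (geo Δ).Bal (K1 Δ F) := by
  intro ε hε
  refine ⟨ε / 2, half_pos hε, ε / 2 / 2, half_pos (half_pos hε), .of_forall fun x w hw =>
    ⟨?_, fun w' h => h.trans_lt (half_lt_self hε), fun w' h => h⟩⟩
  have h2 : ε ≤ (Δ x.1).R - dist w.1 (Δ x.1).o := hw
  exact (closedBall_subset_closedBall' (by linarith)).trans (Δ x.1).sub

/-- `ρ = min (ε / 2) 1`, `δ = ρ / 4`, and `‖f y - y‖ ≤ ρ / 10` eventually -/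
theorem bal_KM (h : SmallSeq Δ) : (geo Δ).Bal (KM Δ) := by
  intro ε hε
  obtain ⟨ρ, h0, h1, h2⟩ : ∃ ρ : ℝ, 0 < ρ ∧ ρ ≤ ε / 2 ∧ ρ ≤ 1 :=
    ⟨_, lt_min (half_pos hε) one_pos, min_le_left _ _, min_le_right _ _⟩
  refine ⟨ρ, h0, ρ / 4, by positivity, eventually_Fc.2 ((h (ρ / 10) (by positivity)).mono
    fun i hi => .of_forall fun m w hw => ?_)⟩
  have a1 : ε ≤ 10 - ‖(Δ i).f w‖ := hw
  have a2 := hi w (Or.inr (by linarith))
  have a3 : ‖w.1‖ ≤ 11 := by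
    have := norm_sub_norm_le w.1 ((Δ i).f w)
    rw [norm_sub_rev] at this
    linarith
  refine ⟨(closedBall_subset_closedBall' ?_).trans ((Δ i).ball_sub.trans (Δ i).sub),
    fun w' hw' => ?_, fun w' hw' => ?_⟩
  · rw [dist_zero_right]
    linarith
  · change ‖(Δ i).f w - (Δ i).f w'‖ < ε
    rw [dist_eq_norm] at hw'
    have b1 := norm_sub_norm_le w'.1 w.1
    rw [norm_sub_rev] at b1
    have b2 := hi w' (Or.inl (by linarith))
    have b3 := norm_sub_le_norm_sub_add_norm_sub ((Δ i).f w) w.1 ((Δ i).f w')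
    have b4 := norm_sub_le_norm_sub_add_norm_sub w.1 w'.1 ((Δ i).f w')
    rw [norm_sub_rev w'.1] at b4
    linarith
  · change ‖(Δ i).f w - (Δ i).f w'‖ < ρ / 4 at hw'
    rw [dist_eq_norm]
    have b1 := norm_sub_norm_le ((Δ i).f w') ((Δ i).f w)
    rw [norm_sub_rev] at b1
    have b2 := hi w' (Or.inr (by linarith))
    have b3 := norm_sub_le_norm_sub_add_norm_sub w.1 ((Δ i).f w) w'.1
    have b4 := norm_sub_le_norm_sub_add_norm_sub ((Δ i).f w) ((Δ i).f w') w'.1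
    rw [norm_sub_rev w.1 ((Δ i).f w)] at b3
    linarith

theorem cf_bdd (i : ℕ) : ∃ C : ℝ, ∀ᶠ x in Fi i, ∀ y, ‖cf Δ x y‖ ≤ C := by
  obtain ⟨C, hC⟩ := (isCompact_range (Δ i).f_cont).isBounded.exists_norm_le
  exact ⟨C, eventually_Fi.2 (.of_forall fun m y => hC _ ⟨y, rfl⟩)⟩

theorem latCtx_of_le {K : Ctx (geo Δ).P} (h : (KE Δ).Le K) :
    LatCtx (K.comap (geo Δ).loc0) (geo Δ).pos :=
  ((geo Δ).latCtx_K0 (tendsto_M Δ le_rfl)).le (h.comap _)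

end Crest.Agent.R217
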