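import Crest.Agent.R217.F1

/-! Row 217, part F2: the homotopy idempotent `E = r e j` (apply `resH` to the fields of `JR`, then
compute in the category and apply `toR`). -/

set_option autoImplicit false

namespace Crest.Agent.R217

open Filter Topology CategoryTheory Metric

universe u

variable {n : ℕ} {Δ : ℕ → Dat.{u} n} (J : JR (geo Δ) F0) {K K' : Ctx (geo Δ).P}

theorem jK_eq : jK J K = hmk ((geo Δ).N K) ((geo Δ).D K) (jF J) := rfl

theorem rK_eq : rK J K = hmk ((geo Δ).D K) ((geo Δ).N K) (rF J) := rfl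

theorem ctrl_jF (h : (KE Δ).Le K) : Ctrl K (A := ((geo Δ).N K).A) (B := ((geo Δ).D K).A) (jF J) :=
  (hrep_ctrl J.j).le h

theorem ctrl_rF (h : (KE Δ).Le K) : Ctrl K (A := ((geo Δ).D K).A) (B := ((geo Δ).N K).A) (rF J) :=
  (hrep_ctrl J.r).le h

theorem resH_jK (h : (KE Δ).Le K) (h' : K.Le K') : resH K' (jK J K) = jK J K' :=
  resH_hmk (X := (geo Δ).N K) (Y := (geo Δ).D K) h' (ctrl_jF J h)

theorem η_jK (h : (KE Δ).Le K) : (geo Δ).Nη K ≫ jK J K = (geo Δ).Dη K := by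
  have := congrArg (resH K) J.ηj
  rw [resH_comp h, (geo Δ).resH_Nη h, (geo Δ).resH_Dη h] at this
  exact this

theorem η_rK (h : (KE Δ).Le K) : (geo Δ).Dη K ≫ rK J K = (geo Δ).Nη K := by
  have := congrArg (resH K) J.ηr
  rw [resH_comp h, (geo Δ).resH_Nη h, (geo Δ).resH_Dη h] at this
  exact this

theorem d_jK (h : (KE Δ).Le K) : (geo Δ).Nd K ≫ jK J K = jK J K ≫ (geo Δ).Dd K := by
  have := congrArg (resH K) J.jd
  rw [resH_comp h, resH_comp h, (geo Δ).resH_Nd (latCtx_of_le (Ctx.Le.refl _)) h,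
    (geo Δ).resH_Dd h] at this
  exact this

theorem d_rK (h : (KE Δ).Le K) : (geo Δ).Dd K ≫ rK J K = rK J K ≫ (geo Δ).Nd K := by
  have := congrArg (resH K) J.rd
  rw [resH_comp h, resH_comp h, (geo Δ).resH_Nd (latCtx_of_le (Ctx.Le.refl _)) h,
    (geo Δ).resH_Dd h] at this
  exact this

theorem π_jK (h : (KE Δ).Le K) (q : ℕ) : (geo Δ).Nπ K q ≫ jK J K = jK J K ≫ (geo Δ).Dπ K q := by
  have := congrArg (resH K) (J.jπ q)
  rw [resH_comp h, resH_comp h, (geo Δ).resH_Nπ h, (geo Δ).resH_Dπ h] at this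
  exact this

theorem π_rK (h : (KE Δ).Le K) (q : ℕ) : (geo Δ).Dπ K q ≫ rK J K = rK J K ≫ (geo Δ).Nπ K q := by
  have := congrArg (resH K) (J.rπ q)
  rw [resH_comp h, resH_comp h, (geo Δ).resH_Nπ h, (geo Δ).resH_Dπ h] at this
  exact this

/-- `supp_asE`, `ctrl_of_zero` -/
theorem ctrl_e (h : OrbCtx Δ K) (c : CF Δ) :
    Ctrl K (A := ((geo Δ).D K).A) (B := ((geo Δ).D K).A) c.e :=
  ctrl_of_zero (.of_forall fun x v w hw => by
    obtain ⟨g, hg⟩ := supp_asE (c.u x.1) v hw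
    exact ⟨g • w, hg, (K.d_symm x _ _).trans (h.orb x g w)⟩)

theorem d_eH (h : OrbCtx Δ K) (c : CF Δ) : (geo Δ).Dd K ≫ c.eH K = c.eH K ≫ (geo Δ).Dd K := by
  refine (hmk_comp (geo Δ).ctrl_asD (ctrl_e h c)).trans
    (Eq.trans ?_ (hmk_comp (ctrl_e h c) (geo Δ).ctrl_asD).symm)
  exact congrArg _ (funext fun x => LinearMap.ext fun a => asE_asD (c.u x.1) a)

theorem π_eH (h : OrbCtx Δ K) (c : CF Δ) (q : ℕ) :
    (geo Δ).Dπ K q ≫ c.eH K = c.eH K ≫ (geo Δ).Dπ K q := by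
  refine (hmk_comp ((geo Δ).ctrl_asπ q) (ctrl_e h c)).trans
    (Eq.trans ?_ (hmk_comp (ctrl_e h c) ((geo Δ).ctrl_asπ q)).symm)
  exact congrArg _ (funext fun x => LinearMap.ext fun a => asE_asGr (c.u x.1) _ a)

theorem eH_eH (h : OrbCtx Δ K) (c : CF Δ) : c.eH K ≫ c.eH K = c.eH K :=
  (hmk_comp (ctrl_e h c) (ctrl_e h c)).trans
    (congrArg _ (funext fun x => LinearMap.ext fun a => asE_asE (c.u x.1) a))

theorem η_eH_one (h : OrbCtx Δ K) : (geo Δ).Dη K ≫ (CF.one Δ).eH K = (geo Δ).Dη K := by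
  refine (hmk_comp (ctrl_cst _) (ctrl_e h _)).trans (congrArg _ (funext fun x => ?_))
  refine LinearMap.ext fun a : ℂ => ?_
  exact (map_smul _ a _).trans (congrArg (a • ·) (asE_one ((CF.one Δ).u x.1)))

theorem η_eH_chi (h : OrbCtx Δ K) : (geo Δ).Dη K ≫ (CF.chi Δ).eH K = 0 := by
  refine (hmk_comp (ctrl_cst _) (ctrl_e h _)).trans
    (Eq.trans (congrArg _ (funext fun x => ?_)) hmk_zero)
  refine LinearMap.ext fun a : ℂ => ?_
  exact (map_smul _ a _).trans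
    ((congrArg (a • ·) (asE_one_of_ne ((CF.chi Δ).u x.1) (Δ x.1).χ_ne)).trans (smul_zero a))

/-- `j ≫ e = j ≫ e ≫ ϖ n` (`π_jK`, `π_eH`, `NCx_ϖ`), then `JR.htpy` -/
theorem jerj (h : OrbCtx Δ K) (c : CF Δ) : jK J K ≫ c.eH K ≫ rK J K ≫ jK J K =
    jK J K ≫ c.eH K + ((geo Δ).Nd K ≫ (jK J K ≫ c.eH K ≫ sK J K) +
      (jK J K ≫ c.eH K ≫ sK J K) ≫ (geo Δ).Dd K) := by
  have h1 : ((geo Δ).DCx K).ϖ n ≫ (rK J K ≫ jK J K - 𝟙 _) =
      ((geo Δ).DCx K).ϖ n ≫ ((geo Δ).Dd K ≫ sK J K + sK J K ≫ (geo Δ).Dd K) := by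
    have a0 : (∑ q ∈ Finset.range (n + 1), (geo Δ).Dπ (KE Δ) q) ≫ (J.r ≫ J.j - 𝟙 _) =
        (∑ q ∈ Finset.range (n + 1), (geo Δ).Dπ (KE Δ) q) ≫
          ((geo Δ).Dd _ ≫ J.s + J.s ≫ (geo Δ).Dd _) := J.htpy
    have a1 : resH K (∑ q ∈ Finset.range (n + 1), (geo Δ).Dπ (KE Δ) q) = ((geo Δ).DCx K).ϖ n :=
      (geo Δ).resH_Dϖ h.le n
    have := congrArg (resH K) a0
    rw [resH_comp h.le, resH_comp h.le, a1, resH_sub h.le, resH_add h.le, resH_comp h.le,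
      resH_comp h.le, resH_comp h.le, resH_id h.le, (geo Δ).resH_Dd h.le] at this
    exact this
  have h2 : (jK J K ≫ c.eH K) ≫ (∑ q ∈ Finset.range (n + 1), (geo Δ).Dπ K q) = jK J K ≫ c.eH K := by
    have h3 : (∑ q ∈ Finset.range (n + 1), (geo Δ).Nπ K q) = 𝟙 _ :=
      (geo Δ).NCx_ϖ (latCtx_of_le h.le)
    conv_rhs => rw [← Category.id_comp (jK J K ≫ c.eH K), ← h3]
    rw [Preadditive.comp_sum, Preadditive.sum_comp]
    refine Finset.sum_congr rfl fun q _ => ?_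
    rw [Category.assoc, ← π_eH h, ← Category.assoc, ← π_jK J h.le, Category.assoc]
  have h4 : (jK J K ≫ c.eH K) ≫ (rK J K ≫ jK J K - 𝟙 _) =
      (jK J K ≫ c.eH K) ≫ ((geo Δ).Dd K ≫ sK J K + sK J K ≫ (geo Δ).Dd K) := by
    rw [← h2, Category.assoc, Category.assoc _ (∑ q ∈ Finset.range (n + 1), (geo Δ).Dπ K q)]
    exact congrArg _ h1
  rw [Preadditive.comp_sub, Category.comp_id, sub_eq_iff_eq_add', Category.assoc] at h4
  rw [h4, Preadditive.comp_add, ← Category.assoc ((geo Δ).Nd K), d_jK J h.le]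
  simp only [Category.assoc]
  rw [← Category.assoc ((geo Δ).Dd K), d_eH h, Category.assoc]

theorem mc_EM (h : OrbCtx Δ K) (c : CF Δ) : MC (K.comap (geo Δ).loc) (EM J c) :=
  mc_finMat (K := K) (loc := (geo Δ).loc)
    ((ctrl_jF J h.le).comp ((ctrl_e h c).comp (ctrl_rF J h.le)))

theorem ER_eq (h : OrbCtx Δ K) (c : CF Δ) : ER J K c = toR (jK J K ≫ c.eH K ≫ rK J K) := by
  have h1 := (ctrl_e h c).comp (ctrl_rF J h.le)
  have h2 : c.eH K ≫ rK J K = _ := hmk_comp (ctrl_e h c) (ctrl_rF J h.le)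
  have h3 := hmk_comp (X := (geo Δ).N K) (Y := (geo Δ).D K) (Z := (geo Δ).N K) (ctrl_jF J h.le) h1
  have h4 := toR_hmk (K := K) (loc := (geo Δ).loc) ((ctrl_jF J h.le).comp h1)
  rw [h2]
  exact ((congrArg (toR (K := K) (loc := (geo Δ).loc)) h3).trans h4).symm

theorem toR_Nd : toR ((geo Δ).Nd K) = dR K := toR_ofR _

theorem ER_d (h : OrbCtx Δ K) (c : CF Δ) : dR K * ER J K c = ER J K c * dR K := by
  rw [ER_eq J h, ← toR_Nd, ← toR_comp, ← toR_comp, ← Category.assoc ((geo Δ).Nd K), d_jK J h.le]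
  simp only [Category.assoc]
  rw [← d_rK J h.le, ← Category.assoc ((geo Δ).Dd K), d_eH h, Category.assoc]

theorem ER_idem (h : OrbCtx Δ K) (c : CF Δ) :
    ∃ t, ER J K c * ER J K c - ER J K c = dR K * t + t * dR K := by
  refine ⟨toR ((jK J K ≫ c.eH K ≫ sK J K) ≫ c.eH K ≫ rK J K), ?_⟩
  rw [ER_eq J h, ← toR_Nd, ← toR_comp, ← toR_comp, ← toR_comp, ← toR_sub, ← toR_add]
  congr 1
  have h1 := congrArg (· ≫ c.eH K ≫ rK J K) (jerj J h c)
  simp only [Preadditive.add_comp, Category.assoc] at h1 ⊢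
  rw [h1, ← Category.assoc (c.eH K) (c.eH K), eH_eH h, add_sub_cancel_left, add_comm,
    ← Category.assoc ((geo Δ).Dd K), d_eH h, Category.assoc, d_rK J h.le]

theorem res_ER (h : OrbCtx Δ K) (h' : K.Le K') (c : CF Δ) :
    res (K'.comap (geo Δ).loc) (ER J K c) = ER J K' c :=
  res_mk (h'.comap _) (mc_EM J h c)

theorem res_XF (h : OrbCtx Δ K) (h' : K.Le K') (c : CF Δ) :
    res ((K'.comap (geo Δ).loc).prod fun _ => Fin 2) (XF J K c) = XF J K' c := by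
  have h1 := h'.comap (geo Δ).loc
  have h2 := (geo Δ).res_lt (latCtx_of_le h.le) h'
  rw [XF, res_blk h1, XF]
  congr 1
  ext s t
  fin_cases s <;> fin_cases t
  · show res _ (frm _ _) = frm _ _
    rw [frm, frm, res_sub h1, res_add h1, res_mul h1, res_mul h1, res_star h1, h2, res_ER J h h']
  · show res _ (star _) = star _
    rw [res_star h1, h2]
  · exact h2 _
  · exact res_zero h1

end Crest.Agent.R217
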