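import Crest.Agent.R217.F2
import Crest.Agent.R217.DStd

/-! Row 217, part F3: the macroscopic computation. -/

set_option autoImplicit false

namespace Crest.Agent.R217

open Filter Topology CategoryTheory Metric

universe u

variable {n : ℕ} {Δ : ℕ → Dat.{u} n} (J : JR (geo Δ) F0)

theorem f3_htpy (hn : 0 < n) (h : SmallSeq Δ) (F : (geo Δ).N (KM Δ) ⟶ (geo Δ).N (KM Δ))
    (hF : (geo Δ).Nd (KM Δ) ≫ F = F ≫ (geo Δ).Nd (KM Δ)) (h0 : (geo Δ).Nη (KM Δ) ≫ F = 0) :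
    ∃ s, toR F = dR (KM Δ) * s + s * dR (KM Δ) := by
  have hL := latCtx_of_le (orb_KM (Δ := Δ) hn).le
  obtain ⟨s : (geo Δ).N (KM Δ) ⟶ (geo Δ).N (KM Δ), hs⟩ := exists_htpy (K := KM Δ)
    (hasW_of_le mic_Fc.le) ((geo Δ).NCx hL)
    ((geo Δ).N_res hL (bal_KM h) (tendsto_M Δ mic_Fc.le)) (B := (geo Δ).N (KM Δ)) fine_fin
    ((geo Δ).Nd (KM Δ)) ((geo Δ).NCx hL).DD F hF h0 n
  rw [(geo Δ).NCx_ϖ hL] at hs
  have hs' : F = (geo Δ).Nd (KM Δ) ≫ s + s ≫ (geo Δ).Nd (KM Δ) :=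
    (Category.id_comp _).symm.trans (hs.trans (Category.id_comp _))
  refine ⟨toR (K := KM Δ) (loc := (geo Δ).loc) s, ?_⟩
  rw [hs', toR_add, toR_comp, toR_comp, toR_Nd, add_comm]

theorem f3_chain (hn : 0 < n) (c : CF Δ) :
    (geo Δ).Nd (KM Δ) ≫ jK J (KM Δ) ≫ c.eH (KM Δ) ≫ rK J (KM Δ) =
      (jK J (KM Δ) ≫ c.eH (KM Δ) ≫ rK J (KM Δ)) ≫ (geo Δ).Nd (KM Δ) := by
  have ho := orb_KM (Δ := Δ) hn
  rw [← Category.assoc, d_jK J ho.le, Category.assoc, ← Category.assoc ((geo Δ).Dd _),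
    d_eH ho, Category.assoc, d_rK J ho.le]
  simp only [Category.assoc]

theorem f3_iso {ι : Type} {I : ι → Type} [∀ x, Fintype (I x)] [∀ x, DecidableEq (I x)]
    {F : Filter ι} {c : ∀ x, I x → Fin n → ℝ} {K : Ctx I} (hP : Pk F n) (hK : K.Le (coord F c))
    {φ : R K} (r : Reg φ) {u v : Matrix (Fin 2) (Fin 2) (R K)} (h1 : u * v = 1) (h2 : v * u = 1) :
    nu F n (I := fun x => I x × Fin 2) (fun x a => c x a.1) (blk (star u * !![φ, 0; 0, 0] * u))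
      =ᶠ[F] nu F n c φ := by
  have hK' : (K.prod fun _ => Fin 2).Le (coord F fun x (a : I x × Fin 2) => c x a.1) :=
    hK.coord_comap _
  rw [blk_mul, blk_mul, blk_star]
  filter_upwards [hP.iso hK' (blk_hom.reg (cpk_one _) (r.diag reg_zero)) (u := blk u) (v := blk v)
    (by rw [← blk_mul, h1, blk_one]) (by rw [← blk_mul, h2, blk_one]), hP.diag hK r reg_zero,
    hP.zero hK] with x b1 b2 b3
  rw [b1, b2, Pi.add_apply, b3, Pi.zero_apply, add_zero]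

theorem f3_lat {ι : Type} (G : Geo ι n) {K : Ctx G.P} (hL : LatCtx (K.comap G.loc0) G.pos)
    (he : Even n) : (∃ Ψ, Inv (G.lt K (phiK n (XX n))) Ψ) ∧
      G.lt K (dK n (XX n)) * G.lt K (dK n (XX n)) = 0 ∧
      G.lt K (phiK n (XX n)) * G.lt K (dK n (XX n)) +
        star (G.lt K (dK n (XX n))) * G.lt K (phiK n (XX n)) = 0 :=
  ⟨lat_phi_inv hL he, lat_dd hL, lat_chain hL⟩

theorem f3_small (h : SmallSeq Δ) {ε : ℝ} (hε : 0 < ε) : ∀ᶠ x in Fc, ∀ y : (geo Δ).P x,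
    (‖y.1‖ ≤ 12 ∨ ‖cf Δ x y‖ ≤ 12) → ‖cf Δ x y - y.1‖ ≤ ε :=
  eventually_Fc.2 ((h ε hε).mono fun _ hi => .of_forall fun _ => hi)

/-- the lattice points of the cube -/
def f3E (Δ : ℕ → Dat.{u} n) (x : NN) :
    (Geo.box n (geo Δ).M (geo Δ).M_pos).Λ x ↪ (geo Δ).Λ x where
  toFun a := ⟨a.1, (Δ x.1).sub ((Δ x.1).ball_sub (closedBall_subset_closedBall (by norm_num) a.2))⟩
  inj' _ _ h := Subtype.ext (congrArg (fun a : (geo Δ).Λ x => a.1) h)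

theorem f3_norm (x : NN) (a : (Geo.box n (geo Δ).M (geo Δ).M_pos).Λ x) :
    ‖lpt ((geo Δ).M x) a.1‖ ≤ 12 :=
  (mem_closedBall_zero_iff.1 a.2).trans (by norm_num)

/-- `exists_htpy` for `j ≫ e ≫ r - 𝟙` from the lattice complex (`N_res`, `bal_KM`) to itself -/
theorem macro_one (hn : 0 < n) (h : SmallSeq Δ) :
    ∃ s, ER J (KM Δ) (CF.one Δ) - 1 = dR (KM Δ) * s + s * dR (KM Δ) := by
  have ho := orb_KM (Δ := Δ) hn
  obtain ⟨s, hs⟩ := f3_htpy hn h (jK J (KM Δ) ≫ (CF.one Δ).eH (KM Δ) ≫ rK J (KM Δ) - 𝟙 _)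
    (by rw [Preadditive.comp_sub, Preadditive.sub_comp, f3_chain J hn, Category.comp_id,
      Category.id_comp])
    (by rw [Preadditive.comp_sub, ← Category.assoc, η_jK J ho.le, ← Category.assoc, η_eH_one ho,
      η_rK J ho.le, Category.comp_id, sub_self])
  exact ⟨s, by rw [← hs, toR_sub, toR_id, ER_eq J ho]⟩

theorem macro_chi (hn : 0 < n) (h : SmallSeq Δ) :
    ∃ s, ER J (KM Δ) (CF.chi Δ) = dR (KM Δ) * s + s * dR (KM Δ) := by
  have ho := orb_KM (Δ := Δ) hn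
  obtain ⟨s, hs⟩ := f3_htpy hn h (jK J (KM Δ) ≫ (CF.chi Δ).eH (KM Δ) ≫ rK J (KM Δ))
    (f3_chain J hn _)
    (by rw [← Category.assoc, η_jK J ho.le, ← Category.assoc, η_eH_chi ho, Limits.zero_comp])
  exact ⟨s, by rw [← hs, ER_eq J ho]⟩

/-- Let `B = Geo.box n (geo Δ).M _`, `e : B.Λ x ↪ (geo Δ).Λ x` the inclusion (`Dat.ball_sub`), and
`Kb = coordR Fc (21/2) lpt` on `B.Λ`.  `tr_lat` (points outside the cube of radius `11` have
`‖f y‖ > 10` eventually), `Pk.ext`, `nu_rob` (`f ∘ loc ∘ e` versus `lpt`), `nu_std`. -/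
theorem nu_phi_ne (hn : 0 < n) (he : Even n) (h : SmallSeq Δ) :
    ∀ᶠ x in Fc, nu Fc n (fun x a => cf Δ x ((geo Δ).loc x a)) (φR (KM Δ)) x ≠ 0 := by
  have hM := tendsto_M Δ mic_Fc.le
  have hL := latCtx_of_le (orb_KM (Δ := Δ) hn).le
  have hLb := box_latCtx (n := n) (F := Fc) (geo Δ).M_pos hM (r := 21 / 2) (by norm_num)
  have hK : (coordR Fc (21 / 2) fun x (a : (Geo.box n (geo Δ).M (geo Δ).M_pos).Λ x) =>
      lpt ((geo Δ).M x) a.1).Le (((KM Δ).comap (geo Δ).loc0).comap fun x => f3E Δ x) := by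
    refine Ctx.Le.of_eps le_rfl (fun ε hε => ⟨ε / 3, by positivity, ?_⟩)
      fun ε hε => ⟨1 / 10, by norm_num, ?_⟩
    · filter_upwards [f3_small h (show 0 < ε / 3 by positivity)] with x hx a b hab
      have h1 := hx ((geo Δ).loc0 x (f3E Δ x a)) (Or.inl (f3_norm x a))
      have h2 := hx ((geo Δ).loc0 x (f3E Δ x b)) (Or.inl (f3_norm x b))
      change ‖_ - lpt ((geo Δ).M x) a.1‖ ≤ _ at h1
      change ‖_ - lpt ((geo Δ).M x) b.1‖ ≤ _ at h2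
      change ‖lpt ((geo Δ).M x) a.1 - lpt ((geo Δ).M x) b.1‖ < _ at hab
      change ‖cf Δ x ((geo Δ).loc0 x (f3E Δ x a)) - cf Δ x ((geo Δ).loc0 x (f3E Δ x b))‖ < ε
      rw [← dist_eq_norm] at h1 h2 hab ⊢
      rw [dist_comm] at h2
      linarith [dist_triangle4 (cf Δ x ((geo Δ).loc0 x (f3E Δ x a))) (lpt ((geo Δ).M x) a.1)
        (lpt ((geo Δ).M x) b.1) (cf Δ x ((geo Δ).loc0 x (f3E Δ x b)))]
    · filter_upwards [f3_small h (show (0 : ℝ) < 1 / 10 by norm_num)] with x hx a ha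
      have h1 := hx ((geo Δ).loc0 x (f3E Δ x a)) (Or.inl (f3_norm x a))
      change ‖_ - lpt ((geo Δ).M x) a.1‖ ≤ _ at h1
      change 21 / 2 - ‖lpt ((geo Δ).M x) a.1‖ < _ at ha
      change 10 - ‖cf Δ x ((geo Δ).loc0 x (f3E Δ x a))‖ < ε
      rw [norm_sub_rev] at h1
      linarith [norm_sub_norm_le (lpt ((geo Δ).M x) a.1) (cf Δ x ((geo Δ).loc0 x (f3E Δ x a)))]
  have hs : ((KM Δ).comap (geo Δ).loc0).SmS fun x b => ∀ a, f3E Δ x a ≠ b := by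
    intro ε hε
    filter_upwards [f3_small h (show (0 : ℝ) < 1 / 10 by norm_num)] with x hx b hb
    change 10 - ‖cf Δ x ((geo Δ).loc0 x b)‖ < ε
    by_contra hc
    have h1 := hx ((geo Δ).loc0 x b) (Or.inr (by linarith))
    change ‖_ - lpt ((geo Δ).M x) b.1‖ ≤ _ at h1
    rw [norm_sub_rev] at h1
    refine hb ⟨b.1, mem_closedBall_zero_iff.2 ?_⟩ rfl
    change ‖lpt ((geo Δ).M x) b.1‖ ≤ 11
    linarith [norm_sub_norm_le (lpt ((geo Δ).M x) b.1) (cf Δ x ((geo Δ).loc0 x b))]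
  have e1 := tr_lat (f3E Δ) hLb hL (fun _ _ => rfl) hK hs (phiK n (XX n))
  obtain ⟨Ψ, hΨ⟩ := lat_phi_inv hLb he
  have hK2 := hK.comap fun x (p : (Geo.box n (geo Δ).M (geo Δ).M_pos).Λ x × Ty n) => p.1
  have e2 := (pk Fc n).ext (fun x (a : (geo Δ).I x) => cf Δ x ((geo Δ).loc x a))
    (K' := ((KM Δ).comap (geo Δ).loc0).prod fun _ => Ty n) (embProd (f3E Δ) fun _ => Ty n)
    (Ctx.Le.refl _) hK2 hΨ.reg
  rw [e1] at e2
  have e3 := nu_rob (F := Fc) n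
    (fun x (a : (Geo.box n (geo Δ).M (geo Δ).M_pos).I x) =>
      cf Δ x ((geo Δ).loc x (embProd (f3E Δ) (fun _ => Ty n) x a)))
    (fun x a => lpt ((geo Δ).M x) a.1.1) hK2 (coordR_le le_rfl (by norm_num) _)
    ((f3_small h (show (0 : ℝ) < 1 / 10 by norm_num)).mono fun x hx a =>
      hx ((geo Δ).loc0 x (f3E Δ x a.1)) (Or.inl (f3_norm x a.1))) hΨ.reg
  filter_upwards [e2, e3, nu_std (geo Δ).M_pos hM n he (r := 21 / 2) (by norm_num) (by norm_num)]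
    with x h2 h3 h4
  exact (h2.trans h3).trans_ne h4

/-- `FF_frm_one`, `FF_frm_zero`, `Pk.iso` (after `blk`), `Pk.diag`, `Pk.zero`, `Pk.neg` -/
theorem macro_nu (hn : 0 < n) (he : Even n) (h : SmallSeq Δ) :
    ∀ᶠ x in Fc,
      nu Fc n (I := fun x => (geo Δ).I x × Fin 2) (fun x a => cf Δ x ((geo Δ).loc x a.1))
        (XF J (KM Δ) (CF.chi Δ)) x ≠
      nu Fc n (I := fun x => (geo Δ).I x × Fin 2) (fun x a => cf Δ x ((geo Δ).loc x a.1))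
        (XF J (KM Δ) (CF.one Δ)) x := by
  have hL := latCtx_of_le (orb_KM (Δ := Δ) hn).le
  obtain ⟨⟨Ψ, hΨ⟩, hdd, hc⟩ := f3_lat (geo Δ) hL he
  obtain ⟨s, hs⟩ := macro_one J hn h
  obtain ⟨s', hs'⟩ := macro_chi J hn h
  obtain ⟨u, v, h1, h2, h3⟩ := FF_frm_one hdd hΨ hc hs
  obtain ⟨u', v', h1', h2', h3'⟩ := FF_frm_zero hdd hΨ hc hs'
  have hK : ((KM Δ).comap (geo Δ).loc).Le (coord Fc fun x a => cf Δ x ((geo Δ).loc x a)) :=
    Ctx.Le.refl _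
  have hP := pk Fc n
  have a1 := f3_iso hP hK hΨ.reg h1 h2
  have a2 := f3_iso hP hK hΨ.reg.neg h1' h2'
  rw [← h3] at a1
  rw [← h3'] at a2
  filter_upwards [a1, a2, hP.neg _ hK hΨ.reg, nu_phi_ne hn he h] with x b1 b2 b3 b4
  refine (b2.trans b3).trans_ne (Ne.symm (b1.trans_ne ?_))
  exact fun h5 => b4 (self_eq_neg.1 h5)

end Crest.Agent.R217
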