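import Crest.Agent.R217.F3

/-! Row 217, part F4: the invariant integral `lam = ε r e₁`.  Statements about `J` hold in the
context `KE Δ` (filter `F0`, `eventually_of_F0`): use `hrep_ctrl`, `Ctrl.eps`, `hmk_eq_iff`,
`Van.empty` with the margin `Dat.margin`. -/

set_option autoImplicit false

namespace Crest.Agent.R217

open Filter Topology CategoryTheory Metric

universe u

variable {n : ℕ} {Δ : ℕ → Dat.{u} n} (J : JR (geo Δ) F0)

theorem f4_eps (x : NN) (v : (geo Δ).I x → ℂ) : epsF x v = ∑ a : (geo Δ).Λ x, v (a, Ty.top n) := by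
  simp only [epsF, LinearMap.coe_sum, Finset.sum_apply, LinearMap.coe_proj, Function.eval]

theorem f4_sum_ite {L : Type} [Fintype L] {pos : L → Fin n → ℤ} (hi : Function.Injective pos)
    {a₀ b : L} {σ : Fin n → ℤ} (h : pos b - pos a₀ = σ) :
    ∑ a, (if pos b - pos a = σ then (1 : ℂ) else 0) = 1 := by
  classical
  rw [Finset.sum_eq_single a₀, if_pos h]
  · intro a _ ha
    refine if_neg fun h' => ha (hi ?_)
    rw [← h] at h'
    exact sub_right_injective h'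
  · intro h'
    exact absurd (Finset.mem_univ _) h'

theorem f4_inj (x : NN) : Function.Injective ((geo Δ).pos x) := fun _ _ h => Subtype.ext h

theorem f4_hL : LatCtx ((KE Δ).comap (geo Δ).loc0) (geo Δ).pos :=
  (geo Δ).latCtx_K0 (tendsto_M Δ le_rfl)

/-- the lattice differential -/
noncomputable def f4d (Δ : ℕ → Dat.{u} n) (x : NN) : ((geo Δ).I x → ℂ) →ₗ[ℂ] ((geo Δ).I x → ℂ) :=
  Matrix.toLin' (latM ((geo Δ).pos x) (dK n (XX n)))

/-- the lattice projections -/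
noncomputable def f4p (Δ : ℕ → Dat.{u} n) (q : ℕ) (x : NN) :
    ((geo Δ).I x → ℂ) →ₗ[ℂ] ((geo Δ).I x → ℂ) :=
  Matrix.toLin' (Matrix.diagonal fun a : (geo Δ).I x =>
    @ite ℂ (a.2.deg = q) (Classical.propDecidable _) 1 0)

theorem f4p_apply (q : ℕ) (x : NN) (v : (geo Δ).I x → ℂ) (a : (geo Δ).I x) :
    f4p Δ q x v a = if a.2.deg = q then v a else 0 := by
  simp only [f4p, Matrix.toLin'_apply, Matrix.mulVec_diagonal]
  split_ifs <;> simp

theorem f4_Nd : (geo Δ).Nd (KE Δ) = hmk ((geo Δ).N (KE Δ)) ((geo Δ).N (KE Δ)) (f4d Δ) :=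
  ofR_mk (f4_hL.mc _)

theorem f4_Nπ (q : ℕ) : (geo Δ).Nπ (KE Δ) q = hmk ((geo Δ).N (KE Δ)) ((geo Δ).N (KE Δ)) (f4p Δ q) :=
  ofR_mk (mc_diagonal _)

theorem f4_ctrl_d : Ctrl (KE Δ) (A := ((geo Δ).N (KE Δ)).A) (B := ((geo Δ).N (KE Δ)).A) (f4d Δ) :=
  ctrl_toLin (f4_hL.mc _)

theorem f4_ctrl_p (q : ℕ) :
    Ctrl (KE Δ) (A := ((geo Δ).N (KE Δ)).A) (B := ((geo Δ).N (KE Δ)).A) (f4p Δ q) :=
  ctrl_toLin (mc_diagonal _)

theorem f4_square {ι : Type} {P : ι → Type} {K : Ctx P} {X Y Y' Z : Ob K} {f : Fam X.A Y.A}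
    {g : Fam Y.A Z.A} {f' : Fam X.A Y'.A} {g' : Fam Y'.A Z.A} (hf : Ctrl K f) (hg : Ctrl K g)
    (hf' : Ctrl K f') (hg' : Ctrl K g')
    (h : hmk X Y f ≫ hmk Y Z g = hmk X Y' f' ≫ hmk Y' Z g') {ε : ℝ} (hε : 0 < ε) :
    ∀ᶠ x in K.F, ∀ v, (∀ w ∈ (X.A x).supp v, ε ≤ K.dep x w) →
      (Z.A x).supp (g x (f x v) - g' x (f' x v)) = ∅ := by
  rw [hmk_comp hf hg, hmk_comp hf' hg', hmk_eq_iff (hf.comp hg) (hf'.comp hg')] at h
  exact h.empty ((hf.comp hg).sub (hf'.comp hg')) ε hε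

theorem f4_fin_zero {I Q : Type} {loc : I → Q} {v : I → ℂ} (h : (finSM loc).supp v = ∅) : v = 0 := by
  funext a
  by_contra ha
  have : loc a ∈ (finSM loc).supp v := ⟨a, ha, rfl⟩
  rw [h] at this
  exact this

theorem f4_rd {ε : ℝ} (hε : 0 < ε) : ∀ᶠ x in F0, ∀ α : AS ((geo Δ).P x),
    (∀ w ∈ (asSM _).supp α, ε ≤ (KE Δ).dep x w) → rF J x (asD α) = f4d Δ x (rF J x α) := by
  have h := J.rd
  rw [← hmk_hrep J.r, f4_Nd] at h
  filter_upwards [f4_square ((geo Δ).ctrl_asD) (hrep_ctrl J.r) (hrep_ctrl J.r) f4_ctrl_d h hε]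
    with x hx α hα
  exact sub_eq_zero.1 (f4_fin_zero (hx α hα))

theorem f4_rπ (q : ℕ) {ε : ℝ} (hε : 0 < ε) : ∀ᶠ x in F0, ∀ α : AS ((geo Δ).P x),
    (∀ w ∈ (asSM _).supp α, ε ≤ (KE Δ).dep x w) → rF J x (asπ q α) = f4p Δ q x (rF J x α) := by
  have h := J.rπ q
  rw [← hmk_hrep J.r, f4_Nπ] at h
  filter_upwards [f4_square ((geo Δ).ctrl_asπ q) (hrep_ctrl J.r) (hrep_ctrl J.r) (f4_ctrl_p q) h hε]
    with x hx α hα
  exact sub_eq_zero.1 (f4_fin_zero (hx α hα))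

theorem f4_jd {ε : ℝ} (hε : 0 < ε) : ∀ᶠ x in F0, ∀ a : (geo Δ).I x,
    ε ≤ (KE Δ).dep x ((geo Δ).loc x a) →
    (asSM _).supp (jF J x (f4d Δ x (Pi.single a 1)) - asD (jF J x (Pi.single a 1))) = ∅ := by
  have h := J.jd
  rw [← hmk_hrep J.j, f4_Nd] at h
  filter_upwards [f4_square f4_ctrl_d (hrep_ctrl J.j) (hrep_ctrl J.j) ((geo Δ).ctrl_asD) h hε]
    with x hx a ha
  refine hx _ fun w hw => ?_
  rw [(bf_supp_single hw).1]
  exact ha

theorem f4_jπ (q : ℕ) {ε : ℝ} (hε : 0 < ε) : ∀ᶠ x in F0, ∀ a : (geo Δ).I x,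
    ε ≤ (KE Δ).dep x ((geo Δ).loc x a) →
    (asSM _).supp (jF J x (f4p Δ q x (Pi.single a 1)) - asπ q (jF J x (Pi.single a 1))) = ∅ := by
  have h := J.jπ q
  rw [← hmk_hrep J.j, f4_Nπ] at h
  filter_upwards [f4_square (f4_ctrl_p q) (hrep_ctrl J.j) (hrep_ctrl J.j) ((geo Δ).ctrl_asπ q) h hε]
    with x hx a ha
  refine hx _ fun w hw => ?_
  rw [(bf_supp_single hw).1]
  exact ha

/-- `j e_a` is supported near `a` -/
theorem f4_supp_j {ε : ℝ} (hε : 0 < ε) : ∀ᶠ x in F0, ∀ a : (geo Δ).I x,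
    ε ≤ (Δ x.1).R - dist (lpt (x.2 + 1) a.1.1) (Δ x.1).o →
    ∀ w ∈ (asSM _).supp (jF J x (Pi.single a 1)), w.1 ∈ closedBall (Δ x.1).o (Δ x.1).R := by
  filter_upwards [(hrep_ctrl J.j).eps ε hε] with x hx a ha w hw
  obtain ⟨w', h1, h2⟩ := hx _ w hw
  rw [(bf_supp_single h1).1] at h2
  have h3 : dist w.1 (lpt (x.2 + 1) a.1.1) < ε := h2
  rw [mem_closedBall]
  linarith [dist_triangle w.1 (lpt (x.2 + 1) a.1.1) (Δ x.1).o]

/-- the mean of a cochain supported in the ball is deep -/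
theorem f4_deep_e {x : NN} {δ : ℝ} (hδ : ∀ (g : (Δ x.1).H) (y : (Δ x.1).W),
    y.1 ∈ closedBall (Δ x.1).o (Δ x.1).R → δ ≤ infDist (g • y).1 (Δ x.1).Wᶜ)
    {α : AS ((geo Δ).P x)} (hα : ∀ w ∈ (asSM _).supp α, w.1 ∈ closedBall (Δ x.1).o (Δ x.1).R) :
    ∀ w ∈ (asSM _).supp ((CF.one Δ).e x α), δ ≤ (KE Δ).dep x w := by
  intro w hw
  obtain ⟨g, hg⟩ := supp_asE _ _ hw
  have := hδ g⁻¹ (g • w) (hα _ hg)
  have h2 : g⁻¹ • g • w = w := inv_smul_smul g w
  erw [h2] at this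
  exact this

theorem f4_deep_one {x : NN} {δ : ℝ} (hδ : ∀ (g : (Δ x.1).H) (y : (Δ x.1).W),
    y.1 ∈ closedBall (Δ x.1).o (Δ x.1).R → δ ≤ infDist (g • y).1 (Δ x.1).Wᶜ)
    {w : (geo Δ).P x} (hw : w.1 ∈ closedBall (Δ x.1).o (Δ x.1).R) : δ ≤ (KE Δ).dep x w := by
  have := hδ 1 w hw
  have h2 : (1 : (Δ x.1).H) • w = w := one_smul _ w
  erw [h2] at this
  exact this

theorem f4_lam (x : NN) (α : AS ((geo Δ).P x)) :
    lam J x α = epsF x (rF J x ((CF.one Δ).e x α)) := rfl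

/-- column sums: the coefficients of every entry of `dK` sum to zero (`dK_entry`,
`coeff_XX_sub_one`) -/
theorem eps_d (x : NN) (v : (geo Δ).I x → ℂ)
    (h : ∀ b : (geo Δ).I x, v b ≠ 0 → ∀ k : Fin n, ∃ a : (geo Δ).Λ x,
      (geo Δ).pos x b.1 - (geo Δ).pos x a = Pi.single k 1) :
    epsF x ((latM ((geo Δ).pos x) (dK n (XX n))).mulVec v) = 0 := by
  rw [f4_eps]
  simp only [Matrix.mulVec, dotProduct, dl_latM]
  rw [Finset.sum_comm]
  refine Finset.sum_eq_zero fun b _ => ?_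
  by_cases hb : v b = 0
  · simp only [hb, mul_zero, Finset.sum_const_zero]
  rw [← Finset.sum_mul]
  refine mul_eq_zero_of_left ?_ _
  have key : ∀ k : Fin n, ∑ a : (geo Δ).Λ x,
      (XX n k - 1).coeff ((geo Δ).pos x b.1 - (geo Δ).pos x a) = 0 := by
    intro k
    obtain ⟨a, ha⟩ := h b hb k
    simp only [coeff_XX_sub_one, Finset.sum_sub_distrib]
    rw [f4_sum_ite (f4_inj x) ha, f4_sum_ite (f4_inj x) (sub_self ((geo Δ).pos x b.1)), sub_self]
  rcases dK_entry (XX n) (Ty.top n) b.2 with h0 | ⟨k, h0 | h0⟩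
  · simp [h0]
  · rw [h0]; exact key k
  · rw [h0]
    simp only [AddMonoidAlgebra.coeff_neg, Finsupp.coe_neg, Pi.neg_apply, Finset.sum_neg_distrib, key k,
      neg_zero]

theorem f4_eps_deep {ε : ℝ} (hε : 0 < ε) : ∀ᶠ x in F0, ∀ v : (geo Δ).I x → ℂ,
    (∀ b, v b ≠ 0 → ε ≤ (KE Δ).dep x ((geo Δ).loc x b)) → epsF x (f4d Δ x v) = 0 := by
  have h := Filter.eventually_all.2 fun k : Fin n => (f4_hL (Δ := Δ)).smS (-Pi.single k 1) ε hε
  filter_upwards [h] with x hx v hv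
  refine eps_d x v fun b hb k => ?_
  by_contra h1
  refine (hx k b.1 fun a ha => h1 ⟨a, ?_⟩).not_ge (hv b hb)
  rw [← neg_sub, ha, neg_neg]

theorem lam_loc : ∀ᶠ x in F0, ∀ α : AS ((geo Δ).P x), (asSM _).supp α = ∅ → lam J x α = 0 := by
  filter_upwards [(hrep_ctrl J.r).eps 1 one_pos] with x hx α hα
  have h0 : rF J x ((CF.one Δ).e x α) = 0 := by
    refine f4_fin_zero (loc := (geo Δ).loc x) (Set.eq_empty_of_forall_notMem fun w hw => ?_)
    obtain ⟨w', h1, -⟩ := hx _ w hw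
    obtain ⟨g, hg⟩ := supp_asE _ _ h1
    rw [hα] at hg
    exact hg
  rw [f4_lam, h0, map_zero]

/-- `e₁ D = D e₁`; `e₁ α` is supported at depth `≥ δ` (`supp_asE`), so `r D e₁ α = d r e₁ α` and
`r e₁ α` is supported at depth `≥ δ / 2`; `eps_d` -/
theorem lam_D (hn : 0 < n) (i : ℕ) : ∀ᶠ m in atTop, ∀ α : AS ((geo Δ).P (i, m)),
    (∀ w ∈ (asSM _).supp α, w.1 ∈ closedBall (Δ i).o (Δ i).R) → lam J (i, m) (asD α) = 0 := by
  obtain ⟨δ, hδ, hm⟩ := (Δ i).margin hn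
  filter_upwards [eventually_of_F0 (f4_rd J hδ) i,
    eventually_of_F0 ((hrep_ctrl J.r).eps _ (half_pos hδ)) i,
    eventually_of_F0 (f4_eps_deep (Δ := Δ) (half_pos hδ)) i] with m h1 h2 h3 α hα
  have hd := f4_deep_e (x := (i, m)) hm hα
  have he : (CF.one Δ).e (i, m) (asD α) = asD ((CF.one Δ).e (i, m) α) := asE_asD _ _
  rw [f4_lam, he, h1 _ hd]
  refine h3 _ fun b hb => ?_
  obtain ⟨w', h4, h5⟩ := h2 _ _ ⟨b, hb, rfl⟩
  have h6 := (KE Δ).dep_lip (i, m) w' ((geo Δ).loc (i, m) b)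
  rw [(KE Δ).d_symm] at h6
  linarith [hd w' h4]

/-- `lam (j e_b) = ε (EM e_b)`.  From `macro_one` and `eq_of_mk_eq` for the deep column `b` (origin,
top type): `EM e_b = e_b + d S e_b + S d e_b`, `d e_b = 0` (`dK_deg`), `S e_b` is supported at points
with `‖f y‖ < 1`, which lie in `closedBall o R`, so `eps_d` applies for large `m`. -/
theorem good_ev (hn : 0 < n) (h : SmallSeq Δ) : ∀ᶠ i in atTop, Good J i := by
  obtain ⟨s, hs⟩ := macro_one J hn h
  obtain ⟨S, hS, rfl⟩ := exists_mk s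
  have hO : OrbCtx Δ (KM Δ) := orb_KM hn
  have hE := mc_EM J hO (CF.one Δ)
  have hd : MC ((KM Δ).comap (geo Δ).loc) fun x => latM ((geo Δ).pos x) (dK n (XX n)) :=
    (latCtx_of_le hO.le).mc _
  have hdR : dR (KM Δ) = mk _ fun x => latM ((geo Δ).pos x) (dK n (XX n)) := rfl
  rw [hdR, ER, ← mk_one, ← mk_sub hE mc_one, ← mk_mul hd hS, ← mk_mul hS hd,
    ← mk_add (hd.mul hS) (hS.mul hd)] at hs
  have h1 := eq_of_mk_eq (hE.sub mc_one) ((hd.mul hS).add (hS.mul hd)) hs 1 one_pos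
  have h2 := hS 1 one_pos
  filter_upwards [eventually_Fc.1 h1, eventually_Fc.1 h2, h 1 one_pos] with i k1 k2 k3
  obtain ⟨δ, hδ, hm⟩ := (Δ i).margin hn
  filter_upwards [k1, k2, eventually_of_F0 (f4_eps_deep (Δ := Δ) hδ) i] with m l1 l2 l3 b hb0 hb
  have hl : ((geo Δ).loc (i, m) b).1 = 0 := by
    change lpt _ b.1.1 = 0
    rw [hb0]
    funext k
    simp [lpt]
  have hfb : ‖cf Δ (i, m) ((geo Δ).loc (i, m) b)‖ ≤ 1 := by
    have := k3 ((geo Δ).loc (i, m) b) (Or.inl (by rw [hl, norm_zero]; norm_num))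
    rw [hl, sub_zero] at this
    exact this
  have hdep : 1 ≤ ((KM Δ).comap (geo Δ).loc).dep (i, m) b := by
    change 1 ≤ 10 - ‖cf Δ (i, m) ((geo Δ).loc (i, m) b)‖
    linarith
  have hz : epsF (i, m) (f4d Δ (i, m) fun c => S (i, m) c b) = 0 := by
    refine l3 _ fun c hc => f4_deep_one (x := (i, m)) hm ((Δ i).ball_sub ?_)
    have h3 : ‖cf Δ (i, m) ((geo Δ).loc (i, m) c) - cf Δ (i, m) ((geo Δ).loc (i, m) b)‖ < 1 :=
      l2 c b hc
    have h4 : ‖cf Δ (i, m) ((geo Δ).loc (i, m) c)‖ ≤ 2 := by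
      have := norm_sub_norm_le (cf Δ (i, m) ((geo Δ).loc (i, m) c)) (cf Δ (i, m) ((geo Δ).loc (i, m) b))
      linarith
    have h5 : ‖cf Δ (i, m) ((geo Δ).loc (i, m) c) - ((geo Δ).loc (i, m) c).1‖ ≤ 1 :=
      k3 ((geo Δ).loc (i, m) c) (Or.inr (h4.trans (by norm_num)))
    rw [mem_closedBall, dist_zero_right]
    have := norm_sub_norm_le ((geo Δ).loc (i, m) c).1 (cf Δ (i, m) ((geo Δ).loc (i, m) c))
    rw [norm_sub_rev] at this
    linarith
  have hcol : ∀ a, EM J (CF.one Δ) (i, m) a b =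
      (if a = b then 1 else 0) + f4d Δ (i, m) (fun c => S (i, m) c b) a := by
    intro a
    have h3 := l1 a b (Or.inr hdep)
    have h4 : ∀ c, latM ((geo Δ).pos (i, m)) (dK n (XX n)) c b = 0 := by
      intro c
      have : dK n (XX n) c.2 b.2 = 0 := by
        by_contra h5
        have h6 := dK_deg _ h5
        have h7 := Ty.deg_le c.2
        rw [hb, (Ty.deg_eq_iff _).2 rfl] at h6
        omega
      rw [dl_latM, this]
      simp
    simp only [Pi.sub_apply, Pi.add_apply, Pi.mul_apply, Pi.one_apply, Matrix.sub_apply,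
      Matrix.add_apply, Matrix.mul_apply, Matrix.one_apply, h4, mul_zero, Finset.sum_const_zero,
      add_zero] at h3
    rw [sub_eq_iff_eq_add'] at h3
    exact h3
  rw [f4_lam, f4_eps]
  rw [f4_eps] at hz
  have h8 : ∀ a : (geo Δ).Λ (i, m),
      rF J (i, m) ((CF.one Δ).e (i, m) (jF J (i, m) (Pi.single b 1))) (a, Ty.top n) =
        (if (a, Ty.top n) = b then 1 else 0) +
          f4d Δ (i, m) (fun c => S (i, m) c b) (a, Ty.top n) := fun a => hcol (a, Ty.top n)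
  simp only [h8, Finset.sum_add_distrib, hz, add_zero]
  rw [Finset.sum_eq_single b.1, if_pos (show (b.1, Ty.top n) = b from Prod.ext rfl hb.symm)]
  · intro a _ ha
    exact if_neg fun h9 => ha (congrArg Prod.fst h9)
  · intro h9
    exact absurd (Finset.mem_univ _) h9

/-- below the top degree: `j e_a ≡ π q (j e_a)` (`jπ`), `e π = π e`, `r π q ≡ π q r` (`rπ`) -/
theorem lam_low (hn : 0 < n) (i : ℕ) {ε : ℝ} (hε : 0 < ε) : ∀ᶠ m in atTop, ∀ a : (geo Δ).I (i, m),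
    ε ≤ (Δ i).R - dist (lpt (m + 1) a.1.1) (Δ i).o → a.2 ≠ Ty.top n →
    lam J (i, m) (jF J (i, m) (Pi.single a 1)) = 0 := by
  obtain ⟨δ, hδ, hm⟩ := (Δ i).margin hn
  have h1 := Filter.eventually_all.2 fun τ : Ty n => eventually_of_F0 (f4_jπ J τ.deg hδ) i
  have h2 := Filter.eventually_all.2 fun τ : Ty n => eventually_of_F0 (f4_rπ J τ.deg hδ) i
  filter_upwards [h1, h2, eventually_of_F0 (f4_supp_j J hε) i, eventually_of_F0 (lam_loc J) i]
    with m k1 k2 k3 k4 a ha hτ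
  have hball : ((geo Δ).loc (i, m) a).1 ∈ closedBall (Δ i).o (Δ i).R := by
    change dist (lpt (m + 1) a.1.1) (Δ i).o ≤ _
    linarith
  have h3 := k4 _ (k1 a.2 a (f4_deep_one (x := (i, m)) hm hball))
  have h4 : f4p Δ a.2.deg (i, m) (Pi.single a 1) = Pi.single a 1 := by
    funext c
    rw [f4p_apply]
    split_ifs with h5
    · rfl
    · rw [Pi.single_eq_of_ne (fun h6 : c = a => h5 (by rw [h6]))]
  rw [h4, map_sub, sub_eq_zero] at h3
  have he : (CF.one Δ).e (i, m) (asπ a.2.deg (jF J (i, m) (Pi.single a 1))) =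
      asπ a.2.deg ((CF.one Δ).e (i, m) (jF J (i, m) (Pi.single a 1))) := asE_asGr _ _ _
  rw [h3, f4_lam, he, k2 a.2 _ (f4_deep_e (x := (i, m)) hm (k3 a ha)), f4_eps]
  refine Finset.sum_eq_zero fun c _ => ?_
  rw [f4p_apply, if_neg]
  intro h5
  have h6 : (Ty.top n).deg = n := (Ty.deg_eq_iff _).2 rfl
  exact hτ ((Ty.deg_eq_iff _).1 (h5.symm.trans h6))

/-- neighbouring top cells: `d e_(a', τ) = ± (e_(a, top) - e_(a', top))` for `a' = a + e_k`
(`dK_face`), `j d ≡ D j` (`jd`), `lam_loc`, `lam_D` -/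
theorem lam_step (hn : 0 < n) (i : ℕ) {ε : ℝ} (hε : 0 < ε) : ∀ᶠ m in atTop,
    ∀ (a a' : (geo Δ).Λ (i, m)) (k : Fin n), a'.1 = a.1 + Pi.single k 1 →
    ε ≤ (Δ i).R - dist (lpt (m + 1) a'.1) (Δ i).o →
    lam J (i, m) (jF J (i, m) (Pi.single (a, Ty.top n) 1)) =
      lam J (i, m) (jF J (i, m) (Pi.single (a', Ty.top n) 1)) := by
  obtain ⟨δ, hδ, hm⟩ := (Δ i).margin hn
  filter_upwards [eventually_of_F0 (f4_jd J hδ) i, eventually_of_F0 (f4_supp_j J hε) i,
    eventually_of_F0 (lam_loc J) i, lam_D J hn i] with m k1 k3 k4 k5 a a' k haa ha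
  obtain ⟨τ, hτ⟩ := dK_face (XX n) k
  have hball : ((geo Δ).loc (i, m) (a', τ)).1 ∈ closedBall (Δ i).o (Δ i).R := by
    change dist (lpt (m + 1) a'.1) (Δ i).o ≤ _
    linarith
  have h3 := k4 _ (k1 (a', τ) (f4_deep_one (x := (i, m)) hm hball))
  rw [map_sub, k5 _ (k3 (a', τ) ha), sub_zero] at h3
  have hv : ∀ c : (geo Δ).I (i, m),
      (if c.2 = Ty.top n then XX n k - 1 else 0 : LA n).coeff
        ((geo Δ).pos (i, m) a' - (geo Δ).pos (i, m) c.1) =
      ((Pi.single (a, Ty.top n) 1 : (geo Δ).I (i, m) → ℂ) - Pi.single (a', Ty.top n) 1 :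
        (geo Δ).I (i, m) → ℂ) c := by
    rintro ⟨c, σ⟩
    rw [Pi.sub_apply, Pi.single_apply, Pi.single_apply]
    by_cases hσ : σ = Ty.top n
    · subst hσ
      rw [if_pos rfl, coeff_XX_sub_one]
      congr 1
      · refine if_congr ?_ rfl rfl
        rw [Prod.mk.injEq, and_iff_left rfl]
        change a'.1 - c.1 = _ ↔ _
        rw [haa]
        constructor
        · intro h
          refine Subtype.ext ?_
          have : a.1 + Pi.single k 1 - c.1 = c.1 + Pi.single k 1 - c.1 := by rw [h]; abel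
          exact (add_right_cancel (sub_left_injective this)).symm
        · rintro rfl
          abel
      · refine if_congr ?_ rfl rfl
        rw [Prod.mk.injEq, and_iff_left rfl, sub_eq_zero]
        exact ⟨fun h => (f4_inj _ h).symm, fun h => by rw [h]⟩
    · rw [if_neg hσ, if_neg fun h => hσ (congrArg Prod.snd h), if_neg fun h => hσ (congrArg Prod.snd h)]
      simp
  have hd : ∀ c, f4d Δ (i, m) (Pi.single (a', τ) 1) c =
      (dK n (XX n) c.2 τ).coeff ((geo Δ).pos (i, m) a' - (geo Δ).pos (i, m) c.1) := by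
    intro c
    simp only [f4d, Matrix.toLin'_apply, Matrix.mulVec_single_one, Matrix.col_apply, dl_latM]
  rcases hτ with hτ | hτ
  · have : f4d Δ (i, m) (Pi.single (a', τ) 1) =
        Pi.single (a, Ty.top n) 1 - Pi.single (a', Ty.top n) 1 :=
      funext fun c => by rw [hd, hτ, hv]
    rw [this, map_sub, map_sub, sub_eq_zero] at h3
    exact h3
  · have : f4d Δ (i, m) (Pi.single (a', τ) 1) =
        -(Pi.single (a, Ty.top n) 1 - Pi.single (a', Ty.top n) 1) := by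
      funext c
      rw [hd, hτ, Pi.neg_apply, ← hv]
      split_ifs <;> simp
    rw [this, map_neg, map_neg, neg_eq_zero, map_sub, map_sub, sub_eq_zero] at h3
    exact h3

theorem f4_between {M : ℕ} {o : Fin n → ℝ} {r : ℝ} (ho : ‖o‖ ≤ r) {a a' : Fin n → ℤ}
    (ha : dist (lpt M a) o ≤ r)
    (h : ∀ j, (0 ≤ a' j ∧ a' j ≤ a j) ∨ (a j ≤ a' j ∧ a' j ≤ 0)) : dist (lpt M a') o ≤ r := by
  have hr : 0 ≤ r := (norm_nonneg _).trans ho
  rw [dist_pi_le_iff hr] at ha ⊢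
  intro j
  have h1 := abs_le.1 (show |(a j : ℝ) / M - o j| ≤ r from ha j)
  have h2 := abs_le.1 (show |o j| ≤ r from (norm_le_pi_norm o j).trans ho)
  have hM : (0 : ℝ) ≤ M := Nat.cast_nonneg M
  change |(a' j : ℝ) / M - o j| ≤ r
  rw [abs_le]
  rcases h j with ⟨h3, h4⟩ | ⟨h3, h4⟩
  · have h5 : (0 : ℝ) ≤ (a' j : ℝ) / M := div_nonneg (by exact_mod_cast h3) hM
    have h6 : (a' j : ℝ) / M ≤ (a j : ℝ) / M := div_le_div_of_nonneg_right (by exact_mod_cast h4) hM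
    constructor <;> linarith [h1.1, h1.2, h2.1, h2.2]
  · have h5 : (a' j : ℝ) / M ≤ 0 := div_nonpos_of_nonpos_of_nonneg (by exact_mod_cast h4) hM
    have h6 : (a j : ℝ) / M ≤ (a' j : ℝ) / M := div_le_div_of_nonneg_right (by exact_mod_cast h3) hM
    constructor <;> linarith [h1.1, h1.2, h2.1, h2.2]

/-- WLOG `ε ≤ 12`; the lattice points of the cube `closedBall o (R - ε)` contain the origin and are
joined to it inside the cube (induction on `∑ k, |a k|`) -/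
theorem lam_norm (hn : 0 < n) {i : ℕ} (hi : Good J i) {ε : ℝ} (hε : 0 < ε) :
    ∀ᶠ m in atTop, ∀ a : (geo Δ).I (i, m), ε ≤ (Δ i).R - dist (lpt (m + 1) a.1.1) (Δ i).o →
    lam J (i, m) (jF J (i, m) (Pi.single a 1)) = if a.2 = Ty.top n then 1 else 0 := by
  have hε' : 0 < min ε 12 := lt_min hε (by norm_num)
  filter_upwards [hi, lam_low J hn i hε, lam_step J hn i hε'] with m k1 k2 k3 a ha
  have ho : ‖(Δ i).o‖ ≤ (Δ i).R - min ε 12 := by linarith [(Δ i).hR, min_le_right ε 12]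
  have key : ∀ (N : ℕ) (c : (geo Δ).Λ (i, m)), ∑ j, (c.1 j).natAbs = N →
      dist (lpt (m + 1) c.1) (Δ i).o ≤ (Δ i).R - min ε 12 →
      lam J (i, m) (jF J (i, m) (Pi.single (c, Ty.top n) 1)) = 1 := by
    intro N
    induction N using Nat.strong_induction_on with
    | _ N ih =>
    intro c hN hc
    by_cases h0 : c.1 = 0
    · exact k1 (c, Ty.top n) h0 rfl
    obtain ⟨k, hk⟩ : ∃ k, c.1 k ≠ 0 := by
      by_contra h
      push Not at h
      exact h0 (funext h)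
    have hlt : ∀ c' : Fin n → ℤ, (∀ j, j ≠ k → c' j = c.1 j) → (c' k).natAbs < (c.1 k).natAbs →
        ∑ j, (c' j).natAbs < N := by
      intro c' h1 h2
      rw [← hN]
      refine Finset.sum_lt_sum (fun j _ => ?_) ⟨k, Finset.mem_univ _, h2⟩
      by_cases hj : j = k
      · rw [hj]; exact h2.le
      · rw [h1 j hj]
    have hW : ∀ c' : Fin n → ℤ, dist (lpt (m + 1) c') (Δ i).o ≤ (Δ i).R - min ε 12 →
        lpt ((geo Δ).M (i, m)) c' ∈ (geo Δ).W (i, m) := fun c' h =>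
      (Δ i).sub (show dist (lpt (m + 1) c') (Δ i).o ≤ (Δ i).R by linarith)
    rcases lt_or_gt_of_ne hk with hk | hk
    · have hb : dist (lpt (m + 1) (c.1 + Pi.single k 1)) (Δ i).o ≤ (Δ i).R - min ε 12 := by
        refine f4_between ho hc fun j => ?_
        by_cases hj : j = k
        · subst hj
          simp only [Pi.add_apply, Pi.single_eq_same]
          omega
        · simp only [Pi.add_apply, Pi.single_eq_of_ne hj]
          omega
      rw [k3 c ⟨_, hW _ hb⟩ k rfl (by linarith)]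
      refine ih _ (hlt (c.1 + Pi.single k 1) (fun j hj => ?_) ?_) _ rfl hb
      · simp only [Pi.add_apply, Pi.single_eq_of_ne hj, add_zero]
      · simp only [Pi.add_apply, Pi.single_eq_same]
        omega
    · have hb : dist (lpt (m + 1) (c.1 - Pi.single k 1)) (Δ i).o ≤ (Δ i).R - min ε 12 := by
        refine f4_between ho hc fun j => ?_
        by_cases hj : j = k
        · subst hj
          simp only [Pi.sub_apply, Pi.single_eq_same]
          omega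
        · simp only [Pi.sub_apply, Pi.single_eq_of_ne hj]
          omega
      rw [← k3 ⟨_, hW _ hb⟩ c k (sub_add_cancel _ _).symm (by linarith)]
      refine ih _ (hlt (c.1 - Pi.single k 1) (fun j hj => ?_) ?_) _ rfl hb
      · simp only [Pi.sub_apply, Pi.single_eq_of_ne hj, sub_zero]
      · simp only [Pi.sub_apply, Pi.single_eq_same]
        omega
  split_ifs with h
  · obtain ⟨c, σ⟩ := a
    simp only at h ha
    subst h
    exact key _ c rfl (by linarith [min_le_left ε 12])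
  · exact k2 a ha h

end Crest.Agent.R217
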