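import Crest.Agent.R217.F4

/-! Row 217, part F5: `E` is self-adjoint up to homotopy, so the isotypic forms are regular. -/

set_option autoImplicit false

namespace Crest.Agent.R217

open Filter Topology CategoryTheory Metric

universe u

variable {n : ℕ} {Δ : ℕ → Dat.{u} n} (J : JR (geo Δ) F0)

theorem locPair_BB {F : Filter NN} (h : F ≤ F0) :
    LocPair F (fun x => asSM ((geo Δ).P x)) (BB J) :=
  locPair_pairB _ (lam J) ((lam_loc J).filter_mono h)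

/-- `gram_adj` with `f = g = asD` (`pairB_D`, `lam_D`); in both contexts points of positive depth
lie in `closedBall o R` -/
theorem gram_D (hn : 0 < n) {good : Set ℕ} {K : Ctx (geo Δ).P} (hF : K.F = Fg good)
    (hK : ∀ x y, 0 < K.dep x y → y.1 ∈ closedBall (Δ x.1).o (Δ x.1).R)
    (u v : (geo Δ).N K ⟶ (geo Δ).D K) :
    gram (BB J) (u ≫ (geo Δ).Dd K) v = -gram (BB J) u (v ≫ (geo Δ).Dd K) := by
  have hB : LocPair K.F ((geo Δ).D K).A (BB J) := locPair_BB J (hF ▸ (mic_Fg good).le)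
  refine (gram_adj hB (geo Δ).ctrl_asD (geo Δ).ctrl_asD (-1) (fun ε hε => ?_) u v).trans
    (neg_one_smul ℂ _)
  rw [hF, eventually_Fg]
  intro i _
  filter_upwards [lam_D J hn i] with m hm a b ha
  exact pairB_D _ _ a b fun α hα => hm α fun w hw => hK (i, m) w (hε.trans_le (ha w (hα hw)))

theorem f5_Nd (K : Ctx (geo Δ).P) : (geo Δ).Nd K = ofR K (geo Δ).loc (dR K) := rfl

theorem f5_left (hn : 0 < n) {good : Set ℕ} {K : Ctx (geo Δ).P} (hF : K.F = Fg good)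
    (hK : ∀ x y, 0 < K.dep x y → y.1 ∈ closedBall (Δ x.1).o (Δ x.1).R) (hle : (KE Δ).Le K)
    (v : (geo Δ).N K ⟶ (geo Δ).D K) :
    star (dR K) * gram (BB J) (jK J K) v = -gram (BB J) (jK J K) (v ≫ (geo Δ).Dd K) := by
  have hB : LocPair K.F ((geo Δ).D K).A (BB J) := locPair_BB J hle.F
  rw [← gram_D J hn hF hK, ← d_jK J hle, f5_Nd, gram_comp_left hB]

theorem f5_lat {K : Ctx (geo Δ).P} (hL : LatCtx (K.comap (geo Δ).loc0) (geo Δ).pos) (he : Even n) :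
    dR K * dR K = 0 ∧ φR K * dR K + star (dR K) * φR K = 0 ∧ ∃ Ψ, Inv (φR K) Ψ :=
  ⟨lat_dd hL, lat_chain hL, lat_phi_inv hL he⟩

theorem f5_htpy {K : Ctx (geo Δ).P} (hF : K.F ≤ F0)
    (hL : LatCtx (K.comap (geo Δ).loc0) (geo Δ).pos) (hB : (geo Δ).Bal K)
    (F : R (K.comap (geo Δ).loc)) (h1 : F * dR K = dR K * F)
    (h2 : (geo Δ).Nη K ≫ ofR K (geo Δ).loc F = 0) : ∃ s, F = s * dR K + dR K * s := by
  have h3 : (geo Δ).Nd K ≫ ofR K (geo Δ).loc F = ofR K (geo Δ).loc F ≫ (geo Δ).Nd K := by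
    rw [f5_Nd, ← ofR_mul, ← ofR_mul, h1]
  obtain ⟨s, hs⟩ := exists_htpy (hasW_of_le hF) ((geo Δ).NCx hL)
    ((geo Δ).N_res hL hB (tendsto_M Δ hF)) fine_fin ((geo Δ).Nd K) ((geo Δ).NCx hL).DD
    (ofR K (geo Δ).loc F) h3 h2 n
  rw [(geo Δ).NCx_ϖ hL] at hs
  obtain ⟨s', hs'⟩ : ∃ s' : (geo Δ).N K ⟶ (geo Δ).N K,
      ofR K (geo Δ).loc F = (geo Δ).Nd K ≫ s' + s' ≫ (geo Δ).Nd K :=
    ⟨s, (Category.id_comp _).symm.trans (hs.trans (Category.id_comp _))⟩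
  refine ⟨toR s', ?_⟩
  rw [← toR_ofR F, hs', toR_add, toR_comp, toR_comp, toR_Nd]

/-- `gram_adj` with `pairB_E` -/
theorem gram_E {K : Ctx (geo Δ).P} (h : OrbCtx Δ K) (c : CF Δ) (u v : (geo Δ).N K ⟶ (geo Δ).D K) :
    gram (BB J) (u ≫ c.eH K) v = gram (BB J) u (v ≫ c.eH K) := by
  have hB : LocPair K.F ((geo Δ).D K).A (BB J) := locPair_BB J h.le.F
  exact (gram_adj hB (ctrl_e h c) (ctrl_e h c) 1 (fun ε hε => .of_forall fun x a b _ =>
    pairB_E ((CF.one Δ).u x.1) (c.u x.1) _ _ a b) u v).trans (one_smul ℂ _)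

/-- `K = K1 Δ (Fg good)`, `Φ = gram j j`: `d⋆ Φ = -Φ d` (`gram_D`, `d_jK`, `gram_comp_*`).  With `Ψ` the
inverse of `φ`, `F = ofR (Ψ Φ⋆ - 1)` is a chain map and `η ≫ F = 0` (`gram_span`, `pairB_one`,
`lam_norm`, `hmk_span_eq`, `Nη_phi`).  `exists_htpy` gives `Ψ Φ⋆ - 1 = d s + s d`; take `k = (φ s)⋆`. -/
theorem gram_phi (hn : 0 < n) (he : Even n) {good : Set ℕ} (hg : ∀ i ∈ good, Good J i) :
    ∃ k, gram (BB J) (jK J (K1 Δ (Fg good))) (jK J (K1 Δ (Fg good))) - φR (K1 Δ (Fg good)) =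
      star (dR (K1 Δ (Fg good))) * k - k * dR (K1 Δ (Fg good)) := by
  have hF0 : Fg good ≤ F0 := (mic_Fg good).le
  have hle : (KE Δ).Le (K1 Δ (Fg good)) := le_K1 hn (mic_Fg good)
  have hL := latCtx_of_le hle
  have hB : LocPair (K1 Δ (Fg good)).F ((geo Δ).D (K1 Δ (Fg good))).A (BB J) := locPair_BB J hF0
  have hK : ∀ x y, 0 < (K1 Δ (Fg good)).dep x y → y.1 ∈ closedBall (Δ x.1).o (Δ x.1).R :=
    fun x y h => mem_closedBall.2 (sub_pos.1 h).le
  have h1 := f5_left J hn rfl hK hle (jK J (K1 Δ (Fg good)))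
  rw [← d_jK J hle, f5_Nd, gram_comp_right hB] at h1
  obtain ⟨-, hc, Ψ, hΨ⟩ := f5_lat hL he
  have h2 : (geo Δ).Nη (K1 Δ (Fg good)) ≫ ofR _ (geo Δ).loc
      (star (gram (BB J) (jK J (K1 Δ (Fg good))) (jK J (K1 Δ (Fg good))))) =
      (geo Δ).Nη (K1 Δ (Fg good)) ≫ ofR _ (geo Δ).loc (φR (K1 Δ (Fg good))) := by
    refine (gram_span hB _ (jK J (K1 Δ (Fg good))) (ctrl_jF J hle)
      (fun x => asOne ((geo Δ).P x)) (η_jK J hle)).trans
      (Eq.trans (hmk_span_eq fun ε hε => ?_) ((geo Δ).Nη_phi hL he).symm)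
    refine eventually_Fg.2 fun i hi => ?_
    filter_upwards [lam_norm J hn (hg i hi) hε] with m hm a ha
    have e := pairB_one ((-Complex.I) ^ (n / 2)) (lam J (i, m)) (jF J (i, m) (Pi.single a 1))
    rw [hm a ha] at e
    refine (congrArg star e).trans ?_
    split_ifs <;> simp
  generalize gram (BB J) (jK J (K1 Δ (Fg good))) (jK J (K1 Δ (Fg good))) = Φ at h1 h2 ⊢
  have h3 := congrArg star h1
  rw [star_mul, star_star, star_neg, star_mul] at h3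
  have h4 := a3_dΨ hΨ hc
  obtain ⟨s, h5⟩ := f5_htpy hF0 hL (bal_K1 _) (Ψ * star Φ - 1)
    (by linear_combination (norm := noncomm_ring) Ψ * h3 - h4 * star Φ) (by
      rw [ofR_sub, ofR_mul, ofR_one, Preadditive.comp_sub, ← Category.assoc, h2, Category.assoc,
        ← ofR_mul, hΨ.2.2, ofR_one, sub_self])
  refine ⟨star (φR (K1 Δ (Fg good)) * s), ?_⟩
  have h6 : star Φ - φR (K1 Δ (Fg good)) = φR (K1 Δ (Fg good)) * s * dR (K1 Δ (Fg good)) -
      star (dR (K1 Δ (Fg good))) * (φR (K1 Δ (Fg good)) * s) := by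
    linear_combination (norm := noncomm_ring) φR (K1 Δ (Fg good)) * h5 - hΨ.2.1 * star Φ +
      hc * s
  have h7 := congrArg star h6
  rw [star_sub, star_star, hΨ.1, star_sub, star_mul _ (dR _), star_mul (star (dR _)), star_star] at h7
  exact h7

/-- transport `gram_phi` to `K = KH Δ (Fg good)` (`res_gram`).  `Φ E = gram j (j e r j)`,
`E⋆ Φ = gram (j e r j) j`; by `jerj`, `gram_D`, `gram_E` both are `gram j (j e)` up to terms
`d⋆ k - k d`. -/
theorem ER_sym (hn : 0 < n) (he : Even n) {good : Set ℕ} (hg : ∀ i ∈ good, Good J i) (c : CF Δ) :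
    ∃ k, φR (KH Δ (Fg good)) * ER J _ c - star (ER J _ c) * φR (KH Δ (Fg good)) =
      star (dR (KH Δ (Fg good))) * k - k * dR (KH Δ (Fg good)) := by
  obtain ⟨k, hk⟩ := gram_phi J hn he hg
  have hF0 : Fg good ≤ F0 := (mic_Fg good).le
  have hle1 : (KE Δ).Le (K1 Δ (Fg good)) := le_K1 hn (mic_Fg good)
  have h1H : (K1 Δ (Fg good)).Le (KH Δ (Fg good)) := K1_le_KH good
  have ho : OrbCtx Δ (KH Δ (Fg good)) := orb_KH hn good
  have hB1 : LocPair (K1 Δ (Fg good)).F ((geo Δ).D (K1 Δ (Fg good))).A (BB J) := locPair_BB J hF0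
  have hB : LocPair (KH Δ (Fg good)).F ((geo Δ).D (KH Δ (Fg good))).A (BB J) := locPair_BB J hF0
  have hK : ∀ x y, 0 < (KH Δ (Fg good)).dep x y → y.1 ∈ closedBall (Δ x.1).o (Δ x.1).R :=
    fun x y h => ball_subset_closedBall ((Δ x.1).pre y (sub_pos.1 h).le)
  have hc := h1H.comap (geo Δ).loc
  have hk' := congrArg (res ((KH Δ (Fg good)).comap (geo Δ).loc)) hk
  rw [res_sub hc, res_sub hc, res_mul hc, res_mul hc, res_star hc, res_gram hB1 h1H,
    resH_jK J hle1 h1H, (geo Δ).res_lt (latCtx_of_le hle1) h1H,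
    (geo Δ).res_lt (latCtx_of_le hle1) h1H] at hk'
  change gram (BB J) (jK J (KH Δ (Fg good))) (jK J (KH Δ (Fg good))) - φR (KH Δ (Fg good)) =
    star (dR (KH Δ (Fg good))) * _ - _ * dR (KH Δ (Fg good)) at hk'
  generalize res ((KH Δ (Fg good)).comap (geo Δ).loc) k = k' at hk'
  have hE := jerj J ho c
  rw [← Category.assoc (c.eH _), ← Category.assoc (jK J _), ← ofR_toR (jK J _ ≫ c.eH _ ≫ rK J _),
    ← ER_eq J ho] at hE
  have e1 := gram_comp_right hB (ER J (KH Δ (Fg good)) c) (jK J (KH Δ (Fg good)))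
    (jK J (KH Δ (Fg good)))
  have e2 := gram_comp_left hB (ER J (KH Δ (Fg good)) c) (jK J (KH Δ (Fg good)))
    (jK J (KH Δ (Fg good)))
  rw [hE, gram_add_right hB, gram_add_right hB] at e1
  rw [hE, gram_add_left hB, gram_add_left hB, gram_E J ho, gram_D J hn rfl hK,
    ← d_jK J ho.le] at e2
  have e3 := f5_left J hn rfl hK ho.le
    (jK J (KH Δ (Fg good)) ≫ c.eH (KH Δ (Fg good)) ≫ sK J (KH Δ (Fg good)))
  rw [f5_Nd, gram_comp_right hB] at e1
  rw [f5_Nd, gram_comp_left hB, gram_comp_right hB] at e2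
  have hd := ER_d J ho c
  have hd' := congrArg star hd
  rw [star_mul, star_mul] at hd'
  generalize jK J (KH Δ (Fg good)) ≫ c.eH (KH Δ (Fg good)) ≫ sK J (KH Δ (Fg good)) = t at e1 e2 e3
  refine ⟨-(gram (BB J) (jK J (KH Δ (Fg good))) t + gram (BB J) t (jK J (KH Δ (Fg good)))) -
    k' * ER J (KH Δ (Fg good)) c + star (ER J (KH Δ (Fg good)) c) * k', ?_⟩
  linear_combination (norm := noncomm_ring) e2 - e1 + e3 - hk' * ER J (KH Δ (Fg good)) c +
    star (ER J (KH Δ (Fg good)) c) * hk' + k' * hd + hd' * k'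

/-- `reg_FF_frm`, `blk_hom` -/
theorem reg_XF (hn : 0 < n) (he : Even n) {good : Set ℕ} (hg : ∀ i ∈ good, Good J i) (c : CF Δ) :
    Reg (XF J (KH Δ (Fg good)) c) := by
  have ho : OrbCtx Δ (KH Δ (Fg good)) := orb_KH hn good
  have hL := latCtx_of_le ho.le
  obtain ⟨hdd, hc, Ψ, hΨ⟩ := f5_lat hL he
  obtain ⟨t, ht⟩ := ER_idem J ho c
  obtain ⟨k, hk⟩ := ER_sym J hn he hg c
  have h := reg_FF_frm hdd hΨ hc (ER_d J ho c) ht hk
  exact (blk_hom (K := (KH Δ (Fg good)).comap (geo Δ).loc) (T := Fin 2)).reg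
    ((mul_one _).trans (one_mul _)) h

end Crest.Agent.R217
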