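import Crest.Agent.R217.FDefs

/-! Row 217, part F6: the flat line bundle over the orbit space near the fibre over `b`
(one datum at a time). -/

set_option autoImplicit false

namespace Crest.Agent.R217

open Filter Topology Metric

universe u

variable {n : ℕ}

open Classical in
/-- the transition kernel -/
noncomputable def uK (D : Dat.{u} n) (κ : ℝ) (y y' : D.W) : ℂ :=
  if h : ∃ g : D.H, dist y (g • y') < κ then D.χ h.choose else 1

theorem f6_star_mul {z : ℂ} {p : ℕ} (hp : 0 < p) (h : z ^ p = 1) : star z * z = 1 := by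
  have h1 : ‖z‖ = 1 := Complex.norm_eq_one_of_pow_eq_one h hp.ne'
  rw [Complex.star_def, Complex.conj_mul', h1]
  simp

theorem f6_star_chi (D : Dat.{u} n) (g : D.H) : star (D.χ g) = D.χ g⁻¹ := by
  have h1 := f6_star_mul D.p_pos (D.χ_pow g)
  have h2 : D.χ g * D.χ g⁻¹ = 1 := by rw [← map_mul, mul_inv_cancel, map_one]
  calc star (D.χ g) = star (D.χ g) * (D.χ g * D.χ g⁻¹) := by rw [h2, mul_one]
    _ = D.χ g⁻¹ := by rw [← mul_assoc, h1, one_mul]

theorem uK_pow (D : Dat.{u} n) (κ : ℝ) (y y' : D.W) : uK D κ y y' ^ D.p = 1 := by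
  unfold uK
  split_ifs with h
  · exact D.χ_pow _
  · exact one_pow _

theorem uK_unit (D : Dat.{u} n) (κ : ℝ) (y y' : D.W) : star (uK D κ y y') * uK D κ y y' = 1 :=
  f6_star_mul D.p_pos (uK_pow D κ y y')

/-- the constants attached to a datum -/
structure Tw (D : Dat.{u} n) where
  ρ : ℝ
  κ : ℝ
  δ : ℝ
  N : ℕ
  y : ℕ → D.W
  ρ_pos : 0 < ρ
  ρ_le : ρ ≤ 1
  hb : ‖D.b - D.β‖ + 10 * ρ ≤ D.S
  δ_pos : 0 < δ
  δ_le : δ ≤ κ / 2
  free : ∀ (z : D.W) (h : D.H), ‖D.f z - D.b‖ ≤ 11 * ρ → dist (h • z) z < 2 * κ → D.χ h = 1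
  unif : ∀ (g : D.H) (a b : D.W), dist a b < δ → dist (g • a) (g • b) < κ / 2
  y_mem : ∀ j < N, ‖D.f (y j) - D.b‖ ≤ 10 * ρ
  cover : ∀ z : D.W, ‖D.f z - D.b‖ ≤ 10 * ρ → ∃ j < N, dH D z (y j) < δ / 4

theorem f6_pos {X : Type*} [TopologicalSpace X] {K : Set X} (hK : IsCompact K) {φ : X → ℝ}
    (hφ : Continuous φ) (h : ∀ x ∈ K, 0 < φ x) : ∃ c, 0 < c ∧ ∀ x ∈ K, c ≤ φ x :=
  hK.exists_forall_le' hφ.continuousOn h

/-- `A = {h | χ h ≠ 1}` is compact (finite image).  The compact set of `(z, h) ∈ W × A` with `h • z = z`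
has `f z ≠ b` (`stab`), which gives `ρ`; on the compact set `{‖f z - b‖ ≤ 11 ρ} × A` the function
`dist (h • z) z` is positive, which gives `κ`; `unif_smul`, `dH_lt` and a finite subcover. -/
theorem exists_Tw (D : Dat.{u} n) : Nonempty (Tw D) := by
  classical
  have hA : IsClosed {h : D.H | D.χ h ≠ 1} := by
    have hfin : {z : ℂ | z ^ D.p = 1 ∧ z ≠ 1}.Finite := by
      refine (Polynomial.nthRoots D.p (1 : ℂ)).toFinset.finite_toSet.subset fun z hz => ?_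
      simpa [Polynomial.mem_nthRoots D.p_pos] using hz.1
    have e : {h : D.H | D.χ h ≠ 1} = D.χ ⁻¹' {z : ℂ | z ^ D.p = 1 ∧ z ≠ 1} := by
      ext h; simp [D.χ_pow h]
    rw [e]
    exact hfin.isClosed.preimage D.χ_cont
  have hφ : Continuous fun z : D.W => ‖D.f z - D.b‖ := (D.f_cont.sub continuous_const).norm
  have hsm : Continuous fun q : D.W × D.H => q.2 • q.1 := continuous_snd.smul continuous_fst
  have hA2 : IsClosed {q : D.W × D.H | D.χ q.2 ≠ 1} := hA.preimage continuous_snd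
  have hφ2 : Continuous fun q : D.W × D.H => ‖D.f q.1 - D.b‖ := hφ.comp' continuous_fst
  have hK1 : IsCompact {q : D.W × D.H | D.χ q.2 ≠ 1 ∧ q.2 • q.1 = q.1} :=
    (hA2.and (isClosed_eq hsm continuous_fst)).isCompact
  obtain ⟨c, hc0, hc⟩ := f6_pos hK1 hφ2
    (fun q hq => norm_pos_iff.2 (sub_ne_zero.2 fun h => hq.1 (D.stab q.2 q.1 h hq.2)))
  have hbS := D.hb
  obtain ⟨ρ, hρ0, hρ1, hρc, hρS⟩ : ∃ ρ : ℝ, 0 < ρ ∧ ρ ≤ 1 ∧ 11 * ρ < c ∧
      ‖D.b - D.β‖ + 10 * ρ ≤ D.S := by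
    refine ⟨min (min 1 (c / 12)) ((D.S - ‖D.b - D.β‖) / 10),
      lt_min (lt_min one_pos (by linarith)) (by linarith),
      (min_le_left _ _).trans (min_le_left _ _), ?_, ?_⟩
    · have := (min_le_left (min 1 (c / 12)) ((D.S - ‖D.b - D.β‖) / 10)).trans (min_le_right _ _)
      linarith
    · have := min_le_right (min 1 (c / 12)) ((D.S - ‖D.b - D.β‖) / 10)
      linarith
  have hK2 : IsCompact {q : D.W × D.H | D.χ q.2 ≠ 1 ∧ ‖D.f q.1 - D.b‖ ≤ 11 * ρ} :=
    (hA2.and (isClosed_le hφ2 continuous_const)).isCompact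
  have hdi : Continuous fun q : D.W × D.H => dist (q.2 • q.1) q.1 := hsm.dist continuous_fst
  obtain ⟨c2, hc20, hc2⟩ := f6_pos hK2 hdi
    (fun q hq => dist_pos.2 fun h => by
      have := hc q ⟨hq.1, h⟩
      have h2 := hq.2
      linarith)
  obtain ⟨δ1, hδ1, hu⟩ := unif_smul D (ε := c2 / 2 / 2) (by linarith)
  have hδ0 : 0 < min (c2 / 2 / 2) δ1 := lt_min (by linarith) hδ1
  obtain ⟨δ2, hδ2, hd⟩ := dH_lt D (ε := min (c2 / 2 / 2) δ1 / 4) (by linarith)
  have hK3 : IsCompact {z : D.W | ‖D.f z - D.b‖ ≤ 10 * ρ} :=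
    (isClosed_le hφ continuous_const).isCompact
  obtain ⟨t, hts, htf, hcov⟩ := finite_cover_balls_of_compact hK3 hδ2
  have hR : 0 ≤ D.R := by have := D.hR; have := norm_nonneg D.o; linarith
  let y0 : D.W := ⟨D.o, D.sub (mem_closedBall_self hR)⟩
  refine ⟨⟨ρ, c2 / 2, min (c2 / 2 / 2) δ1, htf.toFinset.toList.length,
    fun j => htf.toFinset.toList.getD j y0, hρ0, hρ1, hρS, hδ0, min_le_left _ _, ?_,
    fun g a b h => hu g a b (h.trans_le (min_le_right _ _)), ?_, ?_⟩⟩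
  · intro z h hz hlt
    by_contra hne
    have := hc2 (z, h) ⟨hne, hz⟩
    simp only at this
    linarith
  · intro j hj
    have hm : htf.toFinset.toList.getD j y0 ∈ htf.toFinset.toList := by
      rw [List.getD_eq_getElem _ _ hj]; exact List.getElem_mem hj
    exact hts (htf.mem_toFinset.1 (Finset.mem_toList.1 hm))
  · intro z hz
    obtain ⟨x, hx, hzx⟩ := Set.mem_iUnion₂.1 (hcov hz)
    obtain ⟨j, hj, e⟩ := List.getElem_of_mem (Finset.mem_toList.2 (htf.mem_toFinset.2 hx))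
    refine ⟨j, hj, ?_⟩
    rw [List.getD_eq_getElem _ _ hj, e]
    exact hd _ _ hzx

variable {D : Dat.{u} n} (T : Tw D)

theorem Tw.uK_eq {a b : D.W} (hb : ‖D.f b - D.b‖ ≤ 11 * T.ρ) {g : D.H} (hg : dist a (g • b) < T.κ) :
    uK D T.κ a b = D.χ g := by
  have hex : ∃ g : D.H, dist a (g • b) < T.κ := ⟨g, hg⟩
  unfold uK
  rw [dif_pos hex]
  have h1 := hex.choose_spec
  have h2 : D.χ (hex.choose * g⁻¹) = 1 := by
    refine T.free (g • b) _ (by rwa [D.f_inv]) ?_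
    rw [mul_smul, inv_smul_smul]
    have := dist_triangle_left (hex.choose • b) (g • b) a
    linarith
  calc D.χ hex.choose = D.χ (hex.choose * g⁻¹ * g) := by rw [inv_mul_cancel_right]
    _ = D.χ g := by rw [map_mul, h2, one_mul]

theorem Tw.uK_close {a b : D.W} (hb : ‖D.f b - D.b‖ ≤ 11 * T.ρ) (h : dist a b < T.δ) :
    uK D T.κ a b = 1 := by
  have h1 := T.δ_pos
  have h2 := T.δ_le
  rw [T.uK_eq hb (g := 1) (by rw [one_smul]; linarith), map_one]

theorem Tw.uK_coc {a b c : D.W} (hb : ‖D.f b - D.b‖ ≤ 11 * T.ρ) (hc : ‖D.f c - D.b‖ ≤ 11 * T.ρ)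
    (hab : dH D a b < T.δ) (hbc : dH D b c < T.δ) :
    uK D T.κ a b * uK D T.κ b c = uK D T.κ a c := by
  have h1 := T.δ_pos
  have h2 := T.δ_le
  obtain ⟨g, hg⟩ := exists_of_dH_lt D hab
  obtain ⟨g', hg'⟩ := exists_of_dH_lt D hbc
  have h3 := T.unif g _ _ hg'
  have h4 := dist_triangle a (g • b) (g • g' • c)
  rw [T.uK_eq hb (g := g) (by linarith), T.uK_eq hc (g := g') (by linarith),
    T.uK_eq hc (g := g * g') (by rw [mul_smul]; linarith), map_mul]

theorem Tw.uK_symm {a b : D.W} (ha : ‖D.f a - D.b‖ ≤ 11 * T.ρ) (hb : ‖D.f b - D.b‖ ≤ 11 * T.ρ)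
    (hab : dH D a b < T.δ) : star (uK D T.κ b a) = uK D T.κ a b := by
  have h1 := T.δ_pos
  have h2 := T.δ_le
  obtain ⟨g, hg⟩ := exists_of_dH_lt D hab
  have h3 := T.unif g⁻¹ _ _ hg
  rw [inv_smul_smul, dist_comm] at h3
  rw [T.uK_eq hb (g := g) (by linarith), T.uK_eq ha (g := g⁻¹) (by linarith), f6_star_chi, inv_inv]

theorem Tw.uK_gauge {a b : D.W} {j : ℕ} (hj : j < T.N) (hb : ‖D.f b - D.b‖ ≤ 11 * T.ρ)
    (hab : dH D a b < T.δ / 2) (ha : dH D a (T.y j) < T.δ / 2) :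
    uK D T.κ a b = uK D T.κ a (T.y j) * star (uK D T.κ b (T.y j)) := by
  have h1 := T.δ_pos
  have h2 := T.ρ_pos
  have h3 := T.y_mem j hj
  have h4 : dH D b a = dH D a b := hausdorffDist_comm
  have h5 := dH_triangle D b a (T.y j)
  rw [← T.uK_coc (a := a) (b := b) (c := T.y j) hb (by linarith) (by linarith) (by linarith),
    mul_assoc, mul_comm (uK D T.κ b (T.y j)), uK_unit, mul_one]

/-- if `w` is near `a` and `g • w` is near `b` then `conj (χ g) = u a b` -/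
theorem Tw.uK_char {a b w : D.W} {g : D.H} (hb : ‖D.f b - D.b‖ ≤ 11 * T.ρ) (hw : dist w a < T.δ)
    (hg : dist (g • w) b < T.δ) : star (D.χ g) = uK D T.κ a b := by
  have h1 := T.δ_pos
  have h2 := T.δ_le
  have h3 := T.unif g⁻¹ _ _ hg
  rw [inv_smul_smul] at h3
  have h4 := dist_triangle_left a (g⁻¹ • b) w
  have h5 := dist_triangle a w (g⁻¹ • b)
  rw [dist_comm a w] at h5
  rw [T.uK_eq hb (g := g⁻¹) (by linarith), f6_star_chi]

end Crest.Agent.R217
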