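import Crest.Agent.R217.F2
import Crest.Agent.R217.F6
import Crest.Agent.R217.CNil

/-! Row 217, part F7: the `χ`-part is the twist of the invariant part. -/

set_option autoImplicit false

namespace Crest.Agent.R217

open Filter Topology CategoryTheory Metric

universe u

variable {n : ℕ} {Δ : ℕ → Dat.{u} n} (J : JR (geo Δ) F0) (T : ∀ i, Tw (Δ i))

noncomputable def uF (x : NN) (a b : (geo Δ).P x) : ℂ := uK (Δ x.1) (T x.1).κ a b

section Aux

variable {T}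

theorem f7_norm {i m : ℕ} {ρ : ℝ} (hρ : 0 < ρ) (a : (geo Δ).P (i, m)) {c : ℝ}
    (h : ‖cb Δ i ρ (i, m) a‖ ≤ c) : ‖(Δ i).f a - (Δ i).b‖ ≤ c * ρ := by
  have e : cb Δ i ρ (i, m) a = ρ⁻¹ • ((Δ i).f a - (Δ i).b) := rfl
  rw [e, norm_smul, norm_inv, Real.norm_eq_abs, abs_of_pos hρ, inv_mul_le_iff₀ hρ] at h
  linarith

theorem f7_dep {i m : ℕ} {ρ ε : ℝ} (hε : 0 < ε) {a : (geo Δ).P (i, m)}
    (h : ε ≤ (KT Δ i ρ).dep (i, m) a) : ‖cb Δ i ρ (i, m) a‖ ≤ 10 := by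
  have e : (KT Δ i ρ).dep (i, m) a = 10 - ‖cb Δ i ρ (i, m) a‖ := rfl
  linarith

theorem f7_dH {i : ℕ} {ρ : ℝ} (x : NN) (a b : (geo Δ).P x) :
    dH (Δ x.1) a b ≤ (KT Δ i ρ).d x a b := le_max_left _ _

theorem f7_near {i m : ℕ} {ρ c η : ℝ} {a b : (geo Δ).P (i, m)} (ha : ‖cb Δ i ρ (i, m) a‖ ≤ c)
    (h : (KT Δ i ρ).d (i, m) a b < η) : ‖cb Δ i ρ (i, m) b‖ ≤ c + η := by
  have h1 : ‖cb Δ i ρ (i, m) a - cb Δ i ρ (i, m) b‖ ≤ (KT Δ i ρ).d (i, m) a b := le_max_right _ _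
  have h2 := norm_sub_norm_le (cb Δ i ρ (i, m) b) (cb Δ i ρ (i, m) a)
  rw [norm_sub_rev] at h2
  linarith

theorem f7_11 {i m : ℕ} {ρ c : ℝ} (hρ : 0 < ρ) {a : (geo Δ).P (i, m)}
    (h : ‖cb Δ i ρ (i, m) a‖ ≤ c) (hc : c ≤ 11) : ‖(Δ i).f a - (Δ i).b‖ ≤ 11 * ρ :=
  f7_norm hρ a (h.trans hc)

/-- `nu_twist` with an eventual order hypothesis -/
theorem f7_nu_twist {ι : Type} {P : ι → Type} {n : ℕ} {F : Filter ι} (K : Ctx P)
    (c : ∀ x, P x → Fin n → ℝ)
    (hK : K.Le (coord F c)) {u : ∀ x, P x → P x → ℂ} (hu : Coc K u) {p : ℕ} (hp : 0 < p)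
    (hup : ∀ᶠ x in K.F, ∀ a b, u x a b ^ p = 1) {S : Type}
    (g : S → ∀ x, P x → ℝ) (hg : ∀ j x a b, g j x a ≤ g j x b + K.d x a b) {t : ℝ} (ht : 0 < t)
    (γ : S → ∀ x, P x → ℂ) (hγ : ∀ j x a, star (γ j x a) * γ j x a = 1)
    (hc : ∀ j, Near K K fun x a b => 0 < g j x a → u x a b = γ j x a * star (γ j x b))
    (s : Finset S) {J : ι → Type} [∀ x, Fintype (J x)] [∀ x, DecidableEq (J x)]
    (π : ∀ x, J x → P x) (hs : (K.comap π).SmS fun x a => ∀ j ∈ s, g j x (π x a) < t)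
    {φ : R (K.comap π)} (r : Reg φ) :
    nu F n (fun x a => c x (π x a)) (had1 (K.comap π) (fun x a b => u x (π x a) (π x b)) φ) =ᶠ[F]
      nu F n (fun x a => c x (π x a)) φ := by
  have h1 := (Finset.eventually_all (Finset.range p)).2 fun k _ =>
    nu_twist_aux K c hK hu g hg ht γ hγ hc s π hs r k
  have h0 : ∀ k : ℕ, had1 (K.comap π) (fun x a b => u x (π x a) (π x b) ^ (k + p)) φ =
      had1 (K.comap π) (fun x a b => u x (π x a) (π x b) ^ k) φ := fun k =>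
    mk_congr (MC.had1 ((Ctx.Le.refl _).adm _) (rep_mc _))
      (hup.mono fun x hx => by simp only [pow_add, hx, mul_one])
  filter_upwards [h1] with x hx
  have h2 := periodic_fwdDiff hp (a := fun k : ℕ => nu F n (fun x a => c x (π x a))
      (had1 (K.comap π) (fun x a b => u x (π x a) (π x b) ^ k) φ) x)
    (fun k => by simp only [h0]) s.card fun k hk => hx k (Finset.mem_range.2 hk)
  simp only [pow_one, pow_zero] at h2
  rw [had1_one (Ctx.Le.refl _), res_self] at h2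
  exact h2

end Aux

/-- `Near.of_eps`, `Near3.of_eps`, `eventually_Fi`; a deep point has `‖f a - b‖ ≤ 10 ρ`, a point at
`KT`-distance `< 1/2` (twice) from it has `‖f · - b‖ ≤ 11 ρ` -/
theorem coc_uF (i : ℕ) : Coc (KT Δ i (T i).ρ) (uF T) := by
  have hρ := (T i).ρ_pos
  have hδ : 0 < min (T i).δ (1 / 2) := lt_min (T i).δ_pos (by norm_num)
  have h1 : min (T i).δ (1 / 2) ≤ (T i).δ := min_le_left _ _
  have h2 : min (T i).δ (1 / 2) ≤ 1 / 2 := min_le_right _ _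
  refine ⟨fun ε hε => eventually_Fi.2 (.of_forall fun m a ha => not_le.1 fun h => ha ?_),
    Near.of_eps le_rfl fun ε hε => ⟨_, hδ, eventually_Fi.2 (.of_forall fun m a b hab h => ?_)⟩,
    Near3.of_eps le_rfl fun ε hε =>
      ⟨_, hδ, eventually_Fi.2 (.of_forall fun m a b c hab hbc h => ?_)⟩⟩
  · exact (T i).uK_close (f7_11 hρ (f7_dep hε h) (by norm_num))
      ((dist_self _).trans_lt (T i).δ_pos)
  · have ha := f7_dep hε h
    exact (T i).uK_symm (f7_11 hρ ha (by norm_num)) (f7_11 hρ (f7_near ha hab) (by linarith))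
      (((f7_dH _ a b).trans_lt hab).trans_le h1)
  · have ha := f7_dep hε h
    have hb := f7_near ha hab
    exact (T i).uK_coc (f7_11 hρ hb (by linarith)) (f7_11 hρ (f7_near hb hbc) (by linarith))
      (((f7_dH _ a b).trans_lt hab).trans_le h1) (((f7_dH _ b c).trans_lt hbc).trans_le h1)

/-- Entrywise, for a deep row `a` and any `b`: if both entries vanish there is nothing to prove, so `b`
is `KT`-close to `a` (`mc_EM`).  `β = j e_b` is supported within `δ` of `loc b`; by `supp_asE_twist`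
and `Tw.uK_char` the cochain `e_χ β - u a b • e₁ β` has no support within `δ` of `loc a`, so `r` of it
vanishes at `a` (control of `r` in `KE`). -/
theorem ER_twist (hn : 0 < n) (i : ℕ) :
    had1 ((KT Δ i (T i).ρ).comap (geo Δ).loc)
      (fun x a b => uF T x ((geo Δ).loc x a) ((geo Δ).loc x b)) (ER J (KT Δ i (T i).ρ) (CF.one Δ)) =
      ER J (KT Δ i (T i).ρ) (CF.chi Δ) := by
  have hρ := (T i).ρ_pos
  have ho : OrbCtx Δ (KT Δ i (T i).ρ) := orb_KT hn hρ (T i).hb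
  have hA := mc_EM J ho (CF.one Δ)
  have hB := mc_EM J ho (CF.chi Δ)
  have had := (Ctx.Le.refl ((KT Δ i (T i).ρ).comap (geo Δ).loc)).adm
    fun x a b => uF T x ((geo Δ).loc x a) ((geo Δ).loc x b) ≠ 0
  obtain ⟨S, hS, hj⟩ := ctrl_jF J (Ctx.Le.refl (KE Δ))
  obtain ⟨S', hS', hr⟩ := ctrl_rF J (Ctx.Le.refl (KE Δ))
  have hF : Fi i ≤ F0 := (mic_Fi i).le
  rw [ER, ER, had1_mk had hA]
  refine mk_eq_of_eps (hA.had1 had) hB fun ε hε => ?_
  have e1 := eventually_Fi.1 (hA 1 one_pos)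
  have e2 := eventually_Fi.1 (hB 1 one_pos)
  have e3 := eventually_Fi.1 (hF (hS _ (T i).δ_pos))
  have e4 := eventually_Fi.1 (hF (hS' _ (T i).δ_pos))
  have e5 := eventually_Fi.1 (hF hj)
  have e6 := eventually_Fi.1 (hF hr)
  refine eventually_Fi.2 ?_
  filter_upwards [e1, e2, e3, e4, e5, e6] with m e1 e2 e3 e4 e5 e6 a b ha
  rw [Matrix.of_apply]
  by_contra hne
  have hab : (KT Δ i (T i).ρ).d (i, m) ((geo Δ).loc _ a) ((geo Δ).loc _ b) < 1 := by
    by_cases h0 : EM J (CF.one Δ) (i, m) a b = 0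
    · exact e2 a b fun h1 => hne (by rw [h0, h1, mul_zero])
    · exact e1 a b h0
  have hb := f7_11 hρ (f7_near (f7_dep hε ha) hab) (by norm_num)
  set β := jF J (i, m) (Pi.single b 1) with hβ
  set ζ := uF T (i, m) ((geo Δ).loc _ a) ((geo Δ).loc _ b) with hζ
  have hz : rF J (i, m) ((CF.chi Δ).e (i, m) β - ζ • (CF.one Δ).e (i, m) β) a ≠ 0 := by
    rw [map_sub, map_smul]
    exact fun h => hne (sub_eq_zero.1 h).symm
  obtain ⟨w, hw, hw'⟩ := e6 _ ((geo Δ).loc _ a) ⟨a, hz, rfl⟩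
  refine supp_asE_twist (Z := (Δ i).W) (H := (Δ i).H) ((CF.one Δ).u i) ((CF.chi Δ).u i)
    (Δ i).p_pos (Δ i).χ_pow β ζ (fun g hg => ?_) hw
  obtain ⟨_, ⟨b', hb', rfl⟩, h3⟩ := e5 _ _ hg
  obtain rfl : b' = b := by
    by_contra h4
    exact hb' (Pi.single_eq_of_ne h4 _)
  have h5 : dist ((geo Δ).loc _ a) w < (T i).δ := e4 _ _ hw'
  exact (T i).uK_char hb (by rwa [dist_comm] at h5) (e3 _ _ h3)

/-- `had1_lat`, `Tw.uK_close` -/
theorem lt_twist (hn : 0 < n) (i : ℕ) (M : Matrix (Ty n) (Ty n) (LA n)) :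
    had1 ((KT Δ i (T i).ρ).comap (geo Δ).loc)
      (fun x a b => uF T x ((geo Δ).loc x a) ((geo Δ).loc x b)) ((geo Δ).lt (KT Δ i (T i).ρ) M) =
      (geo Δ).lt (KT Δ i (T i).ρ) M := by
  have hρ := (T i).ρ_pos
  have ho : OrbCtx Δ (KT Δ i (T i).ρ) := orb_KT hn hρ (T i).hb
  have hF : Fi i ≤ F0 := (mic_Fi i).le
  refine had1_lat (latCtx_of_le ho.le)
    (u := fun x a b => uF T x ((geo Δ).loc0 x a) ((geo Δ).loc0 x b)) (fun σ ε hε => ?_) M
  have e1 := eventually_Fi.1 ((latCtx_of_le ho.le).smR σ 1 one_pos)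
  have e2 := eventually_Fi.1 (hF ((latCtx_of_le (Ctx.Le.refl (KE Δ))).smR σ _ (T i).δ_pos))
  refine eventually_Fi.2 ?_
  filter_upwards [e1, e2] with m e1 e2 a ⟨b, hb, hu⟩
  refine not_le.1 fun h => hu ?_
  exact (T i).uK_close (f7_11 hρ (f7_near (f7_dep hε h) (e1 a b hb)) (by norm_num)) (e2 a b hb)

theorem f7_XF (hn : 0 < n) (i : ℕ) :
    had1 (((KT Δ i (T i).ρ).comap (geo Δ).loc).prod fun _ => Fin 2)
      (fun x p q => uF T x ((geo Δ).loc x p.1) ((geo Δ).loc x q.1))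
      (XF J (KT Δ i (T i).ρ) (CF.one Δ)) = XF J (KT Δ i (T i).ρ) (CF.chi Δ) := by
  have hh := ((coc_uF T i).comap (geo Δ).loc).hom
  rw [XF, XF, had1_blk ((Ctx.Le.refl _).adm _)
    (k := fun x a b => uF T x ((geo Δ).loc x a) ((geo Δ).loc x b)), hh.map_FF, frm, frm, hh.sub,
    hh.add, hh.mul1, hh.mul1, hh.star, ER_twist J T hn i, lt_twist T hn i, lt_twist T hn i]

/-- `had1_blk`, `Coc.hom`, `CornerHom.map_FF`; then `nu_twist` with `S = ℕ`, `s = range (T i).N`,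
`g j x y = (T x.1).δ / 2 - dH y ((T x.1).y j)` for `j < (T x.1).N` and `-1` otherwise,
`γ j x y = uK y ((T x.1).y j)`, `t = (T i).δ / 4`, `p = (Δ i).p`; since `nu_twist` wants
`u ^ p = 1` for all `x`, replace `uF T x` by `if x.1 = i then uF T x else 1` (`had1_congr`). -/
theorem nu_XF_twist (hn : 0 < n) (i : ℕ) (r : Reg (XF J (KT Δ i (T i).ρ) (CF.one Δ))) :
    nu (Fi i) n (I := fun x => (geo Δ).I x × Fin 2)
        (fun x a => cb Δ i (T i).ρ x ((geo Δ).loc x a.1)) (XF J (KT Δ i (T i).ρ) (CF.chi Δ)) =ᶠ[Fi i]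
      nu (Fi i) n (I := fun x => (geo Δ).I x × Fin 2)
        (fun x a => cb Δ i (T i).ρ x ((geo Δ).loc x a.1)) (XF J (KT Δ i (T i).ρ) (CF.one Δ)) := by
  have hρ := (T i).ρ_pos
  have hδ := (T i).δ_pos
  rw [← f7_XF J T hn i]
  refine f7_nu_twist (KT Δ i (T i).ρ) (cb Δ i (T i).ρ) (KT_le_coord i _) (coc_uF T i) (Δ i).p_pos
    (eventually_Fi.2 (.of_forall fun m a b => uK_pow (Δ i) _ a b))
    (fun (j : ℕ) x y => if j < (T x.1).N then (T x.1).δ / 2 - dH (Δ x.1) y ((T x.1).y j) else -1)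
    (fun j x a b => ?_) (t := (T i).δ / 4) (by positivity)
    (fun j x y => uK (Δ x.1) (T x.1).κ y ((T x.1).y j)) (fun j x a => uK_unit _ _ _ _)
    (fun j => ?_) (Finset.range (T i).N) (J := fun x => (geo Δ).I x × Fin 2)
    (fun x p => (geo Δ).loc x p.1) (fun ε hε => ?_) r
  · split_ifs
    · have h1 := dH_triangle (Δ x.1) b a ((T x.1).y j)
      have h2 := f7_dH (i := i) (ρ := (T i).ρ) x b a
      rw [(KT Δ i (T i).ρ).d_symm] at h2
      linarith
    · linarith [(KT Δ i (T i).ρ).d_nonneg x a b]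
  · refine Near.of_eps le_rfl fun ε hε => ⟨min ((T i).δ / 2) 1, lt_min (by positivity) one_pos,
      eventually_Fi.2 (.of_forall fun m a b hab h hg => ?_)⟩
    have hj : j < (T i).N := by
      by_contra hj
      rw [if_neg hj] at hg
      linarith
    rw [if_pos hj] at hg
    exact (T i).uK_gauge hj
      (f7_11 hρ (f7_near (f7_dep hε h) (hab.trans_le (min_le_right _ _))) (by norm_num))
      (((f7_dH _ a b).trans_lt hab).trans_le (min_le_left _ _)) (sub_pos.1 hg)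
  · refine eventually_Fi.2 (.of_forall fun m a ha => not_le.1 fun h => ?_)
    obtain ⟨j, hj, h1⟩ := (T i).cover _ (f7_norm hρ _ (f7_dep hε h))
    have h2 := ha j (Finset.mem_range.2 hj)
    rw [if_pos hj] at h2
    have h3 : (T i).δ / 2 - dH (Δ i) ((geo Δ).loc (i, m) a.1) ((T i).y j) < (T i).δ / 4 := h2
    linarith

end Crest.Agent.R217
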