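import Mathlib

/-! Row 217, part G: the data of the core theorem. Definitions only: DO NOT CHANGE (owner helper92). -/

set_option autoImplicit false

namespace Crest.Agent.R217

open Filter Topology Metric

universe u

/-- a character of finite order such that every closed subgroup not in its kernel is everything -/
structure MinPair (H : Type u) [Group H] [TopologicalSpace H] (χ : H →* ℂ) (p : ℕ) : Prop where
  cont : Continuous χ
  pos : 0 < p
  pow : ∀ g, χ g ^ p = 1
  ne : ∃ g, χ g ≠ 1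
  min : ∀ S : Subgroup H, IsClosed (S : Set H) → (∃ g ∈ S, χ g ≠ 1) → S = ⊤

/-- a compact group acting on a compact subset of `ℝⁿ` (sup norm), a character of finite order, an
invariant map `f`, and a point `b` over which the stabilisers lie in the kernel of the character -/
structure Dat (n : ℕ) where
  H : Type u
  [grp : Group H]
  [top : TopologicalSpace H]
  [tg : IsTopologicalGroup H]
  [cpt : CompactSpace H]
  [t2 : T2Space H]
  [sc : SecondCountableTopology H]
  W : Set (Fin n → ℝ)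
  cW : IsCompact W
  [act : MulAction H W]
  [cont : ContinuousSMul H W]
  χ : H →* ℂ
  p : ℕ
  χ_cont : Continuous χ
  p_pos : 0 < p
  χ_pow : ∀ g, χ g ^ p = 1
  χ_ne : ∃ g, χ g ≠ 1
  f : W → Fin n → ℝ
  f_cont : Continuous f
  f_inv : ∀ (g : H) (y : W), f (g • y) = f y
  o : Fin n → ℝ
  R : ℝ
  β : Fin n → ℝ
  S : ℝ
  b : Fin n → ℝ
  sub : closedBall o R ⊆ W
  int : ∀ (g : H) (y : W), y.1 ∈ closedBall o R → (g • y).1 ∈ interior W
  hR : ‖o‖ + 12 ≤ R
  hS : ‖β‖ + 11 ≤ S
  hSR : S < R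
  pre : ∀ y : W, ‖f y - β‖ ≤ S → y.1 ∈ ball o R
  hb : ‖b - β‖ < S
  stab : ∀ (g : H) (y : W), f y = b → g • y = y → χ g = 1

attribute [instance] Dat.grp Dat.top Dat.tg Dat.cpt Dat.t2 Dat.sc Dat.act Dat.cont

/-- `f` tends to the identity near the origin -/
def SmallSeq {n : ℕ} (Δ : ℕ → Dat.{u} n) : Prop :=
  ∀ ε > (0 : ℝ), ∀ᶠ i in atTop, ∀ y : (Δ i).W, (‖y.1‖ ≤ 12 ∨ ‖(Δ i).f y‖ ≤ 12) →
    ‖(Δ i).f y - y.1‖ ≤ ε

/-- the core theorem in dimension `n` -/
def Core (n : ℕ) : Prop := ∀ Δ : ℕ → Dat.{u} n, SmallSeq Δ → False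

end Crest.Agent.R217
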