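import Crest.Agent.R217.E2
import Crest.Agent.R217.E3
import Crest.Agent.R217.DRes
import Crest.Agent.R217.BAcyc
import Crest.Agent.R217.A3
import Crest.Agent.R217.GDefs

/-! Row 217, part F: set-up of the core theorem.  Index `x = (i, m)`: datum `Δ i`, mesh `1/(m+1)`.
Definitions: DO NOT CHANGE (owner helper92); only fill in the proofs. -/

set_option autoImplicit false

namespace Crest.Agent.R217

open Filter Topology CategoryTheory Metric

universe u

variable {n : ℕ}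

/-- comparison maps between the lattice complex and the Alexander–Spanier complex -/
structure JR {ι : Type} (G : Geo ι n) (F : Filter ι) where
  j : G.N (G.K0 F) ⟶ G.D (G.K0 F)
  r : G.D (G.K0 F) ⟶ G.N (G.K0 F)
  s : G.D (G.K0 F) ⟶ G.D (G.K0 F)
  ηj : G.Nη _ ≫ j = G.Dη _
  ηr : G.Dη _ ≫ r = G.Nη _
  jd : G.Nd _ ≫ j = j ≫ G.Dd _
  rd : G.Dd _ ≫ r = r ≫ G.Nd _
  jπ : ∀ q, G.Nπ _ q ≫ j = j ≫ G.Dπ _ q
  rπ : ∀ q, G.Dπ _ q ≫ r = r ≫ G.Nπ _ q
  htpy : (G.DCx _).ϖ n ≫ (r ≫ j - 𝟙 _) = (G.DCx _).ϖ n ≫ (G.Dd _ ≫ s + s ≫ G.Dd _)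

/-- `exists_chain_of_source`, `exists_chain_of_target`, `exists_htpy` with `N_res`, `D_res`,
`fine_fin`, `fine_D`, `bal_K0`, `latCtx_K0` -/
theorem exists_JR {ι : Type} (G : Geo ι n) {F : Filter ι} (hM : Tendsto G.M F atTop) :
    Nonempty (JR G F) := by
  have hW : HasW (G.K0 F).F := ⟨G.M, hM⟩
  have hL := G.latCtx_K0 hM
  have hN := G.N_res hL (G.bal_K0 F) hM
  have hD := G.D_res (G.bal_K0 F)
  obtain ⟨j, j1, j2, j3⟩ :=
    exists_chain_of_source hW (G.NCx hL) (G.DCx _) hN (G.fine_D F) n (G.NCx_ϖ hL)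
  obtain ⟨r, r1, r2, r3⟩ :=
    exists_chain_of_target hW (G.DCx _) (G.NCx hL) hD fine_fin n (G.NCx_ϖ hL) (G.Nπ_Nd hL)
  obtain ⟨s, hs⟩ := exists_htpy hW (G.DCx _) hD (B := (G.DCx (G.K0 F)).A) (G.fine_D F) (G.DCx _).D (G.DCx _).DD
    (r ≫ j - 𝟙 (G.DCx (G.K0 F)).A)
    (by rw [Preadditive.comp_sub, Preadditive.sub_comp, ← Category.assoc, r3, Category.assoc, j3,
      Category.assoc, Category.comp_id, Category.id_comp])
    (by rw [Preadditive.comp_sub, ← Category.assoc, r1, j1, Category.comp_id, sub_self]) n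
  exact ⟨⟨j, r, s, j1, r1, j3, r3, j2, r2, hs⟩⟩

abbrev NN := ℕ × ℕ

def F0 : Filter NN := Filter.comap Prod.snd atTop

def Fc : Filter NN := (atTop : Filter ℕ).curry atTop

def Fi (i : ℕ) : Filter NN := Filter.map (fun m => (i, m)) atTop

def Fg (good : Set ℕ) : Filter NN := ⨆ i ∈ good, Fi i

/-- for each `i` the mesh index is eventually as large as we like -/
def Mic (F : Filter NN) : Prop := ∀ A : ℕ → Set NN, (∀ i, A i ∈ F0) → ∀ᶠ x in F, x ∈ A x.1

variable (Δ : ℕ → Dat.{u} n)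

def geo : Geo NN n where
  W x := (Δ x.1).W
  cW x := (Δ x.1).cW
  M x := x.2 + 1
  M_pos x := Nat.succ_pos _

instance (D : Dat.{u} n) : CompactSpace D.W := isCompact_iff_compactSpace.mp D.cW

instance (x : NN) : CompactSpace ((geo Δ).P x) := inferInstanceAs (CompactSpace (Δ x.1).W)

instance (x : NN) : MulAction (Δ x.1).H ((geo Δ).P x) := (Δ x.1).act

instance (x : NN) : ContinuousSMul (Δ x.1).H ((geo Δ).P x) := (Δ x.1).cont

/-- distance of orbits -/
noncomputable def dH (D : Dat.{u} n) (y y' : D.W) : ℝ :=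
  hausdorffDist (MulAction.orbit D.H y) (MulAction.orbit D.H y')

theorem fdefs_fin (D : Dat.{u} n) (a b : D.W) :
    hausdorffEDist (MulAction.orbit D.H a) (MulAction.orbit D.H b) ≠ ⊤ :=
  hausdorffEDist_ne_top_of_nonempty_of_bounded ⟨a, MulAction.mem_orbit_self a⟩
    ⟨b, MulAction.mem_orbit_self b⟩ isBounded_of_compactSpace isBounded_of_compactSpace

theorem dH_triangle (D : Dat.{u} n) (a b c : D.W) : dH D a c ≤ dH D a b + dH D b c :=
  hausdorffDist_triangle (fdefs_fin D a b)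

theorem dH_smul (D : Dat.{u} n) (g : D.H) (y : D.W) : dH D (g • y) y = 0 := by
  rw [dH, MulAction.orbit_smul, hausdorffDist_self_zero]

theorem exists_of_dH_lt (D : Dat.{u} n) {a b : D.W} {δ : ℝ} (h : dH D a b < δ) :
    ∃ g : D.H, dist a (g • b) < δ := by
  obtain ⟨_, ⟨g, rfl⟩, hg⟩ :=
    exists_dist_lt_of_hausdorffDist_lt (MulAction.mem_orbit_self a) h (fdefs_fin D a b)
  exact ⟨g, hg⟩

/-- uniform equicontinuity of the action -/
theorem unif_smul (D : Dat.{u} n) {ε : ℝ} (hε : 0 < ε) : ∃ δ > (0 : ℝ), ∀ (g : D.H) (a b : D.W),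
    dist a b < δ → dist (g • a) (g • b) < ε := by
  have hc : IsCompact {p : D.H × D.W × D.W | ε ≤ dist (p.1 • p.2.1) (p.1 • p.2.2)} :=
    (isClosed_le continuous_const (by fun_prop)).isCompact
  obtain ⟨δ, hδ, h⟩ := hc.exists_forall_le' (f := fun p => dist p.2.1 p.2.2) (a := 0)
    (by fun_prop) fun p hp => dist_pos.2 fun h => by
      rw [Set.mem_ofPred_eq, h, dist_self] at hp
      exact hp.not_gt hε
  exact ⟨δ, hδ, fun g a b hab => not_le.1 fun h' => (h (g, a, b) h').not_gt hab⟩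

theorem dH_lt (D : Dat.{u} n) {ε : ℝ} (hε : 0 < ε) : ∃ δ > (0 : ℝ), ∀ a b : D.W,
    dist a b < δ → dH D a b < ε := by
  obtain ⟨δ, hδ, h⟩ := unif_smul D (half_pos hε)
  refine ⟨δ, hδ, fun a b hab => lt_of_le_of_lt (hausdorffDist_le_of_mem_dist (half_pos hε).le ?_ ?_)
    (half_lt_self hε)⟩
  · rintro _ ⟨g, rfl⟩
    exact ⟨g • b, ⟨g, rfl⟩, (h g a b hab).le⟩
  · rintro _ ⟨g, rfl⟩
    exact ⟨g • a, ⟨g, rfl⟩, (h g b a (by rwa [dist_comm])).le⟩

/-- the Euclidean reference context -/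
noncomputable abbrev KE : Ctx (geo Δ).P := (geo Δ).K0 F0

/-- Euclidean metric, depth in the ball `ball o R` -/
noncomputable def K1 (F : Filter NN) : Ctx (geo Δ).P where
  F := F
  d _ a b := dist a.1 b.1
  dep x a := (Δ x.1).R - dist a.1 (Δ x.1).o
  d_self _ _ := dist_self _
  d_symm _ _ _ := dist_comm _ _
  d_tri _ _ _ _ := dist_triangle _ _ _
  dep_lip x a b := by have := dist_triangle b.1 a.1 (Δ x.1).o; rw [dist_comm b.1 a.1] at this; linarith

/-- orbit contexts -/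
noncomputable def KO (F : Filter NN) (c : ∀ x, (geo Δ).P x → Fin n → ℝ) (r : NN → ℝ) :
    Ctx (geo Δ).P where
  F := F
  d x a b := max (dH (Δ x.1) a b) ‖c x a - c x b‖
  dep x a := r x - ‖c x a‖
  d_self x a := by
    rw [sub_self, norm_zero, show dH (Δ x.1) a a = 0 from hausdorffDist_self_zero, max_self]
  d_symm x a b := by
    rw [norm_sub_rev, show dH (Δ x.1) a b = dH (Δ x.1) b a from hausdorffDist_comm]
  d_tri x a b e := max_le
    ((dH_triangle _ a b e).trans (add_le_add (le_max_left _ _) (le_max_left _ _)))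
    ((norm_sub_le_norm_sub_add_norm_sub _ (c x b) _).trans
      (add_le_add (le_max_right _ _) (le_max_right _ _)))
  dep_lip x a b := by
    have := norm_sub_norm_le (c x b) (c x a)
    rw [norm_sub_rev] at this
    linarith [le_max_right (dH (Δ x.1) a b) ‖c x a - c x b‖]

/-- the coordinates `f` -/
def cf (x : NN) (y : (geo Δ).P x) : Fin n → ℝ := (Δ x.1).f y

noncomputable def KH (F : Filter NN) : Ctx (geo Δ).P :=
  KO Δ F (fun x y => cf Δ x y - (Δ x.1).β) fun x => (Δ x.1).S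

/-- the coordinates `(f - b) / ρ` -/
noncomputable def cb (i : ℕ) (ρ : ℝ) (x : NN) (y : (geo Δ).P x) : Fin n → ℝ :=
  ρ⁻¹ • (cf Δ x y - (Δ i).b)

noncomputable def KT (i : ℕ) (ρ : ℝ) : Ctx (geo Δ).P := KO Δ (Fi i) (cb Δ i ρ) fun _ => 10

/-- the macroscopic context -/
noncomputable abbrev KM : Ctx (geo Δ).P := coord Fc (cf Δ)

/-- contexts in which the group acts -/
structure OrbCtx (K : Ctx (geo Δ).P) : Prop where
  le : (KE Δ).Le K
  orb : ∀ x (g : (Δ x.1).H) (y : (geo Δ).P x), K.d x (g • y) y = 0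

/-- families of characters -/
structure CF where
  ψ : ∀ i, (Δ i).H →* ℂ
  u : ∀ i, UChar (ψ i)

noncomputable def CF.one : CF Δ := ⟨fun _ => 1, fun _ => uchar_one⟩

noncomputable def CF.chi : CF Δ :=
  ⟨fun i => (Δ i).χ, fun i => uchar_of_pow (Δ i).χ_cont (Δ i).p_pos (Δ i).χ_pow⟩

variable {Δ}

noncomputable def CF.e (c : CF Δ) (x : NN) : AS ((geo Δ).P x) →ₗ[ℂ] AS ((geo Δ).P x) :=
  asE (c.u x.1)

noncomputable def CF.eH (c : CF Δ) (K : Ctx (geo Δ).P) : (geo Δ).D K ⟶ (geo Δ).D K :=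
  hmk ((geo Δ).D K) ((geo Δ).D K) c.e

variable (J : JR (geo Δ) F0)

noncomputable def jK (K : Ctx (geo Δ).P) : (geo Δ).N K ⟶ (geo Δ).D K := resH K J.j

noncomputable def rK (K : Ctx (geo Δ).P) : (geo Δ).D K ⟶ (geo Δ).N K := resH K J.r

noncomputable def sK (K : Ctx (geo Δ).P) : (geo Δ).D K ⟶ (geo Δ).D K := resH K J.s

/-- representatives -/
noncomputable def jF (x : NN) : ((geo Δ).I x → ℂ) →ₗ[ℂ] AS ((geo Δ).P x) := hrep J.j x

noncomputable def rF (x : NN) : AS ((geo Δ).P x) →ₗ[ℂ] ((geo Δ).I x → ℂ) := hrep J.r x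

/-- the matrix of `r e j` -/
noncomputable def EM (c : CF Δ) : MF (geo Δ).I := fun x =>
  Matrix.of fun a b => rF J x (c.e x (jF J x (Pi.single b 1))) a

noncomputable def ER (K : Ctx (geo Δ).P) (c : CF Δ) : R (K.comap (geo Δ).loc) := mk _ (EM J c)

noncomputable abbrev dR (K : Ctx (geo Δ).P) : R (K.comap (geo Δ).loc) := (geo Δ).lt K (dK n (XX n))

noncomputable abbrev φR (K : Ctx (geo Δ).P) : R (K.comap (geo Δ).loc) := (geo Δ).lt K (phiK n (XX n))

/-- the form of the isotypic part -/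
noncomputable def XF (K : Ctx (geo Δ).P) (c : CF Δ) :
    R ((K.comap (geo Δ).loc).prod fun _ => Fin 2) :=
  blk (FF (dR K) (frm (φR K) (ER J K c)))

/-- sum of the top degree coordinates -/
noncomputable def epsF (x : NN) : ((geo Δ).I x → ℂ) →ₗ[ℂ] ℂ :=
  ∑ a : (geo Δ).Λ x, LinearMap.proj (a, Ty.top n)

/-- the invariant integral -/
noncomputable def lam (x : NN) : AS ((geo Δ).P x) →ₗ[ℂ] ℂ :=
  (epsF x ∘ₗ rF J x) ∘ₗ (CF.one Δ).e x

/-- the integral is normalised at the origin -/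
def Good (i : ℕ) : Prop := ∀ᶠ m in atTop, ∀ a : (geo Δ).I (i, m), a.1.1 = 0 → a.2 = Ty.top n →
  lam J (i, m) (jF J (i, m) (Pi.single a 1)) = 1

noncomputable def BB (x : NN) : AS ((geo Δ).P x) → AS ((geo Δ).P x) → ℂ :=
  pairB ((-Complex.I) ^ (n / 2)) (lam J x)

end Crest.Agent.R217
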