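import Crest.Agent.R217.F5
import Crest.Agent.R217.F7

/-! Row 217, part F: the core theorem. -/

set_option autoImplicit false

namespace Crest.Agent.R217

open Filter Topology CategoryTheory Metric

universe u

variable {n : ℕ} {Δ : ℕ → Dat.{u} n} (J : JR (geo Δ) F0)

theorem fmain_le {K : Ctx (geo Δ).P} {F : Filter NN} {c : ∀ x, (geo Δ).P x → Fin n → ℝ}
    (h : K.Le (coord F c)) :
    ((K.comap (geo Δ).loc).prod fun _ => Fin 2).Le
      (coord F fun x (a : (geo Δ).I x × Fin 2) => c x ((geo Δ).loc x a.1)) :=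
  (h.coord_comap (geo Δ).loc).coord_comap fun _ (p : _ × Fin 2) => p.1

theorem fmain_reg {K K' : Ctx (geo Δ).P} (h : OrbCtx Δ K) (h' : K.Le K') (c : CF Δ)
    (r : Reg (XF J K c)) : Reg (XF J K' c) := by
  rw [← res_XF J h h' c]
  exact (res_hom ((h'.comap _).comap _)).reg (by simp) r

theorem fmain_micro (hn : 0 < n) (he : Even n) {good : Set ℕ} (hg : ∀ i ∈ good, Good J i) {i : ℕ}
    (hi : i ∈ good) (T : Tw (Δ i)) (c : CF Δ) :
    nu (Fg good) n (I := fun x => (geo Δ).I x × Fin 2) (fun x a => cf Δ x ((geo Δ).loc x a.1))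
        (XF J (KH Δ (Fg good)) c) =ᶠ[Fi i]
      nu (Fi i) n (I := fun x => (geo Δ).I x × Fin 2)
        (fun x a => cb Δ i T.ρ x ((geo Δ).loc x a.1)) (XF J (KT Δ i T.ρ) c) := by
  have hF := Fi_le_Fg hi
  have r := reg_XF J hn he hg c
  obtain ⟨C, hC⟩ := cf_bdd (Δ := Δ) i
  have h1 := nu_mono hF n (I := fun x => (geo Δ).I x × Fin 2)
    (fun x a => cf Δ x ((geo Δ).loc x a.1)) (fmain_le (KH_le_coord le_rfl)) r
  have h2 := nu_move (F := Fi i) n (I := fun x => (geo Δ).I x × Fin 2)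
    (fun x a => cf Δ x ((geo Δ).loc x a.1)) C (hC.mono fun x hx a => hx _) (Δ i).b T.ρ_pos T.ρ_le
    (fun t ht => fmain_le (KH_le_path hF T.ρ_pos T.ρ_le T.hb ht)) r
  have h3 := KH_le_KT hF T.ρ_pos T.hb
  have h4 := nu_res (F := Fi i) ((h3.comap (geo Δ).loc).comap fun _ (p : _ × Fin 2) => p.1)
    (fmain_le (KT_le_coord i T.ρ)) (XF J (KH Δ (Fg good)) c)
  rw [res_XF J (orb_KH hn good) h3 c] at h4
  exact h1.symm.trans (h2.symm.trans h4.symm)

theorem fmain_macro (hn : 0 < n) (he : Even n) {good : Set ℕ} (hg : ∀ i ∈ good, Good J i)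
    (hF : Fc ≤ Fg good) (c : CF Δ) :
    nu (Fg good) n (I := fun x => (geo Δ).I x × Fin 2) (fun x a => cf Δ x ((geo Δ).loc x a.1))
        (XF J (KH Δ (Fg good)) c) =ᶠ[Fc]
      nu Fc n (I := fun x => (geo Δ).I x × Fin 2)
        (fun x a => cf Δ x ((geo Δ).loc x a.1)) (XF J (KM Δ) c) := by
  have r := reg_XF J hn he hg c
  have h1 := nu_mono hF n (I := fun x => (geo Δ).I x × Fin 2)
    (fun x a => cf Δ x ((geo Δ).loc x a.1)) (fmain_le (KH_le_coord le_rfl)) r
  have h3 : (KH Δ (Fg good)).Le (KM Δ) := KH_le_coord hF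
  have h4 := nu_res (F := Fc) ((h3.comap (geo Δ).loc).comap fun _ (p : _ × Fin 2) => p.1)
    (fmain_le (Ctx.Le.refl _)) (XF J (KH Δ (Fg good)) c)
  rw [res_XF J (orb_KH hn good) h3 c] at h4
  exact h1.symm.trans h4.symm

/-- `nu_mono` to `Fi i`, `nu_move` (`KH_le_path`, `cf_bdd`), `nu_res` and `res_XF` to `KT`,
`nu_XF_twist` -/
theorem micro_nu (hn : 0 < n) (he : Even n) {good : Set ℕ} (hg : ∀ i ∈ good, Good J i) {i : ℕ}
    (hi : i ∈ good) :
    nu (Fg good) n (I := fun x => (geo Δ).I x × Fin 2) (fun x a => cf Δ x ((geo Δ).loc x a.1))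
        (XF J (KH Δ (Fg good)) (CF.chi Δ)) =ᶠ[Fi i]
      nu (Fg good) n (I := fun x => (geo Δ).I x × Fin 2) (fun x a => cf Δ x ((geo Δ).loc x a.1))
        (XF J (KH Δ (Fg good)) (CF.one Δ)) := by
  let T : ∀ i, Tw (Δ i) := fun i => (exists_Tw (Δ i)).some
  have r := fmain_reg J (orb_KH hn good) (KH_le_KT (Fi_le_Fg hi) (T i).ρ_pos (T i).hb) _
    (reg_XF J hn he hg (CF.one Δ))
  exact (fmain_micro J hn he hg hi (T i) _).trans
    ((nu_XF_twist J T hn i r).trans (fmain_micro J hn he hg hi (T i) _).symm)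

/-- `good = {i | Good J i}`; `micro_nu` holds along `Fc`; `nu_mono` from `Fg good` to `Fc`, `nu_res`,
`res_XF` to `KM`, contradiction with `macro_nu` -/
theorem core_even (hn : 0 < n) (he : Even n) : Core.{u} n := by
  intro Δ h
  obtain ⟨J⟩ := exists_JR (geo Δ) (tendsto_M Δ (le_refl F0))
  have hev : ∀ᶠ i in atTop, i ∈ {i | Good J i} := good_ev J hn h
  have hg : ∀ i ∈ {i | Good J i}, Good J i := fun _ hi => hi
  have hF := Fc_le_Fg hev
  have h1 : nu (Fg {i | Good J i}) n (I := fun x => (geo Δ).I x × Fin 2)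
        (fun x a => cf Δ x ((geo Δ).loc x a.1)) (XF J (KH Δ (Fg {i | Good J i})) (CF.chi Δ)) =ᶠ[Fc]
      nu (Fg {i | Good J i}) n (I := fun x => (geo Δ).I x × Fin 2)
        (fun x a => cf Δ x ((geo Δ).loc x a.1)) (XF J (KH Δ (Fg {i | Good J i})) (CF.one Δ)) :=
    eventually_Fc.2 (hev.mono fun i hi => eventually_Fi.1 (micro_nu J hn he hg hi))
  have h2 := (fmain_macro J hn he hg hF _).symm.trans (h1.trans (fmain_macro J hn he hg hF _))
  have := Fc_neBot
  obtain ⟨x, h3, h4⟩ := ((macro_nu J hn he h).and h2).exists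
  exact h3 h4

end Crest.Agent.R217
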