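import Crest.Agent.R217.GDefs

/-! Row 217, part G1: compact abelian groups have characters. -/

set_option autoImplicit false

namespace Crest.Agent.R217

open Filter Topology

universe u

open MeasureTheory WeakDual
open scoped InnerProductSpace

theorem g1_cstar {A B : Type u} [CommGroup A] [TopologicalSpace A] [CStarAlgebra B] (U : A →* B)
    (hU : ∀ h, star (U h) = U h⁻¹) {T : B} (hT : ∀ X : B, (∀ h, U h * X = X * U h) → X * T = T * X)
    (hc : Continuous fun k => U k * T) {g : A} (hg : U g * T ≠ T) :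
    ∃ ψ : A →* ℂ, Continuous ψ ∧ (∀ h, ‖ψ h‖ = 1) ∧ ψ g ≠ 1 := by
  let W := StarSubalgebra.centralizer ℂ {X : B | ∀ h, U h * X = X * U h}
  have hW : ∀ z : B, z ∈ W ↔ ∀ X : B, (∀ h, U h * X = X * U h) → X * z = z * X := by
    intro z
    rw [StarSubalgebra.mem_centralizer_iff]
    refine ⟨fun h X hX => (h X hX).1, fun h X hX => ⟨h X hX, h _ fun k => ?_⟩⟩
    have := congrArg star (hX k⁻¹)
    rw [star_mul, star_mul, hU, inv_inv] at this
    exact this.symm
  have hUW : ∀ h, U h ∈ W := fun h => (hW _).2 fun X hX => (hX h).symm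
  have hTW : T ∈ W := (hW _).2 hT
  have hcl : IsClosed (W : Set B) := by
    rw [StarSubalgebra.coe_centralizer]
    exact Set.isClosed_centralizer _
  let inst : CommCStarAlgebra W :=
    { StarSubalgebra.cstarAlgebra W with
      mul_comm := fun a b => Subtype.ext ((hW _).1 b.2 a fun h =>
        (hW _).1 a.2 (U h) fun k => by rw [← map_mul, ← map_mul, mul_comm]) }
  let V : A →* W := U.codRestrict W hUW
  have h1 : (V g * ⟨T, hTW⟩ : W) ≠ ⟨T, hTW⟩ := fun h => hg (congrArg Subtype.val h)
  obtain ⟨ω, hω⟩ : ∃ ω : characterSpace ℂ W, ω (V g * ⟨T, hTW⟩) ≠ ω ⟨T, hTW⟩ := by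
    by_contra hcon
    push Not at hcon
    exact h1 ((gelfandTransform_isometry W).injective (ContinuousMap.ext hcon))
  rw [map_mul] at hω
  have h2 : ω ⟨T, hTW⟩ ≠ 0 := fun h => hω (by rw [h, mul_zero])
  let ψ : A →* ℂ := (CharacterSpace.toAlgHom ω : W →* ℂ).comp V
  have hψ : ∀ h, ψ h = ω (V h) := fun _ => rfl
  refine ⟨ψ, ?_, fun h => ?_, fun h => hω (by rw [← hψ, h, one_mul])⟩
  · have h3 : Continuous fun k => (V k * ⟨T, hTW⟩ : W) := hc.subtype_mk _
    have h4 := ((map_continuous ω).comp h3).div_const (ω ⟨T, hTW⟩)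
    refine h4.congr fun k => ?_
    rw [Function.comp_apply, map_mul, mul_div_cancel_right₀ _ h2, hψ]
  · have h3 : ψ h⁻¹ = star (ψ h) := by
      rw [hψ, hψ, ← map_star]
      exact congrArg ω (Subtype.ext (hU h).symm)
    have h4 : ‖ψ h‖ * ‖ψ h‖ = 1 := by
      have := congrArg norm (map_mul ψ h h⁻¹)
      rw [mul_inv_cancel, map_one, norm_one, norm_mul, h3, norm_star] at this
      exact this.symm
    nlinarith [norm_nonneg (ψ h)]

theorem g1_rep {A H : Type u} [CommGroup A] [TopologicalSpace A] [IsTopologicalGroup A]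
    [CompactSpace A] [T2Space A] [SecondCountableTopology A] [NormedAddCommGroup H]
    [InnerProductSpace ℂ H] [CompleteSpace H] (U : A →* (H →L[ℂ] H))
    (hU : ∀ h x y, ⟪U h x, U h y⟫_ℂ = ⟪x, y⟫_ℂ) (hc : ∀ x, Continuous fun h => U h x) {g : A}
    (hg : U g ≠ 1) : ∃ ψ : A →* ℂ, Continuous ψ ∧ (∀ h, ‖ψ h‖ = 1) ∧ ψ g ≠ 1 := by
  borelize A
  let μ : Measure A := Measure.haar
  have hn : ∀ h x, ‖U h x‖ = ‖x‖ := fun h x => by
    rw [norm_eq_sqrt_re_inner (𝕜 := ℂ), hU, ← norm_eq_sqrt_re_inner]
  have hi : ∀ (φ : C(A, ℂ)) (x : H), Integrable (fun h => φ h • U h x) μ := fun φ x =>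
    (φ.continuous.smul (hc x)).integrable_of_hasCompactSupport
      (HasCompactSupport.of_compactSpace _)
  let T : C(A, ℂ) →L[ℂ] H →L[ℂ] H := LinearMap.mkContinuous₂
    (LinearMap.mk₂ ℂ (fun (φ : C(A, ℂ)) (x : H) => ∫ h, φ h • U h x ∂μ)
      (fun φ φ' x => by
        simp only [ContinuousMap.add_apply, add_smul]
        exact integral_add (hi φ x) (hi φ' x))
      (fun c φ x => by
        simp only [ContinuousMap.smul_apply, smul_assoc]
        exact integral_smul _ _)
      (fun φ x y => by
        simp only [map_add, smul_add]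
        exact integral_add (hi φ x) (hi φ y))
      (fun c φ x => by
        simp only [map_smul, smul_comm _ c]
        exact integral_smul _ _)) (μ.real Set.univ) fun φ x => by
      refine (norm_integral_le_of_norm_le_const (C := ‖φ‖ * ‖x‖)
        (Eventually.of_forall fun h => ?_)).trans_eq (by ring)
      rw [norm_smul, hn]
      exact mul_le_mul_of_nonneg_right (φ.norm_coe_le_norm h) (norm_nonneg _)
  have hT : ∀ φ x, T φ x = ∫ h, φ h • U h x ∂μ := fun _ _ => rfl
  have hX : ∀ (φ : C(A, ℂ)) (X : H →L[ℂ] H), (∀ h, U h * X = X * U h) → X * T φ = T φ * X := by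
    intro φ X hX
    ext x
    change X (T φ x) = T φ (X x)
    rw [hT, hT, ← X.integral_comp_comm (hi φ x)]
    refine integral_congr_ae (Eventually.of_forall fun h => ?_)
    simp only [map_smul]
    exact congrArg _ (DFunLike.congr_fun (hX h) x).symm
  obtain ⟨f, hf⟩ : ∃ f, U g f - f ≠ 0 := by
    by_contra hcon
    push Not at hcon
    exact hg (ContinuousLinearMap.ext fun f => sub_eq_zero.1 (hcon f))
  set v := U g f - f with hv
  let φ : C(A, ℂ) := ⟨fun h => ⟪U h v, v⟫_ℂ, (hc v).inner continuous_const⟩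
  refine g1_cstar U (fun h => ?_) (hX φ) ?_ (g := g) fun h0 => ?_
  · rw [ContinuousLinearMap.star_eq_adjoint, eq_comm, ContinuousLinearMap.eq_adjoint_iff]
    intro x y
    rw [← hU h, ← mul_apply_eq_comp, ← map_mul, mul_inv_cancel, map_one]
    rfl
  · let Φ : C(A × A, ℂ) := ⟨fun p => φ (p.1⁻¹ * p.2), by fun_prop⟩
    refine (T.continuous.comp Φ.curry.continuous).congr fun k => ?_
    ext x
    change T (Φ.curry k) x = U k (T φ x)
    rw [hT, hT, ← (U k).integral_comp_comm (hi φ x),
      ← integral_mul_left_eq_self (fun h => Φ.curry k h • U h x) k]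
    refine integral_congr_ae (Eventually.of_forall fun h => ?_)
    simp [Φ]
  · have h1 : T φ v = 0 := by
      rw [hv, map_sub, ← mul_apply_eq_comp, ← hX φ (U g) fun h => by
        rw [← map_mul, ← map_mul, mul_comm], h0, sub_self]
    have h2 : ∫ h, ‖φ h‖ ^ 2 ∂μ = 0 := by
      have h3 := congrArg (fun y => ⟪v, y⟫_ℂ) h1
      simp only [hT, inner_zero_right] at h3
      rw [← integral_inner (hi φ v)] at h3
      have h4 : ∀ h, ⟪v, φ h • U h v⟫_ℂ = ((‖φ h‖ ^ 2 : ℝ) : ℂ) := fun h => by
        rw [inner_smul_right, ← inner_conj_symm v, ← Complex.normSq_eq_norm_sq]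
        exact Complex.mul_conj _
      simp only [h4, integral_complex_ofReal] at h3
      exact_mod_cast h3
    have h5 : Continuous fun h => ‖φ h‖ ^ 2 := by fun_prop
    have h6 := (h5.integral_pos_of_hasCompactSupport_nonneg_nonzero (μ := μ) (x := 1)
      (HasCompactSupport.of_compactSpace _) (fun h => by positivity) (by
        simpa [φ] using hf)).ne'
    exact h6 h2

/-- Possible proof (Gelfand).  On `L²(A, haar)` let `U h` be the translations and, for
`φ : C(A, ℂ)`, `T φ` the convolution operator (`‖T φ‖ ≤ ‖φ‖_∞`, `U h * T φ = T (h • φ)`, so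
`h ↦ U h * T φ` is norm continuous; `(T φ)⋆ = T φ̃`).  They all commute.  Let `B` be the closed
`⋆`-subalgebra of `L² →L L²` they generate (commutative C⋆-algebra).  For a bump `φ ≥ 0` at `1`
with small support, `(U g - 1) * T φ ≠ 0` (apply it to `φ`), so some character `ω` of `B` does not
kill it (`gelfandTransform_isometry`); `h ↦ ω (U h) = ω (U h * T φ) / ω (T φ)` is the character.
Alternative: `T φ` with `φ = φ̃` is compact self-adjoint
(`Mathlib/Analysis/InnerProductSpace/Spectrum.lean`), its non-zero eigenspaces are finite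
dimensional and translation invariant; take a common eigenvector on which `U g ≠ 1`. -/
theorem exists_char {A : Type u} [CommGroup A] [TopologicalSpace A] [IsTopologicalGroup A]
    [CompactSpace A] [T2Space A] [SecondCountableTopology A] {g : A} (hg : g ≠ 1) :
    ∃ ψ : A →* ℂ, Continuous ψ ∧ (∀ h, ‖ψ h‖ = 1) ∧ ψ g ≠ 1 := by
  borelize A
  let μ : Measure A := Measure.haar
  let U₀ : A → (Lp ℂ 2 μ →ₗᵢ[ℂ] Lp ℂ 2 μ) := fun h =>
    Lp.compMeasurePreservingₗᵢ ℂ (fun x => h * x) (measurePreserving_mul_left μ h)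
  let U : A →* (Lp ℂ 2 μ →L[ℂ] Lp ℂ 2 μ) :=
    { toFun := fun h => (U₀ h).toContinuousLinearMap
      map_one' := by
        refine ContinuousLinearMap.ext fun f => ?_
        refine Eq.trans ?_ (Lp.compMeasurePreserving_id_apply f)
        change Lp.compMeasurePreserving _ _ f = _
        congr 2
        ext x
        simp
      map_mul' := fun h k => by
        refine ContinuousLinearMap.ext fun f => ?_
        refine Eq.trans ?_ (Lp.compMeasurePreserving_comp_apply f (measurePreserving_mul_left μ k)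
          (measurePreserving_mul_left μ h))
        change Lp.compMeasurePreserving _ _ f = _
        congr 2
        ext x
        simp [mul_assoc, mul_left_comm] }
  refine g1_rep U (fun h x y => (U₀ h).inner_map_map x y) (fun f => ?_) fun h0 => ?_
  · let Φ : C(A × A, A) := ⟨fun p => p.1 * p.2, continuous_mul⟩
    exact continuous_const.compMeasurePreservingLp Φ.curry.continuous
      (fun h => measurePreserving_mul_left μ h) ENNReal.ofNat_ne_top
  · obtain ⟨f, hf0, hf1, -⟩ := exists_continuous_zero_one_of_isClosed (isClosed_singleton (x := g))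
      (isClosed_singleton (x := 1)) (Set.disjoint_singleton.2 hg)
    let F : C(A, ℂ) := ⟨fun x => f x, by fun_prop⟩
    let F' : C(A, ℂ) := ⟨fun x => f (g * x), by fun_prop⟩
    have h1 : ContinuousMap.toLp 2 μ ℂ F' = ContinuousMap.toLp 2 μ ℂ F := by
      have h3 : ∀ x : Lp ℂ 2 μ,
          Lp.compMeasurePreserving (fun x => g * x) (measurePreserving_mul_left μ g) x = x :=
        fun x => DFunLike.congr_fun h0 x
      have h4 := Lp.coeFn_compMeasurePreserving (ContinuousMap.toLp 2 μ ℂ F)
        (measurePreserving_mul_left μ g)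
      rw [h3] at h4
      have h5 := (measurePreserving_mul_left μ g).quasiMeasurePreserving.ae_eq_comp
        (ContinuousMap.coeFn_toLp (p := 2) (𝕜 := ℂ) μ F)
      exact Lp.ext ((ContinuousMap.coeFn_toLp (p := 2) (𝕜 := ℂ) μ F').trans (h4.trans h5).symm)
    have h2 := DFunLike.congr_fun (ContinuousMap.toLp_injective μ h1) 1
    simp [F, F', hf0 (Set.mem_singleton g), hf1 (Set.mem_singleton 1)] at h2

end Crest.Agent.R217
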