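import Crest.Agent.R217.G1

/-! Row 217, part G2: minimal pairs, and the doubling of the dimension. -/

set_option autoImplicit false

namespace Crest.Agent.R217

open Filter Topology

universe u

theorem g2_tors {A : Type u} [Group A] [TopologicalSpace A] [CompactSpace A] (ψ : A →* ℂ)
    (hc : Continuous ψ) (h1 : ∀ h, ‖ψ h‖ = 1) {g : A} (hg : ψ g ≠ 1) :
    ∃ (a : A) (p : ℕ), 0 < p ∧ ψ a ≠ 1 ∧ ψ a ^ p = 1 := by
  let Λ : AddSubgroup ℝ :=
    { carrier := (fun t : ℝ => Complex.exp (t * Complex.I)) ⁻¹' Set.range ψ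
      add_mem' := by
        rintro s t ⟨a, ha⟩ ⟨b, hb⟩
        exact ⟨a * b, by simp only [map_mul, ha, hb, ← Complex.exp_add]; push_cast; ring_nf⟩
      zero_mem' := ⟨1, by simp⟩
      neg_mem' := by
        rintro s ⟨a, ha⟩
        exact ⟨a⁻¹, by simp only [map_inv, ha, ← Complex.exp_neg]; push_cast; ring_nf⟩ }
  have hΛ : IsClosed (Λ : Set ℝ) := (isCompact_range hc).isClosed.preimage (by fun_prop)
  rcases Λ.dense_or_cyclic with h | ⟨c, h⟩
  · obtain ⟨a, ha⟩ : Real.pi ∈ (Λ : Set ℝ) := by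
      rw [← hΛ.closure_eq]; exact h _
    simp only [Complex.exp_pi_mul_I] at ha
    exact ⟨a, 2, two_pos, by rw [ha]; norm_num, by rw [ha]; norm_num⟩
  · have e : Complex.exp ((ψ g).arg * Complex.I) = ψ g := by
      have := Complex.norm_mul_exp_arg_mul_I (ψ g)
      rwa [h1, Complex.ofReal_one, one_mul] at this
    have m1 : 2 * Real.pi ∈ Λ := ⟨1, by simp⟩
    have m2 : (ψ g).arg ∈ Λ := ⟨g, e.symm⟩
    rw [h, AddSubgroup.mem_closure_singleton] at m1 m2
    obtain ⟨k, hk⟩ := m1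
    obtain ⟨m, hm⟩ := m2
    have k0 : k ≠ 0 := by
      rintro rfl
      rw [zero_smul] at hk
      linarith [Real.pi_pos]
    refine ⟨g, k.natAbs, Int.natAbs_pos.2 k0, hg, ?_⟩
    have e2 : ψ g ^ k = 1 := by
      rw [← e, ← Complex.exp_int_mul, Complex.exp_eq_one_iff]
      refine ⟨m, ?_⟩
      have := congrArg Complex.ofReal hk
      rw [← hm]
      simp only [zsmul_eq_mul] at this ⊢
      push_cast at this ⊢
      rw [← this]
      ring
    rcases Int.natAbs_eq k with h0 | h0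
    · rwa [h0, zpow_natCast] at e2
    · rwa [h0, zpow_neg, zpow_natCast, inv_eq_one] at e2

theorem g2_zorn {G : Type u} [Group G] [TopologicalSpace G] [T2Space G] {T : Set G}
    (hT : IsCompact T) {H' : Subgroup G} (h1 : IsClosed (H' : Set G))
    (h2 : ((H' : Set G) ∩ T).Nonempty) :
    ∃ H ≤ H', Minimal (fun S : Subgroup G => IsClosed (S : Set G) ∧ ((S : Set G) ∩ T).Nonempty) H := by
  refine @zorn_le_nonempty₀ (Subgroup G)ᵒᵈ _
    {S : Subgroup G | IsClosed (S : Set G) ∧ ((S : Set G) ∩ T).Nonempty} ?_ H' ⟨h1, h2⟩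
  intro (c : Set (Subgroup G)) hc hch y hy
  refine ⟨(sInf c : Subgroup G), ⟨?_, ?_⟩, fun z hz => (sInf_le hz : (sInf c : Subgroup G) ≤ z)⟩
  · rw [Subgroup.coe_sInf]
    exact isClosed_biInter fun S hS => (hc hS).1
  · have : Nonempty c := ⟨⟨y, hy⟩⟩
    obtain ⟨x, hx⟩ := IsCompact.nonempty_iInter_of_directed_nonempty_isCompact_isClosed
      (fun S : c => ((S.1 : Subgroup G) : Set G) ∩ T)
      (fun a b => by
        rcases hch.total a.2 b.2 with h | h
        · exact ⟨b, Set.inter_subset_inter_left _ h, le_rfl⟩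
        · exact ⟨a, le_rfl, Set.inter_subset_inter_left _ h⟩)
      (fun S => (hc S.2).2) (fun S => hT.inter_left (hc S.2).1)
      (fun S => (hc S.2).1.inter hT.isClosed)
    rw [Set.mem_iInter] at hx
    exact ⟨x, Subgroup.mem_sInf.2 fun S hS => (hx ⟨S, hS⟩).1, (hx ⟨y, hy⟩).2⟩

theorem g2_min {G : Type u} [Group G] [TopologicalSpace G] [T2Space G] {A : Subgroup G}
    (hA : IsCompact (A : Set G)) (ψ : A →* ℂ) (hc : Continuous ψ) {a : A} {p : ℕ} (hp : 0 < p)
    (h1 : ψ a ≠ 1) (h2 : ψ a ^ p = 1) :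
    ∃ H : Subgroup G, H ≤ A ∧ IsCompact (H : Set G) ∧ ∃ χ : H →* ℂ, MinPair H χ p := by
  have : CompactSpace A := isCompact_iff_compactSpace.1 hA
  have hfin : Set.Finite {z : ℂ | z ≠ 1 ∧ z ^ p = 1} :=
    (Polynomial.nthRoots p (1 : ℂ)).finite_toSet.subset fun z hz =>
      (Polynomial.mem_nthRoots hp).2 hz.2
  have hT : IsCompact (Subtype.val '' (ψ ⁻¹' {z : ℂ | z ≠ 1 ∧ z ^ p = 1})) :=
    (hfin.isClosed.preimage hc).isCompact.image continuous_subtype_val
  have hH : IsCompact ((((powMonoidHom p).comp ψ).ker.map A.subtype : Subgroup G) : Set G) :=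
    (isClosed_eq (hc.pow p) continuous_const).isCompact.image continuous_subtype_val
  obtain ⟨H, k1, ⟨k2, k3⟩, k4⟩ := g2_zorn hT hH.isClosed ⟨a, ⟨a, h2, rfl⟩, a, ⟨h1, h2⟩, rfl⟩
  have hHA : H ≤ A := k1.trans (Subgroup.map_subtype_le _)
  have hpow : ∀ g : H, ψ (Subgroup.inclusion hHA g) ^ p = 1 := fun g => by
    obtain ⟨b, hb, e⟩ := k1 g.2
    rwa [show Subgroup.inclusion hHA g = b from Subtype.ext e.symm]
  refine ⟨H, hHA, hA.of_isClosed_subset k2 hHA, ψ.comp (Subgroup.inclusion hHA),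
    hc.comp (continuous_inclusion hHA), hp, hpow, ?_, fun S hS ⟨g, hg, hg'⟩ => ?_⟩
  · obtain ⟨x, hx, b, hb, rfl⟩ := k3
    exact ⟨⟨b, hx⟩, hb.1⟩
  · have := k4 (y := S.map H.subtype) ⟨k2.isClosedEmbedding_subtypeVal.isClosedMap _ hS,
      g, ⟨g, hg, rfl⟩, Subgroup.inclusion hHA g, ⟨hg', hpow g⟩, rfl⟩ (Subgroup.map_subtype_le _)
    refine eq_top_iff.2 fun x _ => ?_
    obtain ⟨y, hy, e⟩ := this x.2
    rwa [← show y = x from Subtype.ext e]

/-- Take `1 ≠ g ∈ K`, `A = closure (zpowers g)` (compact abelian), `ψ` from `exists_char`.  The image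
of `ψ` is a closed non-trivial subgroup of the unit circle, so it contains an element `ζ ≠ 1` with
`ζ ^ p = 1`, `0 < p` (its preimage under `t ↦ exp (2 π i t)` is a closed subgroup of `ℝ` containing
`ℤ`: `AddSubgroup.dense_or_cyclic`; if it is `ℝ` take `ζ = -1`).  `H' = {a ∈ A | ψ a ^ p = 1}` is a
compact subgroup on which `ψ` is non-trivial and `{ψ ≠ 1}` is closed in `H'` (finite image).  By Zorn
and compactness (a chain of closed subgroups meeting the compact set `{ψ ≠ 1}` has an intersection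
meeting it) there is a minimal closed subgroup `H ≤ H'` not contained in the kernel. -/
theorem exists_minPair {G : Type u} [Group G] [TopologicalSpace G] [IsTopologicalGroup G]
    [T2Space G] [SecondCountableTopology G] {K : Subgroup G} (hK : IsCompact (K : Set G))
    (hne : K ≠ ⊥) :
    ∃ H : Subgroup G, H ≤ K ∧ IsCompact (H : Set G) ∧ ∃ (χ : H →* ℂ) (p : ℕ), MinPair H χ p := by
  obtain ⟨⟨g, hgK⟩, hg⟩ := Subgroup.ne_bot_iff_exists_ne_one.1 hne
  have hAK : (Subgroup.zpowers g).topologicalClosure ≤ K :=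
    Subgroup.topologicalClosure_minimal _ (Subgroup.zpowers_le.2 hgK) hK.isClosed
  have hA := hK.of_isClosed_subset (Subgroup.isClosed_topologicalClosure _) hAK
  have : CompactSpace (Subgroup.zpowers g).topologicalClosure := isCompact_iff_compactSpace.1 hA
  have : SecondCountableTopology (Subgroup.zpowers g).topologicalClosure :=
    TopologicalSpace.Subtype.secondCountableTopology _
  let _ := (Subgroup.zpowers g).commGroupTopologicalClosure fun x y => mul_comm' x y
  obtain ⟨ψ, h1, h2, h3⟩ := exists_char (A := (Subgroup.zpowers g).topologicalClosure)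
    (g := ⟨g, Subgroup.le_topologicalClosure _ (Subgroup.mem_zpowers g)⟩)
    fun h => hg (Subtype.ext (congrArg Subtype.val h :))
  obtain ⟨a, p, hp, k1, k2⟩ := g2_tors ψ h1 h2 h3
  obtain ⟨H, m1, m2, χ, m3⟩ := g2_min hA ψ h1 hp k1 k2
  exact ⟨H, m1.trans hAK, m2, χ, p, m3⟩

section Double

variable {n m : ℕ} (e : (Fin n → ℝ) × (Fin n → ℝ) ≃ᵢ (Fin m → ℝ)) (Δ : Dat.{u} n)

/-- the thickened set -/
def g2W : Set (Fin m → ℝ) := e.symm ⁻¹' (Δ.W ×ˢ Metric.closedBall 0 (Δ.R + 1))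

/-- the first component -/
def g2L (y : g2W e Δ) : Δ.W := ⟨(e.symm y.1).1, y.2.1⟩

theorem g2L_cont : Continuous (g2L e Δ) := by
  unfold g2L
  exact Continuous.subtype_mk ((e.symm.continuous.comp continuous_subtype_val).fst) _

instance g2act : MulAction Δ.H (g2W e Δ) where
  smul g y := ⟨e ((g • g2L e Δ y).1, (e.symm y.1).2), by
    simp only [g2W, Set.mem_preimage, IsometryEquiv.symm_apply_apply]
    exact ⟨(g • g2L e Δ y).2, y.2.2⟩⟩
  one_smul y := Subtype.ext (by
    change e (((1 : Δ.H) • g2L e Δ y).1, (e.symm y.1).2) = y.1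
    rw [one_smul]
    exact e.apply_symm_apply y.1)
  mul_smul g h y := Subtype.ext (by
    change e (((g * h) • g2L e Δ y).1, (e.symm y.1).2) =
      e ((g • (⟨(e.symm (e _)).1, _⟩ : Δ.W)).1, (e.symm (e _)).2)
    simp only [IsometryEquiv.symm_apply_apply, mul_smul])

theorem g2_smul (g : Δ.H) (y : g2W e Δ) :
    (g • y).1 = e ((g • g2L e Δ y).1, (e.symm y.1).2) := rfl

theorem g2L_smul (g : Δ.H) (y : g2W e Δ) : g2L e Δ (g • y) = g • g2L e Δ y :=
  Subtype.ext (by simp only [g2L, g2_smul, IsometryEquiv.symm_apply_apply])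

instance g2cont : ContinuousSMul Δ.H (g2W e Δ) :=
  ⟨Continuous.subtype_mk (e.continuous.comp
    ((continuous_subtype_val.comp (continuous_fst.smul ((g2L_cont e Δ).comp continuous_snd))).prodMk
      (e.symm.continuous.comp (continuous_subtype_val.comp continuous_snd)).snd)) _⟩

theorem g2_dist (a b c d : Fin n → ℝ) : ‖e (a, b) - e (c, d)‖ = max ‖a - c‖ ‖b - d‖ := by
  rw [← dist_eq_norm, e.dist_eq, Prod.dist_eq, dist_eq_norm, dist_eq_norm]

theorem g2_dist' (y : Fin m → ℝ) (c d : Fin n → ℝ) :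
    ‖y - e (c, d)‖ = max ‖(e.symm y).1 - c‖ ‖(e.symm y).2 - d‖ := by
  rw [← g2_dist, Prod.mk.eta, e.apply_symm_apply]

theorem g2_norm (he : e (0, 0) = 0) (a b : Fin n → ℝ) : ‖e (a, b)‖ = max ‖a‖ ‖b‖ := by
  simpa only [he, sub_zero] using g2_dist e a b 0 0

/-- the doubled data -/
def g2Dat (he : e (0, 0) = 0) : Dat.{u} m where
  H := Δ.H
  W := g2W e Δ
  cW := e.symm.toHomeomorph.isCompact_preimage.2 (Δ.cW.prod (isCompact_closedBall _ _))
  χ := Δ.χ
  p := Δ.p
  χ_cont := Δ.χ_cont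
  p_pos := Δ.p_pos
  χ_pow := Δ.χ_pow
  χ_ne := Δ.χ_ne
  f y := e (Δ.f (g2L e Δ y), (e.symm y.1).2)
  f_cont := e.continuous.comp ((Δ.f_cont.comp (g2L_cont e Δ)).prodMk
    (e.symm.continuous.comp continuous_subtype_val).snd)
  f_inv g y := by rw [g2L_smul, Δ.f_inv, g2_smul, e.symm_apply_apply]
  o := e (Δ.o, 0)
  R := Δ.R
  β := e (Δ.β, 0)
  S := Δ.S
  b := e (Δ.b, 0)
  sub y hy := by
    rw [mem_closedBall_iff_norm, g2_dist', max_le_iff] at hy
    exact ⟨Δ.sub (mem_closedBall_iff_norm.2 hy.1),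
      mem_closedBall_iff_norm.2 (hy.2.trans (le_add_of_nonneg_right zero_le_one))⟩
  int g y hy := by
    rw [mem_closedBall_iff_norm, g2_dist', max_le_iff] at hy
    refine preimage_interior_subset_interior_preimage e.symm.continuous ?_
    rw [Set.mem_preimage, g2_smul, e.symm_apply_apply, interior_prod_eq]
    exact ⟨Δ.int g _ (mem_closedBall_iff_norm.2 hy.1), Metric.ball_subset_interior_closedBall
      (mem_ball_iff_norm.2 (hy.2.trans_lt (lt_add_one _)))⟩
  hR := by rw [g2_norm e he, norm_zero, max_eq_left (norm_nonneg _)]; exact Δ.hR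
  hS := by rw [g2_norm e he, norm_zero, max_eq_left (norm_nonneg _)]; exact Δ.hS
  hSR := Δ.hSR
  pre y hy := by
    rw [g2_dist, max_le_iff] at hy
    rw [mem_ball_iff_norm, g2_dist', max_lt_iff]
    exact ⟨mem_ball_iff_norm.1 (Δ.pre _ hy.1), hy.2.trans_lt Δ.hSR⟩
  hb := by rw [g2_dist, sub_self, norm_zero, max_eq_left (norm_nonneg _)]; exact Δ.hb
  stab g y h1 h2 := Δ.stab g (g2L e Δ y) (congrArg Prod.fst (e.injective h1))
    (by rw [← g2L_smul, h2])

end Double

/-- From `Δ : Dat n` build `Δ' : Dat (n + n)` with the same group: `W' = {y | left y ∈ W ∧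
‖right y‖ ≤ R + 1}` (`left y = fun i => y (Fin.castAdd n i)`, `right y = fun i => y (Fin.natAdd n i)`,
`Fin.append`), `g • y = append (g • left y) (right y)`, `f' y = append (f (left y)) (right y)`,
`o' = append o 0`, `β' = append β 0`, `b' = append b 0`, same `R`, `S`. -/
theorem core_of_double {n : ℕ} (h : Core.{u} (n + n)) : Core.{u} n := by
  intro Δ hΔ
  have he : Fin.appendIsometry (α := ℝ) n n (0, 0) = 0 := by
    funext i
    exact Fin.addCases (fun j => Fin.append_left _ _ j) (fun j => Fin.append_right _ _ j) i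
  refine h (fun i => g2Dat _ (Δ i) he) fun ε hε => (hΔ ε hε).mono fun i hi y hy => ?_
  change ‖Fin.appendIsometry n n _ - _‖ ≤ ε
  rw [norm_sub_rev, g2_dist', sub_self, norm_zero, max_eq_left (norm_nonneg _), norm_sub_rev]
  refine hi (g2L _ _ y) (hy.imp (fun h1 => ?_) fun h1 => ?_)
  · rw [← sub_zero y.1, ← he, g2_dist', sub_zero] at h1
    exact (le_max_left _ _).trans h1
  · exact (le_max_left _ _).trans ((g2_norm _ he _ _).symm.trans_le h1)

end Crest.Agent.R217
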