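import Crest.Agent.R217.GDefs

/-! Row 217, part G3: building `Dat` from an action on a manifold; small minimal pairs fix a ball. -/

set_option autoImplicit false

namespace Crest.Agent.R217

open Filter Topology Metric MeasureTheory

universe u v

theorem G3_avg {n : ℕ} {M : Type v} [TopologicalSpace M]
    {H : Type u} [Group H] [TopologicalSpace H] [IsTopologicalGroup H] [CompactSpace H] [T2Space H]
    [MulAction H M] [ContinuousSMul H M] (ψ : M → (Fin n → ℝ)) {C : Set M}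
    (hψ : ContinuousOn ψ C) (hCi : ∀ (g : H), ∀ m ∈ C, g • m ∈ C) :
    ∃ f : M → Fin n → ℝ, ContinuousOn f C ∧ (∀ (g : H) (m : M), f (g • m) = f m) ∧
      (∀ m ∈ C, (∀ g : H, g • m = m) → f m = ψ m) ∧
      (∀ m ∈ C, ∀ Z : Set (Fin n → ℝ), Convex ℝ Z → (IsClosed Z ∨ IsOpen Z) →
        (∀ g : H, ψ (g • m) ∈ Z) → f m ∈ Z) := by
  borelize H
  let μ : Measure H := Measure.haarMeasure ⊤
  have : IsProbabilityMeasure μ := ⟨by
    have := Measure.haarMeasure_self (G := H) (K₀ := ⊤)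
    simpa using this⟩
  have hcont : ∀ m ∈ C, Continuous (fun g : H => ψ (g⁻¹ • m)) := by
    intro m hm
    exact hψ.comp_continuous (by fun_prop) (fun g => hCi _ _ hm)
  have hint : ∀ m ∈ C, Integrable (fun g : H => ψ (g⁻¹ • m)) μ := fun m hm =>
    (hcont m hm).integrable_of_hasCompactSupport (HasCompactSupport.of_compactSpace _)
  refine ⟨fun m => ∫ g, ψ (g⁻¹ • m) ∂μ, ?_, ?_, ?_, ?_⟩
  · refine continuousOn_integral_of_compact_support (k := Set.univ) isCompact_univ ?_ ?_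
    · refine hψ.comp (f := fun z : M × H => z.2⁻¹ • z.1) (by fun_prop) ?_
      intro z hz
      exact hCi _ _ hz.1
    · intro p x _ hx
      exact absurd (Set.mem_univ x) hx
  · intro h m
    have := integral_mul_left_eq_self (μ := μ) (fun g : H => ψ (g⁻¹ • m)) h⁻¹
    simp only [mul_inv_rev, inv_inv, mul_smul] at this
    exact this
  · intro m _ hm
    simp [hm]
  · intro m hm Z hZ hco hmem
    rcases hco with hcl | hop
    · exact hZ.integral_mem hcl (Eventually.of_forall fun g => hmem _) (hint m hm)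
    · by_contra hx
      obtain ⟨L, hL⟩ := geometric_hahn_banach_open_point hZ hop hx
      set x := ∫ g, ψ (g⁻¹ • m) ∂μ with hxdef
      have hc : Continuous (fun g : H => L x - L (ψ (g⁻¹ • m))) :=
        continuous_const.sub (L.continuous.comp (hcont m hm))
      have hpos : 0 < ∫ g, (L x - L (ψ (g⁻¹ • m))) ∂μ :=
        hc.integral_pos_of_hasCompactSupport_nonneg_nonzero (x := 1)
          (HasCompactSupport.of_compactSpace _)
          (fun g => (sub_pos.2 (hL _ (hmem _))).le) (sub_pos.2 (hL _ (hmem _))).ne'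
      rw [integral_sub (integrable_const _) (L.integrable_comp (hint m hm)),
        L.integral_comp_comm (hint m hm)] at hpos
      simp [← hxdef] at hpos

/-- The common construction.  `ψ` is a chart, `C ⊆ ψ.source` a compact invariant set, `f m = ∫ ψ (g • m) dg`
(Haar probability measure, `borel H`), `W = σ ψ '' C` (`σ y = l⁻¹ • (y - a)`) with the transported action,
`Δ.f = σ f`, `b = σ ψ m₀`.
Then `f` is continuous, invariant, `f y = y` at fixed points, `f y` lies in every closed convex set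
(and every open convex set) containing the orbit.  `stab`: if `g • y = y` and `χ g ≠ 1` the closed
stabiliser of `y` is `⊤` by minimality, so `f y = y`, and `y = b` would be a fixed point. -/
theorem exists_dat {n : ℕ} {M : Type v} [TopologicalSpace M] [T2Space M]
    {H : Type u} [Group H] [TopologicalSpace H] [IsTopologicalGroup H] [CompactSpace H] [T2Space H]
    [SecondCountableTopology H] [MulAction H M] [ContinuousSMul H M] {χ : H →* ℂ} {p : ℕ}
    (hχ : MinPair H χ p) (ψ : OpenPartialHomeomorph M (Fin n → ℝ)) {C : Set M} (hC : IsCompact C)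
    (hCs : C ⊆ ψ.source) (hCi : ∀ (g : H), ∀ m ∈ C, g • m ∈ C) :
    ∃ f : M → Fin n → ℝ, ContinuousOn f C ∧ (∀ m ∈ C, (∀ g : H, g • m = m) → f m = ψ m) ∧
      (∀ m ∈ C, ∀ Z : Set (Fin n → ℝ), Convex ℝ Z → (IsClosed Z ∨ IsOpen Z) →
        (∀ g : H, ψ (g • m) ∈ Z) → f m ∈ Z) ∧
      ∀ (a : Fin n → ℝ) (l : ℝ), 0 < l → ∀ (o β : Fin n → ℝ) (R S ε : ℝ) (m₀ : M), m₀ ∈ C →
        (∃ g : H, g • m₀ ≠ m₀) → closedBall o R ⊆ (fun m => l⁻¹ • (ψ m - a)) '' interior C →
        ‖o‖ + 12 ≤ R → ‖β‖ + 11 ≤ S → S < R →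
        (∀ m ∈ C, ‖l⁻¹ • (f m - a) - β‖ ≤ S → l⁻¹ • (ψ m - a) ∈ ball o R) →
        ‖l⁻¹ • (ψ m₀ - a) - β‖ < S →
        (∀ m ∈ C, (‖l⁻¹ • (ψ m - a)‖ ≤ 12 ∨ ‖l⁻¹ • (f m - a)‖ ≤ 12) → ‖l⁻¹ • (f m - ψ m)‖ ≤ ε) →
        ∃ Δ : Dat.{u} n, ∀ y : Δ.W, (‖y.1‖ ≤ 12 ∨ ‖Δ.f y‖ ≤ 12) → ‖Δ.f y - y.1‖ ≤ ε := by
  have hψc : ContinuousOn ψ C := ψ.continuousOn.mono hCs
  obtain ⟨f, hfc, hfi, hfix, hconv⟩ := G3_avg (H := H) ψ hψc hCi
  refine ⟨f, hfc, hfix, hconv, ?_⟩
  intro a l hl o β R S ε m₀ hm₀ hnf hsub hR hS hSR hpre hb hε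
  let τ : (Fin n → ℝ) ≃ₜ (Fin n → ℝ) :=
    (Homeomorph.subRight a).trans (Homeomorph.smulOfNeZero l⁻¹ (inv_pos.2 hl).ne')
  have hτ : ∀ y, τ y = l⁻¹ • (y - a) := fun y => rfl
  let σ : M → Fin n → ℝ := fun m => l⁻¹ • (ψ m - a)
  have hσc : ContinuousOn σ C := τ.continuous.comp_continuousOn hψc
  have hσi : Set.InjOn σ C := by
    intro x hx y hy hxy
    exact ψ.injOn (hCs hx) (hCs hy) (τ.injective hxy)
  have : CompactSpace C := isCompact_iff_compactSpace.1 hC
  let e0 : C ≃ σ '' C := Equiv.Set.imageOfInjOn σ C hσi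
  have he0 : Continuous e0 := by
    refine Continuous.subtype_mk ?_ _
    exact hσc.domRestrict
  let e : C ≃ₜ σ '' C := he0.homeoOfEquivCompactToT2
  have he : ∀ x : C, (e x).1 = σ x.1 := fun x => rfl
  have he' : ∀ y : σ '' C, σ (e.symm y).1 = y.1 := fun y => by
    rw [← he, e.apply_symm_apply]
  let act : MulAction H (σ '' C) :=
    { smul := fun g w => e ⟨g • (e.symm w).1, hCi _ _ (e.symm w).2⟩
      one_smul := fun w => by
        change e ⟨(1 : H) • (e.symm w).1, _⟩ = w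
        simp
      mul_smul := fun g h w => by
        change e ⟨(g * h) • (e.symm w).1, _⟩ =
          e ⟨g • (e.symm (e ⟨h • (e.symm w).1, hCi _ _ (e.symm w).2⟩)).1, _⟩
        simp [mul_smul] }
  have hsm : ∀ (g : H) (w : σ '' C), g • w = e ⟨g • (e.symm w).1, hCi _ _ (e.symm w).2⟩ :=
    fun _ _ => rfl
  have hsm' : ∀ (g : H) (w : σ '' C), (e.symm (g • w)).1 = g • (e.symm w).1 := by
    intro g w
    rw [hsm, e.symm_apply_apply]
  have hcs : ContinuousSMul H (σ '' C) := ⟨by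
    have : (fun z : H × (σ '' C) => z.1 • z.2) =
        fun z => e ⟨z.1 • (e.symm z.2).1, hCi _ _ (e.symm z.2).2⟩ := rfl
    rw [this]
    refine e.continuous.comp (Continuous.subtype_mk ?_ _)
    fun_prop⟩
  have hopen : IsOpen (σ '' interior C) := by
    have h1 : IsOpen (ψ '' interior C) :=
      ψ.isOpen_image_of_subset_source isOpen_interior (interior_subset.trans hCs)
    have h2 := τ.isOpenMap _ h1
    rw [Set.image_image] at h2
    exact h2
  have hintC : ∀ (g : H), ∀ m ∈ interior C, g • m ∈ interior C := by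
    intro g m hm
    have h1 : IsOpen ((fun x : M => g • x) '' interior C) :=
      (Homeomorph.smul g).isOpenMap _ isOpen_interior
    refine interior_maximal (t := (fun x : M => g • x) '' interior C) ?_ h1 ⟨m, hm, rfl⟩
    rintro _ ⟨x, hx, rfl⟩
    exact hCi _ _ (interior_subset hx)
  refine ⟨{ H := H, W := σ '' C, cW := hC.image_of_continuousOn hσc, χ := χ, p := p,
            χ_cont := hχ.cont, p_pos := hχ.pos, χ_pow := hχ.pow, χ_ne := hχ.ne,
            f := fun w => l⁻¹ • (f (e.symm w).1 - a), f_cont := ?_, f_inv := ?_,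
            o := o, R := R, β := β, S := S, b := σ m₀, sub := ?_, int := ?_, hR := hR, hS := hS,
            hSR := hSR, pre := ?_, hb := hb, stab := ?_ }, ?_⟩
  · refine τ.continuous.comp (hfc.comp_continuous ?_ fun w => (e.symm w).2)
    fun_prop
  · intro g y
    rw [hsm', hfi]
  · exact hsub.trans (Set.image_mono interior_subset)
  · intro g y hy
    obtain ⟨m, hm, hmy⟩ := hsub hy
    have h1 : (e.symm y).1 = m := hσi (e.symm y).2 (interior_subset hm) (by rw [he']; exact hmy.symm)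
    refine interior_maximal (Set.image_mono interior_subset) hopen ?_
    refine ⟨g • m, hintC g m hm, ?_⟩
    rw [← he' (g • y), hsm', h1]
  · intro y hy
    rw [← he' y]
    exact hpre _ (e.symm y).2 hy
  · intro g y hy hgy
    by_contra hne
    have hgm : g • (e.symm y).1 = (e.symm y).1 := by rw [← hsm', hgy]
    have hcl : IsClosed ((MulAction.stabilizer H (e.symm y).1 : Subgroup H) : Set H) := by
      have : ((MulAction.stabilizer H (e.symm y).1 : Subgroup H) : Set H) =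
          {h : H | h • (e.symm y).1 = (e.symm y).1} := by
        ext h; simp [MulAction.mem_stabilizer_iff]
      rw [this]
      exact isClosed_eq (by fun_prop) continuous_const
    have htop := hχ.min _ hcl ⟨g, hgm, hne⟩
    have hall : ∀ h : H, h • (e.symm y).1 = (e.symm y).1 := fun h => by
      have : h ∈ MulAction.stabilizer H (e.symm y).1 := by rw [htop]; trivial
      exact this
    have h1 : f (e.symm y).1 = ψ (e.symm y).1 := hfix _ (e.symm y).2 hall
    have h2 : (e.symm y).1 = m₀ := by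
      refine hσi (e.symm y).2 hm₀ ?_
      rw [← hy, h1]
    obtain ⟨h, hh⟩ := hnf
    exact hh (h2 ▸ hall h)
  · intro y hy
    have h1 := hε _ (e.symm y).2 (by
      rcases hy with hy | hy
      · left
        rw [← he' y] at hy
        exact hy
      · right
        exact hy)
    change ‖l⁻¹ • (f (e.symm y).1 - a) - y.1‖ ≤ ε
    rw [← he' y]
    change ‖l⁻¹ • (f (e.symm y).1 - a) - l⁻¹ • (ψ (e.symm y).1 - a)‖ ≤ ε
    rw [← smul_sub, sub_sub_sub_cancel_right]
    exact h1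

theorem G3_chart {n : ℕ} {M : Type v} [TopologicalSpace M] [Nonempty M]
    [ChartedSpace (EuclideanSpace ℝ (Fin n)) M] :
    ∃ ψ : OpenPartialHomeomorph M (Fin n → ℝ), closedBall 0 100 ⊆ ψ.target := by
  let x : M := Classical.arbitrary M
  let φ : OpenPartialHomeomorph M (Fin n → ℝ) :=
    (chartAt (EuclideanSpace ℝ (Fin n)) x).transHomeomorph
      (EuclideanSpace.equiv (Fin n) ℝ).toHomeomorph
  have hx : x ∈ φ.source := mem_chart_source _ x
  obtain ⟨ε, hε, hb⟩ := Metric.isOpen_iff.1 φ.open_target _ (φ.map_source hx)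
  have hc : (ε / 200 : ℝ) ≠ 0 := by positivity
  let τ : (Fin n → ℝ) ≃ₜ (Fin n → ℝ) :=
    (Homeomorph.smulOfNeZero (ε / 200) hc).trans (Homeomorph.addRight (φ x))
  refine ⟨φ.transHomeomorph τ.symm, fun z hz => ?_⟩
  change τ z ∈ φ.target
  apply hb
  change (ε / 200) • z + φ x ∈ ball (φ x) ε
  rw [mem_ball, dist_eq_norm, add_sub_cancel_right, norm_smul, Real.norm_of_nonneg (by positivity)]
  have : ‖z‖ ≤ 100 := by simpa using hz
  nlinarith

/-- Take a chart `ψ` to `Fin n → ℝ` around a point, rescaled so that `closedBall 0 100 ⊆ ψ.target`;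
`O = ψ⁻¹ (ball 0 1)`.  If the claim fails, a countable basis `V i` of `𝓝 1` gives minimal pairs
`H i ⊆ V i` with a non-fixed point in `O`.  By compactness (tube lemma on `ψ⁻¹ (closedBall 0 60)`)
elements of `V i` move these points by `≤ ε i → 0` in the chart.  `C i = H i • ψ⁻¹ (closedBall 0 50)`,
`a = 0`, `l = 1`, `o = β = 0`, `R = 40`, `S = 20`; `exists_dat` gives a `SmallSeq`. -/
theorem small_fix {n : ℕ} (hcore : Core.{u} n) {M : Type v} [TopologicalSpace M] [T2Space M]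
    [Nonempty M] [ChartedSpace (EuclideanSpace ℝ (Fin n)) M]
    {G : Type u} [Group G] [TopologicalSpace G] [IsTopologicalGroup G] [T2Space G]
    [SecondCountableTopology G] [MulAction G M] [ContinuousSMul G M] :
    ∃ V ∈ 𝓝 (1 : G), ∃ O : Set M, IsOpen O ∧ O.Nonempty ∧
      ∀ H : Subgroup G, (H : Set G) ⊆ V → IsCompact (H : Set G) → ∀ (χ : H →* ℂ) (p : ℕ),
        MinPair H χ p → ∀ g ∈ H, ∀ m ∈ O, g • m = m := by
  obtain ⟨ψ, hψ⟩ := G3_chart (n := n) (M := M)
  let K : ℝ → Set M := fun r => ψ.symm '' closedBall 0 r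
  have hKsub : ∀ r : ℝ, r ≤ 100 → closedBall (0 : Fin n → ℝ) r ⊆ ψ.target := fun r hr =>
    (closedBall_subset_closedBall hr).trans hψ
  have hKc : ∀ r : ℝ, r ≤ 100 → IsCompact (K r) := fun r hr =>
    (isCompact_closedBall _ _).image_of_continuousOn (ψ.continuousOn_symm.mono (hKsub r hr))
  have hK1 : ∀ r : ℝ, r ≤ 100 → ∀ m ∈ K r, m ∈ ψ.source ∧ ‖ψ m‖ ≤ r := by
    rintro r hr _ ⟨z, hz, rfl⟩
    refine ⟨ψ.map_target (hKsub r hr hz), ?_⟩
    rw [ψ.right_inv (hKsub r hr hz)]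
    simpa using hz
  have hK2 : ∀ r : ℝ, ∀ m ∈ ψ.source, ‖ψ m‖ ≤ r → m ∈ K r := fun r m hm h =>
    ⟨ψ m, by simpa using h, ψ.left_inv hm⟩
  have hV : ∀ δ : ℝ, 0 < δ → ∀ᶠ g in 𝓝 (1 : G), ∀ m ∈ K 60,
      g • m ∈ ψ.source ∧ ‖ψ (g • m) - ψ m‖ < δ := by
    intro δ hδ
    refine (hKc 60 (by norm_num)).eventually_forall_of_forall_eventually
      (P := fun (g : G) m => g • m ∈ ψ.source ∧ ‖ψ (g • m) - ψ m‖ < δ) ?_
    intro m hm
    have hms := (hK1 60 (by norm_num) m hm).1
    have h1 : Tendsto (fun z : G × M => z.1 • z.2) (𝓝 (1, m)) (𝓝 m) := by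
      have : Continuous (fun z : G × M => z.1 • z.2) := continuous_smul
      simpa using this.tendsto (1, m)
    have h2 : Tendsto (fun z : G × M => z.2) (𝓝 (1, m)) (𝓝 m) := continuous_snd.tendsto _
    have h3 : ContinuousAt ψ m := ψ.continuousAt hms
    have h4 : Tendsto (fun z : G × M => ‖ψ (z.1 • z.2) - ψ z.2‖) (𝓝 (1, m)) (𝓝 0) := by
      have := ((h3.tendsto.comp h1).sub (h3.tendsto.comp h2)).norm
      simpa using this
    exact (h1.eventually (ψ.open_source.mem_nhds hms)).and (h4.eventually (gt_mem_nhds hδ))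
  by_contra hcon
  push Not at hcon
  have hO : IsOpen (ψ.source ∩ ψ ⁻¹' ball 0 1) := ψ.isOpen_inter_preimage isOpen_ball
  have hOne : (ψ.source ∩ ψ ⁻¹' ball 0 1).Nonempty := by
    have h0 : (0 : Fin n → ℝ) ∈ ψ.target := hψ (by simp)
    refine ⟨ψ.symm 0, ψ.map_target h0, ?_⟩
    simp [ψ.right_inv h0]
  have key : ∀ δ : ℝ, 0 < δ → δ ≤ 1 → ∃ Δ : Dat.{u} n, ∀ y : Δ.W,
      (‖y.1‖ ≤ 12 ∨ ‖Δ.f y‖ ≤ 12) → ‖Δ.f y - y.1‖ ≤ δ := by
    intro δ hδ hδ1
    obtain ⟨H, hHV, hHc, χ, p, hχ, g₀, hg₀, m₀, hm₀, hne⟩ := hcon _ (hV δ hδ) _ hO hOne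
    have : CompactSpace H := isCompact_iff_compactSpace.1 hHc
    have : SecondCountableTopology H :=
      inferInstanceAs (SecondCountableTopology (H : Set G))
    have hH : ∀ h : H, ∀ m ∈ K 60, h • m ∈ ψ.source ∧ ‖ψ (h • m) - ψ m‖ < δ :=
      fun h => hHV h.2
    let C : Set M := (fun z : H × M => z.1 • z.2) '' (Set.univ ×ˢ K 50)
    have hC : IsCompact C := (isCompact_univ.prod (hKc 50 (by norm_num))).image continuous_smul
    have hCK : C ⊆ K 60 := by
      rintro _ ⟨⟨h, m⟩, ⟨-, hm⟩, rfl⟩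
      obtain ⟨hm1, hm2⟩ := hK1 50 (by norm_num) m hm
      obtain ⟨h1, h2⟩ := hH h m (hK2 60 m hm1 (by linarith))
      refine hK2 60 _ h1 ?_
      have := norm_sub_norm_le (ψ (h • m)) (ψ m)
      change ‖ψ (h • m)‖ ≤ 60
      linarith
    have hCs : C ⊆ ψ.source := fun m hm => (hK1 60 (by norm_num) m (hCK hm)).1
    have hCi : ∀ (g : H), ∀ m ∈ C, g • m ∈ C := by
      rintro g _ ⟨⟨h, m⟩, ⟨-, hm⟩, rfl⟩
      exact ⟨(g * h, m), ⟨trivial, hm⟩, mul_smul g h m⟩
    have hKC : K 50 ⊆ C := fun m hm => ⟨(1, m), ⟨trivial, hm⟩, one_smul _ _⟩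
    obtain ⟨f, -, -, hconv, hdat⟩ := exists_dat hχ ψ hC hCs hCi
    have hf : ∀ m ∈ C, ‖f m - ψ m‖ ≤ δ := by
      intro m hm
      have := hconv m hm (closedBall (ψ m) δ) (convex_closedBall _ _) (Or.inl isClosed_closedBall)
        (fun g => by
          rw [mem_closedBall, dist_eq_norm]
          exact (hH g m (hCK hm)).2.le)
      rwa [mem_closedBall, dist_eq_norm] at this
    have hm₀1 : ‖ψ m₀‖ < 1 := by simpa using hm₀.2
    refine hdat 0 1 one_pos 0 0 40 20 δ m₀ (hKC (hK2 50 m₀ hm₀.1 (by linarith)))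
      ⟨⟨g₀, hg₀⟩, hne⟩ ?_ (by norm_num) (by norm_num) (by norm_num) ?_ ?_ ?_
    · intro z hz
      have hzt : z ∈ ψ.target := hKsub 40 (by norm_num) hz
      have hop : IsOpen (ψ.symm '' ball 0 50) :=
        ψ.symm.isOpen_image_of_subset_source isOpen_ball
          (ball_subset_closedBall.trans (hKsub 50 (by norm_num)))
      refine ⟨ψ.symm z, interior_maximal
        ((Set.image_mono ball_subset_closedBall).trans hKC) hop
        ⟨z, closedBall_subset_ball (by norm_num) hz, rfl⟩, ?_⟩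
      simp [ψ.right_inv hzt]
    · intro m hm h
      have h1 := hf m hm
      have h2 := norm_sub_norm_le (ψ m) (f m)
      rw [norm_sub_rev] at h2
      simp only [inv_one, sub_zero, one_smul, mem_ball, dist_zero_right] at h ⊢
      linarith
    · simp only [inv_one, sub_zero, one_smul]
      linarith
    · intro m hm _
      simpa using hf m hm
  have key2 : ∀ i : ℕ, ∃ Δ : Dat.{u} n, ∀ y : Δ.W,
      (‖y.1‖ ≤ 12 ∨ ‖Δ.f y‖ ≤ 12) → ‖Δ.f y - y.1‖ ≤ 1 / ((i : ℝ) + 1) := fun i =>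
    key _ (by positivity) (by
      rw [div_le_one (by positivity)]
      have : (0 : ℝ) ≤ i := Nat.cast_nonneg i
      linarith)
  choose Δ hΔ using key2
  refine hcore Δ fun ε hε => ?_
  filter_upwards [(tendsto_one_div_add_atTop_nhds_zero_nat (𝕜 := ℝ)).eventually (ge_mem_nhds hε)]
    with i hi y hy
  exact (hΔ i y hy).trans hi

end Crest.Agent.R217
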