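import Crest.Agent.R217.G3

/-! Row 217, part G4: Newman's theorem for minimal pairs. -/

set_option autoImplicit false

namespace Crest.Agent.R217

open Filter Topology Metric

universe u v

theorem g4_norm {n : ℕ} {l : ℝ} (hl : 0 < l) (y : Fin n → ℝ) : ‖l⁻¹ • y‖ = ‖y‖ / l := by
  rw [norm_smul, norm_inv, Real.norm_of_nonneg hl.le, div_eq_inv_mul]

theorem g4_sub {n : ℕ} {l : ℝ} (hl : 0 < l) (x y a : Fin n → ℝ) :
    ‖l⁻¹ • (x - a) - l⁻¹ • (y - a)‖ = ‖x - y‖ / l := by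
  rw [← smul_sub, sub_sub_sub_cancel_right, g4_norm hl]

/-- the contradiction in a chart in which the non-fixed points lie in an open convex set -/
theorem g4_key {n : ℕ} (hcore : Core.{u} n) {M : Type v} [TopologicalSpace M] [T2Space M]
    {H : Type u} [Group H] [TopologicalSpace H] [IsTopologicalGroup H] [CompactSpace H] [T2Space H]
    [SecondCountableTopology H] [MulAction H M] [ContinuousSMul H M] {χ : H →* ℂ} {p : ℕ}
    (hχ : MinPair H χ p) (ψ : OpenPartialHomeomorph M (Fin n → ℝ)) {C : Set M} (hC : IsCompact C)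
    (hCs : C ⊆ ψ.source) (hCi : ∀ (g : H), ∀ m ∈ C, g • m ∈ C) {Z : Set (Fin n → ℝ)}
    (hZ : IsOpen Z) (hZc : Convex ℝ Z) (hN : ∀ m ∈ C, (∃ g : H, g • m ≠ m) → ψ m ∈ Z) {z : M}
    (hz : C ∈ 𝓝 z) (hz1 : ψ z ∈ closure (interior Zᶜ))
    (hz2 : z ∈ closure {m : M | ∃ g : H, g • m ≠ m}) : False := by
  obtain ⟨f, hf, hfix, hconv, hdat⟩ := exists_dat hχ ψ hC hCs hCi
  have hzC : z ∈ C := mem_of_mem_nhds hz
  have hzZ : ψ z ∉ Z := closure_minimal interior_subset hZ.isClosed_compl hz1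
  have hfZ : ∀ m ∈ C, (∃ g : H, g • m ≠ m) → f m ∈ Z := by
    rintro m hm ⟨g, hg⟩
    refine hconv m hm Z hZc (Or.inr hZ) fun k => hN _ (hCi k m hm) ⟨k * g * k⁻¹, fun h => hg ?_⟩
    rw [mul_smul, inv_smul_smul, mul_smul] at h
    exact MulAction.injective k h
  obtain ⟨R₀, hR₀, hR⟩ := nhds_basis_closedBall.mem_iff.1
    (ψ.image_mem_nhds (hCs hzC) (interior_mem_nhds.2 hz))
  have hK : IsCompact (C ∩ (ψ.source ∩ ψ ⁻¹' ball (ψ z) R₀)ᶜ) :=
    hC.inter_right (ψ.isOpen_inter_preimage isOpen_ball).isClosed_compl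
  have hK1 : ψ z ∈ (f '' (C ∩ (ψ.source ∩ ψ ⁻¹' ball (ψ z) R₀)ᶜ))ᶜ := by
    rintro ⟨m, ⟨hm1, hm2⟩, hm3⟩
    by_cases h : ∃ g : H, g • m ≠ m
    · exact hzZ (hm3 ▸ hfZ m hm1 h)
    · push Not at h
      refine hm2 ⟨hCs hm1, ?_⟩
      rw [Set.mem_preimage, ← hfix m hm1 h, hm3]
      exact mem_ball_self hR₀
  obtain ⟨S₁, hS₁, hS⟩ := nhds_basis_closedBall.mem_iff.1
    ((hK.image_of_continuousOn (hf.mono Set.inter_subset_left)).isClosed.isOpen_compl.mem_nhds hK1)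
  obtain ⟨S₀, hS₀, hS1, hS2⟩ : ∃ S₀ : ℝ, 0 < S₀ ∧ S₀ ≤ S₁ ∧ S₀ < R₀ :=
    ⟨min S₁ (R₀ / 2), lt_min hS₁ (half_pos hR₀), min_le_left _ _,
      (min_le_right _ _).trans_lt (half_lt_self hR₀)⟩
  obtain ⟨m₀, ⟨hm1, hm2⟩, hm3⟩ := mem_closure_iff_nhds.1 hz2 _
    (inter_mem hz ((ψ.continuousAt (hCs hzC)).preimage_mem_nhds (ball_mem_nhds _ hS₀)))
  obtain ⟨a, ha1, ha2⟩ := Metric.mem_closure_iff.1 hz1 (S₀ / 2) (half_pos hS₀)
  obtain ⟨η, hη, ha3⟩ := nhds_basis_closedBall.mem_iff.1 (mem_interior_iff_mem_nhds.1 ha1)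
  obtain ⟨l, hl, hl1, hl2⟩ : ∃ l : ℝ, 0 < l ∧ 12 * l ≤ η ∧ 24 * l ≤ S₀ :=
    ⟨min (η / 12) (S₀ / 24), by positivity, by linarith [min_le_left (η / 12) (S₀ / 24)],
      by linarith [min_le_right (η / 12) (S₀ / 24)]⟩
  rw [dist_eq_norm] at ha2
  have hlt : S₀ / l < R₀ / l := div_lt_div_of_pos_right hS2 hl
  have h12 : ‖l⁻¹ • (ψ z - a)‖ + 12 ≤ S₀ / l := by
    rw [g4_norm hl, div_add' _ _ _ hl.ne']
    exact div_le_div_of_nonneg_right (by linarith) hl.le
  have hout : ∀ y ∈ Z, ¬ ‖l⁻¹ • (y - a)‖ ≤ 12 := by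
    intro y hy h
    rw [g4_norm hl, div_le_iff₀ hl] at h
    exact ha3 (mem_closedBall_iff_norm.2 (h.trans hl1)) hy
  refine (hdat a l hl (l⁻¹ • (ψ z - a)) (l⁻¹ • (ψ z - a)) (R₀ / l) (S₀ / l) 0 m₀ hm1 hm3
    ?_ (h12.trans hlt.le) (by linarith) hlt ?_ ?_ ?_).elim fun Δ hΔ =>
      hcore (fun _ => Δ) fun ε hε => Eventually.of_forall fun _ y hy => (hΔ y hy).trans hε.le
  · intro y hy
    have e : y = l⁻¹ • (l • y + a - a) := by
      rw [add_sub_cancel_right, smul_smul, inv_mul_cancel₀ hl.ne', one_smul]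
    rw [mem_closedBall_iff_norm, e, g4_sub hl, div_le_div_iff_of_pos_right hl] at hy
    obtain ⟨m, hm, hm'⟩ := hR (mem_closedBall_iff_norm.2 hy)
    exact ⟨m, hm, by rw [e, ← hm']⟩
  · intro m hm h
    rw [g4_sub hl, div_le_div_iff_of_pos_right hl] at h
    rw [mem_ball_iff_norm, g4_sub hl, div_lt_div_iff_of_pos_right hl, ← mem_ball_iff_norm]
    by_contra h1
    exact hS (mem_closedBall_iff_norm.2 (h.trans hS1)) ⟨m, ⟨hm, fun h2 => h1 h2.2⟩, rfl⟩
  · rw [g4_sub hl, div_lt_div_iff_of_pos_right hl, ← mem_ball_iff_norm]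
    exact hm2
  · intro m hm h
    by_cases h1 : ∃ g : H, g • m ≠ m
    · exact (h.elim (hout _ (hN m hm h1)) (hout _ (hfZ m hm h1))).elim
    · push Not at h1
      rw [hfix m hm h1, sub_self, smul_zero, norm_zero]

/-- the inversion (for any norm) -/
noncomputable def g4_inv {E : Type*} [NormedAddCommGroup E] [NormedSpace ℝ E] (a : E) :
    OpenPartialHomeomorph E E where
  toFun x := (‖x - a‖ ^ 2)⁻¹ • (x - a)
  invFun y := (‖y‖ ^ 2)⁻¹ • y + a
  source := {a}ᶜ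
  target := {0}ᶜ
  map_source' x hx := by
    have h : x - a ≠ 0 := sub_ne_zero.2 hx
    exact smul_ne_zero (inv_ne_zero (pow_ne_zero _ (norm_ne_zero_iff.2 h))) h
  map_target' y hy := by
    have h : y ≠ 0 := hy
    intro h1
    exact smul_ne_zero (inv_ne_zero (pow_ne_zero _ (norm_ne_zero_iff.2 h))) h
      (add_eq_right.1 (Set.mem_singleton_iff.1 h1))
  left_inv' x hx := by
    have h : ‖x - a‖ ≠ 0 := norm_ne_zero_iff.2 (sub_ne_zero.2 hx)
    have e : (‖(‖x - a‖ ^ 2)⁻¹ • (x - a)‖ ^ 2)⁻¹ * (‖x - a‖ ^ 2)⁻¹ = 1 := by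
      rw [norm_smul, norm_inv, norm_pow, norm_norm]; field_simp
    rw [smul_smul, e, one_smul, sub_add_cancel]
  right_inv' y hy := by
    have h : ‖y‖ ≠ 0 := norm_ne_zero_iff.2 hy
    have e : (‖(‖y‖ ^ 2)⁻¹ • y‖ ^ 2)⁻¹ * (‖y‖ ^ 2)⁻¹ = 1 := by
      rw [norm_smul, norm_inv, norm_pow, norm_norm]; field_simp
    rw [add_sub_cancel_right, smul_smul, e, one_smul]
  open_source := isOpen_compl_singleton
  open_target := isOpen_compl_singleton
  continuousOn_toFun := by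
    refine ContinuousOn.smul (ContinuousOn.inv₀ (by fun_prop) fun x hx => ?_) (by fun_prop)
    exact pow_ne_zero _ (norm_ne_zero_iff.2 (sub_ne_zero.2 hx))
  continuousOn_invFun := by
    refine (ContinuousOn.smul (ContinuousOn.inv₀ (by fun_prop) fun x hx => ?_)
      (by fun_prop)).add continuousOn_const
    exact pow_ne_zero _ (norm_ne_zero_iff.2 hx)

theorem g4_inv_norm {E : Type*} [NormedAddCommGroup E] [NormedSpace ℝ E] (a x : E) :
    ‖g4_inv a x‖ = ‖x - a‖⁻¹ := by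
  change ‖(‖x - a‖ ^ 2)⁻¹ • (x - a)‖ = _
  rw [norm_smul, norm_inv, norm_pow, norm_norm]
  by_cases h : ‖x - a‖ = 0
  · simp [h]
  · field_simp

/-- a chart in which an open set `N` lies on one side -/
theorem g4_chart {E : Type*} [NormedAddCommGroup E] [NormedSpace ℝ E] [ProperSpace E]
    {M : Type v} [TopologicalSpace M] (φ : OpenPartialHomeomorph M E) {N : Set M} (hN : IsOpen N)
    {z : M} (hz : z ∈ φ.source) (h1 : z ∈ closure N) (h2 : z ∈ closure (closure N)ᶜ) :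
    ∃ (ψ : OpenPartialHomeomorph M E) (Z : Set E) (w : M), IsOpen Z ∧ Convex ℝ Z ∧
      (∀ m ∈ ψ.source, m ∈ N → ψ m ∈ Z) ∧ w ∈ ψ.source ∧ ψ w ∈ closure (interior Zᶜ) ∧
      w ∈ closure N := by
  obtain ⟨r, hr, hB⟩ : ∃ r : ℝ, 0 < r ∧ ball (φ z) (3 * r) ⊆ φ.target := by
    obtain ⟨r, hr, hB⟩ := Metric.isOpen_iff.1 φ.open_target _ (φ.map_source hz)
    exact ⟨r / 3, by positivity, by rwa [mul_div_cancel₀ _ (by norm_num)]⟩
  have hW : φ.source ∩ φ ⁻¹' ball (φ z) r ∈ 𝓝 z :=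
    inter_mem (φ.open_source.mem_nhds hz) ((φ.continuousAt hz).preimage_mem_nhds (ball_mem_nhds _ hr))
  obtain ⟨c, ⟨hc1, hc2⟩, hc3⟩ := mem_closure_iff_nhds.1 h1 _ hW
  obtain ⟨b, ⟨hb1, hb2⟩, hb3⟩ := mem_closure_iff_nhds.1 h2 _ hW
  rw [Set.mem_preimage, mem_ball] at hc2 hb2
  set P : Set E := ball (φ z) (3 * r) ∩ φ.symm ⁻¹' N with hP
  have hPo : IsOpen P := (φ.continuousOn_symm.mono hB).isOpen_inter_preimage isOpen_ball hN
  have hPm : ∀ m ∈ φ.source, φ m ∈ ball (φ z) (3 * r) → m ∈ N → φ m ∈ P := fun m hm h h' =>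
    ⟨h, by rwa [Set.mem_preimage, φ.left_inv hm]⟩
  have hcP : φ c ∈ P := hPm c hc1 (mem_ball.2 (by linarith)) hc3
  have hcl : ∀ y ∈ φ.target, y ∈ closure P → φ.symm y ∈ closure N := fun y hy h =>
    closure_mono (Set.image_subset_iff.2 Set.inter_subset_right)
      (mem_closure_image (φ.continuousAt_symm hy) h)
  have hbP : φ b ∉ closure P := fun h => hb3 (φ.left_inv hb1 ▸ hcl _ (φ.map_source hb1) h)
  obtain ⟨y, hy1, hy2⟩ := isClosed_closure.exists_infDist_eq_dist ⟨_, subset_closure hcP⟩ (φ b)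
  have hmin : ∀ x ∈ P, dist (φ b) y ≤ dist (φ b) x := fun x hx =>
    hy2 ▸ infDist_le_dist_of_mem (subset_closure hx)
  have hyb : y ≠ φ b := fun h => hbP (h ▸ hy1)
  set s := dist (φ b) y with hs
  have hs0 : 0 < s := dist_pos.2 hyb.symm
  have hyB : y ∈ ball (φ z) (3 * r) := by
    have e1 := hmin _ hcP
    have e2 := dist_triangle_right (φ b) (φ c) (φ z)
    have e3 := dist_triangle_left y (φ z) (φ b)
    exact mem_ball.2 (by linarith)
  have hout : ∀ x ∈ P, s < ‖x - φ b‖ := by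
    intro x hx
    have hd : Disjoint P (closure (ball (φ b) s)) := by
      refine Disjoint.closure_right (Set.disjoint_left.2 fun x hx h => ?_) hPo
      exact (hmin x hx).not_gt (mem_ball'.1 h)
    rw [closure_ball _ hs0.ne'] at hd
    exact not_le.1 fun h => Set.disjoint_left.1 hd hx (mem_closedBall_iff_norm.2 h)
  refine ⟨φ.trans ((g4_inv (φ b)).restrOpen (ball (φ z) (3 * r)) isOpen_ball), ball 0 s⁻¹,
    φ.symm y, isOpen_ball, convex_ball _ _, fun m hm hmN => ?_, ?_, ?_, hcl y (hB hyB) hy1⟩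
  · change g4_inv (φ b) (φ m) ∈ _
    rw [mem_ball_zero_iff, g4_inv_norm]
    exact inv_strictAnti₀ hs0 (hout _ (hPm m hm.1 hm.2.2 hmN))
  · refine ⟨φ.map_target (hB hyB), ?_⟩
    rw [Set.mem_preimage]
    change φ (φ.symm y) ∈ _
    rw [φ.right_inv (hB hyB)]
    exact ⟨hyb, hyB⟩
  · change g4_inv (φ b) (φ (φ.symm y)) ∈ _
    rw [φ.right_inv (hB hyB), interior_compl, closure_compl, closure_ball _ (inv_ne_zero hs0.ne'),
      interior_closedBall _ (inv_ne_zero hs0.ne'), Set.mem_compl_iff, mem_ball_zero_iff,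
      g4_inv_norm, hs, dist_comm, dist_eq_norm]
    exact lt_irrefl _

/-- Let `Fix` be the closed set of fixed points, `U = interior Fix ≠ ∅`.  If `U ≠ univ`, by
connectedness there is `z ∈ closure U \ U`.  In a chart `φ` at `z` (Euclidean norm, ball
`B(φ z, 3r) ⊆ target`) take `a ∈ φ U` within `r` of `φ z` and `s = ` the distance from `a` to the
closure of the set of non-fixed points of `B(φ z, 3r)` (`0 < s ≤ r`), attained at `z'`: the closed ball
`D = closedBall a s` consists of fixed points and `z' ∈ ∂D` is a limit of non-fixed points.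
Compose `φ` with the inversion in the sphere `∂D` (`EuclideanGeometry.inversion a s`, a
homeomorphism of `{a}ᶜ` fixing `z'`) and with the linear homeomorphism to `Fin n → ℝ`: in the new
chart `ψ` (restricted to `B(φ z, 3r) \ {a}`) all non-fixed points lie in the open convex set
`Z` = image of the open round ball, `ψ z' ∉ Z`, and `ψ z'` is a limit of interior points of `Zᶜ`.
Let `C` be a compact invariant neighbourhood of `z'` in the source (`H • small closed ball`), `f` from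
`exists_dat`: `f m ∈ Z` for non-fixed `m`, `f m = ψ m` for fixed `m`, hence `f m = ψ z'` only for
`m = z'`.  Pick `R₀` with `closedBall (ψ z') R₀ ⊆ ψ '' interior C`, by compactness `S₀ < R₀` with
`‖f m - ψ z'‖ ≤ S₀ → ψ m ∈ ball (ψ z') R₀`, a non-fixed `m₀` with `‖ψ m₀ - ψ z'‖ < S₀`, and a ball
`closedBall a' (12 λ) ⊆ Zᶜ` with `‖ψ z' - a'‖ + 12 λ ≤ S₀`.  Use the last clause of `exists_dat`
with `a = a'`, `l = λ`, `o = β = λ⁻¹ • (ψ z' - a')`, `R = R₀ / λ`, `S = S₀ / λ`,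
with `ε = 0`, and the constant sequence contradicts `hcore`. -/
theorem newman {n : ℕ} (hn : 1 ≤ n) (hcore : Core.{u} n) {M : Type v} [TopologicalSpace M]
    [T2Space M] [ConnectedSpace M] [ChartedSpace (EuclideanSpace ℝ (Fin n)) M]
    {H : Type u} [Group H] [TopologicalSpace H] [IsTopologicalGroup H] [CompactSpace H] [T2Space H]
    [SecondCountableTopology H] [MulAction H M] [ContinuousSMul H M] {χ : H →* ℂ} {p : ℕ}
    (hχ : MinPair H χ p) {O : Set M} (hO : IsOpen O) (hne : O.Nonempty)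
    (hfix : ∀ g : H, ∀ m ∈ O, g • m = m) : ∀ (g : H) (m : M), g • m = m := by
  have _ := hn
  by_contra hcon
  push Not at hcon
  set N : Set M := {m : M | ∃ g : H, g • m ≠ m} with hNdef
  have hN : IsOpen N := by
    rw [hNdef, Set.ofPred_exists]
    exact isOpen_iUnion fun g => isOpen_ne_fun (continuous_const_smul g) continuous_id
  have hN1 : (closure N).Nonempty := by
    obtain ⟨g, m, h⟩ := hcon
    exact ⟨m, subset_closure ⟨g, h⟩⟩
  have hN2 : closure N ≠ Set.univ := by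
    intro h
    obtain ⟨m, hm⟩ := hne
    obtain ⟨x, hx, g, hg⟩ := mem_closure_iff.1 (h ▸ Set.mem_univ m : m ∈ closure N) O hO hm
    exact hg (hfix g x hx)
  obtain ⟨z, hz⟩ := nonempty_frontier_iff.2 ⟨hN1, hN2⟩
  rw [frontier_eq_closure_inter_closure, closure_closure] at hz
  obtain ⟨ψ, Z, w, hZ, hZc, hψ, hw, hw1, hw2⟩ := g4_chart
    ((chartAt (EuclideanSpace ℝ (Fin n)) z).transHomeomorph
      (EuclideanSpace.equiv (Fin n) ℝ).toHomeomorph) hN (mem_chart_source _ z) hz.1 hz.2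
  have hwf : ∀ g : H, g • w = w := by
    intro g
    by_contra h
    exact closure_minimal interior_subset hZ.isClosed_compl hw1 (hψ w hw ⟨g, h⟩)
  have hV : ∀ᶠ m in 𝓝 w, ∀ g ∈ (Set.univ : Set H), g • m ∈ ψ.source := by
    refine isCompact_univ.eventually_forall_of_forall_eventually fun g _ => ?_
    have hc : Continuous fun q : M × H => q.2 • q.1 := by fun_prop
    exact hc.continuousAt.preimage_mem_nhds (ψ.open_source.mem_nhds (by simpa [hwf] using hw))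
  have := ChartedSpace.locallyCompactSpace (EuclideanSpace ℝ (Fin n)) M
  obtain ⟨K, hK1, hK2, hK3⟩ := local_compact_nhds hV
  refine g4_key hcore hχ ψ (C := (fun q : H × M => q.1 • q.2) '' (Set.univ ×ˢ K))
    ((isCompact_univ.prod hK3).image continuous_smul) ?_ ?_ hZ hZc ?_ ?_ hw1 hw2
  · rintro _ ⟨⟨g, m⟩, h, rfl⟩
    exact hK2 h.2 g trivial
  · rintro k _ ⟨⟨g, m⟩, h, rfl⟩
    exact ⟨(k * g, m), ⟨trivial, h.2⟩, mul_smul k g m⟩
  · rintro _ ⟨⟨g, m⟩, h, rfl⟩ h'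
    exact hψ _ (hK2 h.2 g trivial) h'
  · exact mem_of_superset hK1 fun m hm => ⟨(1, m), ⟨trivial, hm⟩, one_smul H m⟩

end Crest.Agent.R217
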