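import Crest.Agent.R217.G2
import Crest.Agent.R217.G4

/-! Row 217, part G: the core theorem implies that the group has no small subgroups. -/

set_option autoImplicit false

namespace Crest.Agent.R217

open Filter Topology Metric

universe u v

/-- `small_fix` gives `V, O`.  Take a compact neighbourhood `U ⊆ V` of `1`.  If `S ⊆ U` is a
non-trivial subgroup, `K = S.topologicalClosure ⊆ U` is compact and non-trivial, `exists_minPair` gives
`H ≤ K`, which fixes `O`, hence everything (`newman`, for the action of the subgroup `H`), so by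
faithfulness `H` is trivial, contradicting `χ ≠ 1`. -/
theorem nss_of_core {n : ℕ} (hn : 1 ≤ n) (hcore : Core.{u} n) {M : Type v} [TopologicalSpace M]
    [T2Space M] [ConnectedSpace M] [ChartedSpace (EuclideanSpace ℝ (Fin n)) M]
    {G : Type u} [Group G] [TopologicalSpace G] [IsTopologicalGroup G] [T2Space G]
    [SecondCountableTopology G] [LocallyCompactSpace G]
    [MulAction G M] [ContinuousSMul G M] [FaithfulSMul G M] :
    ∃ U ∈ 𝓝 (1 : G), ∀ S : Subgroup G, (S : Set G) ⊆ U → S = ⊥ := by
  obtain ⟨V, hV, O, hO, hne, h⟩ := small_fix (M := M) (G := G) hcore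
  obtain ⟨U, hU, hUV, hc⟩ := local_compact_nhds hV
  refine ⟨U, hU, fun S hS => by_contra fun h0 => ?_⟩
  have h1 : (S.topologicalClosure : Set G) ⊆ U := closure_minimal hS hc.isClosed
  obtain ⟨H, k1, k2, χ, p, k3⟩ := exists_minPair
    (hc.of_isClosed_subset S.isClosed_topologicalClosure h1)
    fun h2 => h0 (eq_bot_iff.2 (h2 ▸ S.le_topologicalClosure))
  have : CompactSpace H := isCompact_iff_compactSpace.1 k2
  have : SecondCountableTopology H := TopologicalSpace.Subtype.secondCountableTopology _
  have k4 := newman hn hcore k3 hO hne fun g m hm =>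
    h H (fun x hx => hUV (h1 (k1 hx))) k2 χ p k3 g.1 g.2 m hm
  obtain ⟨g, hg⟩ := k3.ne
  have k5 : g = 1 := Subtype.ext (eq_of_smul_eq_smul (α := M) fun m => (k4 g m).trans
    (one_smul G m).symm)
  exact hg (by rw [k5, map_one])

end Crest.Agent.R217
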