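import Crest.Agent.R217.HDefs

/-! Row 217, task `R217/HOne`: one-parameter groups of operators, the function `Om`. -/

set_option autoImplicit false

namespace Crest.Agent.R217

open Filter Topology
open scoped ContDiff

universe u

variable {E : Type u} [NormedAddCommGroup E] [NormedSpace ℝ E] [CompleteSpace E]

section HOneAux
open NormedSpace MeasureTheory
open scoped Nat
variable {𝔸 : Type u} [NormedRing 𝔸] [NormedAlgebra ℝ 𝔸] [CompleteSpace 𝔸]

theorem HOne_gen (T : ℝ → 𝔸) (hT : Continuous T) (h0 : T 0 = 1)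
    (hadd : ∀ s t, T (s + t) = T s * T t) : ∃ A : 𝔸, ∀ t, T t = exp (t • A) := by
  let F : ℝ → 𝔸 := fun x => ∫ s in (0 : ℝ)..x, T s
  have hF : ∀ x, HasDerivAt F (T x) x := fun x => (hT.integral_hasStrictDerivAt 0 x).hasDerivAt
  have hmul : ∀ t δ, T t * F δ = F (t + δ) - F t := fun t δ => by
    have h1 := (ContinuousLinearMap.mul ℝ 𝔸 (T t)).intervalIntegral_comp_comm
      (hT.intervalIntegrable (μ := volume) 0 δ)
    simp only [ContinuousLinearMap.mul_apply', ← hadd] at h1
    rw [← h1, intervalIntegral.integral_comp_add_left T t, add_zero]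
    exact (intervalIntegral.integral_interval_sub_left (hT.intervalIntegrable _ _)
      (hT.intervalIntegrable _ _)).symm
  obtain ⟨δ, hδ⟩ : ∃ δ : ℝ, IsUnit (δ⁻¹ • F δ) := by
    have h1 := hasDerivAt_iff_tendsto_slope_zero.1 (hF 0)
    rw [h0] at h1
    obtain ⟨δ, hδ⟩ := (h1.eventually (Units.isOpen.mem_nhds isUnit_one)).exists
    exact ⟨δ, by simpa [F] using hδ⟩
  obtain ⟨u, hu⟩ := hδ
  have hTe : ∀ t, T t = δ⁻¹ • (F (t + δ) - F t) * (u⁻¹ : 𝔸ˣ) := fun t => by
    rw [← hmul, ← mul_smul_comm, ← hu, Units.mul_inv_cancel_right]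
  let A : 𝔸 := δ⁻¹ • (T δ - 1) * (u⁻¹ : 𝔸ˣ)
  have hd : ∀ t, HasDerivAt T (T t * A) t := fun t => by
    have h1 := ((((hF (t + δ)).comp_add_const t δ).sub (hF t)).const_smul δ⁻¹).mul_const
      ((u⁻¹ : 𝔸ˣ) : 𝔸)
    have h2 : T t * A = δ⁻¹ • (T (t + δ) - T t) * (u⁻¹ : 𝔸ˣ) := by
      rw [hadd, ← mul_assoc, mul_smul_comm, mul_sub, mul_one]
    rw [h2]
    exact h1.congr_of_eventuallyEq (Eventually.of_forall hTe)
  have hg : ∀ t, HasDerivAt (fun t : ℝ => T t * exp (t • -A)) 0 t := fun t => by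
    have h1 := (hd t).mul (hasDerivAt_exp_smul_const' (𝕂 := ℝ) (-A) t)
    have h2 : T t * A * exp (t • -A) + T t * (-A * exp (t • -A)) = 0 := by noncomm_ring
    rwa [h2] at h1
  refine ⟨A, fun t => ?_⟩
  have h1 := is_const_of_deriv_eq_zero (fun t => (hg t).differentiableAt)
    (fun t => (hg t).deriv) t 0
  simp only [h0, zero_smul, exp_zero, mul_one] at h1
  have h2 : exp (t • -A) * exp (t • A) = 1 := by
    rw [← exp_add_of_commute_of_mem_ball (𝕂 := ℝ) (((Commute.refl A).neg_left.smul_left t).smul_right t)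
      ((expSeries_radius_eq_top ℝ 𝔸).symm ▸ edist_lt_top _ _)
      ((expSeries_radius_eq_top ℝ 𝔸).symm ▸ edist_lt_top _ _)]
    simp
  rw [← mul_one (T t), ← h2, ← mul_assoc, h1, one_mul]

theorem HOne_series (A : 𝔸) : HasSum (fun n : ℕ => ((-1 : ℝ) ^ n / (n + 1)!) • A ^ n)
    (∫ t in (0 : ℝ)..1, exp (-(t • A))) := by
  have e : ∀ (n : ℕ) (t : ℝ), ((n ! : ℝ)⁻¹) • (-(t • A)) ^ n =
      t ^ n • (((-1 : ℝ) ^ n * (n ! : ℝ)⁻¹) • A ^ n) := fun n t => by
    rw [← neg_smul, smul_pow, smul_smul, smul_smul, neg_pow t]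
    congr 1
    ring
  have h := intervalIntegral.hasSum_integral_of_dominated_convergence (μ := volume) (a := 0) (b := 1)
    (F := fun (n : ℕ) (t : ℝ) => t ^ n • (((-1 : ℝ) ^ n * (n ! : ℝ)⁻¹) • A ^ n))
    (f := fun t => exp (-(t • A))) (fun n _ => ‖((n ! : ℝ)⁻¹) • A ^ n‖)
    (fun n => (by fun_prop : Continuous _).aestronglyMeasurable)
    (fun n => ae_of_all _ fun t ht => by
      rw [Set.uIoc_of_le zero_le_one] at ht
      rw [norm_smul, mul_smul, norm_smul, norm_pow, norm_pow, norm_neg, norm_one, one_pow, one_mul]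
      refine mul_le_of_le_one_left (norm_nonneg _) (pow_le_one₀ (norm_nonneg _) ?_)
      rw [Real.norm_eq_abs, abs_of_pos ht.1]
      exact ht.2)
    (ae_of_all _ fun _ _ => norm_expSeries_summable' A) intervalIntegrable_const
    (ae_of_all _ fun t _ => by
      simpa only [e] using exp_series_hasSum_exp' (𝕂 := ℝ) (-(t • A)))
  refine h.congr_fun ?_
  intro n
  rw [intervalIntegral.integral_smul_const, integral_pow, smul_smul, Nat.factorial_succ]
  congr 1
  have : (n ! : ℝ) ≠ 0 := by positivity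
  push_cast
  field_simp
  simp

theorem HOne_smooth : ContDiff ℝ ∞ fun A : 𝔸 => ∫ t in (0 : ℝ)..1, exp (-(t • A)) := by
  let c : ℕ → ℝ := fun n => (-1 : ℝ) ^ n / (n + 1)!
  have hr : (FormalMultilinearSeries.ofScalars 𝔸 c).radius = ⊤ := by
    refine FormalMultilinearSeries.ofScalars_radius_eq_top_of_tendsto 𝔸 c
      (Eventually.of_forall fun n => by simp only [c]; positivity) ?_
    have e : ∀ n : ℕ, ‖c n.succ‖ / ‖c n‖ = 1 / (((n + 1 : ℕ) : ℝ) + 1) := fun n => by
      have : ((n + 1)! : ℝ) ≠ 0 := by positivity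
      simp only [c, norm_div, norm_pow, norm_neg, norm_one, one_pow, Real.norm_natCast,
        Nat.succ_eq_add_one, Nat.factorial_succ (n + 1)]
      push_cast
      field_simp
    simp only [e]
    exact (tendsto_one_div_add_atTop_nhds_zero_nat (𝕜 := ℝ)).comp (tendsto_add_atTop_nat 1)
  have h := (FormalMultilinearSeries.ofScalars 𝔸 c).hasFPowerSeriesOnBall (by simp [hr])
  have e : (fun A : 𝔸 => ∫ t in (0 : ℝ)..1, exp (-(t • A))) =
      (FormalMultilinearSeries.ofScalars 𝔸 c).sum := by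
    funext A
    rw [← (HOne_series A).tsum_eq]
    exact (FormalMultilinearSeries.ofScalars_sum_eq c A).symm
  rw [e, contDiff_iff_contDiffAt]
  exact fun A => (h.analyticAt_of_mem (by simp [hr])).contDiffAt

theorem HOne_riemann {X : Type*} [NormedAddCommGroup X] [NormedSpace ℝ X] [CompleteSpace X]
    {f : ℝ → X} (hf : Continuous f) :
    Tendsto (fun n : ℕ => (n : ℝ)⁻¹ • ∑ i ∈ Finset.range n, f ((i : ℝ) / n)) atTop
      (𝓝 (∫ t in (0 : ℝ)..1, f t)) := by
  rw [Metric.tendsto_atTop]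
  intro ε hε
  obtain ⟨δ, hδ, hu⟩ := Metric.uniformContinuousOn_iff_le.1
    ((isCompact_Icc (a := (0 : ℝ)) (b := 1)).uniformContinuousOn_of_continuous hf.continuousOn)
    (ε / 2) (by positivity)
  obtain ⟨N, hN⟩ := exists_nat_one_div_lt hδ
  refine ⟨N + 1, fun n hn => ?_⟩
  have hn0 : (0 : ℝ) < n := by exact_mod_cast (by omega : 0 < n)
  have hnδ : 1 / (n : ℝ) ≤ δ :=
    (one_div_le_one_div_of_le (by positivity) (by exact_mod_cast hn)).trans hN.le
  have h1 := intervalIntegral.sum_integral_adjacent_intervals (μ := volume) (f := f)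
    (a := fun i : ℕ => (i : ℝ) / n) (n := n) fun k _ => hf.intervalIntegrable _ _
  simp only [Nat.cast_zero, zero_div, div_self hn0.ne'] at h1
  rw [← h1, dist_eq_norm, Finset.smul_sum, ← Finset.sum_sub_distrib]
  have h2 : ∀ i ∈ Finset.range n, ‖(n : ℝ)⁻¹ • f ((i : ℝ) / n) -
      ∫ t in ((i : ℝ) / n)..(((i + 1 : ℕ) : ℝ) / n), f t‖ ≤ ε / 2 * (1 / n) := fun i hi => by
    have hi' : (i : ℝ) + 1 ≤ n := by exact_mod_cast Finset.mem_range.1 hi
    have hlen : ((i + 1 : ℕ) : ℝ) / n - (i : ℝ) / n = 1 / n := by push_cast; ring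
    have hle : (i : ℝ) / n ≤ ((i + 1 : ℕ) : ℝ) / n := by
      have : 0 < 1 / (n : ℝ) := by positivity
      linarith
    have h3 : (n : ℝ)⁻¹ • f ((i : ℝ) / n) =
        ∫ _ in ((i : ℝ) / n)..(((i + 1 : ℕ) : ℝ) / n), f ((i : ℝ) / n) := by
      rw [intervalIntegral.integral_const, hlen, one_div]
    rw [h3, ← intervalIntegral.integral_sub intervalIntegrable_const (hf.intervalIntegrable _ _)]
    refine (intervalIntegral.norm_integral_le_of_norm_le_const (C := ε / 2) fun t ht => ?_).trans ?_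
    · rw [Set.uIoc_of_le hle] at ht
      have a0 : 0 ≤ (i : ℝ) / n := by positivity
      have a1 : ((i + 1 : ℕ) : ℝ) / n ≤ 1 := by
        rw [div_le_one hn0]; push_cast; exact hi'
      rw [← dist_eq_norm]
      refine hu _ ⟨a0, hle.trans a1⟩ _ ⟨a0.trans ht.1.le, ht.2.trans a1⟩ ?_
      rw [Real.dist_eq, abs_le]
      constructor <;> linarith [ht.1, ht.2]
    · rw [hlen, abs_of_pos (by positivity)]
  refine ((norm_sum_le _ _).trans (Finset.sum_le_sum h2)).trans_lt ?_
  rw [Finset.sum_const, Finset.card_range, nsmul_eq_mul]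
  field_simp
  linarith

end HOneAux

/-- `B = ∫₀^δ T` is invertible for small `δ` and `T t * B = ∫_t^{t+δ} T` is differentiable; so `T` is
differentiable, `T' = T A`, and `T t * exp (-(t • A))` is constant (`A` commutes with `T t`). -/
theorem exists_generator (T : ℝ → (E →L[ℝ] E)) (hT : Continuous T) (h0 : T 0 = 1)
    (hadd : ∀ s t, T (s + t) = T s * T t) : ∃ A : E →L[ℝ] E, ∀ t, T t = NormedSpace.exp (t • A) := HOne_gen T hT h0 hadd

theorem Om_zero : Om (0 : E →L[ℝ] E) = 1 := by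
  simp [Om]

/-- `Om A = ∑ (-1)^n / (n+1)! • A^n` (integrate the exponential series termwise); this is
`FormalMultilinearSeries.ofScalarsSum` of a series with infinite radius of convergence, hence analytic. -/
theorem contDiff_Om : ContDiff ℝ ∞ (Om : (E →L[ℝ] E) → (E →L[ℝ] E)) := HOne_smooth

/-- Riemann sums of the continuous function `t ↦ exp (-(t • A))` (it is Lipschitz on `[0,1]`) -/
theorem tendsto_Om (A : E →L[ℝ] E) :
    Tendsto (fun n : ℕ => (n : ℝ)⁻¹ • ∑ i ∈ Finset.range n, NormedSpace.exp (-(((i : ℝ) / n) • A)))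
      atTop (𝓝 (Om A)) := by
  have h : Continuous (NormedSpace.exp : (E →L[ℝ] E) → (E →L[ℝ] E)) :=
    continuous_iff_continuousAt.2 fun x => (NormedSpace.exp_analytic (𝕂 := ℝ) x).continuousAt
  exact HOne_riemann (f := fun t : ℝ => NormedSpace.exp (-(t • A))) (h.comp (by fun_prop))

/-- **Bootstrap.**  If `m` is differentiable on an open set `S` with derivative a smooth function of
the point and of the value, then `m` is smooth (induction on the order with
`contDiffOn_succ_iff_fderiv_of_isOpen`, `contDiffOn_infty`). -/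
theorem contDiffOn_of_fderiv {F : Type u} [NormedAddCommGroup F] [NormedSpace ℝ F] {S : Set F}
    (hS : IsOpen S) {T : Set E} {m : F → E} (hT : ∀ p ∈ S, m p ∈ T) {Θ : F × E → (F →L[ℝ] E)}
    (hΘ : ContDiffOn ℝ ∞ Θ (S ×ˢ T)) (hm : ∀ p ∈ S, HasFDerivAt m (Θ (p, m p)) p) :
    ContDiffOn ℝ ∞ m S := by
  rw [contDiffOn_infty]
  intro n
  have hd : DifferentiableOn ℝ m S := fun p hp => (hm p hp).differentiableAt.differentiableWithinAt
  induction n with
  | zero => simpa using hd.continuousOn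
  | succ n ih =>
    rw [Nat.cast_succ, contDiffOn_succ_iff_fderiv_of_isOpen hS]
    refine ⟨hd, by simp, ?_⟩
    refine ContDiffOn.congr ?_ fun p hp => (hm p hp).fderiv
    exact (contDiffOn_infty.1 hΘ n).comp (contDiffOn_id.prodMk ih) fun p hp => ⟨hp, hT p hp⟩

end Crest.Agent.R217
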