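import Crest.Agent.R217.HOpen
import Crest.Agent.R217.HOne

/-! Row 217, task `R217/HAd`: the adjoint representation. -/

set_option autoImplicit false

namespace Crest.Agent.R217

open Filter Topology

universe u

variable {G : Type u} [Group G] [TopologicalSpace G] [IsTopologicalGroup G] [T2Space G]
  {ν : GN G} (Λ : LieA ν)

namespace LieA

omit [T2Space G] in
/-- Trotter: `c11` at scale `1/n` and `pow_dist`; for general `x, y` apply it to `t • x, t • y`... here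
only the following consequence is needed: first for small `x, y`. -/
theorem trotter : ∃ δ : ℝ, 0 < δ ∧ ∀ x y : Λ.L, ‖x‖ ≤ δ → ‖y‖ ≤ δ →
    Tendsto (fun n : ℕ => (Λ.exp ((n : ℝ)⁻¹ • x) * Λ.exp ((n : ℝ)⁻¹ • y)) ^ n) atTop
      (𝓝 (Λ.exp (x + y))) := by
  obtain ⟨C', δ', hC', hδ', hp⟩ := ν.pow_dist
  refine ⟨min Λ.ε (δ' / 2), lt_min Λ.ε_pos (by linarith), fun x y hx hy => ?_⟩
  have hx1 := hx.trans (min_le_left _ _)
  have hx2 := hx.trans (min_le_right _ _)
  have hy1 := hy.trans (min_le_left _ _)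
  have hy2 := hy.trans (min_le_right _ _)
  rw [ν.tendsto_iff]
  have hlim : Tendsto (fun n : ℕ => C' * (Λ.C * ‖x‖ * ‖y‖) * (n : ℝ)⁻¹) atTop (𝓝 0) := by
    simpa using (tendsto_inv_atTop_nhds_zero_nat (𝕜 := ℝ)).const_mul (C' * (Λ.C * ‖x‖ * ‖y‖))
  refine squeeze_zero' (Eventually.of_forall fun n => ν.nonneg _) ?_ hlim
  filter_upwards [eventually_ge_atTop 1] with n hn
  have hn1 : (1 : ℝ) ≤ n := by exact_mod_cast hn
  have hn0 : (0 : ℝ) < n := by linarith
  have hnorm : ∀ z : Λ.L, ‖(n : ℝ)⁻¹ • z‖ = (n : ℝ)⁻¹ * ‖z‖ := fun z => by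
    rw [norm_smul, Real.norm_of_nonneg (by positivity)]
  have hN : ∀ z : Λ.L, (n : ℝ) * ν.N (Λ.exp ((n : ℝ)⁻¹ • z)) ≤ ‖z‖ := fun z => by
    have := mul_le_mul_of_nonneg_left (Λ.N_le ((n : ℝ)⁻¹ • z)) hn0.le
    rwa [hnorm, ← mul_assoc, mul_inv_cancel₀ hn0.ne', one_mul] at this
  have hsm : ∀ z : Λ.L, ‖(n : ℝ)⁻¹ • z‖ ≤ ‖z‖ := fun z => by
    rw [hnorm]
    exact mul_le_of_le_one_left (norm_nonneg _) (inv_le_one_of_one_le₀ hn1)
  have h1 := (hp (Λ.exp ((n : ℝ)⁻¹ • (x + y))) (Λ.exp ((n : ℝ)⁻¹ • x) * Λ.exp ((n : ℝ)⁻¹ • y)) n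
    (by linarith [hN (x + y), norm_add_le x y]) (by
      have := mul_le_mul_of_nonneg_left (ν.N_mul (Λ.exp ((n : ℝ)⁻¹ • x)) (Λ.exp ((n : ℝ)⁻¹ • y)))
        hn0.le
      rw [mul_add] at this
      linarith [hN x, hN y])).1
  rw [← Λ.exp_nsmul, smul_smul, mul_inv_cancel₀ hn0.ne', one_smul] at h1
  have h2 := Λ.c11 _ _ ((hsm x).trans hx1) ((hsm y).trans hy1)
  rw [← smul_add, hnorm, hnorm] at h2
  refine h1.trans ?_
  rw [mul_assoc C']
  refine mul_le_mul_of_nonneg_left ?_ (by linarith)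
  refine (mul_le_mul_of_nonneg_left h2 hn0.le).trans (le_of_eq ?_)
  field_simp

omit [IsTopologicalGroup G] [T2Space G] in
theorem had_small (x : Λ.L) {δ : ℝ} (hδ : 0 < δ) : ∀ᶠ t : ℝ in 𝓝 0, ‖t • x‖ ≤ δ := by
  have h : Tendsto (fun t : ℝ => ‖t • x‖) (𝓝 0) (𝓝 0) := by
    have : Continuous fun t : ℝ => ‖t • x‖ := by fun_prop
    simpa using this.tendsto 0
  exact h.eventually (ge_mem_nhds hδ)

theorem had_exists : ∃ Ad : G →* (Λ.L →L[ℝ] Λ.L), ∀ g x (t : ℝ),
    g * Λ.exp (t • x) * g⁻¹ = Λ.exp (t • Ad g x) := by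
  have h : ∀ (g : G) (x : Λ.L), ∃ z : Λ.L, ∀ t : ℝ, g * Λ.exp (t • x) * g⁻¹ = Λ.exp (t • z) :=
    fun g x => Λ.all ⟨fun t => g * Λ.exp (t • x) * g⁻¹,
      (continuous_const.mul (Λ.continuous_exp.comp (continuous_id.smul continuous_const))).mul
        continuous_const, fun s t => by rw [Λ.exp_add]; group⟩
  choose A hA using h
  have hsmul : ∀ g (c : ℝ) x, A g (c • x) = c • A g x := fun g c x =>
    Λ.ext_exp fun t => by rw [← hA, smul_smul, smul_smul, hA]
  obtain ⟨δ, hδ, htr⟩ := Λ.trotter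
  have hadd : ∀ g x y, A g (x + y) = A g x + A g y := by
    intro g x y
    obtain ⟨t, ⟨h1, h2, h3, h4, h5, h6⟩, ht⟩ := (((Λ.had_small x hδ).and ((Λ.had_small y hδ).and
      ((Λ.had_small (A g x) hδ).and ((Λ.had_small (A g y) hδ).and
      ((Λ.had_small (A g (x + y)) Λ.ε_pos).and
      (Λ.had_small (A g x + A g y) Λ.ε_pos)))))).filter_mono
      (nhdsWithin_le_nhds (s := {0}ᶜ))).and self_mem_nhdsWithin |>.exists
    have e1 := ((htr _ _ h1 h2).const_mul g).mul_const g⁻¹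
    have e2 := htr _ _ h3 h4
    have e3 : ∀ n : ℕ, g * (Λ.exp ((n : ℝ)⁻¹ • t • x) * Λ.exp ((n : ℝ)⁻¹ • t • y)) ^ n * g⁻¹ =
        (Λ.exp ((n : ℝ)⁻¹ • t • A g x) * Λ.exp ((n : ℝ)⁻¹ • t • A g y)) ^ n := by
      intro n
      rw [← conj_pow]
      simp only [smul_smul, ← hA]
      congr 1
      group
    simp only [e3] at e1
    have e4 := tendsto_nhds_unique e1 e2
    rw [← smul_add, ← smul_add, hA] at e4
    have e5 := Λ.anti _ _ h5 h6
    rw [e4, inv_mul_cancel, ν.N_one, mul_zero, norm_le_zero_iff, sub_eq_zero] at e5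
    exact smul_right_injective _ ht e5
  let AL : G → (Λ.L →ₗ[ℝ] Λ.L) := fun g =>
    { toFun := A g, map_add' := hadd g, map_smul' := hsmul g }
  refine ⟨{ toFun := fun g => LinearMap.toContinuousLinearMap (AL g)
            map_one' := ?_
            map_mul' := fun g h => ?_ }, hA⟩
  · ext x
    refine Λ.ext_exp fun t => ?_
    change Λ.exp (t • A 1 x) = Λ.exp (t • x)
    rw [← hA]
    group
  · ext x
    refine Λ.ext_exp fun t => ?_
    change Λ.exp (t • A (g * h) x) = Λ.exp (t • A g (A h x))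
    rw [← hA, ← hA, ← hA]
    group

omit [IsTopologicalGroup G] [T2Space G] in
theorem had_est {Ad : G →* (Λ.L →L[ℝ] Λ.L)}
    (hAd : ∀ g x (t : ℝ), g * Λ.exp (t • x) * g⁻¹ = Λ.exp (t • Ad g x)) (g : G)
    (hg : ν.N g ≤ 1 / ν.C) : ‖Ad g - 1‖ ≤ Λ.C * ν.C * ν.N g := by
  have h1 := ν.one_le
  have h2 := Λ.one_le
  have h3 := ν.nonneg g
  have hC0 : 0 < 1 / ν.C := by positivity
  refine ContinuousLinearMap.opNorm_le_bound _ (by positivity) fun y => ?_
  obtain ⟨t, ⟨h4, h5, h6⟩, ht⟩ := (((Λ.had_small (Ad g y) Λ.ε_pos).and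
    ((Λ.had_small y Λ.ε_pos).and (Λ.had_small y hC0))).filter_mono
    (nhdsWithin_le_nhds (s := {0}ᶜ))).and self_mem_nhdsWithin |>.exists
  have e1 := Λ.anti _ _ h4 h5
  have e2 := ν.comm g⁻¹ (Λ.exp (t • y)) (by rwa [ν.N_inv]) ((Λ.N_le _).trans h6)
  have e3 : (Λ.exp (t • Ad g y))⁻¹ * Λ.exp (t • y) =
      g⁻¹⁻¹ * (Λ.exp (t • y))⁻¹ * g⁻¹ * Λ.exp (t • y) := by
    rw [← hAd]
    group
  rw [e3, ← smul_sub, norm_smul] at e1
  rw [ν.N_inv] at e2
  have e4 := Λ.N_le (t • y)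
  rw [norm_smul] at e4
  have ht0 : 0 < ‖t‖ := norm_pos_iff.2 ht
  refine le_of_mul_le_mul_left ?_ ht0
  have e5 := mul_le_mul_of_nonneg_left (e2.trans (mul_le_mul_of_nonneg_left e4 (by positivity)))
    (show 0 ≤ Λ.C by positivity)
  change ‖t‖ * ‖Ad g y - y‖ ≤ _
  linarith

/-- `Ad g x` is the generator (`all`) of `t ↦ g exp (t x) g⁻¹`; homogeneous by `ext_exp`, additive by `trotter`
(applied to `t x, t y` and to `t Ad x, t Ad y` for small `t`, then `anti`/`exp_nsmul`), continuous since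
`L` is finite-dimensional.  `‖Ad (exp w) y - y‖ ≤ C ‖w‖ ‖y‖` by `anti` and `comm` for small `w, y`, then scale `y`.
`t ↦ Ad (exp (t x))` is therefore continuous, `= exp (t • ad x)` (`exists_generator`); `ad` is additive because
`Ad (exp (t (x + y)))` and `Ad (exp (t x)) Ad (exp (t y))` differ by `O(t²)`: by `c11`,
`exp (t (x+y))⁻¹ exp (t x) exp (t y) = exp w` with `‖w‖ = O(t²)` (`exp_ball_mem_nhds`, `anti`); compare derivatives at `0`. -/
theorem exists_Ad [LocallyCompactSpace G] :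
    ∃ (Ad : G →* (Λ.L →L[ℝ] Λ.L)) (ad : Λ.L →L[ℝ] (Λ.L →L[ℝ] Λ.L)),
      (∀ g x, g * Λ.exp x * g⁻¹ = Λ.exp (Ad g x)) ∧
      ∀ x, Ad (Λ.exp x) = NormedSpace.exp (ad x) := by
  have : CompleteSpace Λ.L := FiniteDimensional.complete ℝ Λ.L
  obtain ⟨Ad, hAd⟩ := Λ.had_exists
  have hAd1 : ∀ g x, g * Λ.exp x * g⁻¹ = Λ.exp (Ad g x) := fun g x => by
    simpa using hAd g x 1
  have hest := Λ.had_est hAd
  have hC0 : 0 < 1 / ν.C := by have := ν.one_le; positivity
  have hcont : Continuous Ad := by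
    refine continuous_of_continuousAt_one Ad ?_
    rw [ContinuousAt, map_one, tendsto_iff_norm_sub_tendsto_zero]
    have h1 : Tendsto ν.N (𝓝 1) (𝓝 0) := by
      have := ν.continuous_N.tendsto 1
      rwa [ν.N_one] at this
    refine squeeze_zero' (Eventually.of_forall fun g => norm_nonneg _) ?_
      (by simpa using h1.const_mul (Λ.C * ν.C))
    filter_upwards [h1.eventually (ge_mem_nhds hC0)] with g hg
    exact hest g hg
  have hgen : ∀ x : Λ.L, ∃ A : Λ.L →L[ℝ] Λ.L, ∀ t : ℝ,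
      Ad (Λ.exp (t • x)) = NormedSpace.exp (t • A) := fun x =>
    exists_generator (fun t => Ad (Λ.exp (t • x)))
      (hcont.comp (Λ.continuous_exp.comp (continuous_id.smul continuous_const)))
      (by simp only [zero_smul, Λ.exp_zero, map_one])
      (fun s t => by simp only [Λ.exp_add, map_mul])
  choose ad had using hgen
  have hder : ∀ x, HasDerivAt (fun t : ℝ => Ad (Λ.exp (t • x))) (ad x) 0 := fun x => by
    have := hasDerivAt_exp_smul_const (𝕂 := ℝ) (ad x) (0 : ℝ)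
    simp only [zero_smul, NormedSpace.exp_zero, one_mul] at this
    simpa only [had] using this
  have hsmul : ∀ (c : ℝ) x, ad (c • x) = c • ad x := by
    intro c x
    refine (hder (c • x)).unique ?_
    have := hasDerivAt_exp_smul_const (𝕂 := ℝ) (c • ad x) (0 : ℝ)
    simp only [zero_smul, NormedSpace.exp_zero, one_mul] at this
    simpa only [smul_smul, had] using this
  have hadd : ∀ x y, ad (x + y) = ad x + ad y := by
    intro x y
    let k : ℝ → G := fun t => (Λ.exp (t • (x + y)))⁻¹ * (Λ.exp (t • x) * Λ.exp (t • y))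
    have hk0 : k 0 = 1 := by simp [k, Λ.exp_zero]
    have hk : HasDerivAt (fun t => Ad (k t)) 0 0 := by
      rw [hasDerivAt_iff_isLittleO]
      simp only [hk0, map_one, smul_zero, sub_zero]
      refine Asymptotics.IsBigO.trans_isLittleO ?_ (Asymptotics.isLittleO_pow_id (one_lt_two))
      refine Asymptotics.IsBigO.of_bound (Λ.C * ν.C * (Λ.C * ‖x‖ * ‖y‖)) ?_
      have h3 : Tendsto (fun t : ℝ => Λ.C * ‖t • x‖ * ‖t • y‖) (𝓝 0) (𝓝 0) := by
        have : Continuous fun t : ℝ => Λ.C * ‖t • x‖ * ‖t • y‖ := by fun_prop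
        simpa using this.tendsto 0
      filter_upwards [Λ.had_small x Λ.ε_pos, Λ.had_small y Λ.ε_pos,
        h3.eventually (ge_mem_nhds hC0)] with t h1 h2 h4
      have h5 := Λ.c11 _ _ h1 h2
      rw [← smul_add] at h5
      refine (hest (k t) (h5.trans h4)).trans ?_
      have h6 : 0 ≤ Λ.C * ν.C := by have := ν.one_le; have := Λ.one_le; positivity
      rw [mul_assoc (Λ.C * ν.C)]
      refine mul_le_mul_of_nonneg_left (h5.trans (le_of_eq ?_)) h6
      rw [norm_smul, norm_smul, norm_pow]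
      ring
    have h1 := (hder (x + y)).mul hk
    have h2 := (hder x).mul (hder y)
    have e : ((fun t : ℝ => Ad (Λ.exp (t • (x + y)))) * fun t => Ad (k t)) =
        (fun t : ℝ => Ad (Λ.exp (t • x))) * fun t : ℝ => Ad (Λ.exp (t • y)) := by
      funext t
      simp only [Pi.mul_apply, ← map_mul, k, mul_inv_cancel_left]
    rw [e] at h1
    simpa [hk0, Λ.exp_zero] using h1.unique h2
  let adL : Λ.L →ₗ[ℝ] (Λ.L →L[ℝ] Λ.L) := { toFun := ad, map_add' := hadd, map_smul' := hsmul }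
  refine ⟨Ad, LinearMap.toContinuousLinearMap adL, hAd1, fun x => ?_⟩
  have := had x 1
  rw [one_smul, one_smul] at this
  exact this

end LieA

end Crest.Agent.R217
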