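import Crest.Agent.R217.HDefs

/-! Row 217, task `R217/HAtlas`: from a local smooth structure at `1` to a Lie group structure. -/

set_option autoImplicit false

namespace Crest.Agent.R217

open Filter Topology
open scoped ContDiff Manifold

universe u

section
variable {G : Type u} [Group G] [TopologicalSpace G] [IsTopologicalGroup G]
  {E : Type} [NormedAddCommGroup E] [NormedSpace ℝ E]

/-- the translated chart -/
noncomputable def atlChart (e : OpenPartialHomeomorph G E) (g : G) : OpenPartialHomeomorph G E :=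
  (Homeomorph.mulLeft g).symm.toOpenPartialHomeomorph.trans e

/-- the atlas of all translates of a chart at `1` -/
@[reducible] noncomputable def atlCS (e : OpenPartialHomeomorph G E) (h1 : (1 : G) ∈ e.source) :
    ChartedSpace E G where
  atlas := Set.range (atlChart e)
  chartAt := atlChart e
  mem_chart_source g := ⟨trivial, show g⁻¹ * g ∈ e.source by rwa [inv_mul_cancel]⟩
  chart_mem_atlas g := ⟨g, rfl⟩

theorem lieGroup_of_local' (e : OpenPartialHomeomorph G E) (h1 : (1 : G) ∈ e.source) (h0 : e 1 = 0)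
    {U : Set E} (hU : U ∈ 𝓝 0)
    (hm : ContDiffOn ℝ ∞ (fun p : E × E => e (e.symm p.1 * e.symm p.2)) (U ×ˢ U))
    (hinv : ∀ᶠ x in 𝓝 (0 : E), e (e.symm x)⁻¹ = -x)
    (hconj : ∀ g : G, ∃ A : E →L[ℝ] E, ∀ᶠ x in 𝓝 (0 : E), e (g * e.symm x * g⁻¹) = A x) :
    ∃ c : ChartedSpace E G, @LieGroup ℝ _ E _ E _ _ 𝓘(ℝ, E) ∞ G _ _ c := by
  have hW : e.source ∩ e ⁻¹' U ∈ 𝓝 (1 : G) :=
    inter_mem (e.open_source.mem_nhds h1) ((e.continuousAt h1).preimage_mem_nhds (h0 ▸ hU))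
  obtain ⟨V₀, hV₀, hdiv⟩ := exists_nhds_split_inv hW
  obtain ⟨V, hVV, hVo, hV1⟩ := mem_nhds_iff.1 hV₀
  have hs1 : e.symm 0 = 1 := by rw [← h0, e.left_inv h1]
  have hcs : ContinuousAt e.symm 0 := e.continuousAt_symm (h0 ▸ e.map_source h1)
  have hm0 : ContDiffAt ℝ ∞ (fun p : E × E => e (e.symm p.1 * e.symm p.2)) (0, 0) :=
    hm.contDiffAt (prod_mem_nhds hU hU)
  let c := atlCS (e.restrOpen V hVo) ⟨h1, hV1⟩
  have hI : IsManifold 𝓘(ℝ, E) ∞ G := by
    refine isManifold_of_contDiffOn _ _ _ ?_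
    rintro _ _ ⟨h, rfl⟩ ⟨g, rfl⟩ y₀ hy₀
    have hk : ∀ y ∈ ((atlChart (e.restrOpen V hVo) h).symm ≫ₕ atlChart (e.restrOpen V hVo) g).source,
        g⁻¹ * h ∈ e.source ∩ e ⁻¹' U ∧ y ∈ U := by
      rintro y ⟨⟨⟨hy1, hy2⟩, -⟩, -, -, hy3⟩
      have h2 := hdiv _ (hVV hy3) _ (hVV hy2)
      have h3 := hdiv _ (hVV hy2) _ (hVV hV1)
      change g⁻¹ * (h * e.symm y) / e.symm y ∈ _ at h2
      rw [← mul_assoc, mul_div_cancel_right] at h2
      rw [div_one] at h3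
      exact ⟨h2, e.right_inv hy1 ▸ h3.2⟩
    have h2 := (hk y₀ hy₀.1).1
    refine ((hm.comp (contDiffOn_const.prodMk contDiffOn_id)
      fun y hy => ⟨h2.2, (hk y hy.1).2⟩).congr fun y _ => ?_) y₀ hy₀
    change e (g⁻¹ * (h * e.symm y)) = e (e.symm (e (g⁻¹ * h)) * e.symm y)
    rw [e.left_inv h2.1, mul_assoc]
  refine ⟨c, { hI with contMDiff_mul := fun p => ?_, contMDiff_inv := fun g => ?_ }⟩
  · obtain ⟨g, h⟩ := p
    refine contMDiffAt_iff.2 ⟨continuous_mul.continuousAt, ContDiffAt.contDiffWithinAt ?_⟩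
    change ContDiffAt ℝ ∞ (fun p : E × E => e ((g * h)⁻¹ * (g * e.symm p.1 * (h * e.symm p.2))))
      (e (g⁻¹ * g), e (h⁻¹ * h))
    rw [inv_mul_cancel, inv_mul_cancel, h0]
    obtain ⟨A, hA⟩ := hconj h⁻¹
    have h2 : ∀ᶠ x in 𝓝 (0 : E), h⁻¹ * e.symm x * h⁻¹⁻¹ ∈ e.source :=
      ((continuousAt_const.mul hcs).mul continuousAt_const).preimage_mem_nhds
        (e.open_source.mem_nhds (by simpa [hs1] using h1))
    have h3 : ContDiffAt ℝ ∞ (fun p : E × E => (A p.1, p.2)) (0, 0) := by fun_prop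
    refine (ContDiffAt.comp _ (by simpa using hm0) h3).congr_of_eventuallyEq ?_
    filter_upwards [continuousAt_fst.eventually (hA.and h2)] with p hp
    simp only [Function.comp_apply]
    rw [← hp.1, e.left_inv hp.2]
    congr 1
    group
  · refine contMDiffAt_iff.2 ⟨continuous_inv.continuousAt, ContDiffAt.contDiffWithinAt ?_⟩
    change ContDiffAt ℝ ∞ (fun x : E => e (g⁻¹⁻¹ * (g * e.symm x)⁻¹)) (e (g⁻¹ * g))
    rw [inv_mul_cancel, h0]
    obtain ⟨A, hA⟩ := hconj g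
    have h2 : ∀ᶠ x in 𝓝 (0 : E), (e.symm x)⁻¹ ∈ e.source :=
      hcs.inv.preimage_mem_nhds (e.open_source.mem_nhds (by simpa [hs1] using h1))
    have h3 : ContDiffAt ℝ ∞ (fun x : E => A (-x)) 0 := by fun_prop
    have h4 : Tendsto (fun x : E => -x) (𝓝 0) (𝓝 0) := by
      simpa using (continuous_neg (G := E)).tendsto 0
    refine h3.congr_of_eventuallyEq ?_
    filter_upwards [h4.eventually hA, hinv, h2] with x hx1 hx2 hx3
    rw [← hx1, ← hx2, e.left_inv hx3]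
    congr 1
    group

end

/-- Shrink `e` to an open symmetric neighbourhood `V` of `1` with `V V V ⊆ e.source ∩ e ⁻¹' ball 0 r`; the charts
are `x ↦ e (g⁻¹ x)` on `g V` (`(Homeomorph.mulLeft g⁻¹).toOpenPartialHomeomorph.trans (e.restr V)`), `chartAt g` the one at `g`.
Transitions: `y ↦ e (g⁻¹ h e.symm y)` where `g⁻¹ h ∈ V V⁻¹`, i.e. `m (e (g⁻¹ h), y)`.  Multiplication at `(g, h)` in
the charts at `g, h, g h`: `(x, y) ↦ e (h⁻¹ (e.symm x) h · e.symm y) = m (A x, y)` near `(0,0)`;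
inversion at `g`: `x ↦ e (g (e.symm x)⁻¹ g⁻¹) = A (-x)` near `0` (`contMDiffAt_iff`, `isManifold_of_contDiffOn`). -/
theorem lieGroup_of_local {G : Type u} [Group G] [TopologicalSpace G] [IsTopologicalGroup G] {d : ℕ}
    (e : OpenPartialHomeomorph G (EuclideanSpace ℝ (Fin d))) (h1 : (1 : G) ∈ e.source) (h0 : e 1 = 0)
    {r : ℝ} (hr : 0 < r)
    (hm : ContDiffOn ℝ ∞ (fun p : EuclideanSpace ℝ (Fin d) × EuclideanSpace ℝ (Fin d) =>
      e (e.symm p.1 * e.symm p.2)) (Metric.ball 0 r ×ˢ Metric.ball 0 r))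
    (hinv : ∀ᶠ x in 𝓝 (0 : EuclideanSpace ℝ (Fin d)), e (e.symm x)⁻¹ = -x)
    (hconj : ∀ g : G, ∃ A : EuclideanSpace ℝ (Fin d) →L[ℝ] EuclideanSpace ℝ (Fin d),
      ∀ᶠ x in 𝓝 (0 : EuclideanSpace ℝ (Fin d)), e (g * e.symm x * g⁻¹) = A x) :
    ∃ c : ChartedSpace (EuclideanSpace ℝ (Fin d)) G,
      @LieGroup ℝ _ (EuclideanSpace ℝ (Fin d)) _ (EuclideanSpace ℝ (Fin d)) _ _
        𝓘(ℝ, EuclideanSpace ℝ (Fin d)) ∞ G _ _ c := by
  exact lieGroup_of_local' e h1 h0 (Metric.ball_mem_nhds 0 hr) hm hinv hconj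

end Crest.Agent.R217
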