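import Crest.Agent.R217.HEsc

/-! Row 217, task `R217/HConv`: Gleason's convolution trick, abstract form. -/

set_option autoImplicit false

namespace Crest.Agent.R217

open Filter Topology

universe u

variable {G : Type u} [Group G] [TopologicalSpace G] [IsTopologicalGroup G] [T2Space G]
  [LocallyCompactSpace G] [SecondCountableTopology G]

/-- difference operator `∂_g φ (x) = φ (g⁻¹ x) - φ x` -/
def dlt (g : G) (φ : G → ℝ) (x : G) : ℝ := φ (g⁻¹ * x) - φ x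

section HConvAux
open MeasureTheory
variable {Γ : Type u} [Group Γ] [MeasurableSpace Γ] [MeasurableMul Γ] [MeasurableInv Γ]
  {μ : Measure Γ} [μ.IsMulLeftInvariant]

/-- convolution -/
noncomputable def HConv_cv (μ : Measure Γ) (p η : Γ → ℝ) (x : Γ) : ℝ := ∫ y, p y * η (y⁻¹ * x) ∂μ

omit [μ.IsMulLeftInvariant] in
theorem HConv_int {p η : Γ → ℝ} (hp : Integrable p μ) (hη : Measurable η) (h1 : ∀ x, |η x| ≤ 1)
    (x : Γ) : Integrable (fun y => p y * η (y⁻¹ * x)) μ :=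
  hp.mul_bdd (c := 1) (hη.comp (measurable_inv.mul_const x)).aestronglyMeasurable
    (Eventually.of_forall fun _ => h1 _)

omit [MeasurableInv Γ] in
theorem HConv_int_dlt {p : Γ → ℝ} (hp : Integrable p μ) (g : Γ) : Integrable (dlt g p) μ :=
  (hp.comp_mul_left g⁻¹).sub hp

theorem HConv_left {p η : Γ → ℝ} (hp : Integrable p μ) (hη : Measurable η) (h1 : ∀ x, |η x| ≤ 1)
    (g : Γ) : dlt g (HConv_cv μ p η) = HConv_cv μ (dlt g p) η := by
  funext x
  have e : HConv_cv μ p η (g⁻¹ * x) = ∫ y, p (g⁻¹ * y) * η (y⁻¹ * x) ∂μ := by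
    rw [← integral_mul_left_eq_self (fun y => p (g⁻¹ * y) * η (y⁻¹ * x)) g]
    simp [HConv_cv, mul_assoc]
  rw [dlt, e, HConv_cv, ← integral_sub (HConv_int (hp.comp_mul_left g⁻¹) hη h1 x)
    (HConv_int hp hη h1 x)]
  simp only [HConv_cv, dlt, sub_mul]

omit [μ.IsMulLeftInvariant] in
theorem HConv_right {p η : Γ → ℝ} (hp : Integrable p μ) (hη : Measurable η) (h1 : ∀ x, |η x| ≤ 1)
    (h x : Γ) : dlt h (HConv_cv μ p η) x = ∫ y, p y * dlt (y⁻¹ * h * y) η (y⁻¹ * x) ∂μ := by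
  rw [dlt, HConv_cv, HConv_cv, ← integral_sub (HConv_int hp hη h1 _) (HConv_int hp hη h1 x)]
  simp only [dlt, mul_sub, mul_inv_rev, inv_inv, mul_assoc, mul_inv_cancel_left]

omit [Group Γ] [MeasurableMul Γ] [MeasurableInv Γ] [μ.IsMulLeftInvariant] in
theorem HConv_bound {p F : Γ → ℝ} {K : Set Γ} (hK : MeasurableSet K) (hfin : μ K ≠ ⊤) {M a b : ℝ}
    (hM : μ.real K ≤ M) (ha0 : 0 ≤ a) (hb0 : 0 ≤ b) (ha : ∀ y, |p y| ≤ a) (hp : ∀ y ∉ K, p y = 0)
    (hb : ∀ y ∈ K, |F y| ≤ b) : |∫ y, p y * F y ∂μ| ≤ M * a * b := by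
  have h1 : ‖∫ y, p y * F y ∂μ‖ ≤ ∫ y, K.indicator (fun _ => a * b) y ∂μ := by
    refine norm_integral_le_of_norm_le ((integrable_indicator_iff hK).2
      (integrableOn_const hfin)) (Eventually.of_forall fun y => ?_)
    by_cases hy : y ∈ K
    · rw [Set.indicator_of_mem hy, Real.norm_eq_abs, abs_mul]
      exact mul_le_mul (ha y) (hb y hy) (abs_nonneg _) ha0
    · simp [hy, hp y hy]
  rw [integral_indicator_const _ hK, smul_eq_mul] at h1
  refine h1.trans ?_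
  rw [mul_assoc]
  exact mul_le_mul_of_nonneg_right hM (mul_nonneg ha0 hb0)

end HConvAux

open MeasureTheory in
/-- **Convolution.**  There are `c, M > 0` depending only on the open neighbourhood `U` and the compact
`Q` such that for all Borel `ψ, η : G → [0,1]` equal to `1` on `U` and vanishing off `Q`, the
convolution `φ x = ∫ ψ y * η (y⁻¹ x) dμ(y)` (left Haar measure; `borelize G`) has `φ 1 ≥ c` (`c = μ (U ∩ U⁻¹)`),
vanishes off `Q * Q`, and satisfies the first and second difference bounds.  First bound: substitute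
`y ↦ g⁻¹ y`: `∂_g φ = (∂_g ψ) * η`, whose integrand vanishes unless `y ∈ Q ∪ g Q`, which has measure
`≤ 2 μ Q`.  Second bound: `∂_h φ (x) = ∫ ψ y * (∂_{y⁻¹ h y} η)(y⁻¹ x) dμ(y)` for any `ψ`; apply it with
`∂_g ψ` in place of `ψ` (supported in `Q ∪ g Q`) to get `∂_h ∂_g φ`.
Borel measurability is phrased through upper/lower semicontinuity-free hypothesis
`∀ t, IsOpen {x | t < ψ x}` (lower semicontinuity). -/
theorem exists_conv {U Q : Set G} (hU : U ∈ 𝓝 (1 : G)) (hQ : IsCompact Q) :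
    ∃ c M : ℝ, 0 < c ∧ 0 < M ∧ ∀ ψ η : G → ℝ, LowerSemicontinuous ψ → LowerSemicontinuous η →
      (∀ x, 0 ≤ ψ x ∧ ψ x ≤ 1) → (∀ x, 0 ≤ η x ∧ η x ≤ 1) → (∀ x ∈ U, ψ x = 1) →
      (∀ x ∈ U, η x = 1) → (∀ x ∉ Q, ψ x = 0) → (∀ x ∉ Q, η x = 0) →
      ∃ φ : G → ℝ, c ≤ φ 1 ∧ (∀ x, φ x ≠ 0 → ∃ a ∈ Q, ∃ b ∈ Q, x = a * b) ∧
        (∀ (g : G) (a : ℝ), (∀ x, |dlt g ψ x| ≤ a) → ∀ x, |dlt g φ x| ≤ M * a) ∧
        (∀ (h : G) (b : ℝ), (∀ y ∈ Q, ∀ x, |dlt (y⁻¹ * h * y) η x| ≤ b) → ∀ x, |dlt h φ x| ≤ M * b) ∧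
        (∀ (g h : G) (a b : ℝ), (∀ x, |dlt g ψ x| ≤ a) →
          (∀ y, (y ∈ Q ∨ g⁻¹ * y ∈ Q) → ∀ x, |dlt (y⁻¹ * h * y) η x| ≤ b) →
          ∀ x, |dlt h (dlt g φ) x| ≤ M * a * b) := by
  borelize G
  let μ : Measure G := Measure.haar
  have hV : U ∩ U⁻¹ ∈ 𝓝 (1 : G) := inter_mem hU (inv_mem_nhds_one G hU)
  obtain ⟨K₀, hK₀, hK₀U, hK₀c⟩ := local_compact_nhds hV
  have hQm := hQ.measurableSet
  have hQf : μ Q ≠ ⊤ := hQ.measure_lt_top.ne
  have hQ0 : 0 ≤ μ.real Q := measureReal_nonneg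
  refine ⟨μ.real K₀, 2 * μ.real Q + 1, ENNReal.toReal_pos
    (Measure.measure_pos_of_mem_nhds μ hK₀).ne' hK₀c.measure_lt_top.ne, by positivity,
    fun ψ η hψ hη bψ bη uψ uη sψ sη => ?_⟩
  have aψ : ∀ x, |ψ x| ≤ 1 := fun x => abs_le.2 ⟨by linarith [(bψ x).1], (bψ x).2⟩
  have aη : ∀ x, |η x| ≤ 1 := fun x => abs_le.2 ⟨by linarith [(bη x).1], (bη x).2⟩
  have mη := hη.measurable
  have iψ : Integrable ψ μ := by
    refine Integrable.mono' ((integrable_indicator_iff hQm).2 (integrableOn_const (C := (1 : ℝ)) hQf))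
      hψ.measurable.aestronglyMeasurable (Eventually.of_forall fun y => ?_)
    by_cases hy : y ∈ Q
    · rw [Set.indicator_of_mem hy]; exact aψ y
    · simp [hy, sψ y hy]
  have h1Q : (1 : G) ∈ Q := by
    by_contra h
    have := sψ 1 h
    rw [uψ 1 (mem_of_mem_nhds hU)] at this
    exact one_ne_zero this
  have hK : ∀ g : G, MeasurableSet (Q ∪ (fun y => g⁻¹ * y) ⁻¹' Q) ∧
      μ (Q ∪ (fun y => g⁻¹ * y) ⁻¹' Q) ≠ ⊤ ∧
      μ.real (Q ∪ (fun y => g⁻¹ * y) ⁻¹' Q) ≤ 2 * μ.real Q + 1 ∧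
      ∀ y ∉ Q ∪ (fun y => g⁻¹ * y) ⁻¹' Q, dlt g ψ y = 0 := fun g => by
    have e : μ ((fun y => g⁻¹ * y) ⁻¹' Q) = μ Q := measure_preimage_mul μ g⁻¹ Q
    refine ⟨hQm.union (measurable_const_mul _ hQm), measure_union_ne_top hQf (e ▸ hQf), ?_,
      fun y hy => ?_⟩
    · have := measureReal_union_le (μ := μ) Q ((fun y => g⁻¹ * y) ⁻¹' Q)
      have e' : μ.real ((fun y => g⁻¹ * y) ⁻¹' Q) = μ.real Q := congrArg ENNReal.toReal e
      linarith
    · rw [Set.mem_union, not_or] at hy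
      rw [dlt, sψ _ hy.1, sψ _ hy.2, sub_zero]
  refine ⟨HConv_cv μ ψ η, ?_, fun x hx => ?_, fun g a ha x => ?_, fun h b hb x => ?_,
    fun g h a b ha hb x => ?_⟩
  · have h1 : ∫ y, K₀.indicator (fun _ => (1 : ℝ)) y ∂μ ≤ HConv_cv μ ψ η 1 := by
      refine integral_mono ((integrable_indicator_iff hK₀c.measurableSet).2
        (integrableOn_const hK₀c.measure_lt_top.ne)) (HConv_int iψ mη aη 1) fun y => ?_
      by_cases hy : y ∈ K₀
      · simp only [Set.indicator_of_mem hy, mul_one]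
        rw [uψ y (hK₀U hy).1, uη _ (hK₀U hy).2, mul_one]
      · simp only [Set.indicator_of_notMem hy]
        exact mul_nonneg (bψ _).1 (bη _).1
    simpa [integral_indicator_const _ hK₀c.measurableSet] using h1
  · by_contra hcon
    push Not at hcon
    apply hx
    have : ∀ y, ψ y * η (y⁻¹ * x) = 0 := fun y => by
      by_cases h1 : y ∈ Q
      · rw [sη _ fun h2 => hcon y h1 _ h2 (by simp), mul_zero]
      · rw [sψ y h1, zero_mul]
    simp [HConv_cv, this]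
  · obtain ⟨k1, k2, k3, k4⟩ := hK g
    rw [HConv_left iψ mη aη]
    simpa [HConv_cv] using HConv_bound (F := fun y => η (y⁻¹ * x)) k1 k2 k3 ((abs_nonneg _).trans (ha x))
      zero_le_one ha k4 fun y _ => aη _
  · rw [HConv_right iψ mη aη]
    have := HConv_bound (F := fun y => dlt (y⁻¹ * h * y) η (y⁻¹ * x)) hQm hQf
      (show μ.real Q ≤ 2 * μ.real Q + 1 by linarith) zero_le_one
      ((abs_nonneg _).trans (hb 1 h1Q x)) aψ sψ fun y hy => hb y hy _
    rwa [mul_one] at this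
  · obtain ⟨k1, k2, k3, k4⟩ := hK g
    rw [HConv_left iψ mη aη, HConv_right (HConv_int_dlt iψ g) mη aη]
    exact HConv_bound (F := fun y => dlt (y⁻¹ * h * y) η (y⁻¹ * x)) k1 k2 k3
      ((abs_nonneg _).trans (ha x)) ((abs_nonneg _).trans (hb 1 (Or.inl h1Q) x)) ha k4
      fun y hy => hb y hy _

omit [TopologicalSpace G] [IsTopologicalGroup G] [T2Space G] [LocallyCompactSpace G]
  [SecondCountableTopology G] in
/-- cocycle identity -/
theorem dlt_mul (g h : G) (φ : G → ℝ) (x : G) :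
    dlt (g * h) φ x = dlt g φ x + dlt h φ (g⁻¹ * x) := by
  simp only [dlt, mul_inv_rev, mul_assoc]
  ring

omit [TopologicalSpace G] [IsTopologicalGroup G] [T2Space G] [LocallyCompactSpace G]
  [SecondCountableTopology G] in
/-- Taylor: `∂_{g^n} φ = n ∂_g φ + ∑_{i<n} ∂_{g^i} ∂_g φ` -/
theorem dlt_pow (g : G) (n : ℕ) (φ : G → ℝ) (x : G) :
    dlt (g ^ n) φ x = n * dlt g φ x + ∑ i ∈ Finset.range n, dlt (g ^ i) (dlt g φ) x := by
  induction n with
  | zero => simp [dlt]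
  | succ n ih =>
    rw [pow_succ, dlt_mul, ih, Finset.sum_range_succ]
    push_cast
    have : dlt (g ^ n) (dlt g φ) x = dlt g φ ((g ^ n)⁻¹ * x) - dlt g φ x := rfl
    rw [this]
    ring

omit [LocallyCompactSpace G] [SecondCountableTopology G] in
/-- small differences force a small escape norm: if `|∂_g φ| ≤ a` everywhere then
`|∂_{g^j} φ| ≤ j a`, so for `j a < c ≤ φ 1` we get `φ (g^{-j}) ≠ 0`, `g^{-j} ∈ Q * Q`; then `esc_le_mul` -/
theorem esc_le_of_dlt {U Q Q' : Set G} (hU : GoodNhd U) (hQ' : IsCompact Q')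
    (hS : ∀ S : Subgroup G, (S : Set G) ⊆ Q' → S = ⊥) (hQ : ∀ a ∈ Q, ∀ b ∈ Q, (a * b)⁻¹ ∈ Q')
    {c : ℝ} (hc : 0 < c) : ∃ C : ℝ, 1 ≤ C ∧ ∀ φ : G → ℝ, c ≤ φ 1 →
      (∀ x, φ x ≠ 0 → ∃ a ∈ Q, ∃ b ∈ Q, x = a * b) → ∀ (g : G) (a : ℝ), (∀ x, |dlt g φ x| ≤ a) →
        esc U g ≤ C * a := by
  by_cases h1 : (1 : G) ∈ Q'
  swap
  · refine ⟨1, le_rfl, fun φ hφ hs g a _ => absurd ?_ h1⟩
    obtain ⟨a, ha, b, hb, h⟩ := hs 1 (hc.trans_le hφ).ne'
    have := hQ a ha b hb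
    rwa [← h, inv_one] at this
  obtain ⟨C, hC, h⟩ := esc_le_mul hQ' hS (hU.isOpen.mem_nhds hU.one_mem) h1 subset_rfl
  have hc' : 0 < 1 / c := by positivity
  refine ⟨C * (1 + 1 / c), by nlinarith, fun φ hφ hs g a ha => ?_⟩
  have ha0 : 0 ≤ a := (abs_nonneg _).trans (ha 1)
  have hpow : ∀ (j : ℕ) x, |dlt (g ^ j) φ x| ≤ j * a := fun j => by
    induction j with
    | zero => intro x; simp [dlt]
    | succ j ih =>
      intro x
      rw [pow_succ, dlt_mul]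
      push_cast
      have := abs_add_le (dlt (g ^ j) φ x) (dlt g φ ((g ^ j)⁻¹ * x))
      linarith [ih x, ha ((g ^ j)⁻¹ * x)]
  have hmem : ∀ j : ℕ, j * a < c → g ^ j ∈ Q' := fun j hj => by
    have h2 := (abs_le.1 (hpow j 1)).1
    rw [dlt, mul_one] at h2
    obtain ⟨a', ha', b, hb, h3⟩ := hs (g ^ j)⁻¹ (by linarith)
    have := hQ a' ha' b hb
    rwa [← h3, inv_inv] at this
  have key : esc Q' g ≤ 1 / c * a := by
    refine le_of_forall_pos_le_add fun ε hε => ?_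
    have hδ : 0 < 1 / c * a + ε := by positivity
    obtain ⟨n, hn⟩ : ∃ n, ⌈1 / (1 / c * a + ε)⌉₊ = n + 1 :=
      Nat.exists_eq_add_one.2 (Nat.ceil_pos.2 (by positivity))
    have h2 : 1 / (1 / c * a + ε) ≤ (n : ℝ) + 1 := by
      have := Nat.le_ceil (1 / (1 / c * a + ε))
      rwa [hn, Nat.cast_add, Nat.cast_one] at this
    have h3 : (n : ℝ) < 1 / (1 / c * a + ε) := Nat.lt_ceil.1 (by omega)
    refine (esc_le (n := n) fun i hi => hmem i ?_).trans ?_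
    · rw [lt_div_iff₀ hδ] at h3
      have h4 : (i : ℝ) ≤ n := by exact_mod_cast hi
      have h5 : (n : ℝ) * (1 / c * a) < 1 := by nlinarith [Nat.cast_nonneg (α := ℝ) n]
      have h6 : (n : ℝ) * a < c := by
        have := mul_lt_mul_of_pos_left h5 hc
        field_simp at this
        linarith
      nlinarith
    · rwa [one_div_le (by positivity) hδ]
  calc esc U g ≤ C * (1 / c * a) := (h g).trans (mul_le_mul_of_nonneg_left key (by linarith))
    _ ≤ _ := by nlinarith [mul_nonneg (show 0 ≤ C by linarith) ha0]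

end Crest.Agent.R217
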