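import Mathlib

/-! Row 217 (Hilbert–Smith), part H: groups without small subgroups are Lie groups.
Definitions only: DO NOT CHANGE (owner helper92). -/

set_option autoImplicit false

namespace Crest.Agent.R217

open Filter Topology

universe u

/-- no small subgroups -/
def NSS (G : Type u) [Group G] [TopologicalSpace G] : Prop :=
  ∃ U ∈ 𝓝 (1 : G), ∀ S : Subgroup G, (S : Set G) ⊆ U → S = ⊥

/-- escape norm `inf {1/(n+1) | g^i ∈ U for all i ≤ n}` (for `1 ∈ U` it lies in `[0,1]`) -/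
noncomputable def esc {G : Type u} [Group G] (U : Set G) (g : G) : ℝ :=
  sInf {r | ∃ n : ℕ, (∀ i ≤ n, g ^ i ∈ U) ∧ r = 1 / ((n : ℝ) + 1)}

/-- a good neighbourhood: open, symmetric, `closure (U ^ 100)` compact without non-trivial subgroup -/
structure GoodNhd {G : Type u} [Group G] [TopologicalSpace G] (U : Set G) : Prop where
  isOpen : IsOpen U
  one_mem : (1 : G) ∈ U
  inv_mem : ∀ g ∈ U, g⁻¹ ∈ U
  ex : ∃ Q : Set G, IsCompact Q ∧ (∀ l : List G, l.length ≤ 100 → (∀ g ∈ l, g ∈ U) → l.prod ∈ Q) ∧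
    ∀ S : Subgroup G, (S : Set G) ⊆ Q → S = ⊥

/-- a Gleason norm; the left invariant Gleason metric is `N (g⁻¹ * h)` -/
structure GN (G : Type u) [Group G] [TopologicalSpace G] where
  N : G → ℝ
  C : ℝ
  one_le : 1 ≤ C
  nonneg : ∀ g, 0 ≤ N g
  N_one : N 1 = 0
  N_inv : ∀ g, N g⁻¹ = N g
  N_mul : ∀ g h, N (g * h) ≤ N g + N h
  basis : (𝓝 (1 : G)).HasBasis (fun ε : ℝ => 0 < ε) fun ε => {g | N g < ε}
  escape : ∀ (g : G) (n : ℕ), (n : ℝ) * N g ≤ 1 / C → (n : ℝ) * N g ≤ C * N (g ^ n)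
  comm : ∀ g h : G, N g ≤ 1 / C → N h ≤ 1 / C → N (g⁻¹ * h⁻¹ * g * h) ≤ C * N g * N h

/-- one-parameter subgroups -/
@[ext] structure OP (G : Type u) [Group G] [TopologicalSpace G] where
  toFun : ℝ → G
  cont : Continuous toFun
  add : ∀ s t, toFun (s + t) = toFun s * toFun t

/-- the Lie algebra (as a normed space) and the exponential map of a group with a Gleason norm -/
structure LieA {G : Type u} [Group G] [TopologicalSpace G] (ν : GN G) where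
  L : Type u
  [nacg : NormedAddCommGroup L]
  [nsp : NormedSpace ℝ L]
  [fd : FiniteDimensional ℝ L]
  exp : L → G
  C : ℝ
  ε : ℝ
  one_le : 1 ≤ C
  ε_pos : 0 < ε
  exp_add : ∀ (s t : ℝ) (x : L), exp ((s + t) • x) = exp (s • x) * exp (t • x)
  N_le : ∀ x, ν.N (exp x) ≤ ‖x‖
  lip : ∀ x y, ‖x‖ ≤ ε → ‖y‖ ≤ ε → ν.N ((exp x)⁻¹ * exp y) ≤ C * ‖x - y‖
  anti : ∀ x y, ‖x‖ ≤ ε → ‖y‖ ≤ ε → ‖x - y‖ ≤ C * ν.N ((exp x)⁻¹ * exp y)
  c11 : ∀ x y, ‖x‖ ≤ ε → ‖y‖ ≤ ε → ν.N ((exp (x + y))⁻¹ * (exp x * exp y)) ≤ C * ‖x‖ * ‖y‖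
  all : ∀ φ : OP G, ∃ x, ∀ t, φ.toFun t = exp (t • x)

attribute [instance] LieA.nacg LieA.nsp LieA.fd

/-- `Ω A = ∫₀¹ exp (-t A) dt = (1 - exp (-A)) / A` -/
noncomputable def Om {E : Type u} [NormedAddCommGroup E] [NormedSpace ℝ E] (A : E →L[ℝ] E) :
    E →L[ℝ] E := ∫ t in (0 : ℝ)..1, NormedSpace.exp (-(t • A))

end Crest.Agent.R217
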