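import Crest.Agent.R217.HOpen
import Crest.Agent.R217.HOne

/-! Row 217, task `R217/HDexp`: the derivative of the exponential map. -/

set_option autoImplicit false

namespace Crest.Agent.R217

open Filter Topology

universe u

variable {G : Type u} [Group G] [TopologicalSpace G] [IsTopologicalGroup G] [T2Space G]
  {ν : GN G} (Λ : LieA ν)

namespace LieA

omit [IsTopologicalGroup G] [T2Space G] in
/-- induction on the list with `c11` and left invariance: put the new factor on the left,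
`exp (x + s)⁻¹ exp x ∏ = [exp (x+s)⁻¹ exp x exp s] [exp s⁻¹ ∏]` -/
theorem prod_exp (l : List Λ.L) (hl : (l.map norm).sum ≤ Λ.ε) :
    ν.N ((Λ.exp l.sum)⁻¹ * (l.map Λ.exp).prod) ≤ Λ.C * (l.map norm).sum ^ 2 := by
  induction l with
  | nil => simp [exp_zero, ν.N_one]
  | cons x l ih =>
    simp only [List.map_cons, List.sum_cons, List.prod_cons] at hl ⊢
    have h0 : 0 ≤ (l.map norm).sum := List.sum_nonneg (by simp)
    have h1 : ‖l.sum‖ ≤ (l.map norm).sum := List.le_sum_of_subadditive _ norm_zero.le norm_add_le l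
    have hx := norm_nonneg x
    have hC : 0 ≤ Λ.C := zero_le_one.trans Λ.one_le
    have h2 := ν.N_mul ((Λ.exp (x + l.sum))⁻¹ * (Λ.exp x * Λ.exp l.sum))
      ((Λ.exp l.sum)⁻¹ * (l.map Λ.exp).prod)
    rw [show (Λ.exp (x + l.sum))⁻¹ * (Λ.exp x * Λ.exp l.sum) * ((Λ.exp l.sum)⁻¹ * (l.map Λ.exp).prod)
      = (Λ.exp (x + l.sum))⁻¹ * (Λ.exp x * (l.map Λ.exp).prod) by group] at h2
    have h3 := Λ.c11 x l.sum (by linarith) (by linarith)
    have h4 := ih (by linarith)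
    have h5 : Λ.C * ‖x‖ * ‖l.sum‖ ≤ Λ.C * ‖x‖ * (l.map norm).sum := by gcongr
    nlinarith [mul_nonneg hC (mul_nonneg hx hx), mul_nonneg hC (mul_nonneg hx h0)]

theorem dexp_sum {M : Type*} [AddCommMonoid M] (n : ℕ) (f : ℕ → M) :
    ((List.range n).reverse.map f).sum = ∑ i ∈ Finset.range n, f i := by
  rw [List.map_reverse, List.sum_reverse]
  rfl

omit [TopologicalSpace G] [IsTopologicalGroup G] [T2Space G] in
theorem dexp_pow (a b : G) (m : ℕ) :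
    (a * b) ^ m = a ^ m * ((List.range m).reverse.map fun i => (a ^ i)⁻¹ * b * a ^ i).prod := by
  induction m with
  | zero => simp
  | succ m ih =>
    rw [pow_succ' (a * b), ih, List.range_succ, List.reverse_append]
    simp only [List.reverse_cons, List.reverse_nil, List.nil_append, List.cons_append,
      List.map_cons, List.prod_cons]
    rw [pow_succ' a]
    group

/-- With `a = exp (z/n)`, `b = exp (u/n)`: `(a b)^n → exp (z + u)` (`c11` at scale `1/n`, `GN.pow_dist`), and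
`(a b)^n = a^n ∏_{i = n-1}^{0} a^(-i) b a^i = exp z ∏ exp (exp (-(i/n) ad z) (u/n))`; `prod_exp`, `tendsto_Om`
(use `Finset.sum_range_reflect` or `List.sum_reverse`), continuity of `N` and `exp`. -/
theorem dexp (Ad : G →* (Λ.L →L[ℝ] Λ.L)) (ad : Λ.L →L[ℝ] (Λ.L →L[ℝ] Λ.L))
    (h1 : ∀ g x, g * Λ.exp x * g⁻¹ = Λ.exp (Ad g x))
    (h2 : ∀ x, Ad (Λ.exp x) = NormedSpace.exp (ad x)) :
    ∃ C δ : ℝ, 1 ≤ C ∧ 0 < δ ∧ ∀ z u : Λ.L, ‖z‖ ≤ δ → ‖u‖ ≤ δ →
      ν.N ((Λ.exp (z + u))⁻¹ * (Λ.exp z * Λ.exp (Om (ad z) u))) ≤ C * ‖u‖ ^ 2 := by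
  obtain ⟨C', δ', hC', hδ', hp⟩ := ν.pow_dist
  let +nondep : NormedAlgebra ℚ (Λ.L →L[ℝ] Λ.L) := .restrictScalars ℚ ℝ _
  have hc : Continuous fun z : Λ.L => ‖NormedSpace.exp (ad z)‖ := by fun_prop
  obtain ⟨η, hη, hη'⟩ := Metric.eventually_nhds_iff.1
    ((hc.tendsto 0).eventually (gt_mem_nhds (a := 2) (by
      rw [map_zero, NormedSpace.exp_zero]
      exact ContinuousLinearMap.norm_id_le.trans_lt one_lt_two)))
  have hε := Λ.ε_pos
  have hC := Λ.one_le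
  refine ⟨4 * Λ.C, min (min (δ' / 2) (η / 2)) (Λ.ε / 2), by linarith, by positivity,
    fun z u hz hu => ?_⟩
  simp only [le_min_iff] at hz hu
  have hlim : Tendsto (fun n : ℕ => ((n : ℝ)⁻¹ • ∑ i ∈ Finset.range n,
      NormedSpace.exp (-(((i : ℝ) / n) • ad z))) u) atTop (𝓝 (Om (ad z) u)) :=
    ((ContinuousLinearMap.apply ℝ Λ.L u).continuous.tendsto _).comp (tendsto_Om (ad z))
  have hcont : Continuous fun s => ν.N ((Λ.exp (z + u))⁻¹ * (Λ.exp z * Λ.exp s)) :=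
    ν.continuous_N.comp (continuous_const.mul (continuous_const.mul Λ.continuous_exp))
  have hlim2 : Tendsto (fun n : ℕ => C' * (Λ.C * ‖z‖ * ‖u‖) / n + 4 * Λ.C * ‖u‖ ^ 2) atTop
      (𝓝 (0 + 4 * Λ.C * ‖u‖ ^ 2)) :=
    (tendsto_const_div_atTop_nhds_zero_nat _).add_const _
  rw [zero_add] at hlim2
  refine le_of_tendsto_of_tendsto ((hcont.tendsto _).comp hlim) hlim2 ?_
  filter_upwards [eventually_gt_atTop 0] with n hn
  have hn' : (0 : ℝ) < n := by exact_mod_cast hn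
  have hn1 : (1 : ℝ) ≤ n := by exact_mod_cast hn
  have hsm : ∀ x : Λ.L, ‖(n : ℝ)⁻¹ • x‖ = ‖x‖ / n := fun x => by
    rw [norm_smul, norm_inv, Real.norm_natCast, div_eq_inv_mul]
  have hN : ∀ x : Λ.L, n * ν.N (Λ.exp ((n : ℝ)⁻¹ • x)) ≤ ‖x‖ := fun x => by
    have := Λ.N_le ((n : ℝ)⁻¹ • x)
    rwa [hsm, le_div_iff₀' hn'] at this
  have hpow : ∀ x : Λ.L, Λ.exp ((n : ℝ)⁻¹ • x) ^ n = Λ.exp x := fun x => by
    rw [← exp_nsmul, smul_inv_smul₀ hn'.ne']
  set a := Λ.exp ((n : ℝ)⁻¹ • z) with ha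
  set b := Λ.exp ((n : ℝ)⁻¹ • u) with hb
  let w : ℕ → Λ.L := fun i => NormedSpace.exp (-(((i : ℝ) / n) • ad z)) ((n : ℝ)⁻¹ • u)
  have hw0 : ∀ i : ℕ, -(((i : ℝ) / n) • ad z) = ad (-((i : ℝ) • (n : ℝ)⁻¹ • z)) := fun i => by
    rw [smul_smul, map_neg, map_smul, div_eq_mul_inv]
  have hw : ∀ i : ℕ, Λ.exp (w i) = (a ^ i)⁻¹ * b * a ^ i := fun i => by
    simp only [w]
    rw [hw0, ← h2, ← h1, exp_neg, exp_nsmul, inv_inv]
  have hw2 : ∀ i ∈ Finset.range n, ‖w i‖ ≤ 2 * (‖u‖ / n) := fun i hi => by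
    simp only [w]
    rw [← hsm, hw0]
    refine (ContinuousLinearMap.le_opNorm _ _).trans (mul_le_mul_of_nonneg_right (hη' ?_).le
      (norm_nonneg _))
    have hi' : (i : ℝ) ≤ n := by exact_mod_cast (Finset.mem_range.1 hi).le
    rw [dist_zero_right, norm_neg, norm_smul, hsm, Real.norm_natCast]
    calc (i : ℝ) * (‖z‖ / n) ≤ n * (‖z‖ / n) := by gcongr
      _ = ‖z‖ := by field_simp
      _ < η := by linarith [hz.1.2]
  let l := (List.range n).reverse.map w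
  have hl1 : l.sum = ((n : ℝ)⁻¹ • ∑ i ∈ Finset.range n,
      NormedSpace.exp (-(((i : ℝ) / n) • ad z))) u := by
    simp only [l, w, dexp_sum, smul_apply, sum_apply, map_smul, Finset.smul_sum]
  have hl2 : (l.map norm).sum ≤ 2 * ‖u‖ := by
    rw [List.map_map, dexp_sum]
    refine (Finset.sum_le_sum hw2).trans_eq ?_
    rw [Finset.sum_const, Finset.card_range, nsmul_eq_mul]
    field_simp
  have hl3 : (a * b) ^ n = Λ.exp z * (l.map Λ.exp).prod := by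
    rw [dexp_pow, hpow, List.map_map]
    congr 3
    exact funext fun i => (hw i).symm
  have h3 := Λ.prod_exp l (by linarith [hu.2])
  have h4 := (hp (Λ.exp ((n : ℝ)⁻¹ • (z + u))) (a * b) n
    ((hN _).trans ((norm_add_le _ _).trans (by linarith [hz.1.1, hu.1.1])))
    (by nlinarith [hN z, hN u, ν.N_mul a b, hz.1.1, hu.1.1])).1
  have h5 := Λ.c11 ((n : ℝ)⁻¹ • z) ((n : ℝ)⁻¹ • u)
    (by rw [hsm]; linarith [div_le_self (norm_nonneg z) hn1, hz.2])
    (by rw [hsm]; linarith [div_le_self (norm_nonneg u) hn1, hu.2])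
  rw [← smul_add, hsm, hsm] at h5
  rw [hpow, hl3] at h4
  have h6 := ν.N_mul ((Λ.exp (z + u))⁻¹ * (Λ.exp z * (l.map Λ.exp).prod))
    ((Λ.exp l.sum)⁻¹ * (l.map Λ.exp).prod)⁻¹
  rw [ν.N_inv, show (Λ.exp (z + u))⁻¹ * (Λ.exp z * (l.map Λ.exp).prod) *
    ((Λ.exp l.sum)⁻¹ * (l.map Λ.exp).prod)⁻¹ = (Λ.exp (z + u))⁻¹ * (Λ.exp z * Λ.exp l.sum) by
      group] at h6
  simp only [Function.comp_apply]
  rw [← hl1]
  have h0 : 0 ≤ (l.map norm).sum := List.sum_nonneg (by simp)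
  have h7 : Λ.C * (l.map norm).sum ^ 2 ≤ Λ.C * (2 * ‖u‖) ^ 2 := by gcongr
  have h8 : C' * (n * ν.N ((Λ.exp ((n : ℝ)⁻¹ • (z + u)))⁻¹ * (a * b))) ≤
      C' * (n * (Λ.C * (‖z‖ / n) * (‖u‖ / n))) := by gcongr
  have h9 : C' * (n * (Λ.C * (‖z‖ / n) * (‖u‖ / n))) = C' * (Λ.C * ‖z‖ * ‖u‖) / n := by
    field_simp
  linarith

end LieA

end Crest.Agent.R217
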