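import Crest.Agent.R217.HDefs

/-! Row 217, task `R217/HEsc`: escape norms (Tao, *Hilbert's fifth problem*, §5.1). -/

set_option autoImplicit false

namespace Crest.Agent.R217

open Filter Topology

universe u

variable {G : Type u} [Group G] [TopologicalSpace G] [IsTopologicalGroup G] [T2Space G]

omit [T2Space G] in
theorem HEsc_list_nhds (k : ℕ) {Q : Set G} (hQ : Q ∈ 𝓝 (1 : G)) :
    ∃ W ∈ 𝓝 (1 : G), ∀ l : List G, l.length ≤ k → (∀ g ∈ l, g ∈ W) → l.prod ∈ Q := by
  induction k generalizing Q with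
  | zero =>
    refine ⟨Set.univ, univ_mem, fun l hl _ => ?_⟩
    obtain rfl : l = [] := List.length_eq_zero_iff.1 (by omega)
    exact mem_of_mem_nhds hQ
  | succ k ih =>
    obtain ⟨V, hV, h1⟩ := exists_nhds_one_split hQ
    obtain ⟨W, hW, h2⟩ := ih hV
    refine ⟨V ∩ W, inter_mem hV hW, fun l hl h => ?_⟩
    cases l with
    | nil => exact mem_of_mem_nhds hQ
    | cons a t =>
      rw [List.prod_cons]
      exact h1 _ (h a (by simp)).1 _ (h2 t (by simpa using hl)
        fun g hg => (h g (List.mem_cons_of_mem _ hg)).2)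

/-- take a compact neighbourhood `Q` inside the NSS neighbourhood and an open symmetric `U` with
`U^100 ⊆ Q` (`exists_nhds_one_split` repeatedly, or continuity of `Fin 100 → G` products) -/
theorem exists_goodNhd [LocallyCompactSpace G] (h : NSS G) : ∃ U : Set G, GoodNhd U := by
  obtain ⟨U, hU, hS⟩ := h
  obtain ⟨Q, hQ, hQU, hc⟩ := local_compact_nhds hU
  obtain ⟨W, hW, h2⟩ := HEsc_list_nhds 100 hQ
  have h1 : (1 : G) ∈ interior W := mem_interior_iff_mem_nhds.2 hW
  refine ⟨interior W ∩ (interior W)⁻¹, isOpen_interior.inter isOpen_interior.inv,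
    ⟨h1, by simpa using h1⟩, fun g hg => ⟨hg.2, by simpa using hg.1⟩, Q, hc,
    fun l hl h => h2 l hl fun g hg => interior_subset (h g hg).1, fun S hSQ => hS S (hSQ.trans hQU)⟩

omit [TopologicalSpace G] [IsTopologicalGroup G] [T2Space G] in
theorem esc_nonneg (U : Set G) (g : G) : 0 ≤ esc U g := by
  refine Real.sInf_nonneg ?_
  rintro _ ⟨n, -, rfl⟩
  positivity

omit [TopologicalSpace G] [IsTopologicalGroup G] [T2Space G] in
theorem esc_le {U : Set G} {g : G} {n : ℕ} (h : ∀ i ≤ n, g ^ i ∈ U) : esc U g ≤ 1 / ((n : ℝ) + 1) := by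
  refine csInf_le ⟨0, ?_⟩ ⟨n, h, rfl⟩
  rintro _ ⟨n, -, rfl⟩
  positivity

omit [TopologicalSpace G] [IsTopologicalGroup G] [T2Space G] in
theorem esc_le_one {U : Set G} (h : (1 : G) ∈ U) (g : G) : esc U g ≤ 1 := by
  have := esc_le (U := U) (g := g) (n := 0) fun i hi => by
    obtain rfl : i = 0 := by omega
    simpa using h
  simpa using this

omit [TopologicalSpace G] [IsTopologicalGroup G] [T2Space G] in
theorem HEsc_le_esc {U : Set G} (h : (1 : G) ∈ U) {g : G} {c : ℝ}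
    (hc : ∀ n : ℕ, (∀ i ≤ n, g ^ i ∈ U) → c ≤ 1 / ((n : ℝ) + 1)) : c ≤ esc U g := by
  refine le_csInf ⟨_, 0, fun i hi => ?_, rfl⟩ ?_
  · obtain rfl : i = 0 := by omega
    simpa using h
  · rintro _ ⟨n, hn, rfl⟩
    exact hc n hn

omit [TopologicalSpace G] [IsTopologicalGroup G] [T2Space G] in
/-- `i * esc U g < 1` forces `g ^ i ∈ U` -/
theorem pow_mem_of_esc {U : Set G} (h : (1 : G) ∈ U) {g : G} {i : ℕ} (hi : (i : ℝ) * esc U g < 1) :
    g ^ i ∈ U := by
  by_contra hg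
  have hi0 : i ≠ 0 := by
    rintro rfl
    exact hg (by simpa using h)
  have hpos : (0 : ℝ) < i := by exact_mod_cast Nat.pos_of_ne_zero hi0
  have h1 : 1 / (i : ℝ) ≤ esc U g := HEsc_le_esc h fun n hn => by
    have h2 : n + 1 ≤ i := by
      by_contra h3
      exact hg (hn i (by omega))
    exact one_div_le_one_div_of_le (by positivity) (by exact_mod_cast h2)
  rw [div_le_iff₀ hpos] at h1
  linarith

omit [TopologicalSpace G] [IsTopologicalGroup G] [T2Space G] in
theorem esc_inv {U : Set G} (h : ∀ g ∈ U, g⁻¹ ∈ U) (g : G) : esc U g⁻¹ = esc U g := by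
  unfold esc
  congr 1
  ext r
  refine exists_congr fun n => and_congr_left fun _ => forall₂_congr fun i _ => ?_
  rw [inv_pow]
  exact ⟨fun h1 => by simpa using h _ h1, h _⟩

omit [TopologicalSpace G] [IsTopologicalGroup G] [T2Space G] in
theorem esc_anti {U V : Set G} (h1 : (1 : G) ∈ U) (h : U ⊆ V) (g : G) : esc V g ≤ esc U g :=
  HEsc_le_esc h1 fun _ hn => esc_le fun i hi => h (hn i hi)

theorem HEsc_zpow_mem {Q : Set G} (hQ : IsCompact Q) {x : G} (hx : ∀ i : ℕ, x ^ i ∈ Q) (m : ℤ) :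
    x ^ m ∈ Q := by
  obtain ⟨y, -, hy⟩ := hQ.exists_mapClusterPt (f := atTop) (u := (x ^ · : ℕ → G))
    (le_principal_iff.2 (mem_map.2 (Eventually.of_forall hx)))
  rw [← mapClusterPt_atTop_zpow_iff_pow] at hy
  have H : MapClusterPt (x ^ m) (atTop.curry atTop) ↿(fun a b ↦ x ^ (m + b - a)) := by
    have : ContinuousAt (fun yz ↦ x ^ m * yz.2 / yz.1) (y, y) := by fun_prop
    simpa only [Function.comp_def, ← zpow_sub, ← zpow_add, div_eq_mul_inv, Prod.map,
      mul_inv_cancel_right] using! (hy.curry_prodMap hy).continuousAt_comp this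
  have h1 : Tendsto ↿(fun a b : ℤ ↦ m + b - a) (atTop.curry atTop) atTop := by
    refine Tendsto.curry <| .of_forall fun a ↦ ?_
    simp only [sub_eq_add_neg]
    exact tendsto_atTop_add_const_right _ _ (tendsto_atTop_add_const_left atTop m tendsto_id)
  have h2 : MapClusterPt (x ^ m) atTop (x ^ · : ℤ → G) := H.of_comp h1
  rw [mapClusterPt_atTop_zpow_iff_pow] at h2
  rw [← hQ.isClosed.closure_eq, mem_closure_iff_clusterPt]
  exact ClusterPt.mono h2 (le_principal_iff.2 (mem_map.2 (Eventually.of_forall hx)))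

/-- **Trapping.**  If not, for each `m` pick `g_m ∉ V` with `g_m ^ i ∈ Q` for `i ≤ m`, `1 ≤ m`; a cluster point `g`
(`V` may be taken open; `IsCompact.exists_mapClusterPt` or an ultrafilter limit) has `g ≠ 1` and all
powers `g ^ i`, `i ∈ ℕ`, in `Q`.  The closure of the powers is a compact subsemigroup, hence a subgroup
(or: use `Q ∩ Q⁻¹`-free argument: a cluster point of `g ^ i` shows `g⁻¹` is a limit of powers). -/
theorem trap {Q V : Set G} (hQ : IsCompact Q) (hS : ∀ S : Subgroup G, (S : Set G) ⊆ Q → S = ⊥)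
    (hV : V ∈ 𝓝 (1 : G)) : ∃ m : ℕ, 1 ≤ m ∧ ∀ g : G, (∀ i ≤ m, g ^ i ∈ Q) → g ∈ V := by
  by_contra hcon
  push Not at hcon
  let K : ℕ → Set G := fun m => (interior V)ᶜ ∩ {g | ∀ i ≤ m + 1, g ^ i ∈ Q}
  have hcl : ∀ m, IsClosed (K m) := fun m => by
    refine isOpen_interior.isClosed_compl.inter ?_
    simp only [Set.ofPred_forall]
    exact isClosed_iInter fun i => isClosed_iInter fun _ =>
      hQ.isClosed.preimage (continuous_pow i)
  obtain ⟨g, hg⟩ := IsCompact.nonempty_iInter_of_sequence_nonempty_isCompact_isClosed K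
    (fun m g hg => ⟨hg.1, fun i hi => hg.2 i (by omega)⟩)
    (fun m => by
      obtain ⟨g, h1, h2⟩ := hcon (m + 1) (by omega)
      exact ⟨g, fun h => h2 (interior_subset h), h1⟩)
    (hQ.of_isClosed_subset (hcl 0) fun g hg => by simpa using hg.2 1 le_rfl) hcl
  rw [Set.mem_iInter] at hg
  have h1 : Subgroup.zpowers g = ⊥ := hS _ (by
    rintro _ ⟨m, rfl⟩
    exact HEsc_zpow_mem hQ (fun i => (hg i).2 i (by omega)) m)
  rw [Subgroup.zpowers_eq_bot] at h1
  exact (hg 0).1 (h1 ▸ mem_interior_iff_mem_nhds.2 hV)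

/-- escape norms of neighbourhoods inside `Q` are comparable: apply `trap` to `g ^ j`, `j m ≤ n` -/
theorem esc_le_mul {Q V W : Set G} (hQ : IsCompact Q)
    (hS : ∀ S : Subgroup G, (S : Set G) ⊆ Q → S = ⊥) (hV : V ∈ 𝓝 (1 : G)) (h1 : (1 : G) ∈ W)
    (hW : W ⊆ Q) : ∃ C : ℝ, 1 ≤ C ∧ ∀ g, esc V g ≤ C * esc W g := by
  obtain ⟨m, hm, h⟩ := trap hQ hS hV
  have hm' : (1 : ℝ) ≤ m := by exact_mod_cast hm
  refine ⟨m, hm', fun g => ?_⟩
  rw [← div_le_iff₀' (by linarith)]
  refine HEsc_le_esc h1 fun n hn => ?_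
  have h2 : esc V g ≤ 1 / (((n / m : ℕ) : ℝ) + 1) := esc_le fun j hj => h _ fun i hi => by
    rw [← pow_mul]
    refine hW (hn _ ?_)
    exact (Nat.mul_le_mul hj hi).trans (Nat.div_mul_le_self n m)
  have h3 : (n : ℝ) + 1 ≤ m * (((n / m : ℕ) : ℝ) + 1) := by
    exact_mod_cast Nat.lt_mul_div_succ n hm
  rw [div_le_iff₀ (by linarith)]
  refine h2.trans ?_
  rw [div_mul_eq_mul_div, div_le_div_iff₀ (by positivity) (by positivity)]
  linarith

theorem GoodNhd.HEsc_le {U V : Set G} (hU : GoodNhd U) (hV : V ∈ 𝓝 (1 : G)) :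
    ∃ C : ℝ, 1 ≤ C ∧ ∀ g, esc V g ≤ C * esc U g := by
  obtain ⟨Q, hQ, h1, hS⟩ := hU.ex
  exact esc_le_mul hQ hS hV hU.one_mem fun g hg => by
    simpa using h1 [g] (by simp) (by simpa using hg)

/-- the escape norm of a good neighbourhood generates the neighbourhood filter of `1` -/
theorem GoodNhd.basis {U : Set G} (hU : GoodNhd U) :
    (𝓝 (1 : G)).HasBasis (fun ε : ℝ => 0 < ε) fun ε => {g | esc U g < ε} := by
  refine ⟨fun t => ⟨fun ht => ?_, ?_⟩⟩
  · obtain ⟨C, hC, h⟩ := hU.HEsc_le ht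
    refine ⟨1 / C, by positivity, fun g hg => ?_⟩
    have h1 : esc U g < 1 / C := hg
    rw [lt_div_iff₀' (by linarith)] at h1
    have := pow_mem_of_esc (mem_of_mem_nhds ht) (g := g) (i := 1)
      (by simpa using (h g).trans_lt h1)
    simpa using this
  · rintro ⟨ε, hε, h⟩
    obtain ⟨n, hn⟩ := exists_nat_one_div_lt hε
    have h1 : ∀ᶠ g in 𝓝 (1 : G), ∀ i ∈ Set.Iic n, g ^ i ∈ U :=
      (eventually_all_finite (Set.finite_Iic n)).2 fun i _ =>
        (continuous_pow i).continuousAt.preimage_mem_nhds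
          (by simpa using hU.isOpen.mem_nhds hU.one_mem)
    filter_upwards [h1] with g hg
    exact h ((esc_le hg).trans_lt hn)

/-- conjugation by elements of a compact set distorts the escape norm boundedly: there is a
neighbourhood `V` of `1` with `y V y⁻¹ ⊆ U` for all `y ∈ Y` (tube lemma); use `esc_le_mul` -/
theorem GoodNhd.esc_conj {U : Set G} (hU : GoodNhd U) {Y : Set G} (hY : IsCompact Y) :
    ∃ C : ℝ, 1 ≤ C ∧ ∀ y ∈ Y, ∀ g, esc U (y * g * y⁻¹) ≤ C * esc U g := by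
  have hV : ∀ᶠ g in 𝓝 (1 : G), ∀ y ∈ Y, y * g * y⁻¹ ∈ U := by
    refine hY.eventually_forall_of_forall_eventually fun y _ => ?_
    have : ContinuousAt (fun z : G × G => z.2 * z.1 * z.2⁻¹) (1, y) := by fun_prop
    exact this.preimage_mem_nhds (by simpa using hU.isOpen.mem_nhds hU.one_mem)
  obtain ⟨C, hC, h⟩ := hU.HEsc_le hV
  refine ⟨C, hC, fun y hy g => le_trans ?_ (h g)⟩
  refine HEsc_le_esc (mem_of_mem_nhds hV) fun n hn => esc_le fun i hi => ?_
  rw [conj_pow]
  exact hn i hi y hy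

/-- escape property.  Let `N` be maximal with `g ^ i ∈ U` for `i ≤ N` (if there is none both sides
vanish... `esc U g = 0`), so `esc U g = 1/(N+1)`, `g ^ (N+1) ∉ U`.  Let `V` be a neighbourhood with `V * V ⊆ U`
and `m` from `trap`/`esc_le_mul` such that `esc V ≤ C esc U`.  For `1 ≤ n ≤ (N+1)/C'` write `N + 1 = q n + r`,
`r < n`: `g ^ r ∈ V`, so `(g ^ n) ^ q ∉ V`, so `esc V (g ^ n) ≥ 1/q ≥ n/(N+1)`. -/
theorem GoodNhd.esc_escape {U : Set G} (hU : GoodNhd U) : ∃ C : ℝ, 1 ≤ C ∧ ∀ (g : G) (n : ℕ),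
    (n : ℝ) * esc U g ≤ 1 / C → (n : ℝ) * esc U g ≤ C * esc U (g ^ n) := by
  classical
  obtain ⟨V, hV, hVU⟩ := exists_nhds_one_split (hU.isOpen.mem_nhds hU.one_mem)
  obtain ⟨C, hC, h⟩ := hU.HEsc_le hV
  refine ⟨C, hC, fun g n hn => ?_⟩
  have hE := esc_nonneg U (g ^ n)
  rcases Nat.eq_zero_or_pos n with rfl | hn0
  · simp only [Nat.cast_zero, zero_mul]; positivity
  rcases (esc_nonneg U g).eq_or_lt with he | he
  · rw [← he, mul_zero]; positivity
  have hex : ∃ i, g ^ i ∉ U := by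
    by_contra hcon
    push Not at hcon
    obtain ⟨k, hk⟩ := exists_nat_one_div_lt he
    exact absurd (esc_le fun i _ => hcon i) (not_le.2 hk)
  obtain ⟨M, hM1, hM2⟩ : ∃ M, g ^ M ∉ U ∧ ∀ i < M, g ^ i ∈ U :=
    ⟨Nat.find hex, Nat.find_spec hex, fun i hi => not_not.1 (Nat.find_min hex hi)⟩
  obtain ⟨N, rfl⟩ : ∃ N, M = N + 1 := ⟨M - 1, by
    have : M ≠ 0 := by
      rintro rfl
      exact hM1 (by simpa using hU.one_mem)
    omega⟩
  have h1 : esc U g ≤ 1 / ((N : ℝ) + 1) := esc_le fun i hi => hM2 i (by omega)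
  rw [le_div_iff₀ (by positivity)] at h1
  set q := (N + 1) / n with hq
  set r := (N + 1) % n with hr
  have hdiv : n * q + r = N + 1 := Nat.div_add_mod _ _
  have hrn : (r : ℝ) < n := by exact_mod_cast Nat.mod_lt _ hn0
  rw [le_div_iff₀ (by linarith)] at hn
  have h2 : g ^ r ∈ V := pow_mem_of_esc (mem_of_mem_nhds hV) (by
    have h3 := mul_le_mul_of_nonneg_left (h g) (Nat.cast_nonneg (α := ℝ) r)
    have h4 : (r : ℝ) * (C * esc U g) < n * (C * esc U g) :=
      mul_lt_mul_of_pos_right hrn (by positivity)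
    linarith)
  have h3 : (g ^ n) ^ q ∉ V := fun h4 => hM1 (by
    rw [← hdiv, pow_add, pow_mul]
    exact hVU _ h4 _ h2)
  have h4 : 1 ≤ (q : ℝ) * esc V (g ^ n) :=
    not_lt.1 fun h5 => h3 (pow_mem_of_esc (mem_of_mem_nhds hV) h5)
  have h5 := h4.trans (mul_le_mul_of_nonneg_left (h (g ^ n)) (Nat.cast_nonneg (α := ℝ) q))
  have h6 : (n : ℝ) * q ≤ N + 1 := by exact_mod_cast (by omega : n * q ≤ N + 1)
  have h7 : (n : ℝ) * q * esc U g ≤ 1 := by nlinarith
  calc (n : ℝ) * esc U g ≤ n * esc U g * (q * (C * esc U (g ^ n))) :=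
        le_mul_of_one_le_right (by positivity) h5
    _ = (n * q * esc U g) * (C * esc U (g ^ n)) := by ring
    _ ≤ _ := mul_le_of_le_one_left (by positivity) h7

end Crest.Agent.R217
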