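import Crest.Agent.R217.HTri

/-! Row 217, task `R217/HGle`: Gleason norms exist. -/

set_option autoImplicit false

namespace Crest.Agent.R217

open Filter Topology

universe u

variable {G : Type u} [Group G] [TopologicalSpace G] [IsTopologicalGroup G] [T2Space G]
  [LocallyCompactSpace G] [SecondCountableTopology G]

section

omit [TopologicalSpace G] [IsTopologicalGroup G] [T2Space G] [LocallyCompactSpace G]
  [SecondCountableTopology G]

/-- the largest subadditive minorant of the escape norm -/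
noncomputable def HGle_N (U : Set G) (g : G) : ℝ :=
  sInf {r | ∃ l : List G, l.prod = g ∧ r = (l.map (esc U)).sum}

theorem HGle_sum_nonneg (U : Set G) (l : List G) : 0 ≤ (l.map (esc U)).sum :=
  List.sum_nonneg fun x hx => by
    obtain ⟨y, -, rfl⟩ := List.mem_map.1 hx
    exact esc_nonneg U y

theorem HGle_nonneg (U : Set G) (g : G) : 0 ≤ HGle_N U g :=
  Real.sInf_nonneg (by rintro _ ⟨l, -, rfl⟩; exact HGle_sum_nonneg U l)

theorem HGle_le_sum (U : Set G) (l : List G) : HGle_N U l.prod ≤ (l.map (esc U)).sum :=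
  csInf_le ⟨0, by rintro _ ⟨l, -, rfl⟩; exact HGle_sum_nonneg U l⟩ ⟨l, rfl, rfl⟩

theorem HGle_le_N {U : Set G} {g : G} {c : ℝ}
    (h : ∀ l : List G, l.prod = g → c ≤ (l.map (esc U)).sum) : c ≤ HGle_N U g :=
  le_csInf ⟨_, [g], by simp, rfl⟩ (by rintro _ ⟨l, hl, rfl⟩; exact h l hl)

theorem HGle_le (U : Set G) (g : G) : HGle_N U g ≤ esc U g := by
  simpa using HGle_le_sum U [g]

theorem HGle_one (U : Set G) : HGle_N U 1 = 0 :=
  le_antisymm (by simpa using HGle_le_sum U []) (HGle_nonneg U 1)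

theorem HGle_ge {U : Set G} {C : ℝ} (hC : 0 < C)
    (h : ∀ l : List G, esc U l.prod ≤ C * (l.map (esc U)).sum) (g : G) :
    esc U g ≤ C * HGle_N U g := by
  rw [← div_le_iff₀' hC]
  refine HGle_le_N fun l hl => ?_
  rw [div_le_iff₀' hC, ← hl]
  exact h l

theorem HGle_inv {U : Set G} (h : ∀ g ∈ U, g⁻¹ ∈ U) (g : G) : HGle_N U g⁻¹ = HGle_N U g := by
  have key : ∀ g : G, HGle_N U g⁻¹ ≤ HGle_N U g := fun g => HGle_le_N fun l hl => by
    have h1 := HGle_le_sum U (l.map fun x => x⁻¹).reverse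
    rw [← List.prod_inv_reverse, hl, List.map_reverse, List.sum_reverse, List.map_map] at h1
    simpa only [Function.comp_def, esc_inv h] using h1
  exact le_antisymm (key g) (by simpa using key g⁻¹)

theorem HGle_mul (U : Set G) (g k : G) : HGle_N U (g * k) ≤ HGle_N U g + HGle_N U k := by
  rw [← sub_le_iff_le_add]
  refine HGle_le_N fun l hl => ?_
  rw [sub_le_comm]
  refine HGle_le_N fun l' hl' => ?_
  have h1 := HGle_le_sum U (l ++ l')
  rw [List.prod_append, hl, hl', List.map_append, List.sum_append] at h1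
  linarith

end

/-- `N g = inf {∑ esc U g_i | l.prod = g}` satisfies `esc U g / C ≤ N g ≤ esc U g` (`esc_tri`), so `basis`
and `escape` follow from `GoodNhd.basis`, `GoodNhd.esc_escape`.  Commutators: `ψ = η = max 0 (1 - C inf_{y ∈ U} N (x y⁻¹))`
has `|∂_g ψ| ≤ C N g`, is `1` on `U`, zero off `U U`; `exists_conv` and `esc_conj` (for `g ∈ U`, `y ∈ Q ∪ U Q`) give
`|∂_h ∂_g φ| ≤ C' N g N h` for `g, h ∈ U`.  With `k = g⁻¹ h⁻¹ g h`, `g h = h g k`, so by `dlt_mul`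
`∂_k φ ((h g)⁻¹ x) = ∂_{g h} φ x - ∂_{h g} φ x = ∂_g ∂_h φ x - ∂_h ∂_g φ x`; apply `esc_le_of_dlt`. -/
theorem exists_GN (h : NSS G) : Nonempty (GN G) := by
  obtain ⟨U, hU⟩ := exists_goodNhd h
  obtain ⟨C₁, hC₁, h₁⟩ := hU.esc_tri
  obtain ⟨C₂, hC₂, h₂⟩ := hU.esc_escape
  obtain ⟨Q, hQ, hQl, hQS⟩ := hU.ex
  obtain ⟨C₃, hC₃, h₃⟩ := hU.esc_conj hQ
  set N : G → ℝ := HGle_N U with hN
  have hN0 : ∀ g, 0 ≤ N g := HGle_nonneg U
  have hle : ∀ g, N g ≤ esc U g := HGle_le U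
  have hge : ∀ g, esc U g ≤ C₁ * N g := HGle_ge (by linarith) h₁
  have hinv : ∀ g, N g⁻¹ = N g := HGle_inv hU.inv_mem
  have hmul : ∀ g k, N (g * k) ≤ N g + N k := HGle_mul U
  have hC₁0 : 0 < C₁ := by linarith
  have hbasis : (𝓝 (1 : G)).HasBasis (fun ε : ℝ => 0 < ε) fun ε => {g | N g < ε} := by
    refine hU.basis.to_hasBasis (fun ε hε => ⟨ε / C₁, by positivity, fun g hg => ?_⟩)
      fun ε hε => ⟨ε, hε, fun g hg => (hle g).trans_lt hg⟩
    exact (hge g).trans_lt ((lt_div_iff₀' hC₁0).1 hg)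
  have hdiff : ∀ g x, |N (g⁻¹ * x) - N x| ≤ N g := by
    intro g x
    have e1 := hmul g⁻¹ x
    have e2 := hmul g (g⁻¹ * x)
    rw [mul_inv_cancel_left] at e2
    rw [hinv] at e1
    rw [abs_le]
    constructor <;> linarith
  have hcont : Continuous N := by
    refine continuous_iff_continuousAt.2 fun y => Metric.tendsto_nhds.2 fun ε hε => ?_
    have h4 : Tendsto (fun x : G => y * x⁻¹) (𝓝 y) (𝓝 1) := by
      have : Continuous fun x : G => y * x⁻¹ := by fun_prop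
      simpa using this.tendsto y
    filter_upwards [h4 (hbasis.mem_of_mem hε)] with x hx
    have h5 := hdiff (y * x⁻¹) y
    rw [show (y * x⁻¹)⁻¹ * y = x by group] at h5
    exact h5.trans_lt hx
  set Q₀ : Set G := {x | N x ≤ 1 / (2 * C₁)} with hQ₀
  have hQ₀U : Q₀ ⊆ U := by
    intro x hx
    have h4 : C₁ * N x ≤ C₁ * (1 / (2 * C₁)) := mul_le_mul_of_nonneg_left hx hC₁0.le
    rw [show C₁ * (1 / (2 * C₁)) = 1 / 2 by field_simp] at h4
    simpa using pow_mem_of_esc hU.one_mem (g := x) (i := 1)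
      (by rw [Nat.cast_one, one_mul]; linarith [hge x])
  have hQ1 : ∀ a ∈ U, a⁻¹ ∈ Q := fun a ha => by
    simpa using hQl [a⁻¹] (by simp) (by simpa using hU.inv_mem a ha)
  have hQ2 : ∀ a ∈ U, ∀ b ∈ U, (a * b)⁻¹ ∈ Q := fun a ha b hb => by
    simpa using hQl [b⁻¹, a⁻¹] (by simp) (by simpa using ⟨hU.inv_mem b hb, hU.inv_mem a ha⟩)
  have hQ₀c : IsCompact Q₀ := hQ.of_isClosed_subset (isClosed_le hcont continuous_const)
    fun x hx => by simpa using hQ1 _ (hU.inv_mem x (hQ₀U hx))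
  obtain ⟨c, M, hc, hM, hconv⟩ := exists_conv
    (hbasis.mem_of_mem (show (0 : ℝ) < 1 / (4 * C₁) by positivity)) hQ₀c
  obtain ⟨C₄, hC₄, h₄⟩ := esc_le_of_dlt (Q := Q₀) hU hQ hQS
    (fun a ha b hb => hQ2 a (hQ₀U ha) b (hQ₀U hb)) hc
  set ψ : G → ℝ := fun x => max 0 (min 1 (2 - 4 * C₁ * N x)) with hψ
  have hψc : Continuous ψ := by fun_prop
  have hψ01 : ∀ x, 0 ≤ ψ x ∧ ψ x ≤ 1 := fun x =>
    ⟨le_max_left _ _, max_le zero_le_one (min_le_left _ _)⟩
  have hψ1 : ∀ x ∈ {g | N g < 1 / (4 * C₁)}, ψ x = 1 := by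
    intro x hx
    have h4 : N x * (4 * C₁) < 1 := (lt_div_iff₀ (by positivity)).1 hx
    simp only [hψ]
    rw [min_eq_left (by linarith), max_eq_right zero_le_one]
  have hψ0 : ∀ x ∉ Q₀, ψ x = 0 := by
    intro x hx
    have h4 : 1 < N x * (2 * C₁) := (div_lt_iff₀ (by positivity)).1 (not_le.1 hx)
    exact max_eq_left ((min_le_right _ _).trans (by linarith))
  have hψd : ∀ g x, |dlt g ψ x| ≤ 4 * C₁ * N g := by
    intro g x
    refine (abs_max_sub_max_le_max _ _ _ _).trans (max_le ?_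
      ((abs_min_sub_min_le_max _ _ _ _).trans (max_le ?_ ?_)))
    · simpa using mul_nonneg (by positivity) (hN0 g)
    · simpa using mul_nonneg (by positivity) (hN0 g)
    · rw [show 2 - 4 * C₁ * N (g⁻¹ * x) - (2 - 4 * C₁ * N x) = -(4 * C₁) * (N (g⁻¹ * x) - N x) by
        ring, abs_mul, abs_neg, abs_of_pos (by positivity)]
      exact mul_le_mul_of_nonneg_left (hdiff g x) (by positivity)
  obtain ⟨φ, hφ1, hφ2, -, -, hφ3⟩ := hconv ψ ψ hψc.lowerSemicontinuous hψc.lowerSemicontinuous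
    hψ01 hψ01 hψ1 hψ1 hψ0 hψ0
  set K : ℝ := M * (4 * C₁) * (4 * C₁ * (C₃ * C₁)) with hK
  have hK0 : 0 < K := by positivity
  have hdd : ∀ g ∈ Q₀, ∀ k x, |dlt k (dlt g φ) x| ≤ K * N g * N k := by
    intro g hg k x
    refine (hφ3 g k _ (4 * C₁ * (C₃ * C₁) * N k) (hψd g) (fun y hy z => (hψd _ z).trans ?_) x).trans
      (le_of_eq (by rw [hK]; ring))
    have hy' : y⁻¹ ∈ Q := by
      rcases hy with hy | hy
      · exact hQ1 y (hQ₀U hy)
      · simpa using hQ2 g (hQ₀U hg) _ (hQ₀U hy)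
    have h4 := h₃ _ hy' k
    rw [inv_inv] at h4
    have h5 : N (y⁻¹ * k * y) ≤ C₃ * (C₁ * N k) :=
      (hle _).trans (h4.trans (mul_le_mul_of_nonneg_left (hge k) (by linarith)))
    calc 4 * C₁ * N (y⁻¹ * k * y) ≤ 4 * C₁ * (C₃ * (C₁ * N k)) :=
          mul_le_mul_of_nonneg_left h5 (by positivity)
      _ = _ := by ring
  have hA : 0 < C₁ * C₂ := by positivity
  have hB : 0 < C₄ * (2 * K) := by positivity
  refine ⟨⟨N, C₁ * C₂ + 2 * C₁ + C₄ * (2 * K), by linarith, hN0, HGle_one U, hinv, hmul, hbasis,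
    fun g n hn => ?_, fun g k hg hk => ?_⟩⟩
  · have h4 : (n : ℝ) * N g ≤ 1 / (C₁ * C₂) :=
      hn.trans (one_div_le_one_div_of_le hA (by linarith))
    have h5 : (n : ℝ) * esc U g ≤ 1 / C₂ := by
      calc (n : ℝ) * esc U g ≤ n * (C₁ * N g) := mul_le_mul_of_nonneg_left (hge g) n.cast_nonneg
        _ = C₁ * (n * N g) := by ring
        _ ≤ C₁ * (1 / (C₁ * C₂)) := mul_le_mul_of_nonneg_left h4 hC₁0.le
        _ = 1 / C₂ := by field_simp
    calc (n : ℝ) * N g ≤ n * esc U g := mul_le_mul_of_nonneg_left (hle g) n.cast_nonneg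
      _ ≤ C₂ * esc U (g ^ n) := h₂ g n h5
      _ ≤ C₂ * (C₁ * N (g ^ n)) := mul_le_mul_of_nonneg_left (hge _) (by linarith)
      _ = C₁ * C₂ * N (g ^ n) := by ring
      _ ≤ _ := mul_le_mul_of_nonneg_right (by linarith) (hN0 _)
  · have hg' : g ∈ Q₀ := hg.trans (one_div_le_one_div_of_le (by positivity) (by linarith))
    have hk' : k ∈ Q₀ := hk.trans (one_div_le_one_div_of_le (by positivity) (by linarith))
    have h5 := h₄ φ hφ1 hφ2 (g⁻¹ * k⁻¹ * g * k) (2 * K * N g * N k) fun z => by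
      have e : dlt (g⁻¹ * k⁻¹ * g * k) φ z =
          dlt g (dlt k φ) (k * g * z) - dlt k (dlt g φ) (k * g * z) := by
        simp only [dlt]
        rw [show (g⁻¹ * k⁻¹ * g * k)⁻¹ * z = k⁻¹ * (g⁻¹ * (k * g * z)) by group,
          show g⁻¹ * (k⁻¹ * (k * g * z)) = z by group]
        ring
      rw [e]
      refine (abs_sub _ _).trans ?_
      linarith [hdd g hg' k (k * g * z), hdd k hk' g (k * g * z), mul_right_comm K (N k) (N g)]
    have h6 : 0 ≤ N g * N k := mul_nonneg (hN0 g) (hN0 k)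
    calc N (g⁻¹ * k⁻¹ * g * k) ≤ C₄ * (2 * K * N g * N k) := (hle _).trans h5
      _ = C₄ * (2 * K) * (N g * N k) := by ring
      _ ≤ (C₁ * C₂ + 2 * C₁ + C₄ * (2 * K)) * (N g * N k) :=
          mul_le_mul_of_nonneg_right (by linarith) h6
      _ = _ := by ring

end Crest.Agent.R217
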