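import Crest.Agent.R217.HPow

/-! Row 217, task `R217/HLA`: the space of one-parameter subgroups. -/

set_option autoImplicit false

namespace Crest.Agent.R217

open Filter Topology

universe u

variable {G : Type u} [Group G] [TopologicalSpace G] [IsTopologicalGroup G] [T2Space G]
  [LocallyCompactSpace G]

namespace OP
omit [IsTopologicalGroup G] [T2Space G] [LocallyCompactSpace G]
variable (φ : OP G)

theorem hla_zero : φ.toFun 0 = 1 := by
  have := φ.add 0 0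
  rw [add_zero] at this
  exact left_eq_mul.1 this

theorem hla_neg (t : ℝ) : φ.toFun (-t) = (φ.toFun t)⁻¹ :=
  eq_inv_of_mul_eq_one_left (by rw [← φ.add, neg_add_cancel, hla_zero])

theorem hla_pow (t : ℝ) (n : ℕ) : φ.toFun t ^ n = φ.toFun (n * t) := by
  induction n with
  | zero => simp [hla_zero]
  | succ n ih => rw [pow_succ, ih, ← φ.add]; push_cast; rw [add_mul, one_mul]

theorem hla_pow_div (t : ℝ) {n : ℕ} (hn : 0 < n) : φ.toFun (t / n) ^ n = φ.toFun t := by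
  rw [hla_pow, mul_div_cancel₀ _ (by exact_mod_cast hn.ne')]

end OP

theorem hla_ev {f : ℝ → ℝ} (hf : Continuous f) (h0 : f 0 = 0) {η : ℝ} (hη : 0 < η) :
    ∀ᶠ t in 𝓝[≥] (0 : ℝ), f t ≤ η :=
  ((hf.tendsto' 0 0 h0).eventually (ge_mem_nhds hη)).filter_mono nhdsWithin_le_nhds

theorem hla_div {t : ℝ} (ht : 0 ≤ t) : Tendsto (fun n : ℕ => t / n) atTop (𝓝[≥] 0) :=
  tendsto_nhdsWithin_iff.2 ⟨tendsto_const_div_atTop_nhds_zero_nat t,
    Eventually.of_forall fun n => div_nonneg ht n.cast_nonneg⟩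

theorem hla_floor {t : ℝ} (ht : 0 ≤ t) :
    Tendsto (fun n : ℕ => (⌊t * n⌋₊ : ℝ) * (1 / n)) atTop (𝓝 t) := by
  simpa only [mul_one_div, Function.comp_def] using
    (tendsto_nat_floor_mul_div_atTop ht).comp tendsto_natCast_atTop_atTop

theorem hla_floor_le {t : ℝ} (ht : 0 ≤ t) (n : ℕ) : (⌊t * n⌋₊ : ℝ) * (1 / n) ≤ t := by
  rcases n.eq_zero_or_pos with rfl | hn
  · simpa using ht
  · rw [mul_one_div, div_le_iff₀ (by exact_mod_cast hn)]
    exact Nat.floor_le (by positivity)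

namespace GN
variable (ν : GN G)

section
omit [T2Space G] [LocallyCompactSpace G]

omit [IsTopologicalGroup G] in
theorem hla_tri (a b c : G) : ν.N (a⁻¹ * c) ≤ ν.N (a⁻¹ * b) + ν.N (b⁻¹ * c) := by
  have := ν.N_mul (a⁻¹ * b) (b⁻¹ * c)
  rwa [mul_assoc, mul_inv_cancel_left] at this

omit [IsTopologicalGroup G] in
theorem hla_symm (a b : G) : ν.N (a⁻¹ * b) = ν.N (b⁻¹ * a) := by
  rw [← ν.N_inv, mul_inv_rev, inv_inv]

theorem hla_ev (φ : OP G) {η : ℝ} (hη : 0 < η) : ∀ᶠ t in 𝓝[≥] (0 : ℝ), ν.N (φ.toFun t) ≤ η :=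
  R217.hla_ev (ν.continuous_N.comp φ.cont) (by rw [Function.comp_apply, φ.hla_zero, ν.N_one]) hη

omit [IsTopologicalGroup G] in
theorem hla_of_nonneg (φ : OP G) {B : ℝ} (h : ∀ t, 0 ≤ t → ν.N (φ.toFun t) ≤ B * t) (t : ℝ) :
    ν.N (φ.toFun t) ≤ B * |t| := by
  rcases le_total 0 t with ht | ht
  · rw [abs_of_nonneg ht]; exact h t ht
  · rw [abs_of_nonpos ht, ← ν.N_inv, ← φ.hla_neg]; exact h _ (neg_nonneg.2 ht)

theorem hla_bdd (φ : OP G) : ∃ B : ℝ, ∀ t, ν.N (φ.toFun t) ≤ B * |t| := by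
  have hC := ν.one_le
  obtain ⟨t₀, ht₀, h⟩ := (nhdsGE_basis_Icc (a := (0 : ℝ))).eventually_iff.1
    (ν.hla_ev φ (show 0 < 1 / (2 * ν.C ^ 2) by positivity))
  have h1 : ∀ t, 0 ≤ t → ∀ n : ℕ, n * t ≤ t₀ → n * ν.N (φ.toFun t) ≤ 1 / ν.C := by
    intro t ht n
    induction n with
    | zero => intro _; simp; positivity
    | succ n ih =>
      intro hn
      push_cast at hn ⊢
      have h0 : 0 ≤ n * t := by positivity
      have h2 := ν.escape _ n (ih (by linarith))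
      rw [φ.hla_pow] at h2
      have h3 := h (show n * t ∈ Set.Icc 0 t₀ from ⟨h0, by linarith⟩)
      have h4 := h (show t ∈ Set.Icc 0 t₀ from ⟨ht, by linarith⟩)
      have h5 : 1 / ν.C = 2 * ν.C * (1 / (2 * ν.C ^ 2)) := by field_simp
      have h6 : 0 < 1 / (2 * ν.C ^ 2) := by positivity
      nlinarith
  have h2 : ∀ t, 0 ≤ t → t ≤ t₀ → ν.N (φ.toFun t) ≤ 2 / t₀ * t := fun t ht htt => by
    rcases ht.eq_or_lt with rfl | ht'
    · rw [φ.hla_zero, ν.N_one, mul_zero]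
    have h3 := h1 t ht ⌊t₀ / t⌋₊ ((le_div_iff₀ ht').1 (Nat.floor_le (by positivity)))
    have h4 : (1 : ℝ) ≤ ⌊t₀ / t⌋₊ := by
      exact_mod_cast Nat.floor_pos.2 ((one_le_div ht').2 htt)
    have h5 := (div_lt_iff₀ ht').1 (Nat.lt_floor_add_one (t₀ / t))
    have h6 : 1 / ν.C ≤ 1 := (div_le_one (by positivity)).2 hC
    have h7 := ν.nonneg (φ.toFun t)
    rw [div_mul_eq_mul_div, le_div_iff₀ ht₀]
    nlinarith [mul_le_mul_of_nonneg_left (h3.trans h6) ht,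
      mul_le_mul_of_nonneg_left (show t₀ ≤ 2 * (⌊t₀ / t⌋₊ * t) by nlinarith) h7]
  refine ⟨2 / t₀, ν.hla_of_nonneg φ fun t ht => ?_⟩
  obtain ⟨m, hm, hm0⟩ := (((hla_div ht).eventually
    (R217.hla_ev continuous_id rfl ht₀)).and (eventually_gt_atTop 0)).exists
  have hm' : (0 : ℝ) < m := by exact_mod_cast hm0
  rw [← φ.hla_pow_div t hm0]
  refine (ν.N_pow_le _ _).trans ((mul_le_mul_of_nonneg_left
    (h2 (t / m) (by positivity) hm) hm'.le).trans_eq ?_)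
  field_simp

/-- the norm of a one-parameter group -/
noncomputable def nrm (φ : OP G) : ℝ := ⨆ t : ℝ, ν.N (φ.toFun t) / |t|

omit [IsTopologicalGroup G] in
theorem nrm_le {φ : OP G} {B : ℝ} (hB : 0 ≤ B) (h : ∀ t, ν.N (φ.toFun t) ≤ B * |t|) :
    ν.nrm φ ≤ B :=
  ciSup_le fun t => div_le_of_le_mul₀ (abs_nonneg _) hB (h t)

omit [IsTopologicalGroup G] in
theorem nrm_nonneg (φ : OP G) : 0 ≤ ν.nrm φ :=
  Real.iSup_nonneg fun _ => div_nonneg (ν.nonneg _) (abs_nonneg _)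

theorem le_nrm (φ : OP G) (t : ℝ) : ν.N (φ.toFun t) ≤ ν.nrm φ * |t| := by
  obtain ⟨B, hB⟩ := ν.hla_bdd φ
  rcases eq_or_ne t 0 with rfl | ht
  · rw [φ.hla_zero, ν.N_one, abs_zero, mul_zero]
  rw [← div_le_iff₀ (abs_pos.2 ht)]
  refine le_ciSup (f := fun t => ν.N (φ.toFun t) / |t|) ⟨max B 0, ?_⟩ t
  rintro _ ⟨s, rfl⟩
  exact div_le_of_le_mul₀ (abs_nonneg _) (le_max_right _ _)
    ((hB s).trans (mul_le_mul_of_nonneg_right (le_max_left _ _) (abs_nonneg _)))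

theorem mul_le_nrm (φ : OP G) {a t : ℝ} (ha : 0 ≤ a) (ht : 0 ≤ t) :
    a * ν.N (φ.toFun t) ≤ ν.nrm φ * (a * t) := by
  have := mul_le_mul_of_nonneg_left (ν.le_nrm φ t) ha
  rw [abs_of_nonneg ht] at this
  linarith

theorem nat_mul_le_nrm (φ : OP G) {t : ℝ} (ht : 0 ≤ t) (n : ℕ) :
    n * ν.N (φ.toFun (t / n)) ≤ ν.nrm φ * t := by
  refine (ν.mul_le_nrm φ n.cast_nonneg (by positivity)).trans
    (mul_le_mul_of_nonneg_left ?_ (ν.nrm_nonneg φ))
  rcases n.eq_zero_or_pos with rfl | hn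
  · simpa using ht
  · rw [mul_div_cancel₀ _ (by exact_mod_cast hn.ne')]

theorem nrm_le_of_seq {φ : OP G} {B : ℝ} (hB : 0 ≤ B) {b : ℕ → ℝ} (hb : Tendsto b atTop (𝓝 B))
    (h : ∀ᶠ n : ℕ in atTop, n * ν.N (φ.toFun (1 / n)) ≤ b n) : ν.nrm φ ≤ B := by
  refine ν.nrm_le hB (ν.hla_of_nonneg φ fun t ht => le_of_tendsto_of_tendsto
    (((ν.continuous_N.comp φ.cont).tendsto t).comp (hla_floor ht)) (hb.mul (hla_floor ht)) ?_)
  filter_upwards [h, eventually_gt_atTop 0] with n hn hn0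
  have hn' : (0 : ℝ) < n := by exact_mod_cast hn0
  simp only [Function.comp_apply]
  rw [← φ.hla_pow]
  refine (ν.N_pow_le _ _).trans ?_
  calc _ = n * ν.N (φ.toFun (1 / n)) * (⌊t * n⌋₊ * (1 / n)) := by field_simp
    _ ≤ _ := by gcongr

theorem hla_pd : ∃ C δ : ℝ, 1 ≤ C ∧ 0 < δ ∧ ∀ (φ ψ : OP G) (t : ℝ), 0 ≤ t → ν.nrm φ * t ≤ δ →
    ν.nrm ψ * t ≤ δ → ∀ n : ℕ, 0 < n →
      ν.N ((φ.toFun t)⁻¹ * ψ.toFun t) ≤ C * (n * ν.N ((φ.toFun (t / n))⁻¹ * ψ.toFun (t / n))) ∧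
      n * ν.N ((φ.toFun (t / n))⁻¹ * ψ.toFun (t / n)) ≤ C * ν.N ((φ.toFun t)⁻¹ * ψ.toFun t) := by
  obtain ⟨C, δ, hC, hδ, h⟩ := ν.pow_dist
  refine ⟨C, δ, hC, hδ, fun φ ψ t ht h1 h2 n hn => ?_⟩
  have := h _ _ n ((ν.nat_mul_le_nrm φ ht n).trans h1) ((ν.nat_mul_le_nrm ψ ht n).trans h2)
  rwa [φ.hla_pow_div t hn, ψ.hla_pow_div t hn] at this

end

/-- two curves agree up to second order at `0` -/
def Eqv (c c' : ℝ → G) : Prop := ∃ K : ℝ, ∀ᶠ t in 𝓝[≥] (0 : ℝ), ν.N ((c t)⁻¹ * c' t) ≤ K * t ^ 2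

namespace Eqv
variable {ν} {c c' c'' : ℝ → G}

section
omit [IsTopologicalGroup G] [T2Space G] [LocallyCompactSpace G]

theorem of_eq (h : ∀ t, c t = c' t) : ν.Eqv c c' :=
  ⟨0, Eventually.of_forall fun t => by rw [h, inv_mul_cancel, ν.N_one, zero_mul]⟩

theorem symm (h : ν.Eqv c c') : ν.Eqv c' c := by
  obtain ⟨K, h⟩ := h
  exact ⟨K, h.mono fun t ht => by rwa [ν.hla_symm]⟩

theorem trans (h : ν.Eqv c c') (h' : ν.Eqv c' c'') : ν.Eqv c c'' := by
  obtain ⟨K, h⟩ := h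
  obtain ⟨K', h'⟩ := h'
  exact ⟨K + K', (h.and h').mono fun t ht => by
    linarith [ν.hla_tri (c t) (c' t) (c'' t), ht.1, ht.2]⟩

theorem mul_left (h : ν.Eqv c c') (a : ℝ → G) :
    ν.Eqv (fun t => a t * c t) fun t => a t * c' t := by
  obtain ⟨K, h⟩ := h
  exact ⟨K, h.mono fun t ht => by rwa [mul_inv_rev, mul_assoc, inv_mul_cancel_left]⟩

theorem scale (h : ν.Eqv c c') {r : ℝ} (hr : 0 ≤ r) :
    ν.Eqv (fun t => c (r * t)) fun t => c' (r * t) := by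
  obtain ⟨K, h⟩ := h
  have : Tendsto (fun t : ℝ => r * t) (𝓝[≥] 0) (𝓝[≥] 0) := tendsto_nhdsWithin_iff.2
    ⟨((continuous_const_mul r).tendsto' 0 0 (mul_zero r)).mono_left nhdsWithin_le_nhds,
      eventually_mem_nhdsWithin.mono fun t ht => mul_nonneg hr ht⟩
  exact ⟨K * r ^ 2, (this.eventually h).mono fun t ht => ht.trans_eq (by ring)⟩

theorem lim (h : ν.Eqv c c') {t : ℝ} (ht : 0 ≤ t) :
    Tendsto (fun n : ℕ => n * ν.N ((c (t / n))⁻¹ * c' (t / n))) atTop (𝓝 0) := by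
  obtain ⟨K, h⟩ := h
  refine squeeze_zero' (Eventually.of_forall fun n => mul_nonneg n.cast_nonneg (ν.nonneg _)) ?_
    (tendsto_const_div_atTop_nhds_zero_nat (K * t ^ 2))
  filter_upwards [(hla_div ht).eventually h, eventually_gt_atTop 0] with n hn hn0
  have hn' : (0 : ℝ) < n := by exact_mod_cast hn0
  refine (mul_le_mul_of_nonneg_left hn hn'.le).trans_eq ?_
  field_simp

end

omit [T2Space G] [LocallyCompactSpace G] in
theorem mul_right (h : ν.Eqv c c') (φ : OP G) :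
    ν.Eqv (fun t => c t * φ.toFun t) fun t => c' t * φ.toFun t := by
  obtain ⟨K, h⟩ := h
  have hC : 0 < 1 / ν.C := by have := ν.one_le; positivity
  refine ⟨2 * K, ?_⟩
  filter_upwards [h, ν.hla_ev φ hC, R217.hla_ev (f := fun t => K * t ^ 2) (by fun_prop) (by simp) hC]
    with t h1 h2 h3
  have := ν.N_conj_le h2 (h1.trans h3)
  rw [mul_inv_rev, mul_assoc, ← mul_assoc (c t)⁻¹, ← mul_assoc]
  linarith

omit [T2Space G] [LocallyCompactSpace G] in
theorem comm (φ ψ : OP G) :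
    ν.Eqv (fun t => φ.toFun t * ψ.toFun t) fun t => ψ.toFun t * φ.toFun t := by
  have hC := ν.one_le
  have hC' : 0 < 1 / ν.C := by positivity
  refine ⟨ν.C * ν.nrm ψ * ν.nrm φ, ?_⟩
  filter_upwards [ν.hla_ev φ hC', ν.hla_ev ψ hC'] with t h1 h2
  rw [mul_inv_rev, ← mul_assoc]
  refine (ν.comm _ _ h2 h1).trans ((mul_le_mul (mul_le_mul_of_nonneg_left (ν.le_nrm ψ t)
    (by positivity)) (ν.le_nrm φ t) (ν.nonneg _) (by have := ν.nrm_nonneg ψ; positivity)).trans_eq ?_)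
  rw [← sq_abs]
  ring

omit [LocallyCompactSpace G] in
theorem eq {φ ψ : OP G} (h : ν.Eqv φ.toFun ψ.toFun) : φ = ψ := by
  obtain ⟨C, δ, -, hδ, hp⟩ := ν.hla_pd
  have h1 : ∀ t, 0 ≤ t → φ.toFun t = ψ.toFun t := fun t ht => by
    obtain ⟨m, ⟨h2, h3⟩, hm⟩ := (((hla_div ht).eventually
      ((R217.hla_ev (continuous_const_mul (ν.nrm φ)) (mul_zero _) hδ).and
        (R217.hla_ev (continuous_const_mul (ν.nrm ψ)) (mul_zero _) hδ))).and
      (eventually_gt_atTop 0)).exists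
    have ht' : 0 ≤ t / m := by positivity
    have h4 := ge_of_tendsto ((h.lim ht').const_mul C)
      ((eventually_gt_atTop 0).mono fun n hn => (hp φ ψ _ ht' h2 h3 n hn).1)
    rw [mul_zero] at h4
    rw [← φ.hla_pow_div t hm, ← ψ.hla_pow_div t hm,
      inv_mul_eq_one.1 (ν.eq_one_of_N (h4.antisymm (ν.nonneg _)))]
  ext t
  rcases le_total 0 t with ht | ht
  · exact h1 t ht
  · rw [← neg_neg t, φ.hla_neg, ψ.hla_neg, h1 _ (neg_nonneg.2 ht)]

end Eqv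

theorem exists_add : ∃ C δ : ℝ, 1 ≤ C ∧ 0 < δ ∧ ∀ φ ψ : OP G, ∃ θ : OP G,
    ν.nrm θ ≤ ν.nrm φ + ν.nrm ψ ∧ ∀ t, 0 ≤ t → ν.nrm φ * t ≤ δ → ν.nrm ψ * t ≤ δ →
      ν.N ((θ.toFun t)⁻¹ * (φ.toFun t * ψ.toFun t)) ≤ C * (ν.nrm φ * t) * (ν.nrm ψ * t) := by
  obtain ⟨C, δ, hC, hδ, h⟩ := ν.pow_mul_dist
  refine ⟨C, δ, hC, hδ, fun φ ψ => ?_⟩
  have hφ := ν.nrm_nonneg φ
  have hψ := ν.nrm_nonneg ψ
  obtain ⟨θ, hθ⟩ := ν.exists_limit (hyperfilter ℕ) (fun n => φ.toFun (1 / n) * ψ.toFun (1 / n)) id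
    Nat.hyperfilter_le_atTop (B := ν.nrm φ + ν.nrm ψ) (Eventually.of_forall fun n => by
      have := mul_le_mul_of_nonneg_left (ν.N_mul (φ.toFun (1 / n)) (ψ.toFun (1 / n)))
        (n.cast_nonneg (α := ℝ))
      have h1 := ν.nat_mul_le_nrm φ zero_le_one n
      have h2 := ν.nat_mul_le_nrm ψ zero_le_one n
      simp only [id]
      linarith)
  refine ⟨θ, ν.nrm_le (by positivity) fun t => (hθ t).2, fun t ht h1 h2 => ?_⟩
  have h3 := (hla_floor ht).mono_left Nat.hyperfilter_le_atTop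
  refine le_of_tendsto' ((ν.continuous_N.tendsto _).comp ((hθ t).1.inv.mul
    (((φ.cont.tendsto t).comp h3).mul ((ψ.cont.tendsto t).comp h3)))) fun n => ?_
  have h4 : ∀ χ : OP G, (⌊t * n⌋₊ : ℝ) * ν.N (χ.toFun (1 / n)) ≤ ν.nrm χ * t := fun χ =>
    (ν.mul_le_nrm χ (by positivity) (by positivity)).trans
      (mul_le_mul_of_nonneg_left (hla_floor_le ht n) (ν.nrm_nonneg χ))
  have h5 := h _ _ _ ((h4 φ).trans h1) ((h4 ψ).trans h2)
  simp only [Function.comp_apply, id]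
  rw [← Int.natCast_floor_eq_floor (by positivity), zpow_natCast, ← φ.hla_pow, ← ψ.hla_pow]
  exact h5.trans (mul_le_mul (mul_le_mul_of_nonneg_left (h4 φ) (by positivity)) (h4 ψ)
    (mul_nonneg (by positivity) (ν.nonneg _)) (by positivity))

/-- the Lie algebra -/
def LT (_ : GN G) : Type u := OP G

theorem hla_spec : 1 ≤ ν.exists_add.choose ∧ 0 < ν.exists_add.choose_spec.choose ∧
    ∀ φ ψ : OP G, ∃ θ : OP G, ν.nrm θ ≤ ν.nrm φ + ν.nrm ψ ∧ ∀ t, 0 ≤ t →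
      ν.nrm φ * t ≤ ν.exists_add.choose_spec.choose →
      ν.nrm ψ * t ≤ ν.exists_add.choose_spec.choose →
      ν.N ((θ.toFun t)⁻¹ * (φ.toFun t * ψ.toFun t)) ≤
        ν.exists_add.choose * (ν.nrm φ * t) * (ν.nrm ψ * t) :=
  ν.exists_add.choose_spec.choose_spec

noncomputable instance hlaAdd : Add ν.LT := ⟨fun φ ψ => (ν.hla_spec.2.2 φ ψ).choose⟩

instance hlaZero : Zero ν.LT := ⟨⟨fun _ => 1, continuous_const, fun _ _ => (mul_one _).symm⟩⟩

instance hlaSMul : SMul ℝ ν.LT := ⟨fun c φ => ⟨fun t => φ.toFun (c * t),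
  φ.cont.comp (continuous_const_mul c), fun s t => by rw [mul_add, φ.add]⟩⟩

instance hlaNeg : Neg ν.LT := ⟨fun φ => (-1 : ℝ) • φ⟩

theorem hla_eqv (φ ψ : ν.LT) : ν.Eqv (φ + ψ).toFun fun t => φ.toFun t * ψ.toFun t := by
  refine ⟨ν.exists_add.choose * ν.nrm φ * ν.nrm ψ, ?_⟩
  filter_upwards [R217.hla_ev (continuous_const_mul (ν.nrm φ)) (mul_zero _) ν.hla_spec.2.1,
    R217.hla_ev (continuous_const_mul (ν.nrm ψ)) (mul_zero _) ν.hla_spec.2.1,
    self_mem_nhdsWithin] with t h1 h2 h3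
  exact ((ν.hla_spec.2.2 φ ψ).choose_spec.2 t h3 h1 h2).trans_eq (by ring)

theorem hla_add_eq {φ ψ θ : ν.LT} (h : ν.Eqv (fun t => φ.toFun t * ψ.toFun t) θ.toFun) :
    φ + ψ = θ := ((ν.hla_eqv φ ψ).trans h).eq

noncomputable instance hlaGrp : AddCommGroup ν.LT :=
  { AddGroup.ofLeftAxioms
      (fun φ ψ χ => ν.hla_add_eq (((ν.hla_eqv φ ψ).mul_right χ).trans
        ((Eqv.of_eq fun _ => mul_assoc _ _ _).trans
          (((ν.hla_eqv ψ χ).symm.mul_left _).trans (ν.hla_eqv _ _).symm))))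
      (fun _ => ν.hla_add_eq (Eqv.of_eq fun _ => one_mul _))
      (fun φ => ν.hla_add_eq (Eqv.of_eq fun t => (φ.add (-1 * t) t).symm.trans
        ((congrArg φ.toFun (by ring)).trans φ.hla_zero))) with
    add_comm := fun φ ψ => ν.hla_add_eq ((Eqv.comm φ ψ).trans (ν.hla_eqv _ _).symm) }

theorem hla_smul_add {c : ℝ} (hc : 0 ≤ c) (φ ψ : ν.LT) : c • (φ + ψ) = c • φ + c • ψ :=
  (ν.hla_add_eq ((ν.hla_eqv φ ψ).scale hc).symm).symm

noncomputable instance hlaMod : Module ℝ ν.LT where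
  one_smul φ := OP.ext (funext fun t => congrArg φ.toFun (one_mul t))
  mul_smul a b φ := OP.ext (funext fun t => congrArg φ.toFun (by ring))
  smul_zero _ := rfl
  zero_smul φ := OP.ext (funext fun t => (congrArg φ.toFun (zero_mul t)).trans φ.hla_zero)
  add_smul a b φ := (ν.hla_add_eq (Eqv.of_eq fun t =>
    (φ.add (a * t) (b * t)).symm.trans (congrArg φ.toFun (add_mul a b t).symm))).symm
  smul_add c φ ψ := by
    rcases le_total 0 c with hc | hc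
    · exact ν.hla_smul_add hc φ ψ
    · have e : ∀ θ : ν.LT, c • θ = -(-c • θ) := fun θ =>
        OP.ext (funext fun t => congrArg θ.toFun (by ring))
      rw [e, e φ, e ψ, ν.hla_smul_add (neg_nonneg.2 hc), neg_add]

omit [T2Space G] [LocallyCompactSpace G] in
theorem nrm_smul_le (c : ℝ) (φ : ν.LT) : ν.nrm (c • φ) ≤ |c| * ν.nrm φ :=
  ν.nrm_le (mul_nonneg (abs_nonneg c) (ν.nrm_nonneg φ)) fun t =>
    (ν.le_nrm φ (c * t)).trans_eq (by rw [abs_mul]; ring)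

noncomputable instance hlaNacg : NormedAddCommGroup ν.LT :=
  AddGroupNorm.toNormedAddCommGroup
    { toFun := ν.nrm
      map_zero' := (ν.nrm_le le_rfl fun t => by rw [zero_mul]; exact ν.N_one.le).antisymm
        (ν.nrm_nonneg _)
      add_le' := fun φ ψ => (ν.hla_spec.2.2 φ ψ).choose_spec.1
      neg' := fun φ => by
        have h : ∀ θ : ν.LT, ν.nrm (-θ) ≤ ν.nrm θ := fun θ => by simpa using ν.nrm_smul_le (-1) θ
        exact (h φ).antisymm (by simpa using h (-φ))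
      eq_zero_of_map_eq_zero' := fun φ h => OP.ext (funext fun t => ν.eq_one_of_N
        (le_antisymm (by simpa [h] using ν.le_nrm φ t) (ν.nonneg _))) }

noncomputable instance hlaNsp : NormedSpace ℝ ν.LT where
  norm_smul_le := ν.nrm_smul_le

theorem hla_norm (φ : ν.LT) : ‖φ‖ = ν.nrm φ := rfl

theorem hla_lip : ∃ C δ : ℝ, 1 ≤ C ∧ 0 < δ ∧ ∀ x y : ν.LT, ‖x‖ ≤ δ → ‖y‖ ≤ δ →
    ν.N ((x.toFun 1)⁻¹ * y.toFun 1) ≤ C * ‖x - y‖ ∧
      ‖x - y‖ ≤ C * ν.N ((x.toFun 1)⁻¹ * y.toFun 1) := by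
  obtain ⟨C, δ, hC, hδ, hp⟩ := ν.hla_pd
  refine ⟨C, δ, hC, hδ, fun x y hx hy => ?_⟩
  have h1 := (ν.hla_eqv x (y - x)).lim zero_le_one
  have h2 := hp x y 1 zero_le_one (by rwa [mul_one]) (by rwa [mul_one])
  rw [add_sub_cancel] at h1
  rw [norm_sub_rev]
  generalize y - x = θ at h1 ⊢
  constructor
  · have h3 := (h1.const_add ‖θ‖).const_mul C
    rw [add_zero] at h3
    refine ge_of_tendsto h3 ((eventually_gt_atTop 0).mono fun n hn => (h2 n hn).1.trans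
      (mul_le_mul_of_nonneg_left ?_ (by positivity)))
    have h4 := mul_le_mul_of_nonneg_left (ν.hla_tri (x.toFun (1 / n))
      (x.toFun (1 / n) * θ.toFun (1 / n)) (y.toFun (1 / n))) (n.cast_nonneg (α := ℝ))
    rw [inv_mul_cancel_left, ν.hla_symm (_ * _)] at h4
    linarith [ν.nat_mul_le_nrm θ zero_le_one n, ν.hla_norm θ]
  · have h3 := h1.const_add (C * ν.N ((x.toFun 1)⁻¹ * y.toFun 1))
    rw [add_zero] at h3
    refine ν.nrm_le_of_seq (mul_nonneg (by positivity) (ν.nonneg _)) h3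
      ((eventually_gt_atTop 0).mono fun n hn => ?_)
    have h4 := mul_le_mul_of_nonneg_left (ν.hla_tri (x.toFun (1 / n)) (y.toFun (1 / n))
      (x.toFun (1 / n) * θ.toFun (1 / n))) (n.cast_nonneg (α := ℝ))
    rw [inv_mul_cancel_left] at h4
    linarith [(h2 n hn).2]

theorem hla_fd : FiniteDimensional ℝ ν.LT := by
  obtain ⟨C, δ, hC, hδ, h⟩ := ν.hla_lip
  refine FiniteDimensional.of_isCompact_closedBall₀ ℝ hδ (IsSeqCompact.isCompact fun x hx => ?_)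
  simp only [mem_closedBall_zero_iff] at hx ⊢
  obtain ⟨φ, hφ⟩ := ν.exists_limit (hyperfilter ℕ) (fun n => (x n).toFun (1 / n)) id
    Nat.hyperfilter_le_atTop (B := δ) (Eventually.of_forall fun n =>
      (ν.nat_mul_le_nrm (x n) zero_le_one n).trans (by rw [mul_one]; exact hx n))
  have h1 : ‖(show ν.LT from φ)‖ ≤ δ := ν.nrm_le hδ.le fun t => (hφ t).2
  refine ⟨φ, h1, MapClusterPt.tendsto_subseq
    (mapClusterPt_iff_ultrafilter.2 ⟨hyperfilter ℕ, Nat.hyperfilter_le_atTop, ?_⟩)⟩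
  have h2 : Tendsto (fun n => (x n).toFun 1) (hyperfilter ℕ) (𝓝 (φ.toFun 1)) :=
    (hφ 1).1.congr' (((eventually_gt_atTop 0).filter_mono Nat.hyperfilter_le_atTop).mono
      fun n hn => by
        simp only [id, one_mul, Int.floor_natCast, zpow_natCast]
        exact (x n).hla_pow_div 1 hn)
  have h3 := (ν.tendsto_iff.1 h2).const_mul C
  rw [mul_zero] at h3
  exact tendsto_iff_norm_sub_tendsto_zero.2 (squeeze_zero (fun _ => norm_nonneg _)
    (fun n => (norm_sub_rev _ _).trans_le (h φ (x n) h1 (hx n)).2) h3)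

end GN

/-- `L = OP G` (a type synonym).  `‖φ‖ = sup_{t > 0} N (φ t) / t` is finite (`escape`: for small `t`, `n = ⌊t₀ / t⌋`; if
`n N (φ t) > 1/C` take the largest `n' ≤ n` with `n' N (φ t) ≤ 1/C` and contradict `N (φ s) < 1/(2 C²)` for `s ≤ t₀`), so
`N (φ t) ≤ ‖φ‖ |t|`, and `‖φ‖ = lim_{t → 0+} N (φ t)/t` is not needed.  `(c • φ) t = φ (c t)`;
`φ + ψ` is the limit (`GN.exists_limit`, `𝒰 = hyperfilter ℕ`) of `g n = φ (1/n) ψ (1/n)`.  Key characterisation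
(from `pow_dist`, `pow_mul_dist` in the limit, and uniqueness): `θ = φ + ψ` iff `N (θ(t)⁻¹ φ(t) ψ(t)) / t → 0` as
`t → 0+`, indeed `≤ C ‖φ‖ ‖ψ‖ t²` (limit of `pow_mul_dist`); two one-parameter groups with `N (θ(t)⁻¹ θ'(t)) = o(t)` coincide
(`pow_dist`).  The module axioms follow from the characterisation and `comm`.  For small `φ, ψ`,
`N (φ(1)⁻¹ ψ(1)) ≍ n N (φ(1/n)⁻¹ ψ(1/n)) = n N ((ψ - φ)(1/n)) + O(1/n)`, and `n N (θ(1/n)) ≤ ‖θ‖`,
`sup_n n N (θ (1/n)) ≥ N (θ t)/t - o(1)` by subadditivity: `lip`, `anti`.  Finite dimension: the closed ball of radius `ε` is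
compact (ultrafilter limits of `φ_a t` pointwise give a one-parameter group `φ` with `‖φ‖ ≤ ε`, and `anti` turns
`φ_a 1 → φ 1` into norm convergence), `FiniteDimensional.of_isCompact_closedBall₀`. -/
theorem exists_LA (ν : GN G) : Nonempty (LieA ν) := by
  obtain ⟨C, δ, hC, hδ, h⟩ := ν.hla_lip
  obtain ⟨hC', hδ', -⟩ := ν.hla_spec
  have := ν.hla_fd
  exact ⟨{
    L := ν.LT
    exp := fun x => x.toFun 1
    C := max C ν.exists_add.choose
    ε := min δ ν.exists_add.choose_spec.choose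
    one_le := le_max_of_le_left hC
    ε_pos := lt_min hδ hδ'
    exp_add := fun s t x => (congrArg x.toFun (add_mul s t 1)).trans (x.add _ _)
    N_le := fun x => (ν.le_nrm x 1).trans_eq (by rw [abs_one, mul_one]; rfl)
    lip := fun x y hx hy => (h x y (hx.trans (min_le_left _ _)) (hy.trans (min_le_left _ _))).1.trans
      (mul_le_mul_of_nonneg_right (le_max_left _ _) (norm_nonneg _))
    anti := fun x y hx hy => (h x y (hx.trans (min_le_left _ _)) (hy.trans (min_le_left _ _))).2.trans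
      (mul_le_mul_of_nonneg_right (le_max_left _ _) (ν.nonneg _))
    c11 := fun x y hx hy => by
      have h1 := (ν.hla_spec.2.2 x y).choose_spec.2 1 zero_le_one
        (by rw [mul_one]; exact hx.trans (min_le_right _ _))
        (by rw [mul_one]; exact hy.trans (min_le_right _ _))
      rw [mul_one, mul_one] at h1
      exact h1.trans (mul_le_mul_of_nonneg_right (mul_le_mul_of_nonneg_right (le_max_right _ _)
        (norm_nonneg x)) (norm_nonneg y))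
    all := fun φ => ⟨φ, fun t => congrArg φ.toFun (mul_one t).symm⟩ }⟩

end Crest.Agent.R217
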