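import Crest.Agent.R217.HAd
import Crest.Agent.R217.HDexp

/-! Row 217, task `R217/HSmooth`: the group law is smooth in exponential coordinates. -/

set_option autoImplicit false
set_option linter.unusedSectionVars false

namespace Crest.Agent.R217

open Filter Topology
open scoped ContDiff

universe u

variable {G : Type u} [Group G] [TopologicalSpace G] [IsTopologicalGroup G] [T2Space G]
  [LocallyCompactSpace G] {ν : GN G} (Λ : LieA ν)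

namespace LieA

section Aux

open Asymptotics

variable {P : Type u} [NormedAddCommGroup P] [NormedSpace ℝ P]

/-- first order contact at `0` in the Gleason metric -/
def hsm_Near (ν : GN G) (f g : P → G) : Prop :=
  (fun h => ν.N ((f h)⁻¹ * g h)) =o[𝓝 0] fun h => h

omit [IsTopologicalGroup G] [T2Space G] [LocallyCompactSpace G] [NormedSpace ℝ P] in
theorem hsm_of_le {f g : P → G} {b : P → ℝ} (hb : b =o[𝓝 0] fun h => h)
    (h : ∀ᶠ x in 𝓝 0, ν.N ((f x)⁻¹ * g x) ≤ b x) : hsm_Near ν f g := by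
  refine IsBigO.trans_isLittleO (IsBigO.of_bound' ?_) hb
  filter_upwards [h] with x hx
  rw [Real.norm_of_nonneg (ν.nonneg _)]
  exact hx.trans (le_abs_self _)

omit [IsTopologicalGroup G] [T2Space G] [LocallyCompactSpace G] [NormedSpace ℝ P] in
theorem hsm_Near.symm {f g : P → G} (h : hsm_Near ν f g) : hsm_Near ν g f :=
  hsm_of_le h (Eventually.of_forall fun x => by
    rw [← ν.N_inv, mul_inv_rev, inv_inv])

omit [IsTopologicalGroup G] [T2Space G] [LocallyCompactSpace G] [NormedSpace ℝ P] in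
theorem hsm_Near.trans {f g k : P → G} (h : hsm_Near ν f g) (h' : hsm_Near ν g k) :
    hsm_Near ν f k :=
  hsm_of_le (IsLittleO.add h h') (Eventually.of_forall fun x => by
    have := ν.N_mul ((f x)⁻¹ * g x) ((g x)⁻¹ * k x)
    rwa [mul_assoc, mul_inv_cancel_left] at this)

omit [IsTopologicalGroup G] [T2Space G] [LocallyCompactSpace G] [NormedSpace ℝ P] in
theorem hsm_Near.mul_left {f g : P → G} (h : hsm_Near ν f g) (k : P → G) :
    hsm_Near ν (fun x => k x * f x) (fun x => k x * g x) :=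
  hsm_of_le h (Eventually.of_forall fun x => by
    rw [mul_inv_rev, mul_assoc, inv_mul_cancel_left])

omit [IsTopologicalGroup G] [T2Space G] [LocallyCompactSpace G] [NormedSpace ℝ P] in
theorem hsm_Near.mul_right {f g : P → G} (h : hsm_Near ν f g) {k : P → G}
    (hk : ∀ᶠ x in 𝓝 0, ν.N (k x) ≤ 1 / ν.C) :
    hsm_Near ν (fun x => f x * k x) (fun x => g x * k x) := by
  have h0 : Tendsto (fun x => ν.N ((f x)⁻¹ * g x)) (𝓝 0) (𝓝 0) :=
    IsLittleO.trans_tendsto h tendsto_id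
  have hC : 0 < 1 / ν.C := one_div_pos.2 (lt_of_lt_of_le one_pos ν.one_le)
  refine hsm_of_le (IsLittleO.const_mul_left h 2) ?_
  filter_upwards [hk, h0.eventually (ge_mem_nhds hC)] with x h1 h2
  have := ν.N_conj_le h1 h2
  rwa [show (k x)⁻¹ * ((f x)⁻¹ * g x) * k x = (f x * k x)⁻¹ * (g x * k x) by group] at this

theorem hsm_small (a : P →L[ℝ] Λ.L) {δ : ℝ} (hδ : 0 < δ) : ∀ᶠ h in 𝓝 (0 : P), ‖a h‖ ≤ δ := by
  have : Tendsto (fun h => ‖a h‖) (𝓝 0) (𝓝 0) := by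
    simpa using (a.continuous.norm.tendsto 0)
  exact this.eventually (ge_mem_nhds hδ)

theorem hsm_small' (a : P →L[ℝ] Λ.L) {z : Λ.L} {δ : ℝ} (hδ : ‖z‖ < δ) :
    ∀ᶠ h in 𝓝 (0 : P), ‖z + a h‖ ≤ δ := by
  have : Tendsto (fun h => ‖z + a h‖) (𝓝 0) (𝓝 ‖z‖) := by
    simpa using ((continuous_const.add a.continuous).norm.tendsto 0)
  exact this.eventually (ge_mem_nhds hδ)

theorem hsm_quad (a b : P →L[ℝ] Λ.L) (C : ℝ) :
    (fun h => C * ‖a h‖ * ‖b h‖) =o[𝓝 0] fun h => h := by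
  have h1 : (fun h => ‖a h‖ * ‖b h‖) =O[𝓝 0] fun h : P => ‖h‖ * ‖h‖ :=
    (a.isBigO_id _).norm_norm.mul (b.isBigO_id _).norm_norm
  have h2 : (fun h : P => ‖h‖ * ‖h‖) =o[𝓝 0] fun h => h := by
    simpa [pow_two] using isLittleO_norm_pow_id (E' := P) one_lt_two
  simpa [mul_assoc] using (h1.trans_isLittleO h2).const_mul_left C

theorem hsm_c11 (a b : P →L[ℝ] Λ.L) :
    hsm_Near ν (fun h => Λ.exp (a h + b h)) (fun h => Λ.exp (a h) * Λ.exp (b h)) := by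
  refine hsm_of_le (Λ.hsm_quad a b Λ.C) ?_
  filter_upwards [Λ.hsm_small a Λ.ε_pos, Λ.hsm_small b Λ.ε_pos] with h h1 h2
  exact Λ.c11 _ _ h1 h2

theorem hsm_dexp {ad : Λ.L →L[ℝ] (Λ.L →L[ℝ] Λ.L)} {C δ : ℝ} (hδ : 0 < δ)
    (H : ∀ z u : Λ.L, ‖z‖ ≤ δ → ‖u‖ ≤ δ →
      ν.N ((Λ.exp (z + u))⁻¹ * (Λ.exp z * Λ.exp (Om (ad z) u))) ≤ C * ‖u‖ ^ 2)
    {z : Λ.L} (hz : ‖z‖ ≤ δ) (a : P →L[ℝ] Λ.L) :
    hsm_Near ν (fun h => Λ.exp (z + a h)) (fun h => Λ.exp z * Λ.exp (Om (ad z) (a h))) := by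
  refine hsm_of_le (Λ.hsm_quad a a C) ?_
  filter_upwards [Λ.hsm_small a hδ] with h h1
  have := H z (a h) hz h1
  rwa [pow_two, ← mul_assoc C] at this

/-- the derivative of the group law -/
noncomputable def hsm_Θ (ad : Λ.L →L[ℝ] (Λ.L →L[ℝ] Λ.L)) (q : (Λ.L × Λ.L) × Λ.L) :
    (Λ.L × Λ.L) →L[ℝ] Λ.L :=
  (Ring.inverse (Om (ad q.2))).comp
    (((NormedSpace.exp (ad (-q.1.2))).comp (Om (ad q.1.1))).comp (ContinuousLinearMap.fst ℝ _ _) +
      (Om (ad q.1.2)).comp (ContinuousLinearMap.snd ℝ _ _))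

theorem hsm_contDiffOn_Θ (ad : Λ.L →L[ℝ] (Λ.L →L[ℝ] Λ.L)) (S : Set (Λ.L × Λ.L)) :
    ContDiffOn ℝ ∞ (Λ.hsm_Θ ad) (S ×ˢ {z | IsUnit (Om (ad z))}) := by
  have : CompleteSpace Λ.L := FiniteDimensional.complete ℝ _
  intro q hq
  refine ContDiffAt.contDiffWithinAt ?_
  have hO : ContDiff ℝ ∞ fun z : Λ.L => Om (ad z) := contDiff_Om.comp ad.contDiff
  have hE : ContDiff ℝ ∞ (NormedSpace.exp : (Λ.L →L[ℝ] Λ.L) → (Λ.L →L[ℝ] Λ.L)) :=
    contDiff_iff_contDiffAt.2 fun A => (NormedSpace.exp_analytic (𝕂 := ℝ) A).contDiffAt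
  obtain ⟨u, hu⟩ : IsUnit (Om (ad q.2)) := hq.2
  have h1 : ContDiffAt ℝ ∞ (fun q : (Λ.L × Λ.L) × Λ.L => Ring.inverse (Om (ad q.2))) q := by
    refine ContDiffAt.comp (g := Ring.inverse) q ?_ (hO.comp contDiff_snd).contDiffAt
    rw [← hu]
    exact contDiffAt_ringInverse ℝ u
  refine h1.clm_comp (ContDiff.contDiffAt ?_)
  exact (((hE.comp (ad.contDiff.comp (contDiff_snd.comp contDiff_fst).neg)).clm_comp
    (hO.comp (contDiff_fst.comp contDiff_fst))).clm_comp contDiff_const).add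
    ((hO.comp (contDiff_snd.comp contDiff_fst)).clm_comp contDiff_const)

theorem hsm_near {Ad : G →* (Λ.L →L[ℝ] Λ.L)} {ad : Λ.L →L[ℝ] (Λ.L →L[ℝ] Λ.L)}
    (h1 : ∀ g x, g * Λ.exp x * g⁻¹ = Λ.exp (Ad g x))
    (h2 : ∀ x, Ad (Λ.exp x) = NormedSpace.exp (ad x)) {C δ : ℝ} (hδ : 0 < δ)
    (H : ∀ z u : Λ.L, ‖z‖ ≤ δ → ‖u‖ ≤ δ →
      ν.N ((Λ.exp (z + u))⁻¹ * (Λ.exp z * Λ.exp (Om (ad z) u))) ≤ C * ‖u‖ ^ 2)
    {x y z : Λ.L} (hx : ‖x‖ ≤ δ) (hy : ‖y‖ ≤ δ) (hy' : ‖y‖ < 1 / ν.C) (hz : ‖z‖ ≤ δ)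
    (hu : IsUnit (Om (ad z))) (hxy : Λ.exp x * Λ.exp y = Λ.exp z) :
    hsm_Near ν (fun h : Λ.L × Λ.L => Λ.exp (x + h.1) * Λ.exp (y + h.2))
      (fun h => Λ.exp (z + Λ.hsm_Θ ad ((x, y), z) h)) := by
  have s1 := (Λ.hsm_dexp hδ H hx (ContinuousLinearMap.fst ℝ Λ.L Λ.L)).mul_right
    (k := fun h => Λ.exp (y + h.2))
    ((Λ.hsm_small' (ContinuousLinearMap.snd ℝ Λ.L Λ.L) hy').mono fun h hh =>
      (Λ.N_le _).trans hh)
  have s2 := (Λ.hsm_dexp hδ H hy (ContinuousLinearMap.snd ℝ Λ.L Λ.L)).mul_left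
    (fun h => Λ.exp x * Λ.exp (Om (ad x) h.1))
  have s3 := (Λ.hsm_c11
    (((NormedSpace.exp (ad (-y))).comp (Om (ad x))).comp (ContinuousLinearMap.fst ℝ Λ.L Λ.L))
    ((Om (ad y)).comp (ContinuousLinearMap.snd ℝ Λ.L Λ.L))).symm.mul_left fun _ => Λ.exp z
  have s4 := (Λ.hsm_dexp hδ H hz (Λ.hsm_Θ ad ((x, y), z))).symm
  refine (s1.trans s2).trans (hsm_Near.trans ?_ s4)
  convert s3 using 2 with h h
  · simp only [ContinuousLinearMap.comp_apply, ContinuousLinearMap.coe_fst',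
      ContinuousLinearMap.coe_snd']
    rw [← h2, ← h1, Λ.exp_neg, ← hxy]
    group
  · congr 2
    have := Ring.mul_inverse_cancel _ hu
    rw [hsm_Θ, ContinuousLinearMap.comp_apply, ← mul_apply_eq_comp, this]
    rfl

end Aux

/-- `m (x, y) = e (exp x * exp y)`.  For small `x, y` and increments `u, v`, by `dexp` (and `GN.N_conj_le` to move
errors past small elements),
`exp (x+u) exp (y+v) = exp x exp y · exp (Ad (exp y)⁻¹ Om (ad x) u) exp (Om (ad y) v) · O(|u|²+|v|²)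
 = exp z · exp w · O(..)`, `z = m (x,y)`, `w = exp (-(ad y)) Om (ad x) u + Om (ad y) v` (`c11`), and
`exp z exp w = exp (z + (Om (ad z))⁻¹ w) · O(|w|²)` (`dexp`; `Om (ad z)` is invertible for small `z`, use `Ring.inverse`).  `anti` gives
`HasFDerivAt m (Θ ((x,y), z))` with `Θ` smooth (`contDiff_Om`, `contDiffAt_ringInverse`, `NormedSpace.exp_analytic`);
`contDiffOn_of_fderiv`. -/
theorem smooth_mul (e : OpenPartialHomeomorph G Λ.L) (h1 : (1 : G) ∈ e.source) (h0 : e 1 = 0)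
    (he : ∀ x, e.symm x = Λ.exp x) (hε : ∀ x ∈ e.target, ‖x‖ ≤ Λ.ε) :
    ∃ r : ℝ, 0 < r ∧ ContDiffOn ℝ ∞ (fun p : Λ.L × Λ.L => e (Λ.exp p.1 * Λ.exp p.2))
      (Metric.ball 0 r ×ˢ Metric.ball 0 r) := by
  have : CompleteSpace Λ.L := FiniteDimensional.complete ℝ _
  obtain ⟨Ad, ad, hA1, hA2⟩ := Λ.exists_Ad
  obtain ⟨C, δ, -, hδ, H⟩ := Λ.dexp Ad ad hA1 hA2
  have hc : Continuous fun p : Λ.L × Λ.L => Λ.exp p.1 * Λ.exp p.2 :=
    (Λ.continuous_exp.comp continuous_fst).mul (Λ.continuous_exp.comp continuous_snd)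
  have hc0 : Tendsto (fun p : Λ.L × Λ.L => Λ.exp p.1 * Λ.exp p.2) (𝓝 0) (𝓝 1) := by
    simpa [Λ.exp_zero] using hc.tendsto 0
  have hm0 : Tendsto (fun p : Λ.L × Λ.L => e (Λ.exp p.1 * Λ.exp p.2)) (𝓝 0) (𝓝 0) := by
    have := (e.continuousAt h1).tendsto.comp hc0
    rwa [h0] at this
  have hC : 0 < 1 / ν.C := one_div_pos.2 (lt_of_lt_of_le one_pos ν.one_le)
  have hU : {z : Λ.L | IsUnit (Om (ad z))} ∈ 𝓝 (0 : Λ.L) := by
    refine (Units.isOpen.preimage (contDiff_Om.continuous.comp ad.continuous)).mem_nhds ?_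
    simp [Om_zero]
  have hev : ∀ᶠ p : Λ.L × Λ.L in 𝓝 0, (‖p.1‖ ≤ δ ∧ ‖p.2‖ ≤ δ ∧ ‖p.2‖ < 1 / ν.C) ∧
      Λ.exp p.1 * Λ.exp p.2 ∈ e.source ∧ ‖e (Λ.exp p.1 * Λ.exp p.2)‖ < min δ Λ.ε ∧
      IsUnit (Om (ad (e (Λ.exp p.1 * Λ.exp p.2)))) := by
    have i1 : Tendsto (fun p : Λ.L × Λ.L => ‖p.2‖) (𝓝 0) (𝓝 0) := by
      simpa using (continuous_snd (X := Λ.L) (Y := Λ.L)).norm.tendsto 0
    have i2 : Tendsto (fun p : Λ.L × Λ.L => ‖e (Λ.exp p.1 * Λ.exp p.2)‖) (𝓝 0) (𝓝 0) := by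
      simpa using hm0.norm
    exact ((Λ.hsm_small (ContinuousLinearMap.fst ℝ Λ.L Λ.L) hδ).and
      ((Λ.hsm_small (ContinuousLinearMap.snd ℝ Λ.L Λ.L) hδ).and
        (i1.eventually (gt_mem_nhds hC)))).and
      ((hc0.eventually (e.open_source.mem_nhds h1)).and
        ((i2.eventually (gt_mem_nhds (lt_min hδ Λ.ε_pos))).and (hm0.eventually hU)))
  obtain ⟨r, hr, hb⟩ := Metric.eventually_nhds_iff_ball.1 hev
  refine ⟨r, hr, ?_⟩
  rw [ball_prod_same]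
  refine contDiffOn_of_fderiv Metric.isOpen_ball (T := {z | IsUnit (Om (ad z))})
    (fun p hp => (hb p hp).2.2.2) (Λ.hsm_contDiffOn_Θ ad _) fun p hp => ?_
  obtain ⟨⟨i1, i2, i3⟩, i4, i5, i6⟩ := hb p hp
  have i7 : Λ.exp p.1 * Λ.exp p.2 = Λ.exp (e (Λ.exp p.1 * Λ.exp p.2)) := by
    rw [← he (e _), e.left_inv i4]
  have key := Λ.hsm_near hA1 hA2 hδ H i1 i2 i3 (i5.le.trans (min_le_left _ _)) i6 i7
  rw [hasFDerivAt_iff_isLittleO_nhds_zero]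
  refine Asymptotics.IsBigO.trans_isLittleO (Asymptotics.IsBigO.of_bound Λ.C ?_) key
  have i8 : ∀ᶠ h : Λ.L × Λ.L in 𝓝 0, Λ.exp (p + h).1 * Λ.exp (p + h).2 ∈ e.source := by
    have : Tendsto (fun h : Λ.L × Λ.L => Λ.exp (p + h).1 * Λ.exp (p + h).2) (𝓝 0)
        (𝓝 (Λ.exp p.1 * Λ.exp p.2)) := by
      have i9 : Continuous fun h : Λ.L × Λ.L => Λ.exp (p + h).1 * Λ.exp (p + h).2 :=
        hc.comp (continuous_const.add continuous_id)
      simpa using i9.tendsto 0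
    exact this.eventually (e.open_source.mem_nhds i4)
  filter_upwards [i8, Λ.hsm_small' (Λ.hsm_Θ ad (p, e (Λ.exp p.1 * Λ.exp p.2)))
    (i5.trans_le (min_le_right _ _))] with h j1 j2
  have j3 := Λ.anti _ _ (hε _ (e.map_source j1)) j2
  rw [← he (e _), e.left_inv j1, ← sub_sub] at j3
  rw [Real.norm_of_nonneg (ν.nonneg _)]
  exact j3

end LieA

end Crest.Agent.R217
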