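import Crest.Agent.R217.HGle
import Crest.Agent.R217.HLA
import Crest.Agent.R217.HSmooth
import Crest.Agent.R217.HAtlas

/-! Row 217, task `R217/HAtlas` (second file): NSS groups are Lie groups. -/

set_option autoImplicit false

namespace Crest.Agent.R217

open Filter Topology
open scoped ContDiff Manifold

universe u

/-- `exists_GN`, `exists_LA`, `LieA.exists_log`, `LieA.smooth_mul`, `LieA.exists_Ad`; compose the logarithm with a
continuous linear equivalence `L ≃L EuclideanSpace ℝ (Fin (finrank ℝ L))` (`toEuclidean`) and apply `lieGroup_of_local`. -/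
theorem lieGroup_of_NSS {G : Type u} [Group G] [TopologicalSpace G] [IsTopologicalGroup G] [T2Space G]
    [SecondCountableTopology G] [LocallyCompactSpace G] (h : NSS G) :
    ∃ (d : ℕ) (c : ChartedSpace (EuclideanSpace ℝ (Fin d)) G),
      @LieGroup ℝ _ (EuclideanSpace ℝ (Fin d)) _ (EuclideanSpace ℝ (Fin d)) _ _
        𝓘(ℝ, EuclideanSpace ℝ (Fin d)) ∞ G _ _ c := by
  obtain ⟨ν⟩ := exists_GN h
  obtain ⟨Λ⟩ := exists_LA ν
  obtain ⟨e, h1, h0, he, hε⟩ := Λ.exists_log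
  obtain ⟨r, hr, hm⟩ := Λ.smooth_mul e h1 h0 he hε
  obtain ⟨Ad, -, hAd, -⟩ := Λ.exists_Ad
  let T : Λ.L ≃L[ℝ] EuclideanSpace ℝ (Fin (Module.finrank ℝ Λ.L)) := toEuclidean
  have hT : Tendsto T.symm (𝓝 0) (𝓝 0) := by simpa using T.symm.continuous.tendsto 0
  have ht : e.target ∈ 𝓝 (0 : Λ.L) := e.open_target.mem_nhds (h0 ▸ e.map_source h1)
  refine ⟨_, lieGroup_of_local' (e.transHomeomorph T.toHomeomorph) h1 (U := T.symm ⁻¹' Metric.ball 0 r)
    (show T (e 1) = 0 by rw [h0, map_zero]) (hT (Metric.ball_mem_nhds 0 hr)) ?_ ?_ fun g => ?_⟩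
  · have h2 : ContDiff ℝ ∞ fun p : EuclideanSpace ℝ (Fin (Module.finrank ℝ Λ.L)) ×
        EuclideanSpace ℝ (Fin (Module.finrank ℝ Λ.L)) => (T.symm p.1, T.symm p.2) := by fun_prop
    refine (T.contDiff.comp_contDiffOn (hm.comp h2.contDiffOn fun p hp => hp)).congr fun p _ => ?_
    change T (e (e.symm (T.symm p.1) * e.symm (T.symm p.2))) = _
    rw [he, he]
    rfl
  · have h2 : Tendsto (fun x => -T.symm x) (𝓝 0) (𝓝 0) := by simpa using hT.neg
    filter_upwards [h2 ht] with x hx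
    change T (e (e.symm (T.symm x))⁻¹) = _
    rw [he, ← Λ.exp_neg, ← he, e.right_inv hx, map_neg, T.apply_symm_apply]
  · have h2 : Tendsto (fun x => Ad g (T.symm x)) (𝓝 0) (𝓝 0) :=
      ((Ad g).continuous.tendsto' 0 0 (map_zero _)).comp hT
    refine ⟨(T : _ →L[ℝ] _) ∘L Ad g ∘L (T.symm : _ →L[ℝ] _), ?_⟩
    filter_upwards [h2 ht] with x hx
    change T (e (g * e.symm (T.symm x) * g⁻¹)) = T (Ad g (T.symm x))
    rw [he, hAd, ← he, e.right_inv hx]

end Crest.Agent.R217
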