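import Crest.Agent.R217.HPow

/-! Row 217, task `R217/HOpen`: the exponential map is a local homeomorphism at `0`. -/

set_option autoImplicit false

namespace Crest.Agent.R217

open Filter Topology

universe u

variable {G : Type u} [Group G] [TopologicalSpace G] [IsTopologicalGroup G] [T2Space G]
  {ν : GN G} (Λ : LieA ν)

namespace LieA

omit [IsTopologicalGroup G] [T2Space G] in
theorem exp_zero : Λ.exp 0 = 1 := by
  have := Λ.exp_add 0 0 0
  simp only [smul_zero] at this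
  exact mul_eq_left.1 this.symm

omit [IsTopologicalGroup G] [T2Space G] in
theorem exp_neg (x : Λ.L) : Λ.exp (-x) = (Λ.exp x)⁻¹ := by
  have := Λ.exp_add 1 (-1) x
  simp only [add_neg_cancel, zero_smul, one_smul, neg_smul, Λ.exp_zero] at this
  exact eq_inv_of_mul_eq_one_right this.symm

omit [IsTopologicalGroup G] [T2Space G] in
theorem exp_nsmul (n : ℕ) (x : Λ.L) : Λ.exp ((n : ℝ) • x) = Λ.exp x ^ n := by
  induction n with
  | zero => simp [Λ.exp_zero]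
  | succ n ih => rw [Nat.cast_succ, Λ.exp_add, ih, one_smul, pow_succ]

omit [T2Space G] in
/-- `lip` near `0`, and `exp x = exp (x / n) ^ n` -/
theorem continuous_exp : Continuous Λ.exp := by
  have h0 : ∀ x : Λ.L, ‖x‖ < Λ.ε → ContinuousAt Λ.exp x := by
    intro x hx
    refine ν.tendsto_iff.2 (squeeze_zero' (Eventually.of_forall fun _ => ν.nonneg _)
      (g := fun y => Λ.C * ‖x - y‖) ?_ ?_)
    · filter_upwards [(continuous_norm.tendsto x).eventually (gt_mem_nhds hx)] with y hy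
      exact Λ.lip x y hx.le hy.le
    · have : Continuous fun y : Λ.L => Λ.C * ‖x - y‖ := by fun_prop
      simpa using this.tendsto x
  refine continuous_iff_continuousAt.2 fun x => ?_
  obtain ⟨n, hn⟩ := exists_nat_gt (‖x‖ / Λ.ε)
  have hε := Λ.ε_pos
  have hn0 : (0 : ℝ) < n := lt_of_le_of_lt (by positivity) hn
  have e : Λ.exp = fun y => Λ.exp ((n : ℝ)⁻¹ • y) ^ n := by
    funext y
    rw [← Λ.exp_nsmul, smul_smul, mul_inv_cancel₀ hn0.ne', one_smul]
  rw [e]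
  refine ContinuousAt.pow (ContinuousAt.comp (g := Λ.exp) (h0 _ ?_) (by fun_prop)) n
  rw [norm_smul, norm_inv, Real.norm_natCast, inv_mul_lt_iff₀ hn0]
  rwa [div_lt_iff₀ hε] at hn

omit [IsTopologicalGroup G] [T2Space G] in
theorem ext_exp {x y : Λ.L} (h : ∀ t : ℝ, Λ.exp (t • x) = Λ.exp (t • y)) : x = y := by
  have hε := Λ.ε_pos
  have hx := norm_nonneg x
  have hy := norm_nonneg y
  have ht : 0 < Λ.ε / (‖x‖ + ‖y‖ + 1) := by positivity
  have ht' : Λ.ε / (‖x‖ + ‖y‖ + 1) * (‖x‖ + ‖y‖ + 1) = Λ.ε := by field_simp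
  generalize Λ.ε / (‖x‖ + ‖y‖ + 1) = t at ht ht'
  have := Λ.anti (t • x) (t • y) (by rw [norm_smul, Real.norm_of_nonneg ht.le]; nlinarith)
    (by rw [norm_smul, Real.norm_of_nonneg ht.le]; nlinarith)
  rw [h t, inv_mul_cancel, ν.N_one, mul_zero, norm_le_zero_iff, sub_eq_zero] at this
  exact smul_right_injective _ ht.ne' this

omit [IsTopologicalGroup G] [T2Space G] in
theorem hopen_norm_le {x : Λ.L} (hx : ‖x‖ ≤ Λ.ε) : ‖x‖ ≤ Λ.C * ν.N (Λ.exp x) := by
  have := Λ.anti 0 x (by simpa using Λ.ε_pos.le) hx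
  simpa [Λ.exp_zero] using this

omit [IsTopologicalGroup G] [T2Space G] in
theorem hopen_norm_le_of {y : Λ.L} {c : ℝ} (h : ∀ t : ℝ, ν.N (Λ.exp (t • y)) ≤ c * |t|) :
    ‖y‖ ≤ Λ.C * c := by
  have hε := Λ.ε_pos
  have hy := norm_nonneg y
  have ht : 0 < Λ.ε / (‖y‖ + 1) := by positivity
  have ht' : Λ.ε / (‖y‖ + 1) * (‖y‖ + 1) = Λ.ε := by field_simp
  generalize Λ.ε / (‖y‖ + 1) = t at ht ht'
  have h1 := Λ.hopen_norm_le (x := t • y) (by rw [norm_smul, Real.norm_of_nonneg ht.le]; nlinarith)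
  have h2 := mul_le_mul_of_nonneg_left (h t) (le_trans zero_le_one Λ.one_le)
  rw [norm_smul, Real.norm_of_nonneg ht.le] at h1
  rw [abs_of_pos ht] at h2
  refine le_of_mul_le_mul_left ?_ ht
  linarith

/-- **Hirschfeld's argument.**  Let `δ ≤ ε / 2`, `K = exp (closedBall 0 δ)` (compact).  If `K` is not a
neighbourhood of `1` pick `g a ∉ K`, `N (g a) → 0`; `x a ∈ closedBall 0 δ` minimising `ε a = N ((exp x)⁻¹ g a) > 0`;
`ε a ≤ N (g a) → 0`, `x a → 0` (`anti`).  `k a = (exp (x a))⁻¹ g a`, `n a = ⌊c / ε a⌋` (`c` small);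
`GN.exists_limit` and `all` give `y` with `k a ^ n a → exp y`, `‖y‖ ≤ c`-ish small (`anti` applied to `t • y`).  `pow_dist` for `k a` and
`exp (y / n a)`: `N (exp (y / n a)⁻¹ k a) = o(1 / n a) = o(ε a)`; `c11`: `exp (x a + y / n a)` is within
`C ‖x a‖ ‖y‖ / n a = o(ε a)` of `exp (x a) exp (y / n a)`.  So `g a` is within `o(ε a)` of `K`: contradiction. -/
theorem exp_ball_mem_nhds [LocallyCompactSpace G] {δ : ℝ} (hδ : 0 < δ) :
    Λ.exp '' Metric.ball 0 δ ∈ 𝓝 (1 : G) := by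
  have hε := Λ.ε_pos
  have hC1 := Λ.one_le
  have hC : 0 < Λ.C := lt_of_lt_of_le one_pos hC1
  obtain ⟨δ', hδ'0, hδ'1, hδ'2⟩ : ∃ δ' : ℝ, 0 < δ' ∧ δ' < δ ∧ δ' ≤ Λ.ε :=
    ⟨min (δ / 2) Λ.ε, by positivity, (min_le_left _ _).trans_lt (by linarith), min_le_right _ _⟩
  refine mem_of_superset (?_ : Λ.exp '' Metric.closedBall 0 δ' ∈ 𝓝 (1 : G))
    (Set.image_mono (Metric.closedBall_subset_ball hδ'1))
  by_contra hK
  have h1 : ∀ j : ℕ, ∃ g : G, ν.N g < 1 / ((j : ℝ) + 1) ∧ g ∉ Λ.exp '' Metric.closedBall 0 δ' := by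
    intro j
    by_contra hc
    push Not at hc
    exact hK (ν.basis.mem_iff.2 ⟨1 / ((j : ℝ) + 1), by positivity, fun g hg => hc g hg⟩)
  choose g hg hgK using h1
  have : ProperSpace Λ.L := FiniteDimensional.proper_real Λ.L
  have h2 : ∀ j, ∃ x ∈ Metric.closedBall (0 : Λ.L) δ', ∀ z ∈ Metric.closedBall (0 : Λ.L) δ',
      ν.N ((Λ.exp x)⁻¹ * g j) ≤ ν.N ((Λ.exp z)⁻¹ * g j) := by
    intro j
    obtain ⟨x, hx, h⟩ := (isCompact_closedBall (0 : Λ.L) δ').exists_isMinOn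
      (f := fun z => ν.N ((Λ.exp z)⁻¹ * g j)) ⟨0, Metric.mem_closedBall_self hδ'0.le⟩
      (ν.continuous_N.comp (Λ.continuous_exp.inv.mul continuous_const)).continuousOn
    exact ⟨x, hx, fun z hz => h hz⟩
  choose x hx hmin using h2
  set k : ℕ → G := fun j => (Λ.exp (x j))⁻¹ * g j with hk
  have hkpos : ∀ j, 0 < ν.N (k j) := by
    intro j
    refine lt_of_le_of_ne (ν.nonneg _) fun h => hgK j ⟨x j, hx j, ?_⟩
    exact inv_mul_eq_one.1 (ν.eq_one_of_N h.symm)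
  have hkg : ∀ j, ν.N (k j) ≤ ν.N (g j) := by
    intro j
    have := hmin j 0 (Metric.mem_closedBall_self hδ'0.le)
    rwa [Λ.exp_zero, inv_one, one_mul] at this
  have hU : (hyperfilter ℕ : Filter ℕ) ≤ atTop := Nat.hyperfilter_le_atTop
  have hg0 : Tendsto (fun j => ν.N (g j)) (hyperfilter ℕ) (𝓝 0) :=
    (squeeze_zero (fun j => ν.nonneg _) (fun j => (hg j).le)
      tendsto_one_div_add_atTop_nhds_zero_nat).mono_left hU
  have hk0 : Tendsto (fun j => ν.N (k j)) (hyperfilter ℕ) (𝓝 0) :=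
    squeeze_zero (fun j => ν.nonneg _) hkg hg0
  have hx0 : Tendsto (fun j => ‖x j‖) (hyperfilter ℕ) (𝓝 0) := by
    refine squeeze_zero (fun j => norm_nonneg _) (g := fun j => Λ.C * (2 * ν.N (g j)))
      (fun j => ?_) (by simpa using (hg0.const_mul 2).const_mul Λ.C)
    refine (Λ.hopen_norm_le ((mem_closedBall_zero_iff.1 (hx j)).trans hδ'2)).trans
      (mul_le_mul_of_nonneg_left ?_ hC.le)
    have a1 := ν.N_mul (g j) (k j)⁻¹
    rw [ν.N_inv, show g j * (k j)⁻¹ = Λ.exp (x j) by simp [hk]] at a1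
    linarith [hkg j]
  obtain ⟨C₁, δ₁, hC₁, hδ₁, H⟩ := ν.pow_dist
  set c : ℝ := δ₁ / Λ.C with hc
  have hc0 : 0 < c := by positivity
  have hc1 : c ≤ δ₁ := div_le_self hδ₁.le hC1
  have hc2 : Λ.C * c = δ₁ := by rw [hc]; field_simp
  set n : ℕ → ℕ := fun j => ⌊c / ν.N (k j)⌋₊ with hn
  have hn1 : ∀ j, n j * ν.N (k j) ≤ c := by
    intro j
    have := Nat.floor_le (a := c / ν.N (k j)) (div_pos hc0 (hkpos j)).le
    rwa [le_div_iff₀ (hkpos j)] at this
  have hn2 : ∀ j, c - ν.N (k j) ≤ n j * ν.N (k j) := by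
    intro j
    have := Nat.lt_floor_add_one (c / ν.N (k j))
    rw [div_lt_iff₀ (hkpos j)] at this
    linarith
  have hn3 : Tendsto n (hyperfilter ℕ) atTop := by
    refine tendsto_nat_floor_atTop.comp ?_
    have : Tendsto (fun j => ν.N (k j)) (hyperfilter ℕ) (𝓝[>] 0) :=
      tendsto_nhdsWithin_iff.2 ⟨hk0, Eventually.of_forall hkpos⟩
    simpa [div_eq_mul_inv] using (tendsto_inv_nhdsGT_zero.comp this).const_mul_atTop hc0
  have hn4 : Tendsto (fun j => (n j : ℝ)) (hyperfilter ℕ) atTop :=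
    tendsto_natCast_atTop_atTop.comp hn3
  obtain ⟨φ, hφ⟩ := ν.exists_limit (hyperfilter ℕ) k n hn3 (B := c) (Eventually.of_forall hn1)
  obtain ⟨y, hy⟩ := Λ.all φ
  have hy1 : ‖y‖ ≤ δ₁ := by
    rw [← hc2]
    exact Λ.hopen_norm_le_of fun t => hy t ▸ (hφ t).2
  have hlim : Tendsto (fun j => ν.N ((Λ.exp y)⁻¹ * k j ^ n j)) (hyperfilter ℕ) (𝓝 0) := by
    have := ν.tendsto_iff.1 (hφ 1).1
    simpa [hy] using this
  have hyn : Tendsto (fun j => ‖((n j : ℝ))⁻¹ • y‖) (hyperfilter ℕ) (𝓝 0) := by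
    have := (hn4.inv_tendsto_atTop.smul_const y).norm
    simpa using this
  have hsum := hx0.add hyn
  rw [add_zero] at hsum
  have key : ∀ᶠ j in hyperfilter ℕ, c - ν.N (k j) ≤
      Λ.C * ‖x j‖ * ‖y‖ + C₁ * ν.N ((Λ.exp y)⁻¹ * k j ^ n j) := by
    filter_upwards [hn4.eventually_gt_atTop 0, hsum.eventually (gt_mem_nhds hδ'0)] with j hj hs
    have hnorm : ‖((n j : ℝ))⁻¹ • y‖ = (n j : ℝ)⁻¹ * ‖y‖ := by
      rw [norm_smul, norm_inv, Real.norm_natCast]
    have a0 : n j * ν.N (Λ.exp ((n j : ℝ)⁻¹ • y)) ≤ δ₁ := by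
      have := mul_le_mul_of_nonneg_left (Λ.N_le ((n j : ℝ)⁻¹ • y)) hj.le
      rw [hnorm, ← mul_assoc, mul_inv_cancel₀ hj.ne', one_mul] at this
      linarith
    have a1 := (H (Λ.exp ((n j : ℝ)⁻¹ • y)) (k j) (n j) a0 ((hn1 j).trans hc1)).2
    rw [← Λ.exp_nsmul, smul_smul, mul_inv_cancel₀ hj.ne', one_smul] at a1
    have a2 := Λ.c11 (x j) ((n j : ℝ)⁻¹ • y) (by linarith [norm_nonneg ((n j : ℝ)⁻¹ • y)])
      (by linarith [norm_nonneg (x j)])
    have a3 := hmin j (x j + (n j : ℝ)⁻¹ • y)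
      (mem_closedBall_zero_iff.2 ((norm_add_le _ _).trans hs.le))
    have a4 := ν.N_mul ((Λ.exp (x j + (n j : ℝ)⁻¹ • y))⁻¹ * (Λ.exp (x j) * Λ.exp ((n j : ℝ)⁻¹ • y)))
      ((Λ.exp ((n j : ℝ)⁻¹ • y))⁻¹ * k j)
    rw [show (Λ.exp (x j + (n j : ℝ)⁻¹ • y))⁻¹ * (Λ.exp (x j) * Λ.exp ((n j : ℝ)⁻¹ • y)) *
      ((Λ.exp ((n j : ℝ)⁻¹ • y))⁻¹ * k j) = (Λ.exp (x j + (n j : ℝ)⁻¹ • y))⁻¹ * g j by
        simp only [hk]; group] at a4
    have a5 : ν.N (k j) ≤ Λ.C * ‖x j‖ * ((n j : ℝ)⁻¹ * ‖y‖) +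
        ν.N ((Λ.exp ((n j : ℝ)⁻¹ • y))⁻¹ * k j) := by
      rw [← hnorm]
      exact a3.trans (a4.trans (by linarith))
    have a6 := mul_le_mul_of_nonneg_left a5 hj.le
    have a7 : (n j : ℝ) * (Λ.C * ‖x j‖ * ((n j : ℝ)⁻¹ * ‖y‖)) = Λ.C * ‖x j‖ * ‖y‖ := by
      field_simp
    rw [mul_add, a7] at a6
    linarith [hn2 j]
  have l1 := hk0.const_sub c
  have l2 := ((hx0.const_mul Λ.C).mul_const ‖y‖).add (hlim.const_mul C₁)
  have := le_of_tendsto_of_tendsto l1 l2 key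
  simp only [sub_zero, mul_zero, zero_mul, add_zero] at this
  linarith

/-- the logarithm: an open partial homeomorphism with inverse `exp`.  On `ball 0 r` (`r` small) `exp` is
injective (`anti`) and open: near `x₀`, `g = exp x₀ * exp w = exp z` with `z` small ... (`exp_ball_mem_nhds` gives
`ρ` with `{N < ρ} ⊆ exp (ball 0 (ε/2))`; take source `{N < ρ}`, target `ball 0 ε ∩ exp ⁻¹' {N < ρ}`; continuity of
the inverse from `anti`). -/
theorem exists_log [LocallyCompactSpace G] : ∃ e : OpenPartialHomeomorph G Λ.L,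
    (1 : G) ∈ e.source ∧ e 1 = 0 ∧ (∀ x, e.symm x = Λ.exp x) ∧ ∀ x ∈ e.target, ‖x‖ ≤ Λ.ε := by
  have hε := Λ.ε_pos
  obtain ⟨ρ, hρ, hS⟩ := ν.basis.mem_iff.1 (Λ.exp_ball_mem_nhds hε)
  have hinj : Set.InjOn Λ.exp (Metric.ball 0 Λ.ε) := by
    intro x hx y hy e
    have := Λ.anti x y (mem_ball_zero_iff.1 hx).le (mem_ball_zero_iff.1 hy).le
    rwa [e, inv_mul_cancel, ν.N_one, mul_zero, norm_le_zero_iff, sub_eq_zero] at this
  have hm : ∀ g ∈ {g | ν.N g < ρ}, Function.invFunOn Λ.exp (Metric.ball 0 Λ.ε) g ∈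
      Metric.ball (0 : Λ.L) Λ.ε := fun g hg => Function.invFunOn_mem (hS hg)
  have he : ∀ g ∈ {g | ν.N g < ρ}, Λ.exp (Function.invFunOn Λ.exp (Metric.ball 0 Λ.ε) g) = g :=
    fun g hg => Function.invFunOn_eq (hS hg)
  refine ⟨{ toFun := Function.invFunOn Λ.exp (Metric.ball 0 Λ.ε)
            invFun := Λ.exp
            source := {g | ν.N g < ρ}
            target := Metric.ball 0 Λ.ε ∩ Λ.exp ⁻¹' {g | ν.N g < ρ}
            map_source' := fun g hg => ⟨hm g hg, by rw [Set.mem_preimage, he g hg]; exact hg⟩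
            map_target' := fun x hx => hx.2
            left_inv' := he
            right_inv' := fun x hx => hinj.leftInvOn_invFunOn hx.1
            open_source := isOpen_lt ν.continuous_N continuous_const
            open_target := Metric.isOpen_ball.inter
              ((isOpen_lt ν.continuous_N continuous_const).preimage Λ.continuous_exp)
            continuousOn_toFun := fun g₀ hg₀ => ?_
            continuousOn_invFun := Λ.continuous_exp.continuousOn }, ?_, ?_, fun _ => rfl,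
    fun x hx => (mem_ball_zero_iff.1 hx.1).le⟩
  · refine tendsto_iff_norm_sub_tendsto_zero.2 (squeeze_zero' (Eventually.of_forall
      fun _ => norm_nonneg _) (g := fun g => Λ.C * ν.N (g₀⁻¹ * g)) ?_ ?_)
    · filter_upwards [self_mem_nhdsWithin] with g hg
      have := Λ.anti _ _ (mem_ball_zero_iff.1 (hm g₀ hg₀)).le (mem_ball_zero_iff.1 (hm g hg)).le
      rwa [he g₀ hg₀, he g hg, norm_sub_rev] at this
    · have := (ν.tendsto_iff.1 (tendsto_nhdsWithin_of_tendsto_nhds (s := {g | ν.N g < ρ})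
        (tendsto_id (x := 𝓝 g₀)))).const_mul Λ.C
      simpa using this
  · show ν.N 1 < ρ
    rwa [ν.N_one]
  · have := hinj.leftInvOn_invFunOn (Metric.mem_ball_self hε)
    rwa [Λ.exp_zero] at this

end LieA

end Crest.Agent.R217
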