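import Crest.Agent.R217.HDefs

/-! Row 217, task `R217/HPow`: power estimates for a Gleason norm, limits along ultrafilters. -/

set_option autoImplicit false

namespace Crest.Agent.R217

open Filter Topology

universe u

variable {G : Type u} [Group G] [TopologicalSpace G] [IsTopologicalGroup G] (ν : GN G)

namespace GN

omit [IsTopologicalGroup G] in
theorem N_pow_le (g : G) (n : ℕ) : ν.N (g ^ n) ≤ n * ν.N g := by
  induction n with
  | zero => simp [ν.N_one]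
  | succ n ih =>
    rw [pow_succ]
    have := ν.N_mul (g ^ n) g
    push_cast
    linarith

omit [IsTopologicalGroup G] in
theorem hpow_N_zpow_le (g : G) (m : ℤ) : ν.N (g ^ m) ≤ |(m : ℝ)| * ν.N g := by
  obtain ⟨n, rfl | rfl⟩ := m.eq_nat_or_neg
  · simpa using ν.N_pow_le g n
  · simpa [ν.N_inv] using ν.N_pow_le g n

omit [IsTopologicalGroup G] in
theorem hpow_tendsto_one {α : Type*} {l : Filter α} {f : α → G} :
    Tendsto f l (𝓝 1) ↔ Tendsto (fun a => ν.N (f a)) l (𝓝 0) := by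
  rw [ν.basis.tendsto_right_iff, Metric.tendsto_nhds]
  refine forall₂_congr fun ε _ => ?_
  simp only [Real.dist_eq, sub_zero, Set.mem_ofPred_eq, abs_of_nonneg (ν.nonneg _)]

theorem hpow_tendsto_iff {α : Type*} {l : Filter α} {f : α → G} {g : G} :
    Tendsto f l (𝓝 g) ↔ Tendsto (fun a => ν.N (g⁻¹ * f a)) l (𝓝 0) := by
  rw [← ν.hpow_tendsto_one]
  constructor
  · intro h
    simpa using h.const_mul g⁻¹
  · intro h
    simpa using h.const_mul g

theorem continuous_N : Continuous ν.N := by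
  refine continuous_iff_continuousAt.2 fun g => ?_
  have h : Tendsto (fun a => ν.N (g⁻¹ * a)) (𝓝 g) (𝓝 0) := ν.hpow_tendsto_iff.1 tendsto_id
  refine tendsto_iff_dist_tendsto_zero.2 (squeeze_zero (fun _ => dist_nonneg) (fun a => ?_) h)
  have h1 := ν.N_mul g (g⁻¹ * a)
  have h2 := ν.N_mul a (g⁻¹ * a)⁻¹
  rw [ν.N_inv] at h2
  simp only [mul_inv_cancel_left, mul_inv_rev, inv_inv] at h1 h2
  rw [Real.dist_eq, abs_le]
  constructor <;> linarith

omit [IsTopologicalGroup G] in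
theorem eq_one_of_N [T2Space G] {g : G} (h : ν.N g = 0) : g = 1 := by
  have : Tendsto (fun _ : Unit => g) (pure ()) (𝓝 1) := by
    rw [ν.hpow_tendsto_one, h]
    exact tendsto_const_nhds
  exact tendsto_nhds_unique tendsto_const_nhds this

theorem tendsto_iff {α : Type*} {l : Filter α} {f : α → G} {g : G} :
    Tendsto f l (𝓝 g) ↔ Tendsto (fun a => ν.N (g⁻¹ * f a)) l (𝓝 0) :=
  ν.hpow_tendsto_iff

theorem exists_compact [LocallyCompactSpace G] [T2Space G] :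
    ∃ r : ℝ, 0 < r ∧ IsCompact {g | ν.N g ≤ r} := by
  obtain ⟨K, hK, h1⟩ := exists_compact_mem_nhds (1 : G)
  obtain ⟨ε, hε, h⟩ := ν.basis.mem_iff.1 h1
  refine ⟨ε / 2, by positivity, hK.of_isClosed_subset (isClosed_le ν.continuous_N continuous_const)
    fun g hg => h ?_⟩
  simp only [Set.mem_ofPred_eq] at hg ⊢
  linarith

omit [IsTopologicalGroup G] in
theorem hpow_N_conj_le {g h : G} (hg : ν.N g ≤ 1 / ν.C) (hh : ν.N h ≤ 1 / ν.C) :
    ν.N (g⁻¹ * h * g) ≤ ν.N h + ν.C * ν.N h * ν.N g := by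
  have h1 := ν.comm h g hh hg
  have h2 := ν.N_mul h (h⁻¹ * g⁻¹ * h * g)
  rw [show h * (h⁻¹ * g⁻¹ * h * g) = g⁻¹ * h * g by group] at h2
  linarith

omit [IsTopologicalGroup G] in
/-- `g⁻¹ h g = h * (h⁻¹ g⁻¹ h g)` -/
theorem N_conj_le {g h : G} (hg : ν.N g ≤ 1 / ν.C) (hh : ν.N h ≤ 1 / ν.C) :
    ν.N (g⁻¹ * h * g) ≤ 2 * ν.N h := by
  have h1 := ν.hpow_N_conj_le hg hh
  have hC : 0 < ν.C := lt_of_lt_of_le one_pos ν.one_le
  have h2 : ν.C * ν.N g ≤ 1 := by rwa [le_div_iff₀' hC] at hg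
  have h3 := ν.nonneg h
  nlinarith

omit [IsTopologicalGroup G] in
/-- `(g h)^(n+1)⁻¹ g^(n+1) h^(n+1) = h⁻¹ [ (g h)^(-n) (g⁻¹ ...)]`: with `a_n = ((g h)^n)⁻¹ g^n h^n` one has
`a_{n+1} = (g h)⁻¹ a_n (g h) · k⁻¹ [..] k`-type recursion `a_{n+1} = (g h)⁻¹ a_n (g h) · h⁻¹ (g⁻¹ h^(-n) g h^n) h`;
`N ((g h)⁻¹ a (g h)) ≤ (1 + C N (g h)) N a`, and `(1 + 2 C δ / n)^n ≤ e^{2 C δ}`. -/
theorem pow_mul_dist : ∃ C δ : ℝ, 1 ≤ C ∧ 0 < δ ∧ ∀ (g h : G) (n : ℕ), n * ν.N g ≤ δ → n * ν.N h ≤ δ →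
    ν.N (((g * h) ^ n)⁻¹ * (g ^ n * h ^ n)) ≤ C * (n * ν.N g) * (n * ν.N h) := by
  have hC1 := ν.one_le
  have hC : 0 < ν.C := lt_of_lt_of_le one_pos ν.one_le
  refine ⟨2 * ν.C, 1 / (4 * ν.C), by linarith, by positivity, fun g h n => ?_⟩
  have hα := ν.nonneg g
  have hβ := ν.nonneg h
  have hδ : 1 / ν.C = 4 * (1 / (4 * ν.C)) := by field_simp
  have hδ' : ν.C * (1 / (4 * ν.C)) = 1 / 4 := by field_simp
  have hδ0 : 0 < 1 / (4 * ν.C) := by positivity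
  generalize 1 / (4 * ν.C) = δ at hδ hδ' hδ0
  induction n with
  | zero => intro _ _; simp [ν.N_one]
  | succ n ih =>
    intro h1 h2
    push_cast at h1 h2 ⊢
    have hn : (0 : ℝ) ≤ n := n.cast_nonneg
    have h1' : n * ν.N g ≤ δ := by linarith
    have h2' : n * ν.N h ≤ δ := by linarith
    have hg : ν.N g ≤ δ := by nlinarith
    have hh : ν.N h ≤ δ := by nlinarith
    have ih' := ih h1' h2'
    have e : ((g * h) ^ (n + 1))⁻¹ * (g ^ (n + 1) * h ^ (n + 1)) =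
        ((g * h)⁻¹ * (((g * h) ^ n)⁻¹ * (g ^ n * h ^ n)) * (g * h)) *
          (h⁻¹ * (g⁻¹ * (h ^ n)⁻¹ * g * h ^ n) * h) := by
      rw [pow_succ (g * h), pow_succ g, pow_succ h]; group
    have hgh := ν.N_mul g h
    have hgn := ν.N_pow_le g n
    have hhn := ν.N_pow_le h n
    have hghn := ν.N_pow_le (g * h) n
    have ha : ν.N (((g * h) ^ n)⁻¹ * (g ^ n * h ^ n)) ≤ 1 / ν.C := by
      have a1 := ν.N_mul ((g * h) ^ n)⁻¹ (g ^ n * h ^ n)
      have a2 := ν.N_mul (g ^ n) (h ^ n)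
      rw [ν.N_inv] at a1
      have a3 := mul_le_mul_of_nonneg_left hgh hn
      rw [hδ]; linarith
    have hc := ν.comm g (h ^ n) (by rw [hδ]; linarith) (by rw [hδ]; linarith)
    have hc1 : ν.C * ν.N g * ν.N (h ^ n) ≤ ν.C * ν.N g * (n * ν.N h) :=
      mul_le_mul_of_nonneg_left hhn (by positivity)
    have hc2 : ν.N (g⁻¹ * (h ^ n)⁻¹ * g * h ^ n) ≤ 1 / ν.C := by
      have : ν.C * ν.N g * (n * ν.N h) ≤ ν.C * δ * δ :=
        mul_le_mul (mul_le_mul_of_nonneg_left hg hC.le) h2' (by positivity) (by positivity)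
      rw [hδ'] at this
      rw [hδ]; linarith
    have b1 := ν.hpow_N_conj_le (g := g * h) (by rw [hδ]; linarith) ha
    have b2 := ν.N_conj_le (g := h) (by rw [hδ]; linarith) hc2
    rw [e]
    refine (ν.N_mul _ _).trans ?_
    have ha0 := ν.nonneg (((g * h) ^ n)⁻¹ * (g ^ n * h ^ n))
    generalize ν.N (((g * h) ^ n)⁻¹ * (g ^ n * h ^ n)) = A at *
    have b3 : ν.C * A * ν.N (g * h) ≤
        ν.C * (2 * ν.C * (n * ν.N g) * (n * ν.N h)) * (ν.N g + ν.N h) :=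
      mul_le_mul (mul_le_mul_of_nonneg_left ih' hC.le) hgh (ν.nonneg _) (by positivity)
    have b4 : ν.C * (n * (ν.N g + ν.N h)) ≤ 1 := by
      have : ν.C * (n * (ν.N g + ν.N h)) ≤ ν.C * (2 * δ) :=
        mul_le_mul_of_nonneg_left (by linarith) hC.le
      linarith
    have b5 : ν.C * (2 * ν.C * (n * ν.N g) * (n * ν.N h)) * (ν.N g + ν.N h) ≤
        2 * ν.C * n * ν.N g * ν.N h := by
      have : ν.C * (2 * ν.C * (n * ν.N g) * (n * ν.N h)) * (ν.N g + ν.N h) =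
        (2 * ν.C * n * ν.N g * ν.N h) * (ν.C * (n * (ν.N g + ν.N h))) := by ring
      rw [this]
      exact mul_le_of_le_one_right (by positivity) b4
    have b6 : 0 ≤ 2 * ν.C * ν.N g * ν.N h := by positivity
    nlinarith

omit [IsTopologicalGroup G] in
/-- write `h = g k`; `pow_mul_dist` for `g, k`: `g^(-n) h^n` is within `C δ n N k` (after a small
conjugation-free triangle inequality `N (x⁻¹ z) ≤ N (x⁻¹ y) + N (y⁻¹ z)`) of `k^n`; then `escape` -/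
theorem pow_dist : ∃ C δ : ℝ, 1 ≤ C ∧ 0 < δ ∧ ∀ (g h : G) (n : ℕ), n * ν.N g ≤ δ → n * ν.N h ≤ δ →
    ν.N ((g ^ n)⁻¹ * h ^ n) ≤ C * (n * ν.N (g⁻¹ * h)) ∧
      n * ν.N (g⁻¹ * h) ≤ C * ν.N ((g ^ n)⁻¹ * h ^ n) := by
  obtain ⟨C₀, δ₀, hC₀, hδ₀, H⟩ := ν.pow_mul_dist
  have hC1 := ν.one_le
  have hC : 0 < ν.C := lt_of_lt_of_le one_pos ν.one_le
  refine ⟨2 * ν.C, min (δ₀ / 2) (1 / (2 * ν.C * C₀)), by linarith, by positivity,
    fun g h n h1 h2 => ?_⟩
  rw [le_min_iff] at h1 h2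
  have hn : (0 : ℝ) ≤ n := n.cast_nonneg
  have hk : n * ν.N (g⁻¹ * h) ≤ n * ν.N g + n * ν.N h := by
    have := ν.N_mul g⁻¹ h
    rw [ν.N_inv] at this
    nlinarith
  have a1 := H g (g⁻¹ * h) n (by linarith [h1.1]) (by linarith [h1.1, h2.1])
  rw [mul_inv_cancel_left] at a1
  have hk0 : 0 ≤ n * ν.N (g⁻¹ * h) := mul_nonneg hn (ν.nonneg _)
  have a2 : ν.C * C₀ * (n * ν.N g) ≤ 1 / 2 := by
    have := h1.2
    rw [le_div_iff₀ (by positivity)] at this
    linarith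
  have a3 : 1 / (2 * ν.C * C₀) + 1 / (2 * ν.C * C₀) ≤ 1 / ν.C := by
    rw [← two_mul, mul_one_div, div_le_div_iff₀ (by positivity) hC]
    nlinarith
  have a4 := ν.escape (g⁻¹ * h) n (by linarith [h1.2, h2.2])
  have a5 := ν.N_pow_le (g⁻¹ * h) n
  have a6 := ν.N_mul ((g⁻¹ * h) ^ n) ((h ^ n)⁻¹ * (g ^ n * (g⁻¹ * h) ^ n))⁻¹
  have a7 := ν.N_mul ((g ^ n)⁻¹ * h ^ n) ((h ^ n)⁻¹ * (g ^ n * (g⁻¹ * h) ^ n))
  rw [ν.N_inv, show (g⁻¹ * h) ^ n * ((h ^ n)⁻¹ * (g ^ n * (g⁻¹ * h) ^ n))⁻¹ = (g ^ n)⁻¹ * h ^ n by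
    group] at a6
  rw [show (g ^ n)⁻¹ * h ^ n * ((h ^ n)⁻¹ * (g ^ n * (g⁻¹ * h) ^ n)) = (g⁻¹ * h) ^ n by group] at a7
  have a8 : ν.C * ν.N ((h ^ n)⁻¹ * (g ^ n * (g⁻¹ * h) ^ n)) ≤ 1 / 2 * (n * ν.N (g⁻¹ * h)) := by
    have b1 := mul_le_mul_of_nonneg_left a1 hC.le
    have b2 := mul_le_mul_of_nonneg_right a2 hk0
    nlinarith
  have a9 := ν.nonneg ((h ^ n)⁻¹ * (g ^ n * (g⁻¹ * h) ^ n))
  constructor
  · nlinarith
  · have := mul_le_mul_of_nonneg_left a7 hC.le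
    nlinarith

/-- **Limits of discrete one-parameter groups.**  For `|t|` small the elements `g a ^ ⌊t n a⌋` stay in a
compact ball; define `φ t` as the limit along the ultrafilter of `g a ^ ⌊t * n a⌋` (`zpow`); it exists for all `t`
(a product of boundedly many elements of the compact ball).  `φ (s+t) = φ s φ t` as the exponents differ by at most one and
`N (g a) → 0`; `N (φ t) ≤ B |t|` gives continuity. -/
theorem exists_limit [LocallyCompactSpace G] [T2Space G] {α : Type} (𝒰 : Ultrafilter α) (g : α → G)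
    (n : α → ℕ) (hn : Tendsto n 𝒰 atTop) {B : ℝ} (hB : ∀ᶠ a in 𝒰, n a * ν.N (g a) ≤ B) :
    ∃ φ : OP G, ∀ t : ℝ, Tendsto (fun a => g a ^ ⌊t * n a⌋) 𝒰 (𝓝 (φ.toFun t)) ∧
      ν.N (φ.toFun t) ≤ B * |t| := by
  have hn' : Tendsto (fun a => (n a : ℝ)) 𝒰 atTop := tendsto_natCast_atTop_atTop.comp hn
  have hB0 : 0 ≤ B := by
    obtain ⟨a, ha⟩ := hB.exists
    exact le_trans (mul_nonneg (n a).cast_nonneg (ν.nonneg _)) ha
  have hg : Tendsto (fun a => ν.N (g a)) 𝒰 (𝓝 0) := by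
    refine squeeze_zero' (Eventually.of_forall fun a => ν.nonneg _) ?_
      (tendsto_const_nhds.div_atTop hn' (a := B))
    filter_upwards [hB, hn'.eventually_gt_atTop 0] with a ha ha'
    rwa [le_div_iff₀' ha']
  have hbd : ∀ t : ℝ, ∀ᶠ a in 𝒰, ν.N (g a ^ ⌊t * n a⌋) ≤ B * |t| + ν.N (g a) := by
    intro t
    filter_upwards [hB] with a ha
    refine (ν.hpow_N_zpow_le _ _).trans ?_
    have h1 : |((⌊t * n a⌋ : ℤ) : ℝ)| ≤ |t| * n a + 1 := by
      have h2 := Int.floor_le (t * n a)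
      have h3 := Int.lt_floor_add_one (t * n a)
      have h4 : |t * n a| = |t| * n a := by rw [abs_mul, Nat.abs_cast]
      have h5 := le_abs_self (t * n a)
      have h6 := neg_abs_le (t * n a)
      rw [abs_le]
      constructor <;> linarith
    have h2 := mul_le_mul_of_nonneg_right h1 (ν.nonneg (g a))
    have h3 := mul_le_mul_of_nonneg_left ha (abs_nonneg t)
    nlinarith
  have hadd : ∀ (s t : ℝ) (x y : G), Tendsto (fun a => g a ^ ⌊s * n a⌋) 𝒰 (𝓝 x) →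
      Tendsto (fun a => g a ^ ⌊t * n a⌋) 𝒰 (𝓝 y) →
      Tendsto (fun a => g a ^ ⌊(s + t) * n a⌋) 𝒰 (𝓝 (x * y)) := by
    intro s t x y hx hy
    have hz : Tendsto (fun a => g a ^ (⌊(s + t) * n a⌋ - ⌊s * n a⌋ - ⌊t * n a⌋)) 𝒰 (𝓝 1) := by
      rw [ν.hpow_tendsto_one]
      refine squeeze_zero (fun a => ν.nonneg _) (fun a => ?_) hg
      refine (ν.hpow_N_zpow_le _ _).trans (mul_le_of_le_one_left (ν.nonneg _) ?_)
      have h1 := Int.le_floor_add (s * n a) (t * n a)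
      have h2 := Int.le_floor_add_floor (s * n a) (t * n a)
      rw [← add_mul] at h1 h2
      have h3 : |⌊(s + t) * n a⌋ - ⌊s * n a⌋ - ⌊t * n a⌋| ≤ 1 := by
        rw [abs_le]; constructor <;> omega
      exact_mod_cast h3
    have := (hx.mul hy).mul hz
    rw [mul_one] at this
    refine this.congr fun a => ?_
    rw [← zpow_add, ← zpow_add]
    congr 1
    ring
  obtain ⟨r, hr, hK⟩ := ν.exists_compact
  have hsmall : ∀ t : ℝ, B * |t| < r → ∃ x, Tendsto (fun a => g a ^ ⌊t * n a⌋) 𝒰 (𝓝 x) := by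
    intro t ht
    obtain ⟨x, -, hx⟩ := hK.ultrafilter_le_nhds (𝒰.map fun a => g a ^ ⌊t * n a⌋) (by
      rw [le_principal_iff, Ultrafilter.coe_map, mem_map]
      filter_upwards [hbd t, hg.eventually (gt_mem_nhds (sub_pos.2 ht))] with a h1 h2
      simp only [Set.mem_preimage, Set.mem_ofPred_eq]
      linarith)
    exact ⟨x, hx⟩
  have hall : ∀ t : ℝ, ∃ x, Tendsto (fun a => g a ^ ⌊t * n a⌋) 𝒰 (𝓝 x) := by
    intro t
    obtain ⟨k, hk⟩ := exists_nat_gt (B * |t| / r)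
    have hk0 : (0 : ℝ) < k := lt_of_le_of_lt (by positivity) hk
    obtain ⟨x, hx⟩ := hsmall (t / k) (by
      rw [abs_div, Nat.abs_cast, ← mul_div_assoc, div_lt_iff₀ hk0]
      rw [div_lt_iff₀ hr] at hk
      linarith)
    have : ∀ j : ℕ, Tendsto (fun a => g a ^ ⌊(j * (t / k)) * n a⌋) 𝒰 (𝓝 (x ^ j)) := by
      intro j
      induction j with
      | zero => simp
      | succ j ih =>
        have := hadd _ _ _ _ ih hx
        rw [← pow_succ] at this
        convert this using 5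
        push_cast; ring
    have h2 := this k
    rw [mul_div_cancel₀ _ hk0.ne'] at h2
    exact ⟨_, h2⟩
  choose φ hφ using hall
  have hφadd : ∀ s t, φ (s + t) = φ s * φ t := fun s t =>
    tendsto_nhds_unique (hφ (s + t)) (hadd s t _ _ (hφ s) (hφ t))
  have hφN : ∀ t, ν.N (φ t) ≤ B * |t| := by
    intro t
    have h1 := (ν.continuous_N.tendsto _).comp (hφ t)
    have h2 := hg.const_add (B * |t|)
    rw [add_zero] at h2
    exact le_of_tendsto_of_tendsto h1 h2 (hbd t)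
  refine ⟨⟨φ, continuous_iff_continuousAt.2 fun s => ?_, hφadd⟩, fun t => ⟨hφ t, hφN t⟩⟩
  refine ν.tendsto_iff.2 (squeeze_zero (fun t => ν.nonneg _) (g := fun t => B * |t - s|)
    (fun t => ?_) ?_)
  · have := hφadd s (t - s)
    rw [add_sub_cancel] at this
    rw [this, inv_mul_cancel_left]
    exact hφN _
  · have : Continuous fun t : ℝ => B * |t - s| := by fun_prop
    simpa using this.tendsto s

end GN

end Crest.Agent.R217
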