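import Crest.Agent.R217.HConv

/-! Row 217, task `R217/HTri`: the approximate triangle inequality for the escape norm. -/

set_option autoImplicit false

namespace Crest.Agent.R217

open Filter Topology

universe u

variable {G : Type u} [Group G] [TopologicalSpace G] [IsTopologicalGroup G] [T2Space G]
  [LocallyCompactSpace G] [SecondCountableTopology G]

omit [T2Space G] [LocallyCompactSpace G] [SecondCountableTopology G] in
/-- bump functions which are Lipschitz for a symmetric weight `w` -/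
theorem tri_bump {U : Set G} (hUo : IsOpen U) (h1 : (1 : G) ∈ U) (w : G → ℝ) (w0 : ∀ g, 0 ≤ w g)
    (winv : ∀ g, w g⁻¹ = w g) (hw : ∀ l : List G, (l.map w).sum < 1 → l.prod ∈ U) :
    ∃ ψ : G → ℝ, LowerSemicontinuous ψ ∧ (∀ x, 0 ≤ ψ x ∧ ψ x ≤ 1) ∧ (∀ x ∈ U, ψ x = 1) ∧
      (∀ x, ψ x ≠ 0 → ∃ a ∈ U, ∃ b ∈ U, x = a * b) ∧ ∀ g x, |dlt g ψ x| ≤ w g := by
  let S : G → Set ℝ := fun x => {r | ∃ l : List G, l.prod⁻¹ * x ∈ U ∧ r = (l.map w).sum}
  have hne : ∀ x, (S x).Nonempty := fun x => ⟨_, [x], by simpa using h1, rfl⟩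
  have hS0 : ∀ x, ∀ r ∈ S x, 0 ≤ r := by
    rintro x _ ⟨l, -, rfl⟩
    refine List.sum_nonneg ?_
    intro r hr
    obtain ⟨g, -, rfl⟩ := List.mem_map.1 hr
    exact w0 g
  have hbdd : ∀ x, BddBelow (S x) := fun x => ⟨0, hS0 x⟩
  let d : G → ℝ := fun x => sInf (S x)
  have d0 : ∀ x, 0 ≤ d x := fun x => le_csInf (hne x) (hS0 x)
  have dle : ∀ x (l : List G), l.prod⁻¹ * x ∈ U → d x ≤ (l.map w).sum :=
    fun x l hl => csInf_le (hbdd x) ⟨l, hl, rfl⟩
  have dlt' : ∀ x s, d x < s → ∃ l : List G, l.prod⁻¹ * x ∈ U ∧ (l.map w).sum < s := by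
    intro x s hs
    obtain ⟨_, ⟨l, hl, rfl⟩, h⟩ := exists_lt_of_csInf_lt (hne x) hs
    exact ⟨l, hl, h⟩
  have dmul : ∀ g x, d (g * x) ≤ w g + d x := by
    intro g x
    rw [← sub_le_iff_le_add']
    refine le_csInf (hne x) ?_
    rintro _ ⟨l, hl, rfl⟩
    have := dle (g * x) (g :: l) (by simpa [mul_assoc] using hl)
    simp only [List.map_cons, List.sum_cons] at this
    linarith
  refine ⟨fun x => max 0 (1 - d x), ?_, fun x => ⟨le_max_left _ _, ?_⟩, fun x hx => ?_,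
    fun x hx => ?_, fun g x => ?_⟩
  · intro x t ht
    rcases lt_max_iff.1 ht with h | h
    · exact Eventually.of_forall fun y => lt_max_of_lt_left h
    · obtain ⟨l, hl, hs⟩ := dlt' x (1 - t) (by linarith)
      have hc : Continuous fun y : G => l.prod⁻¹ * y := by fun_prop
      filter_upwards [hc.continuousAt.preimage_mem_nhds (hUo.mem_nhds hl)] with y hy
      refine lt_max_of_lt_right ?_
      have := dle y l hy
      linarith
  · exact max_le zero_le_one (by linarith [d0 x])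
  · have h2 := dle x [] (by simpa using hx)
    simp only [List.map_nil, List.sum_nil] at h2
    have h3 : d x = 0 := le_antisymm h2 (d0 x)
    simp [h3]
  · have h2 : d x < 1 := by
      by_contra h
      exact hx (max_eq_left (by linarith [not_lt.1 h]))
    obtain ⟨l, hl, hs⟩ := dlt' x 1 h2
    exact ⟨l.prod, hw l hs, _, hl, by simp⟩
  · unfold dlt
    have h2 := dmul g⁻¹ x
    have h3 := dmul g (g⁻¹ * x)
    rw [winv] at h2
    rw [mul_inv_cancel_left] at h3
    beta_reduce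
    rw [max_comm 0 (1 - d x), max_comm 0 (1 - d (g⁻¹ * x))]
    refine (abs_max_sub_max_le_abs _ _ _).trans (abs_le.2 ⟨by linarith, by linarith⟩)

omit [T2Space G] [LocallyCompactSpace G] [SecondCountableTopology G] in
theorem tri_small (L : ℕ) : ∀ V ∈ 𝓝 (1 : G), ∃ W ∈ 𝓝 (1 : G),
    ∀ l : List G, l.length ≤ L → (∀ g ∈ l, g ∈ W) → l.prod ∈ V := by
  induction L with
  | zero =>
    intro V hV
    refine ⟨V, hV, fun l hl _ => ?_⟩
    rw [List.length_eq_zero_iff.1 (Nat.le_zero.1 hl)]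
    exact mem_of_mem_nhds hV
  | succ L ih =>
    intro V hV
    obtain ⟨V', hV', hVV⟩ := exists_nhds_one_split hV
    obtain ⟨W, hW, h⟩ := ih V' hV'
    refine ⟨W ∩ V', inter_mem hW hV', fun l hl hl' => ?_⟩
    cases l with
    | nil => exact mem_of_mem_nhds hV
    | cons g l =>
      rw [List.prod_cons]
      refine hVV _ (hl' g (by simp)).2 _ (h l (by simpa using hl) fun a ha => ?_)
      exact (hl' a (by simp [ha])).1

omit [T2Space G] [LocallyCompactSpace G] [SecondCountableTopology G] in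
/-- the slowly varying bump function -/
theorem tri_eta {U : Set G} (hUo : IsOpen U) (h1 : (1 : G) ∈ U) {L : ℕ} (hL : 1 ≤ L) :
    ∃ W ∈ 𝓝 (1 : G), ∃ η : G → ℝ, LowerSemicontinuous η ∧ (∀ x, 0 ≤ η x ∧ η x ≤ 1) ∧
      (∀ x ∈ U, η x = 1) ∧ (∀ x, η x ≠ 0 → ∃ a ∈ U, ∃ b ∈ U, x = a * b) ∧
      ∀ g ∈ W, ∀ x, |dlt g η x| ≤ 1 / L := by
  classical
  obtain ⟨W, hW, h⟩ := tri_small L U (hUo.mem_nhds h1)
  have hL' : (1 : ℝ) ≤ L := by exact_mod_cast hL
  have hL0 : (0 : ℝ) < 1 / L := by positivity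
  have hL1 : 1 / (L : ℝ) ≤ 1 := by rw [div_le_one (by linarith)]; exact hL'
  let w : G → ℝ := fun g => if g ∈ W ∧ g⁻¹ ∈ W then 1 / L else 1
  have hw : ∀ g, 1 / (L : ℝ) ≤ w g := fun g => by
    simp only [w]
    split_ifs
    · exact le_rfl
    · exact hL1
  obtain ⟨η, h2, h3, h4, h5, h6⟩ := tri_bump hUo h1 w (fun g => hL0.le.trans (hw g))
    (fun g => by simp only [w, inv_inv, and_comm]) (fun l hl => by
      refine h l ?_ fun g hg => ?_
      · have h2 : (l.map w).length • (1 / (L : ℝ)) ≤ (l.map w).sum :=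
          List.card_nsmul_le_sum _ _ fun r hr => by
            obtain ⟨g, -, rfl⟩ := List.mem_map.1 hr
            exact hw g
        rw [List.length_map, nsmul_eq_mul, mul_one_div] at h2
        have h3 := h2.trans_lt hl
        rw [div_lt_one (by linarith)] at h3
        exact_mod_cast h3.le
      · have h2 : w g ≤ (l.map w).sum :=
          List.single_le_sum (fun r hr => by
            obtain ⟨g, -, rfl⟩ := List.mem_map.1 hr
            exact hL0.le.trans (hw g)) _ (List.mem_map_of_mem hg)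
        by_contra h3
        have h4 : w g = 1 := if_neg fun h => h3 h.1
        linarith)
  refine ⟨W ∩ W⁻¹, inter_mem hW (inv_mem_nhds_one G hW), η, h2, h3, h4, h5, fun g hg x => ?_⟩
  have h7 : w g = 1 / L := if_pos ⟨hg.1, hg.2⟩
  rw [← h7]
  exact h6 g x

omit [TopologicalSpace G] [IsTopologicalGroup G] [T2Space G] [LocallyCompactSpace G]
  [SecondCountableTopology G] in
theorem tri_dlt_list (φ : G → ℝ) (v : G → ℝ) (h : ∀ g x, |dlt g φ x| ≤ v g) (l : List G) :
    ∀ x, |dlt l.prod φ x| ≤ (l.map v).sum := by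
  induction l with
  | nil => intro x; simp [dlt]
  | cons g l ih =>
    intro x
    rw [List.prod_cons, dlt_mul, List.map_cons, List.sum_cons]
    exact (abs_add_le _ _).trans (add_le_add (h g x) (ih _))

/-- the self-improving estimate -/
theorem tri_step {U : Set G} (hU : GoodNhd U) : ∃ A : ℝ, 1 ≤ A ∧ ∀ ε M : ℝ, 0 < ε → 1 ≤ M →
    (∀ l : List G, esc U l.prod ≤ M * (l.map fun g => esc U g + ε).sum) →
    ∀ l : List G, esc U l.prod ≤ (A + M / 2) * (l.map fun g => esc U g + ε).sum := by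
  obtain ⟨Q₀, hQ₀, hprod, hS⟩ := hU.ex
  have hUn : U ∈ 𝓝 (1 : G) := hU.isOpen.mem_nhds hU.one_mem
  let U2 : Set G := {x | ∃ a ∈ U, ∃ b ∈ U, x = a * b}
  have hU2 : U2 ⊆ Q₀ := by
    rintro _ ⟨a, ha, b, hb, rfl⟩
    simpa using hprod [a, b] (by simp) (by simp [ha, hb])
  have hUU2 : U ⊆ U2 := fun a ha => ⟨a, ha, 1, hU.one_mem, (mul_one a).symm⟩
  have hQ : IsCompact (closure U2) :=
    hQ₀.of_isClosed_subset isClosed_closure (closure_minimal hU2 hQ₀.isClosed)
  have hQQ : ∀ a ∈ closure U2, ∀ b ∈ closure U2, (a * b)⁻¹ ∈ Q₀ := by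
    intro a ha b hb
    rw [← hQ₀.isClosed.closure_eq]
    refine map_mem_closure₂ (f := fun a b : G => (a * b)⁻¹) (by fun_prop) ha hb ?_
    rintro _ ⟨a, ha, a', ha', rfl⟩ _ ⟨b, hb, b', hb', rfl⟩
    have := hprod [b'⁻¹, b⁻¹, a'⁻¹, a⁻¹] (by simp)
      (by simp [hU.inv_mem _ ha, hU.inv_mem _ ha', hU.inv_mem _ hb, hU.inv_mem _ hb'])
    simpa [mul_assoc] using this
  obtain ⟨c, M₀, hc, hM₀, hconv⟩ := exists_conv hUn hQ
  obtain ⟨C, hC, hesc⟩ := esc_le_of_dlt hU hQ₀ hS hQQ hc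
  obtain ⟨L, hL⟩ := exists_nat_ge (max 1 (2 * C * M₀))
  have hL1 : (1 : ℝ) ≤ L := (le_max_left _ _).trans hL
  have hL2 : 2 * C * M₀ ≤ L := (le_max_right _ _).trans hL
  obtain ⟨W, hW, η, η1, η2, η3, η4, η5⟩ :=
    tri_eta hU.isOpen hU.one_mem (L := L) (by exact_mod_cast hL1)
  have hY : IsCompact ((fun p : G × G => p.1 * p.2) '' (closure U2 ×ˢ closure U2)) :=
    (hQ.prod hQ).image (by fun_prop)
  have htube : ∀ᶠ h in 𝓝 (1 : G),
      ∀ y ∈ (fun p : G × G => p.1 * p.2) '' (closure U2 ×ˢ closure U2), y⁻¹ * h * y ∈ W := by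
    refine hY.eventually_forall_of_forall_eventually fun y _ => ?_
    have hc : Continuous fun z : G × G => z.2⁻¹ * z.1 * z.2 := by fun_prop
    refine hc.continuousAt.preimage_mem_nhds ?_
    simpa using hW
  obtain ⟨V, hV, hVU, hVW⟩ : ∃ V ∈ 𝓝 (1 : G), V ⊆ U ∧ ∀ h ∈ V,
      ∀ y ∈ (fun p : G × G => p.1 * p.2) '' (closure U2 ×ˢ closure U2), y⁻¹ * h * y ∈ W :=
    ⟨_, inter_mem hUn htube, Set.inter_subset_left, fun h hh => hh.2⟩
  obtain ⟨CL, hCL, hVesc⟩ := esc_le_mul hQ₀ hS hV hU.one_mem (hUU2.trans hU2)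
  refine ⟨2 * C * M₀ * CL + 1,
    by nlinarith [mul_pos (mul_pos (by linarith : 0 < C) hM₀) (by linarith : 0 < CL)],
    fun ε M hε hM hP l => ?_⟩
  have hw0 : ∀ g, 0 < esc U g + ε := fun g => by linarith [esc_nonneg U g]
  obtain ⟨ψ, ψ1, ψ2, ψ3, ψ4, ψ5⟩ := tri_bump hU.isOpen hU.one_mem (fun g => M * (esc U g + ε))
    (fun g => mul_nonneg (by linarith) (hw0 g).le) (fun g => by rw [esc_inv hU.inv_mem])
    (fun l hl => by
      rw [List.sum_map_mul_left] at hl
      have := pow_mem_of_esc hU.one_mem (g := l.prod) (i := 1)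
        (by simpa using (hP l).trans_lt hl)
      simpa using this)
  have hoff : ∀ θ : G → ℝ, (∀ x, θ x ≠ 0 → ∃ a ∈ U, ∃ b ∈ U, x = a * b) →
      ∀ x ∉ closure U2, θ x = 0 := fun θ hθ x hx => by
    by_contra h
    exact hx (subset_closure (hθ x h))
  obtain ⟨φ, φ1, φ2, φ3, -, φ5⟩ :=
    hconv ψ η ψ1 η1 ψ2 η2 ψ3 η3 (hoff ψ ψ4) (hoff η η4)
  have hb : ∀ h x, |dlt h φ x| ≤ M₀ := fun h x => by
    have := φ3 h 1 (fun x => by
      unfold dlt
      exact abs_le.2 ⟨by linarith [ψ2 (h⁻¹ * x), ψ2 x], by linarith [ψ2 (h⁻¹ * x), ψ2 x]⟩) x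
    rwa [mul_one] at this
  have hkey : ∀ g x, |dlt g φ x| ≤ (2 * M₀ * CL + M₀ * M / L) * (esc U g + ε) := by
    intro g x
    have hB : 0 ≤ M₀ * (M * (esc U g + ε)) * (1 / L) := by
      have := hw0 g
      positivity
    have h1 : (|dlt g φ x| - M₀ * (M * (esc U g + ε)) * (1 / L)) / (2 * M₀) ≤ esc V g := by
      refine le_csInf ⟨_, 0, fun i hi => ?_, rfl⟩ ?_
      · rw [Nat.le_zero.1 hi, pow_zero]
        exact mem_of_mem_nhds hV
      rintro _ ⟨n, hn, rfl⟩
      rw [div_le_iff₀ (by positivity), sub_le_iff_le_add]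
      rcases Nat.eq_zero_or_pos n with rfl | hn0
      · have := hb g x
        simp only [Nat.cast_zero, zero_add, div_one, one_mul]
        linarith
      · have hg : g ∈ closure U2 :=
          subset_closure (hUU2 (hVU (by simpa using hn 1 hn0)))
        have h1Q : (1 : G) ∈ closure U2 := subset_closure (hUU2 hU.one_mem)
        have h2 : ∀ i ∈ Finset.range n,
            |dlt (g ^ i) (dlt g φ) x| ≤ M₀ * (M * (esc U g + ε)) * (1 / L) := by
          intro i hi
          refine φ5 g (g ^ i) _ _ (ψ5 g) (fun y hy z => η5 _ ?_ z) x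
          refine hVW _ (hn i (Finset.mem_range.1 hi).le) y ?_
          rcases hy with hy | hy
          · exact ⟨(1, y), ⟨h1Q, hy⟩, one_mul y⟩
          · exact ⟨(g, g⁻¹ * y), ⟨hg, hy⟩, mul_inv_cancel_left g y⟩
        have h3 : |∑ i ∈ Finset.range n, dlt (g ^ i) (dlt g φ) x| ≤
            n * (M₀ * (M * (esc U g + ε)) * (1 / L)) := by
          refine (Finset.abs_sum_le_sum_abs _ _).trans ?_
          refine (Finset.sum_le_sum h2).trans ?_
          simp
        have h4 : (n : ℝ) * |dlt g φ x| ≤ M₀ + n * (M₀ * (M * (esc U g + ε)) * (1 / L)) := by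
          have h5 : (n : ℝ) * dlt g φ x =
              dlt (g ^ n) φ x - ∑ i ∈ Finset.range n, dlt (g ^ i) (dlt g φ) x := by
            rw [dlt_pow]; ring
          calc (n : ℝ) * |dlt g φ x| = |(n : ℝ) * dlt g φ x| := by
                rw [abs_mul, Nat.abs_cast]
            _ ≤ _ := by
                rw [h5]
                exact (abs_sub _ _).trans (add_le_add (hb _ _) h3)
        have hn1 : (1 : ℝ) ≤ n := by exact_mod_cast hn0
        have h6 : M₀ ≤ n * (1 / ((n : ℝ) + 1) * (2 * M₀)) := by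
          rw [← mul_assoc, mul_one_div, div_mul_eq_mul_div, le_div_iff₀ (by positivity)]
          nlinarith
        refine le_of_mul_le_mul_left ?_ (by linarith : (0 : ℝ) < n)
        rw [mul_add]
        linarith
    rw [div_le_iff₀ (by positivity), sub_le_iff_le_add] at h1
    have h2 : esc V g ≤ CL * (esc U g + ε) :=
      (hVesc g).trans (mul_le_mul_of_nonneg_left (by linarith) (by linarith))
    calc |dlt g φ x| ≤ _ := h1
      _ ≤ CL * (esc U g + ε) * (2 * M₀) + M₀ * (M * (esc U g + ε)) * (1 / L) := by gcongr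
      _ = _ := by ring
  have h1 := hesc φ φ1 φ2 l.prod _ (tri_dlt_list φ _ hkey l)
  rw [List.sum_map_mul_left, ← mul_assoc] at h1
  refine h1.trans (mul_le_mul_of_nonneg_right ?_ (List.sum_nonneg fun r hr => ?_))
  · have h2 : C * (M₀ * M / L) ≤ M / 2 := by
      rw [← mul_div_assoc, div_le_iff₀ (by linarith)]
      nlinarith
    nlinarith
  · obtain ⟨g, -, rfl⟩ := List.mem_map.1 hr
    exact (hw0 g).le

/-- (Tao, Prop. 5.1.? "approximate triangle inequality".)  Write `‖g‖ = esc U g`.  Fix `ε > 0`; let `M ≥ 1` be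
the least constant with `‖l.prod‖ ≤ M ∑ (‖g_i‖ + ε)` for all non-empty lists (`M ≤ max 1 (1/ε)`; take an `sInf`).  Put
`‖g‖_* = inf {∑ (‖g_i‖ + ε) | l.prod = g}` (subadditive, symmetric, `‖1‖_* = 0`, `‖g‖ ≤ M ‖g‖_*`,
`‖g‖_* ≤ ‖g‖ + ε`), `ψ x = sup_{y ∈ U} max 0 (1 - M ‖x y⁻¹‖_*)`... precisely
`ψ x = max 0 (1 - M * inf_{y ∈ U} ‖x y⁻¹‖_*)`: `= 1` on `U`, zero off `U U` (`M ‖g‖_* < 1 ⇒ g ∈ U`),
lower semicontinuous (`{t < ψ} = {‖·‖_* < s} U` is open), `|∂_g ψ| ≤ M ‖g‖_*`.  For `L ≥ 1` choose an open symmetric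
`U₁` with `U₁ ^ L ⊆ U`, `η x = max {1 - j / L | x ∈ U₁ ^ j U, j ≤ L} ∪ {0}`: `|∂_h η| ≤ 1 / L` for `h ∈ U₁`,
zero off `U U`.  `Q = closure (U U)`; `U₂ ⊆ U` a neighbourhood with `y⁻¹ U₂ y ⊆ U₁` for `y ∈ Q ∪ U Q`.
With `φ` from `exists_conv`: `|∂_h φ| ≤ 2 sup |φ| ≤ M₀ · 2` always (third clause with `b = 1`), and for `g` with `g^i ∈ U₂`, `i ≤ n`,
`dlt_pow` gives `|∂_g φ| ≤ M₀ / n + M₀ M ‖g‖_* / L`; with `esc U₂ ≤ C_L ‖·‖` this gives
`|∂_g φ| ≤ (C'_L + M₀ M / L) (‖g‖ + ε)` for all `g` (if `g ∉ U₂` then `esc U₂ g = 1`).  Sum along a list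
(`dlt_mul`), apply `esc_le_of_dlt`: `M ≤ C (C'_L + M₀ M / L)` with `C, M₀` independent of `L, ε`; choose
`L ≥ 2 C M₀`, so `M ≤ 2 C C'_L` independently of `ε`, and let `ε → 0`. -/
theorem GoodNhd.esc_tri {U : Set G} (hU : GoodNhd U) : ∃ C : ℝ, 1 ≤ C ∧ ∀ l : List G,
    esc U l.prod ≤ C * (l.map (esc U)).sum := by
  obtain ⟨A, hA, hstep⟩ := tri_step hU
  have hesc1 : esc U (1 : G) ≤ 0 := by
    refine ge_of_tendsto' tendsto_one_div_add_atTop_nhds_zero_nat fun n => ?_
    exact esc_le fun i _ => by simpa using hU.one_mem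
  have key : ∀ ε : ℝ, 0 < ε → ∀ l : List G,
      esc U l.prod ≤ 2 * A * (l.map fun g => esc U g + ε).sum := by
    intro ε hε
    have hs0 : ∀ l : List G, ∀ r ∈ l.map fun g => esc U g + ε, 0 ≤ r := fun l r hr => by
      obtain ⟨g, -, rfl⟩ := List.mem_map.1 hr
      linarith [esc_nonneg U g]
    let S : Set ℝ := {M | 1 ≤ M ∧ ∀ l : List G,
      esc U l.prod ≤ M * (l.map fun g => esc U g + ε).sum}
    have hcl : IsClosed S := by
      have : S = Set.Ici 1 ∩ ⋂ l : List G,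
          {M | esc U l.prod ≤ M * (l.map fun g => esc U g + ε).sum} := by
        ext M; simp [S]
      rw [this]
      exact isClosed_Ici.inter (isClosed_iInter fun l => isClosed_le (by fun_prop) (by fun_prop))
    have hne : S.Nonempty := by
      refine ⟨max 1 (1 / ε), le_max_left _ _, fun l => ?_⟩
      cases l with
      | nil => simpa using hesc1
      | cons g l =>
        have h1 : ε ≤ ((g :: l).map fun g => esc U g + ε).sum := by
          rw [List.map_cons, List.sum_cons]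
          linarith [esc_nonneg U g, List.sum_nonneg (hs0 l)]
        calc esc U (g :: l).prod ≤ 1 := esc_le_one hU.one_mem _
          _ = 1 / ε * ε := by field_simp
          _ ≤ _ := mul_le_mul (le_max_right _ _) h1 hε.le (by positivity)
    have hbdd : BddBelow S := ⟨1, fun M hM => hM.1⟩
    obtain ⟨h1, h2⟩ := hcl.csInf_mem hne hbdd
    have h3 : sInf S ≤ A + sInf S / 2 :=
      csInf_le hbdd ⟨by linarith, hstep ε _ hε h1 h2⟩
    intro l
    exact (h2 l).trans (mul_le_mul_of_nonneg_right (by linarith) (List.sum_nonneg (hs0 l)))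
  refine ⟨2 * A, by linarith, fun l => ?_⟩
  have hc : Continuous fun ε : ℝ => 2 * A * ((l.map (esc U)).sum + l.length * ε) := by fun_prop
  have h1 : Tendsto (fun ε : ℝ => 2 * A * ((l.map (esc U)).sum + l.length * ε)) (𝓝[>] 0)
      (𝓝 (2 * A * (l.map (esc U)).sum)) := by
    have := (hc.tendsto 0).mono_left (nhdsWithin_le_nhds (s := Set.Ioi 0))
    simpa using this
  refine ge_of_tendsto h1 ?_
  filter_upwards [self_mem_nhdsWithin] with ε hε
  have := key ε hε l
  rw [List.sum_map_add] at this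
  simpa using this

end Crest.Agent.R217
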